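import Crest.Agent.R163.Basic

/-!
# Row 163: `lam = 1`, `d ≤ 1` on the Poisson tree (extinction) (piece R163_LAM1)

`G v = min_a v a` is homogeneous, `0 ≤ G v ≤ mass v`, `G (v·r) ≥ G v * G r`. With `g n = Ex G (w n)`:
`1 ≥ g (n+1) ≥ ∑ p c (g n)^c = exp (-d (1 - g n)) ≥ exp (-(1 - g n))`, so `g` is nondecreasing and
its limit `g` satisfies `g ≥ exp (-(1-g))`, i.e. `g = 1`; and `fTV v ≤ mass v - G v`.
-/

set_option autoImplicit false

namespace Crest.Agent.R163

open Finset Filter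

variable {q : ℕ}

namespace Lam1Aux

/-- the minimum of a likelihood vector -/
noncomputable def G (v : Fin q → ℝ) : ℝ := ⨅ a, v a

theorem G_le (v : Fin q → ℝ) (a : Fin q) : G v ≤ v a :=
  ciInf_le (Set.finite_range v).bddBelow a

theorem G_nonneg (v : Fin q → ℝ) (hv : ∀ a, 0 ≤ v a) : 0 ≤ G v := Real.iInf_nonneg hv

theorem G_homog : Homog (G : (Fin q → ℝ) → ℝ) := by
  intro t v ht _
  exact (Real.mul_iInf_of_nonneg ht v).symm

theorem mass_eq (hq : 0 < q) (v : Fin q → ℝ) : (q : ℝ) * mass v = ∑ a, v a := by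
  have hq' : (q : ℝ) ≠ 0 := by exact_mod_cast hq.ne'
  unfold mass
  field_simp

theorem G_le_mass (hq : 0 < q) (v : Fin q → ℝ) : G v ≤ mass v := by
  have hq' : (0 : ℝ) < q := by exact_mod_cast hq
  have h : (q : ℝ) * G v ≤ q * mass v := by
    rw [mass_eq hq v]
    calc (q : ℝ) * G v = ∑ _a : Fin q, G v := by simp
      _ ≤ ∑ a, v a := Finset.sum_le_sum fun a _ => G_le v a
  exact le_of_mul_le_mul_left h hq'

theorem G_mbdd (hq : 0 < q) : MBdd (G : (Fin q → ℝ) → ℝ) :=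
  ⟨1, zero_le_one, fun v hv => by
    rw [abs_of_nonneg (G_nonneg v hv), one_mul]; exact G_le_mass hq v⟩

theorem G_mul (hq : 0 < q) (v r : Fin q → ℝ) (hv : ∀ a, 0 ≤ v a) (hr : ∀ a, 0 ≤ r a) :
    G v * G r ≤ G (fun a => v a * r a) := by
  haveI : Nonempty (Fin q) := ⟨⟨0, hq⟩⟩
  refine le_ciInf fun a => ?_
  exact mul_le_mul (G_le v a) (G_le r a) (G_nonneg r hr) (hv a)

theorem fTV_nonneg (v : Fin q → ℝ) : 0 ≤ fTV v := by
  unfold fTV
  positivity

theorem fTV_le (hq : 0 < q) (v : Fin q → ℝ) : fTV v ≤ mass v - G v := by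
  have hq' : (0 : ℝ) < q := by exact_mod_cast hq
  have h0 : ∑ a, (v a - mass v) = 0 := by
    rw [Finset.sum_sub_distrib, ← mass_eq hq v]
    simp
  have hGm : G v ≤ mass v := G_le_mass hq v
  have h1 : ∑ a, |v a - mass v| ≤ 2 * q * (mass v - G v) := by
    calc ∑ a, |v a - mass v| ≤ ∑ a, (2 * (mass v - G v) + (v a - mass v)) := by
          refine Finset.sum_le_sum fun a _ => ?_
          have := G_le v a
          rw [abs_le]
          constructor <;> linarith
      _ = 2 * q * (mass v - G v) := by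
          rw [Finset.sum_add_distrib, h0]
          simp
          ring
  unfold fTV
  calc 1 / (2 * (q : ℝ)) * ∑ a, |v a - mass v|
      ≤ 1 / (2 * (q : ℝ)) * (2 * q * (mass v - G v)) := by
        apply mul_le_mul_of_nonneg_left h1
        positivity
    _ = mass v - G v := by field_simp

theorem Ex_nonneg {ι : Type*} {w : ι → Fin q → ℝ} (hw : IsExp w) {F : (Fin q → ℝ) → ℝ}
    (hF : ∀ v : Fin q → ℝ, (∀ a, 0 ≤ v a) → 0 ≤ F v) : 0 ≤ Ex F w :=
  tsum_nonneg fun i => hF _ (hw.nonneg i)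

theorem Ex_G_le_one (hq : 0 < q) {ι : Type*} {w : ι → Fin q → ℝ} (hw : IsExp w) : Ex G w ≤ 1 := by
  rw [← (hw.hasSum_mass hq).tsum_eq]
  exact (hw.summable hq (G_mbdd hq)).tsum_le_tsum (fun i => G_le_mass hq _)
    (hw.hasSum_mass hq).summable

theorem Ex_G_mul (hq : 0 < q) {ι κ : Type*} {P : κ → Fin q → ℝ} (hP : IsExp P)
    {Q : ι → Fin q → ℝ} (hQ : IsExp Q) : Ex G P * Ex G Q ≤ Ex G (mul P Q) := by
  have sP := hP.summable hq (G_mbdd hq)
  have sQ := hQ.summable hq (G_mbdd hq)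
  have nP : Summable (fun k => ‖G (P k)‖) := sP.norm
  have nQ : Summable (fun k => ‖G (Q k)‖) := sQ.norm
  unfold Ex
  rw [tsum_mul_tsum_of_summable_norm nP nQ]
  refine Summable.tsum_le_tsum (fun p => ?_) ?_ ((isExp_mul hP hQ).summable hq (G_mbdd hq))
  · exact G_mul hq _ _ (hP.nonneg p.1) (hQ.nonneg p.2)
  · exact (summable_mul_of_summable_norm nP nQ)

theorem Ex_G_pw (hq : 0 < q) {ι : Type*} {w : ι → Fin q → ℝ} (hw : IsExp w) (c : ℕ) :
    Ex G w ^ c ≤ Ex G (pw w c) := by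
  haveI : Nonempty (Fin q) := ⟨⟨0, hq⟩⟩
  induction c with
  | zero =>
    rw [Ex_pw_zero, pow_zero]
    unfold G
    rw [ciInf_const]
  | succ c ih =>
    rw [Ex_pw_succ, pow_succ]
    calc Ex G w ^ c * Ex G w ≤ Ex G (pw w c) * Ex G w :=
          mul_le_mul_of_nonneg_right ih (Ex_nonneg hw G_nonneg)
      _ ≤ _ := Ex_G_mul hq (isExp_pw hw c) hw

theorem ch_one {ι : Type*} (w : ι → Fin q → ℝ) : ch 1 w = w := by
  funext i a
  simp [ch]

theorem hasSum_poisson (d g : ℝ) :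
    HasSum (fun c : ℕ => Real.exp (-d) * d ^ c / Nat.factorial c * g ^ c)
      (Real.exp (-(d * (1 - g)))) := by
  have h := NormedSpace.expSeries_div_hasSum_exp (𝔸 := ℝ) (d * g)
  rw [← Real.exp_eq_exp_ℝ] at h
  have h2 := h.mul_left (Real.exp (-d))
  rw [← Real.exp_add] at h2
  have e : -d + d * g = -(d * (1 - g)) := by ring
  rw [e] at h2
  refine h2.congr_fun ?_ |> fun h => h
  intro c
  rw [mul_pow]
  ring

theorem step (hq : 1 < q) {d : ℝ} (hd0 : 0 ≤ d) (hd : d ≤ 1) {p : ℕ → ℝ}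
    (hp : ∀ c, p c = Real.exp (-d) * d ^ c / Nat.factorial c)
    {ι : ℕ → Type} {w : ∀ n, ι n → Fin q → ℝ} (hw : IsProcess q 1 p ι w) (n : ℕ) :
    Real.exp (-(1 - Ex G (w n))) ≤ Ex G (w (n + 1)) := by
  have hq0 : 0 < q := by omega
  have hE := hw.isExp n
  have hg1 := Ex_G_le_one hq0 hE
  rw [hw.succ n G G_homog (G_mbdd hq0), ch_one]
  have hp0 : ∀ c, 0 ≤ p c := fun c => by rw [hp]; positivity
  have hs : HasSum (fun c => p c * Ex G (w n) ^ c) (Real.exp (-(d * (1 - Ex G (w n))))) := by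
    simp only [hp]
    exact hasSum_poisson d _
  have hsp : Summable p := by
    have := hasSum_poisson d 1
    simp only [one_pow, mul_one] at this
    have e : p = fun c : ℕ => Real.exp (-d) * d ^ c / Nat.factorial c := funext hp
    rw [e]
    exact this.summable
  have hs2 : Summable (fun c => p c * Ex G (pw (w n) c)) := by
    refine Summable.of_nonneg_of_le (fun c => mul_nonneg (hp0 c)
      (Ex_nonneg (isExp_pw hE c) G_nonneg)) (fun c => ?_) hsp
    calc p c * Ex G (pw (w n) c) ≤ p c * 1 :=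
          mul_le_mul_of_nonneg_left (Ex_G_le_one hq0 (isExp_pw hE c)) (hp0 c)
      _ = p c := mul_one _
  calc Real.exp (-(1 - Ex G (w n))) ≤ Real.exp (-(d * (1 - Ex G (w n)))) := by
        apply Real.exp_le_exp.2
        nlinarith
    _ = ∑' c, p c * Ex G (w n) ^ c := hs.tsum_eq.symm
    _ ≤ _ := hs.summable.tsum_le_tsum
        (fun c => mul_le_mul_of_nonneg_left (Ex_G_pw hq0 hE c) (hp0 c)) hs2

end Lam1Aux

open Lam1Aux

/-- piece R163_LAM1 -/
theorem lam_one (hq : 1 < q) {d : ℝ} (hd0 : 0 ≤ d) (hd : d ≤ 1) {p : ℕ → ℝ}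
    (hp : ∀ c, p c = Real.exp (-d) * d ^ c / Nat.factorial c)
    {ι : ℕ → Type} {w : ∀ n, ι n → Fin q → ℝ} (hw : IsProcess q 1 p ι w) :
    Tendsto (fun n => Ex fTV (w n)) atTop (nhds 0) := by
  have hq0 : 0 < q := by omega
  have hmono : Monotone (fun n => Ex G (w n)) := by
    refine monotone_nat_of_le_succ fun n => ?_
    refine le_trans ?_ (step hq hd0 hd hp hw n)
    have := Real.add_one_le_exp (-(1 - Ex G (w n)))
    linarith
  have hbdd : BddAbove (Set.range fun n => Ex G (w n)) :=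
    ⟨1, by rintro _ ⟨n, rfl⟩; exact Ex_G_le_one hq0 (hw.isExp n)⟩
  have hlim := tendsto_atTop_ciSup hmono hbdd
  set L := ⨆ n, Ex G (w n) with hL
  have hL1 : L ≤ 1 := ciSup_le fun n => Ex_G_le_one hq0 (hw.isExp n)
  have hexp : Real.exp (-(1 - L)) ≤ L := by
    have h1 : Tendsto (fun n => Real.exp (-(1 - Ex G (w n)))) atTop (nhds (Real.exp (-(1 - L)))) :=
      (Real.continuous_exp.tendsto _).comp ((hlim.const_sub 1).neg)
    have h2 : Tendsto (fun n => Ex G (w (n + 1))) atTop (nhds L) :=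
      hlim.comp (tendsto_add_atTop_nat 1)
    exact le_of_tendsto_of_tendsto' h1 h2 fun n => step hq hd0 hd hp hw n
  have hLe : L = 1 := by
    by_contra hne
    have hne' : -(1 - L) ≠ 0 := by
      intro h
      apply hne
      linarith
    have := Real.add_one_lt_exp hne'
    linarith
  have hup : ∀ n, Ex fTV (w n) ≤ 1 - Ex G (w n) := by
    intro n
    have hE := hw.isExp n
    have sm := (hE.hasSum_mass hq0)
    have sG := hE.summable hq0 (G_mbdd hq0)
    have h1 : (1 : ℝ) - Ex G (w n) = ∑' i, (mass (w n i) - G (w n i)) := by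
      rw [(sm.summable).tsum_sub sG, sm.tsum_eq]
      rfl
    rw [h1]
    exact Summable.tsum_le_tsum (fun i => fTV_le hq0 _) (hE.summable hq0 (mbdd_fTV hq0))
      (sm.summable.sub sG)
  have hlim2 : Tendsto (fun n => 1 - Ex G (w n)) atTop (nhds 0) := by
    have := hlim.const_sub 1
    rw [hLe, sub_self] at this
    exact this
  exact squeeze_zero (fun n => Ex_nonneg (hw.isExp n) fun v _ => fTV_nonneg v) hup hlim2

end Crest.Agent.R163
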