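import Crest.Agent.R163.Basic

/-!
# Row 163: the regular tree is a broadcast process (piece R163_REG)

Equivalence `((Fin (ℓ+1) → Fin b) → Fin q) ≃ (Fin b → ((Fin ℓ → Fin b) → Fin q))`,
`τ ↦ fun m w => τ (Fin.cons m w)`; `∑ j, channel q lam i j * f j = lam * f i + (1-lam) * mass f`.
-/

set_option autoImplicit false

namespace Crest.Agent.R163

open Finset Crest.ProbabilityR.Broadcast

/-- the regular-tree experiment -/
noncomputable def wReg (q b : ℕ) (lam : ℝ) (ℓ : ℕ) :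
    ((Fin ℓ → Fin b) → Fin q) → Fin q → ℝ := fun τ a => leafLaw q b lam ℓ a τ

theorem channel_sum (q : ℕ) (lam : ℝ) (i : Fin q) (f : Fin q → ℝ) :
    ∑ j : Fin q, channel q lam i j * f j = lam * f i + (1 - lam) * mass f := by
  unfold channel mass
  simp_rw [add_mul, ite_mul, zero_mul]
  rw [Finset.sum_add_distrib, Finset.sum_ite_eq, if_pos (Finset.mem_univ _), ← Finset.mul_sum]
  ring

/-- offspring law: exactly `b` children -/
def pReg (b : ℕ) : ℕ → ℝ := fun c => if c = b then 1 else 0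

theorem advantage_eq (q b : ℕ) (lam : ℝ) (ℓ : ℕ) : advantage q b lam ℓ = Ex fTV (wReg q b lam ℓ) := by
  unfold advantage Ex fTV
  rw [tsum_fintype, Finset.mul_sum]
  rfl

/-- splitting the observation over the subtrees of the root -/
def splitE (q b ℓ : ℕ) :
    ((Fin (ℓ + 1) → Fin b) → Fin q) ≃ (Fin b → ((Fin ℓ → Fin b) → Fin q)) :=
  ((Fin.consEquiv (fun _ : Fin (ℓ + 1) => Fin b)).symm.arrowCongr (Equiv.refl (Fin q))).trans
    (Equiv.curry (Fin b) (Fin ℓ → Fin b) (Fin q))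

theorem splitE_apply (q b ℓ : ℕ) (τ : (Fin (ℓ + 1) → Fin b) → Fin q) (m : Fin b)
    (w : Fin ℓ → Fin b) : splitE q b ℓ τ m w = τ (Fin.cons m w) := rfl

theorem wReg_succ (q b : ℕ) (lam : ℝ) (ℓ : ℕ) (τ : (Fin (ℓ + 1) → Fin b) → Fin q) (a : Fin q) :
    wReg q b lam (ℓ + 1) τ a = pw (ch lam (wReg q b lam ℓ)) b (splitE q b ℓ τ) a := by
  unfold pw ch
  show leafLaw q b lam (ℓ + 1) a τ = _
  rw [leafLaw]
  refine Finset.prod_congr rfl fun m _ => ?_
  exact channel_sum q lam a (fun j => leafLaw q b lam ℓ j (fun w => τ (Fin.cons m w)))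

theorem wReg_zero (q b : ℕ) (lam : ℝ) (τ : (Fin 0 → Fin b) → Fin q) :
    wReg q b lam 0 τ = perfect q (Equiv.funUnique (Fin 0 → Fin b) (Fin q) τ) := by
  funext a
  show leafLaw q b lam 0 a τ = _
  rw [leafLaw]
  unfold perfect
  have : τ Fin.elim0 = Equiv.funUnique (Fin 0 → Fin b) (Fin q) τ := by
    show τ Fin.elim0 = τ default
    congr 1
  rw [this]

theorem isExp_reindex {ι κ : Type*} {q : ℕ} {w : ι → Fin q → ℝ} {v : κ → Fin q → ℝ} (e : κ ≃ ι)
    (h : ∀ k, v k = w (e k)) (hw : IsExp w) : IsExp v := by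
  refine ⟨fun k a => by rw [h]; exact hw.nonneg _ a, fun a => ?_⟩
  have h1 := (e.hasSum_iff (f := fun i => w i a)).mpr (hw.hasSum a)
  refine h1.congr_fun ?_
  intro k
  simp [h]

theorem isSymm_reindex {ι κ : Type*} {q : ℕ} {w : ι → Fin q → ℝ} {v : κ → Fin q → ℝ} (e : κ ≃ ι)
    (h : ∀ k, v k = w (e k)) (hw : IsSymm w) : IsSymm v := by
  intro σ
  obtain ⟨f, hf⟩ := hw σ
  refine ⟨(e.trans f).trans e.symm, fun k a => ?_⟩
  rw [h, h k]
  simp only [Equiv.trans_apply, Equiv.apply_symm_apply]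
  exact hf (e k) a

theorem Ex_reindex {ι κ : Type*} {q : ℕ} {w : ι → Fin q → ℝ} {v : κ → Fin q → ℝ} (e : κ ≃ ι)
    (h : ∀ k, v k = w (e k)) (F : (Fin q → ℝ) → ℝ) : Ex F v = Ex F w := by
  unfold Ex
  rw [← e.tsum_eq (fun i => F (w i))]
  exact tsum_congr fun k => by rw [h]

theorem isProcess_reg (q b : ℕ) (hq : 1 < q) (lam : ℝ) (h0 : -(1 / ((q : ℝ) - 1)) ≤ lam)
    (h1 : lam ≤ 1) :
    IsProcess q lam (pReg b) (fun ℓ => (Fin ℓ → Fin b) → Fin q) (wReg q b lam) := by
  refine ⟨fun n => ?_, fun n => ?_, fun F _ _ => ?_, fun n F _ _ => ?_⟩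
  · induction n with
    | zero => exact isExp_reindex _ (wReg_zero q b lam) (isExp_perfect q)
    | succ n ih =>
      exact isExp_reindex (splitE q b n) (fun τ => funext fun a => wReg_succ q b lam n τ a)
        (isExp_pw (isExp_ch hq h0 h1 ih) b)
  · induction n with
    | zero => exact isSymm_reindex _ (wReg_zero q b lam) (isSymm_perfect q)
    | succ n ih =>
      exact isSymm_reindex (splitE q b n) (fun τ => funext fun a => wReg_succ q b lam n τ a)
        (isSymm_pw (isSymm_ch lam ih) b)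
  · exact Ex_reindex _ (wReg_zero q b lam) F
  · rw [tsum_eq_single b]
    · unfold pReg
      rw [if_pos rfl, one_mul]
      exact Ex_reindex (splitE q b n) (fun τ => funext fun a => wReg_succ q b lam n τ a) F
    · intro c hc
      unfold pReg
      rw [if_neg hc, zero_mul]

end Crest.Agent.R163
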