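import Crest.Agent.R163.Main
import Crest.Agent.R163.Reg
import Crest.Agent.R163.GW
import Crest.Agent.R163.Lam1

/-!
# Row 163: the literal ferromagnetic statements (assembled)
-/

set_option autoImplicit false

namespace Crest.Agent.R163

open Finset Filter Crest.ProbabilityR.Broadcast

theorem neg_inv_le {q : ℕ} (hq1 : 1 < q) {lam : ℝ} (h0 : 0 ≤ lam) :
    -(1 / ((q : ℝ) - 1)) ≤ lam := by
  have hq1' : (1 : ℝ) < q := by exact_mod_cast hq1
  have : 0 ≤ 1 / ((q : ℝ) - 1) := div_nonneg zero_le_one (by linarith)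
  linarith

theorem pReg_nonneg (b c : ℕ) : 0 ≤ pReg b c := by
  unfold pReg; split_ifs <;> norm_num

theorem hasSum_pReg (b : ℕ) : HasSum (pReg b) 1 := hasSum_ite_eq b (1 : ℝ)

theorem hasSum_mul_pReg (b : ℕ) : HasSum (fun c : ℕ => (c : ℝ) * pReg b c) (b : ℝ) := by
  have h2 := hasSum_ite_eq b (b : ℝ)
  convert h2 using 1
  funext c
  unfold pReg
  split_ifs with h
  · rw [h, mul_one]
  · rw [mul_zero]

theorem ferro_reg (q : ℕ) (hq : q = 3 ∨ q = 4) (b : ℕ) (hb : 2 ≤ b) (lam : ℝ) (h0 : 0 ≤ lam)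
    (h1 : lam ≤ 1) (h : (b : ℝ) * lam ^ 2 ≤ 1) :
    Tendsto (advantage q b lam) atTop (nhds 0) := by
  have hq1 : 1 < q := by rcases hq with rfl | rfl <;> norm_num
  have hb' : (2 : ℝ) ≤ b := by exact_mod_cast hb
  have hl1 : lam < 1 := by
    by_contra hc
    have : lam = 1 := le_antisymm h1 (not_lt.1 hc)
    rw [this] at h; linarith
  have hproc := isProcess_reg q b hq1 lam (neg_inv_le hq1 h0) h1
  have := ferro hq h0 hl1 (pReg_nonneg b) (hasSum_pReg b) (hasSum_mul_pReg b) h b hb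
    (by unfold pReg; simp) hproc
  exact this.congr fun n => (advantage_eq q b lam n).symm

theorem ferro_GW (q : ℕ) (hq : q = 3 ∨ q = 4) (d : ℝ) (hd : 0 < d) (lam : ℝ) (h0 : 0 ≤ lam)
    (h1 : lam ≤ 1) (h : d * lam ^ 2 ≤ 1) :
    Tendsto (gwAdvantage q lam d) atTop (nhds 0) := by
  have hq1 : 1 < q := by rcases hq with rfl | rfl <;> norm_num
  have hproc := isProcess_GW q hq1 lam d hd.le (neg_inv_le hq1 h0) h1
  suffices hT : Tendsto (fun n => Ex fTV (wGW q lam d n)) atTop (nhds 0) from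
    hT.congr fun n => (gwAdvantage_eq q lam d n).symm
  rcases h1.lt_or_eq with hl1 | rfl
  · refine ferro hq h0 hl1 (pPoi_nonneg d hd.le) (hasSum_pPoi d) (hasSum_mul_pPoi d) h 2 le_rfl
      ?_ hproc
    unfold pPoi; positivity
  · exact lam_one hq1 hd.le (by simpa using h) (fun c => rfl) hproc

end Crest.Agent.R163
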