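import Crest.Agent.R163.Deg
import Crest.Agent.R163.Ferro

/-!
# Row 163: S0244 from the critical antiferromagnetic cases

`AntiReg b` (for `b ≥ 4`): at `lam = -1/√b` the magnetisation of the `b`-ary tree tends to `0`;
`AntiPoi d` (for real `d ≥ 4`): the same for the Poisson tree.
-/

set_option autoImplicit false

namespace Crest.Agent.R163

open Finset Filter Crest.ProbabilityR.Broadcast

/-- the critical antiferromagnetic statement for the `b`-ary tree -/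
def AntiReg (b : ℕ) : Prop :=
  Tendsto (fun n => X (wReg 3 b (-(1 / Real.sqrt b)) n)) atTop (nhds 0)

/-- the critical antiferromagnetic statement for the Poisson tree -/
def AntiPoi (d : ℝ) : Prop :=
  Tendsto (fun n => X (wGW 3 (-(1 / Real.sqrt d)) d n)) atTop (nhds 0)

theorem lam_bounds {d : ℝ} (hd : 4 ≤ d) :
    -(1 / (((3 : ℕ) : ℝ) - 1)) ≤ -(1 / Real.sqrt d) ∧ -(1 / Real.sqrt d) ≤ 1 := by
  have h2 : 2 ≤ Real.sqrt d := by
    rw [show (2 : ℝ) = Real.sqrt 4 by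
      rw [show (4 : ℝ) = 2 ^ 2 by norm_num, Real.sqrt_sq (by norm_num)]]
    exact Real.sqrt_le_sqrt hd
  have h3 : 0 < Real.sqrt d := by linarith
  constructor
  · rw [neg_le_neg_iff]
    push_cast
    rw [show (3 : ℝ) - 1 = 2 by norm_num]
    exact one_div_le_one_div_of_le (by norm_num) h2
  · have : 0 ≤ 1 / Real.sqrt d := by positivity
    linarith

/-- reduction of a noisier channel -/
theorem anti_gamma {d lam : ℝ} (hd : 4 ≤ d) (h1 : lam ≤ 0) (h : d * lam ^ 2 ≤ 1) :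
    ∃ γ : ℝ, 0 ≤ γ ∧ γ ≤ 1 ∧ lam = γ * -(1 / Real.sqrt d) := by
  have h3 : 0 < Real.sqrt d := Real.sqrt_pos.2 (by linarith)
  refine ⟨-lam * Real.sqrt d, mul_nonneg (by linarith) h3.le, ?_, ?_⟩
  · have e : (-lam * Real.sqrt d) ^ 2 = d * lam ^ 2 := by
      rw [mul_pow, Real.sq_sqrt (by linarith)]; ring
    nlinarith [mul_nonneg (by linarith : 0 ≤ -lam) h3.le]
  · field_simp

theorem anti_reg (hA : ∀ b : ℕ, 4 ≤ b → AntiReg b) (b : ℕ) (lam : ℝ)
    (h0 : -(1 / 2 : ℝ) ≤ lam) (h1 : lam ≤ 0) (h : (b : ℝ) * lam ^ 2 ≤ 1) :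
    Tendsto (advantage 3 b lam) atTop (nhds 0) := by
  have hq1 : 1 < 3 := by norm_num
  have h0' : -(1 / (((3 : ℕ) : ℝ) - 1)) ≤ lam := by push_cast; linarith
  have hproc := isProcess_reg 3 b hq1 lam h0' (by linarith)
  set b' := max b 4 with hb'
  have hb4 : (4 : ℝ) ≤ (b' : ℝ) := by exact_mod_cast le_max_right b 4
  have hlb := lam_bounds hb4
  have hproc' := isProcess_reg 3 b' hq1 (-(1 / Real.sqrt b')) hlb.1 hlb.2
  have hd : (b' : ℝ) * lam ^ 2 ≤ 1 := by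
    rcases le_total b 4 with h4 | h4
    · have : (b' : ℝ) = 4 := by rw [hb', max_eq_right h4]; norm_num
      rw [this]; nlinarith
    · rw [hb', max_eq_left h4]; exact h
  obtain ⟨γ, hγ0, hγ1, hγ⟩ := anti_gamma hb4 h1 hd
  have hγ0' : -(1 / (((3 : ℕ) : ℝ) - 1)) ≤ γ := by push_cast; linarith
  have hdom := dom_process hq1 hγ0' hγ1 hγ h0' (by linarith) hlb.1 hlb.2 (pReg_nonneg b)
    (hasSum_pReg b).summable (stLe_pReg (le_max_left b 4)) hproc hproc'
  have hX := tendsto_X_of_dom (by norm_num) hproc.isExp hdom (hA b' (le_max_right b 4))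
  have hT := tendsto_TV (by norm_num) _ _ hproc.isExp hX
  exact hT.congr fun n => (advantage_eq 3 b lam n).symm

theorem anti_GW (hA : ∀ d : ℝ, 4 ≤ d → AntiPoi d) (d : ℝ) (hd0 : 0 < d) (lam : ℝ)
    (h0 : -(1 / 2 : ℝ) ≤ lam) (h1 : lam ≤ 0) (h : d * lam ^ 2 ≤ 1) :
    Tendsto (gwAdvantage 3 lam d) atTop (nhds 0) := by
  have hq1 : 1 < 3 := by norm_num
  have h0' : -(1 / (((3 : ℕ) : ℝ) - 1)) ≤ lam := by push_cast; linarith
  have hproc := isProcess_GW 3 hq1 lam d hd0.le h0' (by linarith)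
  set d' := max d 4 with hd'
  have hd4 : (4 : ℝ) ≤ d' := le_max_right d 4
  have hlb := lam_bounds hd4
  have hproc' := isProcess_GW 3 hq1 (-(1 / Real.sqrt d')) d' (by linarith) hlb.1 hlb.2
  have hd : d' * lam ^ 2 ≤ 1 := by
    rcases le_total d 4 with h4 | h4
    · rw [hd', max_eq_right h4]; nlinarith
    · rw [hd', max_eq_left h4]; exact h
  obtain ⟨γ, hγ0, hγ1, hγ⟩ := anti_gamma hd4 h1 hd
  have hγ0' : -(1 / (((3 : ℕ) : ℝ) - 1)) ≤ γ := by push_cast; linarith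
  have hdom := dom_process hq1 hγ0' hγ1 hγ h0' (by linarith) hlb.1 hlb.2 (pPoi_nonneg d hd0.le)
    (hasSum_pPoi d).summable (stLe_pPoi hd0.le (le_max_left d 4)) hproc hproc'
  have hX := tendsto_X_of_dom (by norm_num) hproc.isExp hdom (hA d' hd4)
  have hT := tendsto_TV (by norm_num) _ _ hproc.isExp hX
  exact hT.congr fun n => (gwAdvantage_eq 3 lam d n).symm

/-- **S0244 from the critical antiferromagnetic cases** -/
theorem s0244_of (hR : ∀ b : ℕ, 4 ≤ b → AntiReg b) (hP : ∀ d : ℝ, 4 ≤ d → AntiPoi d) :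
    (∀ b : ℕ, 2 ≤ b → ∀ lam : ℝ, -(1 / 2 : ℝ) ≤ lam → lam ≤ 1 → (b : ℝ) * lam ^ 2 ≤ 1 →
      Filter.Tendsto (Crest.ProbabilityR.Broadcast.advantage 3 b lam) Filter.atTop (nhds 0)) ∧
    (∀ d : ℝ, 1 < d → ∀ lam : ℝ, -(1 / 2 : ℝ) ≤ lam → lam ≤ 1 → d * lam ^ 2 ≤ 1 →
      Filter.Tendsto (Crest.ProbabilityR.Broadcast.gwAdvantage 3 lam d) Filter.atTop (nhds 0)) := by
  refine ⟨fun b hb lam h0 h1 h => ?_, fun d hd lam h0 h1 h => ?_⟩
  · rcases le_total 0 lam with hl | hl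
    · exact ferro_reg 3 (Or.inl rfl) b hb lam hl h1 h
    · exact anti_reg hR b lam h0 hl h
  · rcases le_total 0 lam with hl | hl
    · exact ferro_GW 3 (Or.inl rfl) d (by linarith) lam hl h1 h
    · exact anti_GW hP d (by linarith) lam h0 hl h

/-- the `b`-ary case from a certificate -/
theorem antiReg_of_cert {b : ℕ} (hb : 4 ≤ b) {k : ℕ} (g : Fin k → ℝ)
    (F : Fin k → (Fin 3 → ℝ) → ℝ) (hF : ∀ j, MF (F j)) (δ : ℝ) (hδ : 0 < δ)
    (hC : CertM 3 (-(1 / Real.sqrt b)) (fun t => t ^ b) g F δ) : AntiReg b := by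
  have hlb := lam_bounds (by exact_mod_cast hb : (4 : ℝ) ≤ (b : ℝ))
  exact tendsto_X_reg (by norm_num) hlb.1 hlb.2
    (isProcess_reg 3 b (by norm_num) _ hlb.1 hlb.2) g F hF δ hδ hC

/-- the Poisson case from a certificate -/
theorem antiPoi_of_cert {d : ℝ} (hd : 4 ≤ d) {k : ℕ} (g : Fin k → ℝ)
    (F : Fin k → (Fin 3 → ℝ) → ℝ) (hF : ∀ j, MF (F j)) (δ : ℝ) (hδ : 0 < δ)
    (hC : CertM 3 (-(1 / Real.sqrt d)) (fun t => Real.exp (d * (t - 1))) g F δ) : AntiPoi d := by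
  have hlb := lam_bounds hd
  exact tendsto_X_poi (by norm_num) hlb.1 hlb.2
    (isProcess_GW 3 (by norm_num) _ d (by linarith) hlb.1 hlb.2) g F hF δ hδ hC

end Crest.Agent.R163
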