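import Crest.Agent.R163.Defs

/-!
# Row 163: first facts (proved)
-/

set_option autoImplicit false

namespace Crest.Agent.R163

open Finset

variable {ι κ : Type*} {q : ℕ}

theorem mass_nonneg (v : Fin q → ℝ) (hv : ∀ a, 0 ≤ v a) : 0 ≤ mass v := by
  unfold mass
  exact mul_nonneg (by positivity) (Finset.sum_nonneg fun a _ => hv a)

theorem le_mass (hq : 0 < q) (v : Fin q → ℝ) (hv : ∀ a, 0 ≤ v a) (a : Fin q) :
    v a ≤ q * mass v := by
  have hq' : (0 : ℝ) < q := by exact_mod_cast hq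
  unfold mass
  rw [← mul_assoc, mul_one_div_cancel hq'.ne', one_mul]
  exact Finset.single_le_sum (fun b _ => hv b) (Finset.mem_univ a)

theorem eq_zero_of_mass_eq_zero (hq : 0 < q) (v : Fin q → ℝ) (hv : ∀ a, 0 ≤ v a)
    (h : mass v = 0) (a : Fin q) : v a = 0 := by
  have := le_mass hq v hv a
  rw [h, mul_zero] at this
  exact le_antisymm this (hv a)

/-- `v a = mass v * (1 + uv v a)` -/
theorem eq_mass_mul (hq : 0 < q) (v : Fin q → ℝ) (hv : ∀ a, 0 ≤ v a) (a : Fin q) :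
    v a = mass v * (1 + uv v a) := by
  by_cases h : mass v = 0
  · rw [h, zero_mul]; exact eq_zero_of_mass_eq_zero hq v hv h a
  · unfold uv; field_simp; ring

theorem sum_uv (hq : 0 < q) (v : Fin q → ℝ) (h : mass v ≠ 0) : ∑ a, uv v a = 0 := by
  have hq' : (q : ℝ) ≠ 0 := by exact_mod_cast hq.ne'
  unfold uv
  rw [Finset.sum_sub_distrib, ← Finset.sum_div]
  have : ∑ a, v a = q * mass v := by
    unfold mass; field_simp
  rw [this]
  simp
  field_simp
  ring

theorem neg_one_le_uv (v : Fin q → ℝ) (hv : ∀ a, 0 ≤ v a) (a : Fin q) : -1 ≤ uv v a := by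
  unfold uv
  have : 0 ≤ v a / mass v := div_nonneg (hv a) (mass_nonneg v hv)
  linarith

theorem mass_smul (t : ℝ) (v : Fin q → ℝ) : mass (fun a => t * v a) = t * mass v := by
  unfold mass
  rw [← Finset.mul_sum]; ring

theorem m2_nonneg (u : Fin q → ℝ) : 0 ≤ m2 u := by
  unfold m2; positivity

theorem fX_nonneg (v : Fin q → ℝ) (hv : ∀ a, 0 ≤ v a) : 0 ≤ fX v :=
  mul_nonneg (mass_nonneg v hv) (m2_nonneg _)

theorem homog_mass : Homog (mass : (Fin q → ℝ) → ℝ) := fun t v _ _ => mass_smul t v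

theorem mbdd_mass : MBdd (mass : (Fin q → ℝ) → ℝ) :=
  ⟨1, zero_le_one, fun v hv => by rw [abs_of_nonneg (mass_nonneg v hv), one_mul]⟩

/-- `∑ mass = 1` -/
theorem IsExp.hasSum_mass (hq : 0 < q) {w : ι → Fin q → ℝ} (hw : IsExp w) :
    HasSum (fun i => mass (w i)) 1 := by
  have hq' : (q : ℝ) ≠ 0 := by exact_mod_cast hq.ne'
  have h : HasSum (fun i => (1 / (q : ℝ)) * ∑ a, w i a) ((1 / (q : ℝ)) * ∑ _a : Fin q, (1 : ℝ)) :=
    (hasSum_sum fun a _ => hw.hasSum a).mul_left _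
  have e : (1 / (q : ℝ)) * ∑ _a : Fin q, (1 : ℝ) = 1 := by
    simp; field_simp
  rw [e] at h
  exact h

/-- every mass-bounded functional is summable along an experiment -/
theorem IsExp.summable (hq : 0 < q) {w : ι → Fin q → ℝ} (hw : IsExp w) {F : (Fin q → ℝ) → ℝ}
    (hF : MBdd F) : Summable (fun i => F (w i)) := by
  obtain ⟨C, hC, h⟩ := hF
  refine Summable.of_norm_bounded (g := fun i => C * mass (w i))
    ((hw.hasSum_mass hq).summable.mul_left C) fun i => ?_
  rw [Real.norm_eq_abs]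
  exact h _ (hw.nonneg i)

end Crest.Agent.R163
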