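import Crest.Agent.R163.Basic0

/-!
# Row 163: the pointwise functionals are homogeneous and mass-bounded (piece R163_BASICA)

Hints. `m2_uv_le`: with `π a = v a / (∑ v) ∈ [0,1]`, `∑ π = 1`, `m2 (uv v) = q ∑ π² - 1 ≤ q - 1`;
or: `-1 ≤ u a`, `∑ u = 0` gives `u a ≤ q - 1`, and `u² ≤ (q-2) u + (q-1)` i.e. `(u+1)(u-(q-1)) ≤ 0`,
sum over `a`. For all functionals: if `mass v = 0` then `v = 0` (`eq_zero_of_mass_eq_zero`) and
everything vanishes; `uv (t·v) = uv v` for `t > 0`. Bounds: `|u a| ≤ q - 1` (so `|m3| ≤ (q-1)^3`,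
`|kf| ≤ 4 q ..`), any constant is fine.
-/

set_option autoImplicit false

namespace Crest.Agent.R163

open Finset

variable {ι κ : Type*} {q : ℕ}

theorem uv_le (hq : 0 < q) (v : Fin q → ℝ) (hv : ∀ a, 0 ≤ v a) (a : Fin q) :
    uv v a ≤ q - 1 := by
  have hq' : (1 : ℝ) ≤ q := by exact_mod_cast hq
  unfold uv
  rcases (mass_nonneg v hv).eq_or_lt with h | h
  · rw [← h, div_zero]; linarith
  · have := le_mass hq v hv a
    have : v a / mass v ≤ q := by rw [div_le_iff₀ h]; exact this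
    linarith

theorem abs_uv_le (hq : 0 < q) (v : Fin q → ℝ) (hv : ∀ a, 0 ≤ v a) (a : Fin q) :
    |uv v a| ≤ q := by
  have hq' : (1 : ℝ) ≤ q := by exact_mod_cast hq
  rw [abs_le]
  exact ⟨by linarith [neg_one_le_uv v hv a], by linarith [uv_le hq v hv a]⟩

theorem uv_smul (t : ℝ) (ht : t ≠ 0) (v : Fin q → ℝ) : uv (fun a => t * v a) = uv v := by
  funext a
  unfold uv
  rw [mass_smul, mul_div_mul_left _ _ ht]

theorem homog_of (g : (Fin q → ℝ) → ℝ) : Homog (fun v : Fin q → ℝ => mass v * g (uv v)) := by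
  intro t v ht _
  rcases ht.eq_or_lt with h | h
  · subst h
    simp [mass]
  · simp only []
    rw [uv_smul t h.ne', mass_smul, mul_assoc]

theorem mbdd_of (g : (Fin q → ℝ) → ℝ) (C : ℝ) (hC : 0 ≤ C)
    (hg : ∀ v : Fin q → ℝ, (∀ a, 0 ≤ v a) → mass v ≠ 0 → |g (uv v)| ≤ C) :
    MBdd (fun v : Fin q → ℝ => mass v * g (uv v)) := by
  refine ⟨C, hC, fun v hv => ?_⟩
  by_cases h : mass v = 0
  · simp [h]
  · rw [abs_mul, abs_of_nonneg (mass_nonneg v hv), mul_comm]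
    exact mul_le_mul_of_nonneg_right (hg v hv h) (mass_nonneg v hv)

theorem abs_m2_le (v : Fin q → ℝ) (h2 : m2 (uv v) ≤ q - 1) : |m2 (uv v)| ≤ q := by
  rw [abs_of_nonneg (m2_nonneg _)]
  linarith

theorem abs_m3_le (hq : 0 < q) (v : Fin q → ℝ) (hv : ∀ a, 0 ≤ v a) : |m3 (uv v)| ≤ (q : ℝ) ^ 3 := by
  have hq' : (0 : ℝ) < q := by exact_mod_cast hq
  unfold m3
  rw [abs_mul, abs_of_pos (by positivity : (0 : ℝ) < 1 / q), one_div, inv_mul_le_iff₀ hq']
  calc |∑ a, uv v a ^ 3| ≤ ∑ a, |uv v a ^ 3| := Finset.abs_sum_le_sum_abs _ _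
    _ ≤ ∑ _a : Fin q, (q : ℝ) ^ 3 := by
        refine Finset.sum_le_sum fun a _ => ?_
        rw [abs_pow]
        exact pow_le_pow_left₀ (abs_nonneg _) (abs_uv_le hq v hv a) 3
    _ = (q : ℝ) * (q : ℝ) ^ 3 := by simp

/-- `<u^2> ≤ q - 1` for a posterior -/
theorem m2_uv_le (hq : 0 < q) (v : Fin q → ℝ) (hv : ∀ a, 0 ≤ v a) (h : mass v ≠ 0) :
    m2 (uv v) ≤ q - 1 := by
  have hq' : (0 : ℝ) < q := by exact_mod_cast hq
  have hu : ∀ a, uv v a ^ 2 ≤ ((q : ℝ) - 2) * uv v a + (q - 1) := by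
    intro a
    have h1 := neg_one_le_uv v hv a
    have h2 := uv_le hq v hv a
    nlinarith [mul_nonneg (by linarith : (0 : ℝ) ≤ uv v a + 1)
      (by linarith : (0 : ℝ) ≤ (q : ℝ) - 1 - uv v a)]
  have hs : ∑ a, uv v a ^ 2 ≤ (q : ℝ) * (q - 1) := by
    calc ∑ a, uv v a ^ 2 ≤ ∑ a, (((q : ℝ) - 2) * uv v a + (q - 1)) :=
          Finset.sum_le_sum fun a _ => hu a
      _ = (q : ℝ) * (q - 1) := by
          rw [Finset.sum_add_distrib, ← Finset.mul_sum, sum_uv hq v h]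
          simp
          ring
  unfold m2
  rw [one_div, inv_mul_le_iff₀ hq']
  exact hs

theorem fX_le (hq : 0 < q) (v : Fin q → ℝ) (hv : ∀ a, 0 ≤ v a) : fX v ≤ (q - 1) * mass v := by
  unfold fX
  by_cases h : mass v = 0
  · rw [h]; simp
  · rw [mul_comm]
    exact mul_le_mul_of_nonneg_right (m2_uv_le hq v hv h) (mass_nonneg v hv)

theorem homog_fX : Homog (fX : (Fin q → ℝ) → ℝ) := homog_of m2

theorem homog_fX2 : Homog (fX2 : (Fin q → ℝ) → ℝ) := homog_of (fun u => m2 u ^ 2)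

theorem homog_fK : Homog (fK : (Fin q → ℝ) → ℝ) := homog_of kf

theorem homog_fal : Homog (fal : (Fin q → ℝ) → ℝ) := homog_of alf

theorem homog_fTV : Homog (fTV : (Fin q → ℝ) → ℝ) := by
  intro t v ht _
  unfold fTV
  rw [mass_smul]
  have : ∀ a, |t * v a - t * mass v| = t * |v a - mass v| := by
    intro a
    rw [← mul_sub, abs_mul, abs_of_nonneg ht]
  simp only [this]
  rw [← Finset.mul_sum]
  ring

theorem mbdd_fX (hq : 0 < q) : MBdd (fX : (Fin q → ℝ) → ℝ) := by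
  refine mbdd_of m2 q (by positivity) fun v hv h => ?_
  exact abs_m2_le v (m2_uv_le hq v hv h)

theorem mbdd_fX2 (hq : 0 < q) : MBdd (fX2 : (Fin q → ℝ) → ℝ) := by
  refine mbdd_of (fun u => m2 u ^ 2) ((q : ℝ) ^ 2) (by positivity) fun v hv h => ?_
  rw [abs_pow]
  exact pow_le_pow_left₀ (abs_nonneg _) (abs_m2_le v (m2_uv_le hq v hv h)) 2

theorem mbdd_fK (hq : 0 < q) : MBdd (fK : (Fin q → ℝ) → ℝ) := by
  refine mbdd_of kf ((4 + q) * q + 2 * (q : ℝ) ^ 3 + (q : ℝ) ^ 2) (by positivity)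
    fun v hv h => ?_
  have h2 := abs_m2_le v (m2_uv_le hq v hv h)
  have h3 := abs_m3_le hq v hv
  have hq' : (0 : ℝ) < q := by exact_mod_cast hq
  unfold kf
  have h4 : |(4 - (q : ℝ)) * m2 (uv v)| ≤ (4 + q) * q := by
    rw [abs_mul]
    refine mul_le_mul ?_ h2 (abs_nonneg _) (by positivity)
    rw [abs_le]; constructor <;> linarith
  have h5 : |2 * m3 (uv v)| ≤ 2 * (q : ℝ) ^ 3 := by
    rw [abs_mul, abs_two]; linarith
  have h6 : |m2 (uv v) ^ 2| ≤ (q : ℝ) ^ 2 := by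
    rw [abs_pow]; exact pow_le_pow_left₀ (abs_nonneg _) h2 2
  rw [abs_le] at h4 h5 h6 ⊢
  constructor <;> linarith

theorem abs_alf4_le (v : Fin 4 → ℝ) (hv : ∀ a, 0 ≤ v a) (h : mass v ≠ 0) :
    |alf4 (uv v)| ≤ 10000 := by
  have h2 := m2_uv_le (by norm_num) v hv h
  have h0 := m2_nonneg (uv v)
  have h3 := abs_m3_le (by norm_num) v hv
  have hd1 : 0 ≤ ∏ a, (1 + uv v a) :=
    Finset.prod_nonneg fun a _ => by have := neg_one_le_uv v hv a; linarith
  have hd2 : ∏ a, (1 + uv v a) ≤ ∏ _a : Fin 4, (4 : ℝ) := by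
    refine Finset.prod_le_prod (fun a _ => ?_) fun a _ => ?_
    · have := neg_one_le_uv v hv a; linarith
    · have := uv_le (by norm_num) v hv a
      push_cast at this
      linarith
  rw [Finset.prod_const] at hd2
  norm_num at hd2 h2 h3
  unfold alf4
  generalize m2 (uv v) = m at *
  generalize m3 (uv v) = k at *
  generalize (∏ a, (1 + uv v a)) = d at *
  rw [abs_le] at h3
  obtain ⟨t, ht⟩ : ∃ t, t = 1 - m / 3 := ⟨_, rfl⟩
  obtain ⟨s, hs⟩ : ∃ s, s = 1 - m + k / 3 := ⟨_, rfl⟩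
  rw [← ht, ← hs]
  have ht0 : 0 ≤ t := by rw [ht]; linarith
  have ht1 : t ≤ 1 := by rw [ht]; linarith
  have hs0 : -26 ≤ s := by rw [hs]; linarith
  have hs1 : s ≤ 26 := by rw [hs]; linarith
  have hss : s ^ 2 ≤ 676 := by nlinarith
  have hts1 : t * s ≤ 26 := by nlinarith
  have hts2 : -26 ≤ t * s := by nlinarith
  have htt : t ^ 2 ≤ 1 := by nlinarith
  rw [abs_le]
  constructor <;> nlinarith [sq_nonneg s, sq_nonneg t]

theorem mbdd_fal (hq : 1 < q) : MBdd (fal : (Fin q → ℝ) → ℝ) := by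
  by_cases hq4 : q = 4
  · subst hq4
    refine mbdd_of alf 10000 (by norm_num) fun v hv h => ?_
    unfold alf
    rw [if_pos rfl]
    exact abs_alf4_le v hv h
  have hq1 : (1 : ℝ) < q := by exact_mod_cast hq
  refine mbdd_of alf ((q : ℝ) ^ q) (by positivity) fun v hv h => ?_
  have h2 := m2_uv_le (by omega) v hv h
  have h0 := m2_nonneg (uv v)
  unfold alf
  rw [if_neg hq4]
  have h3 : m2 (uv v) / (q - 1) ≤ 1 := by
    rw [div_le_one (by linarith)]; exact h2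
  have h4 : 0 ≤ m2 (uv v) / (q - 1) := div_nonneg h0 (by linarith)
  have hd1 : 0 ≤ ∏ a, (1 + uv v a) :=
    Finset.prod_nonneg fun a _ => by have := neg_one_le_uv v hv a; linarith
  have hd2 : ∏ a, (1 + uv v a) ≤ ∏ _a : Fin q, (q : ℝ) := by
    refine Finset.prod_le_prod (fun a _ => ?_) fun a _ => ?_
    · have := neg_one_le_uv v hv a; linarith
    · have := uv_le (by omega) v hv a
      linarith
  rw [Finset.prod_const, Finset.card_univ, Fintype.card_fin] at hd2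
  rw [abs_of_nonneg (mul_nonneg (by linarith) hd1)]
  calc (1 - m2 (uv v) / (q - 1)) * ∏ a, (1 + uv v a) ≤ 1 * ∏ a, (1 + uv v a) :=
        mul_le_mul_of_nonneg_right (by linarith) hd1
    _ ≤ (q : ℝ) ^ q := by rw [one_mul]; exact hd2

theorem mbdd_fTV (hq : 0 < q) : MBdd (fTV : (Fin q → ℝ) → ℝ) := by
  have hq' : (0 : ℝ) < q := by exact_mod_cast hq
  refine ⟨1, zero_le_one, fun v hv => ?_⟩
  have hm := mass_nonneg v hv
  unfold fTV
  rw [abs_of_nonneg (by positivity), one_mul]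
  have h1 : ∑ a, |v a - mass v| ≤ ∑ a, (v a + mass v) := by
    refine Finset.sum_le_sum fun a _ => ?_
    have := hv a
    rw [abs_le]; constructor <;> linarith
  have h2 : ∑ a, (v a + mass v) = 2 * q * mass v := by
    rw [Finset.sum_add_distrib]
    have : ∑ a, v a = q * mass v := by unfold mass; field_simp
    rw [this]; simp; ring
  rw [h2] at h1
  calc 1 / (2 * (q : ℝ)) * ∑ a, |v a - mass v| ≤ 1 / (2 * (q : ℝ)) * (2 * q * mass v) :=
        mul_le_mul_of_nonneg_left h1 (by positivity)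
    _ = mass v := by field_simp

end Crest.Agent.R163
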