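import Crest.Agent.R163.Basic0

/-!
# Row 163: channels, products and powers of (symmetric) experiments (piece R163_BASICB)

Hints. `isExp_ch`: `β w i a + (1-β) mass (w i) = (β + (1-β)/q) w i a + ((1-β)/q) ∑_{b≠a} w i b`, both
coefficients are nonnegative for `-1/(q-1) ≤ β ≤ 1`; sums by `HasSum.mul_left`, `HasSum.add` and
`IsExp.hasSum_mass`. `isExp_mul`: `HasSum.mul_of_nonneg`/`Summable.mul_of_nonneg`,
`HasSum.mul`. `isExp_pw`: by induction on `n` with `Fin.consEquiv`/`Fin.snocEquiv` and `isExp_mul`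
(or `Finset.prod_univ_sum`-like for `tsum`). Symmetric: take the product equivalence
`Equiv.prodCongr`, resp. `Equiv.piCongrRight`/`fun f m => e (f m)`.
-/

set_option autoImplicit false

namespace Crest.Agent.R163

open Finset

variable {ι κ : Type*} {q : ℕ}

theorem isExp_perfect (q : ℕ) : IsExp (perfect q) := by
  refine ⟨fun i a => ?_, fun a => ?_⟩
  · unfold perfect; split_ifs <;> norm_num
  · exact hasSum_ite_eq (β := Fin q) (α := ℝ) a 1

theorem isExp_trivE (q : ℕ) : IsExp (trivE q) := by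
  refine ⟨fun i a => ?_, fun a => ?_⟩
  · unfold trivE; norm_num
  · have h := hasSum_unique (f := fun _ : Unit => (1 : ℝ))
    exact h

theorem isSymm_perfect (q : ℕ) : IsSymm (perfect q) := by
  intro σ
  refine ⟨σ.symm, fun i a => ?_⟩
  unfold perfect
  have h : (σ.symm i = a) ↔ (i = σ a) := by
    rw [Equiv.symm_apply_eq]
  simp only [h]

/-- the channel maps experiments to experiments -/
theorem isExp_ch (hq : 1 < q) {β : ℝ} (h0 : -(1 / ((q : ℝ) - 1)) ≤ β) (h1 : β ≤ 1)
    {w : ι → Fin q → ℝ} (hw : IsExp w) : IsExp (ch β w) := by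
  have hq1 : (1 : ℝ) < q := by exact_mod_cast hq
  have hq0 : (0 : ℝ) < q := by linarith
  refine ⟨fun i a => ?_, fun a => ?_⟩
  · unfold ch
    have h2 : (1 / (q : ℝ)) * w i a ≤ mass (w i) := by
      unfold mass
      exact mul_le_mul_of_nonneg_left
        (Finset.single_le_sum (f := w i) (fun b _ => hw.nonneg i b) (Finset.mem_univ a))
        (by positivity)
    have h3 : (1 - β) * ((1 / (q : ℝ)) * w i a) ≤ (1 - β) * mass (w i) :=
      mul_le_mul_of_nonneg_left h2 (by linarith)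
    have h4 : 0 ≤ β + (1 - β) * (1 / (q : ℝ)) := by
      have h5 : -1 ≤ β * ((q : ℝ) - 1) := by
        have h6 := mul_le_mul_of_nonneg_right h0 (sub_pos.2 hq1).le
        have h7 : -(1 / ((q : ℝ) - 1)) * ((q : ℝ) - 1) = -1 := by
          have : (q : ℝ) - 1 ≠ 0 := (sub_pos.2 hq1).ne'
          field_simp
        rw [h7] at h6; exact h6
      have h8 : β + (1 - β) * (1 / (q : ℝ)) = (β * (q - 1) + 1) / q := by
        field_simp; ring
      rw [h8]
      exact div_nonneg (by linarith) hq0.le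
    have h9 := mul_nonneg h4 (hw.nonneg i a)
    calc (0 : ℝ) ≤ (β + (1 - β) * (1 / (q : ℝ))) * w i a := h9
      _ = β * w i a + (1 - β) * ((1 / (q : ℝ)) * w i a) := by ring
      _ ≤ _ := by linarith
  · have h2 := ((hw.hasSum a).mul_left β).add ((hw.hasSum_mass (by omega)).mul_left (1 - β))
    have h3 : β * 1 + (1 - β) * 1 = (1 : ℝ) := by ring
    rw [h3] at h2
    exact h2

theorem isSymm_ch (β : ℝ) {w : ι → Fin q → ℝ} (hw : IsSymm w) : IsSymm (ch β w) := by
  intro σ
  obtain ⟨e, he⟩ := hw σ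
  refine ⟨e, fun i a => ?_⟩
  have hm : mass (w (e i)) = mass (w i) := by
    unfold mass
    congr 1
    rw [Finset.sum_congr rfl fun a _ => he i a]
    exact Equiv.sum_comp σ (w i)
  unfold ch
  rw [he, hm]

theorem isExp_mul {w : ι → Fin q → ℝ} (hw : IsExp w) {v : κ → Fin q → ℝ} (hv : IsExp v) :
    IsExp (mul w v) := by
  refine ⟨fun i a => mul_nonneg (hw.nonneg _ _) (hv.nonneg _ _), fun a => ?_⟩
  have h1 := hw.hasSum a
  have h2 := hv.hasSum a
  have h3 := h1.mul h2 (h1.summable.mul_of_nonneg h2.summable (fun i => hw.nonneg i a)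
    (fun i => hv.nonneg i a))
  rw [mul_one] at h3
  exact h3

theorem isSymm_mul {w : ι → Fin q → ℝ} (hw : IsSymm w) {v : κ → Fin q → ℝ} (hv : IsSymm v) :
    IsSymm (mul w v) := by
  intro σ
  obtain ⟨e, he⟩ := hw σ
  obtain ⟨e', he'⟩ := hv σ
  refine ⟨Equiv.prodCongr e e', fun i a => ?_⟩
  unfold mul
  simp only [Equiv.prodCongr_apply, Prod.map_fst, Prod.map_snd]
  rw [he, he']

theorem isExp_pw {w : ι → Fin q → ℝ} (hw : IsExp w) (n : ℕ) : IsExp (pw w n) := by
  induction n with
  | zero =>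
    refine ⟨fun i a => ?_, fun a => ?_⟩
    · unfold pw; simp
    · have h := hasSum_unique (f := fun f : Fin 0 → ι => pw w 0 f a)
      have h1 : pw w 0 (default : Fin 0 → ι) a = 1 := by unfold pw; simp
      rw [h1] at h
      exact h
  | succ n ih =>
    refine ⟨fun i a => Finset.prod_nonneg fun m _ => hw.nonneg _ _, fun a => ?_⟩
    have h := (isExp_mul hw ih).hasSum a
    rw [← (Fin.consEquiv (fun _ : Fin (n + 1) => ι)).hasSum_iff]
    convert h using 1
    funext p
    simp only [Function.comp_apply, pw, mul, Fin.consEquiv_apply, Fin.prod_univ_succ,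
      Fin.cons_zero, Fin.cons_succ]

theorem isSymm_pw {w : ι → Fin q → ℝ} (hw : IsSymm w) (n : ℕ) : IsSymm (pw w n) := by
  intro σ
  obtain ⟨e, he⟩ := hw σ
  refine ⟨Equiv.piCongrRight (fun _ => e), fun f a => ?_⟩
  unfold pw
  exact Finset.prod_congr rfl fun m _ => he (f m) a

/-- `mass (ch β w i) = mass (w i)` -/
theorem mass_ch (hq : 0 < q) (β : ℝ) (w : ι → Fin q → ℝ) (i : ι) :
    mass (ch β w i) = mass (w i) := by
  have hq' : (q : ℝ) ≠ 0 := by exact_mod_cast hq.ne'
  obtain ⟨m, hm⟩ : ∃ m, m = mass (w i) := ⟨_, rfl⟩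
  have h2 : ∑ a, w i a = q * m := by rw [hm]; unfold mass; field_simp
  have h1 : mass (ch β w i) = (1 / q) * ∑ a, (β * w i a + (1 - β) * m) := by rw [hm]; rfl
  rw [h1, Finset.sum_add_distrib, ← Finset.mul_sum, h2, ← hm]
  simp only [Finset.sum_const, Finset.card_univ, Fintype.card_fin, nsmul_eq_mul]
  field_simp
  ring

/-- `uv (ch β w i) = β * uv (w i)` -/
theorem uv_ch (hq : 0 < q) (β : ℝ) (w : ι → Fin q → ℝ) (i : ι) (h : mass (w i) ≠ 0) (a : Fin q) :
    uv (ch β w i) a = β * uv (w i) a := by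
  unfold uv
  rw [mass_ch hq]
  unfold ch
  field_simp
  ring

end Crest.Agent.R163
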