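import Crest.Agent.R163.BasicB

/-!
# Row 163: `Ex` of powers, products, associativity (piece R163_BASICC)

Hints. `Ex_pw_succ`: reindex `(Fin (c+1) → ι) ≃ (Fin c → ι) × ι` (`Fin.snocEquiv`/`Fin.initEquiv`…),
`Equiv.tsum_eq`, `Fin.prod_univ_castSucc`. `Ex_mul`: `isExp_mul`, `IsExp.summable`, `Summable.tsum_prod'`,
`Summable.tsum_comm`. `Ex_mul_assoc`: `Equiv.prodAssoc`. `hasSum_mass_uv`: for each `i`,
`mass (w i) * uv (w i) a = w i a - mass (w i)` (`eq_mass_mul`).
-/

set_option autoImplicit false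

namespace Crest.Agent.R163

open Finset

variable {ι κ : Type*} {q : ℕ}

/-- zero copies: the trivial experiment -/
theorem Ex_pw_zero (w : ι → Fin q → ℝ) (F : (Fin q → ℝ) → ℝ) :
    Ex F (pw w 0) = F (fun _ => 1) := by
  unfold Ex
  rw [tsum_eq_single (default : Fin 0 → ι) (fun b hb => absurd (Subsingleton.elim _ _) hb)]
  congr 1

/-- `c + 1` copies are `c` copies times one copy -/
theorem Ex_pw_succ (w : ι → Fin q → ℝ) (F : (Fin q → ℝ) → ℝ) (c : ℕ) :
    Ex F (pw w (c + 1)) = Ex F (mul (pw w c) w) := by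
  unfold Ex
  rw [← ((Equiv.prodComm _ _).trans (Fin.snocEquiv (fun _ : Fin (c + 1) => ι))).tsum_eq
    (fun f => F (pw w (c + 1) f))]
  refine tsum_congr fun p => ?_
  congr 1
  funext a
  simp [pw, mul, Fin.prod_univ_castSucc, Fin.snocEquiv]

/-- Fubini for products of experiments -/
theorem Ex_mul (hq : 0 < q) {P : κ → Fin q → ℝ} (hP : IsExp P) {Q : ι → Fin q → ℝ}
    (hQ : IsExp Q) {F : (Fin q → ℝ) → ℝ} (hF : MBdd F) :
    Ex F (mul P Q) = ∑' k, ∑' i, F (fun a => P i a * Q k a) := by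
  have hs : Summable (fun p : κ × ι => F (mul P Q p)) := (isExp_mul hP hQ).summable hq hF
  unfold Ex
  rw [← (Equiv.prodComm ι κ).tsum_eq (fun p => F (mul P Q p))]
  have hs' : Summable (fun p : ι × κ => F (mul P Q (Equiv.prodComm ι κ p))) :=
    (Equiv.prodComm ι κ).summable_iff.2 hs
  rw [hs'.tsum_prod]
  rfl

/-- associativity -/
theorem Ex_mul_assoc {κ' : Type*} (P : κ → Fin q → ℝ) (Q : ι → Fin q → ℝ)
    (R : κ' → Fin q → ℝ) (F : (Fin q → ℝ) → ℝ) :
    Ex F (mul (mul P Q) R) = Ex F (mul P (mul Q R)) := by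
  unfold Ex
  rw [← (Equiv.prodAssoc κ ι κ').tsum_eq (fun p => F (mul P (mul Q R) p))]
  refine tsum_congr fun p => ?_
  congr 1
  funext a
  simp only [mul, Equiv.prodAssoc_apply]
  ring

/-- the posterior-martingale identity: `∑_k mass(Q_k) * uv(Q_k) a = 0` -/
theorem IsExp.hasSum_mass_uv (hq : 0 < q) {w : ι → Fin q → ℝ} (hw : IsExp w) (a : Fin q) :
    HasSum (fun i => mass (w i) * uv (w i) a) 0 := by
  have h := (hw.hasSum a).sub (hw.hasSum_mass hq)
  rw [sub_self] at h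
  refine h.congr_fun ?_
  intro i
  have := eq_mass_mul hq (w i) (hw.nonneg i) a
  linarith

end Crest.Agent.R163
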