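import Crest.Agent.R163.Basic

/-!
# Row 163: the Blackwell (degradation) order, in its dual (sublinear functional) form (helper56)

`SubL F`    : `F` is homogeneous, bounded by the mass and subadditive on nonnegative vectors;
`Dom P Q`   : `Ex F P ≤ Ex F Q` for all sublinear `F` ("`P` is less informative than `Q`").

Main facts: `dom_ch`, `dom_mul`, `dom_pw`, `dom_pw_mono`, `dom_ch_self`, `ch_ch`.
-/

set_option autoImplicit false

namespace Crest.Agent.R163

open Finset Filter

variable {q : ℕ}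

/-- sublinear functionals -/
structure SubL (F : (Fin q → ℝ) → ℝ) : Prop where
  homog : Homog F
  mbdd : MBdd F
  add_le : ∀ u v : Fin q → ℝ, (∀ a, 0 ≤ u a) → (∀ a, 0 ≤ v a) →
    F (fun a => u a + v a) ≤ F u + F v

/-- `P` is less informative than `Q` -/
def Dom {κ ι : Type*} (P : κ → Fin q → ℝ) (Q : ι → Fin q → ℝ) : Prop :=
  ∀ F : (Fin q → ℝ) → ℝ, SubL F → Ex F P ≤ Ex F Q

theorem Dom.refl {κ : Type*} (P : κ → Fin q → ℝ) : Dom P P := fun _ _ => le_rfl

theorem Dom.trans {κ ι μ : Type*} {P : κ → Fin q → ℝ} {Q : ι → Fin q → ℝ} {R : μ → Fin q → ℝ}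
    (h1 : Dom P Q) (h2 : Dom Q R) : Dom P R := fun F hF => (h1 F hF).trans (h2 F hF)

theorem ch_nonneg (hq : 1 < q) {β : ℝ} (h0 : -(1 / ((q : ℝ) - 1)) ≤ β) (h1 : β ≤ 1)
    (v : Fin q → ℝ) (hv : ∀ a, 0 ≤ v a) (a : Fin q) : 0 ≤ β * v a + (1 - β) * mass v := by
  have hq1 : (1 : ℝ) < q := by exact_mod_cast hq
  have hle := le_mass (by omega : 0 < q) v hv a
  have hm := mass_nonneg v hv
  rcases le_or_gt 0 β with hβ | hβ
  · exact add_nonneg (mul_nonneg hβ (hv a)) (mul_nonneg (by linarith) hm)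
  · have h2 : β * (q * mass v) ≤ β * v a := mul_le_mul_of_nonpos_left hle hβ.le
    have h3 : -1 ≤ β * ((q : ℝ) - 1) := by
      have := mul_le_mul_of_nonneg_right h0 (by linarith : (0 : ℝ) ≤ (q : ℝ) - 1)
      have e : -(1 / ((q : ℝ) - 1)) * ((q : ℝ) - 1) = -1 := by
        have : (q : ℝ) - 1 ≠ 0 := by linarith
        field_simp
      linarith
    nlinarith

/-- `mass` of a vector seen through the channel -/
theorem mass_chv (hq : 0 < q) (β : ℝ) (v : Fin q → ℝ) :
    mass (fun a => β * v a + (1 - β) * mass v) = mass v :=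
  mass_ch hq β (fun _ : Unit => v) ()

theorem mass_add (u v : Fin q → ℝ) : mass (fun a => u a + v a) = mass u + mass v := by
  unfold mass
  rw [Finset.sum_add_distrib]; ring

theorem SubL.comp_ch (hq : 1 < q) {β : ℝ} (h0 : -(1 / ((q : ℝ) - 1)) ≤ β) (h1 : β ≤ 1)
    {F : (Fin q → ℝ) → ℝ} (hF : SubL F) :
    SubL (fun v : Fin q → ℝ => F (fun a => β * v a + (1 - β) * mass v)) := by
  refine ⟨?_, ?_, ?_⟩
  · intro t v ht hv
    have e : (fun a => β * (t * v a) + (1 - β) * mass (fun a => t * v a)) =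
        fun a => t * (β * v a + (1 - β) * mass v) := by
      funext a
      rw [mass_smul]; ring
    show F (fun a => β * (t * v a) + (1 - β) * mass (fun a => t * v a)) = _
    rw [e]
    exact hF.homog t _ ht (ch_nonneg hq h0 h1 v hv)
  · obtain ⟨C, hC, h⟩ := hF.mbdd
    refine ⟨C, hC, fun v hv => ?_⟩
    have := h _ (ch_nonneg hq h0 h1 v hv)
    rwa [mass_chv (by omega)] at this
  · intro u v hu hv
    have e : (fun a => β * (u a + v a) + (1 - β) * mass (fun a => u a + v a)) =
        fun a => (β * u a + (1 - β) * mass u) + (β * v a + (1 - β) * mass v) := by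
      funext a
      rw [mass_add]; ring
    show F (fun a => β * (u a + v a) + (1 - β) * mass (fun a => u a + v a)) ≤ _
    rw [e]
    exact hF.add_le _ _ (ch_nonneg hq h0 h1 u hu) (ch_nonneg hq h0 h1 v hv)

theorem dom_ch (hq : 1 < q) {β : ℝ} (h0 : -(1 / ((q : ℝ) - 1)) ≤ β) (h1 : β ≤ 1)
    {κ ι : Type*} {P : κ → Fin q → ℝ} {Q : ι → Fin q → ℝ} (h : Dom P Q) :
    Dom (ch β P) (ch β Q) := fun _ hF => h _ (hF.comp_ch hq h0 h1)

/-- the masses of the products with a fixed vector -/
theorem IsExp.hasSum_mass_mul {κ : Type*} {R : κ → Fin q → ℝ} (hR : IsExp R) (v : Fin q → ℝ) :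
    HasSum (fun j => mass (fun a => v a * R j a)) (mass v) := by
  have h : HasSum (fun i => (1 / (q : ℝ)) * ∑ a, v a * R i a)
      ((1 / (q : ℝ)) * ∑ a : Fin q, v a * 1) :=
    (hasSum_sum fun a _ => (hR.hasSum a).mul_left (v a)).mul_left _
  simp only [mul_one] at h
  exact h

theorem IsExp.summable_mul {κ : Type*} {R : κ → Fin q → ℝ} (hR : IsExp R)
    {F : (Fin q → ℝ) → ℝ} (hF : MBdd F) (v : Fin q → ℝ) (hv : ∀ a, 0 ≤ v a) :
    Summable (fun j => F (fun a => v a * R j a)) := by
  obtain ⟨C, hC, h⟩ := hF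
  refine Summable.of_norm_bounded (g := fun j => C * mass (fun a => v a * R j a))
    ((hR.hasSum_mass_mul v).summable.mul_left C) fun j => ?_
  rw [Real.norm_eq_abs]
  exact h _ fun a => mul_nonneg (hv a) (hR.nonneg j a)

theorem SubL.comp_mul {κ : Type*} {R : κ → Fin q → ℝ} (hR : IsExp R)
    {F : (Fin q → ℝ) → ℝ} (hF : SubL F) :
    SubL (fun v : Fin q → ℝ => ∑' j, F (fun a => v a * R j a)) := by
  refine ⟨?_, ?_, ?_⟩
  · intro t v ht hv
    show ∑' j, F (fun a => t * v a * R j a) = t * ∑' j, F (fun a => v a * R j a)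
    rw [← tsum_mul_left]
    refine tsum_congr fun j => ?_
    rw [← hF.homog t _ ht (fun a => mul_nonneg (hv a) (hR.nonneg j a))]
    congr 1
    funext a; ring
  · obtain ⟨C, hC, h⟩ := hF.mbdd
    refine ⟨C, hC, fun v hv => ?_⟩
    have hs := hR.summable_mul hF.mbdd v hv
    have h1 := (hR.hasSum_mass_mul v).mul_left C
    have hb : ∀ j, |F (fun a => v a * R j a)| ≤ C * mass (fun a => v a * R j a) :=
      fun j => h _ fun a => mul_nonneg (hv a) (hR.nonneg j a)
    rw [abs_le]
    constructor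
    · have := hasSum_le (fun j => (abs_le.1 (hb j)).1) h1.neg hs.hasSum
      linarith
    · exact hasSum_le (fun j => (abs_le.1 (hb j)).2) hs.hasSum h1
  · intro u v hu hv
    have hsu := hR.summable_mul hF.mbdd u hu
    have hsv := hR.summable_mul hF.mbdd v hv
    have hsuv := hR.summable_mul hF.mbdd (fun a => u a + v a) fun a => add_nonneg (hu a) (hv a)
    refine hasSum_le (fun j => ?_) hsuv.hasSum (hsu.hasSum.add hsv.hasSum)
    have e : (fun a => (u a + v a) * R j a) = fun a => u a * R j a + v a * R j a := by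
      funext a; ring
    rw [e]
    exact hF.add_le _ _ (fun a => mul_nonneg (hu a) (hR.nonneg j a))
      (fun a => mul_nonneg (hv a) (hR.nonneg j a))

/-- expectation over a product, first factor outside -/
theorem Ex_mul_left (hq : 0 < q) {κ ι : Type*} {P : κ → Fin q → ℝ} (hP : IsExp P)
    {R : ι → Fin q → ℝ} (hR : IsExp R) {F : (Fin q → ℝ) → ℝ} (hF : MBdd F) :
    Ex F (mul P R) = Ex (fun v => ∑' j, F (fun a => v a * R j a)) P := by
  have hs : Summable (fun p : κ × ι => F (mul P R p)) := (isExp_mul hP hR).summable hq hF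
  unfold Ex
  rw [hs.tsum_prod]
  rfl

/-- expectation over a product, second factor outside -/
theorem Ex_mul_right (hq : 0 < q) {κ ι : Type*} {P : κ → Fin q → ℝ} (hP : IsExp P)
    {R : ι → Fin q → ℝ} (hR : IsExp R) {F : (Fin q → ℝ) → ℝ} (hF : MBdd F) :
    Ex F (mul P R) = Ex (fun v => ∑' j, F (fun a => v a * P j a)) R := by
  rw [Ex_mul hq hP hR hF]
  unfold Ex
  refine tsum_congr fun k => tsum_congr fun i => ?_
  congr 1
  funext a; ring

theorem dom_mul (hq : 0 < q) {κ ι κ' ι' : Type*} {P : κ → Fin q → ℝ} {Q : ι → Fin q → ℝ}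
    {P' : κ' → Fin q → ℝ} {Q' : ι' → Fin q → ℝ} (hP : IsExp P) (hQ : IsExp Q)
    (hP' : IsExp P') (hQ' : IsExp Q') (h : Dom P Q) (h' : Dom P' Q') :
    Dom (mul P P') (mul Q Q') := by
  intro F hF
  rw [Ex_mul_left hq hP hP' hF.mbdd]
  refine (h _ (hF.comp_mul hP')).trans ?_
  rw [← Ex_mul_left hq hQ hP' hF.mbdd, Ex_mul_right hq hQ hP' hF.mbdd,
    Ex_mul_right hq hQ hQ' hF.mbdd]
  exact h' _ (hF.comp_mul hQ)

theorem dom_pw (hq : 0 < q) {κ ι : Type*} {P : κ → Fin q → ℝ} {Q : ι → Fin q → ℝ}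
    (hP : IsExp P) (hQ : IsExp Q) (h : Dom P Q) (n : ℕ) : Dom (pw P n) (pw Q n) := by
  induction n with
  | zero =>
    intro F _
    rw [Ex_pw_zero, Ex_pw_zero]
  | succ n ih =>
    intro F hF
    rw [Ex_pw_succ, Ex_pw_succ]
    exact dom_mul hq (isExp_pw hP n) (isExp_pw hQ n) hP hQ ih h F hF

/-- finite subadditivity -/
theorem SubL.sum_le {F : (Fin q → ℝ) → ℝ} (hF : SubL F) {κ : Type*} (s : Finset κ)
    (V : κ → Fin q → ℝ) (hV : ∀ j a, 0 ≤ V j a) :
    F (fun a => ∑ j ∈ s, V j a) ≤ ∑ j ∈ s, F (V j) := by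
  classical
  induction s using Finset.induction_on with
  | empty =>
    simp only [Finset.sum_empty]
    have := hF.homog 0 (fun _ => 0) le_rfl (fun _ => le_rfl)
    simp only [zero_mul, mul_zero] at this
    exact this.le
  | insert j s hj ih =>
    rw [Finset.sum_insert hj]
    have e : (fun a => ∑ i ∈ insert j s, V i a) = fun a => V j a + ∑ i ∈ s, V i a := by
      funext a; rw [Finset.sum_insert hj]
    rw [e]
    have := hF.add_le (V j) (fun a => ∑ i ∈ s, V i a) (hV j)
      (fun a => Finset.sum_nonneg fun i _ => hV i a)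
    linarith

/-- countable subadditivity -/
theorem SubL.tsum_le {F : (Fin q → ℝ) → ℝ} (hF : SubL F) {κ : Type*}
    (V : κ → Fin q → ℝ) (hV : ∀ j a, 0 ≤ V j a) (v : Fin q → ℝ)
    (hs : ∀ a, HasSum (fun j => V j a) (v a)) : F v ≤ ∑' j, F (V j) := by
  obtain ⟨C, hC, hb⟩ := hF.mbdd
  have hv : ∀ a, 0 ≤ v a := fun a => (hs a).nonneg (fun j => hV j a)
  have hmass : HasSum (fun j => mass (V j)) (mass v) := (hasSum_sum fun a _ => hs a).mul_left _
  have hsum : Summable (fun j => F (V j)) := by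
    refine Summable.of_norm_bounded (g := fun j => C * mass (V j)) (hmass.summable.mul_left C)
      fun j => ?_
    rw [Real.norm_eq_abs]
    exact hb _ (hV j)
  have hle : ∀ s : Finset κ, F v ≤ ∑ j ∈ s, F (V j) + C * (mass v - ∑ j ∈ s, mass (V j)) := by
    intro s
    have hrem : ∀ a, 0 ≤ v a - ∑ j ∈ s, V j a := fun a =>
      sub_nonneg.2 (sum_le_hasSum s (fun j _ => hV j a) (hs a))
    have h1 := hF.add_le (fun a => ∑ j ∈ s, V j a) (fun a => v a - ∑ j ∈ s, V j a)
      (fun a => Finset.sum_nonneg fun i _ => hV i a) hrem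
    have e : (fun a => ∑ j ∈ s, V j a + (v a - ∑ j ∈ s, V j a)) = v := by
      funext a; ring
    rw [e] at h1
    have h2 := hF.sum_le s V hV
    have h3 := (abs_le.1 (hb (fun a => v a - ∑ j ∈ s, V j a) hrem)).2
    have h4 : mass (fun a => v a - ∑ j ∈ s, V j a) = mass v - ∑ j ∈ s, mass (V j) := by
      unfold mass
      rw [Finset.sum_sub_distrib, ← Finset.mul_sum, Finset.sum_comm]
      ring
    rw [h4] at h3
    linarith
  have hlim : Tendsto (fun s : Finset κ => ∑ j ∈ s, F (V j) + C * (mass v - ∑ j ∈ s, mass (V j)))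
      atTop (nhds (∑' j, F (V j) + C * (mass v - mass v))) := by
    have t1 : Tendsto (fun s : Finset κ => ∑ j ∈ s, F (V j)) atTop (nhds (∑' j, F (V j))) := by
      simpa [HasSum] using hsum.hasSum
    have t2 : Tendsto (fun s : Finset κ => ∑ j ∈ s, mass (V j)) atTop (nhds (mass v)) := by
      simpa [HasSum] using hmass
    exact t1.add ((tendsto_const_nhds.sub t2).const_mul C)
  rw [sub_self, mul_zero, add_zero] at hlim
  exact ge_of_tendsto' hlim hle

/-- an additional independent observation can only help -/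
theorem dom_mul_self (hq : 0 < q) {κ ι : Type*} {P : κ → Fin q → ℝ} {R : ι → Fin q → ℝ}
    (hP : IsExp P) (hR : IsExp R) : Dom P (mul P R) := by
  intro F hF
  rw [Ex_mul_left hq hP hR hF.mbdd]
  refine (hP.summable hq hF.mbdd).tsum_le_tsum (fun i => ?_)
    (hP.summable hq (hF.comp_mul hR).mbdd)
  refine hF.tsum_le (fun j a => P i a * R j a)
    (fun j a => mul_nonneg (hP.nonneg i a) (hR.nonneg j a)) (P i) fun a => ?_
  have := (hR.hasSum a).mul_left (P i a)
  rwa [mul_one] at this

theorem dom_pw_mono (hq : 0 < q) {κ : Type*} {P : κ → Fin q → ℝ} (hP : IsExp P) {c c' : ℕ}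
    (h : c ≤ c') : Dom (pw P c) (pw P c') := by
  induction c', h using Nat.le_induction with
  | base => exact Dom.refl _
  | succ n _ ih =>
    refine ih.trans fun F hF => ?_
    rw [Ex_pw_succ]
    exact dom_mul_self hq (isExp_pw hP n) hP F hF

theorem ch_ch (hq : 0 < q) (γ β : ℝ) {κ : Type*} (w : κ → Fin q → ℝ) :
    ch γ (ch β w) = ch (γ * β) w := by
  funext i a
  have h := mass_ch hq β w i
  unfold ch at h ⊢
  rw [h]
  ring

/-- expectations under a symmetric experiment do not see permutations of the spins -/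
theorem Ex_permB {κ : Type*} {w : κ → Fin q → ℝ} (hw : IsSymm w) (F : (Fin q → ℝ) → ℝ)
    (σ : Equiv.Perm (Fin q)) : Ex (fun v => F (fun a => v (σ a))) w = Ex F w := by
  obtain ⟨e, he⟩ := hw σ
  unfold Ex
  rw [← e.tsum_eq (fun i => F (w i))]
  refine tsum_congr fun i => ?_
  show F (fun a => w i (σ a)) = F (w (e i))
  congr 1
  funext a
  exact (he i a).symm

/-- a symmetric experiment is degraded by the symmetric channel -/
theorem dom_ch_self (hq : 1 < q) {γ : ℝ} (h0 : -(1 / ((q : ℝ) - 1)) ≤ γ) (h1 : γ ≤ 1)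
    {κ : Type*} {w : κ → Fin q → ℝ} (hw : IsExp w) (hs : IsSymm w) : Dom (ch γ w) w := by
  have hq0 : 0 < q := by omega
  have : NeZero q := ⟨by omega⟩
  have hq1 : (1 : ℝ) < q := by exact_mod_cast hq
  have hqp : (0 : ℝ) < q := by linarith
  intro F hF
  set c : Fin q → ℝ := fun k => if k = 0 then (1 + (q - 1) * γ) / q else (1 - γ) / q with hc
  have hcn : ∀ k, 0 ≤ c k := by
    intro k
    simp only [hc]
    split_ifs
    · apply div_nonneg _ hqp.le
      have := mul_le_mul_of_nonneg_right h0 (by linarith : (0 : ℝ) ≤ (q : ℝ) - 1)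
      have e : -(1 / ((q : ℝ) - 1)) * ((q : ℝ) - 1) = -1 := by
        have : (q : ℝ) - 1 ≠ 0 := by linarith
        field_simp
      linarith
    · exact div_nonneg (by linarith) hqp.le
  have hce : ∀ k, c k = (1 - γ) / q + (if k = 0 then γ else 0) := by
    intro k
    simp only [hc]
    split_ifs
    · field_simp; ring
    · ring
  have hcs : ∑ k, c k = 1 := by
    simp only [hce]
    rw [Finset.sum_add_distrib, Finset.sum_ite_eq' Finset.univ (0 : Fin q) (fun _ => γ)]
    simp only [Finset.sum_const, Finset.card_univ, Fintype.card_fin, nsmul_eq_mul,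
      Finset.mem_univ, if_true]
    field_simp; ring
  have hT : ∀ i, ch γ w i = fun a => ∑ k, c k * w i (Equiv.addRight k a) := by
    intro i
    funext a
    simp only [hce, add_mul, Equiv.coe_addRight]
    rw [Finset.sum_add_distrib, ← Finset.mul_sum]
    have e1 : ∑ k : Fin q, w i (a + k) = ∑ b, w i b := by
      exact Equiv.sum_comp (Equiv.addLeft a) (fun b => w i b)
    have e2 : ∑ k : Fin q, (if k = 0 then γ else 0) * w i (a + k) = γ * w i a := by
      rw [Finset.sum_eq_single (0 : Fin q)]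
      · simp
      · intro b _ hb
        rw [if_neg hb, zero_mul]
      · intro h; exact absurd (Finset.mem_univ _) h
    rw [e1, e2]
    unfold ch mass
    ring
  have hle : ∀ i, F (ch γ w i) ≤ ∑ k, c k * F (fun a => w i (Equiv.addRight k a)) := by
    intro i
    rw [hT i]
    refine (hF.sum_le Finset.univ (fun k a => c k * w i (Equiv.addRight k a))
      fun k a => mul_nonneg (hcn k) (hw.nonneg _ _)).trans (le_of_eq ?_)
    exact Finset.sum_congr rfl fun k _ => hF.homog (c k) _ (hcn k) fun a => hw.nonneg _ _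
  have hperm : ∀ k : Fin q, SubL (fun v : Fin q → ℝ => F (fun a => v (Equiv.addRight k a))) := by
    intro k
    refine ⟨fun t v ht hv => hF.homog t _ ht fun a => hv _, ?_, fun u v hu hv =>
      hF.add_le _ _ (fun a => hu _) fun a => hv _⟩
    obtain ⟨C, hC, h⟩ := hF.mbdd
    refine ⟨C, hC, fun v hv => ?_⟩
    have := h (fun a => v (Equiv.addRight k a)) fun a => hv _
    have e : mass (fun a => v (Equiv.addRight k a)) = mass v := by
      unfold mass
      rw [Equiv.sum_comp (Equiv.addRight k) (fun b => v b)]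
    rwa [e] at this
  have hsum : ∀ k : Fin q, HasSum (fun i => F (fun a => w i (Equiv.addRight k a))) (Ex F w) := by
    intro k
    have h2 := (hw.summable hq0 (hperm k).mbdd).hasSum
    have e := Ex_permB hs F (Equiv.addRight k)
    unfold Ex at e
    rw [e] at h2
    exact h2
  have htot : HasSum (fun i => ∑ k, c k * F (fun a => w i (Equiv.addRight k a)))
      (∑ k, c k * Ex F w) := hasSum_sum fun k _ => (hsum k).mul_left (c k)
  rw [← Finset.sum_mul, hcs, one_mul] at htot
  exact hasSum_le hle ((isExp_ch hq h0 h1 hw).summable hq0 hF.mbdd).hasSum htot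

/-- the channel with smaller parameter is a degradation -/
theorem dom_ch_mul (hq : 1 < q) {γ β : ℝ} (h0 : -(1 / ((q : ℝ) - 1)) ≤ γ) (h1 : γ ≤ 1)
    (hβ0 : -(1 / ((q : ℝ) - 1)) ≤ β) (hβ1 : β ≤ 1)
    {κ : Type*} {w : κ → Fin q → ℝ} (hw : IsExp w) (hs : IsSymm w) :
    Dom (ch (γ * β) w) (ch β w) := by
  rw [← ch_ch (by omega)]
  exact dom_ch_self hq h0 h1 (isExp_ch hq hβ0 hβ1 hw) (isSymm_ch β hs)

end Crest.Agent.R163
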