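import Crest.Agent.R163.Pot

/-!
# Row 163: pointwise certificates

`nrm F v = F v / mass v` is the value of `F` at the normalised vector (`1 + u`).

`cert_pt`: indices `j` with `g j ≥ 0` use the tangent `1 - G t ≤ d (1 - t)`, indices with
`g j = -w j ≤ 0` use Jensen `G (E t) ≤ E G t` (`G t = exp (d (t-1))`).
-/

set_option autoImplicit false

namespace Crest.Agent.R163

open Finset Filter

variable {q : ℕ}

/-- normalised value -/
noncomputable def nrm (F : (Fin q → ℝ) → ℝ) (v : Fin q → ℝ) : ℝ := F v / mass v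

/-- the channel on one vector -/
noncomputable def chv (lam : ℝ) (v : Fin q → ℝ) : Fin q → ℝ := fun a => lam * v a + (1 - lam) * mass v

theorem ch_eq_chv {ι : Type*} (lam : ℝ) (w : ι → Fin q → ℝ) (i : ι) : ch lam w i = chv lam (w i) :=
  rfl

/-- Jensen for `exp (d (t - 1))` -/
theorem jensen_exp (hq : 0 < q) {ι : Type} {w : ι → Fin q → ℝ} (hw : IsExp w)
    {F : (Fin q → ℝ) → ℝ} (hF : MBdd F) (hH : Homog F) (d : ℝ)
    (hs : Summable fun i => mass (w i) * Real.exp (d * (nrm F (w i) - 1))) :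
    Real.exp (d * (Ex F w - 1)) ≤ ∑' i, mass (w i) * Real.exp (d * (nrm F (w i) - 1)) := by
  set M := Ex F w with hM
  have hmass := hw.hasSum_mass hq
  have hFs := (hw.summable hq hF).hasSum
  have hz : ∀ i, mass (w i) * nrm F (w i) = F (w i) := by
    intro i
    unfold nrm
    by_cases h : mass (w i) = 0
    · have h0 : w i = fun _ => (0 : ℝ) := by
        funext a; exact eq_zero_of_mass_eq_zero hq _ (hw.nonneg i) h a
      have := hH 0 (fun _ => 0) le_rfl (fun _ => le_rfl)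
      simp only [zero_mul] at this
      rw [h, zero_mul, h0, this]
    · field_simp
  have h1 : HasSum (fun i => Real.exp (d * (M - 1)) *
      (mass (w i) + (d * F (w i) - d * M * mass (w i)))) (Real.exp (d * (M - 1)) *
      (1 + (d * M - d * M * 1))) :=
    (hmass.add ((hFs.mul_left d).sub (hmass.mul_left (d * M)))).mul_left _
  have h2 : Real.exp (d * (M - 1)) * (1 + (d * M - d * M * 1)) = Real.exp (d * (M - 1)) := by
    ring
  rw [h2] at h1
  rw [← h1.tsum_eq]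
  refine Summable.tsum_le_tsum (fun i => ?_) h1.summable hs
  have e1 : Real.exp (d * (nrm F (w i) - 1)) =
      Real.exp (d * (M - 1)) * Real.exp (d * (nrm F (w i) - M)) := by
    rw [← Real.exp_add]; congr 1; ring
  have e2 : mass (w i) + (d * F (w i) - d * M * mass (w i)) =
      mass (w i) * (d * (nrm F (w i) - M) + 1) := by
    rw [← hz i]; ring
  rw [e1, e2]
  have := Real.add_one_le_exp (d * (nrm F (w i) - M))
  have hm := mass_nonneg _ (hw.nonneg i)
  have he := (Real.exp_pos (d * (M - 1))).le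
  calc Real.exp (d * (M - 1)) * (mass (w i) * (d * (nrm F (w i) - M) + 1))
      ≤ Real.exp (d * (M - 1)) * (mass (w i) * Real.exp (d * (nrm F (w i) - M))) := by gcongr
    _ = mass (w i) * (Real.exp (d * (M - 1)) * Real.exp (d * (nrm F (w i) - M))) := by ring

/-- the pointwise expression of a certificate -/
noncomputable def ptx {k : ℕ} (lam d : ℝ) (g : Fin k → ℝ) (F : Fin k → (Fin q → ℝ) → ℝ)
    (v : Fin q → ℝ) : ℝ :=
  ∑ j, (if 0 ≤ g j then g j * ((1 - nrm (F j) v) - d * (1 - nrm (F j) (chv lam v)))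
    else (-g j) * (nrm (F j) v - Real.exp (d * (nrm (F j) (chv lam v) - 1))))

theorem mass_chV (hq : 0 < q) (lam : ℝ) (v : Fin q → ℝ) : mass (chv lam v) = mass v :=
  mass_ch hq lam (fun _ : Unit => v) ()

theorem mass_mul_nrm (hq : 0 < q) {F : (Fin q → ℝ) → ℝ} (hH : Homog F) (v : Fin q → ℝ)
    (hv : ∀ a, 0 ≤ v a) : mass v * nrm F v = F v := by
  unfold nrm
  by_cases h : mass v = 0
  · have h0 : v = fun _ => (0 : ℝ) := by
      funext a; exact eq_zero_of_mass_eq_zero hq _ hv h a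
    have := hH 0 (fun _ => 0) le_rfl (fun _ => le_rfl)
    simp only [zero_mul] at this
    rw [h, zero_mul, h0, this]
  · field_simp

theorem chv_nonneg (hq : 1 < q) {lam : ℝ} (hl0 : -(1 / ((q : ℝ) - 1)) ≤ lam) (hl1 : lam ≤ 1)
    (v : Fin q → ℝ) (hv : ∀ a, 0 ≤ v a) (a : Fin q) : 0 ≤ chv lam v a := by
  have hq0 : 0 < q := by omega
  have hq' : (1 : ℝ) < q := by exact_mod_cast hq
  have h1 := le_mass hq0 v hv a
  have h2 := hv a
  have h3 := mass_nonneg v hv
  unfold chv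
  rcases le_or_gt 0 lam with hl | hl
  · exact add_nonneg (mul_nonneg hl h2) (mul_nonneg (by linarith) h3)
  · have h4 : lam * v a ≥ lam * (q * mass v) := mul_le_mul_of_nonpos_left h1 hl.le
    have h5 : 0 ≤ (1 + lam * ((q : ℝ) - 1)) := by
      have : -(1 / ((q : ℝ) - 1)) * ((q : ℝ) - 1) ≤ lam * ((q : ℝ) - 1) :=
        mul_le_mul_of_nonneg_right hl0 (by linarith)
      have e : -(1 / ((q : ℝ) - 1)) * ((q : ℝ) - 1) = -1 := by
        have h6 : ((q : ℝ) - 1) ≠ 0 := by linarith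
        field_simp
      linarith
    nlinarith [mul_nonneg h5 h3]

theorem nrm_smul {F : (Fin q → ℝ) → ℝ} (hH : Homog F) (t : ℝ) (ht : 0 < t) (v : Fin q → ℝ)
    (hv : ∀ a, 0 ≤ v a) : nrm F (fun a => t * v a) = nrm F v := by
  unfold nrm
  rw [hH t v ht.le hv, mass_smul, mul_div_mul_left _ _ ht.ne']

theorem chv_smul (lam t : ℝ) (v : Fin q → ℝ) :
    chv lam (fun a => t * v a) = fun a => t * chv lam v a := by
  funext a
  unfold chv
  rw [mass_smul]; ring

theorem ptx_smul (hq : 1 < q) {lam : ℝ} (hl0 : -(1 / ((q : ℝ) - 1)) ≤ lam) (hl1 : lam ≤ 1)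
    (d : ℝ) {k : ℕ} (g : Fin k → ℝ) (F : Fin k → (Fin q → ℝ) → ℝ)
    (hF : ∀ j, MF (F j)) (t : ℝ) (ht : 0 < t) (v : Fin q → ℝ) (hv : ∀ a, 0 ≤ v a) :
    ptx lam d g F (fun a => t * v a) = ptx lam d g F v := by
  unfold ptx
  refine Finset.sum_congr rfl fun j _ => ?_
  rw [nrm_smul (hF j).homog t ht v hv, chv_smul,
    nrm_smul (hF j).homog t ht _ (chv_nonneg hq hl0 hl1 v hv)]

theorem abs_nrm_le (hq : 1 < q) {F : (Fin q → ℝ) → ℝ} (hF : MF F) :
    ∃ C, 0 ≤ C ∧ ∀ v : Fin q → ℝ, (∀ a, 0 ≤ v a) → |nrm F v| ≤ C := by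
  obtain ⟨C, hC, h⟩ := hF.mbdd
  refine ⟨C, hC, fun v hv => ?_⟩
  unfold nrm
  by_cases h0 : mass v = 0
  · rw [h0, div_zero, abs_zero]; exact hC
  · have hm : 0 < mass v := lt_of_le_of_ne (mass_nonneg v hv) (Ne.symm h0)
    rw [abs_div, abs_of_pos hm, div_le_iff₀ hm]
    exact h v hv

/-- **pointwise certificate**, general form: `G` satisfies the tangent bound and is dominated by
`exp (d (t-1))` at the values which occur. -/
theorem cert_pt (hq : 1 < q) {lam : ℝ} (hl0 : -(1 / ((q : ℝ) - 1)) ≤ lam) (hl1 : lam ≤ 1)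
    (d : ℝ) {k : ℕ} (g : Fin k → ℝ) (F : Fin k → (Fin q → ℝ) → ℝ)
    (hF : ∀ j, MF (F j)) (δ : ℝ) (G : ℝ → ℝ) (hG1 : ∀ t, |t| ≤ 1 → 1 - G t ≤ d * (1 - t))
    (hG2 : ∀ j, g j < 0 → ∀ (κ : Type) (Q : κ → Fin q → ℝ), IsExp Q →
      G (Ex (F j) (ch lam Q)) ≤ Real.exp (d * (Ex (F j) (ch lam Q) - 1)))
    (hpt : ∀ v : Fin q → ℝ, (∀ a, 0 ≤ v a) → mass v = 1 → δ * m2 (uv v) ^ 2 ≤ ptx lam d g F v) :
    CertM q lam G g F δ := by
  intro κ Q hQ hs
  have hq0 : 0 < q := by omega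
  have hch : IsExp (ch lam Q) := isExp_ch hq hl0 hl1 hQ
  have hmass := hQ.hasSum_mass hq0
  -- the terms
  set term : Fin k → (Fin q → ℝ) → ℝ := fun j v =>
    (if 0 ≤ g j then g j * ((1 - nrm (F j) v) - d * (1 - nrm (F j) (chv lam v)))
    else (-g j) * (nrm (F j) v - Real.exp (d * (nrm (F j) (chv lam v) - 1)))) with hterm
  -- exponential sums
  have hexp : ∀ j, Summable fun i => mass (Q i) * Real.exp (d * (nrm (F j) (chv lam (Q i)) - 1)) := by
    intro j
    obtain ⟨C, hC, hb⟩ := abs_nrm_le hq (hF j)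
    refine Summable.of_norm_bounded (g := fun i => Real.exp (|d| * (C + 1)) * mass (Q i))
      (hmass.summable.mul_left _) fun i => ?_
    have hm := mass_nonneg _ (hQ.nonneg i)
    rw [Real.norm_eq_abs, abs_mul, abs_of_nonneg hm, abs_of_pos (Real.exp_pos _), mul_comm]
    refine mul_le_mul_of_nonneg_right (Real.exp_le_exp.2 ?_) hm
    have h1 := hb (chv lam (Q i)) (chv_nonneg hq hl0 hl1 _ (hQ.nonneg i))
    calc d * (nrm (F j) (chv lam (Q i)) - 1) ≤ |d * (nrm (F j) (chv lam (Q i)) - 1)| := le_abs_self _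
      _ = |d| * |nrm (F j) (chv lam (Q i)) - 1| := abs_mul _ _
      _ ≤ |d| * (C + 1) := by
        refine mul_le_mul_of_nonneg_left ?_ (abs_nonneg d)
        have := abs_sub (nrm (F j) (chv lam (Q i))) 1
        rw [abs_one] at this
        linarith
  -- per-term sums
  have hsum : ∀ j, ∃ S, HasSum (fun i => mass (Q i) * term j (Q i)) S ∧
      g j * (1 - G (Ex (F j) (ch lam Q))) ≤ g j * (1 - Ex (F j) Q) - S := by
    intro j
    have hF1 := (hQ.summable hq0 (hF j).mbdd).hasSum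
    have hF2 := (hch.summable hq0 (hF j).mbdd).hasSum
    have hz1 : ∀ i, mass (Q i) * nrm (F j) (Q i) = F j (Q i) := fun i =>
      mass_mul_nrm hq0 (hF j).homog _ (hQ.nonneg i)
    have hz2 : ∀ i, mass (Q i) * nrm (F j) (chv lam (Q i)) = F j (ch lam Q i) := fun i => by
      rw [← mass_chV hq0 lam (Q i), mass_mul_nrm hq0 (hF j).homog _
        (chv_nonneg hq hl0 hl1 _ (hQ.nonneg i)), ch_eq_chv]
    by_cases hg : 0 ≤ g j
    · refine ⟨g j * ((1 - Ex (F j) Q) - d * (1 - Ex (F j) (ch lam Q))), ?_, ?_⟩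
      · have h := ((hmass.sub hF1).sub ((hmass.sub hF2).mul_left d)).mul_left (g j)
        have e : (fun i => mass (Q i) * term j (Q i)) = fun i => g j *
            (mass (Q i) - F j (Q i) - d * (mass (Q i) - F j (ch lam Q i))) := by
          funext i
          simp only [hterm, if_pos hg]
          rw [← hz1 i, ← hz2 i]; ring
        rw [e]; exact h
      · have h := hG1 (Ex (F j) (ch lam Q)) ((hF j).abs_le_one _ _ hch)
        nlinarith [mul_le_mul_of_nonneg_left h hg]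
    · push Not at hg
      refine ⟨(-g j) * (Ex (F j) Q -
        ∑' i, mass (Q i) * Real.exp (d * (nrm (F j) (chv lam (Q i)) - 1))), ?_, ?_⟩
      · have h := (hF1.sub (hexp j).hasSum).mul_left (-g j)
        have e : (fun i => mass (Q i) * term j (Q i)) = fun i => -g j *
            (F j (Q i) - mass (Q i) * Real.exp (d * (nrm (F j) (chv lam (Q i)) - 1))) := by
          funext i
          simp only [hterm, if_neg (not_le.2 hg)]
          rw [← hz1 i]; ring
        rw [e]; exact h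
      · have h := hG2 j hg κ Q hQ
        have h2 := jensen_exp hq0 hch (hF j).mbdd (hF j).homog d (by
          refine (hexp j).congr fun i => ?_
          rw [ch_eq_chv, mass_chV hq0])
        have h3 : (∑' i, mass (ch lam Q i) * Real.exp (d * (nrm (F j) (ch lam Q i) - 1))) =
            ∑' i, mass (Q i) * Real.exp (d * (nrm (F j) (chv lam (Q i)) - 1)) :=
          tsum_congr fun i => by rw [ch_eq_chv, mass_chV hq0]
        rw [h3] at h2
        nlinarith [mul_le_mul_of_nonneg_left (h.trans h2) (neg_nonneg.2 hg.le)]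
  choose S hS1 hS2 using hsum
  have htot : HasSum (fun i => ∑ j, mass (Q i) * term j (Q i)) (∑ j, S j) :=
    hasSum_sum fun j _ => hS1 j
  have hX2 : HasSum (fun i => δ * fX2 (Q i)) (δ * Ex fX2 Q) :=
    (hQ.summable hq0 (mbdd_fX2 hq0)).hasSum.mul_left δ
  have hle : δ * Ex fX2 Q ≤ ∑ j, S j := by
    refine hasSum_le (fun i => ?_) hX2 htot
    rw [← Finset.mul_sum]
    unfold fX2
    by_cases hm : mass (Q i) = 0
    · rw [hm]; simp
    · have hm' : 0 < mass (Q i) := lt_of_le_of_ne (mass_nonneg _ (hQ.nonneg i)) (Ne.symm hm)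
      have ht : 0 < (mass (Q i))⁻¹ := inv_pos.2 hm'
      have h1 := hpt (fun a => (mass (Q i))⁻¹ * Q i a)
        (fun a => mul_nonneg ht.le (hQ.nonneg i a)) (by rw [mass_smul]; exact inv_mul_cancel₀ hm)
      rw [uv_smul _ ht.ne', ptx_smul hq hl0 hl1 d g F hF _ ht _ (hQ.nonneg i)] at h1
      have h2 : ptx lam d g F (Q i) = ∑ j, term j (Q i) := rfl
      rw [← h2]
      calc δ * (mass (Q i) * m2 (uv (Q i)) ^ 2) = mass (Q i) * (δ * m2 (uv (Q i)) ^ 2) := by ring
        _ ≤ mass (Q i) * ptx lam d g F (Q i) := mul_le_mul_of_nonneg_left h1 hm'.le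
  calc ∑ j, g j * (1 - G (Ex (F j) (ch lam Q)))
      ≤ ∑ j, (g j * (1 - Ex (F j) Q) - S j) := Finset.sum_le_sum fun j _ => hS2 j
    _ = PhiM g F Q - ∑ j, S j := by rw [Finset.sum_sub_distrib]; rfl
    _ ≤ PhiM g F Q - δ * Ex fX2 Q := by linarith

theorem cert_poi (hq : 1 < q) {lam : ℝ} (hl0 : -(1 / ((q : ℝ) - 1)) ≤ lam) (hl1 : lam ≤ 1)
    (d : ℝ) {k : ℕ} (g : Fin k → ℝ) (F : Fin k → (Fin q → ℝ) → ℝ)
    (hF : ∀ j, MF (F j)) (δ : ℝ)
    (hpt : ∀ v : Fin q → ℝ, (∀ a, 0 ≤ v a) → mass v = 1 → δ * m2 (uv v) ^ 2 ≤ ptx lam d g F v) :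
    CertM q lam (fun t => Real.exp (d * (t - 1))) g F δ := by
  refine cert_pt hq hl0 hl1 d g F hF δ _ (fun t _ => ?_) (fun j _ κ Q _ => le_rfl) hpt
  have := Real.add_one_le_exp (d * (t - 1))
  show 1 - Real.exp (d * (t - 1)) ≤ d * (1 - t)
  linarith

theorem cert_reg (hq : 1 < q) {lam : ℝ} (hl0 : -(1 / ((q : ℝ) - 1)) ≤ lam) (hl1 : lam ≤ 1)
    (b : ℕ) {k : ℕ} (g : Fin k → ℝ) (F : Fin k → (Fin q → ℝ) → ℝ)
    (hF : ∀ j, MF (F j)) (δ : ℝ)
    (hpos : ∀ j, g j < 0 → ∀ v : Fin q → ℝ, (∀ a, 0 ≤ v a) → 0 ≤ F j (chv lam v))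
    (hpt : ∀ v : Fin q → ℝ, (∀ a, 0 ≤ v a) → mass v = 1 →
      δ * m2 (uv v) ^ 2 ≤ ptx lam (b : ℝ) g F v) :
    CertM q lam (fun t => t ^ b) g F δ := by
  refine cert_pt hq hl0 hl1 (b : ℝ) g F hF δ _ (fun t ht => ?_) (fun j hj κ Q hQ => ?_) hpt
  · have h := one_add_mul_le_pow (a := t - 1) (by linarith [(abs_le.1 ht).1]) b
    have e : 1 + (t - 1) = t := by ring
    rw [e] at h
    show 1 - t ^ b ≤ (b : ℝ) * (1 - t)
    linarith
  · show Ex (F j) (ch lam Q) ^ b ≤ _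
    have h0 : 0 ≤ Ex (F j) (ch lam Q) := tsum_nonneg fun i => hpos j hj _ (hQ.nonneg i)
    have h1 : Ex (F j) (ch lam Q) ≤ Real.exp (Ex (F j) (ch lam Q) - 1) := by
      have := Real.add_one_le_exp (Ex (F j) (ch lam Q) - 1)
      linarith
    calc Ex (F j) (ch lam Q) ^ b ≤ Real.exp (Ex (F j) (ch lam Q) - 1) ^ b :=
          pow_le_pow_left₀ h0 h1 b
      _ = Real.exp ((b : ℝ) * (Ex (F j) (ch lam Q) - 1)) := by rw [← Real.exp_nat_mul]

end Crest.Agent.R163
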