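import Crest.Agent.R163.Bl
import Crest.Agent.R163.PotPt

/-!
# Row 163: lower bounds for superadditive functionals vanishing at the perfect observations (helper56)

`GG G`      : `G` homogeneous, bounded by the mass, superadditive, `G(e_a) = 0` (hence `G ≥ 0`);
`chv β v`   : the channel on likelihood vectors;
`GG.ch_lower` : the channel step;  `GG.pw_lower` : the power step.
-/

set_option autoImplicit false

namespace Crest.Agent.R163

open Finset Filter

variable {q : ℕ}

/-- the perfect observation vector `e_a` -/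
def ev (q : ℕ) (a : Fin q) : Fin q → ℝ := fun b => if a = b then 1 else 0

theorem ev_nonneg (a b : Fin q) : 0 ≤ ev q a b := by
  unfold ev; split_ifs <;> norm_num

/-- superadditive functionals vanishing at the perfect observations -/
structure GG (G : (Fin q → ℝ) → ℝ) : Prop where
  homog : Homog G
  mbdd : MBdd G
  add_ge : ∀ u v : Fin q → ℝ, (∀ a, 0 ≤ u a) → (∀ a, 0 ≤ v a) →
    G u + G v ≤ G (fun a => u a + v a)
  perf : ∀ a, G (ev q a) = 0

/-- invariance under permutations of the spins -/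
def GSym (G : (Fin q → ℝ) → ℝ) : Prop :=
  ∀ (σ : Equiv.Perm (Fin q)) (v : Fin q → ℝ), G (fun a => v (σ a)) = G v

theorem chv_ch (β : ℝ) {κ : Type*} (w : κ → Fin q → ℝ) (i : κ) : ch β w i = chv β (w i) := rfl

theorem superadd_sum {G : (Fin q → ℝ) → ℝ} (hh : Homog G)
    (ha : ∀ u v : Fin q → ℝ, (∀ a, 0 ≤ u a) → (∀ a, 0 ≤ v a) →
      G u + G v ≤ G (fun a => u a + v a))
    {κ : Type*} (s : Finset κ) (V : κ → Fin q → ℝ) (hV : ∀ j a, 0 ≤ V j a) :
    ∑ j ∈ s, G (V j) ≤ G (fun a => ∑ j ∈ s, V j a) := by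
  classical
  induction s using Finset.induction_on with
  | empty =>
    simp only [Finset.sum_empty]
    have := hh 0 (fun _ => 0) le_rfl (fun _ => le_rfl)
    simp only [zero_mul, mul_zero] at this
    exact this.ge
  | insert j s hj ih =>
    rw [Finset.sum_insert hj]
    have e : (fun a => ∑ i ∈ insert j s, V i a) = fun a => V j a + ∑ i ∈ s, V i a := by
      funext a; rw [Finset.sum_insert hj]
    rw [e]
    have := ha (V j) (fun a => ∑ i ∈ s, V i a) (hV j)
      (fun a => Finset.sum_nonneg fun i _ => hV i a)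
    linarith

theorem sum_mul_ev (v : Fin q → ℝ) : (fun b => ∑ a, v a * ev q a b) = v := by
  funext b
  unfold ev
  simp

/-- lower bound of a superadditive functional by its values at the perfect observations -/
theorem superadd_ge {G : (Fin q → ℝ) → ℝ} (hh : Homog G)
    (ha : ∀ u v : Fin q → ℝ, (∀ a, 0 ≤ u a) → (∀ a, 0 ≤ v a) →
      G u + G v ≤ G (fun a => u a + v a))
    (v : Fin q → ℝ) (hv : ∀ a, 0 ≤ v a) : ∑ a, v a * G (ev q a) ≤ G v := by
  have h := superadd_sum hh ha Finset.univ (fun a b => v a * ev q a b)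
    (fun a b => mul_nonneg (hv a) (ev_nonneg a b))
  rw [sum_mul_ev] at h
  refine le_trans (le_of_eq ?_) h
  exact Finset.sum_congr rfl fun a _ => (hh (v a) (ev q a) (hv a) (ev_nonneg a)).symm

theorem GG.nonneg {G : (Fin q → ℝ) → ℝ} (hG : GG G) (v : Fin q → ℝ) (hv : ∀ a, 0 ≤ v a) :
    0 ≤ G v := by
  have := superadd_ge hG.homog hG.add_ge v hv
  simpa [hG.perf] using this

theorem GG.mono {G : (Fin q → ℝ) → ℝ} (hG : GG G) (u v : Fin q → ℝ) (hu : ∀ a, 0 ≤ u a)
    (huv : ∀ a, u a ≤ v a) : G u ≤ G v := by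
  have h := hG.add_ge u (fun a => v a - u a) hu (fun a => sub_nonneg.2 (huv a))
  have h2 := hG.nonneg (fun a => v a - u a) (fun a => sub_nonneg.2 (huv a))
  have e : (fun a => u a + (v a - u a)) = v := by funext a; ring
  rw [e] at h
  linarith

/-- lower bound by a nonnegative combination -/
theorem GG.comb {G : (Fin q → ℝ) → ℝ} (hG : GG G) {κ : Type*} (s : Finset κ) (t : κ → ℝ)
    (ht : ∀ j, 0 ≤ t j) (V : κ → Fin q → ℝ) (hV : ∀ j a, 0 ≤ V j a) (v : Fin q → ℝ)
    (h : ∀ a, ∑ j ∈ s, t j * V j a ≤ v a) : ∑ j ∈ s, t j * G (V j) ≤ G v := by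
  have h1 := superadd_sum hG.homog hG.add_ge s (fun j a => t j * V j a)
    (fun j a => mul_nonneg (ht j) (hV j a))
  have h2 := hG.mono _ v (fun a => Finset.sum_nonneg fun j _ => mul_nonneg (ht j) (hV j a)) h
  refine le_trans (le_of_eq ?_) (h1.trans h2)
  exact Finset.sum_congr rfl fun j _ => (hG.homog (t j) (V j) (ht j) (hV j)).symm

/-- multiplication by a fixed nonnegative vector -/
theorem GG.comp_mulv {G : (Fin q → ℝ) → ℝ} (hG : GG G) (u : Fin q → ℝ) (hu : ∀ a, 0 ≤ u a) :
    GG (fun v : Fin q → ℝ => G (fun a => u a * v a)) := by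
  refine ⟨?_, ?_, ?_, ?_⟩
  · intro t v ht hv
    have e : (fun a => u a * (t * v a)) = fun a => t * (u a * v a) := by funext a; ring
    show G (fun a => u a * (t * v a)) = _
    rw [e]
    exact hG.homog t _ ht fun a => mul_nonneg (hu a) (hv a)
  · obtain ⟨C, hC, h⟩ := hG.mbdd
    refine ⟨C * ∑ a, u a, mul_nonneg hC (Finset.sum_nonneg fun a _ => hu a), fun v hv => ?_⟩
    refine (h _ fun a => mul_nonneg (hu a) (hv a)).trans ?_
    rw [mul_assoc]
    refine mul_le_mul_of_nonneg_left ?_ hC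
    unfold mass
    have h1 : ∑ a, u a * v a ≤ ∑ a, (∑ b, u b) * v a :=
      Finset.sum_le_sum fun a _ => mul_le_mul_of_nonneg_right
        (Finset.single_le_sum (fun b _ => hu b) (Finset.mem_univ a)) (hv a)
    rw [← Finset.mul_sum] at h1
    have h2 : (0 : ℝ) ≤ 1 / q := by positivity
    calc (1 / (q : ℝ)) * ∑ a, u a * v a ≤ (1 / (q : ℝ)) * ((∑ b, u b) * ∑ a, v a) :=
          mul_le_mul_of_nonneg_left h1 h2
      _ = (∑ b, u b) * ((1 / (q : ℝ)) * ∑ a, v a) := by ring
  · intro v w hv hw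
    have e : (fun a => u a * (v a + w a)) = fun a => u a * v a + u a * w a := by funext a; ring
    show _ ≤ G (fun a => u a * (v a + w a))
    rw [e]
    exact hG.add_ge _ _ (fun a => mul_nonneg (hu a) (hv a)) (fun a => mul_nonneg (hu a) (hw a))
  · intro a
    have e : (fun b => u b * ev q a b) = fun b => u a * ev q a b := by
      funext b
      unfold ev
      split_ifs with h
      · rw [h]
      · simp
    show G (fun b => u b * ev q a b) = 0
    rw [e, hG.homog (u a) _ (hu a) (ev_nonneg a), hG.perf, mul_zero]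

/-- multiplication by a fixed experiment -/
theorem GG.comp_mul {κ : Type*} {R : κ → Fin q → ℝ} (hR : IsExp R)
    {G : (Fin q → ℝ) → ℝ} (hG : GG G) :
    GG (fun v : Fin q → ℝ => ∑' j, G (fun a => v a * R j a)) := by
  have hS : SubL (fun v : Fin q → ℝ => -G v) := by
    refine ⟨fun t v ht hv => by rw [hG.homog t v ht hv]; ring, ?_, fun u v hu hv => by
      have := hG.add_ge u v hu hv; linarith⟩
    obtain ⟨C, hC, h⟩ := hG.mbdd
    exact ⟨C, hC, fun v hv => by rw [abs_neg]; exact h v hv⟩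
  have h1 := hS.comp_mul hR
  have e : (fun v : Fin q → ℝ => ∑' j, G (fun a => v a * R j a)) =
      fun v => -(∑' j, -G (fun a => v a * R j a)) := by
    funext v; rw [tsum_neg, neg_neg]
  rw [e]
  refine ⟨fun t v ht hv => ?_, ?_, fun u v hu hv => ?_, fun a => ?_⟩
  · have := h1.homog t v ht hv
    simp only at this
    rw [this]; ring
  · obtain ⟨C, hC, h⟩ := h1.mbdd
    exact ⟨C, hC, fun v hv => by rw [abs_neg]; exact h v hv⟩
  · have := h1.add_le u v hu hv
    simp only at this ⊢
    linarith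
  · show -(∑' j, -G (fun b => ev q a b * R j b)) = 0
    have h2 : ∀ j, G (fun b => ev q a b * R j b) = 0 := by
      intro j
      have := (hG.comp_mulv (R j) (hR.nonneg j)).perf a
      have e2 : (fun b => ev q a b * R j b) = fun b => R j b * ev q a b := by funext b; ring
      rw [e2]; exact this
    simp [h2]

/-- the power step -/
theorem GG.pw_lower (hq : 0 < q) {ι : Type*} {w : ι → Fin q → ℝ} (hw : IsExp w)
    {κ : Type*} [Fintype κ] (E : κ → Fin q → ℝ) (hE : ∀ k a, 0 ≤ E k a)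
    (h : ∀ G : (Fin q → ℝ) → ℝ, GG G → ∑ k, G (E k) ≤ Ex G w) (n : ℕ) :
    ∀ G : (Fin q → ℝ) → ℝ, GG G →
      ∑ f : Fin n → κ, G (fun a => ∏ m, E (f m) a) ≤ Ex G (pw w n) := by
  classical
  induction n with
  | zero =>
    intro G _
    rw [Ex_pw_zero]
    simp
  | succ n ih =>
    intro G hG
    rw [Ex_pw_succ, Ex_mul_left hq (isExp_pw hw n) hw hG.mbdd]
    refine le_trans ?_ (ih _ (hG.comp_mul hw))
    rw [← (Fin.snocEquiv (fun _ : Fin (n + 1) => κ)).sum_comp, Fintype.sum_prod_type, Finset.sum_comm]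
    refine Finset.sum_le_sum fun f _ => ?_
    have hnn : ∀ a, 0 ≤ ∏ m, E (f m) a := fun a => Finset.prod_nonneg fun m _ => hE _ _
    refine le_trans (le_of_eq ?_) (h _ (hG.comp_mulv (fun a => ∏ m, E (f m) a) hnn))
    refine Finset.sum_congr rfl fun k _ => ?_
    congr 1
    funext a
    rw [Fin.prod_univ_castSucc]
    simp [Fin.snocEquiv]

/-- the channel step: `Σ t_k G(T E_k) + Σ_a (1 - Σ t_k E_k(a)) G(T e_a)` is a lower bound -/
theorem GG.ch_lower (hq : 1 < q) {β : ℝ} (h0 : -(1 / ((q : ℝ) - 1)) ≤ β) (h1 : β ≤ 1)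
    {ι : Type*} {w : ι → Fin q → ℝ} (hw : IsExp w)
    {κ : Type*} (s : Finset κ) (t : κ → ℝ) (E : κ → Fin q → ℝ)
    {G : (Fin q → ℝ) → ℝ} (hG : GG G)
    (h : ∑ k ∈ s, t k * (G (chv β (E k)) - ∑ a, E k a * G (chv β (ev q a))) ≤
      Ex (fun v => G (chv β v) - ∑ a, v a * G (chv β (ev q a))) w) :
    ∑ k ∈ s, t k * G (chv β (E k)) +
      ∑ a, (1 - ∑ k ∈ s, t k * E k a) * G (chv β (ev q a)) ≤ Ex G (ch β w) := by
  have hq0 : 0 < q := by omega
  have hsum1 : Summable (fun i => G (ch β w i)) := (isExp_ch hq h0 h1 hw).summable hq0 hG.mbdd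
  have hsum2 : HasSum (fun i => ∑ a, w i a * G (chv β (ev q a)))
      (∑ a, 1 * G (chv β (ev q a))) :=
    hasSum_sum fun a _ => (hw.hasSum a).mul_right _
  have e1 : Ex (fun v => G (chv β v) - ∑ a, v a * G (chv β (ev q a))) w =
      Ex G (ch β w) - ∑ a, G (chv β (ev q a)) := by
    unfold Ex
    have h3 : HasSum (fun i => G (ch β w i) - ∑ a, w i a * G (chv β (ev q a)))
        (∑' i, G (ch β w i) - ∑ a, 1 * G (chv β (ev q a))) := hsum1.hasSum.sub hsum2
    simp only [one_mul] at h3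
    exact h3.tsum_eq
  rw [e1] at h
  have e2 : ∑ a, (1 - ∑ k ∈ s, t k * E k a) * G (chv β (ev q a)) =
      ∑ a, G (chv β (ev q a)) - ∑ k ∈ s, t k * ∑ a, E k a * G (chv β (ev q a)) := by
    simp only [sub_mul, one_mul, Finset.sum_sub_distrib]
    congr 1
    simp only [Finset.sum_mul, Finset.mul_sum]
    rw [Finset.sum_comm]
    exact Finset.sum_congr rfl fun k _ => Finset.sum_congr rfl fun a _ => by ring
  rw [e2]
  simp only [mul_sub, Finset.sum_sub_distrib] at h
  linarith

/-- the functional `G ∘ T - Σ v_a G(T e_a)` is again admissible -/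
theorem GG.comp_ch (hq : 1 < q) {β : ℝ} (h0 : -(1 / ((q : ℝ) - 1)) ≤ β) (h1 : β ≤ 1)
    {G : (Fin q → ℝ) → ℝ} (hG : GG G) :
    GG (fun v : Fin q → ℝ => G (chv β v) - ∑ a, v a * G (chv β (ev q a))) := by
  have hS : SubL (fun v : Fin q → ℝ => -G v) := by
    refine ⟨fun t v ht hv => by rw [hG.homog t v ht hv]; ring, ?_, fun u v hu hv => by
      have := hG.add_ge u v hu hv; linarith⟩
    obtain ⟨C, hC, h⟩ := hG.mbdd
    exact ⟨C, hC, fun v hv => by rw [abs_neg]; exact h v hv⟩
  have hc := hS.comp_ch hq h0 h1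
  have hl : ∀ a, 0 ≤ G (chv β (ev q a)) := fun a =>
    hG.nonneg _ (chv_nonneg hq h0 h1 _ (ev_nonneg a))
  refine ⟨fun t v ht hv => ?_, ?_, fun u v hu hv => ?_, fun a => ?_⟩
  · have := hc.homog t v ht hv
    have h2 : G (chv β (fun a => t * v a)) = t * G (chv β v) := by
      unfold chv; linarith
    show G (chv β (fun a => t * v a)) - ∑ a, t * v a * G (chv β (ev q a)) = _
    rw [h2]
    have : ∑ a, t * v a * G (chv β (ev q a)) = t * ∑ a, v a * G (chv β (ev q a)) := by
      rw [Finset.mul_sum]; exact Finset.sum_congr rfl fun a _ => by ring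
    rw [this]; ring
  · obtain ⟨C, hC, h⟩ := hc.mbdd
    refine ⟨C + q * ∑ a, G (chv β (ev q a)), ?_, fun v hv => ?_⟩
    · exact add_nonneg hC (mul_nonneg (by positivity) (Finset.sum_nonneg fun a _ => hl a))
    · have h3 := h v hv
      rw [abs_neg] at h3
      have h4 : |∑ a, v a * G (chv β (ev q a))| ≤ q * (∑ a, G (chv β (ev q a))) * mass v := by
        rw [abs_of_nonneg (Finset.sum_nonneg fun a _ => mul_nonneg (hv a) (hl a))]
        rw [mul_comm (q : ℝ), mul_assoc, Finset.sum_mul]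
        refine Finset.sum_le_sum fun a _ => ?_
        rw [mul_comm]
        exact mul_le_mul_of_nonneg_left (le_mass (by omega) v hv a) (hl a)
      calc |G (chv β v) - ∑ a, v a * G (chv β (ev q a))|
          ≤ |G (chv β v)| + |∑ a, v a * G (chv β (ev q a))| := abs_sub _ _
        _ ≤ C * mass v + q * (∑ a, G (chv β (ev q a))) * mass v := add_le_add h3 h4
        _ = _ := by ring
  · have := hc.add_le u v hu hv
    have h2 : G (chv β u) + G (chv β v) ≤ G (chv β (fun a => u a + v a)) := by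
      unfold chv; linarith
    show G (chv β u) - ∑ a, u a * G (chv β (ev q a)) +
      (G (chv β v) - ∑ a, v a * G (chv β (ev q a))) ≤
      G (chv β (fun a => u a + v a)) - ∑ a, (u a + v a) * G (chv β (ev q a))
    simp only [add_mul, Finset.sum_add_distrib]
    linarith
  · show G (chv β (ev q a)) - ∑ b, ev q a b * G (chv β (ev q b)) = 0
    have : ∑ b, ev q a b * G (chv β (ev q b)) = G (chv β (ev q a)) := by
      unfold ev
      simp
    rw [this, sub_self]

/-- symmetrisation -/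
noncomputable def symG (G : (Fin q → ℝ) → ℝ) (v : Fin q → ℝ) : ℝ :=
  (1 / (Fintype.card (Equiv.Perm (Fin q)) : ℝ)) * ∑ σ : Equiv.Perm (Fin q), G (fun a => v (σ a))

theorem GG.perm {G : (Fin q → ℝ) → ℝ} (hG : GG G) (σ : Equiv.Perm (Fin q)) :
    GG (fun v : Fin q → ℝ => G (fun a => v (σ a))) := by
  refine ⟨fun t v ht hv => hG.homog t _ ht fun a => hv _, ?_, fun u v hu hv =>
    hG.add_ge _ _ (fun a => hu _) fun a => hv _, fun a => ?_⟩
  · obtain ⟨C, hC, h⟩ := hG.mbdd
    refine ⟨C, hC, fun v hv => ?_⟩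
    have := h (fun a => v (σ a)) fun a => hv _
    have e : mass (fun a => v (σ a)) = mass v := by
      unfold mass
      rw [Equiv.sum_comp σ (fun b => v b)]
    rwa [e] at this
  · have e : (fun b => ev q a (σ b)) = ev q (σ.symm a) := by
      funext b
      unfold ev
      have : (a = σ b) ↔ (σ.symm a = b) := by rw [Equiv.symm_apply_eq]
      simp only [this]
    show G (fun b => ev q a (σ b)) = 0
    rw [e, hG.perf]

theorem GG.symG {G : (Fin q → ℝ) → ℝ} (hG : GG G) : GG (symG G) := by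
  have hc : (0 : ℝ) < Fintype.card (Equiv.Perm (Fin q)) := by
    exact_mod_cast Fintype.card_pos
  have hc' : (0 : ℝ) ≤ 1 / (Fintype.card (Equiv.Perm (Fin q)) : ℝ) := by positivity
  refine ⟨fun t v ht hv => ?_, ?_, fun u v hu hv => ?_, fun a => ?_⟩
  · unfold R163.symG
    have : ∀ σ : Equiv.Perm (Fin q), G (fun a => t * v (σ a)) = t * G (fun a => v (σ a)) :=
      fun σ => hG.homog t _ ht fun a => hv _
    simp only [this, ← Finset.mul_sum]
    ring
  · obtain ⟨C, hC, h⟩ := hG.mbdd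
    refine ⟨C, hC, fun v hv => ?_⟩
    unfold R163.symG
    rw [abs_mul, abs_of_nonneg hc']
    have e : ∀ σ : Equiv.Perm (Fin q), mass (fun a => v (σ a)) = mass v := by
      intro σ
      unfold mass
      rw [Equiv.sum_comp σ (fun b => v b)]
    have h1 : |∑ σ : Equiv.Perm (Fin q), G (fun a => v (σ a))| ≤
        ∑ _σ : Equiv.Perm (Fin q), C * mass v := by
      refine (Finset.abs_sum_le_sum_abs _ _).trans (Finset.sum_le_sum fun σ _ => ?_)
      have := h (fun a => v (σ a)) fun a => hv _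
      rwa [e σ] at this
    rw [Finset.sum_const, nsmul_eq_mul, Finset.card_univ] at h1
    calc (1 / (Fintype.card (Equiv.Perm (Fin q)) : ℝ)) *
          |∑ σ : Equiv.Perm (Fin q), G (fun a => v (σ a))|
        ≤ (1 / (Fintype.card (Equiv.Perm (Fin q)) : ℝ)) *
          ((Fintype.card (Equiv.Perm (Fin q)) : ℝ) * (C * mass v)) :=
          mul_le_mul_of_nonneg_left h1 hc'
      _ = C * mass v := by field_simp
  · unfold R163.symG
    rw [← mul_add, ← Finset.sum_add_distrib]
    exact mul_le_mul_of_nonneg_left (Finset.sum_le_sum fun σ _ =>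
      hG.add_ge _ _ (fun a => hu _) fun a => hv _) hc'
  · unfold R163.symG
    have : ∀ σ : Equiv.Perm (Fin q), G (fun b => ev q a (σ b)) = 0 := fun σ => (hG.perm σ).perf a
    simp [this]

theorem gsym_symG (G : (Fin q → ℝ) → ℝ) : GSym (symG G) := by
  intro τ v
  unfold symG
  congr 1
  exact Equiv.sum_comp (Equiv.mulLeft τ) (fun σ : Equiv.Perm (Fin q) => G (fun a => v (σ a)))

/-- for a symmetric experiment only symmetric functionals matter -/
theorem Ex_symG (hq : 0 < q) {ι : Type*} {w : ι → Fin q → ℝ} (hw : IsExp w) (hs : IsSymm w)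
    {G : (Fin q → ℝ) → ℝ} (hG : GG G) : Ex (symG G) w = Ex G w := by
  have hc : (0 : ℝ) < Fintype.card (Equiv.Perm (Fin q)) := by
    exact_mod_cast Fintype.card_pos
  have h1 : ∀ σ : Equiv.Perm (Fin q), HasSum (fun i => G (fun a => w i (σ a))) (Ex G w) := by
    intro σ
    have h2 := (hw.summable hq (hG.perm σ).mbdd).hasSum
    have e := Ex_permB hs G σ
    unfold Ex at e
    rw [e] at h2
    exact h2
  have h3 : HasSum (fun i => symG G (w i))
      ((1 / (Fintype.card (Equiv.Perm (Fin q)) : ℝ)) * ∑ _σ : Equiv.Perm (Fin q), Ex G w) :=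
    (hasSum_sum fun σ _ => h1 σ).mul_left _
  rw [Finset.sum_const, nsmul_eq_mul, Finset.card_univ] at h3
  have e : (1 / (Fintype.card (Equiv.Perm (Fin q)) : ℝ)) *
      ((Fintype.card (Equiv.Perm (Fin q)) : ℝ) * Ex G w) = Ex G w := by field_simp
  rw [e] at h3
  exact h3.tsum_eq

end Crest.Agent.R163
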