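import Crest.Agent.R163.KrSound

/-!
# Row 163: box engine, part A: enclosures by polynomial expressions

The functions `A1, B1` (real and imaginary part of `x^(1/2 + i th1)`), `A0, B0` (of `x^(7/20 + i th0)`),
`C0 = x^(3/10)`, `th1 = 31/100`, `th0 = 47/100`, are enclosed on an interval of `X = 2 x` by integer
polynomials in `N = a X - b` (`WE`).  `Enc` = enclosure of a real number by expressions in the box
variables, at scale `S ^ k`.
-/

set_option autoImplicit false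

namespace Crest.Agent.R163.Bx

open Kr

/-- scale -/
@[irreducible] def SN : ℕ := 2 ^ 50 * 46875

noncomputable def S : ℝ := ((SN : ℕ) : ℝ)

theorem S_pos : 0 < S := by unfold S SN; norm_num

noncomputable def A1 (x : ℝ) : ℝ := x ^ (1 / 2 : ℝ) * Real.cos (31 / 100 * Real.log x)
noncomputable def B1 (x : ℝ) : ℝ := x ^ (1 / 2 : ℝ) * Real.sin (31 / 100 * Real.log x)
noncomputable def A0 (x : ℝ) : ℝ := x ^ (7 / 20 : ℝ) * Real.cos (47 / 100 * Real.log x)
noncomputable def B0 (x : ℝ) : ℝ := x ^ (7 / 20 : ℝ) * Real.sin (47 / 100 * Real.log x)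
noncomputable def C0 (x : ℝ) : ℝ := x ^ (3 / 10 : ℝ)

/-- Horner scheme -/
noncomputable def hr (N : ℝ) : List ℤ → ℝ
  | [] => 0
  | c :: l => (c : ℝ) + N * hr N l

/-- Horner scheme as an expression -/
def hE (N : E3) : List ℤ → E3
  | [] => .c 0
  | c :: l => match l with
    | [] => .c c
    | _ :: _ => .add (.c c) (.mul N (hE N l))

theorem ev_hE (N : E3) (l : List ℤ) (x y z : ℝ) : (hE N l).ev x y z = hr (N.ev x y z) l := by
  induction l with
  | nil => simp [hE, hr, E3.ev]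
  | cons c l ih =>
    cases l with
    | nil => simp [hE, hr, E3.ev]
    | cons d l => simp only [hE, hr, E3.ev] at *; rw [ih]

/-- univariate enclosures on an interval of `X = 2 x` -/
structure WE where
  ln : ℤ
  hn : ℤ
  dd : ℕ
  a : ℤ
  b : ℤ
  r1 : List ℤ
  i1 : List ℤ
  e1 : List ℤ
  r0 : List ℤ
  i0 : List ℤ
  e0 : List ℤ
  r3 : List ℤ
  e3 : List ℤ

/-- validity -/
def WE.Valid (w : WE) : Prop :=
  ∀ X : ℝ, 0 ≤ X → X ≤ 6 → (w.ln : ℝ) ≤ w.dd * X → w.dd * X ≤ w.hn →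
    |A1 (X / 2) * S - hr (w.a * X - w.b) w.r1| ≤ hr (w.a * X - w.b) w.e1 ∧
    |B1 (X / 2) * S - hr (w.a * X - w.b) w.i1| ≤ hr (w.a * X - w.b) w.e1 ∧
    |A0 (X / 2) * S - hr (w.a * X - w.b) w.r0| ≤ hr (w.a * X - w.b) w.e0 ∧
    |B0 (X / 2) * S - hr (w.a * X - w.b) w.i0| ≤ hr (w.a * X - w.b) w.e0 ∧
    |C0 (X / 2) * S - hr (w.a * X - w.b) w.r3| ≤ hr (w.a * X - w.b) w.e3

/-- enclosure by expressions -/
structure Enc where
  P : E3
  e : E3

/-- meaning -/
def Enc.ok (k : ℕ) (E : Enc) (v x y z : ℝ) : Prop := |v * S ^ k - E.P.ev x y z| ≤ E.e.ev x y z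

/-- sum -/
def Enc.add (E F : Enc) : Enc := ⟨.add E.P F.P, .add E.e F.e⟩

/-- product; `b, c` bounds of the values -/
def Enc.mul (k l b c : ℕ) (E F : Enc) : Enc :=
  ⟨.mul E.P F.P, .add (.mul (.c (b * SN ^ k : ℕ)) F.e) (.mul (.add (.c (c * SN ^ l : ℕ)) F.e) E.e)⟩

/-- change of scale -/
def Enc.up (E : Enc) : Enc := ⟨.mul (.c SN) E.P, .mul (.c SN) E.e⟩

theorem Enc.ok_add {k : ℕ} {E F : Enc} {v w x y z : ℝ} (h : E.ok k v x y z) (h' : F.ok k w x y z) :
    (E.add F).ok k (v + w) x y z := by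
  unfold Enc.ok Enc.add at *
  simp only [E3.ev]
  have e : (v + w) * S ^ k - (E.P.ev x y z + F.P.ev x y z) =
      (v * S ^ k - E.P.ev x y z) + (w * S ^ k - F.P.ev x y z) := by ring
  rw [e]
  exact (abs_add_le _ _).trans (add_le_add h h')

theorem Enc.ok_mul {k l b c : ℕ} {E F : Enc} {v w x y z : ℝ} (h : E.ok k v x y z)
    (h' : F.ok l w x y z) (hv : |v| ≤ b) (hw : |w| ≤ c) : (E.mul k l b c F).ok (k + l) (v * w) x y z := by
  unfold Enc.ok Enc.mul at *
  simp only [E3.ev]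
  have hS : 0 < S := S_pos
  have e : v * w * S ^ (k + l) - E.P.ev x y z * F.P.ev x y z =
      v * S ^ k * (w * S ^ l - F.P.ev x y z) + F.P.ev x y z * (v * S ^ k - E.P.ev x y z) := by
    rw [pow_add]; ring
  have h1 : |F.P.ev x y z| ≤ c * S ^ l + F.e.ev x y z := by
    have : F.P.ev x y z = w * S ^ l - (w * S ^ l - F.P.ev x y z) := by ring
    rw [this]
    refine (abs_sub _ _).trans (add_le_add ?_ h')
    rw [abs_mul, abs_of_pos (pow_pos hS l)]
    exact mul_le_mul_of_nonneg_right hw (pow_pos hS l).le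
  have h2 : |v * S ^ k| ≤ b * S ^ k := by
    rw [abs_mul, abs_of_pos (pow_pos hS k)]
    exact mul_le_mul_of_nonneg_right hv (pow_pos hS k).le
  have hb : (0 : ℝ) ≤ b * S ^ k := by positivity
  have hc : (0 : ℝ) ≤ c * S ^ l + F.e.ev x y z := le_trans (abs_nonneg _) h1
  rw [e]
  refine (abs_add_le _ _).trans ?_
  rw [abs_mul (v * S ^ k), abs_mul (F.P.ev x y z)]
  refine (add_le_add (mul_le_mul h2 h' (abs_nonneg _) hb) (mul_le_mul h1 h (abs_nonneg _) hc)).trans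
    (le_of_eq ?_)
  simp only [S]
  push_cast
  ring

theorem Enc.ok_up {k : ℕ} {E : Enc} {v x y z : ℝ} (h : E.ok k v x y z) :
    (E.up).ok (k + 1) v x y z := by
  unfold Enc.ok Enc.up at *
  simp only [E3.ev]
  have hS : 0 < S := S_pos
  have hS' : (((SN : ℕ) : ℤ) : ℝ) = S := by simp [S]
  rw [hS']
  have e : v * S ^ (k + 1) - S * E.P.ev x y z = S * (v * S ^ k - E.P.ev x y z) := by
    rw [pow_succ]; ring
  rw [e, abs_mul, abs_of_pos hS]
  exact mul_le_mul_of_nonneg_left h hS.le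

/-! ### bounds of the functions -/

theorem rp_le_two {x a : ℝ} (hx : 0 ≤ x) (hx3 : x ≤ 3) (ha : 0 < a) (ha1 : a ≤ 1 / 2) :
    x ^ a ≤ 2 := by
  rcases le_total x 1 with h | h
  · exact (Real.rpow_le_one hx h ha.le).trans (by norm_num)
  · calc x ^ a ≤ x ^ (1 / 2 : ℝ) := Real.rpow_le_rpow_of_exponent_le h ha1
      _ ≤ 4 ^ (1 / 2 : ℝ) := Real.rpow_le_rpow hx (by linarith) (by norm_num)
      _ = 2 := by
        rw [show (4 : ℝ) = 2 ^ (2 : ℝ) by norm_num, ← Real.rpow_mul (by norm_num)]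
        norm_num

theorem abs_mul_cos_le {p t : ℝ} (hp : 0 ≤ p) (h : p ≤ 2) : |p * Real.cos t| ≤ (2 : ℕ) := by
  rw [abs_mul, abs_of_nonneg hp]
  have := Real.abs_cos_le_one t
  push_cast
  nlinarith [abs_nonneg (Real.cos t)]

theorem abs_mul_sin_le {p t : ℝ} (hp : 0 ≤ p) (h : p ≤ 2) : |p * Real.sin t| ≤ (2 : ℕ) := by
  rw [abs_mul, abs_of_nonneg hp]
  have := Real.abs_sin_le_one t
  push_cast
  nlinarith [abs_nonneg (Real.sin t)]

section
variable {x : ℝ} (hx : 0 ≤ x) (hx3 : x ≤ 3)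
include hx hx3

theorem A1_le : |A1 x| ≤ (2 : ℕ) :=
  abs_mul_cos_le (Real.rpow_nonneg hx _) (rp_le_two hx hx3 (by norm_num) (by norm_num))
theorem B1_le : |B1 x| ≤ (2 : ℕ) :=
  abs_mul_sin_le (Real.rpow_nonneg hx _) (rp_le_two hx hx3 (by norm_num) (by norm_num))
theorem A0_le : |A0 x| ≤ (2 : ℕ) :=
  abs_mul_cos_le (Real.rpow_nonneg hx _) (rp_le_two hx hx3 (by norm_num) (by norm_num))
theorem B0_le : |B0 x| ≤ (2 : ℕ) :=
  abs_mul_sin_le (Real.rpow_nonneg hx _) (rp_le_two hx hx3 (by norm_num) (by norm_num))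
theorem C0_le : |C0 x| ≤ (2 : ℕ) := by
  unfold C0
  rw [abs_of_nonneg (Real.rpow_nonneg hx _)]
  exact_mod_cast rp_le_two hx hx3 (by norm_num) (by norm_num)

end

end Crest.Agent.R163.Bx
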