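import Crest.Agent.R163.BxA

/-!
# Row 163: box engine, part B: the knot inequality on a box
-/

set_option autoImplicit false
set_option maxHeartbeats 400000

namespace Crest.Agent.R163.Bx

open Kr

/-- integer parameters of an inequality
`0 ≤ z² (3 pm(2 m) + c1 pr(p) + c0 tr(p)) + 3 cc + t1 pr(q) + t0 tr(q)` -/
structure Kn where
  pm : List ℤ
  c1 : ℤ
  c0 : ℤ
  cc : ℤ
  t1 : ℤ
  t0 : ℤ

/-- `3 c[1/2; th1]` -/
noncomputable def pr (p : Fin 3 → ℝ) : ℝ :=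
  (A1 (p 0) * A1 (p 1) + B1 (p 0) * B1 (p 1)) + (A1 (p 1) * A1 (p 2) + B1 (p 1) * B1 (p 2)) +
    (A1 (p 2) * A1 (p 0) + B1 (p 2) * B1 (p 0))

/-- `3 c[7/20; th0]` -/
noncomputable def tr (p : Fin 3 → ℝ) : ℝ :=
  C0 (p 0) * (A0 (p 1) * A0 (p 2) + B0 (p 1) * B0 (p 2)) +
    C0 (p 1) * (A0 (p 2) * A0 (p 0) + B0 (p 2) * B0 (p 0)) +
    C0 (p 2) * (A0 (p 0) * A0 (p 1) + B0 (p 0) * B0 (p 1))

/-- the three numbers `2 p_i` -/
def FP : Fin 3 → E3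
  | 0 => .add (.c 2) (.add (.mul (.c 4) .x) (.mul (.c (-3)) (.mul .x .y)))
  | 1 => .add (.c 2) (.add (.mul (.c (-2)) .x) (.mul (.c 3) (.mul .x .y)))
  | 2 => .add (.c 2) (.mul (.c (-2)) .x)

/-- the three numbers `2 q_i`, `q_i = 1 - s u_i` -/
def FQ : Fin 3 → E3
  | 0 => .add (.c 2) (.mul .z (.add (.mul (.c (-4)) .x) (.mul (.c 3) (.mul .x .y))))
  | 1 => .add (.c 2) (.mul .z (.add (.mul (.c 2) .x) (.mul (.c (-3)) (.mul .x .y))))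
  | 2 => .add (.c 2) (.mul .z (.mul (.c 2) .x))

/-- values -/
noncomputable def vP (x y z : ℝ) (i : Fin 3) : ℝ := (FP i).ev x y z / 2
noncomputable def vQ (x y z : ℝ) (i : Fin 3) : ℝ := (FQ i).ev x y z / 2

def WE.N (w : WE) (F : E3) : E3 := .add (.mul (.c w.a) F) (.c (-w.b))
def WE.a1 (w : WE) (F : E3) : Enc := ⟨hE (w.N F) w.r1, hE (w.N F) w.e1⟩
def WE.b1 (w : WE) (F : E3) : Enc := ⟨hE (w.N F) w.i1, hE (w.N F) w.e1⟩
def WE.a0 (w : WE) (F : E3) : Enc := ⟨hE (w.N F) w.r0, hE (w.N F) w.e0⟩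
def WE.b0 (w : WE) (F : E3) : Enc := ⟨hE (w.N F) w.i0, hE (w.N F) w.e0⟩
def WE.c0 (w : WE) (F : E3) : Enc := ⟨hE (w.N F) w.r3, hE (w.N F) w.e3⟩

/-- `A1 A1 + B1 B1` -/
def pr2 (w w' : WE) (F F' : E3) : Enc :=
  ((w.a1 F).mul 1 1 2 2 (w'.a1 F')).add ((w.b1 F).mul 1 1 2 2 (w'.b1 F'))

/-- `C0 (A0 A0 + B0 B0)` -/
def tr3 (u w w' : WE) (E F F' : E3) : Enc :=
  (u.c0 E).mul 1 2 2 8 (((w.a0 F).mul 1 1 2 2 (w'.a0 F')).add ((w.b0 F).mul 1 1 2 2 (w'.b0 F')))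

def prE (w : Fin 3 → WE) (F : Fin 3 → E3) : Enc :=
  ((pr2 (w 0) (w 1) (F 0) (F 1)).add (pr2 (w 1) (w 2) (F 1) (F 2))).add (pr2 (w 2) (w 0) (F 2) (F 0))

def trE (w : Fin 3 → WE) (F : Fin 3 → E3) : Enc :=
  ((tr3 (w 0) (w 1) (w 2) (F 0) (F 1) (F 2)).add (tr3 (w 1) (w 2) (w 0) (F 1) (F 2) (F 0))).add
    (tr3 (w 2) (w 0) (w 1) (F 2) (F 0) (F 1))

/-- membership of a form in the interval of an entry -/
def inI (w : WE) (F : E3) (I J K : Iv) : Bool :=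
  kr (.add (.mul (.c w.dd) F) (.c (-w.ln))) I J K 100 && kr (.add (.c w.hn) (.mul (.c (-(w.dd : ℤ))) F)) I J K 100

/-- `m = u^2` average: `2 m = x^2 (4 - 6 y + 3 y^2)` -/
def m2E : E3 := .mul (.pow .x 2) (.add (.c 4) (.add (.mul (.c (-6)) .y) (.mul (.c 3) (.pow .y 2))))

/-- `c v ≥ c P - |c| e` -/
def sgE (c : ℤ) (E : Enc) : E3 := .add (.mul (.c c) E.P) (.mul (.c (-(c.natAbs : ℤ))) E.e)

/-- the final expression -/
def finE (κ : Kn) (P Q : Enc) (P' Q' : Enc) : E3 :=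
  let s3 : ℤ := ((SN ^ 3 : ℕ) : ℤ)
  .add (.mul (.pow .z 2) (.add (.mul (.c (3 * s3)) (hE m2E κ.pm))
      (.add (sgE κ.c1 P.up) (sgE κ.c0 P'))))
    (.add (.c (3 * s3 * κ.cc)) (.add (sgE κ.t1 Q.up) (sgE κ.t0 Q')))

/-- check of a box -/
def boxOK (κ : Kn) (w w' : Fin 3 → WE) (k : ℕ) (I J K : Iv) : Bool :=
  inI (w 0) (FP 0) I J K && inI (w 1) (FP 1) I J K && inI (w 2) (FP 2) I J K &&
  inI (w' 0) (FQ 0) I J K && inI (w' 1) (FQ 1) I J K && inI (w' 2) (FQ 2) I J K &&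
  kr (finE κ (prE w FP) (prE w' FQ) (trE w FP) (trE w' FQ)) I J K k

/-- the function -/
noncomputable def kf (κ : Kn) (x y z : ℝ) : ℝ :=
  z ^ 2 * (3 * hr (x ^ 2 * (4 - 6 * y + 3 * y ^ 2)) κ.pm + κ.c1 * pr (vP x y z) +
    κ.c0 * tr (vP x y z)) + 3 * κ.cc + κ.t1 * pr (vQ x y z) + κ.t0 * tr (vQ x y z)

theorem sgE_le {c : ℤ} {E : Enc} {k : ℕ} {v x y z : ℝ} (h : E.ok k v x y z) :
    (sgE c E).ev x y z ≤ c * (v * S ^ k) := by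
  unfold Enc.ok at h
  simp only [sgE, E3.ev]
  have h1 : |(c : ℝ) * (v * S ^ k - E.P.ev x y z)| ≤ |(c : ℝ)| * E.e.ev x y z := by
    rw [abs_mul]; exact mul_le_mul_of_nonneg_left h (abs_nonneg _)
  have h2 : (((-(c.natAbs : ℤ)) : ℤ) : ℝ) = -|(c : ℝ)| := by
    push_cast [Int.natCast_natAbs]
    rfl
  rw [h2]
  have h3 := (abs_le.1 h1).1
  linarith

section
variable {w : WE} {F : E3} {x y z : ℝ}

theorem ok_all (hw : w.Valid) (h0 : 0 ≤ F.ev x y z) (h6 : F.ev x y z ≤ 6)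
    (hl : (w.ln : ℝ) ≤ w.dd * F.ev x y z) (hh : w.dd * F.ev x y z ≤ w.hn) :
    (w.a1 F).ok 1 (A1 (F.ev x y z / 2)) x y z ∧ (w.b1 F).ok 1 (B1 (F.ev x y z / 2)) x y z ∧
    (w.a0 F).ok 1 (A0 (F.ev x y z / 2)) x y z ∧ (w.b0 F).ok 1 (B0 (F.ev x y z / 2)) x y z ∧
    (w.c0 F).ok 1 (C0 (F.ev x y z / 2)) x y z := by
  have h := hw _ h0 h6 hl hh
  have e : (w.N F).ev x y z = w.a * F.ev x y z - w.b := by
    simp [WE.N, E3.ev, sub_eq_add_neg]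
  unfold Enc.ok WE.a1 WE.b1 WE.a0 WE.b0 WE.c0
  simp only [ev_hE, e, pow_one]
  exact h

end

theorem inI_sound {w : WE} {F : E3} {I J K : Iv} (h : inI w F I J K = true) {x y z : ℝ}
    (hx : I.mem x) (hy : J.mem y) (hz : K.mem z) :
    (w.ln : ℝ) ≤ w.dd * F.ev x y z ∧ w.dd * F.ev x y z ≤ w.hn := by
  unfold inI at h
  rw [Bool.and_eq_true] at h
  have h1 := kr_sound h.1 hx hy hz
  have h2 := kr_sound h.2 hx hy hz
  simp only [E3.ev] at h1 h2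
  push_cast at h1 h2
  constructor <;> linarith

/-- enclosure data of three numbers -/
structure Ok3 (w : Fin 3 → WE) (F : Fin 3 → E3) (x y z : ℝ) (p : Fin 3 → ℝ) : Prop where
  r : ∀ i, 0 ≤ p i ∧ p i ≤ 3
  ok : ∀ i, (w i |>.a1 (F i)).ok 1 (A1 (p i)) x y z ∧ (w i |>.b1 (F i)).ok 1 (B1 (p i)) x y z ∧
    (w i |>.a0 (F i)).ok 1 (A0 (p i)) x y z ∧ (w i |>.b0 (F i)).ok 1 (B0 (p i)) x y z ∧
    (w i |>.c0 (F i)).ok 1 (C0 (p i)) x y z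

theorem Ok3.pr2 {w : Fin 3 → WE} {F : Fin 3 → E3} {x y z : ℝ} {p : Fin 3 → ℝ} (h : Ok3 w F x y z p)
    (i j : Fin 3) : (pr2 (w i) (w j) (F i) (F j)).ok 2 (A1 (p i) * A1 (p j) + B1 (p i) * B1 (p j)) x y z :=
  Enc.ok_add
    (Enc.ok_mul (h.ok i).1 (h.ok j).1 (A1_le (h.r i).1 (h.r i).2) (A1_le (h.r j).1 (h.r j).2))
    (Enc.ok_mul (h.ok i).2.1 (h.ok j).2.1 (B1_le (h.r i).1 (h.r i).2) (B1_le (h.r j).1 (h.r j).2))

theorem abs_mul_le_four {a b : ℝ} (ha : |a| ≤ (2 : ℕ)) (hb : |b| ≤ (2 : ℕ)) : |a * b| ≤ 4 := by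
  rw [abs_mul]
  push_cast at ha hb
  nlinarith [abs_nonneg a, abs_nonneg b]

theorem Ok3.tr3 {w : Fin 3 → WE} {F : Fin 3 → E3} {x y z : ℝ} {p : Fin 3 → ℝ} (h : Ok3 w F x y z p)
    (l i j : Fin 3) : (tr3 (w l) (w i) (w j) (F l) (F i) (F j)).ok 3
      (C0 (p l) * (A0 (p i) * A0 (p j) + B0 (p i) * B0 (p j))) x y z := by
  have hA := fun i => A0_le (h.r i).1 (h.r i).2
  have hB := fun i => B0_le (h.r i).1 (h.r i).2
  have hb : |A0 (p i) * A0 (p j) + B0 (p i) * B0 (p j)| ≤ ((8 : ℕ) : ℝ) := by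
    refine (abs_add_le _ _).trans ?_
    have h1 := abs_mul_le_four (hA i) (hA j)
    have h2 := abs_mul_le_four (hB i) (hB j)
    push_cast
    linarith
  have e1 := Enc.ok_mul (h.ok i).2.2.1 (h.ok j).2.2.1 (hA i) (hA j)
  have e2 := Enc.ok_mul (h.ok i).2.2.2.1 (h.ok j).2.2.2.1 (hB i) (hB j)
  have e3 := Enc.ok_add e1 e2
  have e4 := Enc.ok_mul (h.ok l).2.2.2.2 e3 (C0_le (h.r l).1 (h.r l).2) hb
  exact e4

theorem Ok3.prE {w : Fin 3 → WE} {F : Fin 3 → E3} {x y z : ℝ} {p : Fin 3 → ℝ} (h : Ok3 w F x y z p) :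
    (prE w F).ok 2 (pr p) x y z :=
  Enc.ok_add (Enc.ok_add (h.pr2 0 1) (h.pr2 1 2)) (h.pr2 2 0)

theorem Ok3.trE {w : Fin 3 → WE} {F : Fin 3 → E3} {x y z : ℝ} {p : Fin 3 → ℝ} (h : Ok3 w F x y z p) :
    (trE w F).ok 3 (tr p) x y z :=
  Enc.ok_add (Enc.ok_add (h.tr3 0 1 2) (h.tr3 1 2 0)) (h.tr3 2 0 1)

/-- **soundness of the box check** -/
theorem box_sound {κ : Kn} {w w' : Fin 3 → WE} {k : ℕ} {I J K : Iv} (hw : ∀ i, (w i).Valid)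
    (hw' : ∀ i, (w' i).Valid) (h : boxOK κ w w' k I J K = true) {x y z : ℝ}
    (hx : I.mem x) (hy : J.mem y) (hz : K.mem z)
    (hP : ∀ i, 0 ≤ vP x y z i ∧ vP x y z i ≤ 3) (hQ : ∀ i, 0 ≤ vQ x y z i ∧ vQ x y z i ≤ 3) :
    0 ≤ kf κ x y z := by
  simp only [boxOK, Bool.and_eq_true] at h
  obtain ⟨⟨⟨⟨⟨⟨a0, a1⟩, a2⟩, b0⟩, b1⟩, b2⟩, hf⟩ := h
  have hPi : ∀ i, inI (w i) (FP i) I J K = true := fun i =>
    match i with
    | 0 => a0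
    | 1 => a1
    | 2 => a2
  have hQi : ∀ i, inI (w' i) (FQ i) I J K = true := fun i =>
    match i with
    | 0 => b0
    | 1 => b1
    | 2 => b2
  have kP : Ok3 w FP x y z (vP x y z) := by
    refine ⟨hP, fun i => ?_⟩
    have hi := inI_sound (hPi i) hx hy hz
    have h0 := hP i
    unfold vP at h0 ⊢
    exact ok_all (hw i) (by linarith [h0.1]) (by linarith [h0.2]) hi.1 hi.2
  have kQ : Ok3 w' FQ x y z (vQ x y z) := by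
    refine ⟨hQ, fun i => ?_⟩
    have hi := inI_sound (hQi i) hx hy hz
    have h0 := hQ i
    unfold vQ at h0 ⊢
    exact ok_all (hw' i) (by linarith [h0.1]) (by linarith [h0.2]) hi.1 hi.2
  have h1 := sgE_le (c := κ.c1) (Enc.ok_up kP.prE)
  have h2 := sgE_le (c := κ.c0) kP.trE
  have h3 := sgE_le (c := κ.t1) (Enc.ok_up kQ.prE)
  have h4 := sgE_le (c := κ.t0) kQ.trE
  have hfin := kr_sound hf hx hy hz
  simp only [Nat.reduceAdd] at h1 h3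
  have hS : 0 < S ^ 3 := pow_pos S_pos 3
  have hz2 : 0 ≤ z ^ 2 := sq_nonneg z
  have hm : m2E.ev x y z = x ^ 2 * (4 - 6 * y + 3 * y ^ 2) := by
    simp only [m2E, E3.ev]; push_cast; ring
  simp only [finE, E3.ev, ev_hE, hm] at hfin
  push_cast at hfin
  have hSN : ((SN : ℕ) : ℝ) = S := rfl
  simp only [hSN] at hfin
  have key : 0 ≤ kf κ x y z * S ^ 3 := by
    unfold kf
    have e5 := mul_le_mul_of_nonneg_left (add_le_add h1 h2) hz2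
    nlinarith
  by_contra hneg
  push Not at hneg
  nlinarith

end Crest.Agent.R163.Bx
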