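import Crest.Agent.R163.BxK

/-!
# The constants `c ^ (a + i th)`, `c = m / 2 ^ t`
-/

set_option autoImplicit false

namespace Crest.Agent.R163.BxW

open Finset

/-- exponents times 100 -/
def exA : ℕ → ℤ
  | 0 => 50
  | 1 => 35
  | _ => 30

def exB : ℕ → ℤ
  | 0 => 31
  | 1 => 47
  | _ => 0

def kmT : ℕ → List (ℤ × ℤ)
  | 0 => km0
  | 1 => km1
  | _ => km2

def ktT : ℕ → List (ℤ × ℤ)
  | 0 => kt0
  | 1 => kt1
  | _ => kt2

/-- approximation of `c ^ (a + i th)`, scale `2 ^ 40`, `c = m / 2 ^ t` -/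
def kc (f m t : ℕ) : ℤ × ℤ :=
  ((gm ((kmT f).getD (m - 64) (0, 0)) ((ktT f).getD (t - 5) (0, 0))).1 / 2 ^ 56,
   (gm ((kmT f).getD (m - 64) (0, 0)) ((ktT f).getD (t - 5) (0, 0))).2 / 2 ^ 56)

/-- all numerical checks for one exponent -/
def tabOK (A B : ℤ) (L T : List (ℤ × ℤ)) : Bool :=
  chainOK A B 64 L && (L.head? == some (2 ^ 48, 0)) && (L.length == 65) && (T.length == 45) &&
  (T.getD 0 (0, 0) == L.getD 64 (0, 0)) && (T.getD 1 (0, 0) == (2 ^ 48, 0)) &&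
  decide (|(gm (T.getD 0 (0, 0)) (T.getD 2 (0, 0))).1 - 2 ^ 96| ≤ 2 ^ 48) &&
  decide (|(gm (T.getD 0 (0, 0)) (T.getD 2 (0, 0))).2| ≤ 2 ^ 48) &&
  decide ((T.getD 2 (0, 0)).1 ^ 2 + (T.getD 2 (0, 0)).2 ^ 2 ≤ 2 ^ 96) &&
  tailOK (T.getD 2 (0, 0)) (T.tail) &&
  decide (16 * (|(nk A B 8).1| + |(nk A B 8).2|) ≤ 100 ^ 8 * 40320)

theorem tabOK0 : tabOK 50 31 km0 kt0 = true := by decide +kernel
theorem tabOK1 : tabOK 35 47 km1 kt1 = true := by decide +kernel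
theorem tabOK2 : tabOK 30 0 km2 kt2 = true := by decide +kernel

theorem gc_one48 : gc ((2 : ℤ) ^ 48, 0) / 2 ^ 48 = 1 := by
  have : gc ((2 : ℤ) ^ 48, 0) = ((2 ^ 48 : ℝ) : ℂ) := by
    apply Complex.ext
    · rw [Complex.ofReal_re]; norm_num [gc]
    · rw [Complex.ofReal_im]; norm_num [gc]
  rw [this]
  push_cast
  norm_num

theorem cbin8_le (A B : ℤ) (h : 16 * (|(nk A B 8).1| + |(nk A B 8).2|) ≤ 100 ^ 8 * 40320) :
    ‖cbin (A / 100) (B / 100) 8‖ ≤ 1 / 16 := by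
  rw [gc_nk]
  have h1 := norm_gc_le (nk A B 8)
  have h2 : (16 : ℝ) * (|((nk A B 8).1 : ℝ)| + |((nk A B 8).2 : ℝ)|) ≤ 100 ^ 8 * 40320 := by
    exact_mod_cast h
  have h3 : ‖(100 ^ 8 * ((Nat.factorial 8 : ℕ) : ℂ))‖ = 100 ^ 8 * 40320 := by
    have : (100 ^ 8 * ((Nat.factorial 8 : ℕ) : ℂ)) = (((100 ^ 8 * 40320 : ℕ) : ℕ) : ℂ) := by
      push_cast
      norm_num [Nat.factorial]
    rw [this, Complex.norm_natCast]
    norm_num
  rw [norm_div, h3, div_le_div_iff₀ (by positivity) (by norm_num)]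
  linarith

theorem tab_sound (A B : ℤ) (hA0 : 0 ≤ A) (hA1 : A ≤ 100) (L T : List (ℤ × ℤ))
    (h : tabOK A B L T = true) (m t : ℕ) (hm : 64 ≤ m) (hm' : m ≤ 128) (ht : 5 ≤ t) (ht' : t ≤ 49) :
    ‖cx (A / 100) (B / 100) ((m : ℝ) / 64) - gc (L.getD (m - 64) (0, 0)) / 2 ^ 48‖ ≤ 1 / 2 ^ 38 ∧
    ‖cx (A / 100) (B / 100) (64 / 2 ^ t) - gc (T.getD (t - 5) (0, 0)) / 2 ^ 48‖ ≤ 1 / 2 ^ 30 := by
  simp only [tabOK, Bool.and_eq_true, beq_iff_eq, decide_eq_true_eq] at h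
  obtain ⟨⟨⟨⟨⟨⟨⟨⟨⟨⟨h1, h2⟩, h3⟩, h4⟩, h5⟩, h6⟩, h7⟩, h8⟩, h9⟩, h10⟩, h11⟩ := h
  set a : ℝ := (A : ℝ) / 100 with ha
  set th : ℝ := (B : ℝ) / 100 with hth
  have ha0 : 0 ≤ a := by rw [ha]; positivity
  have ha1 : a ≤ 1 := by
    rw [ha, div_le_one (by norm_num)]; exact_mod_cast hA1
  have hb := cbin8_le A B h11
  have key : ∀ i : ℕ, i ≤ 64 → ‖cx a th (((64 + i : ℕ) : ℝ) / 64) - gc (L.getD i (0, 0)) / 2 ^ 48‖ ≤ 1 / 2 ^ 38 := by
    intro i hi
    have hi' : i < L.length := by omega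
    have hx : L[i]? = some L[i] := List.getElem?_eq_getElem hi'
    have h12 := chain_sound A B hA0 hA1 hb L 64 (by norm_num) 0 le_rfl (by rw [h3]; norm_num) (by
      intro x hx
      rw [h2] at hx
      simp only [Option.mem_def, Option.some.injEq] at hx
      subst hx
      have e1 : (((64 : ℤ) : ℝ) / 64) = 1 := by norm_num
      rw [e1, cx_one]
      rw [gc_one48, sub_self, norm_zero, zero_mul]) h1 i _ hx
    have e3 : L.getD i (0, 0) = L[i] := by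
      rw [List.getD_eq_getElem?_getD, hx, Option.getD_some]
    rw [e3]
    have e4 : ((((64 : ℤ) + (i : ℤ) : ℤ)) : ℝ) / 64 = ((64 + i : ℕ) : ℝ) / 64 := by push_cast; ring
    rw [e4] at h12
    refine h12.trans ?_
    have hi2 : (i : ℝ) ≤ 64 := by exact_mod_cast hi
    have e5 : (((64 + i : ℕ) : ℝ) / 64) ^ a ≤ 2 := by
      have h13 : (1 : ℝ) ≤ ((64 + i : ℕ) : ℝ) / 64 := by
        rw [le_div_iff₀ (by norm_num)]; push_cast; linarith [Nat.cast_nonneg (α := ℝ) i]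
      calc (((64 + i : ℕ) : ℝ) / 64) ^ a ≤ (((64 + i : ℕ) : ℝ) / 64) ^ (1 : ℝ) :=
            Real.rpow_le_rpow_of_exponent_le h13 ha1
        _ = ((64 + i : ℕ) : ℝ) / 64 := Real.rpow_one _
        _ ≤ 2 := by rw [div_le_iff₀ (by norm_num)]; push_cast; linarith
    calc (0 + (i : ℝ) * (1 / 2 ^ 46)) * (((64 + i : ℕ) : ℝ) / 64) ^ a
        ≤ (0 + 64 * (1 / 2 ^ 46)) * 2 := by gcongr
      _ ≤ 1 / 2 ^ 38 := by norm_num
  refine ⟨?_, ?_⟩
  · have := key (m - 64) (by omega)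
    rwa [show 64 + (m - 64) = m by omega] at this
  · have hcx2 : ‖cx a th 2 - gc (T.getD 0 (0, 0)) / 2 ^ 48‖ ≤ 1 / 2 ^ 38 := by
      have := key 64 le_rfl
      rw [← h5] at this
      norm_num at this ⊢
      exact this
    have hH : ‖gc (T.getD 2 (0, 0)) / 2 ^ 48‖ ≤ 1 := by
      rw [norm_div, norm_pow]
      have h12 : ‖(2 : ℂ)‖ = 2 := by simp
      rw [h12, div_le_one (by positivity)]
      have h13 : ‖gc (T.getD 2 (0, 0))‖ ^ 2 ≤ (2 ^ 48) ^ 2 := by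
        rw [← Complex.normSq_eq_norm_sq]
        simp only [gc, Complex.normSq_apply]
        have : (((T.getD 2 (0, 0)).1 ^ 2 + (T.getD 2 (0, 0)).2 ^ 2 : ℤ) : ℝ) ≤ ((2 ^ 96 : ℤ) : ℝ) := by
          exact_mod_cast h9
        push_cast at this
        nlinarith
      exact le_of_sq_le_sq h13 (by positivity)
    have hhalf := half_sound a th ha0 _ _ hcx2 h7 h8 hH
    rcases Nat.eq_or_lt_of_le ht with h12 | h12
    · subst h12
      refine le_trans ?_ (show (1 : ℝ) / 2 ^ 38 ≤ 1 / 2 ^ 30 by norm_num)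
      norm_num at hcx2 ⊢
      exact hcx2
    · -- t ≥ 6
      obtain ⟨i, rfl⟩ : ∃ i, t = 6 + i := ⟨t - 6, by omega⟩
      have hi : i < T.tail.length := by rw [List.length_tail]; omega
      have hx : T.tail[i]? = some T.tail[i] := List.getElem?_eq_getElem hi
      have h13 := tail_sound a th ha0 _ hhalf T.tail 0 0 le_rfl (by
        rw [List.length_tail, h4]; norm_num) (by
        intro x hx
        have e1 : T.tail.head? = some ((2 : ℤ) ^ 48, 0) := by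
          rw [List.head?_tail]
          have : 1 < T.length := by omega
          rw [List.getElem?_eq_getElem this]
          rw [List.getD_eq_getElem?_getD, List.getElem?_eq_getElem this, Option.getD_some] at h6
          rw [h6]
        rw [e1] at hx
        simp only [Option.mem_def, Option.some.injEq] at hx
        subst hx
        rw [pow_zero, cx_one]
        rw [gc_one48, sub_self, norm_zero]) h10 i _ hx
      have e3 : T.getD (6 + i - 5) (0, 0) = T.tail[i] := by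
        rw [List.getD_eq_getElem?_getD, show 6 + i - 5 = i + 1 by omega, ← List.getElem?_tail, hx,
          Option.getD_some]
      rw [e3]
      have e4 : (64 : ℝ) / 2 ^ (6 + i) = (1 / 2) ^ (0 + i) := by
        rw [pow_add, zero_add, one_div, inv_pow]
        norm_num
        field_simp
      rw [e4]
      refine h13.trans ?_
      have hi2 : (i : ℝ) ≤ 43 := by
        have : i ≤ 43 := by omega
        exact_mod_cast this
      calc (0 : ℝ) + i * (1 / 2 ^ 36) ≤ 0 + 43 * (1 / 2 ^ 36) := by gcongr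
        _ ≤ 1 / 2 ^ 30 := by norm_num

/-- **the constants** -/
theorem kc_sound (f m t : ℕ) (hm : 64 ≤ m) (hm' : m ≤ 128) (ht : 5 ≤ t) (ht' : t ≤ 49) :
    ‖cx (exA f / 100) (exB f / 100) ((m : ℝ) / 2 ^ t) - gc (kc f m t) / 2 ^ 40‖ ≤ 1 / 2 ^ 28 := by
  have hA : 0 ≤ exA f ∧ exA f ≤ 100 ∧ tabOK (exA f) (exB f) (kmT f) (ktT f) = true := by
    rcases f with _ | _ | f
    · exact ⟨by decide, by decide, tabOK0⟩
    · exact ⟨by decide, by decide, tabOK1⟩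
    · exact ⟨by simp [exA], by simp [exA], tabOK2⟩
  obtain ⟨hA0, hA1, hT⟩ := hA
  obtain ⟨h1, h2⟩ := tab_sound _ _ hA0 hA1 _ _ hT m t hm hm' ht ht'
  set a : ℝ := (exA f : ℝ) / 100 with ha
  set th : ℝ := (exB f : ℝ) / 100 with hth
  have ha0 : 0 ≤ a := by rw [ha]; positivity
  have ha1 : a ≤ 1 := by
    rw [ha, div_le_one (by norm_num)]; exact_mod_cast hA1
  set X := (kmT f).getD (m - 64) (0, 0)
  set Y := (ktT f).getD (t - 5) (0, 0)
  have hmR : (64 : ℝ) ≤ m := by exact_mod_cast hm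
  have hmR' : (m : ℝ) ≤ 128 := by exact_mod_cast hm'
  have e1 : cx a th ((m : ℝ) / 2 ^ t) = cx a th ((m : ℝ) / 64) * cx a th (64 / 2 ^ t) := by
    rw [← cx_mul a th _ _ (by positivity) (by positivity)]
    congr 1
    field_simp
  have n1 : ‖cx a th ((m : ℝ) / 64)‖ ≤ 2 := by
    rw [norm_cx a th _ (by positivity)]
    have h13 : (1 : ℝ) ≤ (m : ℝ) / 64 := by rw [le_div_iff₀ (by norm_num)]; linarith
    calc ((m : ℝ) / 64) ^ a ≤ ((m : ℝ) / 64) ^ (1 : ℝ) := Real.rpow_le_rpow_of_exponent_le h13 ha1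
      _ = (m : ℝ) / 64 := Real.rpow_one _
      _ ≤ 2 := by rw [div_le_iff₀ (by norm_num)]; linarith
  have n2 : ‖cx a th (64 / 2 ^ t)‖ ≤ 2 := by
    rw [norm_cx a th _ (by positivity)]
    have h13 : (64 : ℝ) / 2 ^ t ≤ 2 := by
      rw [div_le_iff₀ (by positivity)]
      have : (2 : ℝ) ^ 5 ≤ 2 ^ t := pow_le_pow_right₀ (by norm_num) ht
      linarith
    calc ((64 : ℝ) / 2 ^ t) ^ a ≤ 2 ^ a := Real.rpow_le_rpow (by positivity) h13 ha0
      _ ≤ 2 ^ (1 : ℝ) := Real.rpow_le_rpow_of_exponent_le (by norm_num) ha1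
      _ = 2 := Real.rpow_one _
  have n3 : ‖gc Y / 2 ^ 48‖ ≤ 3 := by
    have := norm_sub_norm_le (gc Y / 2 ^ 48) (cx a th (64 / 2 ^ t))
    rw [norm_sub_rev] at this
    have h3 : (1 : ℝ) / 2 ^ 30 ≤ 1 := by norm_num
    linarith
  have e2 : ‖gc X / 2 ^ 48 * (gc Y / 2 ^ 48) - gc (kc f m t) / 2 ^ 40‖ ≤ 2 / 2 ^ 40 := by
    have e3 : gc X / 2 ^ 48 * (gc Y / 2 ^ 48) - gc (kc f m t) / 2 ^ 40 =
        gc ((gm X Y).1 - (kc f m t).1 * 2 ^ 56, (gm X Y).2 - (kc f m t).2 * 2 ^ 56) / 2 ^ 96 := by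
      have e4 : gc ((gm X Y).1 - (kc f m t).1 * 2 ^ 56, (gm X Y).2 - (kc f m t).2 * 2 ^ 56) =
          gc (gm X Y) - ((2 : ℝ) ^ 56 : ℝ) * gc (kc f m t) := by
        apply Complex.ext
        · simp only [gc, Complex.sub_re, Complex.re_ofReal_mul]
          push_cast; ring
        · simp only [gc, Complex.sub_im, Complex.im_ofReal_mul]
          push_cast; ring
      rw [e4, gc_gm]
      push_cast
      ring
    rw [e3, norm_div, norm_pow]
    have h4 := norm_gc_le ((gm X Y).1 - (kc f m t).1 * 2 ^ 56, (gm X Y).2 - (kc f m t).2 * 2 ^ 56)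
    have hdiv : ∀ z : ℤ, |((z - z / 2 ^ 56 * 2 ^ 56 : ℤ) : ℝ)| ≤ 2 ^ 56 := by
      intro z
      have h5 := Int.emod_add_mul_ediv z (2 ^ 56)
      have h6 := Int.emod_nonneg z (show (2 ^ 56 : ℤ) ≠ 0 by norm_num)
      have h7 := Int.emod_lt_of_pos z (show (0 : ℤ) < 2 ^ 56 by norm_num)
      have h8 : z - z / 2 ^ 56 * 2 ^ 56 = z % 2 ^ 56 := by linarith
      rw [h8, abs_of_nonneg (by exact_mod_cast h6)]
      exact_mod_cast h7.le
    have h7 : ‖(2 : ℂ)‖ = 2 := by simp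
    rw [h7, div_le_div_iff₀ (by positivity) (by positivity)]
    have h8 := h4.trans (add_le_add (hdiv (gm X Y).1) (hdiv (gm X Y).2))
    norm_num at h8 ⊢
    linarith
  have e5 : cx a th ((m : ℝ) / 2 ^ t) - gc (kc f m t) / 2 ^ 40 =
      cx a th ((m : ℝ) / 64) * (cx a th (64 / 2 ^ t) - gc Y / 2 ^ 48) +
      ((cx a th ((m : ℝ) / 64) - gc X / 2 ^ 48) * (gc Y / 2 ^ 48) +
        (gc X / 2 ^ 48 * (gc Y / 2 ^ 48) - gc (kc f m t) / 2 ^ 40)) := by
    rw [e1]; ring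
  rw [e5]
  have h3 : ‖cx a th ((m : ℝ) / 64) * (cx a th (64 / 2 ^ t) - gc Y / 2 ^ 48)‖ ≤ 2 * (1 / 2 ^ 30) := by
    rw [norm_mul]
    exact mul_le_mul n1 h2 (norm_nonneg _) (by norm_num)
  have h4 : ‖(cx a th ((m : ℝ) / 64) - gc X / 2 ^ 48) * (gc Y / 2 ^ 48)‖ ≤ 1 / 2 ^ 38 * 3 := by
    rw [norm_mul]
    exact mul_le_mul h1 n3 (norm_nonneg _) (by norm_num)
  refine (norm_add_le _ _).trans ((add_le_add h3 ((norm_add_le _ _).trans (add_le_add h4 e2))).trans ?_)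
  norm_num

end Crest.Agent.R163.BxW
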