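import Crest.Agent.R163.BxA
import Crest.Agent.R163.BxKc

/-!
# Row 163: box engine, enclosures from Taylor polynomials at `c = m / 2 ^ t`

`mkWE m t n Nm`  : centre `x0 = m / 2 ^ t`, `N = 2 ^ t x - m`, `|N| ≤ Nm`, degree `n`.
`botWE m t`      : `0 ≤ x ≤ m / 2 ^ t`, zero polynomials.
`cenWE n`        : centre `1`, `N = 2 (x - 1)`, `|N| ≤ 1`, error `(n - 3) N ^ 4 + C N ^ (n + 1)` (`n` odd).
-/

set_option autoImplicit false

namespace Crest.Agent.R163.Bx

open Kr BxW Finset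

/-! ### lists -/

/-- `[g k, g (k+1), ..., g (k+n-1)]` -/
def cfs (g : ℕ → ℤ) : ℕ → ℕ → List ℤ
  | 0, _ => []
  | n + 1, k => g k :: cfs g n (k + 1)

theorem hr_cfs (g : ℕ → ℤ) (N : ℝ) (n k : ℕ) :
    hr N (cfs g n k) = ∑ i ∈ range n, (g (k + i) : ℝ) * N ^ i := by
  induction n generalizing k with
  | zero => simp [cfs, hr]
  | succ n ih =>
    rw [cfs, hr, ih, sum_range_succ', mul_sum]
    simp only [pow_zero, mul_one, add_zero]
    rw [add_comm]
    congr 1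
    refine sum_congr rfl fun i _ => ?_
    rw [pow_succ, show k + 1 + i = k + (i + 1) by ring]
    ring

/-- `100 ^ k k!` -/
def dn : ℕ → ℤ
  | 0 => 1
  | k + 1 => dn k * (100 * (k + 1))

theorem dn_eq (k : ℕ) : (dn k : ℝ) = 100 ^ k * (k.factorial : ℝ) := by
  induction k with
  | zero => simp [dn]
  | succ k ih =>
    rw [dn, Nat.factorial_succ]
    push_cast
    rw [ih]
    ring

theorem dn_pos (k : ℕ) : 0 < dn k := by
  induction k with
  | zero => simp [dn]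
  | succ k ih => rw [dn]; positivity

/-- `cbin` of the exponent `f` -/
theorem cbin_dn (A B : ℤ) (k : ℕ) : cbin (A / 100) (B / 100) k = gc (nk A B k) / ((dn k : ℝ) : ℂ) := by
  rw [gc_nk, dn_eq]
  push_cast
  rfl

/-- numerator and denominator of the coefficient of `N ^ k` -/
def cnum (f m t k : ℕ) : ℤ × ℤ := gs SN (gm (kc f m t) (nk (exA f) (exB f) k))

def cden (m k : ℕ) : ℤ := 2 ^ 40 * dn k * (m : ℤ) ^ k

/-- 1-norm -/
def n1 (z : ℤ × ℤ) : ℤ := |z.1| + |z.2|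

/-- error constant -/
def eT (f m t n Nm : ℕ) : ℤ :=
  SN * ((n1 (kc f m t) + 2 ^ 12) * n1 (nk (exA f) (exB f) (n + 1)) * (Nm : ℤ) ^ (n + 1)) /
    (2 ^ 40 * dn (n + 1) * (m : ℤ) ^ n * ((m : ℤ) - Nm)) + 1 + (n + 1) * (SN / 2 ^ 28 + 1) +
    (cfs (fun k => (Nm : ℤ) ^ k) (n + 1) 0).sum

/-- enclosure with centre `m / 2 ^ t` -/
def mkWE (m t n Nm : ℕ) : WE where
  ln := (m : ℤ) - Nm
  hn := (m : ℤ) + Nm
  dd := 2 ^ (t - 1)
  a := 2 ^ (t - 1)
  b := m
  r1 := cfs (fun k => (cnum 0 m t k).1 / cden m k) (n + 1) 0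
  i1 := cfs (fun k => (cnum 0 m t k).2 / cden m k) (n + 1) 0
  e1 := [eT 0 m t n Nm]
  r0 := cfs (fun k => (cnum 1 m t k).1 / cden m k) (n + 1) 0
  i0 := cfs (fun k => (cnum 1 m t k).2 / cden m k) (n + 1) 0
  e0 := [eT 1 m t n Nm]
  r3 := cfs (fun k => (cnum 2 m t k).1 / cden m k) (n + 1) 0
  e3 := [eT 2 m t n Nm]

theorem sum_cfs (g : ℕ → ℤ) (n k : ℕ) : (cfs g n k).sum = ∑ i ∈ range n, g (k + i) := by
  induction n generalizing k with
  | zero => simp [cfs]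
  | succ n ih =>
    rw [cfs, List.sum_cons, ih, sum_range_succ', add_zero, add_comm]
    congr 1
    refine sum_congr rfl fun i _ => by rw [show k + 1 + i = k + (i + 1) by ring]

theorem exAB (f : ℕ) : 0 ≤ exA f ∧ exA f ≤ 50 ∧ 0 ≤ exB f ∧ exB f ≤ 47 := by
  rcases f with _ | _ | f <;> simp [exA, exB]

theorem norm_cbin_le (f k : ℕ) : ‖cbin (exA f / 100) (exB f / 100) k‖ ≤ 1 := by
  obtain ⟨h1, h2, h3, h4⟩ := exAB f
  have h1' : (0 : ℝ) ≤ exA f := by exact_mod_cast h1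
  have h2' : (exA f : ℝ) ≤ 50 := by exact_mod_cast h2
  have h3' : (0 : ℝ) ≤ exB f := by exact_mod_cast h3
  have h4' : (exB f : ℝ) ≤ 47 := by exact_mod_cast h4
  induction k with
  | zero => simp [cbin]
  | succ k ih =>
    unfold cbin at ih ⊢
    rw [prod_range_succ, norm_mul, norm_div]
    have e1 : ‖((k : ℂ) + 1)‖ = k + 1 := by
      have : ((k : ℂ) + 1) = ((k + 1 : ℝ) : ℂ) := by push_cast; ring
      rw [this, Complex.norm_real, Real.norm_of_nonneg (by positivity)]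
    have hk : (0 : ℝ) ≤ k := by positivity
    have e2 : ‖(⟨(exA f : ℝ) / 100 - k, (exB f : ℝ) / 100⟩ : ℂ)‖ ≤ k + 1 := by
      have h5 : ‖(⟨(exA f : ℝ) / 100 - k, (exB f : ℝ) / 100⟩ : ℂ)‖ ^ 2 =
          ((exA f : ℝ) / 100 - k) ^ 2 + ((exB f : ℝ) / 100) ^ 2 := by
        rw [Complex.sq_norm, Complex.normSq_apply]; ring
      have h6 : ((exA f : ℝ) / 100 - k) ^ 2 + ((exB f : ℝ) / 100) ^ 2 ≤ ((k : ℝ) + 1) ^ 2 := by
        nlinarith [mul_nonneg h1' hk]
      exact le_of_sq_le_sq (by rw [h5]; exact h6) (by positivity)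
    rw [e1]
    calc _ ≤ (1 : ℝ) * 1 := mul_le_mul ih (by rw [div_le_one (by positivity)]; exact e2)
            (by positivity) zero_le_one
      _ = 1 := one_mul 1

theorem idiv_bd (p q : ℤ) (hq : 0 < q) : ((p / q : ℤ) : ℝ) ≤ (p : ℝ) / q ∧
    (p : ℝ) / q ≤ ((p / q : ℤ) : ℝ) + 1 := by
  have hq' : (0 : ℝ) < q := by exact_mod_cast hq
  constructor
  · rw [le_div_iff₀ hq']
    exact_mod_cast Int.ediv_mul_le p hq.ne'
  · rw [div_le_iff₀ hq']
    exact_mod_cast (Int.lt_ediv_add_one_mul_self p hq).le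

theorem n1_norm (z : ℤ × ℤ) : ‖gc z‖ ≤ (n1 z : ℝ) := by
  unfold n1
  push_cast
  exact norm_gc_le z

theorem n1_nonneg (z : ℤ × ℤ) : (0 : ℝ) ≤ (n1 z : ℝ) := (norm_nonneg _).trans (n1_norm z)

theorem cden_pos (m k : ℕ) (hm : 0 < m) : 0 < cden m k := by
  unfold cden
  have h1 := dn_pos k
  have h2 : (0 : ℤ) < m := by exact_mod_cast hm
  positivity

/-- comparison of polynomials with rounded coefficients -/
theorem round_bd (p q : ℕ → ℤ) (hq : ∀ i, 0 < q i) (n : ℕ) (N : ℝ) (Nm : ℕ) (hN : |N| ≤ Nm) :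
    |∑ i ∈ range n, ((p i : ℝ) / q i) * N ^ i - ∑ i ∈ range n, ((p i / q i : ℤ) : ℝ) * N ^ i| ≤
      ∑ i ∈ range n, (Nm : ℝ) ^ i := by
  rw [← sum_sub_distrib]
  refine (abs_sum_le_sum_abs _ _).trans (sum_le_sum fun i _ => ?_)
  rw [← sub_mul, abs_mul, abs_pow]
  obtain ⟨h1, h2⟩ := idiv_bd (p i) (q i) (hq i)
  have h3 : |(p i : ℝ) / q i - ((p i / q i : ℤ) : ℝ)| ≤ 1 := by
    rw [abs_le]; constructor <;> linarith
  calc _ ≤ 1 * (Nm : ℝ) ^ i := mul_le_mul h3 (pow_le_pow_left₀ (abs_nonneg _) hN i)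
        (by positivity) zero_le_one
    _ = _ := one_mul _

theorem mk_main (f m t n Nm : ℕ) (hm : 64 ≤ m) (hm' : m ≤ 128) (ht : 5 ≤ t) (ht' : t ≤ 49)
    (hN : Nm < m) (x : ℝ) (hx : |2 ^ t * x - m| ≤ Nm) :
    ‖cx (exA f / 100) (exB f / 100) x * (S : ℂ) -
      ∑ i ∈ range (n + 1), gc (cnum f m t i) / ((cden m i : ℝ) : ℂ) * (((2 ^ t * x - m : ℝ)) : ℂ) ^ i‖ ≤
      ((SN * ((n1 (kc f m t) + 2 ^ 12) * n1 (nk (exA f) (exB f) (n + 1)) * (Nm : ℤ) ^ (n + 1)) /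
    (2 ^ 40 * dn (n + 1) * (m : ℤ) ^ n * ((m : ℤ) - Nm)) + 1 + (n + 1) * (SN / 2 ^ 28 + 1) : ℤ) : ℝ) := by
  obtain ⟨hA0, hA50, hB0, hB47⟩ := exAB f
  set a : ℝ := (exA f : ℝ) / 100 with ha
  set th : ℝ := (exB f : ℝ) / 100 with hth
  have ha0 : 0 ≤ a := by
    have : (0 : ℝ) ≤ exA f := by exact_mod_cast hA0
    rw [ha]; positivity
  have ha1 : a ≤ 1 := by
    have : (exA f : ℝ) ≤ 50 := by exact_mod_cast hA50
    rw [ha]; linarith
  have hm0 : (0 : ℝ) < m := by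
    have : 0 < m := by omega
    exact_mod_cast this
  have hmN : (Nm : ℝ) < m := by exact_mod_cast hN
  set N : ℝ := 2 ^ t * x - m with hNd
  set K : ℂ := gc (kc f m t) / 2 ^ 40 with hK
  have hkc := kc_sound f m t hm hm' ht ht'
  rw [← ha, ← hth, ← hK] at hkc
  have h2t : (0 : ℝ) < 2 ^ t := by positivity
  set c : ℝ := (m : ℝ) / 2 ^ t with hc
  have hc0 : 0 < c := by positivity
  have hzeta : (x - c) / c = N / m := by
    rw [hc, hNd]; field_simp
  have hxc : |x - c| ≤ (Nm : ℝ) / m * c := by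
    have e : x - c = N / m * c := by rw [← hzeta]; field_simp
    rw [e, abs_mul, abs_div, abs_of_pos hc0, abs_of_pos hm0]
    gcongr
  have hr1 : (Nm : ℝ) / m < 1 := by rw [div_lt_one hm0]; exact hmN
  have hT := taylor_enc a th ha0 ha1 n c x ((Nm : ℝ) / m) hc0 hxc hr1
  rw [hzeta] at hT
  have hca : c ^ a ≤ ((n1 (kc f m t) : ℝ) + 2 ^ 12) / 2 ^ 40 := by
    rw [← norm_cx a th c hc0.le]
    have h1 : ‖cx a th c‖ ≤ ‖K‖ + 1 / 2 ^ 28 := by
      calc ‖cx a th c‖ = ‖K + (cx a th c - K)‖ := by congr 1; ring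
        _ ≤ ‖K‖ + ‖cx a th c - K‖ := norm_add_le _ _
        _ ≤ _ := by linarith
    have h2 : ‖K‖ ≤ (n1 (kc f m t) : ℝ) / 2 ^ 40 := by
      rw [hK, norm_div]
      have : ‖(2 ^ 40 : ℂ)‖ = 2 ^ 40 := by simp
      rw [this]
      gcongr
      exact n1_norm _
    have h3 : ((n1 (kc f m t) : ℝ) + 2 ^ 12) / 2 ^ 40 = (n1 (kc f m t) : ℝ) / 2 ^ 40 + 1 / 2 ^ 28 := by
      ring
    linarith
  have hcb : ‖cbin a th (n + 1)‖ ≤ (n1 (nk (exA f) (exB f) (n + 1)) : ℝ) / dn (n + 1) := by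
    rw [ha, hth, cbin_dn, norm_div]
    have hd : (0 : ℝ) < dn (n + 1) := by exact_mod_cast dn_pos (n + 1)
    rw [Complex.norm_real, Real.norm_of_nonneg hd.le]
    gcongr
    exact n1_norm _
  have hd : (0 : ℝ) < dn (n + 1) := by exact_mod_cast dn_pos (n + 1)
  have hS := S_pos
  -- the polynomial
  have hP : ∑ i ∈ range (n + 1), gc (cnum f m t i) / ((cden m i : ℝ) : ℂ) * (N : ℂ) ^ i =
      (S : ℂ) * (K * tay a th n (N / m)) := by
    unfold tay
    rw [mul_sum, mul_sum]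
    refine sum_congr rfl fun i _ => ?_
    rw [ha, hth, cbin_dn, cnum, gc_gs, gc_gm, hK, cden]
    have hd' : ((dn i : ℝ) : ℂ) ≠ 0 := by
      have := dn_pos i
      exact_mod_cast this.ne'
    have hm1 : (m : ℂ) ≠ 0 := by exact_mod_cast hm0.ne'
    simp only [S]
    push_cast at hd' ⊢
    rw [div_pow]
    field_simp
    ring
  rw [hP]
  have hsplit : cx a th x * (S : ℂ) - (S : ℂ) * (K * tay a th n (N / m)) =
      (S : ℂ) * ((cx a th x - cx a th c * tay a th n (N / m)) +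
        (cx a th c - K) * tay a th n (N / m)) := by ring
  rw [hsplit, norm_mul, Complex.norm_real, Real.norm_of_nonneg hS.le]
  have htay : ‖tay a th n (N / m)‖ ≤ n + 1 := by
    unfold tay
    refine (norm_sum_le _ _).trans ?_
    have : ∀ i ∈ range (n + 1), ‖cbin a th i * ((N / m : ℝ) : ℂ) ^ i‖ ≤ 1 := by
      intro i _
      rw [norm_mul, norm_pow, Complex.norm_real, Real.norm_eq_abs, abs_div, abs_of_pos hm0]
      have h1 := norm_cbin_le f i
      rw [← ha, ← hth] at h1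
      have h2 : (|N| / m) ^ i ≤ 1 := by
        apply pow_le_one₀ (by positivity)
        rw [div_le_one hm0]
        linarith
      calc _ ≤ (1 : ℝ) * 1 := mul_le_mul h1 h2 (by positivity) zero_le_one
        _ = 1 := one_mul 1
    calc _ ≤ ∑ i ∈ range (n + 1), (1 : ℝ) := sum_le_sum this
      _ = n + 1 := by simp
  have hR : c ^ a * ‖cbin a th (n + 1)‖ * |N / m| ^ (n + 1) / (1 - Nm / m) ≤
      ((n1 (kc f m t) : ℝ) + 2 ^ 12) * n1 (nk (exA f) (exB f) (n + 1)) * (Nm : ℝ) ^ (n + 1) /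
    (2 ^ 40 * dn (n + 1) * (m : ℝ) ^ n * ((m : ℝ) - Nm)) := by
    have h1 : 0 < 1 - (Nm : ℝ) / m := by linarith
    have h2 : 0 < (m : ℝ) - Nm := by linarith
    have e : ((n1 (kc f m t) : ℝ) + 2 ^ 12) * n1 (nk (exA f) (exB f) (n + 1)) * (Nm : ℝ) ^ (n + 1) /
        (2 ^ 40 * dn (n + 1) * (m : ℝ) ^ n * ((m : ℝ) - Nm)) =
        ((n1 (kc f m t) : ℝ) + 2 ^ 12) / 2 ^ 40 * (n1 (nk (exA f) (exB f) (n + 1)) / dn (n + 1)) *
          ((Nm : ℝ) / m) ^ (n + 1) / (1 - Nm / m) := by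
      have e1 : 1 - (Nm : ℝ) / m = (m - Nm) / m := by field_simp
      rw [e1, div_pow, pow_succ (m : ℝ) n]
      field_simp
    rw [e, abs_div, abs_of_pos hm0]
    have h4 := n1_nonneg (kc f m t)
    have h5 := n1_nonneg (nk (exA f) (exB f) (n + 1))
    gcongr
  have hfin : ‖(cx a th x - cx a th c * tay a th n (N / m)) +
        (cx a th c - K) * tay a th n (N / m)‖ ≤
      ((n1 (kc f m t) : ℝ) + 2 ^ 12) * n1 (nk (exA f) (exB f) (n + 1)) * (Nm : ℝ) ^ (n + 1) /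
    (2 ^ 40 * dn (n + 1) * (m : ℝ) ^ n * ((m : ℝ) - Nm)) + (n + 1) / 2 ^ 28 := by
    refine (norm_add_le _ _).trans (add_le_add (hT.trans hR) ?_)
    rw [norm_mul]
    calc _ ≤ 1 / 2 ^ 28 * ((n : ℝ) + 1) := mul_le_mul hkc htay (norm_nonneg _) (by positivity)
      _ = _ := by ring
  refine (mul_le_mul_of_nonneg_left hfin hS.le).trans ?_
  have hden : 0 < 2 ^ 40 * dn (n + 1) * (m : ℤ) ^ n * ((m : ℤ) - Nm) := by
    have h1 := dn_pos (n + 1)
    have h2 : (0 : ℤ) < m := by omega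
    have h3 : (0 : ℤ) < (m : ℤ) - Nm := by omega
    positivity
  have g1 := (idiv_bd (SN * ((n1 (kc f m t) + 2 ^ 12) * n1 (nk (exA f) (exB f) (n + 1)) * (Nm : ℤ) ^ (n + 1)))
    (2 ^ 40 * dn (n + 1) * (m : ℤ) ^ n * ((m : ℤ) - Nm)) hden).2
  have g2 := (idiv_bd (SN : ℤ) (2 ^ 28) (by norm_num)).2
  rw [mul_add]
  rw [Int.cast_add, Int.cast_mul, Int.cast_add (_ / _) 1]
  push_cast at g1 g2 ⊢
  refine add_le_add ?_ ?_
  · refine le_trans (le_of_eq ?_) g1
    simp only [S]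
    ring
  · have e : S * (((n : ℝ) + 1) / 2 ^ 28) = (n + 1) * ((SN : ℝ) / 2 ^ 28) := by
      simp only [S]; ring
    rw [e]
    refine mul_le_mul_of_nonneg_left (le_trans (le_of_eq ?_) g2) (by positivity)
    norm_num

theorem gc_re (z : ℤ × ℤ) : (gc z).re = z.1 := rfl
theorem gc_im (z : ℤ × ℤ) : (gc z).im = z.2 := rfl

theorem sum_re (g : ℕ → ℤ × ℤ) (d : ℕ → ℤ) (N : ℝ) (n : ℕ) :
    (∑ i ∈ range n, gc (g i) / ((d i : ℝ) : ℂ) * (N : ℂ) ^ i).re =
      ∑ i ∈ range n, ((g i).1 : ℝ) / d i * N ^ i := by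
  rw [Complex.re_sum]
  refine sum_congr rfl fun i _ => ?_
  rw [← Complex.ofReal_pow, Complex.re_mul_ofReal, Complex.div_ofReal_re, gc_re]

theorem sum_im (g : ℕ → ℤ × ℤ) (d : ℕ → ℤ) (N : ℝ) (n : ℕ) :
    (∑ i ∈ range n, gc (g i) / ((d i : ℝ) : ℂ) * (N : ℂ) ^ i).im =
      ∑ i ∈ range n, ((g i).2 : ℝ) / d i * N ^ i := by
  rw [Complex.im_sum]
  refine sum_congr rfl fun i _ => ?_
  rw [← Complex.ofReal_pow, Complex.im_mul_ofReal, Complex.div_ofReal_im, gc_im]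

theorem mk_est (f m t n Nm : ℕ) (hm : 64 ≤ m) (hm' : m ≤ 128) (ht : 5 ≤ t) (ht' : t ≤ 49)
    (hN : Nm < m) (x : ℝ) (hx : |2 ^ t * x - m| ≤ Nm) :
    |(cx (exA f / 100) (exB f / 100) x).re * S -
        ∑ i ∈ range (n + 1), (((cnum f m t i).1 / cden m i : ℤ) : ℝ) * (2 ^ t * x - m) ^ i| ≤ eT f m t n Nm ∧
    |(cx (exA f / 100) (exB f / 100) x).im * S -
        ∑ i ∈ range (n + 1), (((cnum f m t i).2 / cden m i : ℤ) : ℝ) * (2 ^ t * x - m) ^ i| ≤ eT f m t n Nm := by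
  have h := mk_main f m t n Nm hm hm' ht ht' hN x hx
  have hsum : ((cfs (fun k => (Nm : ℤ) ^ k) (n + 1) 0).sum : ℝ) = ∑ i ∈ range (n + 1), (Nm : ℝ) ^ i := by
    rw [sum_cfs]
    push_cast
    refine sum_congr rfl fun i _ => by rw [zero_add]
  have hq : ∀ i, 0 < cden m i := fun i => cden_pos m i (by omega)
  have r1 := round_bd (fun i => (cnum f m t i).1) (cden m) hq (n + 1) _ Nm hx
  have r2 := round_bd (fun i => (cnum f m t i).2) (cden m) hq (n + 1) _ Nm hx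
  have hre := (Complex.abs_re_le_norm _).trans h
  have him := (Complex.abs_im_le_norm _).trans h
  rw [Complex.sub_re, Complex.re_mul_ofReal, sum_re] at hre
  rw [Complex.sub_im, Complex.im_mul_ofReal, sum_im] at him
  rw [eT, Int.cast_add _ (List.sum _), hsum]
  constructor
  · refine (abs_sub_le _ _ _).trans (add_le_add hre r1)
  · refine (abs_sub_le _ _ _).trans (add_le_add him r2)

/-- side conditions -/
def mkOK (m t Nm : ℕ) : Bool := Nat.ble 64 m && Nat.ble m 128 && Nat.ble 5 t && Nat.ble t 49 && Nat.blt Nm m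

theorem A1_eq (x : ℝ) : A1 x = (cx (exA 0 / 100) (exB 0 / 100) x).re := by
  simp only [A1, cx, exA, exB]
  norm_num
theorem B1_eq (x : ℝ) : B1 x = (cx (exA 0 / 100) (exB 0 / 100) x).im := by
  simp only [B1, cx, exA, exB]
  norm_num
theorem A0_eq (x : ℝ) : A0 x = (cx (exA 1 / 100) (exB 1 / 100) x).re := by
  simp only [A0, cx, exA, exB]
  norm_num
theorem B0_eq (x : ℝ) : B0 x = (cx (exA 1 / 100) (exB 1 / 100) x).im := by
  simp only [B0, cx, exA, exB]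
  norm_num
theorem C0_eq (x : ℝ) : C0 x = (cx (exA 2 / 100) (exB 2 / 100) x).re := by
  simp only [C0, cx, exA, exB]
  norm_num

theorem mkWE_valid (m t n Nm : ℕ) (h : mkOK m t Nm = true) : (mkWE m t n Nm).Valid := by
  simp only [mkOK, Bool.and_eq_true, Nat.ble_eq, Nat.blt_eq] at h
  obtain ⟨⟨⟨⟨hm, hm'⟩, ht⟩, ht'⟩, hN⟩ := h
  intro X hX0 hX6 h1 h2
  have e2 : (2 : ℝ) ^ t = 2 * 2 ^ (t - 1) := by
    rw [← pow_succ', show t - 1 + 1 = t by omega]
  have e1 : ((mkWE m t n Nm).a : ℝ) * X - (mkWE m t n Nm).b = 2 ^ t * (X / 2) - m := by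
    simp only [mkWE]
    rw [e2]
    push_cast
    ring
  rw [e1]
  have hx : |2 ^ t * (X / 2) - (m : ℝ)| ≤ Nm := by
    simp only [mkWE] at h1 h2
    push_cast at h1 h2
    have e3 : (2 : ℝ) ^ t * (X / 2) = 2 ^ (t - 1) * X := by rw [e2]; ring
    rw [e3, abs_le]
    constructor <;> linarith
  have k0 := mk_est 0 m t n Nm hm hm' ht ht' hN (X / 2) hx
  have k1 := mk_est 1 m t n Nm hm hm' ht ht' hN (X / 2) hx
  have k2 := mk_est 2 m t n Nm hm hm' ht ht' hN (X / 2) hx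
  rw [A1_eq, B1_eq, A0_eq, B0_eq, C0_eq]
  simp only [mkWE, hr_cfs, zero_add, hr, mul_zero, add_zero]
  exact ⟨k0.1, k0.2, k1.1, k1.2, k2.1⟩

/-! ### bottom -/

def eB (f m t : ℕ) : ℤ := SN * (n1 (kc f m t) + 2 ^ 12) / 2 ^ 40 + 1

/-- `0 ≤ x ≤ m / 2 ^ t` -/
def botWE (m t : ℕ) : WE where
  ln := 0
  hn := m
  dd := 2 ^ (t - 1)
  a := 1
  b := 0
  r1 := []
  i1 := []
  e1 := [eB 0 m t]
  r0 := []
  i0 := []
  e0 := [eB 1 m t]
  r3 := []
  e3 := [eB 2 m t]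

theorem bot_est (f m t : ℕ) (hm : 64 ≤ m) (hm' : m ≤ 128) (ht : 5 ≤ t) (ht' : t ≤ 49)
    (x : ℝ) (hx0 : 0 ≤ x) (hx : 2 ^ t * x ≤ m) :
    |(cx (exA f / 100) (exB f / 100) x).re * S| ≤ eB f m t ∧
    |(cx (exA f / 100) (exB f / 100) x).im * S| ≤ eB f m t := by
  obtain ⟨hA0, hA50, hB0, hB47⟩ := exAB f
  set a : ℝ := (exA f : ℝ) / 100 with ha
  set th : ℝ := (exB f : ℝ) / 100 with hth
  have ha0 : 0 ≤ a := by
    have : (0 : ℝ) ≤ exA f := by exact_mod_cast hA0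
    rw [ha]; positivity
  have h2t : (0 : ℝ) < 2 ^ t := by positivity
  set c : ℝ := (m : ℝ) / 2 ^ t with hc
  have hm0 : (0 : ℝ) < m := by
    have : 0 < m := by omega
    exact_mod_cast this
  have hc0 : 0 < c := by positivity
  set K : ℂ := gc (kc f m t) / 2 ^ 40 with hK
  have hkc := kc_sound f m t hm hm' ht ht'
  rw [← ha, ← hth, ← hK] at hkc
  have hS := S_pos
  have hca : c ^ a ≤ ((n1 (kc f m t) : ℝ) + 2 ^ 12) / 2 ^ 40 := by
    rw [← norm_cx a th c hc0.le]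
    have h1 : ‖cx a th c‖ ≤ ‖K‖ + 1 / 2 ^ 28 := by
      calc ‖cx a th c‖ = ‖K + (cx a th c - K)‖ := by congr 1; ring
        _ ≤ ‖K‖ + ‖cx a th c - K‖ := norm_add_le _ _
        _ ≤ _ := by linarith
    have h2 : ‖K‖ ≤ (n1 (kc f m t) : ℝ) / 2 ^ 40 := by
      rw [hK, norm_div]
      have : ‖(2 ^ 40 : ℂ)‖ = 2 ^ 40 := by simp
      rw [this]
      gcongr
      exact n1_norm _
    have h3 : ((n1 (kc f m t) : ℝ) + 2 ^ 12) / 2 ^ 40 = (n1 (kc f m t) : ℝ) / 2 ^ 40 + 1 / 2 ^ 28 := by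
      ring
    linarith
  have hxa : ‖cx a th x * (S : ℂ)‖ ≤ eB f m t := by
    rw [norm_mul, norm_cx a th x hx0, Complex.norm_real, Real.norm_of_nonneg hS.le]
    have hxc : x ≤ c := by
      rw [hc, le_div_iff₀ h2t]; linarith
    have h1 : x ^ a ≤ c ^ a := Real.rpow_le_rpow hx0 hxc ha0
    have g1 := (idiv_bd (SN * (n1 (kc f m t) + 2 ^ 12)) (2 ^ 40) (by norm_num)).2
    unfold eB
    rw [Int.cast_add _ (1 : ℤ)]
    push_cast at g1 ⊢
    refine le_trans ?_ g1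
    calc x ^ a * S ≤ ((n1 (kc f m t) : ℝ) + 2 ^ 12) / 2 ^ 40 * S :=
          mul_le_mul_of_nonneg_right (h1.trans hca) hS.le
      _ = _ := by simp only [S]; ring
  constructor
  · have := (Complex.abs_re_le_norm (cx a th x * (S : ℂ))).trans hxa
    rwa [Complex.re_mul_ofReal] at this
  · have := (Complex.abs_im_le_norm (cx a th x * (S : ℂ))).trans hxa
    rwa [Complex.im_mul_ofReal] at this

theorem botWE_valid (m t : ℕ) (h : mkOK m t 0 = true) : (botWE m t).Valid := by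
  simp only [mkOK, Bool.and_eq_true, Nat.ble_eq, Nat.blt_eq] at h
  obtain ⟨⟨⟨⟨hm, hm'⟩, ht⟩, ht'⟩, hN⟩ := h
  intro X hX0 hX6 h1 h2
  have e2 : (2 : ℝ) ^ t = 2 * 2 ^ (t - 1) := by
    rw [← pow_succ', show t - 1 + 1 = t by omega]
  have hx : 2 ^ t * (X / 2) ≤ (m : ℝ) := by
    simp only [botWE] at h2
    push_cast at h2
    have e3 : (2 : ℝ) ^ t * (X / 2) = 2 ^ (t - 1) * X := by rw [e2]; ring
    rw [e3]; exact h2
  have k0 := bot_est 0 m t hm hm' ht ht' (X / 2) (by linarith) hx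
  have k1 := bot_est 1 m t hm hm' ht ht' (X / 2) (by linarith) hx
  have k2 := bot_est 2 m t hm hm' ht ht' (X / 2) (by linarith) hx
  rw [A1_eq, B1_eq, A0_eq, B0_eq, C0_eq]
  simp only [botWE, hr, mul_zero, add_zero, sub_zero]
  exact ⟨k0.1, k0.2, k1.1, k1.2, k2.1⟩

/-! ### centre -/

/-- coefficients at `1` (variable `N = 2 (x - 1)`) -/
def c1num (f k : ℕ) : ℤ × ℤ := gs SN (nk (exA f) (exB f) k)

def c1den (k : ℕ) : ℤ := dn k * 2 ^ k

/-- error polynomial: `(n - 3) N ^ 4 + C N ^ (n + 1)` -/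
def eC (f n : ℕ) : List ℤ :=
  0 :: 0 :: 0 :: 0 :: ((n : ℤ) - 3) :: (List.replicate (n - 4) 0 ++
    [SN * (2 * n1 (nk (exA f) (exB f) (n + 1))) / (dn (n + 1) * 2 ^ (n + 1)) + 1])

/-- centre `1` -/
def cenWE (n : ℕ) : WE where
  ln := 1
  hn := 3
  dd := 1
  a := 1
  b := 2
  r1 := cfs (fun k => (c1num 0 k).1 / c1den k) (n + 1) 0
  i1 := cfs (fun k => (c1num 0 k).2 / c1den k) (n + 1) 0
  e1 := eC 0 n
  r0 := cfs (fun k => (c1num 1 k).1 / c1den k) (n + 1) 0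
  i0 := cfs (fun k => (c1num 1 k).2 / c1den k) (n + 1) 0
  e0 := eC 1 n
  r3 := cfs (fun k => (c1num 2 k).1 / c1den k) (n + 1) 0
  e3 := eC 2 n

theorem hr_replicate (N : ℝ) (j : ℕ) (c : ℤ) : hr N (List.replicate j 0 ++ [c]) = c * N ^ j := by
  induction j with
  | zero => simp [hr]
  | succ j ih =>
    rw [List.replicate_succ, List.cons_append, hr, ih, pow_succ]
    push_cast
    ring

theorem hr_eC (f n : ℕ) (hn : 4 ≤ n) (N : ℝ) : hr N (eC f n) = ((n : ℝ) - 3) * N ^ 4 +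
    ((SN * (2 * n1 (nk (exA f) (exB f) (n + 1))) / (dn (n + 1) * 2 ^ (n + 1)) + 1 : ℤ) : ℝ) * N ^ (n + 1) := by
  unfold eC
  simp only [hr, hr_replicate]
  have e : N ^ (n + 1) = N ^ (n - 4) * N ^ 5 := by rw [← pow_add]; congr 1; omega
  rw [e]
  push_cast
  ring

private theorem h16_fl (a d : ℤ) (hd : 0 < d) : |(a : ℝ) / d - ((a / d : ℤ) : ℝ)| ≤ 1 := by
  have hd' : (0 : ℝ) < (d : ℝ) := by exact_mod_cast hd
  have h1 : ((a / d : ℤ) : ℝ) ≤ (a : ℝ) / d := by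
    rw [le_div_iff₀ hd']
    have := Int.ediv_mul_le a hd.ne'
    exact_mod_cast this
  have h2 : (a : ℝ) / d ≤ ((a / d : ℤ) : ℝ) + 1 := by
    rw [div_le_iff₀ hd']
    have := Int.lt_ediv_add_one_mul_self a hd
    have h3 : (a : ℝ) < (((a / d + 1) * d : ℤ) : ℝ) := by exact_mod_cast this
    push_cast at h3
    exact h3.le
  rw [abs_le]
  constructor <;> linarith

private theorem h16_comp (n : ℕ) (hn : 3 ≤ n) (num den : ℕ → ℤ) (hden : ∀ k, 0 < den k)
    (hex : ∀ k, k < 4 → den k ∣ num k) (N v E : ℝ) (hN : |N| ≤ 1)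
    (hv : |v - ∑ k ∈ range (n + 1), ((num k : ℝ) / den k) * N ^ k| ≤ E) :
    |v - ∑ k ∈ range (n + 1), ((num k / den k : ℤ) : ℝ) * N ^ k| ≤ ((n : ℝ) - 3) * N ^ 4 + E := by
  have hterm : ∀ k, |((num k : ℝ) / den k) * N ^ k - ((num k / den k : ℤ) : ℝ) * N ^ k| ≤
      if k < 4 then 0 else N ^ 4 := by
    intro k
    rw [← sub_mul]
    split_ifs with hk
    · have hd' : ((den k : ℤ) : ℝ) ≠ 0 := by
        have := (hden k).ne'
        exact_mod_cast this
      obtain ⟨c, hc⟩ := hex k hk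
      have e1 : (num k / den k : ℤ) = c := by
        rw [hc]; exact Int.mul_ediv_cancel_left c (hden k).ne'
      have e2 : (num k : ℝ) / den k = c := by
        rw [hc]; push_cast; field_simp
      rw [e1, e2, sub_self, zero_mul, abs_zero]
    · rw [abs_mul, abs_pow]
      have h1 := h16_fl (num k) (den k) (hden k)
      have h2 : |N| ^ k ≤ |N| ^ 4 := pow_le_pow_of_le_one (abs_nonneg N) hN (by omega)
      have h3 : |N| ^ 4 = N ^ 4 := by
        rw [← abs_pow]; exact abs_of_nonneg (by positivity)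
      calc |(num k : ℝ) / den k - ((num k / den k : ℤ) : ℝ)| * |N| ^ k ≤ 1 * |N| ^ k :=
            mul_le_mul_of_nonneg_right h1 (by positivity)
        _ = |N| ^ k := one_mul _
        _ ≤ |N| ^ 4 := h2
        _ = N ^ 4 := h3
  have hsum : ∑ k ∈ range (n + 1), (if k < 4 then (0 : ℝ) else N ^ 4) = ((n : ℝ) - 3) * N ^ 4 := by
    induction n, hn using Nat.le_induction with
    | base => simp [sum_range_succ]
    | succ m hm ih =>
      have hv' : True := trivial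
      rw [sum_range_succ]
      have e : ∑ k ∈ range (m + 1), (if k < 4 then (0 : ℝ) else N ^ 4) = ((m : ℝ) - 3) * N ^ 4 := by
        clear ih hv
        induction m, hm using Nat.le_induction with
        | base => simp [sum_range_succ]
        | succ j hj ih' =>
          rw [sum_range_succ, ih', if_neg (by omega)]
          push_cast; ring
      rw [e, if_neg (by omega)]
      push_cast; ring
  have hd : |∑ k ∈ range (n + 1), ((num k : ℝ) / den k) * N ^ k -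
      ∑ k ∈ range (n + 1), ((num k / den k : ℤ) : ℝ) * N ^ k| ≤ ((n : ℝ) - 3) * N ^ 4 := by
    rw [← sum_sub_distrib, ← hsum]
    exact (abs_sum_le_sum_abs _ _).trans (sum_le_sum fun k _ => hterm k)
  have e : v - ∑ k ∈ range (n + 1), ((num k / den k : ℤ) : ℝ) * N ^ k =
      (v - ∑ k ∈ range (n + 1), ((num k : ℝ) / den k) * N ^ k) +
      (∑ k ∈ range (n + 1), ((num k : ℝ) / den k) * N ^ k -
        ∑ k ∈ range (n + 1), ((num k / den k : ℤ) : ℝ) * N ^ k) := by ring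
  rw [e]
  refine (abs_add_le _ _).trans ?_
  linarith

private theorem h16_exA (f : ℕ) : (0 : ℝ) ≤ exA f / 100 ∧ (exA f : ℝ) / 100 ≤ 1 := by
  match f with
  | 0 => norm_num [exA]
  | 1 => norm_num [exA]
  | k + 2 =>
    have h : exA (k + 2) = 30 := rfl
    rw [h]; norm_num

private theorem h16_div (f k : ℕ) (hk : k < 4) : (c1den k ∣ (c1num f k).1) ∧ (c1den k ∣ (c1num f k).2) := by
  have hS : (c1den k : ℤ) ∣ ((SN : ℕ) : ℤ) := by
    unfold c1den SN
    interval_cases k <;> simp only [dn] <;> norm_num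
  exact ⟨Dvd.dvd.mul_right hS _, Dvd.dvd.mul_right hS _⟩

theorem cen_est (f n : ℕ) (hn : 4 ≤ n) (hodd : n % 2 = 1) (N : ℝ) (hN : |N| ≤ 1) :
    |(cx (exA f / 100) (exB f / 100) (1 + N / 2)).re * S -
        ∑ i ∈ range (n + 1), (((c1num f i).1 / c1den i : ℤ) : ℝ) * N ^ i| ≤
      ((n : ℝ) - 3) * N ^ 4 + ((SN * (2 * n1 (nk (exA f) (exB f) (n + 1))) /
        (dn (n + 1) * 2 ^ (n + 1)) + 1 : ℤ) : ℝ) * N ^ (n + 1) ∧
    |(cx (exA f / 100) (exB f / 100) (1 + N / 2)).im * S -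
        ∑ i ∈ range (n + 1), (((c1num f i).2 / c1den i : ℤ) : ℝ) * N ^ i| ≤
      ((n : ℝ) - 3) * N ^ 4 + ((SN * (2 * n1 (nk (exA f) (exB f) (n + 1))) /
        (dn (n + 1) * 2 ^ (n + 1)) + 1 : ℤ) : ℝ) * N ^ (n + 1) := by
  have hz : |N / 2| ≤ 1 / 2 := by
    rw [abs_div, abs_two]; linarith
  have hT := taylor_one (exA f / 100) (exB f / 100) (h16_exA f).1 (h16_exA f).2 n (N / 2) (1 / 2) hz
    (by norm_num)
  have hden : ∀ k, 0 < c1den k := fun k => by
    unfold c1den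
    exact mul_pos (dn_pos k) (by positivity)
  have hdn : (0 : ℝ) < (dn (n + 1) : ℝ) := by exact_mod_cast dn_pos (n + 1)
  -- bound of the remainder
  set D : ℤ := dn (n + 1) * 2 ^ (n + 1) with hD
  have hDpos : 0 < D := mul_pos (dn_pos _) (by positivity)
  have hDR : (0 : ℝ) < (D : ℝ) := by exact_mod_cast hDpos
  set Q : ℤ := SN * (2 * n1 (nk (exA f) (exB f) (n + 1))) with hQ
  have hN2 : |N| ^ (n + 1) = N ^ (n + 1) := by
    have he : Even (n + 1) := by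
      rw [Nat.even_iff]; omega
    exact he.pow_abs N
  have hcb : ‖cbin (exA f / 100) (exB f / 100) (n + 1)‖ ≤
      (n1 (nk (exA f) (exB f) (n + 1)) : ℝ) / dn (n + 1) := by
    rw [cbin_dn, norm_div, Complex.norm_real, Real.norm_eq_abs, abs_of_pos hdn]
    refine div_le_div_of_nonneg_right ?_ hdn.le
    refine (norm_gc_le _).trans (le_of_eq ?_)
    unfold n1
    push_cast
    rfl
  have hS : 0 < S := S_pos
  have hR : S * ‖cx (exA f / 100) (exB f / 100) (1 + N / 2) - tay (exA f / 100) (exB f / 100) n (N / 2)‖ ≤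
      ((Q / D + 1 : ℤ) : ℝ) * N ^ (n + 1) := by
    have h1 : ‖cx (exA f / 100) (exB f / 100) (1 + N / 2) - tay (exA f / 100) (exB f / 100) n (N / 2)‖ ≤
        (n1 (nk (exA f) (exB f) (n + 1)) : ℝ) / dn (n + 1) * |N / 2| ^ (n + 1) / (1 - 1 / 2) := by
      refine hT.trans ?_
      refine div_le_div_of_nonneg_right ?_ (by norm_num)
      exact mul_le_mul_of_nonneg_right hcb (by positivity)
    have h2 : S * ((n1 (nk (exA f) (exB f) (n + 1)) : ℝ) / dn (n + 1) * |N / 2| ^ (n + 1) / (1 - 1 / 2)) =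
        (Q : ℝ) / D * N ^ (n + 1) := by
      rw [abs_div, abs_two, div_pow, hN2, hQ, hD]
      unfold S
      push_cast
      field_simp
      ring
    have h3 : (Q : ℝ) / D ≤ ((Q / D + 1 : ℤ) : ℝ) := by
      have := (abs_le.1 (h16_fl Q D hDpos)).2
      push_cast
      linarith
    have h4 : 0 ≤ N ^ (n + 1) := by rw [← hN2]; positivity
    calc S * ‖cx (exA f / 100) (exB f / 100) (1 + N / 2) - tay (exA f / 100) (exB f / 100) n (N / 2)‖
        ≤ S * ((n1 (nk (exA f) (exB f) (n + 1)) : ℝ) / dn (n + 1) * |N / 2| ^ (n + 1) / (1 - 1 / 2)) :=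
          mul_le_mul_of_nonneg_left h1 hS.le
      _ = (Q : ℝ) / D * N ^ (n + 1) := h2
      _ ≤ _ := mul_le_mul_of_nonneg_right h3 h4
  -- Taylor polynomial, both components
  have hterm : ∀ k, (S : ℂ) * (cbin (exA f / 100) (exB f / 100) k * ((N / 2 : ℝ) : ℂ) ^ k) =
      gc (c1num f k) * (((N ^ k / c1den k : ℝ)) : ℂ) := by
    intro k
    have hdk : ((dn k : ℝ) : ℂ) ≠ 0 := by
      have : (dn k : ℝ) ≠ 0 := by
        have := (dn_pos k).ne'
        exact_mod_cast this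
      exact_mod_cast this
    rw [cbin_dn]
    unfold c1num c1den S
    rw [gc_gs]
    push_cast
    rw [div_pow]
    push_cast at hdk
    field_simp
  have htay : (S : ℂ) * tay (exA f / 100) (exB f / 100) n (N / 2) =
      ∑ k ∈ range (n + 1), gc (c1num f k) * (((N ^ k / c1den k : ℝ)) : ℂ) := by
    unfold tay
    rw [mul_sum]
    exact sum_congr rfl fun k _ => hterm k
  have hre : ((S : ℂ) * tay (exA f / 100) (exB f / 100) n (N / 2)).re =
      ∑ k ∈ range (n + 1), (((c1num f k).1 : ℝ) / c1den k) * N ^ k := by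
    rw [htay, Complex.re_sum]
    refine sum_congr rfl fun k _ => ?_
    rw [Complex.re_mul_ofReal]
    simp only [gc]
    ring
  have him : ((S : ℂ) * tay (exA f / 100) (exB f / 100) n (N / 2)).im =
      ∑ k ∈ range (n + 1), (((c1num f k).2 : ℝ) / c1den k) * N ^ k := by
    rw [htay, Complex.im_sum]
    refine sum_congr rfl fun k _ => ?_
    rw [Complex.im_mul_ofReal]
    simp only [gc]
    ring
  have hnorm : ‖(S : ℂ) * (cx (exA f / 100) (exB f / 100) (1 + N / 2) -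
      tay (exA f / 100) (exB f / 100) n (N / 2))‖ ≤ ((Q / D + 1 : ℤ) : ℝ) * N ^ (n + 1) := by
    rw [norm_mul, Complex.norm_real, Real.norm_eq_abs, abs_of_pos hS]
    exact hR
  refine ⟨h16_comp n (by omega) (fun k => (c1num f k).1) c1den hden
    (fun k hk => (h16_div f k hk).1) N _ _ hN ?_,
    h16_comp n (by omega) (fun k => (c1num f k).2) c1den hden
    (fun k hk => (h16_div f k hk).2) N _ _ hN ?_⟩
  · have h1 := (Complex.abs_re_le_norm _).trans hnorm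
    rw [mul_sub, Complex.sub_re, hre, Complex.re_ofReal_mul, mul_comm S] at h1
    exact h1
  · have h1 := (Complex.abs_im_le_norm _).trans hnorm
    rw [mul_sub, Complex.sub_im, him, Complex.im_ofReal_mul, mul_comm S] at h1
    exact h1

theorem cenWE_valid (n : ℕ) (h : (Nat.ble 4 n && (n % 2 == 1)) = true) : (cenWE n).Valid := by
  simp only [Bool.and_eq_true, Nat.ble_eq, beq_iff_eq] at h
  intro X hX0 hX6 h1 h2
  simp only [cenWE] at h1 h2
  push_cast at h1 h2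
  have hN : |X - 2| ≤ 1 := by rw [abs_le]; constructor <;> linarith
  have e : 1 + (X - 2) / 2 = X / 2 := by ring
  have k0 := cen_est 0 n h.1 h.2 (X - 2) hN
  have k1 := cen_est 1 n h.1 h.2 (X - 2) hN
  have k2 := cen_est 2 n h.1 h.2 (X - 2) hN
  rw [e] at k0 k1 k2
  rw [A1_eq, B1_eq, A0_eq, B0_eq, C0_eq]
  have e3 : ((cenWE n).a : ℝ) * X - (cenWE n).b = X - 2 := by
    simp only [cenWE]; push_cast; ring
  rw [e3]
  simp only [cenWE, hr_cfs, zero_add, hr_eC _ n h.1]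
  exact ⟨k0.1, k0.2, k1.1, k1.2, k2.1⟩

end Crest.Agent.R163.Bx
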