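import Crest.Agent.R163.BxB
import Crest.Agent.R163.BxE

/-!
# Row 163: box engine, part C: certificates
-/

set_option autoImplicit false
set_option maxHeartbeats 400000

namespace Crest.Agent.R163.Bx

open Kr

/-- descriptors of univariate enclosures -/
inductive WD
  | mk (m t n Nm : ℕ)
  | bot (m t : ℕ)
  | cen (n : ℕ)

def WD.we : WD → WE
  | .mk m t n Nm => mkWE m t n Nm
  | .bot m t => botWE m t
  | .cen n => cenWE n

def WD.ok : WD → Bool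
  | .mk m t _ Nm => mkOK m t Nm
  | .bot m t => mkOK m t 0
  | .cen n => Nat.ble 4 n && (n % 2 == 1)

theorem WD.valid (d : WD) (h : d.ok = true) : d.we.Valid := by
  cases d with
  | mk m t n Nm => exact mkWE_valid m t n Nm h
  | bot m t => exact botWE_valid m t h
  | cen n => exact cenWE_valid n h

/-- a leaf: descriptors, digit size, degrees -/
structure Lf where
  p0 : WD
  p1 : WD
  p2 : WD
  q0 : WD
  q1 : WD
  q2 : WD
  k : ℕ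
  m₁ : ℕ
  m₂ : ℕ
  m₃ : ℕ

def Lf.w (l : Lf) : Fin 3 → WE
  | 0 => l.p0.we
  | 1 => l.p1.we
  | 2 => l.p2.we

def Lf.w' (l : Lf) : Fin 3 → WE
  | 0 => l.q0.we
  | 1 => l.q1.we
  | 2 => l.q2.we

/-- test at a given point -/
def krm (pt : Pt ℤ) (ap : Pt ℕ) (k m₁ m₂ m₃ : ℕ) (e : E3) : Bool :=
  (Nat.beq (dg e).1 m₁ && Nat.beq (dg e).2.1 m₂ && Nat.beq (dg e).2.2 m₃) &&
  (Nat.ble ((hv natOps ap e).1 + 1) (2 ^ (k - 1)) &&
  chk (hv intOps pt e).1 k ((m₁ + 1) * (m₂ + 1) * (m₃ + 1)))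

/-- all tests for the inequalities of a list -/
def krL (pt : Pt ℤ) (ap : Pt ℕ) (k m₁ m₂ m₃ : ℕ) (P Q P' Q' : Enc) : List Kn → Bool
  | [] => true
  | κ :: L => krm pt ap k m₁ m₂ m₃ (finE κ P Q P' Q') && krL pt ap k m₁ m₂ m₃ P Q P' Q' L

/-- the check of a leaf -/
def lfOK (L : List Kn) (I J K : Iv) (l : Lf) : Bool :=
  (l.p0.ok && l.p1.ok && l.p2.ok && l.q0.ok && l.q1.ok && l.q2.ok) &&
  (inI (l.w 0) (FP 0) I J K && inI (l.w 1) (FP 1) I J K && inI (l.w 2) (FP 2) I J K &&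
  inI (l.w' 0) (FQ 0) I J K && inI (l.w' 1) (FQ 1) I J K && inI (l.w' 2) (FQ 2) I J K) &&
  (Nat.ble 1 I.D && Nat.ble 1 J.D && Nat.ble 1 K.D && Nat.ble 2 l.k &&
  decide (0 < I.C) && decide (0 < J.C) && decide (0 < K.C)) &&
  krL (kpt I J K (2 ^ l.k) (2 ^ (l.k * (l.m₁ + 1))) (2 ^ (l.k * ((l.m₁ + 1) * (l.m₂ + 1)))))
    (apt I J K) l.k l.m₁ l.m₂ l.m₃ (prE l.w FP) (prE l.w' FQ) (trE l.w FP) (trE l.w' FQ) L

/-- all inequalities of the list hold on the box -/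
def Cov (L : List Kn) (I J K : Iv) : Prop :=
  ∀ κ ∈ L, ∀ x y z : ℝ, 0 ≤ x → x ≤ 1 → 0 ≤ y → y ≤ 1 → 0 ≤ z → z ≤ 1 / 2 →
    I.mem x → J.mem y → K.mem z → 0 ≤ kf κ x y z

theorem vP_range {x y z : ℝ} (hx : 0 ≤ x) (hx' : x ≤ 1) (hy : 0 ≤ y) (hy' : y ≤ 1) (i : Fin 3) :
    0 ≤ vP x y z i ∧ vP x y z i ≤ 3 := by
  have h1 : 0 ≤ x * y := mul_nonneg hx hy
  have h2 : x * y ≤ x := by nlinarith
  match i with
  | 0 => simp only [vP, FP, E3.ev]; push_cast; constructor <;> linarith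
  | 1 => simp only [vP, FP, E3.ev]; push_cast; constructor <;> linarith
  | 2 => simp only [vP, FP, E3.ev]; push_cast; constructor <;> linarith

theorem vQ_range {x y z : ℝ} (hx : 0 ≤ x) (hx' : x ≤ 1) (hy : 0 ≤ y) (hy' : y ≤ 1) (hz : 0 ≤ z)
    (hz' : z ≤ 1 / 2) (i : Fin 3) : 0 ≤ vQ x y z i ∧ vQ x y z i ≤ 3 := by
  have h1 : 0 ≤ x * y := mul_nonneg hx hy
  have h2 : x * y ≤ x := by nlinarith
  have h3 : 0 ≤ z * x := mul_nonneg hz hx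
  have h4 : z * x ≤ 1 / 2 := by nlinarith
  have h5 : 0 ≤ z * (x * y) := mul_nonneg hz h1
  have h6 : z * (x * y) ≤ z * x := mul_le_mul_of_nonneg_left h2 hz
  match i with
  | 0 => simp only [vQ, FQ, E3.ev]; push_cast; constructor <;> linarith
  | 1 => simp only [vQ, FQ, E3.ev]; push_cast; constructor <;> linarith
  | 2 => simp only [vQ, FQ, E3.ev]; push_cast; constructor <;> linarith

theorem kr_of_krm {I J K : Iv} {k m₁ m₂ m₃ : ℕ} {e : E3}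
    (h0 : (Nat.ble 1 I.D && Nat.ble 1 J.D && Nat.ble 1 K.D && Nat.ble 2 k &&
      decide (0 < I.C) && decide (0 < J.C) && decide (0 < K.C)) = true)
    (h : krm (kpt I J K (2 ^ k) (2 ^ (k * (m₁ + 1))) (2 ^ (k * ((m₁ + 1) * (m₂ + 1)))))
      (apt I J K) k m₁ m₂ m₃ e = true) : kr e I J K k = true := by
  unfold krm at h
  rw [Bool.and_eq_true, Bool.and_eq_true, Bool.and_eq_true, Bool.and_eq_true] at h
  obtain ⟨⟨⟨d1, d2⟩, d3⟩, h1, h2⟩ := h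
  have e1 : (dg e).1 = m₁ := Nat.eq_of_beq_eq_true d1
  have e2 : (dg e).2.1 = m₂ := Nat.eq_of_beq_eq_true d2
  have e3 : (dg e).2.2 = m₃ := Nat.eq_of_beq_eq_true d3
  unfold kr
  simp only [e1, e2, e3]
  rw [h0, h1, h2]
  rfl

theorem krL_mem {pt : Pt ℤ} {ap : Pt ℕ} {k m₁ m₂ m₃ : ℕ} {P Q P' Q' : Enc} {L : List Kn}
    (h : krL pt ap k m₁ m₂ m₃ P Q P' Q' L = true) {κ : Kn} (hκ : κ ∈ L) :
    krm pt ap k m₁ m₂ m₃ (finE κ P Q P' Q') = true := by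
  induction L with
  | nil => simp at hκ
  | cons a L ih =>
    rw [krL, Bool.and_eq_true] at h
    rcases List.mem_cons.1 hκ with rfl | hκ
    · exact h.1
    · exact ih h.2 hκ

/-- **soundness of a leaf** -/
theorem Cov.leaf {L : List Kn} {I J K : Iv} (l : Lf) (h : lfOK L I J K l = true) : Cov L I J K := by
  unfold lfOK at h
  rw [Bool.and_eq_true, Bool.and_eq_true, Bool.and_eq_true] at h
  obtain ⟨⟨⟨hv, hi⟩, hc⟩, hL⟩ := h
  simp only [Bool.and_eq_true] at hv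
  obtain ⟨⟨⟨⟨⟨v0, v1⟩, v2⟩, v3⟩, v4⟩, v5⟩ := hv
  intro κ hκ x y z hx hx' hy hy' hz hz' hI hJ hK
  have hw : ∀ i, (l.w i).Valid := fun i =>
    match i with
    | 0 => l.p0.valid v0
    | 1 => l.p1.valid v1
    | 2 => l.p2.valid v2
  have hw' : ∀ i, (l.w' i).Valid := fun i =>
    match i with
    | 0 => l.q0.valid v3
    | 1 => l.q1.valid v4
    | 2 => l.q2.valid v5
  have h3 := kr_of_krm hc (krL_mem hL hκ)
  refine box_sound (κ := κ) (w := l.w) (w' := l.w') (k := l.k) (I := I) (J := J) (K := K) hw hw' ?_ hI hJ hK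
    (vP_range hx hx' hy hy') (vQ_range hx hx' hy hy' hz hz')
  unfold boxOK
  rw [hi, h3]
  rfl

/-- `I` is covered by `I₁`, `I₂` -/
def joinOK (I I₁ I₂ : Iv) : Bool :=
  Nat.ble 1 I.D && Nat.ble 1 I₁.D && Nat.ble 1 I₂.D &&
  decide (I₁.A * I.D ≤ I.A * I₁.D) && decide (I₂.A * I₁.D ≤ (I₁.A + I₁.C) * I₂.D) &&
  decide ((I.A + I.C) * I₂.D ≤ (I₂.A + I₂.C) * I.D)

theorem joinOK_mem {I I₁ I₂ : Iv} (h : joinOK I I₁ I₂ = true) {x : ℝ} (hx : I.mem x) :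
    I₁.mem x ∨ I₂.mem x := by
  simp only [joinOK, Bool.and_eq_true, Nat.ble_eq, decide_eq_true_eq] at h
  obtain ⟨⟨⟨⟨⟨a, b⟩, c⟩, d⟩, e⟩, f⟩ := h
  have a' : (0 : ℝ) < I.D := by exact_mod_cast a
  have b' : (0 : ℝ) < I₁.D := by exact_mod_cast b
  have c' : (0 : ℝ) < I₂.D := by exact_mod_cast c
  have d' : (I₁.A : ℝ) * I.D ≤ I.A * I₁.D := by exact_mod_cast d
  have e' : (I₂.A : ℝ) * I₁.D ≤ ((I₁.A : ℝ) + I₁.C) * I₂.D := by exact_mod_cast e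
  have f' : ((I.A : ℝ) + I.C) * I₂.D ≤ ((I₂.A : ℝ) + I₂.C) * I.D := by exact_mod_cast f
  have d2 : (I₁.A : ℝ) / I₁.D ≤ I.A / I.D := by rw [div_le_div_iff₀ b' a']; linarith
  have e2 : (I₂.A : ℝ) / I₂.D ≤ ((I₁.A : ℝ) + I₁.C) / I₁.D := by rw [div_le_div_iff₀ c' b']; linarith
  have f2 : ((I.A : ℝ) + I.C) / I.D ≤ ((I₂.A : ℝ) + I₂.C) / I₂.D := by
    rw [div_le_div_iff₀ a' c']; linarith
  rcases le_total x (((I₁.A : ℝ) + I₁.C) / I₁.D) with h | h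
  · exact Or.inl ⟨d2.trans hx.1, h⟩
  · exact Or.inr ⟨e2.trans h, hx.2.trans f2⟩

theorem Cov.sx {L : List Kn} {I I₁ I₂ J K : Iv} (h₁ : Cov L I₁ J K) (h₂ : Cov L I₂ J K)
    (h : joinOK I I₁ I₂ = true) : Cov L I J K := by
  intro κ hκ x y z hx hx' hy hy' hz hz' hI hJ hK
  rcases joinOK_mem h hI with h3 | h3
  · exact h₁ κ hκ x y z hx hx' hy hy' hz hz' h3 hJ hK
  · exact h₂ κ hκ x y z hx hx' hy hy' hz hz' h3 hJ hK

theorem Cov.sy {L : List Kn} {I J J₁ J₂ K : Iv} (h₁ : Cov L I J₁ K) (h₂ : Cov L I J₂ K)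
    (h : joinOK J J₁ J₂ = true) : Cov L I J K := by
  intro κ hκ x y z hx hx' hy hy' hz hz' hI hJ hK
  rcases joinOK_mem h hJ with h3 | h3
  · exact h₁ κ hκ x y z hx hx' hy hy' hz hz' hI h3 hK
  · exact h₂ κ hκ x y z hx hx' hy hy' hz hz' hI h3 hK

theorem Cov.sz {L : List Kn} {I J K K₁ K₂ : Iv} (h₁ : Cov L I J K₁) (h₂ : Cov L I J K₂)
    (h : joinOK K K₁ K₂ = true) : Cov L I J K := by
  intro κ hκ x y z hx hx' hy hy' hz hz' hI hJ hK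
  rcases joinOK_mem h hK with h3 | h3
  · exact h₁ κ hκ x y z hx hx' hy hy' hz hz' hI hJ h3
  · exact h₂ κ hκ x y z hx hx' hy hy' hz hz' hI hJ h3

end Crest.Agent.R163.Bx
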