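import Crest.Agent.R163.BxP0

/-! # Row 163: certificate tree -/

set_option autoImplicit false
set_option Elab.async false

namespace Crest.Agent.R163.Bx.BxP

open Kr

theorem nd0 : Cov [kP1, kP2]
    ⟨1, 1, 8⟩ ⟨1, 1, 4⟩ ⟨2, 1, 6⟩ :=
  .sz lf2 lf3 (by decide +kernel)

theorem nd1 : Cov [kP1, kP2]
    ⟨1, 1, 8⟩ ⟨0, 1, 2⟩ ⟨2, 1, 6⟩ :=
  .sy lf1 nd0 (by decide +kernel)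

theorem nd2 : Cov [kP1, kP2]
    ⟨1, 1, 8⟩ ⟨0, 1, 1⟩ ⟨2, 1, 6⟩ :=
  .sy nd1 lf4 (by decide +kernel)

theorem nd3 : Cov [kP1, kP2]
    ⟨0, 1, 4⟩ ⟨0, 1, 1⟩ ⟨2, 1, 6⟩ :=
  .sx lf0 nd2 (by decide +kernel)

theorem nd4 : Cov [kP1, kP2]
    ⟨1, 1, 4⟩ ⟨0, 1, 4⟩ ⟨2, 1, 6⟩ :=
  .sx lf5 lf6 (by decide +kernel)

theorem nd5 : Cov [kP1, kP2]
    ⟨1, 1, 4⟩ ⟨1, 1, 4⟩ ⟨2, 1, 6⟩ :=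
  .sx lf7 lf8 (by decide +kernel)

theorem nd6 : Cov [kP1, kP2]
    ⟨1, 1, 4⟩ ⟨0, 1, 2⟩ ⟨2, 1, 6⟩ :=
  .sy nd4 nd5 (by decide +kernel)

theorem nd7 : Cov [kP1]
    ⟨1, 1, 4⟩ ⟨1, 1, 2⟩ ⟨2, 1, 6⟩ :=
  .sx lf10 lf11 (by decide +kernel)

theorem nd8 : Cov [kP1, kP2]
    ⟨1, 1, 4⟩ ⟨1, 1, 2⟩ ⟨2, 1, 6⟩ :=
  .un lf9 nd7 (by simp only [List.mem_cons, List.not_mem_nil, or_false]; tauto)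

theorem nd9 : Cov [kP1, kP2]
    ⟨1, 1, 4⟩ ⟨0, 1, 1⟩ ⟨2, 1, 6⟩ :=
  .sy nd6 nd8 (by decide +kernel)

theorem nd10 : Cov [kP1, kP2]
    ⟨0, 1, 2⟩ ⟨0, 1, 1⟩ ⟨2, 1, 6⟩ :=
  .sx nd3 nd9 (by decide +kernel)

theorem covP : Cov [kP1, kP2]
    ⟨0, 1, 2⟩ ⟨0, 1, 1⟩ ⟨2, 1, 6⟩ := nd10

end Crest.Agent.R163.Bx.BxP
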