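import Crest.Agent.R163.BxF
import Crest.Agent.R163.BxPT
import Crest.Agent.R163.BxOT
import Crest.Agent.R163.BxRT

/-!
# Row 163: the certificates of the small regime, of `5 ≤ b ≤ 8` and of `b = 4`
-/

set_option autoImplicit false

namespace Crest.Agent.R163.Bx

open Kr

theorem mem_13 {s : ℝ} (h0 : 1 / 3 ≤ s) (h1 : s ≤ 1 / 2) : (⟨2, 1, 6⟩ : Iv).mem s := by
  constructor
  · norm_num; linarith
  · norm_num; linarith

/-- the small regime, `1/3 ≤ s ≤ 1/2` -/
theorem certSmall {s : ℝ} (h0 : 1 / 3 ≤ s) (h1 : s ≤ 1 / 2) : SmallPos s where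
  p1 := BxP.covP.posC (by simp) (by linarith) h1 (mem_13 h0 h1)
  p2 := BxP.covP.posC (by simp) (by linarith) h1 (mem_13 h0 h1)
  p3 := BxO.covO.posO (by simp) (by linarith) h1 (mem_13 h0 h1)
  p4 := BxO.covO.posO (by simp) (by linarith) h1 (mem_13 h0 h1)

theorem mem_T2 {s : ℝ} (h0 : 3535 / 10000 ≤ s) (h1 : s ≤ 4473 / 10000) :
    (⟨3535, 938, 10000⟩ : Iv).mem s := by
  constructor
  · norm_num; linarith
  · norm_num; linarith

/-- the `b`-ary data, `5 ≤ b ≤ 8` -/
theorem certB (s : ℝ) (h0 : 3535 / 10000 ≤ s) (h1 : s ≤ 4473 / 10000) : RegPos s where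
  small := certSmall (by linarith) (by linarith)
  k1 := BxR.covR.pos (by simp) (by linarith) (by linarith) (mem_T2 h0 h1)
  k2 := BxR.covR.pos (by simp) (by linarith) (by linarith) (mem_T2 h0 h1)
  k3 := BxR.covR.pos (by simp) (by linarith) (by linarith) (mem_T2 h0 h1)
  k4 := BxR.covR.pos (by simp) (by linarith) (by linarith) (mem_T2 h0 h1)
  k5 := BxR.covR.pos (by simp) (by linarith) (by linarith) (mem_T2 h0 h1)
  k6 := BxR.covR.pos (by simp) (by linarith) (by linarith) (mem_T2 h0 h1)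
  k7 := BxR.covR.pos (by simp) (by linarith) (by linarith) (mem_T2 h0 h1)
  k8 := BxR.covR.pos (by simp) (by linarith) (by linarith) (mem_T2 h0 h1)
  k9 := BxR.covR.pos (by simp) (by linarith) (by linarith) (mem_T2 h0 h1)
  k10 := BxR.covR.pos (by simp) (by linarith) (by linarith) (mem_T2 h0 h1)
  k11 := BxR.covR.pos (by simp) (by linarith) (by linarith) (mem_T2 h0 h1)

/-- the `b = 4` data -/
theorem certC : FourPos (1 / 2) := fourPos_of (certSmall (by norm_num) le_rfl)

end Crest.Agent.R163.Bx
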