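import Crest.Agent.R163.BxB

/-!
# Row 163: box engine, part D: products with bounds of the factors
-/

set_option autoImplicit false
set_option maxHeartbeats 400000

namespace Crest.Agent.R163.Bx

open Kr

/-- bounds (times `4096`) of `x ^ (1/2)`, `x ^ (7/20)`, `x ^ (3/10)` -/
structure Bd where
  b1 : ℕ
  b0 : ℕ
  b3 : ℕ

/-- check of the bounds -/
def bdOK (w : WE) (b : Bd) : Bool :=
  Nat.ble 1 w.dd && decide (w.hn * 4096 ^ 2 ≤ (b.b1 : ℤ) ^ 2 * (2 * (w.dd : ℤ))) &&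
  decide (w.hn ^ 7 * 4096 ^ 20 ≤ (b.b0 : ℤ) ^ 20 * (2 * (w.dd : ℤ)) ^ 7) &&
  decide (w.hn ^ 3 * 4096 ^ 10 ≤ (b.b3 : ℤ) ^ 10 * (2 * (w.dd : ℤ)) ^ 3)

theorem rpow_le_of {x : ℝ} (hx : 0 ≤ x) {d : ℝ} (hd : 0 < d) {h : ℤ} (hxh : d * x ≤ h) {n m b : ℕ}
    (hm : m ≠ 0) (hb : h ^ n * 4096 ^ m ≤ (b : ℝ) ^ m * d ^ n) {a : ℝ} (ha : a = (n : ℝ) / m) :
    x ^ a ≤ (b : ℝ) / 4096 := by
  have h0 : (0 : ℝ) ≤ h := le_trans (mul_nonneg hd.le hx) hxh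
  have h1 : x ≤ h / d := by rw [le_div_iff₀ hd]; linarith
  have h2 : x ^ n ≤ ((b : ℝ) / 4096) ^ m := by
    refine (pow_le_pow_left₀ hx h1 n).trans ?_
    rw [div_pow, div_pow, div_le_div_iff₀ (pow_pos hd n) (by positivity)]
    exact hb
  have hm' : (m : ℝ) ≠ 0 := by exact_mod_cast hm
  have h3 : x ^ a = (x ^ n) ^ ((m : ℝ)⁻¹) := by
    rw [ha, ← Real.rpow_natCast x n, ← Real.rpow_mul hx, div_eq_mul_inv]
  rw [h3]
  calc (x ^ n) ^ ((m : ℝ)⁻¹) ≤ (((b : ℝ) / 4096) ^ m) ^ ((m : ℝ)⁻¹) :=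
        Real.rpow_le_rpow (pow_nonneg hx n) h2 (by positivity)
    _ = (b : ℝ) / 4096 := Real.pow_rpow_inv_natCast (by positivity) hm

theorem bd_sound {w : WE} {b : Bd} (h : bdOK w b = true) {x : ℝ} (hx : 0 ≤ x)
    (hxh : (w.dd : ℝ) * (2 * x) ≤ w.hn) :
    x ^ (1 / 2 : ℝ) ≤ (b.b1 : ℝ) / 4096 ∧ x ^ (7 / 20 : ℝ) ≤ (b.b0 : ℝ) / 4096 ∧
      x ^ (3 / 10 : ℝ) ≤ (b.b3 : ℝ) / 4096 := by
  simp only [bdOK, Bool.and_eq_true, Nat.ble_eq, decide_eq_true_eq] at h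
  obtain ⟨⟨⟨h0, h1⟩, h2⟩, h3⟩ := h
  have hd : (0 : ℝ) < 2 * (w.dd : ℝ) := by
    have : (1 : ℝ) ≤ w.dd := by exact_mod_cast h0
    linarith
  have hxh' : 2 * (w.dd : ℝ) * x ≤ w.hn := by linarith
  have h1' : (w.hn : ℝ) * 4096 ^ 2 ≤ (b.b1 : ℝ) ^ 2 * (2 * (w.dd : ℝ)) := by exact_mod_cast h1
  have h2' : (w.hn : ℝ) ^ 7 * 4096 ^ 20 ≤ (b.b0 : ℝ) ^ 20 * (2 * (w.dd : ℝ)) ^ 7 := by exact_mod_cast h2
  have h3' : (w.hn : ℝ) ^ 3 * 4096 ^ 10 ≤ (b.b3 : ℝ) ^ 10 * (2 * (w.dd : ℝ)) ^ 3 := by exact_mod_cast h3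
  refine ⟨?_, ?_, ?_⟩
  · refine rpow_le_of hx hd hxh' (n := 1) (m := 2) (by norm_num) ?_ (by norm_num)
    rw [pow_one, pow_one]; exact h1'
  · exact rpow_le_of hx hd hxh' (n := 7) (m := 20) (by norm_num) h2' (by norm_num)
  · exact rpow_le_of hx hd hxh' (n := 3) (m := 10) (by norm_num) h3' (by norm_num)

/-- product; `b / 4096`, `c / 4096` bounds of the values -/
def Enc.mulb (k l b c : ℕ) (E F : Enc) : Enc :=
  ⟨.mul E.P F.P, .add (.mul (.c (b * SN ^ k / 4096 : ℕ)) F.e) (.mul (.add (.c (c * SN ^ l / 4096 : ℕ)) F.e) E.e)⟩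

theorem SN_dvd (b : ℕ) {k : ℕ} (hk : k ≠ 0) : (((b * SN ^ k / 4096 : ℕ) : ℤ) : ℝ) = b / 4096 * S ^ k := by
  have h1 : (4096 : ℕ) ∣ SN := by
    unfold SN; exact Dvd.dvd.mul_right (pow_dvd_pow 2 (show 12 ≤ 50 by norm_num)) _
  have h2 : (4096 : ℕ) ∣ b * SN ^ k := Dvd.dvd.mul_left (dvd_pow h1 hk) _
  rw [Int.cast_natCast, Nat.cast_div h2 (by norm_num)]
  simp only [S]
  push_cast
  ring

theorem Enc.ok_mulb {k l b c : ℕ} {E F : Enc} {v w x y z : ℝ} (hk : k ≠ 0) (hl : l ≠ 0)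
    (h : E.ok k v x y z) (h' : F.ok l w x y z) (hv : |v| ≤ (b : ℝ) / 4096) (hw : |w| ≤ (c : ℝ) / 4096) :
    (E.mulb k l b c F).ok (k + l) (v * w) x y z := by
  unfold Enc.ok Enc.mulb at *
  simp only [E3.ev]
  have hS : 0 < S := S_pos
  have e : v * w * S ^ (k + l) - E.P.ev x y z * F.P.ev x y z =
      v * S ^ k * (w * S ^ l - F.P.ev x y z) + F.P.ev x y z * (v * S ^ k - E.P.ev x y z) := by
    rw [pow_add]; ring
  have h1 : |F.P.ev x y z| ≤ c / 4096 * S ^ l + F.e.ev x y z := by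
    have : F.P.ev x y z = w * S ^ l - (w * S ^ l - F.P.ev x y z) := by ring
    rw [this]
    refine (abs_sub _ _).trans (add_le_add ?_ h')
    rw [abs_mul, abs_of_pos (pow_pos hS l)]
    exact mul_le_mul_of_nonneg_right hw (pow_pos hS l).le
  have h2 : |v * S ^ k| ≤ b / 4096 * S ^ k := by
    rw [abs_mul, abs_of_pos (pow_pos hS k)]
    exact mul_le_mul_of_nonneg_right hv (pow_pos hS k).le
  have hb : (0 : ℝ) ≤ b / 4096 * S ^ k := by positivity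
  have hc : (0 : ℝ) ≤ c / 4096 * S ^ l + F.e.ev x y z := le_trans (abs_nonneg _) h1
  rw [e]
  refine (abs_add_le _ _).trans ?_
  rw [abs_mul (v * S ^ k), abs_mul (F.P.ev x y z)]
  refine (add_le_add (mul_le_mul h2 h' (abs_nonneg _) hb) (mul_le_mul h1 h (abs_nonneg _) hc)).trans
    (le_of_eq ?_)
  rw [SN_dvd b hk, SN_dvd c hl]

/-- `A1 A1 + B1 B1` -/
def pr2b (b b' : Bd) (w w' : WE) (F F' : E3) : Enc :=
  ((w.a1 F).mulb 1 1 b.b1 b'.b1 (w'.a1 F')).add ((w.b1 F).mulb 1 1 b.b1 b'.b1 (w'.b1 F'))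

/-- `C0 (A0 A0 + B0 B0)` -/
def tr3b (c b b' : Bd) (u w w' : WE) (E F F' : E3) : Enc :=
  (u.c0 E).mulb 1 2 c.b3 (b.b0 * b'.b0 / 4096 + 1)
    (((w.a0 F).mulb 1 1 b.b0 b'.b0 (w'.a0 F')).add ((w.b0 F).mulb 1 1 b.b0 b'.b0 (w'.b0 F')))

def prEb (b : Fin 3 → Bd) (w : Fin 3 → WE) (F : Fin 3 → E3) : Enc :=
  ((pr2b (b 0) (b 1) (w 0) (w 1) (F 0) (F 1)).add (pr2b (b 1) (b 2) (w 1) (w 2) (F 1) (F 2))).add
    (pr2b (b 2) (b 0) (w 2) (w 0) (F 2) (F 0))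

def trEb (b : Fin 3 → Bd) (w : Fin 3 → WE) (F : Fin 3 → E3) : Enc :=
  ((tr3b (b 0) (b 1) (b 2) (w 0) (w 1) (w 2) (F 0) (F 1) (F 2)).add
    (tr3b (b 1) (b 2) (b 0) (w 1) (w 2) (w 0) (F 1) (F 2) (F 0))).add
    (tr3b (b 2) (b 0) (b 1) (w 2) (w 0) (w 1) (F 2) (F 0) (F 1))

/-- enclosure data of three numbers -/
structure Ok3b (b : Fin 3 → Bd) (w : Fin 3 → WE) (F : Fin 3 → E3) (x y z : ℝ) (p : Fin 3 → ℝ) : Prop where
  p0 : ∀ i, 0 ≤ p i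
  bd : ∀ i, (p i) ^ (1 / 2 : ℝ) ≤ ((b i).b1 : ℝ) / 4096 ∧ (p i) ^ (7 / 20 : ℝ) ≤ ((b i).b0 : ℝ) / 4096 ∧
      (p i) ^ (3 / 10 : ℝ) ≤ ((b i).b3 : ℝ) / 4096
  ok : ∀ i, (w i |>.a1 (F i)).ok 1 (A1 (p i)) x y z ∧ (w i |>.b1 (F i)).ok 1 (B1 (p i)) x y z ∧
    (w i |>.a0 (F i)).ok 1 (A0 (p i)) x y z ∧ (w i |>.b0 (F i)).ok 1 (B0 (p i)) x y z ∧
    (w i |>.c0 (F i)).ok 1 (C0 (p i)) x y z

theorem abs_mul_cos_le' {p t c : ℝ} (hp : 0 ≤ p) (h : p ≤ c) : |p * Real.cos t| ≤ c := by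
  rw [abs_mul, abs_of_nonneg hp]
  have := Real.abs_cos_le_one t
  nlinarith [abs_nonneg (Real.cos t)]

theorem abs_mul_sin_le' {p t c : ℝ} (hp : 0 ≤ p) (h : p ≤ c) : |p * Real.sin t| ≤ c := by
  rw [abs_mul, abs_of_nonneg hp]
  have := Real.abs_sin_le_one t
  nlinarith [abs_nonneg (Real.sin t)]

section
variable {b : Fin 3 → Bd} {w : Fin 3 → WE} {F : Fin 3 → E3} {x y z : ℝ} {p : Fin 3 → ℝ}

theorem Ok3b.bA1 (h : Ok3b b w F x y z p) (i : Fin 3) : |A1 (p i)| ≤ ((b i).b1 : ℝ) / 4096 :=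
  abs_mul_cos_le' (Real.rpow_nonneg (h.p0 i) _) (h.bd i).1
theorem Ok3b.bB1 (h : Ok3b b w F x y z p) (i : Fin 3) : |B1 (p i)| ≤ ((b i).b1 : ℝ) / 4096 :=
  abs_mul_sin_le' (Real.rpow_nonneg (h.p0 i) _) (h.bd i).1
theorem Ok3b.bA0 (h : Ok3b b w F x y z p) (i : Fin 3) : |A0 (p i)| ≤ ((b i).b0 : ℝ) / 4096 :=
  abs_mul_cos_le' (Real.rpow_nonneg (h.p0 i) _) (h.bd i).2.1
theorem Ok3b.bB0 (h : Ok3b b w F x y z p) (i : Fin 3) : |B0 (p i)| ≤ ((b i).b0 : ℝ) / 4096 :=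
  abs_mul_sin_le' (Real.rpow_nonneg (h.p0 i) _) (h.bd i).2.1
theorem Ok3b.bC0 (h : Ok3b b w F x y z p) (i : Fin 3) : |C0 (p i)| ≤ ((b i).b3 : ℝ) / 4096 := by
  unfold C0
  rw [abs_of_nonneg (Real.rpow_nonneg (h.p0 i) _)]
  exact (h.bd i).2.2

theorem Ok3b.pr2 (h : Ok3b b w F x y z p) (i j : Fin 3) :
    (pr2b (b i) (b j) (w i) (w j) (F i) (F j)).ok 2 (A1 (p i) * A1 (p j) + B1 (p i) * B1 (p j)) x y z :=
  Enc.ok_add
    (Enc.ok_mulb one_ne_zero one_ne_zero (h.ok i).1 (h.ok j).1 (h.bA1 i) (h.bA1 j))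
    (Enc.ok_mulb one_ne_zero one_ne_zero (h.ok i).2.1 (h.ok j).2.1 (h.bB1 i) (h.bB1 j))

theorem Ok3b.bAB (h : Ok3b b w F x y z p) (i j : Fin 3) :
    |A0 (p i) * A0 (p j) + B0 (p i) * B0 (p j)| ≤ (((b i).b0 * (b j).b0 / 4096 + 1 : ℕ) : ℝ) / 4096 := by
  have e : A0 (p i) * A0 (p j) + B0 (p i) * B0 (p j) = (p i) ^ (7 / 20 : ℝ) * (p j) ^ (7 / 20 : ℝ) *
      Real.cos (47 / 100 * Real.log (p i) - 47 / 100 * Real.log (p j)) := by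
    unfold A0 B0
    rw [Real.cos_sub]
    ring
  have h1 := Real.rpow_nonneg (h.p0 i) (7 / 20)
  have h2 := Real.rpow_nonneg (h.p0 j) (7 / 20)
  rw [e]
  refine abs_mul_cos_le' (mul_nonneg h1 h2) ?_
  have h3 := mul_le_mul (h.bd i).2.1 (h.bd j).2.1 h2 (by positivity)
  refine h3.trans ?_
  have h4 : (b i).b0 * (b j).b0 ≤ ((b i).b0 * (b j).b0 / 4096 + 1) * 4096 := by
    have := Nat.div_add_mod ((b i).b0 * (b j).b0) 4096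
    have h5 := Nat.mod_lt ((b i).b0 * (b j).b0) (show 4096 > 0 by norm_num)
    omega
  have h5 : (((b i).b0 * (b j).b0 : ℕ) : ℝ) ≤ ((((b i).b0 * (b j).b0 / 4096 + 1) * 4096 : ℕ) : ℝ) := by
    exact_mod_cast h4
  rw [Nat.cast_mul, Nat.cast_mul (_ + 1)] at h5
  rw [div_mul_div_comm, div_le_div_iff₀ (by norm_num) (by norm_num)]
  norm_num at h5 ⊢
  nlinarith

theorem Ok3b.tr3 (h : Ok3b b w F x y z p) (l i j : Fin 3) :
    (tr3b (b l) (b i) (b j) (w l) (w i) (w j) (F l) (F i) (F j)).ok 3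
      (C0 (p l) * (A0 (p i) * A0 (p j) + B0 (p i) * B0 (p j))) x y z := by
  have e1 := Enc.ok_mulb one_ne_zero one_ne_zero (h.ok i).2.2.1 (h.ok j).2.2.1 (h.bA0 i) (h.bA0 j)
  have e2 := Enc.ok_mulb one_ne_zero one_ne_zero (h.ok i).2.2.2.1 (h.ok j).2.2.2.1 (h.bB0 i) (h.bB0 j)
  have e3 := Enc.ok_add e1 e2
  exact Enc.ok_mulb one_ne_zero two_ne_zero (h.ok l).2.2.2.2 e3 (h.bC0 l) (h.bAB i j)

theorem Ok3b.prE (h : Ok3b b w F x y z p) : (prEb b w F).ok 2 (pr p) x y z :=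
  Enc.ok_add (Enc.ok_add (h.pr2 0 1) (h.pr2 1 2)) (h.pr2 2 0)

theorem Ok3b.trE (h : Ok3b b w F x y z p) : (trEb b w F).ok 3 (tr p) x y z :=
  Enc.ok_add (Enc.ok_add (h.tr3 0 1 2) (h.tr3 1 2 0)) (h.tr3 2 0 1)

end

/-- **soundness of the box check** -/
theorem box_sound_b {κ : Kn} {b b' : Fin 3 → Bd} {w w' : Fin 3 → WE} {k : ℕ} {I J K : Iv}
    (hw : ∀ i, (w i).Valid) (hw' : ∀ i, (w' i).Valid)
    (hb : ∀ i, bdOK (w i) (b i) = true) (hb' : ∀ i, bdOK (w' i) (b' i) = true)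
    (hPi : ∀ i, inI (w i) (FP i) I J K = true) (hQi : ∀ i, inI (w' i) (FQ i) I J K = true)
    (hf : kr (finE κ (prEb b w FP) (prEb b' w' FQ) (trEb b w FP) (trEb b' w' FQ)) I J K k = true)
    {x y z : ℝ} (hx : I.mem x) (hy : J.mem y) (hz : K.mem z)
    (hP : ∀ i, 0 ≤ vP x y z i ∧ vP x y z i ≤ 3) (hQ : ∀ i, 0 ≤ vQ x y z i ∧ vQ x y z i ≤ 3) :
    0 ≤ kf κ x y z := by
  have kP : Ok3b b w FP x y z (vP x y z) := by
    refine ⟨fun i => (hP i).1, fun i => ?_, fun i => ?_⟩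
    · have hi := inI_sound (hPi i) hx hy hz
      refine bd_sound (hb i) (hP i).1 ?_
      have : 2 * vP x y z i = (FP i).ev x y z := by unfold vP; ring
      rw [this]; exact hi.2
    · have hi := inI_sound (hPi i) hx hy hz
      have h0 := hP i
      unfold vP at h0 ⊢
      exact ok_all (hw i) (by linarith [h0.1]) (by linarith [h0.2]) hi.1 hi.2
  have kQ : Ok3b b' w' FQ x y z (vQ x y z) := by
    refine ⟨fun i => (hQ i).1, fun i => ?_, fun i => ?_⟩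
    · have hi := inI_sound (hQi i) hx hy hz
      refine bd_sound (hb' i) (hQ i).1 ?_
      have : 2 * vQ x y z i = (FQ i).ev x y z := by unfold vQ; ring
      rw [this]; exact hi.2
    · have hi := inI_sound (hQi i) hx hy hz
      have h0 := hQ i
      unfold vQ at h0 ⊢
      exact ok_all (hw' i) (by linarith [h0.1]) (by linarith [h0.2]) hi.1 hi.2
  have h1 := sgE_le (c := κ.c1) (Enc.ok_up kP.prE)
  have h2 := sgE_le (c := κ.c0) kP.trE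
  have h3 := sgE_le (c := κ.t1) (Enc.ok_up kQ.prE)
  have h4 := sgE_le (c := κ.t0) kQ.trE
  have hfin := kr_sound hf hx hy hz
  simp only [Nat.reduceAdd] at h1 h3
  have hS : 0 < S ^ 3 := pow_pos S_pos 3
  have hz2 : 0 ≤ z ^ 2 := sq_nonneg z
  have hm : m2E.ev x y z = x ^ 2 * (4 - 6 * y + 3 * y ^ 2) := by
    simp only [m2E, E3.ev]; push_cast; ring
  simp only [finE, E3.ev, ev_hE, hm] at hfin
  push_cast at hfin
  have hSN : ((SN : ℕ) : ℝ) = S := rfl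
  simp only [hSN] at hfin
  have key : 0 ≤ kf κ x y z * S ^ 3 := by
    unfold kf
    have e5 := mul_le_mul_of_nonneg_left (add_le_add h1 h2) hz2
    nlinarith
  by_contra hneg
  push Not at hneg
  nlinarith

end Crest.Agent.R163.Bx
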