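import Crest.Agent.R163.BxFfT
import Crest.Agent.R163.BxFqT

/-!
# Row 163: the certificates of `b = 4` (`s = 1/2`)
-/

set_option autoImplicit false

namespace Crest.Agent.R163.Bx

open Kr

/-- `b = 4` data, given the small regime at `s = 1/2` -/
theorem fourPos_of (h : SmallPos (1 / 2)) : FourPos (1 / 2) where
  small := h
  k1 := BxFf.covF.pos (by simp) (by norm_num) le_rfl mem_half
  k2 := BxFf.covF.pos (by simp) (by norm_num) le_rfl mem_half
  k3 := BxFf.covF.pos (by simp) (by norm_num) le_rfl mem_half
  q1 := BxFq.covQ.pos (by simp) (by norm_num) le_rfl mem_half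

end Crest.Agent.R163.Bx
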