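import Crest.Agent.R163.BxW
import Crest.Agent.R163.BxTab

/-!
# Certified constants `c ^ (a + i th)`, `c = m / 2 ^ t`, by a chain of Taylor polynomials
-/

set_option autoImplicit false

namespace Crest.Agent.R163.BxW

open Finset

/-- Gaussian product -/
def gm (x y : ℤ × ℤ) : ℤ × ℤ := (x.1 * y.1 - x.2 * y.2, x.1 * y.2 + x.2 * y.1)

/-- Gaussian number as complex number -/
noncomputable def gc (x : ℤ × ℤ) : ℂ := ⟨(x.1 : ℝ), (x.2 : ℝ)⟩

theorem gc_gm (x y : ℤ × ℤ) : gc (gm x y) = gc x * gc y := by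
  apply Complex.ext <;> simp [gc, gm]

/-- numerators of the binomial coefficients of `(A + i B) / 100` -/
def nk (A B : ℤ) : ℕ → ℤ × ℤ
  | 0 => (1, 0)
  | k + 1 => gm (nk A B k) (A - 100 * k, B)

theorem gc_nk (A B : ℤ) (k : ℕ) :
    cbin (A / 100) (B / 100) k = gc (nk A B k) / (100 ^ k * (k.factorial : ℂ)) := by
  induction k with
  | zero => 
    rw [cbin_zero]
    apply Complex.ext <;> simp [nk, gc]
  | succ k ih =>
    rw [cbin_succ, ih, nk, gc_gm]
    have h : (⟨(A : ℝ) / 100 - k, (B : ℝ) / 100⟩ : ℂ) = gc (A - 100 * k, B) / 100 := by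
      apply Complex.ext
      · simp [gc]; ring
      · simp [gc]
    rw [h, Nat.factorial_succ]
    push_cast
    have h1 : ((k : ℂ) + 1) ≠ 0 := by exact_mod_cast Nat.succ_ne_zero k
    have h2 : ((k.factorial : ℕ) : ℂ) ≠ 0 := by exact_mod_cast k.factorial_ne_zero
    field_simp
    ring

/-- `(a + b)`-type sums -/
def gadd (x y : ℤ × ℤ) : ℤ × ℤ := (x.1 + y.1, x.2 + y.2)

/-- scalar -/
def gs (n : ℤ) (x : ℤ × ℤ) : ℤ × ℤ := (n * x.1, n * x.2)

theorem gc_gadd (x y : ℤ × ℤ) : gc (gadd x y) = gc x + gc y := by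
  apply Complex.ext <;> simp [gc, gadd]

theorem gc_gs (n : ℤ) (x : ℤ × ℤ) : gc (gs n x) = n * gc x := by
  apply Complex.ext <;> simp [gc, gs]

/-- denominator -/
def D7 (m : ℤ) : ℤ := 100 ^ 7 * 5040 * m ^ 7

/-- numerator of the Taylor polynomial of degree 7 at `1 / m` -/
def S7 (A B m : ℤ) : ℤ × ℤ :=
  gadd (gs (100 ^ 7 * 5040 * m ^ 7) (nk A B 0)) (gadd (gs (100 ^ 6 * 5040 * m ^ 6) (nk A B 1))
  (gadd (gs (100 ^ 5 * 2520 * m ^ 5) (nk A B 2)) (gadd (gs (100 ^ 4 * 840 * m ^ 4) (nk A B 3))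
  (gadd (gs (100 ^ 3 * 210 * m ^ 3) (nk A B 4)) (gadd (gs (100 ^ 2 * 42 * m ^ 2) (nk A B 5))
  (gadd (gs (100 ^ 1 * 7 * m ^ 1) (nk A B 6)) (nk A B 7)))))))

theorem S7_eq (A B m : ℤ) (hm : 0 < m) :
    tay (A / 100) (B / 100) 7 (1 / m) = gc (S7 A B m) / (D7 m : ℂ) := by
  have h1 : (m : ℂ) ≠ 0 := by exact_mod_cast hm.ne'
  unfold tay
  simp only [sum_range_succ, range_zero, sum_empty, gc_nk]
  unfold S7 D7
  simp only [gc_gadd, gc_gs]
  have f0 : Nat.factorial 0 = 1 := rfl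
  have f1 : Nat.factorial 1 = 1 := rfl
  have f2 : Nat.factorial 2 = 2 := rfl
  have f3 : Nat.factorial 3 = 6 := rfl
  have f4 : Nat.factorial 4 = 24 := rfl
  have f5 : Nat.factorial 5 = 120 := rfl
  have f6 : Nat.factorial 6 = 720 := rfl
  have f7 : Nat.factorial 7 = 5040 := rfl
  rw [f0, f1, f2, f3, f4, f5, f6, f7]
  push_cast
  field_simp
  ring

/-- one step of the chain -/
def stepOK (A B : ℤ) (x y : ℤ × ℤ) (m : ℤ) : Bool :=
  decide (|y.1 * D7 m - (gm x (S7 A B m)).1| ≤ D7 m) && decide (|y.2 * D7 m - (gm x (S7 A B m)).2| ≤ D7 m)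

/-- the chain -/
def chainOK (A B : ℤ) : ℤ → List (ℤ × ℤ) → Bool
  | _, [] => true
  | _, [_] => true
  | m, x :: y :: l => stepOK A B x y m && chainOK A B (m + 1) (y :: l)

theorem norm_gc_le (x : ℤ × ℤ) : ‖gc x‖ ≤ |(x.1 : ℝ)| + |(x.2 : ℝ)| :=
  Complex.norm_le_abs_re_add_abs_im (gc x)

theorem step_sound (A B : ℤ) (hA0 : 0 ≤ A) (hA1 : A ≤ 100)
    (hb : ‖cbin (A / 100) (B / 100) 8‖ ≤ 1 / 16) (x y : ℤ × ℤ) (m : ℤ) (hm : 64 ≤ m) (e : ℝ)
    (he0 : 0 ≤ e) (he1 : e ≤ 1)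
    (hx : ‖cx (A / 100) (B / 100) (m / 64) - gc x / 2 ^ 48‖ ≤ e * ((m : ℝ) / 64) ^ ((A : ℝ) / 100))
    (hs : stepOK A B x y m = true) :
    ‖cx (A / 100) (B / 100) (((m + 1 : ℤ) : ℝ) / 64) - gc y / 2 ^ 48‖ ≤
      (e + 1 / 2 ^ 46) * (((m + 1 : ℤ) : ℝ) / 64) ^ ((A : ℝ) / 100) := by
  set a : ℝ := (A : ℝ) / 100 with ha
  set th : ℝ := (B : ℝ) / 100 with hth
  have ha0 : 0 ≤ a := by rw [ha]; positivity
  have ha1 : a ≤ 1 := by
    rw [ha, div_le_one (by norm_num)]; exact_mod_cast hA1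
  have hmR : (64 : ℝ) ≤ m := by exact_mod_cast hm
  have hm0 : (0 : ℝ) < m := by linarith
  set T : ℂ := gc (S7 A B m) / (D7 m : ℂ) with hT
  have hTe : tay a th 7 (1 / m) = T := S7_eq A B m (by omega)
  -- Taylor
  have h1 : ‖cx a th (1 + 1 / m) - T‖ ≤ 1 / 2 ^ 51 := by
    rw [← hTe]
    have h2 : (1 : ℝ) / m ≤ 1 / 64 := one_div_le_one_div_of_le (by norm_num) hmR
    have h3 := taylor_one a th ha0 ha1 7 (1 / m) (1 / 64) (by rw [abs_of_pos (by positivity)]; exact h2)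
      (by norm_num)
    refine h3.trans ?_
    rw [abs_of_pos (by positivity : (0 : ℝ) < 1 / m)]
    have h4 : ((1 : ℝ) / m) ^ (7 + 1) ≤ (1 / 64) ^ 8 := pow_le_pow_left₀ (by positivity) h2 8
    calc ‖cbin a th (7 + 1)‖ * (1 / (m : ℝ)) ^ (7 + 1) / (1 - 1 / 64)
        ≤ (1 / 16) * (1 / 64) ^ 8 / (1 - 1 / 64) := by gcongr
      _ ≤ 1 / 2 ^ 51 := by norm_num
  -- the integers
  simp only [stepOK, Bool.and_eq_true, decide_eq_true_eq] at hs
  have hD : (0 : ℝ) < (D7 m : ℝ) := by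
    have : 0 < D7 m := by
      have hm' : 0 < m := by omega
      exact mul_pos (by norm_num) (pow_pos hm' 7)
    exact_mod_cast this
  have h5 : ‖gc x / 2 ^ 48 * T - gc y / 2 ^ 48‖ ≤ 2 / 2 ^ 48 := by
    have e1 : gc x / 2 ^ 48 * T - gc y / 2 ^ 48 =
        gc ((gm x (S7 A B m)).1 - y.1 * D7 m, (gm x (S7 A B m)).2 - y.2 * D7 m) / (2 ^ 48 * (D7 m : ℂ)) := by
      have e2 : gc ((gm x (S7 A B m)).1 - y.1 * D7 m, (gm x (S7 A B m)).2 - y.2 * D7 m) =
          gc (gm x (S7 A B m)) - gc y * (D7 m : ℂ) := by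
        apply Complex.ext <;> simp [gc]
      rw [e2, gc_gm, hT]
      have h6 : (D7 m : ℂ) ≠ 0 := by exact_mod_cast hD.ne'
      field_simp
    rw [e1, norm_div, norm_mul, norm_pow]
    have e3 : ‖(D7 m : ℂ)‖ = (D7 m : ℝ) := by
      rw [Complex.norm_intCast, abs_of_pos hD]
    have h10 : ‖(2 : ℂ)‖ = 2 := by simp
    rw [e3, h10, div_le_div_iff₀ (mul_pos (by positivity) hD) (by positivity)]
    have h7 := norm_gc_le ((gm x (S7 A B m)).1 - y.1 * D7 m, (gm x (S7 A B m)).2 - y.2 * D7 m)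
    have h8 : |(((gm x (S7 A B m)).1 - y.1 * D7 m : ℤ) : ℝ)| ≤ (D7 m : ℝ) := by
      rw [abs_sub_comm] at hs
      exact_mod_cast hs.1
    have h9 : |(((gm x (S7 A B m)).2 - y.2 * D7 m : ℤ) : ℝ)| ≤ (D7 m : ℝ) := by
      have := hs.2
      rw [abs_sub_comm] at this
      exact_mod_cast this
    have h11 := h7.trans (add_le_add h8 h9)
    nlinarith
  have hp0 : 0 ≤ ((m : ℝ) / 64) ^ a := Real.rpow_nonneg (by positivity) a
  have hp1 : ((m : ℝ) / 64) ^ a ≤ (((m + 1 : ℤ) : ℝ) / 64) ^ a :=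
    Real.rpow_le_rpow (by positivity) (by push_cast; gcongr; linarith) ha0
  have hp2 : 1 ≤ (((m + 1 : ℤ) : ℝ) / 64) ^ a :=
    Real.one_le_rpow (by push_cast; rw [le_div_iff₀ (by norm_num)]; linarith) ha0
  have h12 : ‖gc x / 2 ^ 48‖ ≤ (1 + e) * ((m : ℝ) / 64) ^ a := by
    have h13 : ‖gc x / 2 ^ 48‖ ≤ ‖cx a th (m / 64)‖ + ‖cx a th (m / 64) - gc x / 2 ^ 48‖ := by
      have := norm_sub_norm_le (gc x / 2 ^ 48) (cx a th (m / 64))
      rw [norm_sub_rev] at this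
      linarith
    rw [norm_cx a th _ (by positivity)] at h13
    linarith
  have h14 : cx a th (((m + 1 : ℤ) : ℝ) / 64) = cx a th (m / 64) * cx a th (1 + 1 / m) := by
    rw [← cx_mul a th _ _ (by positivity) (by positivity)]
    congr 1
    push_cast
    field_simp
  have h15 : ‖cx a th (1 + 1 / m)‖ = (1 + 1 / (m : ℝ)) ^ a := norm_cx a th _ (by positivity)
  have h16 : ((m : ℝ) / 64) ^ a * (1 + 1 / (m : ℝ)) ^ a = (((m + 1 : ℤ) : ℝ) / 64) ^ a := by
    rw [← Real.mul_rpow (by positivity) (by positivity)]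
    congr 1
    push_cast
    field_simp
  have h17 : cx a th (((m + 1 : ℤ) : ℝ) / 64) - gc y / 2 ^ 48 =
      (cx a th (m / 64) - gc x / 2 ^ 48) * cx a th (1 + 1 / m) +
      (gc x / 2 ^ 48 * (cx a th (1 + 1 / m) - T) + (gc x / 2 ^ 48 * T - gc y / 2 ^ 48)) := by
    rw [h14]; ring
  rw [h17]
  refine (norm_add_le _ _).trans ?_
  have h18 : ‖(cx a th (m / 64) - gc x / 2 ^ 48) * cx a th (1 + 1 / m)‖ ≤
      e * (((m + 1 : ℤ) : ℝ) / 64) ^ a := by
    rw [norm_mul, h15, ← h16, ← mul_assoc]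
    exact mul_le_mul_of_nonneg_right hx (Real.rpow_nonneg (by positivity) a)
  have h19 : ‖gc x / 2 ^ 48 * (cx a th (1 + 1 / m) - T)‖ ≤ 2 * (((m + 1 : ℤ) : ℝ) / 64) ^ a * (1 / 2 ^ 51) := by
    rw [norm_mul]
    refine mul_le_mul ?_ h1 (norm_nonneg _) (by positivity)
    refine h12.trans ?_
    nlinarith
  have h20 := (norm_add_le (gc x / 2 ^ 48 * (cx a th (1 + 1 / m) - T))
    (gc x / 2 ^ 48 * T - gc y / 2 ^ 48)).trans (add_le_add h19 h5)
  have h21 : (2 : ℝ) / 2 ^ 48 ≤ 2 / 2 ^ 48 * (((m + 1 : ℤ) : ℝ) / 64) ^ a := by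
    nlinarith
  have h22 : (2 : ℝ) * (((m + 1 : ℤ) : ℝ) / 64) ^ a * (1 / 2 ^ 51) +
      2 / 2 ^ 48 * (((m + 1 : ℤ) : ℝ) / 64) ^ a ≤ 1 / 2 ^ 46 * (((m + 1 : ℤ) : ℝ) / 64) ^ a := by
    nlinarith
  rw [add_mul]
  linarith

theorem chain_sound (A B : ℤ) (hA0 : 0 ≤ A) (hA1 : A ≤ 100)
    (hb : ‖cbin (A / 100) (B / 100) 8‖ ≤ 1 / 16) (L : List (ℤ × ℤ)) :
    ∀ (m : ℤ) (_ : 64 ≤ m) (e : ℝ) (_ : 0 ≤ e) (_ : e + L.length * (1 / 2 ^ 46) ≤ 1)
      (_ : ∀ x ∈ L.head?, ‖cx (A / 100) (B / 100) (m / 64) - gc x / 2 ^ 48‖ ≤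
        e * ((m : ℝ) / 64) ^ ((A : ℝ) / 100)) (_ : chainOK A B m L = true) (i : ℕ) (x : ℤ × ℤ)
      (_ : L[i]? = some x),
      ‖cx (A / 100) (B / 100) (((m + i : ℤ) : ℝ) / 64) - gc x / 2 ^ 48‖ ≤
        (e + i * (1 / 2 ^ 46)) * (((m + i : ℤ) : ℝ) / 64) ^ ((A : ℝ) / 100) := by
  induction L with
  | nil => intro m hm e he0 he1 hx hc i x hi; simp at hi
  | cons y l ih =>
    intro m hm e he0 he1 hx hc i x hi
    rcases i with _ | i
    · simp only [List.getElem?_cons_zero, Option.some.injEq] at hi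
      subst hi
      have := hx y (by simp)
      simpa using this
    · rw [List.getElem?_cons_succ] at hi
      rcases l with _ | ⟨y', l⟩
      · simp at hi
      · simp only [chainOK, Bool.and_eq_true] at hc
        have h0 := hx y (by simp)
        simp only [List.length_cons, Nat.cast_add, Nat.cast_one] at he1
        have hl : (0 : ℝ) ≤ (l.length : ℝ) := Nat.cast_nonneg _
        have h1 := step_sound A B hA0 hA1 hb y y' m hm e he0 (by nlinarith) h0 hc.1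
        have h2 := ih (m + 1) (by omega) (e + 1 / 2 ^ 46) (by positivity)
          (by simp only [List.length_cons, Nat.cast_add, Nat.cast_one]; linarith)
          (by intro z hz; simp at hz; subst hz; exact h1) hc.2 i x hi
        have e1 : (m + 1 + (i : ℤ)) = m + ((i + 1 : ℕ) : ℤ) := by push_cast; ring
        rw [e1] at h2
        refine h2.trans (le_of_eq ?_)
        push_cast
        ring

/-- head of the table `kt`: `c = 2, 1, 1/2` -/
def tailOK (H : ℤ × ℤ) : List (ℤ × ℤ) → Bool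
  | [] => true
  | [_] => true
  | x :: y :: l => decide (|y.1 * 2 ^ 48 - (gm x H).1| ≤ 2 ^ 48) &&
      decide (|y.2 * 2 ^ 48 - (gm x H).2| ≤ 2 ^ 48) && tailOK H (y :: l)

theorem half_sound (a th : ℝ) (ha0 : 0 ≤ a) (K H : ℤ × ℤ) (hK : ‖cx a th 2 - gc K / 2 ^ 48‖ ≤ 1 / 2 ^ 38)
    (h1 : |(gm K H).1 - 2 ^ 96| ≤ 2 ^ 48) (h2 : |(gm K H).2| ≤ 2 ^ 48) (hH : ‖gc H / 2 ^ 48‖ ≤ 1) :
    ‖cx a th (1 / 2) - gc H / 2 ^ 48‖ ≤ 1 / 2 ^ 37 := by
  have h0 : cx a th (1 / 2) * cx a th 2 = 1 := by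
    rw [← cx_mul a th _ _ (by norm_num) (by norm_num), ← cx_one a th]
    norm_num
  have hn : ‖cx a th (1 / 2)‖ ≤ 1 := by
    rw [norm_cx a th _ (by norm_num)]
    exact Real.rpow_le_one (by norm_num) (by norm_num) ha0
  have e1 : cx a th (1 / 2) - gc H / 2 ^ 48 = cx a th (1 / 2) * ((1 - gc K / 2 ^ 48 * (gc H / 2 ^ 48)) -
      (cx a th 2 - gc K / 2 ^ 48) * (gc H / 2 ^ 48)) := by
    have : cx a th (1 / 2) * ((1 - gc K / 2 ^ 48 * (gc H / 2 ^ 48)) -
      (cx a th 2 - gc K / 2 ^ 48) * (gc H / 2 ^ 48)) =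
      cx a th (1 / 2) - cx a th (1 / 2) * cx a th 2 * (gc H / 2 ^ 48) := by ring
    rw [this, h0, one_mul]
  have h3 : ‖1 - gc K / 2 ^ 48 * (gc H / 2 ^ 48)‖ ≤ 2 / 2 ^ 48 := by
    have e2 : 1 - gc K / 2 ^ 48 * (gc H / 2 ^ 48) =
        gc (2 ^ 96 - (gm K H).1, -(gm K H).2) / 2 ^ 96 := by
      have e3 : gc (2 ^ 96 - (gm K H).1, -(gm K H).2) = 2 ^ 96 - gc (gm K H) := by
        apply Complex.ext
        · simp only [gc, Complex.sub_re]
          push_cast
          have : ((2 : ℂ) ^ 96).re = 2 ^ 96 := by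
            rw [show ((2 : ℂ) ^ 96) = (((2 : ℝ) ^ 96 : ℝ) : ℂ) by push_cast; rfl, Complex.ofReal_re]
          rw [this]
          norm_num
        · simp only [gc, Complex.sub_im]
          push_cast
          have : ((2 : ℂ) ^ 96).im = 0 := by
            rw [show ((2 : ℂ) ^ 96) = (((2 : ℝ) ^ 96 : ℝ) : ℂ) by push_cast; rfl, Complex.ofReal_im]
          rw [this, zero_sub]
      rw [e3, gc_gm]
      ring
    rw [e2, norm_div, norm_pow]
    have h4 := norm_gc_le (2 ^ 96 - (gm K H).1, -(gm K H).2)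
    have h5 : |((2 ^ 96 - (gm K H).1 : ℤ) : ℝ)| ≤ 2 ^ 48 := by
      rw [abs_sub_comm] at h1
      exact_mod_cast h1
    have h6 : |((-(gm K H).2 : ℤ) : ℝ)| ≤ 2 ^ 48 := by
      rw [← abs_neg] at h2
      exact_mod_cast h2
    have h7 : ‖(2 : ℂ)‖ = 2 := by simp
    rw [h7, div_le_div_iff₀ (by positivity) (by positivity)]
    have h8 := h4.trans (add_le_add h5 h6)
    norm_num at h8 ⊢
    linarith
  rw [e1, norm_mul]
  have h9 : ‖(cx a th 2 - gc K / 2 ^ 48) * (gc H / 2 ^ 48)‖ ≤ 1 / 2 ^ 38 * 1 := by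
    rw [norm_mul]
    exact mul_le_mul hK hH (norm_nonneg _) (by positivity)
  have h10 := (norm_sub_le (1 - gc K / 2 ^ 48 * (gc H / 2 ^ 48))
    ((cx a th 2 - gc K / 2 ^ 48) * (gc H / 2 ^ 48))).trans (add_le_add h3 h9)
  calc ‖cx a th (1 / 2)‖ * _ ≤ 1 * (2 / 2 ^ 48 + 1 / 2 ^ 38 * 1) :=
        mul_le_mul hn h10 (norm_nonneg _) (by norm_num)
    _ ≤ 1 / 2 ^ 37 := by norm_num

/-- the table of powers of two -/
theorem tail_sound (a th : ℝ) (ha0 : 0 ≤ a) (H : ℤ × ℤ)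
    (hH : ‖cx a th (1 / 2) - gc H / 2 ^ 48‖ ≤ 1 / 2 ^ 37) (L : List (ℤ × ℤ)) :
    ∀ (j : ℕ) (e : ℝ) (_ : 0 ≤ e) (_ : e + L.length * (1 / 2 ^ 36) ≤ 1 / 2)
      (_ : ∀ x ∈ L.head?, ‖cx a th ((1 / 2) ^ j) - gc x / 2 ^ 48‖ ≤ e)
      (_ : tailOK H L = true) (i : ℕ) (x : ℤ × ℤ) (_ : L[i]? = some x),
      ‖cx a th ((1 / 2) ^ (j + i)) - gc x / 2 ^ 48‖ ≤ e + i * (1 / 2 ^ 36) := by
  have hn : ‖cx a th (1 / 2)‖ ≤ 1 := by
    rw [norm_cx a th _ (by norm_num)]
    exact Real.rpow_le_one (by norm_num) (by norm_num) ha0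
  induction L with
  | nil => intro j e he0 he1 hx hc i x hi; simp at hi
  | cons y l ih =>
    intro j e he0 he1 hx hc i x hi
    rcases i with _ | i
    · simp only [List.getElem?_cons_zero, Option.some.injEq] at hi
      subst hi
      have := hx y (by simp)
      simpa using this
    · rw [List.getElem?_cons_succ] at hi
      rcases l with _ | ⟨y', l⟩
      · simp at hi
      · simp only [tailOK, Bool.and_eq_true, decide_eq_true_eq] at hc
        have h0 := hx y (by simp)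
        simp only [List.length_cons, Nat.cast_add, Nat.cast_one] at he1
        have hl : (0 : ℝ) ≤ (l.length : ℝ) := Nat.cast_nonneg _
        have hj : ‖cx a th ((1 / 2) ^ j)‖ ≤ 1 := by
          rw [norm_cx a th _ (by positivity)]
          exact Real.rpow_le_one (by positivity) (pow_le_one₀ (by norm_num) (by norm_num)) ha0
        have h1 : ‖cx a th ((1 / 2) ^ (j + 1)) - gc y' / 2 ^ 48‖ ≤ e + 1 / 2 ^ 36 := by
          have e1 : cx a th ((1 / 2) ^ (j + 1)) = cx a th ((1 / 2) ^ j) * cx a th (1 / 2) := by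
            rw [← cx_mul a th _ _ (by positivity) (by norm_num), pow_succ]
          have e2 : cx a th ((1 / 2) ^ (j + 1)) - gc y' / 2 ^ 48 =
              (cx a th ((1 / 2) ^ j) - gc y / 2 ^ 48) * cx a th (1 / 2) +
              (gc y / 2 ^ 48 * (cx a th (1 / 2) - gc H / 2 ^ 48) +
                (gc y / 2 ^ 48 * (gc H / 2 ^ 48) - gc y' / 2 ^ 48)) := by
            rw [e1]; ring
          have h3 : ‖gc y / 2 ^ 48 * (gc H / 2 ^ 48) - gc y' / 2 ^ 48‖ ≤ 2 / 2 ^ 48 := by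
            have e3 : gc y / 2 ^ 48 * (gc H / 2 ^ 48) - gc y' / 2 ^ 48 =
                gc ((gm y H).1 - y'.1 * 2 ^ 48, (gm y H).2 - y'.2 * 2 ^ 48) / 2 ^ 96 := by
              have e4 : gc ((gm y H).1 - y'.1 * 2 ^ 48, (gm y H).2 - y'.2 * 2 ^ 48) =
                  gc (gm y H) - ((2 : ℝ) ^ 48 : ℝ) * gc y' := by
                apply Complex.ext
                · simp only [gc, Complex.sub_re, Complex.re_ofReal_mul]
                  push_cast; ring
                · simp only [gc, Complex.sub_im, Complex.im_ofReal_mul]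
                  push_cast; ring
              rw [e4, gc_gm]
              push_cast
              ring
            rw [e3, norm_div, norm_pow]
            have h4 := norm_gc_le ((gm y H).1 - y'.1 * 2 ^ 48, (gm y H).2 - y'.2 * 2 ^ 48)
            have h5 : |(((gm y H).1 - y'.1 * 2 ^ 48 : ℤ) : ℝ)| ≤ 2 ^ 48 := by
              have := hc.1.1
              rw [abs_sub_comm] at this
              exact_mod_cast this
            have h6 : |(((gm y H).2 - y'.2 * 2 ^ 48 : ℤ) : ℝ)| ≤ 2 ^ 48 := by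
              have := hc.1.2
              rw [abs_sub_comm] at this
              exact_mod_cast this
            have h7 : ‖(2 : ℂ)‖ = 2 := by simp
            rw [h7, div_le_div_iff₀ (by positivity) (by positivity)]
            have h8 := h4.trans (add_le_add h5 h6)
            norm_num at h8 ⊢
            linarith
          have h4 : ‖gc y / 2 ^ 48‖ ≤ 1 + e := by
            have := norm_sub_norm_le (gc y / 2 ^ 48) (cx a th ((1 / 2) ^ j))
            rw [norm_sub_rev] at this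
            linarith
          rw [e2]
          refine (norm_add_le _ _).trans ?_
          have h5 : ‖(cx a th ((1 / 2) ^ j) - gc y / 2 ^ 48) * cx a th (1 / 2)‖ ≤ e * 1 := by
            rw [norm_mul]
            exact mul_le_mul h0 hn (norm_nonneg _) he0
          have h6 : ‖gc y / 2 ^ 48 * (cx a th (1 / 2) - gc H / 2 ^ 48)‖ ≤ 2 * (1 / 2 ^ 37) * (3 / 4) := by
            rw [norm_mul]
            have h7 : (2 : ℝ) * (1 / 2 ^ 37) * (3 / 4) = (3 / 2) * (1 / 2 ^ 37) := by ring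
            rw [h7]
            refine mul_le_mul ?_ hH (norm_nonneg _) (by norm_num)
            refine h4.trans ?_
            have : (0 : ℝ) ≤ (l.length + 1 + 1) * (1 / 2 ^ 36) := by positivity
            linarith
          have h7 := (norm_add_le (gc y / 2 ^ 48 * (cx a th (1 / 2) - gc H / 2 ^ 48))
            (gc y / 2 ^ 48 * (gc H / 2 ^ 48) - gc y' / 2 ^ 48)).trans (add_le_add h6 h3)
          have h8 : (2 : ℝ) * (1 / 2 ^ 37) * (3 / 4) + 2 / 2 ^ 48 ≤ 1 / 2 ^ 36 := by norm_num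
          linarith
        have h2 := ih (j + 1) (e + 1 / 2 ^ 36) (by positivity)
          (by simp only [List.length_cons, Nat.cast_add, Nat.cast_one]; linarith)
          (by intro z hz; simp at hz; subst hz; exact h1) hc.2 i x hi
        have e1 : j + 1 + i = j + (i + 1) := by ring
        rw [e1] at h2
        refine h2.trans (le_of_eq ?_)
        push_cast
        ring

end Crest.Agent.R163.BxW
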