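import Crest.Agent.R163.Knot3

/-!
# Row 163: symmetry reduction of pointwise inequalities

Every `v ∈ simpK 3` is a permutation of `(1 + c (2 - 3r/2), 1 + c (3r/2 - 1), 1 - c)` with
`c, r ∈ [0, 1]`.
-/

set_option autoImplicit false

namespace Crest.Agent.R163

open Finset Filter

/-- `cfun` in coordinates -/
noncomputable def c3 (a th x y z : ℝ) : ℝ :=
  (1 / 3) * (x ^ (1 - 2 * a) * (y ^ a * z ^ a) * Real.cos (th * (Real.log y - Real.log z)) +
    y ^ (1 - 2 * a) * (z ^ a * x ^ a) * Real.cos (th * (Real.log z - Real.log x)) +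
    z ^ (1 - 2 * a) * (x ^ a * y ^ a) * Real.cos (th * (Real.log x - Real.log y)))

theorem cfun_eq_c3 (a th : ℝ) (v : Fin 3 → ℝ) : cfun a th v = c3 a th (v 0) (v 1) (v 2) := rfl

theorem c3_swap01 (a th x y z : ℝ) : c3 a th y x z = c3 a th x y z := by
  unfold c3
  have e1 : th * (Real.log x - Real.log z) = -(th * (Real.log z - Real.log x)) := by ring
  have e2 : th * (Real.log z - Real.log y) = -(th * (Real.log y - Real.log z)) := by ring
  have e3 : th * (Real.log y - Real.log x) = -(th * (Real.log x - Real.log y)) := by ring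
  rw [e1, e2, e3, Real.cos_neg, Real.cos_neg, Real.cos_neg]
  ring

theorem c3_swap12 (a th x y z : ℝ) : c3 a th x z y = c3 a th x y z := by
  unfold c3
  have e1 : th * (Real.log z - Real.log y) = -(th * (Real.log y - Real.log z)) := by ring
  have e2 : th * (Real.log y - Real.log x) = -(th * (Real.log x - Real.log y)) := by ring
  have e3 : th * (Real.log x - Real.log z) = -(th * (Real.log z - Real.log x)) := by ring
  rw [e1, e2, e3, Real.cos_neg, Real.cos_neg, Real.cos_neg]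
  ring

theorem mass3 (v : Fin 3 → ℝ) : mass v = (v 0 + v 1 + v 2) / 3 := by
  unfold mass
  rw [Fin.sum_univ_three]
  push_cast
  ring

theorem m2_uv3 {v : Fin 3 → ℝ} (hv : mass v = 1) :
    m2 (uv v) = ((v 0 - 1) ^ 2 + (v 1 - 1) ^ 2 + (v 2 - 1) ^ 2) / 3 := by
  unfold m2 uv
  rw [Fin.sum_univ_three, hv]
  push_cast
  ring

theorem chv3 {s : ℝ} {v : Fin 3 → ℝ} (hv : mass v = 1) (i : Fin 3) :
    chv (-s) v i = 1 - s * (v i - 1) := by
  unfold chv
  rw [hv]; ring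

/-- reduction of a symmetric statement to sorted vectors, in coordinates -/
theorem sorted3 (P : ℝ → ℝ → ℝ → Prop) (h01 : ∀ x y z, P y x z → P x y z)
    (h12 : ∀ x y z, P x z y → P x y z)
    (h : ∀ x y z, 0 ≤ z → z ≤ y → y ≤ x → x + y + z = 3 → P x y z) :
    ∀ x y z, 0 ≤ x → 0 ≤ y → 0 ≤ z → x + y + z = 3 → P x y z := by
  intro x y z hx hy hz hs
  rcases le_total y x with h1 | h1
  · rcases le_total z y with h2 | h2
    · exact h x y z hz h2 h1 hs
    · rcases le_total z x with h3 | h3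
      · exact h12 _ _ _ (h x z y hy h2 h3 (by linarith))
      · exact h12 _ _ _ (h01 _ _ _ (h z x y hy h1 h3 (by linarith)))
  · rcases le_total z x with h2 | h2
    · exact h01 _ _ _ (h y x z hz h2 h1 (by linarith))
    · rcases le_total z y with h3 | h3
      · exact h01 _ _ _ (h12 _ _ _ (h y z x hx h2 h3 (by linarith)))
      · exact h01 _ _ _ (h12 _ _ _ (h01 _ _ _ (h z y x hx h1 h3 (by linarith))))

/-- reduction to the parameters `c, r` -/
theorem cr3 (P : ℝ → ℝ → ℝ → Prop)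
    (h : ∀ c r, 0 ≤ c → c ≤ 1 → 0 ≤ r → r ≤ 1 →
      P (1 + c * (2 - 3 / 2 * r)) (1 + c * (3 / 2 * r - 1)) (1 - c)) :
    ∀ x y z, 0 ≤ z → z ≤ y → y ≤ x → x + y + z = 3 → P x y z := by
  intro x y z hz h1 h2 hs
  have hc0 : 0 ≤ 1 - z := by linarith
  rcases hc0.eq_or_lt with h0 | h0
  · have hz1 : z = 1 := by linarith
    have hy1 : y = 1 := by linarith
    have hx1 : x = 1 := by linarith
    have := h 0 0 le_rfl zero_le_one le_rfl zero_le_one
    rw [hx1, hy1, hz1]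
    simpa using this
  · set c := 1 - z with hc
    set r := (y - z) / (3 / 2 * c) with hr
    have hcr : 3 / 2 * r * c = y - z := by
      rw [hr]; field_simp
    have hr0 : 0 ≤ r := div_nonneg (by linarith) (by linarith)
    have hr1 : r ≤ 1 := by
      rw [hr, div_le_one (by linarith)]
      linarith
    have := h c r hc0 (by linarith) hr0 hr1
    have ex : 1 + c * (2 - 3 / 2 * r) = x := by
      have : c * (2 - 3 / 2 * r) = 2 * c - 3 / 2 * r * c := by ring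
      rw [this, hcr]; linarith
    have ey : 1 + c * (3 / 2 * r - 1) = y := by
      have : c * (3 / 2 * r - 1) = 3 / 2 * r * c - c := by ring
      rw [this, hcr]; linarith
    have ez : 1 - c = z := by rw [hc]; ring
    rwa [ex, ey, ez] at this

/-- general symmetric reduction -/
theorem forall_simpK_of_cr (P : ℝ → ℝ → ℝ → Prop) (h01 : ∀ x y z, P y x z → P x y z)
    (h12 : ∀ x y z, P x z y → P x y z)
    (h : ∀ c r, 0 ≤ c → c ≤ 1 → 0 ≤ r → r ≤ 1 →
      P (1 + c * (2 - 3 / 2 * r)) (1 + c * (3 / 2 * r - 1)) (1 - c)) :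
    ∀ v ∈ simpK 3, P (v 0) (v 1) (v 2) := by
  intro v hv
  have h1 := hv.2
  rw [mass3] at h1
  exact sorted3 P h01 h12 (cr3 P h) _ _ _ (hv.1 0) (hv.1 1) (hv.1 2) (by linarith)

/-- the knot inequality in coordinates -/
def KnotXYZ (g1 g0 a th0 th1 del s x nu K X Y Z : ℝ) : Prop :=
  g1 * x * (1 - c3 (1 / 2) th1 (1 - s * (X - 1)) (1 - s * (Y - 1)) (1 - s * (Z - 1))) -
    nu * (1 - c3 a th0 (1 - s * (X - 1)) (1 - s * (Y - 1)) (1 - s * (Z - 1))) + s ^ 2 * K ≤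
    s ^ 2 * (g1 * (1 - c3 (1 / 2) th1 X Y Z) - g0 * (1 - c3 a th0 X Y Z) -
      del * (((X - 1) ^ 2 + (Y - 1) ^ 2 + (Z - 1) ^ 2) / 3) ^ 2)

theorem knotOK_of_xyz {g1 g0 a th0 th1 del s x nu K : ℝ}
    (h : ∀ v ∈ simpK 3, KnotXYZ g1 g0 a th0 th1 del s x nu K (v 0) (v 1) (v 2)) :
    KnotOK g1 g0 a th0 th1 del s x nu K := by
  intro v hv
  have := h v hv
  unfold KnotXYZ at this
  rw [m2_uv3 hv.2, cfun_eq_c3, cfun_eq_c3, cfun_eq_c3, cfun_eq_c3, chv3 hv.2, chv3 hv.2, chv3 hv.2]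
  exact this

/-- **the knot inequality from the parameters `c, r`** -/
theorem knotOK_of_cr {g1 g0 a th0 th1 del s x nu K : ℝ}
    (h : ∀ c r, 0 ≤ c → c ≤ 1 → 0 ≤ r → r ≤ 1 →
      g1 * x * (1 - c3 (1 / 2) th1 (1 - s * (c * (2 - 3 / 2 * r))) (1 - s * (c * (3 / 2 * r - 1)))
        (1 + s * c)) -
      nu * (1 - c3 a th0 (1 - s * (c * (2 - 3 / 2 * r))) (1 - s * (c * (3 / 2 * r - 1)))
        (1 + s * c)) + s ^ 2 * K ≤
      s ^ 2 * (g1 * (1 - c3 (1 / 2) th1 (1 + c * (2 - 3 / 2 * r)) (1 + c * (3 / 2 * r - 1)) (1 - c)) -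
        g0 * (1 - c3 a th0 (1 + c * (2 - 3 / 2 * r)) (1 + c * (3 / 2 * r - 1)) (1 - c)) -
        del * (c ^ 2 * (2 - 3 * r + 3 / 2 * r ^ 2)) ^ 2)) :
    KnotOK g1 g0 a th0 th1 del s x nu K := by
  refine knotOK_of_xyz (forall_simpK_of_cr _ ?_ ?_ ?_)
  · intro X Y Z hP
    unfold KnotXYZ at hP ⊢
    rw [c3_swap01 (1 / 2) th1 X Y Z, c3_swap01 a th0 X Y Z,
      c3_swap01 (1 / 2) th1 (1 - s * (X - 1)) (1 - s * (Y - 1)),
      c3_swap01 a th0 (1 - s * (X - 1)) (1 - s * (Y - 1)), add_comm ((Y - 1) ^ 2)] at hP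
    exact hP
  · intro X Y Z hP
    unfold KnotXYZ at hP ⊢
    rw [c3_swap12 (1 / 2) th1 X Y Z, c3_swap12 a th0 X Y Z,
      c3_swap12 (1 / 2) th1 (1 - s * (X - 1)) (1 - s * (Y - 1)) (1 - s * (Z - 1)),
      c3_swap12 a th0 (1 - s * (X - 1)) (1 - s * (Y - 1)) (1 - s * (Z - 1)),
      add_right_comm] at hP
    exact hP
  · intro c r hc0 hc1 hr0 hr1
    have := h c r hc0 hc1 hr0 hr1
    unfold KnotXYZ
    have e1 : 1 + c * (2 - 3 / 2 * r) - 1 = c * (2 - 3 / 2 * r) := by ring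
    have e2 : 1 + c * (3 / 2 * r - 1) - 1 = c * (3 / 2 * r - 1) := by ring
    have e3 : 1 - s * (1 - c - 1) = 1 + s * c := by ring
    have e4 : ((c * (2 - 3 / 2 * r)) ^ 2 + (c * (3 / 2 * r - 1)) ^ 2 + (1 - c - 1) ^ 2) / 3 =
      c ^ 2 * (2 - 3 * r + 3 / 2 * r ^ 2) := by ring
    rw [e1, e2, e3, e4]
    exact this

end Crest.Agent.R163
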