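import Crest.Agent.R163.Kn
import Crest.Agent.R163.KnotS

/-!
# Row 163: `KN` versus `KnotOK`
-/

set_option autoImplicit false

namespace Crest.Agent.R163

open Finset Filter

theorem cterm_symm (a th : ℝ) (v : Fin 3 → ℝ) (i j k : Fin 3) :
    cterm a th v i k j = cterm a th v i j k := by
  unfold cterm
  rw [show th * (Real.log (v k) - Real.log (v j)) = -(th * (Real.log (v j) - Real.log (v k))) by
    ring, Real.cos_neg, mul_comm (v k ^ a)]

theorem univ_perm3 : (Finset.univ : Finset (Equiv.Perm (Fin 3))) =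
    {1, Equiv.swap 1 2, Equiv.swap 0 1, Equiv.swap 0 2, finRotate 3, (finRotate 3)⁻¹} := by
  decide

theorem symF_eq_cfun {a th : ℝ} (ha : 0 < a) (v : Fin 3 → ℝ) (hv : ∀ i, 0 ≤ v i) :
    symF (fR ![1 - 2 * a, a, a] ![0, th, -th]) v = cfun a th v := by
  unfold symF cfun
  have e0 : ∀ σ : Equiv.Perm (Fin 3), fR ![1 - 2 * a, a, a] ![0, th, -th] (fun b => v (σ b)) =
      cterm a th v (σ 0) (σ 1) (σ 2) := fun σ => fR_eq_cterm ha _ fun i => hv _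
  simp only [e0]
  rw [univ_perm3, Finset.sum_insert (by decide), Finset.sum_insert (by decide),
    Finset.sum_insert (by decide), Finset.sum_insert (by decide), Finset.sum_insert (by decide),
    Finset.sum_singleton]
  have h1 : ((1 : Equiv.Perm (Fin 3)) 0 = 0) ∧ ((1 : Equiv.Perm (Fin 3)) 1 = 1) ∧
    ((1 : Equiv.Perm (Fin 3)) 2 = 2) := by decide
  have h2 : ((Equiv.swap (1 : Fin 3) 2) 0 = 0) ∧ ((Equiv.swap (1 : Fin 3) 2) 1 = 2) ∧
    ((Equiv.swap (1 : Fin 3) 2) 2 = 1) := by decide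
  have h3 : ((Equiv.swap (0 : Fin 3) 1) 0 = 1) ∧ ((Equiv.swap (0 : Fin 3) 1) 1 = 0) ∧
    ((Equiv.swap (0 : Fin 3) 1) 2 = 2) := by decide
  have h4 : ((Equiv.swap (0 : Fin 3) 2) 0 = 2) ∧ ((Equiv.swap (0 : Fin 3) 2) 1 = 1) ∧
    ((Equiv.swap (0 : Fin 3) 2) 2 = 0) := by decide
  have h5 : ((finRotate 3) 0 = 1) ∧ ((finRotate 3) 1 = 2) ∧ ((finRotate 3) 2 = 0) := by decide
  have h6 : ((finRotate 3)⁻¹ 0 = 2) ∧ ((finRotate 3)⁻¹ 1 = 0) ∧ ((finRotate 3)⁻¹ 2 = 1) := by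
    decide
  rw [h1.1, h1.2.1, h1.2.2, h2.1, h2.2.1, h2.2.2, h3.1, h3.2.1, h3.2.2, h4.1, h4.2.1, h4.2.2,
    h5.1, h5.2.1, h5.2.2, h6.1, h6.2.1, h6.2.2, cterm_symm a th v 0 1 2, cterm_symm a th v 1 2 0,
    cterm_symm a th v 2 0 1]
  have hc : (Fintype.card (Equiv.Perm (Fin 3)) : ℝ) = 6 := by
    rw [Fintype.card_perm, Fintype.card_fin]
    norm_num [Nat.factorial]
  rw [hc]
  ring

namespace Kn

theorem gA_eq (v : Fin 3 → ℝ) (hv : ∀ i, 0 ≤ v i) : gA v = cfun (1 / 2) (31 / 100) v := by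
  unfold gA
  have := symF_eq_cfun (a := 1 / 2) (th := 31 / 100) (by norm_num) v hv
  rw [show (1 : ℝ) - 2 * (1 / 2) = 0 by norm_num] at this
  exact this

theorem gB_eq (v : Fin 3 → ℝ) (hv : ∀ i, 0 ≤ v i) : gB v = cfun (7 / 20) (47 / 100) v := by
  unfold gB
  have := symF_eq_cfun (a := 7 / 20) (th := 47 / 100) (by norm_num) v hv
  rw [show (1 : ℝ) - 2 * (7 / 20) = 3 / 10 by norm_num] at this
  exact this

theorem KN_iff {s x nu K : ℝ} (hs : 0 < s) (hs1 : s ≤ 1 / 2) :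
    KN s x nu K ↔ KnotOK g1 g0 (7 / 20) (47 / 100) (31 / 100) del s x nu K := by
  have hl0 : -(1 / (((3 : ℕ) : ℝ) - 1)) ≤ -s := by push_cast; norm_num; linarith
  have hl1 : -s ≤ 1 := by linarith
  have hs2 : 0 < s ^ 2 := by positivity
  unfold KN KnotOK
  refine forall₂_congr fun v hv => ?_
  have hcv : ∀ i, 0 ≤ chv (-s) v i := chv_nonneg (by norm_num) hl0 hl1 v hv.1
  unfold Phi Y1 Y0 mm
  rw [gA_eq v hv.1, gB_eq v hv.1, gA_eq _ hcv, gB_eq _ hcv, ← mul_le_mul_iff_right₀ hs2]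
  have e : s ^ 2 * (g1 * (1 - cfun (1 / 2) (31 / 100) v) - g0 * (1 - cfun (7 / 20) (47 / 100) v) -
      g1 * x * ((1 - cfun (1 / 2) (31 / 100) (chv (-s) v)) / s ^ 2) +
      nu * ((1 - cfun (7 / 20) (47 / 100) (chv (-s) v)) / s ^ 2)) =
      s ^ 2 * (g1 * (1 - cfun (1 / 2) (31 / 100) v) - g0 * (1 - cfun (7 / 20) (47 / 100) v)) -
      g1 * x * (1 - cfun (1 / 2) (31 / 100) (chv (-s) v)) +
      nu * (1 - cfun (7 / 20) (47 / 100) (chv (-s) v)) := by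
    field_simp
  rw [e]
  constructor <;> intro h <;> linarith

end Kn

end Crest.Agent.R163
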