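import Crest.Agent.R163.KnotS

/-!
# Row 163: `taumax` and positivity for free

* `abs_cfun_le` : `|c[a; th] v| ≤ 1` on the simplex;
* `hmax_trivial` : `taumax = 2 / s^2` always works;
* `cfun_chv_nonneg` : `0 ≤ c[a; th] (T v)` for `s ≤ 4473/10000`, `0 ≤ th ≤ 1/2`.
* final forms `antiPoi_final`, `antiReg_final`, `antiReg_from`.
-/

set_option autoImplicit false

namespace Crest.Agent.R163

open Finset Filter

theorem abs_cterm_le {a th : ℝ} (ha : 0 ≤ a) (ha2 : a ≤ 1 / 2) (v : Fin 3 → ℝ) (hv : ∀ i, 0 ≤ v i)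
    (i j k : Fin 3) : |cterm a th v i j k| ≤ (1 - 2 * a) * v i + a * v j + a * v k := by
  unfold cterm
  rw [abs_mul]
  have h0 : 0 ≤ v i ^ (1 - 2 * a) * (v j ^ a * v k ^ a) :=
    mul_nonneg (Real.rpow_nonneg (hv i) _) (mul_nonneg (Real.rpow_nonneg (hv j) _)
      (Real.rpow_nonneg (hv k) _))
  rw [abs_of_nonneg h0]
  have h1 := Real.geom_mean_le_arith_mean3_weighted (by linarith : 0 ≤ 1 - 2 * a) ha ha (hv i)
    (hv j) (hv k) (by ring)
  have h2 := Real.abs_cos_le_one (th * (Real.log (v j) - Real.log (v k)))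
  calc v i ^ (1 - 2 * a) * (v j ^ a * v k ^ a) * |Real.cos (th * (Real.log (v j) - Real.log (v k)))|
      ≤ v i ^ (1 - 2 * a) * (v j ^ a * v k ^ a) * 1 := mul_le_mul_of_nonneg_left h2 h0
    _ = v i ^ (1 - 2 * a) * v j ^ a * v k ^ a := by ring
    _ ≤ _ := h1

theorem abs_cfun_le {a th : ℝ} (ha : 0 ≤ a) (ha2 : a ≤ 1 / 2) (v : Fin 3 → ℝ)
    (hv : ∀ i, 0 ≤ v i) : |cfun a th v| ≤ mass v := by
  have h1 := abs_le.1 (abs_cterm_le (th := th) ha ha2 v hv 0 1 2)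
  have h2 := abs_le.1 (abs_cterm_le (th := th) ha ha2 v hv 1 2 0)
  have h3 := abs_le.1 (abs_cterm_le (th := th) ha ha2 v hv 2 0 1)
  rw [mass3]
  unfold cfun
  rw [abs_le]
  constructor <;> linarith [h1.1, h1.2, h2.1, h2.2, h3.1, h3.2]

theorem chv_nonneg3 {s : ℝ} (hs0 : 0 ≤ s) (hs1 : s ≤ 1 / 2) (v : Fin 3 → ℝ) (hv : ∀ i, 0 ≤ v i)
    (i : Fin 3) : 0 ≤ chv (-s) v i :=
  chv_nonneg (by norm_num) (by push_cast; norm_num; linarith) (by linarith) v hv i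

theorem hmax_trivial {s a th : ℝ} (hs0 : 0 < s) (hs1 : s ≤ 1 / 2) (ha : 0 ≤ a) (ha2 : a ≤ 1 / 2) :
    ∀ v ∈ simpK 3, 1 - cfun a th (chv (-s) v) ≤ s ^ 2 * (2 / s ^ 2) := by
  intro v hv
  have h := abs_le.1 (abs_cfun_le (th := th) ha ha2 _ (chv_nonneg3 hs0.le hs1 v hv.1))
  rw [mass_chV (by norm_num), hv.2] at h
  have e : s ^ 2 * (2 / s ^ 2) = 2 := by field_simp
  rw [e]
  linarith [h.1]

theorem log14 : Real.log 14 ≤ 2.8 := by
  have h1 : Real.log 14 ≤ Real.log 16 := Real.log_le_log (by norm_num) (by norm_num)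
  have h2 : Real.log 16 = 4 * Real.log 2 := by
    rw [show (16 : ℝ) = 2 ^ 4 by norm_num, Real.log_pow]; norm_num
  have := Real.log_two_lt_d9
  linarith

/-- positivity of the functionals after the channel -/
theorem cfun_chv_nonneg {s a th : ℝ} (hs0 : 0 ≤ s) (hs1 : s ≤ 4473 / 10000) (hth0 : 0 ≤ th)
    (hth : th ≤ 1 / 2) : ∀ v ∈ simpK 3, 0 ≤ cfun a th (chv (-s) v) := by
  intro v hv
  have hb : ∀ i, 1 - 2 * s ≤ chv (-s) v i ∧ chv (-s) v i ≤ 1 + s := by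
    intro i
    rw [chv3 hv.2]
    have h1 := hv.2
    rw [mass3] at h1
    have h2 := hv.1 0
    have h3 := hv.1 1
    have h4 := hv.1 2
    have h5 : 0 ≤ v i ∧ v i ≤ 3 := by
      fin_cases i
      · exact ⟨h2, by show v 0 ≤ 3; linarith⟩
      · exact ⟨h3, by show v 1 ≤ 3; linarith⟩
      · exact ⟨h4, by show v 2 ≤ 3; linarith⟩
    constructor <;> nlinarith [h5.1, h5.2]
  have hpos : ∀ i, 0 < chv (-s) v i := fun i => by linarith [(hb i).1]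
  have hlog : ∀ j k, Real.log (chv (-s) v j) - Real.log (chv (-s) v k) ≤ 2.8 := by
    intro j k
    rw [← Real.log_div (hpos j).ne' (hpos k).ne']
    refine le_trans (Real.log_le_log (div_pos (hpos j) (hpos k)) ?_) log14
    rw [div_le_iff₀ (hpos k)]
    nlinarith [(hb j).2, (hb k).1]
  have hcos : ∀ j k, 0 ≤ Real.cos (th * (Real.log (chv (-s) v j) - Real.log (chv (-s) v k))) := by
    intro j k
    have h1 := hlog j k
    have h2 := hlog k j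
    have hpi := Real.pi_gt_three
    refine Real.cos_nonneg_of_neg_pi_div_two_le_of_le ?_ ?_
    · nlinarith
    · nlinarith
  have hterm : ∀ i j k, 0 ≤ cterm a th (chv (-s) v) i j k := fun i j k =>
    mul_nonneg (mul_nonneg (Real.rpow_nonneg (hpos i).le _)
      (mul_nonneg (Real.rpow_nonneg (hpos j).le _) (Real.rpow_nonneg (hpos k).le _))) (hcos j k)
  unfold cfun
  have h1 := hterm 0 1 2
  have h2 := hterm 1 2 0
  have h3 := hterm 2 0 1
  positivity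

theorem s_facts {d s : ℝ} (hd : 4 ≤ d) (hs : s = 1 / Real.sqrt d) :
    0 < s ∧ s ≤ 1 / 2 ∧ d * s ^ 2 = 1 := by
  have hlb := lam_bounds hd
  have hd0 : 0 < d := by linarith
  have hsq : 0 < Real.sqrt d := Real.sqrt_pos.2 hd0
  refine ⟨by rw [hs]; positivity, ?_, ?_⟩
  · have := hlb.1
    rw [hs]
    push_cast at this
    norm_num at this ⊢
    linarith
  · rw [hs, div_pow, one_pow, Real.sq_sqrt hd0.le]
    field_simp

/-- **Poisson**: potential for `tau ≤ tau1`, fixed-point levels for `tau ≥ tau1` -/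
theorem antiPoi_final {d s : ℝ} (hd : 4 ≤ d) (hs : s = 1 / Real.sqrt d)
    {g1 g0 a th0 th1 del tau1 : ℝ} (hg1 : 0 ≤ g1) (hdel : 0 < del) (ha : 0 < a)
    (ha2 : a ≤ 1 / 2)
    (hlev : ∀ tau, tau1 ≤ tau → ∃ (k : ℕ) (g a' th x : Fin k → ℝ) (g0 nu K : ℝ),
      (∀ j, 0 ≤ g j) ∧ (∀ j, 0 < a' j) ∧ (∀ j, a' j ≤ 1 / 2) ∧ (∀ j, 0 < x j) ∧
      LevelOK g a' th x g0 a th0 s nu K ∧
      ∑ j, g j * (1 - x j + x j * Real.log (x j)) - g0 * (1 - Real.exp (-tau)) + nu * tau < K)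
    (hk : ∀ tau, 0 ≤ tau → tau ≤ tau1 → ∃ x nu K : ℝ, 0 < x ∧
      KnotOK g1 g0 a th0 th1 del s x nu K ∧
      g1 * (1 - x + x * Real.log x) - g0 * (1 - Real.exp (-tau)) + nu * tau ≤ K) :
    AntiPoi d := by
  obtain ⟨hs0, hs1, -⟩ := s_facts hd hs
  exact antiPoi_of_levels hd hs hg1 hdel ha ha2 (hmax_trivial hs0 hs1 ha.le ha2)
    (fun tau h _ => hlev tau h) hk

/-- **Poisson**, one functional per level -/
theorem antiPoi_final1 {d s : ℝ} (hd : 4 ≤ d) (hs : s = 1 / Real.sqrt d)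
    {g1 g0 a th0 th1 del tau1 : ℝ} (hg1 : 0 ≤ g1) (hdel : 0 < del) (ha : 0 < a)
    (ha2 : a ≤ 1 / 2)
    (hlev : ∀ tau, tau1 ≤ tau → ∃ g0' x nu K : ℝ, 0 < x ∧
      KnotOK 1 g0' a th0 th1 0 s x nu K ∧
      (1 - x + x * Real.log x) - g0' * (1 - Real.exp (-tau)) + nu * tau < K)
    (hk : ∀ tau, 0 ≤ tau → tau ≤ tau1 → ∃ x nu K : ℝ, 0 < x ∧
      KnotOK g1 g0 a th0 th1 del s x nu K ∧
      g1 * (1 - x + x * Real.log x) - g0 * (1 - Real.exp (-tau)) + nu * tau ≤ K) :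
    AntiPoi d := by
  refine antiPoi_final hd hs hg1 hdel ha ha2 (fun tau h => ?_) hk
  obtain ⟨g0', x, nu, K, hx, hK, hlt⟩ := hlev tau h
  refine ⟨1, fun _ => 1, fun _ => 1 / 2, fun _ => th1, fun _ => x, g0', nu, K,
    fun _ => zero_le_one, fun _ => by norm_num, fun _ => le_rfl, fun _ => hx, ?_, ?_⟩
  · intro v hv
    have := hK v hv
    rw [Fin.sum_univ_one, Fin.sum_univ_one]
    rw [zero_mul, sub_zero] at this
    exact this
  · rw [Fin.sum_univ_one, one_mul]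
    exact hlt

/-- **`b`-ary**: potential for all `tau` -/
theorem antiReg_final {b : ℕ} {s : ℝ} (hb : 5 ≤ b) (hs : s = 1 / Real.sqrt b)
    (hs1 : s ≤ 4473 / 10000)
    {g1 g0 a th0 th1 del : ℝ} (hg1 : 0 ≤ g1) (hdel : 0 < del) (ha : 0 < a)
    (ha2 : a ≤ 1 / 2) (hth0 : 0 ≤ th1) (hth : th1 ≤ 1 / 2)
    (hth0' : 0 ≤ th0) (hth' : th0 ≤ 1 / 2)
    (hk : ∀ tau : ℝ, 0 ≤ tau → tau ≤ b → ∃ z nu K : ℝ, 0 ≤ z ∧
      KnotOK g1 g0 a th0 th1 del s (z ^ (b - 1)) nu K ∧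
      g1 * (1 - b * z ^ (b - 1) + (b - 1) * z ^ b) - g0 * (1 - (1 - tau / b) ^ b) + nu * tau ≤ K) :
    AntiReg b := by
  have hb5 : (5 : ℝ) ≤ (b : ℝ) := by exact_mod_cast hb
  obtain ⟨hs0, hs2, hds⟩ := s_facts (by linarith : (4 : ℝ) ≤ (b : ℝ)) hs
  have hsb : s ^ 2 * b = 1 := by rw [mul_comm]; exact hds
  refine antiReg_of_knots (taumax := b) (by omega) hs hg1 hdel ha ha2
    (Or.inr (cfun_chv_nonneg hs0.le hs1 hth0 hth)) (fun v hv => ?_) hk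
  rw [hsb]
  linarith [cfun_chv_nonneg (a := a) hs0.le hs1 hth0' hth' v hv]

end Crest.Agent.R163
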