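import Crest.Agent.R163.BxB
import Crest.Agent.R163.KnB
import Crest.Agent.R163.Knot4

/-!
# Row 163: link between the box engine and the knot inequalities
-/

set_option autoImplicit false

namespace Crest.Agent.R163.Bx

open Kr

theorem AB1 (x y : ℝ) : A1 x * A1 y + B1 x * B1 y =
    x ^ (1 / 2 : ℝ) * y ^ (1 / 2 : ℝ) * Real.cos (31 / 100 * (Real.log x - Real.log y)) := by
  unfold A1 B1
  rw [mul_sub, Real.cos_sub]; ring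

theorem AB0 (x y : ℝ) : A0 x * A0 y + B0 x * B0 y =
    x ^ (7 / 20 : ℝ) * y ^ (7 / 20 : ℝ) * Real.cos (47 / 100 * (Real.log x - Real.log y)) := by
  unfold A0 B0
  rw [mul_sub, Real.cos_sub]; ring

theorem pr_eq (p : Fin 3 → ℝ) : pr p = 3 * c3 (1 / 2) (31 / 100) (p 0) (p 1) (p 2) := by
  unfold pr c3
  rw [AB1, AB1, AB1, show (1 : ℝ) - 2 * (1 / 2) = 0 by norm_num, Real.rpow_zero, Real.rpow_zero,
    Real.rpow_zero]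
  ring

theorem tr_eq (p : Fin 3 → ℝ) : tr p = 3 * c3 (7 / 20) (47 / 100) (p 0) (p 1) (p 2) := by
  unfold tr c3 C0
  rw [AB0, AB0, AB0, show (1 : ℝ) - 2 * (7 / 20) = 3 / 10 by norm_num]
  ring

theorem vP0 (x y z : ℝ) : vP x y z 0 = 1 + x * (2 - 3 / 2 * y) := by
  simp only [vP, FP, E3.ev]; push_cast; ring
theorem vP1 (x y z : ℝ) : vP x y z 1 = 1 + x * (3 / 2 * y - 1) := by
  simp only [vP, FP, E3.ev]; push_cast; ring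
theorem vP2 (x y z : ℝ) : vP x y z 2 = 1 - x := by
  simp only [vP, FP, E3.ev]; push_cast; ring
theorem vQ0 (x y z : ℝ) : vQ x y z 0 = 1 - z * (x * (2 - 3 / 2 * y)) := by
  simp only [vQ, FQ, E3.ev]; push_cast; ring
theorem vQ1 (x y z : ℝ) : vQ x y z 1 = 1 - z * (x * (3 / 2 * y - 1)) := by
  simp only [vQ, FQ, E3.ev]; push_cast; ring
theorem vQ2 (x y z : ℝ) : vQ x y z 2 = 1 + z * x := by
  simp only [vQ, FQ, E3.ev]; push_cast; ring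

/-- the function in coordinates `v` -/
noncomputable def kg (κ : Kn) (s X Y Z : ℝ) : ℝ :=
  s ^ 2 * (hr (2 * (((X - 1) ^ 2 + (Y - 1) ^ 2 + (Z - 1) ^ 2) / 3)) κ.pm +
    κ.c1 * c3 (1 / 2) (31 / 100) X Y Z + κ.c0 * c3 (7 / 20) (47 / 100) X Y Z) + κ.cc +
    κ.t1 * c3 (1 / 2) (31 / 100) (1 - s * (X - 1)) (1 - s * (Y - 1)) (1 - s * (Z - 1)) +
    κ.t0 * c3 (7 / 20) (47 / 100) (1 - s * (X - 1)) (1 - s * (Y - 1)) (1 - s * (Z - 1))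

theorem kf_eq_kg (κ : Kn) (c r s : ℝ) :
    kf κ c r s = 3 * kg κ s (1 + c * (2 - 3 / 2 * r)) (1 + c * (3 / 2 * r - 1)) (1 - c) := by
  unfold kf kg
  rw [pr_eq, tr_eq, pr_eq, tr_eq, vP0, vP1, vP2, vQ0, vQ1, vQ2]
  have e1 : 1 + c * (2 - 3 / 2 * r) - 1 = c * (2 - 3 / 2 * r) := by ring
  have e2 : 1 + c * (3 / 2 * r - 1) - 1 = c * (3 / 2 * r - 1) := by ring
  have e3 : 1 - s * (1 - c - 1) = 1 + s * c := by ring
  have e4 : 2 * (((c * (2 - 3 / 2 * r)) ^ 2 + (c * (3 / 2 * r - 1)) ^ 2 + (1 - c - 1) ^ 2) / 3) =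
      c ^ 2 * (4 - 6 * r + 3 * r ^ 2) := by ring
  rw [e1, e2, e3, e4]
  ring

theorem kg_swap01 (κ : Kn) (s X Y Z : ℝ) : kg κ s Y X Z = kg κ s X Y Z := by
  unfold kg
  rw [c3_swap01 (1 / 2) _ X Y Z, c3_swap01 (7 / 20) _ X Y Z,
    c3_swap01 (1 / 2) _ (1 - s * (X - 1)) (1 - s * (Y - 1)),
    c3_swap01 (7 / 20) _ (1 - s * (X - 1)) (1 - s * (Y - 1)), add_comm ((Y - 1) ^ 2)]

theorem kg_swap12 (κ : Kn) (s X Y Z : ℝ) : kg κ s X Z Y = kg κ s X Y Z := by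
  unfold kg
  rw [c3_swap12 (1 / 2) _ X Y Z, c3_swap12 (7 / 20) _ X Y Z,
    c3_swap12 (1 / 2) _ (1 - s * (X - 1)) (1 - s * (Y - 1)) (1 - s * (Z - 1)),
    c3_swap12 (7 / 20) _ (1 - s * (X - 1)) (1 - s * (Y - 1)) (1 - s * (Z - 1)),
    add_right_comm ((X - 1) ^ 2)]

/-- full simplex -/
theorem kg_of_kf {κ : Kn} {s : ℝ}
    (h : ∀ c r : ℝ, 0 ≤ c → c ≤ 1 → 0 ≤ r → r ≤ 1 → 0 ≤ kf κ c r s) :
    ∀ v ∈ simpK 3, 0 ≤ kg κ s (v 0) (v 1) (v 2) := by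
  refine forall_simpK_of_cr (fun X Y Z => 0 ≤ kg κ s X Y Z) ?_ ?_ ?_
  · intro X Y Z hP
    rwa [kg_swap01] at hP
  · intro X Y Z hP
    rwa [kg_swap12] at hP
  · intro c r hc0 hc1 hr0 hr1
    have := h c r hc0 hc1 hr0 hr1
    rw [kf_eq_kg] at this
    linarith

/-- centre -/
theorem kg_of_kf_cen {κ : Kn} {s : ℝ}
    (h : ∀ c r : ℝ, 0 ≤ c → c ≤ 1 / 2 → 0 ≤ r → r ≤ 1 → 0 ≤ kf κ c r s) :
    ∀ v ∈ simpK 3, (∀ a, 1 / 2 ≤ v a) → 0 ≤ kg κ s (v 0) (v 1) (v 2) := by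
  have key := forall_simpK_of_cr
    (fun X Y Z => 1 / 2 ≤ X → 1 / 2 ≤ Y → 1 / 2 ≤ Z → 0 ≤ kg κ s X Y Z) ?_ ?_ ?_
  · exact fun v hv hc => key v hv (hc 0) (hc 1) (hc 2)
  · intro X Y Z hP hX hY hZ
    have := hP hY hX hZ
    rwa [kg_swap01] at this
  · intro X Y Z hP hX hY hZ
    have := hP hX hZ hY
    rwa [kg_swap12] at this
  · intro c r hc0 hc1 hr0 hr1 hX hY hZ
    have := h c r hc0 (by linarith) hr0 hr1
    rw [kf_eq_kg] at this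
    linarith

/-- outer part -/
theorem kg_of_kf_out {κ : Kn} {s : ℝ}
    (h : ∀ c r : ℝ, 1 / 2 ≤ c → c ≤ 1 → 0 ≤ r → r ≤ 1 → 0 ≤ kf κ c r s) :
    ∀ v ∈ simpK 3, (¬ ∀ a, 1 / 2 ≤ v a) → 0 ≤ kg κ s (v 0) (v 1) (v 2) := by
  have key := forall_simpK_of_cr
    (fun X Y Z => ¬ (1 / 2 ≤ X ∧ 1 / 2 ≤ Y ∧ 1 / 2 ≤ Z) → 0 ≤ kg κ s X Y Z) ?_ ?_ ?_
  · refine fun v hv hc => key v hv fun hh => hc fun a => ?_
    fin_cases a
    · exact hh.1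
    · exact hh.2.1
    · exact hh.2.2
  · intro X Y Z hP hX
    have := hP fun hh => hX ⟨hh.2.1, hh.1, hh.2.2⟩
    rwa [kg_swap01] at this
  · intro X Y Z hP hX
    have := hP fun hh => hX ⟨hh.1, hh.2.2, hh.2.1⟩
    rwa [kg_swap12] at this
  · intro c r hc0 hc1 hr0 hr1 hX
    have hc : 1 / 2 ≤ c := by
      by_contra hneg
      push Not at hneg
      exact hX ⟨by nlinarith, by nlinarith, by linarith⟩
    have := h c r hc hc1 hr0 hr1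
    rw [kf_eq_kg] at this
    linarith

/-- value in terms of `cfun` -/
theorem kg_eq (κ : Kn) (s : ℝ) {v : Fin 3 → ℝ} (hv : v ∈ simpK 3) :
    kg κ s (v 0) (v 1) (v 2) = s ^ 2 * (hr (2 * m2 (uv v)) κ.pm + κ.c1 * cfun (1 / 2) (31 / 100) v +
      κ.c0 * cfun (7 / 20) (47 / 100) v) + κ.cc + κ.t1 * cfun (1 / 2) (31 / 100) (chv (-s) v) +
      κ.t0 * cfun (7 / 20) (47 / 100) (chv (-s) v) := by
  unfold kg
  rw [m2_uv3 hv.2, cfun_eq_c3, cfun_eq_c3, cfun_eq_c3, cfun_eq_c3, chv3 hv.2, chv3 hv.2, chv3 hv.2]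

/-- data of a knot: `x, nu` in units `1e-4`, `K` in units `1e-5` -/
def kKnot (x nu K : ℤ) : Kn :=
  ⟨[258180000 - 800 * K, 0, -10000], -431230000, 173050000, 8000 * nu - 43123 * x, 43123 * x,
    -(8000 * nu)⟩

/-- data of a level: `g0, x, nu` in units `1e-4`, `K` in units `1e-5` -/
def kLev (g0 x nu K : ℤ) : Kn :=
  ⟨[100000 - 10 * g0 - K], -100000, 10 * g0, 10 * nu - 10 * x, 10 * x, -(10 * nu)⟩

def kP1 : Kn := ⟨[25818, 0, -145, 144, -36], -43123, 17305, -25818, 43123, -17305⟩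
def kP2 : Kn := ⟨[2581800, 7200, -18100, 14400, -3600], -4312300, 1730500, -2445933, 3924193,
  -1478260⟩
def kP3 : Kn := ⟨[25818, 0, -1], -43123, 17305, -25818, 43123, -17305⟩
def kP4 : Kn := ⟨[2581800, 0, -100], -4312300, 1730500, -2445933, 3924193, -1478260⟩
def kQ1 : Kn := ⟨[0, 271], 0, 0, -250, 0, 250⟩

/-- **knots** -/
theorem knotOK_of_kf {x nu K : ℤ} {s : ℝ}
    (h : ∀ c r : ℝ, 0 ≤ c → c ≤ 1 → 0 ≤ r → r ≤ 1 → 0 ≤ kf (kKnot x nu K) c r s) :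
    KnotOK (43123 / 8000) (3461 / 1600) (7 / 20) (47 / 100) (31 / 100) (1 / 2000) s
      ((x : ℝ) / 10000) ((nu : ℝ) / 10000) ((K : ℝ) / 100000) := by
  intro v hv
  have h1 := kg_of_kf h v hv
  rw [kg_eq _ _ hv] at h1
  simp only [kKnot, hr] at h1
  push_cast at h1
  nlinarith [h1]

/-- **levels** -/
theorem levOK_of_kf {g0 x nu K : ℤ} {s : ℝ}
    (h : ∀ c r : ℝ, 0 ≤ c → c ≤ 1 → 0 ≤ r → r ≤ 1 → 0 ≤ kf (kLev g0 x nu K) c r s) :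
    KnotOK 1 ((g0 : ℝ) / 10000) (7 / 20) (47 / 100) (31 / 100) 0 s
      ((x : ℝ) / 10000) ((nu : ℝ) / 10000) ((K : ℝ) / 100000) := by
  intro v hv
  have h1 := kg_of_kf h v hv
  rw [kg_eq _ _ hv] at h1
  simp only [kLev, hr] at h1
  push_cast at h1
  nlinarith [h1]

theorem level_of_kf {g0 x nu K : ℤ} {s : ℝ}
    (h : ∀ c r : ℝ, 0 ≤ c → c ≤ 1 → 0 ≤ r → r ≤ 1 → 0 ≤ kf (kLev g0 x nu K) c r s) :
    LevelOK (k := 1) (fun _ => 1) (fun _ => 1 / 2) (fun _ => 31 / 100) (fun _ => (x : ℝ) / 10000)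
      ((g0 : ℝ) / 10000) (7 / 20) (47 / 100) s ((nu : ℝ) / 10000) ((K : ℝ) / 100000) := by
  intro v hv
  have := levOK_of_kf h v hv
  rw [Fin.sum_univ_one, Fin.sum_univ_one]
  rw [zero_mul, sub_zero] at this
  exact this

section
variable {s : ℝ}

private theorem s2Y {s : ℝ} (hs : 0 < s) (X : ℝ) : s ^ 2 * (X / s ^ 2) = X := by field_simp

theorem P1_of_kf (hs : 0 < s) (hs1 : s ≤ 1 / 2)
    (h : ∀ c r : ℝ, 0 ≤ c → c ≤ 1 / 2 → 0 ≤ r → r ≤ 1 → 0 ≤ kf kP1 c r s) :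
    R163.Kn.P1 s := by
  intro v hv hc
  have h1 := kg_of_kf_cen h v hv hc
  rw [kg_eq _ _ hv] at h1
  simp only [kP1, hr] at h1
  push_cast at h1
  have hcv := chv_nonneg3 hs.le hs1 v hv.1
  unfold R163.Kn.hh R163.Kn.Phi R163.Kn.Y1 R163.Kn.Y0 R163.Kn.eta R163.Kn.mm R163.Kn.del R163.Kn.kap
    R163.Kn.g1 R163.Kn.g0
  rw [R163.Kn.gA_eq v hv.1, R163.Kn.gB_eq v hv.1, R163.Kn.gA_eq _ hcv, R163.Kn.gB_eq _ hcv]
  have hs2 : 0 < s ^ 2 := by positivity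
  rw [← mul_le_mul_iff_right₀ hs2]
  have e1 := s2Y hs (1 - cfun (1 / 2) (31 / 100) (chv (-s) v))
  have e2 := s2Y hs (1 - cfun (7 / 20) (47 / 100) (chv (-s) v))
  nlinarith [h1, e1, e2]

theorem P2_of_kf (hs : 0 < s) (hs1 : s ≤ 1 / 2)
    (h : ∀ c r : ℝ, 0 ≤ c → c ≤ 1 / 2 → 0 ≤ r → r ≤ 1 → 0 ≤ kf kP2 c r s) :
    R163.Kn.P2 s := by
  intro v hv hc
  have h1 := kg_of_kf_cen h v hv hc
  rw [kg_eq _ _ hv] at h1
  simp only [kP2, hr] at h1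
  push_cast at h1
  have hcv := chv_nonneg3 hs.le hs1 v hv.1
  unfold R163.Kn.hh R163.Kn.ll R163.Kn.Phi R163.Kn.Y1 R163.Kn.Y0 R163.Kn.eta R163.Kn.mm R163.Kn.del
    R163.Kn.kap R163.Kn.kT R163.Kn.k0 R163.Kn.g1 R163.Kn.g0
  rw [R163.Kn.gA_eq v hv.1, R163.Kn.gB_eq v hv.1, R163.Kn.gA_eq _ hcv, R163.Kn.gB_eq _ hcv]
  have hs2 : 0 < s ^ 2 := by positivity
  rw [← mul_le_mul_iff_right₀ hs2]
  have e1 := s2Y hs (1 - cfun (1 / 2) (31 / 100) (chv (-s) v))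
  have e2 := s2Y hs (1 - cfun (7 / 20) (47 / 100) (chv (-s) v))
  nlinarith [h1, e1, e2]

theorem P3_of_kf (hs : 0 < s) (hs1 : s ≤ 1 / 2)
    (h : ∀ c r : ℝ, 1 / 2 ≤ c → c ≤ 1 → 0 ≤ r → r ≤ 1 → 0 ≤ kf kP3 c r s) :
    R163.Kn.P3 s := by
  intro v hv hc
  have h1 := kg_of_kf_out h v hv hc
  rw [kg_eq _ _ hv] at h1
  simp only [kP3, hr] at h1
  push_cast at h1
  have hcv := chv_nonneg3 hs.le hs1 v hv.1
  unfold R163.Kn.hh R163.Kn.Phi R163.Kn.Y1 R163.Kn.Y0 R163.Kn.mm R163.Kn.del R163.Kn.g1 R163.Kn.g0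
  rw [R163.Kn.gA_eq v hv.1, R163.Kn.gB_eq v hv.1, R163.Kn.gA_eq _ hcv, R163.Kn.gB_eq _ hcv]
  have hs2 : 0 < s ^ 2 := by positivity
  rw [← mul_le_mul_iff_right₀ hs2]
  have e1 := s2Y hs (1 - cfun (1 / 2) (31 / 100) (chv (-s) v))
  have e2 := s2Y hs (1 - cfun (7 / 20) (47 / 100) (chv (-s) v))
  nlinarith [h1, e1, e2]

theorem P4_of_kf (hs : 0 < s) (hs1 : s ≤ 1 / 2)
    (h : ∀ c r : ℝ, 1 / 2 ≤ c → c ≤ 1 → 0 ≤ r → r ≤ 1 → 0 ≤ kf kP4 c r s) :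
    R163.Kn.P4 s := by
  intro v hv hc
  have h1 := kg_of_kf_out h v hv hc
  rw [kg_eq _ _ hv] at h1
  simp only [kP4, hr] at h1
  push_cast at h1
  have hcv := chv_nonneg3 hs.le hs1 v hv.1
  unfold R163.Kn.hh R163.Kn.ll R163.Kn.Phi R163.Kn.Y1 R163.Kn.Y0 R163.Kn.mm R163.Kn.del R163.Kn.kT
    R163.Kn.k0 R163.Kn.g1 R163.Kn.g0
  rw [R163.Kn.gA_eq v hv.1, R163.Kn.gB_eq v hv.1, R163.Kn.gA_eq _ hcv, R163.Kn.gB_eq _ hcv]
  have hs2 : 0 < s ^ 2 := by positivity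
  rw [← mul_le_mul_iff_right₀ hs2]
  have e1 := s2Y hs (1 - cfun (1 / 2) (31 / 100) (chv (-s) v))
  have e2 := s2Y hs (1 - cfun (7 / 20) (47 / 100) (chv (-s) v))
  nlinarith [h1, e1, e2]

theorem Q1_of_kf (hs : 0 < s) (hs1 : s ≤ 1 / 2)
    (h : ∀ c r : ℝ, 0 ≤ c → c ≤ 1 → 0 ≤ r → r ≤ 1 → 0 ≤ kf kQ1 c r s) :
    R163.Kn.Q1 s := by
  intro v hv
  have h1 := kg_of_kf h v hv
  rw [kg_eq _ _ hv] at h1
  simp only [kQ1, hr] at h1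
  push_cast at h1
  have hcv := chv_nonneg3 hs.le hs1 v hv.1
  unfold R163.Kn.Y0 R163.Kn.mm
  rw [R163.Kn.gB_eq _ hcv]
  have hs2 : 0 < s ^ 2 := by positivity
  rw [← mul_le_mul_iff_right₀ hs2]
  have e1 := s2Y hs (1 - cfun (1 / 2) (31 / 100) (chv (-s) v))
  have e2 := s2Y hs (1 - cfun (7 / 20) (47 / 100) (chv (-s) v))
  nlinarith [h1, e1, e2]

end

end Crest.Agent.R163.Bx
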