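import Crest.Agent.R163.KnP

/-!
# Row 163: the data (knots and levels) of the two-term universal potential

* `PoiData s` : Poisson, `s ∈ [316/1000, 1/2]`;
* `RegData s` : `b`-ary, `5 ≤ b ≤ 9`, `s ∈ [1/3, 4473/10000]`;
* `FourData s` : `b = 4`, `s = 1/2` only.
-/

set_option autoImplicit false

namespace Crest.Agent.R163.KnP

/-- Poisson data: 9 knots, 5 levels (`LO s x nu g0 K`) -/
structure PoiData (s : ℝ) : Prop where
  small : ∀ θ : ℝ, 0 ≤ θ → θ ≤ 3 / 20 →
    KO s (1 - 3 / 5 * θ) (3461 / 1600 - 1051 / 500 * θ) (-(1 / 20 * θ ^ 2))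
  k1 : KO s (8997 / 10000) (18089 / 10000) (-(189 / 100000))
  k2 : KO s (8671 / 10000) (16986 / 10000) (-(303 / 100000))
  k3 : KO s (8319 / 10000) (15822 / 10000) (-(419 / 100000))
  k4 : KO s (7970 / 10000) (14663 / 10000) (-(613 / 100000))
  k5 : KO s (7623 / 10000) (13550 / 10000) (-(720 / 100000))
  k6 : KO s (7284 / 10000) (12484 / 10000) (-(763 / 100000))
  k7 : KO s (6944 / 10000) (11416 / 10000) (-(843 / 100000))
  k8 : KO s (6562 / 10000) (10235 / 10000) (-(869 / 100000))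
  k9 : KO s (6227 / 10000) (9266 / 10000) (-(651 / 100000))
  a1 : LO s (5719 / 10000) (1471 / 10000) (4158 / 10000) (-(51 / 10000))
  a2 : LO s (4987 / 10000) (1104 / 10000) (4161 / 10000) (-(195 / 100000))
  a3 : LO s (4315 / 10000) (770 / 10000) (4200 / 10000) (-(247 / 100000))
  a4 : LO s (3576 / 10000) (406 / 10000) (4244 / 10000) (-(444 / 100000))
  a5 : LO s (2201 / 10000) (-(264 / 10000)) (4329 / 10000) (-(1753 / 100000))

/-- `b`-ary data, `5 ≤ b ≤ 9`: 11 knots -/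
structure RegData (s : ℝ) : Prop where
  small : ∀ θ : ℝ, 0 ≤ θ → θ ≤ 3 / 20 →
    KO s (1 - 3 / 5 * θ) (3461 / 1600 - 1051 / 500 * θ) (-(1 / 20 * θ ^ 2))
  k1 : KO s (9116 / 10000) (18418 / 10000) (-(236 / 100000))
  k2 : KO s (8880 / 10000) (17592 / 10000) (-(360 / 100000))
  k3 : KO s (8608 / 10000) (16649 / 10000) (-(530 / 100000))
  k4 : KO s (8296 / 10000) (15577 / 10000) (-(764 / 100000))
  k5 : KO s (7938 / 10000) (14366 / 10000) (-(1059 / 100000))
  k6 : KO s (7523 / 10000) (12965 / 10000) (-(1515 / 100000))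
  k7 : KO s (7014 / 10000) (11268 / 10000) (-(2173 / 100000))
  k8 : KO s (6325 / 10000) (9017 / 10000) (-(3109 / 100000))
  k9 : KO s (5247 / 10000) (5415 / 10000) (-(6679 / 100000))
  k10 : KO s (4054 / 10000) (2231 / 10000) (-(9817 / 100000))
  k11 : KO s (3350 / 10000) 0 (-(18721 / 100000))

/-- `b = 4` data: 3 knots -/
structure FourData (s : ℝ) : Prop where
  small : ∀ θ : ℝ, 0 ≤ θ → θ ≤ 3 / 20 →
    KO s (1 - 3 / 5 * θ) (3461 / 1600 - 1051 / 500 * θ) (-(1 / 20 * θ ^ 2))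
  k1 : KO s (9002 / 10000) (18027 / 10000) (-(348 / 100000))
  k2 : KO s (8603 / 10000) (16669 / 10000) (-(595 / 100000))
  k3 : KO s (8216 / 10000) (15368 / 10000) (-(908 / 100000))

end Crest.Agent.R163.KnP
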