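import Crest.Agent.R163.BxL
import Crest.Agent.R163.KnD

/-!
# Row 163: from the box engine to the data `PoiData`, `RegData`, `FourData`
-/

set_option autoImplicit false

namespace Crest.Agent.R163.Bx

open Kr

/-- the inequality of `κ` at `s` -/
def Pos (κ : Kn) (s : ℝ) : Prop :=
  ∀ c r : ℝ, 0 ≤ c → c ≤ 1 → 0 ≤ r → r ≤ 1 → 0 ≤ kf κ c r s

/-- centre only -/
def PosC (κ : Kn) (s : ℝ) : Prop :=
  ∀ c r : ℝ, 0 ≤ c → c ≤ 1 / 2 → 0 ≤ r → r ≤ 1 → 0 ≤ kf κ c r s

/-- outer part only -/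
def PosO (κ : Kn) (s : ℝ) : Prop :=
  ∀ c r : ℝ, 1 / 2 ≤ c → c ≤ 1 → 0 ≤ r → r ≤ 1 → 0 ≤ kf κ c r s

theorem knP1 {s : ℝ} (h : PosC kP1 s) : KnP.P1 s := by
  intro v hv hc
  have h1 := kg_of_kf_cen h v hv hc
  rw [kg_eq _ _ hv] at h1
  simp only [kP1, hr] at h1
  push_cast at h1
  unfold KnP.hs2 KnP.eta
  nlinarith [h1]

theorem knP2 {s : ℝ} (h : PosC kP2 s) : KnP.P2 s := by
  intro v hv hc
  have h1 := kg_of_kf_cen h v hv hc
  rw [kg_eq _ _ hv] at h1
  simp only [kP2, hr] at h1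
  push_cast at h1
  unfold KnP.hs2 KnP.ls2 KnP.eta
  nlinarith [h1]

theorem knP3 {s : ℝ} (h : PosO kP3 s) : KnP.P3 s := by
  intro v hv hc
  have h1 := kg_of_kf_out h v hv hc
  rw [kg_eq _ _ hv] at h1
  simp only [kP3, hr] at h1
  push_cast at h1
  unfold KnP.hs2
  nlinarith [h1]

theorem knP4 {s : ℝ} (h : PosO kP4 s) : KnP.P4 s := by
  intro v hv hc
  have h1 := kg_of_kf_out h v hv hc
  rw [kg_eq _ _ hv] at h1
  simp only [kP4, hr] at h1
  push_cast at h1
  unfold KnP.hs2 KnP.ls2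
  nlinarith [h1]

theorem knQ1 {s : ℝ} (h : Pos kQ1 s) : KnP.Q1 s := by
  intro v hv
  have h1 := kg_of_kf h v hv
  rw [kg_eq _ _ hv] at h1
  simp only [kQ1, hr] at h1
  push_cast at h1
  nlinarith [h1]

/-- the small regime -/
structure SmallPos (s : ℝ) : Prop where
  p1 : PosC kP1 s
  p2 : PosC kP2 s
  p3 : PosO kP3 s
  p4 : PosO kP4 s

theorem SmallPos.small {s : ℝ} (h : SmallPos s) : ∀ θ : ℝ, 0 ≤ θ → θ ≤ 3 / 20 →
    KnP.KO s (1 - 3 / 5 * θ) (3461 / 1600 - 1051 / 500 * θ) (-(1 / 20 * θ ^ 2)) :=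
  fun _ t0 t1 => KnP.small_KO (knP1 h.p1) (knP2 h.p2) (knP3 h.p3) (knP4 h.p4) t0 t1

theorem ko_of {x nu K : ℤ} {s : ℝ} (h : Pos (kKnot x nu K) s) :
    KnP.KO s ((x : ℝ) / 10000) ((nu : ℝ) / 10000) ((K : ℝ) / 100000) := knotOK_of_kf h

theorem lo_of {g0 x nu K : ℤ} {s : ℝ} (h : Pos (kLev g0 x nu K) s) :
    KnP.LO s ((x : ℝ) / 10000) ((nu : ℝ) / 10000) ((g0 : ℝ) / 10000) ((K : ℝ) / 100000) :=
  level_of_kf h

/-- data of the Poisson case -/
structure PoiPos (s : ℝ) : Prop where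
  small : SmallPos s
  k1 : Pos (kKnot 8997 18089 (-189)) s
  k2 : Pos (kKnot 8671 16986 (-303)) s
  k3 : Pos (kKnot 8319 15822 (-419)) s
  k4 : Pos (kKnot 7970 14663 (-613)) s
  k5 : Pos (kKnot 7623 13550 (-720)) s
  k6 : Pos (kKnot 7284 12484 (-763)) s
  k7 : Pos (kKnot 6944 11416 (-843)) s
  k8 : Pos (kKnot 6562 10235 (-869)) s
  k9 : Pos (kKnot 6227 9266 (-651)) s
  a1 : Pos (kLev 4158 5719 1471 (-510)) s
  a2 : Pos (kLev 4161 4987 1104 (-195)) s
  a3 : Pos (kLev 4200 4315 770 (-247)) s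
  a4 : Pos (kLev 4244 3576 406 (-444)) s
  a5 : Pos (kLev 4329 2201 (-264) (-1753)) s

theorem PoiPos.data {s : ℝ} (h : PoiPos s) : KnP.PoiData s where
  small := h.small.small
  k1 := by have := ko_of h.k1; norm_num at this ⊢; exact this
  k2 := by have := ko_of h.k2; norm_num at this ⊢; exact this
  k3 := by have := ko_of h.k3; norm_num at this ⊢; exact this
  k4 := by have := ko_of h.k4; norm_num at this ⊢; exact this
  k5 := by have := ko_of h.k5; norm_num at this ⊢; exact this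
  k6 := by have := ko_of h.k6; norm_num at this ⊢; exact this
  k7 := by have := ko_of h.k7; norm_num at this ⊢; exact this
  k8 := by have := ko_of h.k8; norm_num at this ⊢; exact this
  k9 := by have := ko_of h.k9; norm_num at this ⊢; exact this
  a1 := by have := lo_of h.a1; norm_num at this ⊢; exact this
  a2 := by have := lo_of h.a2; norm_num at this ⊢; exact this
  a3 := by have := lo_of h.a3; norm_num at this ⊢; exact this
  a4 := by have := lo_of h.a4; norm_num at this ⊢; exact this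
  a5 := by have := lo_of h.a5; norm_num at this ⊢; exact this

/-- data of the `b`-ary cases -/
structure RegPos (s : ℝ) : Prop where
  small : SmallPos s
  k1 : Pos (kKnot 9116 18418 (-236)) s
  k2 : Pos (kKnot 8880 17592 (-360)) s
  k3 : Pos (kKnot 8608 16649 (-530)) s
  k4 : Pos (kKnot 8296 15577 (-764)) s
  k5 : Pos (kKnot 7938 14366 (-1059)) s
  k6 : Pos (kKnot 7523 12965 (-1515)) s
  k7 : Pos (kKnot 7014 11268 (-2173)) s
  k8 : Pos (kKnot 6325 9017 (-3109)) s
  k9 : Pos (kKnot 5247 5415 (-6679)) s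
  k10 : Pos (kKnot 4054 2231 (-9817)) s
  k11 : Pos (kKnot 3350 0 (-18721)) s

theorem RegPos.data {s : ℝ} (h : RegPos s) : KnP.RegData s where
  small := h.small.small
  k1 := by have := ko_of h.k1; norm_num at this ⊢; exact this
  k2 := by have := ko_of h.k2; norm_num at this ⊢; exact this
  k3 := by have := ko_of h.k3; norm_num at this ⊢; exact this
  k4 := by have := ko_of h.k4; norm_num at this ⊢; exact this
  k5 := by have := ko_of h.k5; norm_num at this ⊢; exact this
  k6 := by have := ko_of h.k6; norm_num at this ⊢; exact this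
  k7 := by have := ko_of h.k7; norm_num at this ⊢; exact this
  k8 := by have := ko_of h.k8; norm_num at this ⊢; exact this
  k9 := by have := ko_of h.k9; norm_num at this ⊢; exact this
  k10 := by have := ko_of h.k10; norm_num at this ⊢; exact this
  k11 := by have := ko_of h.k11; norm_num at this ⊢; exact this

/-- data of `b = 4` -/
structure FourPos (s : ℝ) : Prop where
  small : SmallPos s
  k1 : Pos (kKnot 9002 18027 (-348)) s
  k2 : Pos (kKnot 8603 16669 (-595)) s
  k3 : Pos (kKnot 8216 15368 (-908)) s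
  q1 : Pos kQ1 s

theorem FourPos.data {s : ℝ} (h : FourPos s) : KnP.FourData s where
  small := h.small.small
  k1 := by have := ko_of h.k1; norm_num at this ⊢; exact this
  k2 := by have := ko_of h.k2; norm_num at this ⊢; exact this
  k3 := by have := ko_of h.k3; norm_num at this ⊢; exact this

end Crest.Agent.R163.Bx
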