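import Crest.Agent.R163.BxC

/-!
# Row 163: box engine with sharper products

Same as `BxB`, `BxC`, but the error of a product uses upper bounds `ub` of `|x ^ (a + i th)|` on the entries.
-/

set_option autoImplicit false
set_option maxHeartbeats 400000

namespace Crest.Agent.R163.Bx

open Kr BxW

/-- product with (scaled) bounds of the values -/
def Enc.mulU (u v : ℕ) (E F : Enc) : Enc :=
  ⟨.mul E.P F.P, .add (.mul (.c u) F.e) (.mul (.add (.c v) F.e) E.e)⟩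

theorem Enc.ok_mulU {k l u v : ℕ} {E F : Enc} {a b x y z : ℝ} (h : E.ok k a x y z)
    (h' : F.ok l b x y z) (ha : |a| * S ^ k ≤ u) (hb : |b| * S ^ l ≤ v) :
    (E.mulU u v F).ok (k + l) (a * b) x y z := by
  unfold Enc.ok Enc.mulU at *
  simp only [E3.ev]
  have hS : 0 < S := S_pos
  have e : a * b * S ^ (k + l) - E.P.ev x y z * F.P.ev x y z =
      a * S ^ k * (b * S ^ l - F.P.ev x y z) + F.P.ev x y z * (a * S ^ k - E.P.ev x y z) := by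
    rw [pow_add]; ring
  have h1 : |F.P.ev x y z| ≤ v + F.e.ev x y z := by
    have : F.P.ev x y z = b * S ^ l - (b * S ^ l - F.P.ev x y z) := by ring
    rw [this]
    refine (abs_sub _ _).trans (add_le_add ?_ h')
    rw [abs_mul, abs_of_pos (pow_pos hS l)]
    exact hb
  have h2 : |a * S ^ k| ≤ u := by
    rw [abs_mul, abs_of_pos (pow_pos hS k)]
    exact ha
  have hu : (0 : ℝ) ≤ u := by positivity
  have hc : (0 : ℝ) ≤ v + F.e.ev x y z := le_trans (abs_nonneg _) h1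
  rw [e]
  refine (abs_add_le _ _).trans ?_
  rw [abs_mul (a * S ^ k), abs_mul (F.P.ev x y z)]
  refine (add_le_add (mul_le_mul h2 h' (abs_nonneg _) hu) (mul_le_mul h1 h (abs_nonneg _) hc)).trans
    (le_of_eq ?_)
  push_cast
  ring

/-- upper bound of `x ^ a` (scaled) on an entry -/
def WD.ub (f : ℕ) : WD → ℕ
  | .mk m t _ Nm => (SN * (n1 (kc f m t) + 2 ^ 12) * (2 * m + Nm) / (2 ^ 40 * (2 * m))).toNat + 1
  | .bot m t => (eB f m t).toNat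
  | .cen _ => 5 * SN / 4 + 1

/-- bound of the constant -/
theorem ca_le (f m t : ℕ) (hm : 64 ≤ m) (hm' : m ≤ 128) (ht : 5 ≤ t) (ht' : t ≤ 49) :
    ((m : ℝ) / 2 ^ t) ^ ((exA f : ℝ) / 100) ≤ ((n1 (kc f m t) : ℝ) + 2 ^ 12) / 2 ^ 40 := by
  have hm0 : (0 : ℝ) < m := by
    have : 0 < m := by omega
    exact_mod_cast this
  have hc0 : (0 : ℝ) < (m : ℝ) / 2 ^ t := by positivity
  have hkc := kc_sound f m t hm hm' ht ht'
  set K : ℂ := gc (kc f m t) / 2 ^ 40 with hK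
  rw [← norm_cx _ ((exB f : ℝ) / 100) _ hc0.le]
  have h1 : ‖cx (exA f / 100) (exB f / 100) ((m : ℝ) / 2 ^ t)‖ ≤ ‖K‖ + 1 / 2 ^ 28 := by
    calc ‖cx (exA f / 100) (exB f / 100) ((m : ℝ) / 2 ^ t)‖ =
        ‖K + (cx (exA f / 100) (exB f / 100) ((m : ℝ) / 2 ^ t) - K)‖ := by congr 1; ring
      _ ≤ ‖K‖ + ‖cx (exA f / 100) (exB f / 100) ((m : ℝ) / 2 ^ t) - K‖ := norm_add_le _ _
      _ ≤ _ := by linarith
  have h2 : ‖K‖ ≤ (n1 (kc f m t) : ℝ) / 2 ^ 40 := by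
    rw [hK, norm_div]
    have : ‖(2 ^ 40 : ℂ)‖ = 2 ^ 40 := by simp
    rw [this]
    gcongr
    exact n1_norm _
  have h3 : ((n1 (kc f m t) : ℝ) + 2 ^ 12) / 2 ^ 40 = (n1 (kc f m t) : ℝ) / 2 ^ 40 + 1 / 2 ^ 28 := by
    ring
  linarith

theorem bot_norm (f m t : ℕ) (hm : 64 ≤ m) (hm' : m ≤ 128) (ht : 5 ≤ t) (ht' : t ≤ 49)
    (x : ℝ) (hx0 : 0 ≤ x) (hx : 2 ^ t * x ≤ m) : x ^ ((exA f : ℝ) / 100) * S ≤ eB f m t := by
  obtain ⟨hA0, hA50, hB0, hB47⟩ := exAB f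
  have ha0 : (0 : ℝ) ≤ (exA f : ℝ) / 100 := by
    have : (0 : ℝ) ≤ exA f := by exact_mod_cast hA0
    positivity
  have h2t : (0 : ℝ) < 2 ^ t := by positivity
  have hS := S_pos
  have hxc : x ≤ (m : ℝ) / 2 ^ t := by
    rw [le_div_iff₀ h2t]; linarith
  have h1 : x ^ ((exA f : ℝ) / 100) ≤ ((m : ℝ) / 2 ^ t) ^ ((exA f : ℝ) / 100) :=
    Real.rpow_le_rpow hx0 hxc ha0
  have g1 := (idiv_bd (SN * (n1 (kc f m t) + 2 ^ 12)) (2 ^ 40) (by norm_num)).2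
  unfold eB
  rw [Int.cast_add _ (1 : ℤ)]
  push_cast at g1 ⊢
  refine le_trans ?_ g1
  calc x ^ ((exA f : ℝ) / 100) * S ≤ ((n1 (kc f m t) : ℝ) + 2 ^ 12) / 2 ^ 40 * S :=
        mul_le_mul_of_nonneg_right (h1.trans (ca_le f m t hm hm' ht ht')) hS.le
    _ = _ := by simp only [S]; ring

theorem toNat_le_cast {z : ℤ} : (z : ℝ) ≤ (z.toNat : ℝ) := by
  have : z ≤ (z.toNat : ℤ) := Int.self_le_toNat z
  exact_mod_cast this

theorem WD.ub_valid (d : WD) (h : d.ok = true) (f : ℕ) (X : ℝ) (hX : 0 ≤ X)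
    (h2 : d.we.dd * X ≤ d.we.hn) :
    ‖cx (exA f / 100) (exB f / 100) (X / 2)‖ * S ≤ (d.ub f : ℝ) := by
  obtain ⟨hA0, hA50, hB0, hB47⟩ := exAB f
  have ha0 : (0 : ℝ) ≤ (exA f : ℝ) / 100 := by
    have : (0 : ℝ) ≤ exA f := by exact_mod_cast hA0
    positivity
  have ha2 : (exA f : ℝ) / 100 ≤ 1 / 2 := by
    have : (exA f : ℝ) ≤ 50 := by exact_mod_cast hA50
    linarith
  have hS := S_pos
  have hx0 : 0 ≤ X / 2 := by linarith
  rw [norm_cx _ _ _ hx0]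
  cases d with
  | mk m t n Nm =>
    simp only [WD.ok, mkOK, Bool.and_eq_true, Nat.ble_eq, Nat.blt_eq] at h
    obtain ⟨⟨⟨⟨hm, hm'⟩, ht⟩, ht'⟩, hN⟩ := h
    have hm0 : (0 : ℝ) < m := by
      have : 0 < m := by omega
      exact_mod_cast this
    have e2 : (2 : ℝ) ^ t = 2 * 2 ^ (t - 1) := by
      rw [← pow_succ', show t - 1 + 1 = t by omega]
    have h2t : (0 : ℝ) < 2 ^ t := by positivity
    have hc0 : (0 : ℝ) < (m : ℝ) / 2 ^ t := by positivity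
    have hxc : X / 2 ≤ (m : ℝ) / 2 ^ t * (1 + Nm / m) := by
      simp only [WD.we, mkWE] at h2
      push_cast at h2
      have e3 : (m : ℝ) / 2 ^ t * (1 + Nm / m) = (m + Nm) / 2 ^ t := by field_simp
      rw [e3, le_div_iff₀ h2t, e2]
      linarith
    have hr0 : (0 : ℝ) ≤ (Nm : ℝ) / m := by positivity
    have h3 : (X / 2) ^ ((exA f : ℝ) / 100) ≤
        ((m : ℝ) / 2 ^ t) ^ ((exA f : ℝ) / 100) * ((2 * m + Nm) / (2 * m)) := by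
      refine (Real.rpow_le_rpow hx0 hxc ha0).trans ?_
      rw [Real.mul_rpow hc0.le (by positivity)]
      refine mul_le_mul_of_nonneg_left ?_ (Real.rpow_nonneg hc0.le _)
      refine (rpow_one_add_le_one_add_mul_self (by linarith) ha0 (by linarith)).trans ?_
      have e4 : ((2 : ℝ) * m + Nm) / (2 * m) = 1 + 1 / 2 * (Nm / m) := by field_simp
      rw [e4]
      nlinarith
    have hca := ca_le f m t hm hm' ht ht'
    have g1 := (idiv_bd (SN * (n1 (kc f m t) + 2 ^ 12) * (2 * m + Nm)) (2 ^ 40 * (2 * m))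
      (by have : (0 : ℤ) < m := by omega
          positivity)).2
    have g2 : (X / 2) ^ ((exA f : ℝ) / 100) * S ≤
        ((SN * (n1 (kc f m t) + 2 ^ 12) * (2 * m + Nm) : ℤ) : ℝ) / ((2 ^ 40 * (2 * m) : ℤ) : ℝ) := by
      calc _ ≤ (((n1 (kc f m t) : ℝ) + 2 ^ 12) / 2 ^ 40 * ((2 * m + Nm) / (2 * m))) * S := by
            refine mul_le_mul_of_nonneg_right (h3.trans ?_) hS.le
            exact mul_le_mul_of_nonneg_right hca (by positivity)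
        _ = _ := by
            simp only [S]
            push_cast
            field_simp
            ring
    refine (g2.trans g1).trans ?_
    simp only [WD.ub]
    push_cast
    have := toNat_le_cast (z := SN * (n1 (kc f m t) + 2 ^ 12) * (2 * m + Nm) / (2 ^ 40 * (2 * m)))
    push_cast at this
    linarith
  | bot m t =>
    simp only [WD.ok, mkOK, Bool.and_eq_true, Nat.ble_eq, Nat.blt_eq] at h
    obtain ⟨⟨⟨⟨hm, hm'⟩, ht⟩, ht'⟩, hN⟩ := h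
    have e2 : (2 : ℝ) ^ t = 2 * 2 ^ (t - 1) := by
      rw [← pow_succ', show t - 1 + 1 = t by omega]
    have hx : 2 ^ t * (X / 2) ≤ (m : ℝ) := by
      simp only [WD.we, botWE] at h2
      push_cast at h2
      have e3 : (2 : ℝ) ^ t * (X / 2) = 2 ^ (t - 1) * X := by rw [e2]; ring
      rw [e3]; exact h2
    have h1 := bot_norm f m t hm hm' ht ht' (X / 2) hx0 hx
    refine h1.trans ?_
    simp only [WD.ub]
    exact toNat_le_cast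
  | cen n =>
    have hx : X / 2 ≤ 1 + 1 / 2 := by
      simp only [WD.we, cenWE] at h2
      push_cast at h2
      linarith
    have h3 : (X / 2) ^ ((exA f : ℝ) / 100) ≤ 5 / 4 := by
      refine (Real.rpow_le_rpow hx0 hx ha0).trans ?_
      refine (rpow_one_add_le_one_add_mul_self (by norm_num) ha0 (by linarith)).trans ?_
      linarith
    have h4 : ((5 * SN / 4 + 1 : ℕ) : ℝ) ≥ 5 / 4 * S := by
      have : 5 * SN ≤ (5 * SN / 4 + 1) * 4 := by omega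
      have h5 : (5 : ℝ) * SN ≤ ((5 * SN / 4 + 1 : ℕ) : ℝ) * 4 := by exact_mod_cast this
      simp only [S]
      linarith
    simp only [WD.ub]
    exact (mul_le_mul_of_nonneg_right h3 hS.le).trans h4


/-! ### the four sums -/

/-- `A1 A1 + B1 B1` -/
def pr2U (d d' : WD) (F F' : E3) : Enc :=
  ((d.we.a1 F).mulU (d.ub 0) (d'.ub 0) (d'.we.a1 F')).add
    ((d.we.b1 F).mulU (d.ub 0) (d'.ub 0) (d'.we.b1 F'))

/-- `A0 A0 + B0 B0` -/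
def pr0U (d d' : WD) (F F' : E3) : Enc :=
  ((d.we.a0 F).mulU (d.ub 1) (d'.ub 1) (d'.we.a0 F')).add
    ((d.we.b0 F).mulU (d.ub 1) (d'.ub 1) (d'.we.b0 F'))

/-- `C0 (A0 A0 + B0 B0)` -/
def tr3U (g d d' : WD) (E F F' : E3) : Enc :=
  (g.we.c0 E).mulU (g.ub 2) (d.ub 1 * d'.ub 1) (pr0U d d' F F')

def prEU (d : Fin 3 → WD) (F : Fin 3 → E3) : Enc :=
  ((pr2U (d 0) (d 1) (F 0) (F 1)).add (pr2U (d 1) (d 2) (F 1) (F 2))).add
    (pr2U (d 2) (d 0) (F 2) (F 0))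

def trEU (d : Fin 3 → WD) (F : Fin 3 → E3) : Enc :=
  ((tr3U (d 0) (d 1) (d 2) (F 0) (F 1) (F 2)).add (tr3U (d 1) (d 2) (d 0) (F 1) (F 2) (F 0))).add
    (tr3U (d 2) (d 0) (d 1) (F 2) (F 0) (F 1))

/-- enclosure data of three numbers -/
structure Ok3U (d : Fin 3 → WD) (F : Fin 3 → E3) (x y z : ℝ) (p : Fin 3 → ℝ) : Prop where
  ok : ∀ i, ((d i).we.a1 (F i)).ok 1 (A1 (p i)) x y z ∧ ((d i).we.b1 (F i)).ok 1 (B1 (p i)) x y z ∧
    ((d i).we.a0 (F i)).ok 1 (A0 (p i)) x y z ∧ ((d i).we.b0 (F i)).ok 1 (B0 (p i)) x y z ∧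
    ((d i).we.c0 (F i)).ok 1 (C0 (p i)) x y z
  nb : ∀ i f, ‖cx (exA f / 100) (exB f / 100) (p i)‖ * S ≤ ((d i).ub f : ℝ)

section
variable {d : Fin 3 → WD} {F : Fin 3 → E3} {x y z : ℝ} {p : Fin 3 → ℝ}

theorem Ok3U.A1 (h : Ok3U d F x y z p) (i : Fin 3) : |A1 (p i)| * S ^ 1 ≤ ((d i).ub 0 : ℝ) := by
  rw [pow_one, A1_eq]
  exact (mul_le_mul_of_nonneg_right (Complex.abs_re_le_norm _) S_pos.le).trans (h.nb i 0)
theorem Ok3U.B1 (h : Ok3U d F x y z p) (i : Fin 3) : |B1 (p i)| * S ^ 1 ≤ ((d i).ub 0 : ℝ) := by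
  rw [pow_one, B1_eq]
  exact (mul_le_mul_of_nonneg_right (Complex.abs_im_le_norm _) S_pos.le).trans (h.nb i 0)
theorem Ok3U.A0 (h : Ok3U d F x y z p) (i : Fin 3) : |A0 (p i)| * S ^ 1 ≤ ((d i).ub 1 : ℝ) := by
  rw [pow_one, A0_eq]
  exact (mul_le_mul_of_nonneg_right (Complex.abs_re_le_norm _) S_pos.le).trans (h.nb i 1)
theorem Ok3U.B0 (h : Ok3U d F x y z p) (i : Fin 3) : |B0 (p i)| * S ^ 1 ≤ ((d i).ub 1 : ℝ) := by
  rw [pow_one, B0_eq]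
  exact (mul_le_mul_of_nonneg_right (Complex.abs_im_le_norm _) S_pos.le).trans (h.nb i 1)
theorem Ok3U.C0 (h : Ok3U d F x y z p) (i : Fin 3) : |C0 (p i)| * S ^ 1 ≤ ((d i).ub 2 : ℝ) := by
  rw [pow_one, C0_eq]
  exact (mul_le_mul_of_nonneg_right (Complex.abs_re_le_norm _) S_pos.le).trans (h.nb i 2)

theorem Ok3U.pr2 (h : Ok3U d F x y z p) (i j : Fin 3) :
    (pr2U (d i) (d j) (F i) (F j)).ok 2 (Bx.A1 (p i) * Bx.A1 (p j) + Bx.B1 (p i) * Bx.B1 (p j)) x y z :=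
  Enc.ok_add (Enc.ok_mulU (h.ok i).1 (h.ok j).1 (h.A1 i) (h.A1 j))
    (Enc.ok_mulU (h.ok i).2.1 (h.ok j).2.1 (h.B1 i) (h.B1 j))

theorem Ok3U.pr0 (h : Ok3U d F x y z p) (i j : Fin 3) :
    (pr0U (d i) (d j) (F i) (F j)).ok 2 (Bx.A0 (p i) * Bx.A0 (p j) + Bx.B0 (p i) * Bx.B0 (p j)) x y z :=
  Enc.ok_add (Enc.ok_mulU (h.ok i).2.2.1 (h.ok j).2.2.1 (h.A0 i) (h.A0 j))
    (Enc.ok_mulU (h.ok i).2.2.2.1 (h.ok j).2.2.2.1 (h.B0 i) (h.B0 j))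

theorem Ok3U.pb (h : Ok3U d F x y z p) (i j : Fin 3) :
    |Bx.A0 (p i) * Bx.A0 (p j) + Bx.B0 (p i) * Bx.B0 (p j)| * S ^ 2 ≤
      (((d i).ub 1 * (d j).ub 1 : ℕ) : ℝ) := by
  have hS := S_pos
  set u := cx (exA 1 / 100) (exB 1 / 100) (p i) with hu
  set v := cx (exA 1 / 100) (exB 1 / 100) (p j) with hv
  have e : Bx.A0 (p i) * Bx.A0 (p j) + Bx.B0 (p i) * Bx.B0 (p j) =
      (u * (starRingEnd ℂ) v).re := by
    rw [A0_eq, A0_eq, B0_eq, B0_eq, ← hu, ← hv, Complex.mul_re, Complex.conj_re, Complex.conj_im]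
    ring
  have h1 : |Bx.A0 (p i) * Bx.A0 (p j) + Bx.B0 (p i) * Bx.B0 (p j)| ≤ ‖u‖ * ‖v‖ := by
    rw [e]
    refine (Complex.abs_re_le_norm _).trans (le_of_eq ?_)
    rw [norm_mul, Complex.norm_conj]
  have h2 := h.nb i 1
  have h3 := h.nb j 1
  rw [← hu] at h2
  rw [← hv] at h3
  push_cast
  calc _ ≤ ‖u‖ * ‖v‖ * S ^ 2 := mul_le_mul_of_nonneg_right h1 (by positivity)
    _ = (‖u‖ * S) * (‖v‖ * S) := by ring
    _ ≤ _ := mul_le_mul h2 h3 (by positivity) (by positivity)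

theorem Ok3U.tr3 (h : Ok3U d F x y z p) (l i j : Fin 3) :
    (tr3U (d l) (d i) (d j) (F l) (F i) (F j)).ok 3
      (Bx.C0 (p l) * (Bx.A0 (p i) * Bx.A0 (p j) + Bx.B0 (p i) * Bx.B0 (p j))) x y z :=
  Enc.ok_mulU (h.ok l).2.2.2.2 (h.pr0 i j) (h.C0 l) (h.pb i j)

theorem Ok3U.prE (h : Ok3U d F x y z p) : (prEU d F).ok 2 (pr p) x y z :=
  Enc.ok_add (Enc.ok_add (h.pr2 0 1) (h.pr2 1 2)) (h.pr2 2 0)

theorem Ok3U.trE (h : Ok3U d F x y z p) : (trEU d F).ok 3 (tr p) x y z :=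
  Enc.ok_add (Enc.ok_add (h.tr3 0 1 2) (h.tr3 1 2 0)) (h.tr3 2 0 1)

end

/-- final step -/
theorem fin_sound {κ : Kn} {P Q P' Q' : Enc} {k : ℕ} {I J K : Iv} {x y z : ℝ}
    (hx : I.mem x) (hy : J.mem y) (hz : K.mem z)
    (kP : P.ok 2 (pr (vP x y z)) x y z) (kQ : Q.ok 2 (pr (vQ x y z)) x y z)
    (kP' : P'.ok 3 (tr (vP x y z)) x y z) (kQ' : Q'.ok 3 (tr (vQ x y z)) x y z)
    (hf : kr (finE κ P Q P' Q') I J K k = true) : 0 ≤ kf κ x y z := by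
  have h1 := sgE_le (c := κ.c1) (Enc.ok_up kP)
  have h2 := sgE_le (c := κ.c0) kP'
  have h3 := sgE_le (c := κ.t1) (Enc.ok_up kQ)
  have h4 := sgE_le (c := κ.t0) kQ'
  have hfin := kr_sound hf hx hy hz
  simp only [Nat.reduceAdd] at h1 h3
  have hS : 0 < S ^ 3 := pow_pos S_pos 3
  have hz2 : 0 ≤ z ^ 2 := sq_nonneg z
  have hm : m2E.ev x y z = x ^ 2 * (4 - 6 * y + 3 * y ^ 2) := by
    simp only [m2E, E3.ev]; push_cast; ring
  simp only [finE, E3.ev, ev_hE, hm] at hfin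
  push_cast at hfin
  have hSN : ((SN : ℕ) : ℝ) = S := rfl
  simp only [hSN] at hfin
  have key : 0 ≤ kf κ x y z * S ^ 3 := by
    unfold kf
    have e5 := mul_le_mul_of_nonneg_left (add_le_add h1 h2) hz2
    nlinarith
  by_contra hneg
  push Not at hneg
  nlinarith

def Lf.d (l : Lf) : Fin 3 → WD
  | 0 => l.p0
  | 1 => l.p1
  | 2 => l.p2

def Lf.d' (l : Lf) : Fin 3 → WD
  | 0 => l.q0
  | 1 => l.q1
  | 2 => l.q2

/-- the check of a leaf -/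
def lfOKU (L : List Kn) (I J K : Iv) (l : Lf) : Bool :=
  (l.p0.ok && l.p1.ok && l.p2.ok && l.q0.ok && l.q1.ok && l.q2.ok) &&
  (inI (l.p0.we) (FP 0) I J K && inI (l.p1.we) (FP 1) I J K && inI (l.p2.we) (FP 2) I J K &&
  inI (l.q0.we) (FQ 0) I J K && inI (l.q1.we) (FQ 1) I J K && inI (l.q2.we) (FQ 2) I J K) &&
  (Nat.ble 1 I.D && Nat.ble 1 J.D && Nat.ble 1 K.D && Nat.ble 2 l.k &&
  decide (0 < I.C) && decide (0 < J.C) && decide (0 < K.C)) &&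
  krL (kpt I J K (2 ^ l.k) (2 ^ (l.k * (l.m₁ + 1))) (2 ^ (l.k * ((l.m₁ + 1) * (l.m₂ + 1)))))
    (apt I J K) l.k l.m₁ l.m₂ l.m₃ (prEU l.d FP) (prEU l.d' FQ) (trEU l.d FP) (trEU l.d' FQ) L

/-- **soundness of a leaf** -/
theorem Cov.leafU {L : List Kn} {I J K : Iv} (l : Lf) (h : lfOKU L I J K l = true) :
    Cov L I J K := by
  unfold lfOKU at h
  rw [Bool.and_eq_true, Bool.and_eq_true, Bool.and_eq_true] at h
  obtain ⟨⟨⟨hv, hi⟩, hc⟩, hL⟩ := h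
  simp only [Bool.and_eq_true] at hv hi
  obtain ⟨⟨⟨⟨⟨v0, v1⟩, v2⟩, v3⟩, v4⟩, v5⟩ := hv
  obtain ⟨⟨⟨⟨⟨i0, i1⟩, i2⟩, i3⟩, i4⟩, i5⟩ := hi
  intro κ hκ x y z hx hx' hy hy' hz hz' hI hJ hK
  have hP := vP_range hx hx' hy hy' (z := z)
  have hQ := vQ_range hx hx' hy hy' hz hz'
  have ok1 : ∀ (d : WD) (hd : d.ok = true) (F : E3) (hin : inI d.we F I J K = true)
      (p : ℝ) (hp : p = F.ev x y z / 2) (h0 : 0 ≤ p) (h3 : p ≤ 3),
      ((d.we.a1 F).ok 1 (A1 p) x y z ∧ (d.we.b1 F).ok 1 (B1 p) x y z ∧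
        (d.we.a0 F).ok 1 (A0 p) x y z ∧ (d.we.b0 F).ok 1 (B0 p) x y z ∧
        (d.we.c0 F).ok 1 (C0 p) x y z) ∧
      ∀ f, ‖cx (exA f / 100) (exB f / 100) p‖ * S ≤ (d.ub f : ℝ) := by
    intro d hd F hin p hp h0 h3
    subst hp
    have hi := inI_sound hin hI hJ hK
    refine ⟨ok_all (d.valid hd) (by linarith) (by linarith) hi.1 hi.2, fun f => ?_⟩
    exact d.ub_valid hd f _ (by linarith) hi.2
  have kP : Ok3U l.d FP x y z (vP x y z) :=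
    ⟨fun i => match i with
      | 0 => (ok1 l.p0 v0 (FP 0) i0 _ rfl (hP 0).1 (hP 0).2).1
      | 1 => (ok1 l.p1 v1 (FP 1) i1 _ rfl (hP 1).1 (hP 1).2).1
      | 2 => (ok1 l.p2 v2 (FP 2) i2 _ rfl (hP 2).1 (hP 2).2).1,
     fun i => match i with
      | 0 => (ok1 l.p0 v0 (FP 0) i0 _ rfl (hP 0).1 (hP 0).2).2
      | 1 => (ok1 l.p1 v1 (FP 1) i1 _ rfl (hP 1).1 (hP 1).2).2
      | 2 => (ok1 l.p2 v2 (FP 2) i2 _ rfl (hP 2).1 (hP 2).2).2⟩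
  have kQ : Ok3U l.d' FQ x y z (vQ x y z) :=
    ⟨fun i => match i with
      | 0 => (ok1 l.q0 v3 (FQ 0) i3 _ rfl (hQ 0).1 (hQ 0).2).1
      | 1 => (ok1 l.q1 v4 (FQ 1) i4 _ rfl (hQ 1).1 (hQ 1).2).1
      | 2 => (ok1 l.q2 v5 (FQ 2) i5 _ rfl (hQ 2).1 (hQ 2).2).1,
     fun i => match i with
      | 0 => (ok1 l.q0 v3 (FQ 0) i3 _ rfl (hQ 0).1 (hQ 0).2).2
      | 1 => (ok1 l.q1 v4 (FQ 1) i4 _ rfl (hQ 1).1 (hQ 1).2).2
      | 2 => (ok1 l.q2 v5 (FQ 2) i5 _ rfl (hQ 2).1 (hQ 2).2).2⟩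
  exact fin_sound hI hJ hK kP.prE kQ.prE kP.trE kQ.trE (kr_of_krm hc (krL_mem hL hκ))

/-- union of two lists -/
theorem Cov.un {L L₁ L₂ : List Kn} {I J K : Iv} (h₁ : Cov L₁ I J K) (h₂ : Cov L₂ I J K)
    (h : ∀ κ ∈ L, κ ∈ L₁ ∨ κ ∈ L₂) : Cov L I J K := fun κ hκ =>
  (h κ hκ).elim (h₁ κ) (h₂ κ)

end Crest.Agent.R163.Bx
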