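import Crest.Agent.R163.BxU
import Crest.Agent.R163.BxM

/-!
# Row 163: from coverings to positivity
-/

set_option autoImplicit false

namespace Crest.Agent.R163.Bx

open Kr

theorem Cov.pos {L : List Kn} {K : Iv} (h : Cov L ⟨0, 1, 1⟩ ⟨0, 1, 1⟩ K) {κ : Kn} (hκ : κ ∈ L)
    {s : ℝ} (hs0 : 0 ≤ s) (hs1 : s ≤ 1 / 2) (hK : K.mem s) : Pos κ s := by
  intro c r hc hc1 hr hr1
  refine h κ hκ c r s hc hc1 hr hr1 hs0 hs1 ⟨?_, ?_⟩ ⟨?_, ?_⟩ hK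
  · simpa using hc
  · simpa using hc1
  · simpa using hr
  · simpa using hr1

theorem Cov.posC {L : List Kn} {K : Iv} (h : Cov L ⟨0, 1, 2⟩ ⟨0, 1, 1⟩ K) {κ : Kn} (hκ : κ ∈ L)
    {s : ℝ} (hs0 : 0 ≤ s) (hs1 : s ≤ 1 / 2) (hK : K.mem s) : PosC κ s := by
  intro c r hc hc1 hr hr1
  refine h κ hκ c r s hc (by linarith) hr hr1 hs0 hs1 ⟨?_, ?_⟩ ⟨?_, ?_⟩ hK
  · simpa using hc
  · norm_num; linarith
  · simpa using hr
  · simpa using hr1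

theorem Cov.posO {L : List Kn} {K : Iv} (h : Cov L ⟨1, 1, 2⟩ ⟨0, 1, 1⟩ K) {κ : Kn} (hκ : κ ∈ L)
    {s : ℝ} (hs0 : 0 ≤ s) (hs1 : s ≤ 1 / 2) (hK : K.mem s) : PosO κ s := by
  intro c r hc hc1 hr hr1
  refine h κ hκ c r s (by linarith) hc1 hr hr1 hs0 hs1 ⟨?_, ?_⟩ ⟨?_, ?_⟩ hK
  · norm_num; linarith
  · norm_num; linarith
  · simpa using hr
  · simpa using hr1

theorem mem_half : (⟨524287, 1, 1048576⟩ : Iv).mem (1 / 2) := by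
  constructor <;> norm_num

end Crest.Agent.R163.Bx
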