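import Mathlib

/-!
# Complex powers `x ^ (a + i th)` on intervals: Taylor polynomials with remainder

`cx a th x = x ^ a * (cos (th * log x) + i sin (th * log x))`, `cbin a th k` the binomial coefficient.
-/

set_option autoImplicit false

namespace Crest.Agent.R163.BxW

open Finset

/-- `x ^ (a + i th)` for `x ≥ 0` (value `0` at `0` if `a ≠ 0`) -/
noncomputable def cx (a th x : ℝ) : ℂ :=
  ⟨x ^ a * Real.cos (th * Real.log x), x ^ a * Real.sin (th * Real.log x)⟩

/-- binomial coefficient of `a + i th` -/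
noncomputable def cbin (a th : ℝ) (k : ℕ) : ℂ := ∏ i ∈ range k, ((⟨a - i, th⟩ : ℂ) / ((i : ℂ) + 1))

theorem ext_aux (a th x : ℝ) : cx a th x = ((x ^ a : ℝ) : ℂ) *
    (((Real.cos (th * Real.log x) : ℝ) : ℂ) + ((Real.sin (th * Real.log x) : ℝ) : ℂ) * Complex.I) := by
  apply Complex.ext
  · rw [Complex.re_ofReal_mul]
    simp only [cx, Complex.add_re, Complex.ofReal_re, Complex.mul_re, Complex.I_re, Complex.I_im,
      Complex.ofReal_im, mul_zero, zero_mul, sub_zero, add_zero]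
  · rw [Complex.im_ofReal_mul]
    simp only [cx, Complex.add_im, Complex.ofReal_im, Complex.mul_im, Complex.I_re, Complex.I_im,
      Complex.ofReal_re, mul_one, zero_add, add_zero, mul_zero]

theorem cx_eq_exp (a th x : ℝ) (hx : 0 < x) :
    cx a th x = Complex.exp ((⟨a, th⟩ : ℂ) * (Real.log x : ℂ)) := by
  have h : (⟨a, th⟩ : ℂ) * (Real.log x : ℂ) =
      ((a * Real.log x : ℝ) : ℂ) + ((th * Real.log x : ℝ) : ℂ) * Complex.I := by
    apply Complex.ext <;> simp
  rw [h, Complex.exp_add, Complex.exp_mul_I, ← Complex.ofReal_exp, ← Complex.ofReal_cos,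
    ← Complex.ofReal_sin]
  have h2 : Real.exp (a * Real.log x) = x ^ a := by
    rw [Real.rpow_def_of_pos hx, mul_comm]
  rw [h2]
  exact ext_aux a th x

theorem cx_mul (a th x y : ℝ) (hx : 0 < x) (hy : 0 < y) : cx a th (x * y) = cx a th x * cx a th y := by
  rw [cx_eq_exp a th x hx, cx_eq_exp a th y hy, cx_eq_exp a th (x * y) (mul_pos hx hy),
    ← Complex.exp_add, Real.log_mul hx.ne' hy.ne']
  congr 1
  push_cast
  ring

theorem cx_one (a th : ℝ) : cx a th 1 = 1 := by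
  apply Complex.ext <;> simp [cx]

theorem norm_cx (a th x : ℝ) (hx : 0 ≤ x) : ‖cx a th x‖ = x ^ a := by
  have h0 : 0 ≤ x ^ a := Real.rpow_nonneg hx a
  have h : cx a th x = ((x ^ a : ℝ) : ℂ) * Complex.exp (((th * Real.log x : ℝ) : ℂ) * Complex.I) := by
    rw [Complex.exp_mul_I, ← Complex.ofReal_cos, ← Complex.ofReal_sin]
    exact ext_aux a th x
  rw [h, norm_mul, Complex.norm_exp_ofReal_mul_I, mul_one, Complex.norm_real, Real.norm_eq_abs,
    abs_of_nonneg h0]

/-- real part of the product of one power with the conjugate of another one -/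
theorem re_mul_conj (a th x y : ℝ) :
    (cx a th x).re * (cx a th y).re + (cx a th x).im * (cx a th y).im =
      x ^ a * y ^ a * Real.cos (th * (Real.log x - Real.log y)) := by
  rw [mul_sub, Real.cos_sub]
  simp only [cx]
  ring

theorem cx_zero_th (a x : ℝ) : (cx a 0 x).re = x ^ a ∧ (cx a 0 x).im = 0 := by
  simp [cx]

theorem cbin_zero (a th : ℝ) : cbin a th 0 = 1 := by simp [cbin]

theorem cbin_succ (a th : ℝ) (k : ℕ) :
    cbin a th (k + 1) = cbin a th k * ((⟨a - k, th⟩ : ℂ) / ((k : ℂ) + 1)) := by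
  unfold cbin
  rw [prod_range_succ]

/-- Taylor polynomial at `1` -/
noncomputable def tay (a th : ℝ) (n : ℕ) (z : ℝ) : ℂ := ∑ k ∈ range (n + 1), cbin a th k * (z : ℂ) ^ k

/-- derivative of the Taylor polynomial -/
theorem tay_deriv (a th : ℝ) (n : ℕ) (t : ℝ) : ∃ T' : ℂ,
    HasDerivAt (fun t : ℝ => tay a th n t) T' t ∧
      (1 + (t : ℂ)) * T' = (⟨a, th⟩ : ℂ) * tay a th n t -
        ((n : ℂ) + 1) * cbin a th (n + 1) * (t : ℂ) ^ n := by
  induction n with
  | zero =>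
    refine ⟨0, ?_, ?_⟩
    · have h : (fun t : ℝ => tay a th 0 t) = fun _ => (1 : ℂ) := by
        funext t
        simp [tay, cbin_zero]
      rw [h]
      exact hasDerivAt_const t (1 : ℂ)
    · have h : tay a th 0 t = 1 := by simp [tay, cbin_zero]
      rw [h, cbin_succ, cbin_zero]
      have h2 : (⟨a - ((0 : ℕ) : ℝ), th⟩ : ℂ) = ⟨a, th⟩ := by
        apply Complex.ext <;> simp
      rw [h2]
      simp
  | succ n ih =>
    obtain ⟨T', hT', hid⟩ := ih
    have hpow : HasDerivAt (fun t : ℝ => cbin a th (n + 1) * (t : ℂ) ^ (n + 1))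
        (cbin a th (n + 1) * (((n : ℂ) + 1) * (t : ℂ) ^ n)) t := by
      have h1 : HasDerivAt (fun t : ℝ => ((t ^ (n + 1) : ℝ) : ℂ))
          ((((n + 1 : ℕ) : ℝ) * t ^ n : ℝ) : ℂ) t := (hasDerivAt_pow (n + 1) t).ofReal_comp
      have h2 := h1.const_mul (cbin a th (n + 1))
      have e1 : (fun t : ℝ => cbin a th (n + 1) * (t : ℂ) ^ (n + 1)) =
          fun t : ℝ => cbin a th (n + 1) * ((t ^ (n + 1) : ℝ) : ℂ) := by
        funext t
        push_cast
        rfl
      rw [e1]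
      have e2 : cbin a th (n + 1) * (((n : ℂ) + 1) * (t : ℂ) ^ n) =
          cbin a th (n + 1) * ((((n + 1 : ℕ) : ℝ) * t ^ n : ℝ) : ℂ) := by
        push_cast
        ring
      rw [e2]
      exact h2
    have hsplit : ∀ t : ℝ, tay a th (n + 1) t =
        tay a th n t + cbin a th (n + 1) * (t : ℂ) ^ (n + 1) := by
      intro t
      unfold tay
      rw [sum_range_succ]
    refine ⟨T' + cbin a th (n + 1) * (((n : ℂ) + 1) * (t : ℂ) ^ n), ?_, ?_⟩
    · have e1 : (fun t : ℝ => tay a th (n + 1) t) =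
          fun t : ℝ => tay a th n t + cbin a th (n + 1) * (t : ℂ) ^ (n + 1) := funext hsplit
      rw [e1]
      exact hT'.add hpow
    · have e3 : ((n : ℂ) + 1 + 1) * cbin a th (n + 1 + 1) =
          ((⟨a, th⟩ : ℂ) - ((n : ℂ) + 1)) * cbin a th (n + 1) := by
        rw [cbin_succ a th (n + 1)]
        have h2 : (⟨a - ((n + 1 : ℕ) : ℝ), th⟩ : ℂ) = (⟨a, th⟩ : ℂ) - ((n : ℂ) + 1) := by
          apply Complex.ext <;> simp
        rw [h2]
        have h3 : ((n : ℂ) + 1 + 1) ≠ 0 := by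
          have : ((n + 2 : ℕ) : ℂ) ≠ 0 := by exact_mod_cast (by omega : n + 2 ≠ 0)
          push_cast at this
          intro h
          exact this (by linear_combination h)
        push_cast
        field_simp
      rw [hsplit, mul_add, hid]
      push_cast
      rw [e3]
      ring

/-- Taylor at `1`, `z ≥ 0` -/
theorem taylor_pos (a th : ℝ) (ha0 : 0 ≤ a) (ha1 : a ≤ 1) (n : ℕ) (z : ℝ) (hz : 0 ≤ z) (hz1 : z < 1) :
    ‖cx a th (1 + z) - tay a th n z‖ ≤ ‖cbin a th (n + 1)‖ * z ^ (n + 1) / (1 - z) := by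
  choose T' hT' hid using tay_deriv a th n
  set α : ℂ := ⟨a, th⟩ with hα
  set E : ℝ → ℂ := fun t => Complex.exp (-α * (Real.log (1 + t) : ℂ)) with hE
  have hEn : ∀ t : ℝ, 0 ≤ t → ‖E t‖ ≤ 1 := by
    intro t ht
    simp only [hE]
    rw [Complex.norm_exp]
    have h1 : (-α * (Real.log (1 + t) : ℂ)).re = -(a * Real.log (1 + t)) := by
      simp [hα]
    rw [h1]
    have h2 : 0 ≤ Real.log (1 + t) := Real.log_nonneg (by linarith)
    have h3 : 0 ≤ a * Real.log (1 + t) := mul_nonneg ha0 h2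
    calc Real.exp (-(a * Real.log (1 + t))) ≤ Real.exp 0 := Real.exp_le_exp.2 (by linarith)
      _ = 1 := Real.exp_zero
  have hEd : ∀ t : ℝ, 0 ≤ t → HasDerivAt E (E t * (-α * ((1 / (1 + t) : ℝ) : ℂ))) t := by
    intro t ht
    have h1 : HasDerivAt (fun t : ℝ => 1 + t) 1 t := (hasDerivAt_id t).const_add 1
    have h2 : HasDerivAt (fun t : ℝ => Real.log (1 + t)) (1 / (1 + t)) t :=
      h1.log (by linarith)
    have h3 : HasDerivAt (fun t : ℝ => ((Real.log (1 + t) : ℝ) : ℂ)) ((1 / (1 + t) : ℝ) : ℂ) t :=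
      h2.ofReal_comp
    have h4 := (h3.const_mul (-α)).cexp
    exact h4
  set f : ℝ → ℂ := fun t => E t * tay a th n t - 1 with hf
  set f' : ℝ → ℂ := fun t => E t * (-α * ((1 / (1 + t) : ℝ) : ℂ)) * tay a th n t + E t * T' t
    with hf'
  have hfd : ∀ t : ℝ, 0 ≤ t → HasDerivAt f (f' t) t := fun t ht =>
    ((hEd t ht).mul (hT' t)).sub_const 1
  have hf'n : ∀ t : ℝ, 0 ≤ t → ‖f' t‖ ≤ ‖cbin a th (n + 1)‖ * (((n : ℝ) + 1) * t ^ n) := by
    intro t ht
    have ht1 : (1 + (t : ℂ)) ≠ 0 := by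
      have : ((1 + t : ℝ) : ℂ) ≠ 0 := by
        exact_mod_cast (by linarith : (1 + t) ≠ 0)
      push_cast at this
      exact this
    have h1 : f' t = E t * (-(((n : ℂ) + 1) * cbin a th (n + 1) * (t : ℂ) ^ n)) / (1 + (t : ℂ)) := by
      rw [eq_div_iff ht1]
      simp only [hf']
      have h2 : ((1 / (1 + t) : ℝ) : ℂ) = 1 / (1 + (t : ℂ)) := by push_cast; rfl
      rw [h2]
      have h3 := hid t
      have h4 : (E t * (-α * (1 / (1 + (t : ℂ)))) * tay a th n t + E t * T' t) * (1 + (t : ℂ)) =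
          E t * (-α * tay a th n t) * ((1 / (1 + (t : ℂ))) * (1 + (t : ℂ))) +
            E t * ((1 + (t : ℂ)) * T' t) := by ring
      rw [h4, h3, one_div_mul_cancel ht1]
      ring
    rw [h1, norm_div, norm_mul, norm_neg, norm_mul, norm_mul, norm_pow, Complex.norm_real,
      Real.norm_eq_abs, abs_of_nonneg ht]
    have h5 : ‖((n : ℂ) + 1)‖ = (n : ℝ) + 1 := by
      have : ((n : ℂ) + 1) = (((n : ℝ) + 1 : ℝ) : ℂ) := by push_cast; rfl
      rw [this, Complex.norm_real, Real.norm_eq_abs, abs_of_nonneg (by positivity)]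
    have h6 : ‖(1 + (t : ℂ))‖ = 1 + t := by
      have : (1 + (t : ℂ)) = ((1 + t : ℝ) : ℂ) := by push_cast; rfl
      rw [this, Complex.norm_real, Real.norm_eq_abs, abs_of_nonneg (by linarith)]
    rw [h5, h6]
    have h7 : 0 ≤ ((n : ℝ) + 1) * ‖cbin a th (n + 1)‖ * t ^ n := by positivity
    calc ‖E t‖ * (((n : ℝ) + 1) * ‖cbin a th (n + 1)‖ * t ^ n) / (1 + t)
        ≤ ‖E t‖ * (((n : ℝ) + 1) * ‖cbin a th (n + 1)‖ * t ^ n) :=
          div_le_self (mul_nonneg (norm_nonneg _) h7) (by linarith)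
      _ ≤ 1 * (((n : ℝ) + 1) * ‖cbin a th (n + 1)‖ * t ^ n) :=
          mul_le_mul_of_nonneg_right (hEn t ht) h7
      _ = _ := by ring
  have hB : ∀ x : ℝ, HasDerivAt (fun t : ℝ => ‖cbin a th (n + 1)‖ * t ^ (n + 1))
      (‖cbin a th (n + 1)‖ * (((n : ℝ) + 1) * x ^ n)) x := by
    intro x
    have h1 := (hasDerivAt_pow (n + 1) x).const_mul ‖cbin a th (n + 1)‖
    have e : ((n + 1 : ℕ) : ℝ) * x ^ (n + 1 - 1) = ((n : ℝ) + 1) * x ^ n := by
      push_cast
      rfl
    rw [e] at h1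
    exact h1
  have hE0 : E 0 = 1 := by simp [hE]
  have hT0 : tay a th n ((0 : ℝ)) = 1 := by
    unfold tay
    rw [sum_range_succ']
    simp [cbin_zero]
  have hf0 : f 0 = 0 := by
    simp only [hf]
    rw [hE0, hT0]
    ring
  have key : ‖f z‖ ≤ ‖cbin a th (n + 1)‖ * z ^ (n + 1) := by
    have := image_norm_le_of_norm_deriv_right_le_deriv_boundary (f := f) (f' := f') (a := 0) (b := z)
      (fun t ht => (hfd t ht.1).continuousAt.continuousWithinAt)
      (fun t ht => (hfd t ht.1).hasDerivWithinAt)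
      (B := fun t : ℝ => ‖cbin a th (n + 1)‖ * t ^ (n + 1))
      (B' := fun t : ℝ => ‖cbin a th (n + 1)‖ * (((n : ℝ) + 1) * t ^ n))
      (by rw [hf0]; simp) hB (fun t ht => hf'n t ht.1)
    exact this (Set.right_mem_Icc.2 hz)
  have hz0 : (0 : ℝ) < 1 + z := by linarith
  have hcE : cx a th (1 + z) * E z = 1 := by
    rw [cx_eq_exp a th (1 + z) hz0]
    simp only [hE]
    rw [← Complex.exp_add]
    have : (⟨a, th⟩ : ℂ) * (Real.log (1 + z) : ℂ) + -α * (Real.log (1 + z) : ℂ) = 0 := by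
      rw [← hα]; ring
    rw [this, Complex.exp_zero]
  have hdiff : cx a th (1 + z) - tay a th n z = -(cx a th (1 + z) * f z) := by
    simp only [hf]
    have : cx a th (1 + z) * (E z * tay a th n z - 1) =
        (cx a th (1 + z) * E z) * tay a th n z - cx a th (1 + z) := by ring
    rw [this, hcE]
    ring
  rw [hdiff, norm_neg, norm_mul, norm_cx a th (1 + z) hz0.le]
  have h8 : (1 + z) ^ a ≤ 1 + z := by
    calc (1 + z) ^ a ≤ (1 + z) ^ (1 : ℝ) := Real.rpow_le_rpow_of_exponent_le (by linarith) ha1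
      _ = 1 + z := Real.rpow_one _
  have h9 : 0 < 1 - z := by linarith
  rw [le_div_iff₀ h9]
  have h10 : 0 ≤ ‖cbin a th (n + 1)‖ * z ^ (n + 1) := by positivity
  calc (1 + z) ^ a * ‖f z‖ * (1 - z)
      ≤ (1 + z) * (‖cbin a th (n + 1)‖ * z ^ (n + 1)) * (1 - z) := by
        refine mul_le_mul_of_nonneg_right ?_ h9.le
        exact mul_le_mul h8 key (norm_nonneg _) hz0.le
    _ = (1 - z ^ 2) * (‖cbin a th (n + 1)‖ * z ^ (n + 1)) := by ring
    _ ≤ 1 * (‖cbin a th (n + 1)‖ * z ^ (n + 1)) :=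
        mul_le_mul_of_nonneg_right (by nlinarith) h10
    _ = _ := by ring

/-- the differential equation of the Taylor polynomial -/
private theorem tay_ode (a th : ℝ) (n : ℕ) (x : ℂ) :
    (⟨a, th⟩ : ℂ) * ∑ k ∈ range (n + 1), cbin a th k * x ^ k -
      (1 + x) * ∑ k ∈ range (n + 1), cbin a th k * (k * x ^ (k - 1)) =
      (n + 1) * cbin a th (n + 1) * x ^ n := by
  induction n with
  | zero =>
      rw [cbin_succ]
      simp [cbin_zero]
  | succ n ih =>
      rw [sum_range_succ (fun k => cbin a th k * x ^ k) (n + 1),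
        sum_range_succ (fun k => cbin a th k * ((k : ℂ) * x ^ (k - 1))) (n + 1), mul_add, mul_add]
      have h1 : (n + 1 : ℂ) + 1 ≠ 0 := by
        have : ((n + 2 : ℕ) : ℂ) ≠ 0 := Nat.cast_ne_zero.2 (by omega)
        push_cast at this
        intro h
        apply this
        linear_combination h
      have h2 : cbin a th (n + 1 + 1) * ((n + 1 : ℂ) + 1) =
          cbin a th (n + 1) * ((⟨a, th⟩ : ℂ) - (n + 1)) := by
        rw [cbin_succ a th (n + 1)]
        have h3 : (⟨a - ((n + 1 : ℕ) : ℝ), th⟩ : ℂ) = (⟨a, th⟩ : ℂ) - (n + 1) := by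
          apply Complex.ext <;> simp
        rw [h3]
        push_cast
        field_simp
      have h4 : ((n + 1 : ℕ) : ℂ) = (n : ℂ) + 1 := by push_cast; ring
      rw [h4, Nat.add_sub_cancel]
      have h5 : x ^ (n + 1) = x ^ n * x := pow_succ x n
      rw [h5]
      linear_combination ih - x ^ n * x * h2

/-- Taylor at `1`, `z ≤ 0` -/
theorem taylor_neg (a th : ℝ) (ha0 : 0 ≤ a) (ha1 : a ≤ 1) (n : ℕ) (z : ℝ) (hz : 0 ≤ z) (hz1 : z < 1) :
    ‖cx a th (1 - z) - tay a th n (-z)‖ ≤ ‖cbin a th (n + 1)‖ * z ^ (n + 1) / (1 - z) := by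
  set s : ℂ := ⟨a, th⟩ with hs
  have hz' : 0 < 1 - z := by linarith
  -- the function `(1 - t)^(-s) p(-t) - 1`
  let E : ℝ → ℂ := fun t => Complex.exp (-s * (Real.log (1 - t) : ℂ))
  let p : ℝ → ℂ := fun t => ∑ k ∈ range (n + 1), cbin a th k * (-(t : ℂ)) ^ k
  let p' : ℝ → ℂ := fun t => ∑ k ∈ range (n + 1), cbin a th k * (k * (-(t : ℂ)) ^ (k - 1))
  have hE : ∀ t : ℝ, t < 1 → HasDerivAt E (E t * (s / (1 - t))) t := by
    intro t ht
    have h1 : (1 : ℝ) - t ≠ 0 := by linarith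
    have h2 : HasDerivAt (fun t : ℝ => Real.log (1 - t)) (-1 / (1 - t)) t :=
      ((hasDerivAt_id t).const_sub 1).log h1
    have h3 : HasDerivAt (fun t : ℝ => ((Real.log (1 - t) : ℝ) : ℂ)) ((-1 / (1 - t) : ℝ) : ℂ) t :=
      h2.ofReal_comp
    have h4 := (h3.const_mul (-s)).cexp
    have h5 : Complex.exp (-s * (Real.log (1 - t) : ℂ)) * (-s * ((-1 / (1 - t) : ℝ) : ℂ)) =
        E t * (s / (1 - t)) := by
      push_cast
      ring
    rw [h5] at h4
    exact h4
  have hp : ∀ t : ℝ, HasDerivAt p (-(p' t)) t := by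
    intro t
    have h1 : ∀ k ∈ range (n + 1), HasDerivAt (fun t : ℝ => cbin a th k * (-(t : ℂ)) ^ k)
        (-(cbin a th k * (k * (-(t : ℂ)) ^ (k - 1)))) t := by
      intro k _
      have h2 : HasDerivAt (fun t : ℝ => (-(t : ℂ))) (-1) t := by
        have := ((hasDerivAt_id t).ofReal_comp).fun_neg
        simpa using this
      have h3 := (h2.fun_pow k).const_mul (cbin a th k)
      have h4 : cbin a th k * (k * (-(t : ℂ)) ^ (k - 1) * (-1)) =
          -(cbin a th k * (k * (-(t : ℂ)) ^ (k - 1))) := by ring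
      rw [h4] at h3
      exact h3
    have h4 := HasDerivAt.fun_sum h1
    rw [Finset.sum_neg_distrib] at h4
    exact h4
  let g : ℝ → ℂ := fun t => E t * p t - 1
  have hg : ∀ t : ℝ, t < 1 →
      HasDerivAt g (E t / (1 - t) * ((n + 1) * cbin a th (n + 1) * (-(t : ℂ)) ^ n)) t := by
    intro t ht
    have h1 := ((hE t ht).mul (hp t)).sub_const 1
    have h2 : E t * (s / (1 - t)) * p t + E t * -(p' t) =
        E t / (1 - t) * ((n + 1) * cbin a th (n + 1) * (-(t : ℂ)) ^ n) := by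
      have h3 := tay_ode a th n (-(t : ℂ))
      have h4 : (1 - (t : ℂ)) ≠ 0 := by
        intro h
        have h5 : (1 - t : ℝ) = 0 := by exact_mod_cast h
        linarith
      rw [← h3]
      show E t * (s / (1 - t)) * p t + E t * -(p' t) =
        E t / (1 - t) * (s * p t - (1 + -(t : ℂ)) * p' t)
      field_simp
      ring
    rw [h2] at h1
    exact h1
  have hEn : ∀ t : ℝ, t < 1 → ‖E t‖ = (1 - t) ^ (-a) := by
    intro t ht
    have h1 : 0 < 1 - t := by linarith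
    show ‖Complex.exp (-s * (Real.log (1 - t) : ℂ))‖ = _
    rw [Complex.norm_exp, Real.rpow_def_of_pos h1]
    congr 1
    simp [hs]
    ring
  have key : ∀ ⦃x : ℝ⦄, x ∈ Set.Icc 0 z → ‖g x‖ ≤
      ‖cbin a th (n + 1)‖ * ((1 - z) ^ (-a) / (1 - z)) * x ^ (n + 1) := by
    refine image_norm_le_of_norm_deriv_right_le_deriv_boundary (f := g)
      (f' := fun t => E t / (1 - t) * ((n + 1) * cbin a th (n + 1) * (-(t : ℂ)) ^ n))
      (B := fun t => ‖cbin a th (n + 1)‖ * ((1 - z) ^ (-a) / (1 - z)) * t ^ (n + 1))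
      (B' := fun t => ‖cbin a th (n + 1)‖ * ((1 - z) ^ (-a) / (1 - z)) * ((n + 1) * t ^ n))
      ?_ ?_ ?_ ?_ ?_
    · intro t ht
      exact (hg t (lt_of_le_of_lt ht.2 hz1)).continuousAt.continuousWithinAt
    · intro t ht
      exact (hg t (ht.2.trans hz1)).hasDerivWithinAt
    · have h1 : g 0 = 0 := by
        show Complex.exp (-s * (Real.log (1 - 0) : ℂ)) *
          (∑ k ∈ range (n + 1), cbin a th k * (-((0 : ℝ) : ℂ)) ^ k) - 1 = 0
        rw [sum_range_succ']
        simp [cbin_zero]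
      rw [h1]
      simp
    · intro t
      have h1 := (hasDerivAt_pow (n + 1) t).const_mul
        (‖cbin a th (n + 1)‖ * ((1 - z) ^ (-a) / (1 - z)))
      have h2 : ‖cbin a th (n + 1)‖ * ((1 - z) ^ (-a) / (1 - z)) * (((n + 1 : ℕ) : ℝ) * t ^ (n + 1 - 1)) =
          ‖cbin a th (n + 1)‖ * ((1 - z) ^ (-a) / (1 - z)) * ((n + 1) * t ^ n) := by
        push_cast
        rfl
      rw [h2] at h1
      exact h1
    · intro t ht
      have ht1 : t < 1 := ht.2.trans hz1
      have h1 : 0 < 1 - t := by linarith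
      rw [norm_mul, norm_div, hEn t ht1, norm_mul, norm_mul, norm_pow, norm_neg, Complex.norm_real,
        Real.norm_of_nonneg ht.1]
      have h2 : ‖(1 - (t : ℂ))‖ = 1 - t := by
        have : (1 - (t : ℂ)) = ((1 - t : ℝ) : ℂ) := by push_cast; ring
        rw [this, Complex.norm_real, Real.norm_of_nonneg h1.le]
      have h3 : ‖((n : ℂ) + 1)‖ = n + 1 := by
        have : ((n : ℂ) + 1) = ((n + 1 : ℝ) : ℂ) := by push_cast; ring
        rw [this, Complex.norm_real, Real.norm_of_nonneg (by positivity)]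
      rw [h2, h3]
      have h4 : (1 - t) ^ (-a) ≤ (1 - z) ^ (-a) := by
        rw [Real.rpow_neg h1.le, Real.rpow_neg hz'.le]
        exact inv_anti₀ (Real.rpow_pos_of_pos hz' a)
          (Real.rpow_le_rpow hz'.le (by linarith [ht.2]) ha0)
      have h5 : (1 - t) ^ (-a) / (1 - t) ≤ (1 - z) ^ (-a) / (1 - z) :=
        div_le_div₀ (Real.rpow_nonneg hz'.le _) h4 hz' (by linarith [ht.2])
      calc (1 - t) ^ (-a) / (1 - t) * ((↑n + 1) * ‖cbin a th (n + 1)‖ * t ^ n)
          ≤ (1 - z) ^ (-a) / (1 - z) * ((↑n + 1) * ‖cbin a th (n + 1)‖ * t ^ n) := by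
            apply mul_le_mul_of_nonneg_right h5
            have := ht.1
            positivity
        _ = _ := by ring
  have hgz := key ⟨hz, le_rfl⟩
  have hcx : cx a th (1 - z) * E z = 1 := by
    rw [cx_eq_exp a th (1 - z) hz']
    show Complex.exp (s * (Real.log (1 - z) : ℂ)) * Complex.exp (-s * (Real.log (1 - z) : ℂ)) = 1
    rw [← Complex.exp_add]
    have : s * (Real.log (1 - z) : ℂ) + -s * (Real.log (1 - z) : ℂ) = 0 := by ring
    rw [this, Complex.exp_zero]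
  have hdiff : cx a th (1 - z) - tay a th n (-z) = -(cx a th (1 - z) * g z) := by
    have h1 : tay a th n (-z) = p z := by
      show (∑ k ∈ range (n + 1), cbin a th k * ((-z : ℝ) : ℂ) ^ k) = _
      push_cast
      rfl
    rw [h1]
    show cx a th (1 - z) - p z = -(cx a th (1 - z) * (E z * p z - 1))
    linear_combination p z * hcx
  rw [hdiff, norm_neg, norm_mul, norm_cx a th (1 - z) hz'.le]
  have hpos : 0 < (1 - z) ^ a := Real.rpow_pos_of_pos hz' a
  calc (1 - z) ^ a * ‖g z‖ ≤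
      (1 - z) ^ a * (‖cbin a th (n + 1)‖ * ((1 - z) ^ (-a) / (1 - z)) * z ^ (n + 1)) :=
        mul_le_mul_of_nonneg_left hgz hpos.le
    _ = ‖cbin a th (n + 1)‖ * z ^ (n + 1) / (1 - z) := by
        rw [Real.rpow_neg hz'.le]
        field_simp

theorem taylor_one (a th : ℝ) (ha0 : 0 ≤ a) (ha1 : a ≤ 1) (n : ℕ) (z r : ℝ) (hz : |z| ≤ r) (hr : r < 1) :
    ‖cx a th (1 + z) - tay a th n z‖ ≤ ‖cbin a th (n + 1)‖ * |z| ^ (n + 1) / (1 - r) := by
  have h1 : 0 < 1 - r := by linarith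
  have h2 : ‖cbin a th (n + 1)‖ * |z| ^ (n + 1) / (1 - |z|) ≤
      ‖cbin a th (n + 1)‖ * |z| ^ (n + 1) / (1 - r) := by
    apply div_le_div_of_nonneg_left (by positivity) h1 (by linarith)
  refine le_trans ?_ h2
  rcases le_total 0 z with h | h
  · rw [abs_of_nonneg h] at hz ⊢
    exact taylor_pos a th ha0 ha1 n z h (by linarith)
  · rw [abs_of_nonpos h] at hz ⊢
    have := taylor_neg a th ha0 ha1 n (-z) (by linarith) (by linarith)
    rw [sub_neg_eq_add, neg_neg] at this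
    rw [sub_neg_eq_add]
    exact this

/-- **Taylor at an arbitrary centre** -/
theorem taylor_enc (a th : ℝ) (ha0 : 0 ≤ a) (ha1 : a ≤ 1) (n : ℕ) (c x r : ℝ) (hc : 0 < c)
    (hx : |x - c| ≤ r * c) (hr : r < 1) :
    ‖cx a th x - cx a th c * tay a th n ((x - c) / c)‖ ≤
      c ^ a * ‖cbin a th (n + 1)‖ * |(x - c) / c| ^ (n + 1) / (1 - r) := by
  have h1 : |(x - c) / c| ≤ r := by
    rw [abs_div, abs_of_pos hc, div_le_iff₀ hc]; exact hx
  have h2 : 0 < 1 + (x - c) / c := by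
    have := (abs_le.1 h1).1
    linarith
  have h3 : x = c * (1 + (x - c) / c) := by field_simp; ring
  have h4 := taylor_one a th ha0 ha1 n ((x - c) / c) r h1 hr
  have h5 : cx a th x - cx a th c * tay a th n ((x - c) / c) =
      cx a th c * (cx a th (1 + (x - c) / c) - tay a th n ((x - c) / c)) := by
    rw [mul_sub, ← cx_mul a th c _ hc h2, ← h3]
  rw [h5, norm_mul, norm_cx a th c hc.le]
  calc c ^ a * ‖cx a th (1 + (x - c) / c) - tay a th n ((x - c) / c)‖
      ≤ c ^ a * (‖cbin a th (n + 1)‖ * |(x - c) / c| ^ (n + 1) / (1 - r)) :=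
        mul_le_mul_of_nonneg_left h4 (Real.rpow_nonneg hc.le a)
    _ = _ := by ring

/-- Lipschitz bound (two points near `1`) -/
theorem cx_lip (a th : ℝ) (ha0 : 0 ≤ a) (ha1 : a ≤ 1) (hal : a ^ 2 + th ^ 2 ≤ 1) (z z' r : ℝ)
    (hz : |z| ≤ r) (hz' : |z'| ≤ r) (hr : r < 1) :
    ‖cx a th (1 + z) - cx a th (1 + z')‖ ≤ |z - z'| / (1 - r) := by
  have h1r : 0 < 1 - r := by linarith
  have hpos : ∀ t ∈ Set.Icc (-r) r, 0 < 1 + t := fun t ht => by linarith [ht.1]
  have hzm : z ∈ Set.Icc (-r) r := abs_le.1 hz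
  have hzm' : z' ∈ Set.Icc (-r) r := abs_le.1 hz'
  rw [cx_eq_exp a th _ (hpos z hzm), cx_eq_exp a th _ (hpos z' hzm')]
  have hder : ∀ t ∈ Set.Icc (-r) r, HasDerivWithinAt
      (fun t : ℝ => Complex.exp ((⟨a, th⟩ : ℂ) * (Real.log (1 + t) : ℂ)))
      (Complex.exp ((⟨a, th⟩ : ℂ) * (Real.log (1 + t) : ℂ)) * ((⟨a, th⟩ : ℂ) * ((1 / (1 + t) : ℝ) : ℂ)))
      (Set.Icc (-r) r) t := by
    intro t ht
    have h1 : HasDerivAt (fun t : ℝ => Real.log (1 + t)) (1 / (1 + t)) t := by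
      have := (((hasDerivAt_id t).const_add 1).log (hpos t ht).ne')
      simpa using this
    exact ((h1.ofReal_comp.const_mul (⟨a, th⟩ : ℂ)).cexp).hasDerivWithinAt
  have hal1 : ‖(⟨a, th⟩ : ℂ)‖ ≤ 1 := by
    have h2 : ‖(⟨a, th⟩ : ℂ)‖ ^ 2 = a ^ 2 + th ^ 2 := by
      rw [Complex.sq_norm, Complex.normSq_apply]; ring
    nlinarith [norm_nonneg (⟨a, th⟩ : ℂ)]
  have hbd : ∀ t ∈ Set.Icc (-r) r,
      ‖Complex.exp ((⟨a, th⟩ : ℂ) * (Real.log (1 + t) : ℂ)) * ((⟨a, th⟩ : ℂ) * ((1 / (1 + t) : ℝ) : ℂ))‖ ≤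
        1 / (1 - r) := by
    intro t ht
    have hp := hpos t ht
    rw [← cx_eq_exp a th _ hp, norm_mul, norm_mul, norm_cx a th _ hp.le, Complex.norm_real,
      Real.norm_eq_abs, abs_of_nonneg (by positivity)]
    have hra : 0 ≤ (1 + t) ^ a := Real.rpow_nonneg hp.le a
    have h3 : (1 + t) ^ a * (1 / (1 + t)) ≤ 1 / (1 - r) := by
      rcases le_total (1 + t) 1 with h | h
      · have e1 : (1 + t) ^ a ≤ 1 := Real.rpow_le_one hp.le h ha0
        have e2 : 1 / (1 + t) ≤ 1 / (1 - r) := one_div_le_one_div_of_le h1r (by linarith [ht.1])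
        calc (1 + t) ^ a * (1 / (1 + t)) ≤ 1 * (1 / (1 + t)) :=
              mul_le_mul_of_nonneg_right e1 (by positivity)
          _ ≤ 1 / (1 - r) := by rw [one_mul]; exact e2
      · have e1 : (1 + t) ^ a ≤ 1 + t := by
          calc (1 + t) ^ a ≤ (1 + t) ^ (1 : ℝ) := Real.rpow_le_rpow_of_exponent_le h ha1
            _ = 1 + t := Real.rpow_one _
        have hr0 : 0 ≤ r := (abs_nonneg z).trans hz
        calc (1 + t) ^ a * (1 / (1 + t)) ≤ (1 + t) * (1 / (1 + t)) :=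
              mul_le_mul_of_nonneg_right e1 (by positivity)
          _ = 1 := by field_simp
          _ ≤ 1 / (1 - r) := by rw [le_div_iff₀ h1r]; linarith
    calc (1 + t) ^ a * (‖(⟨a, th⟩ : ℂ)‖ * (1 / (1 + t)))
        = ‖(⟨a, th⟩ : ℂ)‖ * ((1 + t) ^ a * (1 / (1 + t))) := by ring
      _ ≤ 1 * ((1 + t) ^ a * (1 / (1 + t))) :=
          mul_le_mul_of_nonneg_right hal1 (by positivity)
      _ ≤ 1 / (1 - r) := by rw [one_mul]; exact h3
  have hmv := Convex.norm_image_sub_le_of_norm_hasDerivWithin_le hder hbd (convex_Icc (-r) r) hzm' hzm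
  calc _ ≤ 1 / (1 - r) * ‖z - z'‖ := hmv
    _ = |z - z'| / (1 - r) := by rw [Real.norm_eq_abs]; ring

end Crest.Agent.R163.BxW
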