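import Crest.Agent.R163.BzZ

/-!
# Row 163: the certificates of the Poisson case (`1 / 3 ≤ s ≤ 1 / 2`)
-/

set_option autoImplicit false

namespace Crest.Agent.R163.Bx

open Kr

theorem mem_unit {x : ℝ} (h0 : 0 ≤ x) (h1 : x ≤ 1) : (⟨0, 1, 1⟩ : Iv).mem x := by
  constructor
  · simpa using h0
  · simpa using h1

theorem mem_lo {x : ℝ} (h0 : 0 ≤ x) (h1 : x ≤ 1 / 2) : (⟨0, 1, 2⟩ : Iv).mem x := by
  constructor
  · simpa using h0
  · norm_num; linarith

theorem mem_hi {x : ℝ} (h0 : 1 / 2 ≤ x) (h1 : x ≤ 1) : (⟨1, 1, 2⟩ : Iv).mem x := by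
  constructor
  · norm_num; linarith
  · norm_num; linarith

theorem mem_sA {s : ℝ} (h0 : 1 / 3 ≤ s) (h1 : s ≤ 1 / 2) : (⟨2, 1, 6⟩ : Iv).mem s := by
  constructor
  · norm_num; linarith
  · norm_num; linarith

section
variable {s : ℝ}

/-- numbers 0..13 (and 15) on `c ≤ 1 / 2` -/
theorem posL (h0 : 1 / 3 ≤ s) (h1 : s ≤ 1 / 2) (i : ℕ)
    (hi : ([0, 1, 2, 3, 4, 5, 6, 7, 8, 9, 10, 11, 12, 13, 15] : List ℕ).contains i = true) :
    PosC (kap i) s := fun _ _ hc hc1 hr hr1 =>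
  zL38.get i hi hc (by linarith) hr hr1 (by linarith) h1 (mem_lo hc hc1) (mem_unit hr hr1)
    (mem_sA h0 h1)

/-- numbers 0..13, 16, 17 on `c ≥ 1 / 2` -/
theorem posR (h0 : 1 / 3 ≤ s) (h1 : s ≤ 1 / 2) (i : ℕ)
    (hi : ([0, 1, 2, 3, 4, 5, 6, 7, 8, 9, 10, 11, 12, 13, 16, 17] : List ℕ).contains i = true) :
    PosO (kap i) s := fun _ _ hc hc1 hr hr1 =>
  zR1184.get i hi (by linarith) hc1 hr hr1 (by linarith) h1 (mem_hi hc hc1) (mem_unit hr hr1)
    (mem_sA h0 h1)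

theorem posP1 (h0 : 1 / 3 ≤ s) (h1 : s ≤ 1 / 2) : PosC kP1 s := fun _ _ hc hc1 hr hr1 =>
  zP32.get 14 (by decide) hc (by linarith) hr hr1 (by linarith) h1 (mem_lo hc hc1) (mem_unit hr hr1)
    (mem_sA h0 h1)

theorem posA (h0 : 1 / 3 ≤ s) (h1 : s ≤ 1 / 2) (i : ℕ)
    (hi : ([0, 1, 2, 3, 4, 5, 6, 7, 8, 9, 10, 11, 12, 13, 15] : List ℕ).contains i = true)
    (hi' : ([0, 1, 2, 3, 4, 5, 6, 7, 8, 9, 10, 11, 12, 13, 16, 17] : List ℕ).contains i = true) :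
    Pos (kap i) s := by
  intro c r hc hc1 hr hr1
  rcases le_total c (1 / 2) with h | h
  · exact posL h0 h1 i hi c r hc h hr hr1
  · exact posR h0 h1 i hi' c r h hc1 hr hr1

/-- the small regime -/
theorem smallPos_all (h0 : 1 / 3 ≤ s) (h1 : s ≤ 1 / 2) : SmallPos s where
  p1 := posP1 h0 h1
  p2 := posL h0 h1 15 (by decide)
  p3 := posR h0 h1 16 (by decide)
  p4 := posR h0 h1 17 (by decide)

end

/-- **Poisson certificates** -/
theorem certA (s : ℝ) (h0 : 1 / 3 ≤ s) (h1 : s ≤ 1 / 2) : PoiPos s where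
  small := smallPos_all h0 h1
  k1 := posA h0 h1 0 (by decide) (by decide)
  k2 := posA h0 h1 1 (by decide) (by decide)
  k3 := posA h0 h1 2 (by decide) (by decide)
  k4 := posA h0 h1 3 (by decide) (by decide)
  k5 := posA h0 h1 4 (by decide) (by decide)
  k6 := posA h0 h1 5 (by decide) (by decide)
  k7 := posA h0 h1 6 (by decide) (by decide)
  k8 := posA h0 h1 7 (by decide) (by decide)
  k9 := posA h0 h1 8 (by decide) (by decide)
  a1 := posA h0 h1 9 (by decide) (by decide)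
  a2 := posA h0 h1 10 (by decide) (by decide)
  a3 := posA h0 h1 11 (by decide) (by decide)
  a4 := posA h0 h1 12 (by decide) (by decide)
  a5 := posA h0 h1 13 (by decide) (by decide)

end Crest.Agent.R163.Bx
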