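import Crest.Agent.R163.BxU
import Crest.Agent.R163.BxM

/-!
# Row 163: table of the inequalities for the certificates (Poisson and `b ≥ 5`)
-/

set_option autoImplicit false

namespace Crest.Agent.R163.Bx

open Kr

/-- numbering of the inequalities -/
def kap : ℕ → Kn
  | 0 => kKnot 8997 18089 (-189)
  | 1 => kKnot 8671 16986 (-303)
  | 2 => kKnot 8319 15822 (-419)
  | 3 => kKnot 7970 14663 (-613)
  | 4 => kKnot 7623 13550 (-720)
  | 5 => kKnot 7284 12484 (-763)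
  | 6 => kKnot 6944 11416 (-843)
  | 7 => kKnot 6562 10235 (-869)
  | 8 => kKnot 6227 9266 (-651)
  | 9 => kLev 4158 5719 (1471) (-510)
  | 10 => kLev 4161 4987 (1104) (-195)
  | 11 => kLev 4200 4315 (770) (-247)
  | 12 => kLev 4244 3576 (406) (-444)
  | 13 => kLev 4329 2201 (-264) (-1753)
  | 14 => kP1
  | 15 => kP2
  | 16 => kP3
  | 17 => kP4
  | 18 => kKnot 9116 18418 (-236)
  | 19 => kKnot 8880 17592 (-360)
  | 20 => kKnot 8608 16649 (-530)
  | 21 => kKnot 8296 15577 (-764)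
  | 22 => kKnot 7938 14366 (-1059)
  | 23 => kKnot 7523 12965 (-1515)
  | 24 => kKnot 7014 11268 (-2173)
  | 25 => kKnot 6325 9017 (-3109)
  | 26 => kKnot 5247 5415 (-6679)
  | 27 => kKnot 4054 2231 (-9817)
  | 28 => kKnot 3350 0 (-18721)
  | _ => kQ1

/-- sublists by numbers -/
def ix (l : List ℕ) : List Kn := l.map kap

theorem Cov.unI {l l₁ l₂ : List ℕ} {I J K : Iv} (h₁ : Cov (ix l₁) I J K) (h₂ : Cov (ix l₂) I J K)
    (h : (l.all fun i => l₁.contains i || l₂.contains i) = true) : Cov (ix l) I J K := by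
  refine Cov.un h₁ h₂ fun κ hκ => ?_
  obtain ⟨i, hi, rfl⟩ := List.mem_map.1 hκ
  have := List.all_eq_true.1 h i hi
  rw [Bool.or_eq_true] at this
  rcases this with h | h
  · exact Or.inl (List.mem_map.2 ⟨i, by simpa using h, rfl⟩)
  · exact Or.inr (List.mem_map.2 ⟨i, by simpa using h, rfl⟩)

theorem Cov.get {l : List ℕ} {I J K : Iv} (h : Cov (ix l) I J K) (i : ℕ) (hi : l.contains i = true)
    {x y z : ℝ} (hx : 0 ≤ x) (hx' : x ≤ 1) (hy : 0 ≤ y) (hy' : y ≤ 1) (hz : 0 ≤ z)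
    (hz' : z ≤ 1 / 2) (h1 : I.mem x) (h2 : J.mem y) (h3 : K.mem z) : 0 ≤ kf (kap i) x y z :=
  h (kap i) (List.mem_map.2 ⟨i, by simpa using hi, rfl⟩) x y z hx hx' hy hy' hz hz' h1 h2 h3

end Crest.Agent.R163.Bx
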