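import Crest.Agent.R163.CkDefs

/-!
# Row 163, chain: arithmetic lemmas (binary sums, digits of packed sums)
-/

set_option autoImplicit false

namespace Crest.Agent.R163.Ck

open Finset

@[simp] theorem cnd_true {α : Type*} (x y : α) : cnd true x y = x := rfl
@[simp] theorem cnd_false {α : Type*} (x y : α) : cnd false x y = y := rfl

theorem ble_t {a b : ℕ} (h : a ≤ b) : Nat.ble a b = true := Nat.ble_eq_true_of_le h

theorem ble_f {a b : ℕ} (h : ¬ a ≤ b) : Nat.ble a b = false := by
  rw [Bool.eq_false_iff]; intro h'; exact h (Nat.le_of_ble_eq_true h')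

theorem bsum_succ (n : ℕ) (f : ℕ → ℕ) (k s : ℕ) : bsum n f (k + 1) s =
    cnd (Nat.ble n (s + 2 ^ k)) (bsum n f k s) (bsum n f k s + bsum n f k (s + 2 ^ k)) := rfl

theorem bsum_spec (n : ℕ) (f : ℕ → ℕ) (k s : ℕ) :
    bsum n f k s = ∑ i ∈ range (2 ^ k), if s + i < n then f (s + i) else 0 := by
  induction k generalizing s with
  | zero =>
    have e0 : bsum n f 0 s = cnd (Nat.ble n s) 0 (f s) := rfl
    rw [e0]
    simp only [pow_zero, sum_range_one, add_zero]
    by_cases h : n ≤ s
    · rw [ble_t h, if_neg (by omega)]; rfl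
    · rw [ble_f h, if_pos (by omega)]; rfl
  | succ k ih =>
    rw [bsum_succ, pow_succ, mul_two, sum_range_add, ih s]
    by_cases h : n ≤ s + 2 ^ k
    · rw [ble_t h]
      have e2 : ∑ x ∈ range (2 ^ k), (if s + (2 ^ k + x) < n then f (s + (2 ^ k + x)) else 0) = 0 := by
        apply sum_eq_zero
        intro i _
        rw [if_neg (by omega)]
      rw [e2, add_zero]
      rfl
    · rw [ble_f h, ih (s + 2 ^ k)]
      show _ + _ = _
      congr 1
      refine sum_congr rfl fun i _ => ?_
      rw [add_assoc]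

theorem bsum_eq {n k : ℕ} (h : n ≤ 2 ^ k) (f : ℕ → ℕ) :
    bsum n f k 0 = ∑ i ∈ range n, f i := by
  rw [bsum_spec]
  simp only [zero_add]
  rw [← sum_filter]
  refine sum_congr ?_ fun _ _ => rfl
  ext i
  simp only [mem_filter, mem_range]
  omega

theorem ball_spec (n : ℕ) (f : ℕ → Bool) (k s : ℕ) (h : ball n f k s = true) (i : ℕ)
    (h1 : s ≤ i) (h2 : i < n) (h3 : i < s + 2 ^ k) : f i = true := by
  induction k generalizing s with
  | zero =>
    have : i = s := by simp at h3; omega
    subst this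
    have e0 : ball n f 0 i = cnd (Nat.ble n i) true (f i) := rfl
    rw [e0] at h
    have hb : Nat.ble n i = false := ble_f (by omega)
    rw [hb] at h
    exact h
  | succ k ih =>
    have e1 : ball n f (k + 1) s = cnd (ball n f k s)
      (cnd (Nat.ble n (s + 2 ^ k)) true (ball n f k (s + 2 ^ k))) false := rfl
    rw [e1] at h
    cases hb : ball n f k s with
    | false => rw [hb] at h; exact absurd h (by simp)
    | true =>
      rw [hb] at h
      by_cases hi : i < s + 2 ^ k
      · exact ih s hb h1 hi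
      · have hn : Nat.ble n (s + 2 ^ k) = false := ble_f (by omega)
        rw [hn] at h
        exact ih (s + 2 ^ k) h (by omega) (by rw [pow_succ] at h3; omega)

theorem ball_eq {n k : ℕ} (hk : n ≤ 2 ^ k) {f : ℕ → Bool} (h : ball n f k 0 = true) (i : ℕ)
    (hi : i < n) : f i = true :=
  ball_spec n f k 0 h i (Nat.zero_le _) hi (by omega)

theorem dig_eq (K st n : ℕ) : dig K st n = st / (2 ^ K) ^ n % 2 ^ K := by
  unfold dig
  show (st >>> (K * n)) % 2 ^ K = _
  rw [Nat.shiftRight_eq_div_pow, pow_mul]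

theorem dig_lt (K st n : ℕ) : dig K st n < 2 ^ K := by
  rw [dig_eq]; exact Nat.mod_lt _ (by positivity)

/-- digits of a sum of monomials -/
theorem digit_sum {ι : Type*} (s : Finset ι) (g n : ι → ℕ) (B m : ℕ)
    (hB : ∑ i ∈ s, g i < B) :
    (∑ i ∈ s, g i * B ^ n i) / B ^ m % B = ∑ i ∈ s with n i = m, g i := by
  classical
  have hB0 : 0 < B := by omega
  have hsplit : ∑ i ∈ s, g i * B ^ n i =
      ∑ i ∈ s with n i < m, g i * B ^ n i + (∑ i ∈ s with n i = m, g i) * B ^ m +
      ∑ i ∈ s with m < n i, g i * B ^ n i := by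
    rw [← sum_filter_add_sum_filter_not s (fun i => n i < m) (fun i => g i * B ^ n i), add_assoc]
    congr 1
    rw [← sum_filter_add_sum_filter_not (s.filter fun i => ¬ n i < m) (fun i => n i = m)
      (fun i => g i * B ^ n i)]
    congr 1
    · rw [sum_mul]
      refine sum_congr ?_ fun i hi => ?_
      · ext i; simp only [mem_filter]; constructor
        · rintro ⟨⟨h1, _⟩, h2⟩; exact ⟨h1, h2⟩
        · rintro ⟨h1, h2⟩; exact ⟨⟨h1, by omega⟩, h2⟩
      · rw [(mem_filter.1 hi).2]
    · refine sum_congr ?_ fun _ _ => rfl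
      ext i; simp only [mem_filter]; constructor
      · rintro ⟨⟨h1, h2⟩, h3⟩; exact ⟨h1, by omega⟩
      · rintro ⟨h1, h2⟩; exact ⟨⟨h1, by omega⟩, by omega⟩
  have hlow : ∑ i ∈ s with n i < m, g i * B ^ n i < B ^ m := by
    rcases Nat.eq_zero_or_pos m with hm | hm
    · subst hm
      have : (s.filter fun i => n i < 0) = ∅ := by ext i; simp
      rw [this]; simp
    · calc ∑ i ∈ s with n i < m, g i * B ^ n i
          ≤ ∑ i ∈ s with n i < m, g i * B ^ (m - 1) := by
            refine sum_le_sum fun i hi => Nat.mul_le_mul_left _ (Nat.pow_le_pow_right hB0 ?_)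
            have := (mem_filter.1 hi).2; omega
        _ = (∑ i ∈ s with n i < m, g i) * B ^ (m - 1) := by rw [sum_mul]
        _ ≤ (∑ i ∈ s, g i) * B ^ (m - 1) :=
            Nat.mul_le_mul_right _ (sum_le_sum_of_subset (filter_subset _ _))
        _ < B * B ^ (m - 1) := Nat.mul_lt_mul_of_pos_right hB (by positivity)
        _ = B ^ m := by rw [← pow_succ']; congr 1; omega
  obtain ⟨t, ht⟩ : ∃ t, ∑ i ∈ s with m < n i, g i * B ^ n i = B ^ m * (B * t) := by
    refine ⟨∑ i ∈ s with m < n i, g i * B ^ (n i - (m + 1)), ?_⟩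
    rw [mul_sum, mul_sum]
    refine sum_congr rfl fun i hi => ?_
    have := (mem_filter.1 hi).2
    have e : n i = m + 1 + (n i - (m + 1)) := by omega
    conv_lhs => rw [e, pow_add, pow_succ]
    ring
  have hle : ∑ i ∈ s with n i = m, g i < B :=
    lt_of_le_of_lt (sum_le_sum_of_subset (filter_subset _ _)) hB
  rw [hsplit, ht]
  have e : ∑ i ∈ s with n i < m, g i * B ^ n i + (∑ i ∈ s with n i = m, g i) * B ^ m +
      B ^ m * (B * t) =
      ∑ i ∈ s with n i < m, g i * B ^ n i + B ^ m * ((∑ i ∈ s with n i = m, g i) + B * t) := by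
    ring
  rw [e, Nat.add_mul_div_left _ _ (by positivity), Nat.div_eq_of_lt hlow, zero_add,
    Nat.add_mul_mod_self_left, Nat.mod_eq_of_lt hle]

theorem mx_eq (a b : ℕ) : mx a b = max a b := by
  unfold mx
  by_cases h : a ≤ b
  · rw [ble_t h, max_eq_right h]; rfl
  · rw [ble_f h, max_eq_left (by omega)]; rfl

theorem mn_eq (a b : ℕ) : mn a b = min a b := by
  unfold mn
  by_cases h : a ≤ b
  · rw [ble_t h, min_eq_left h]; rfl
  · rw [ble_f h, min_eq_right (by omega)]; rfl

theorem cond_ble {α : Type*} (a b : ℕ) (x y : α) :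
    cnd (Nat.ble a b) x y = if a ≤ b then x else y := by
  by_cases h : a ≤ b
  · rw [ble_t h, if_pos h]; rfl
  · rw [ble_f h, if_neg h]; rfl

theorem cond_beq {α : Type*} (a b : ℕ) (x y : α) :
    cnd (Nat.beq a b) x y = if a = b then x else y := by
  by_cases h : a = b
  · rw [h, Nat.beq_refl, if_pos rfl]; rfl
  · have : Nat.beq a b = false := by
      rw [Bool.eq_false_iff]; intro h'; exact h (Nat.eq_of_beq_eq_true h')
    rw [this, if_neg h]; rfl

/-- `cf` in ordinary notation -/
theorem cf_eq (m st a b : ℕ) : cf m st a b =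
    if 2 * m ≤ a + b ∧ a + b ≤ 6 * m then
      dig 32 st (ix m (max a (max b (6 * m - a - b))) (min a (min b (6 * m - a - b)))) else 0 := by
  unfold cf
  simp only [cond_ble, mx_eq, mn_eq]
  show (if 2 * m ≤ a + b then (if a + b ≤ 6 * m then _ else 0) else 0) = _
  by_cases h1 : 2 * m ≤ a + b
  · by_cases h2 : a + b ≤ 6 * m
    · rw [if_pos h1, if_pos h2, if_pos ⟨h1, h2⟩]; rfl
    · rw [if_pos h1, if_neg h2, if_neg (fun h => h2 h.2)]
  · rw [if_neg h1, if_neg (fun h => h1 h.1)]

theorem mult_eq (A B C : ℕ) : mult A B C =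
    if A = B then (if B = C then 1 else 3) else (if B = C then 3 else 6) := by
  unfold mult
  simp only [cond_beq]

end Crest.Agent.R163.Ck
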