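import Crest.Agent.R163.CkA
import Crest.Agent.R163.BlG

/-!
# Row 163, chain: lattice triples, permutations and orbits
-/

set_option autoImplicit false

namespace Crest.Agent.R163.Ck

open Finset

/-- lattice triples -/
noncomputable def TT (h : ℕ) : Finset (Fin 3 → ℕ) :=
  (Fintype.piFinset fun _ : Fin 3 => range (2 * h + 1)).filter fun x => ∑ i, x i = 3 * h

theorem mem_TT' {h : ℕ} {x : Fin 3 → ℕ} :
    x ∈ TT h ↔ (∀ i, x i ≤ 2 * h) ∧ ∑ i, x i = 3 * h := by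
  unfold TT
  simp only [mem_filter, Fintype.mem_piFinset, mem_range, Nat.lt_succ_iff]

theorem mem_TT {h : ℕ} {x : Fin 3 → ℕ} :
    x ∈ TT h ↔ (x 0 ≤ 2 * h ∧ x 1 ≤ 2 * h ∧ x 2 ≤ 2 * h) ∧ x 0 + x 1 + x 2 = 3 * h := by
  rw [mem_TT', Fin.sum_univ_three]
  constructor
  · rintro ⟨h1, h2⟩; exact ⟨⟨h1 0, h1 1, h1 2⟩, h2⟩
  · rintro ⟨⟨h0, h1, h2⟩, h3⟩
    refine ⟨fun i => ?_, h3⟩
    fin_cases i <;> assumption

theorem perm_mem {h : ℕ} {x : Fin 3 → ℕ} (hx : x ∈ TT h) (σ : Equiv.Perm (Fin 3)) :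
    (fun i => x (σ i)) ∈ TT h := by
  rw [mem_TT'] at hx ⊢
  exact ⟨fun i => hx.1 _, by rw [Equiv.sum_comp σ x]; exact hx.2⟩

theorem sum_perm {M : Type*} [AddCommMonoid M] (h : ℕ) (σ : Equiv.Perm (Fin 3))
    (F : (Fin 3 → ℕ) → M) : ∑ x ∈ TT h, F (fun i => x (σ i)) = ∑ x ∈ TT h, F x := by
  refine Finset.sum_nbij' (fun x i => x (σ i)) (fun x i => x (σ.symm i)) ?_ ?_ ?_ ?_ ?_
  · intro x hx; exact perm_mem hx σ
  · intro x hx; exact perm_mem hx σ.symm
  · intro x _; funext i; simp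
  · intro x _; funext i; simp
  · intro x _; rfl

/-- sorted triples -/
noncomputable def Srt (x : Fin 3 → ℕ) : Prop := x 1 ≤ x 0 ∧ x 2 ≤ x 1

instance (x : Fin 3 → ℕ) : Decidable (Srt x) := by unfold Srt; infer_instance

theorem perm_univ : (univ : Finset (Equiv.Perm (Fin 3))) =
    {1, Equiv.swap 0 1, Equiv.swap 0 2, Equiv.swap 1 2,
      Equiv.swap 0 1 * Equiv.swap 1 2, Equiv.swap 1 2 * Equiv.swap 0 1} := by decide

theorem sum_perm_univ (f : Equiv.Perm (Fin 3) → ℝ) : ∑ σ, f σ =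
    f 1 + (f (Equiv.swap 0 1) + (f (Equiv.swap 0 2) + (f (Equiv.swap 1 2) +
      (f (Equiv.swap 0 1 * Equiv.swap 1 2) + f (Equiv.swap 1 2 * Equiv.swap 0 1))))) := by
  rw [perm_univ, sum_insert (by decide), sum_insert (by decide), sum_insert (by decide),
    sum_insert (by decide), sum_insert (by decide), sum_singleton]

/-- weights -/
noncomputable def wgt (a b c : ℕ) : ℝ := if b ≤ a ∧ c ≤ b then (mult a b c : ℝ) / 6 else 0

theorem wgt_sum (a b c : ℕ) : wgt a b c + (wgt b a c + (wgt c b a + (wgt a c b +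
    (wgt b c a + wgt c a b)))) = 1 := by
  unfold wgt
  simp only [mult_eq]
  rcases lt_trichotomy a b with h1 | h1 | h1 <;> rcases lt_trichotomy b c with h2 | h2 | h2 <;>
    rcases lt_trichotomy a c with h3 | h3 | h3 <;>
    first
    | (exfalso; omega)
    | (simp (disch := omega) only [if_pos, if_neg]
       norm_num)

theorem wgt_perm_sum (x : Fin 3 → ℕ) :
    ∑ σ : Equiv.Perm (Fin 3), wgt (x (σ 0)) (x (σ 1)) (x (σ 2)) = 1 := by
  rw [sum_perm_univ]
  have := wgt_sum (x 0) (x 1) (x 2)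
  exact this

theorem orbit (h : ℕ) (F : (Fin 3 → ℕ) → ℝ)
    (hF : ∀ σ : Equiv.Perm (Fin 3), ∀ x ∈ TT h, F (fun i => x (σ i)) = F x) :
    ∑ x ∈ TT h, F x = ∑ x ∈ TT h with Srt x, (mult (x 0) (x 1) (x 2) : ℝ) * F x := by
  have e1 : ∑ x ∈ TT h, F x = ∑ x ∈ TT h, ∑ σ : Equiv.Perm (Fin 3),
      wgt (x (σ 0)) (x (σ 1)) (x (σ 2)) * F (fun i => x (σ i)) := by
    refine sum_congr rfl fun x hx => ?_
    have : ∀ σ : Equiv.Perm (Fin 3), wgt (x (σ 0)) (x (σ 1)) (x (σ 2)) * F (fun i => x (σ i)) =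
        wgt (x (σ 0)) (x (σ 1)) (x (σ 2)) * F x := fun σ => by rw [hF σ x hx]
    simp only [this]
    rw [← sum_mul, wgt_perm_sum, one_mul]
  rw [e1, sum_comm]
  have e2 : ∀ σ : Equiv.Perm (Fin 3), ∑ x ∈ TT h,
      wgt (x (σ 0)) (x (σ 1)) (x (σ 2)) * F (fun i => x (σ i)) =
      ∑ x ∈ TT h, wgt (x 0) (x 1) (x 2) * F x := fun σ =>
    sum_perm h σ (fun x => wgt (x 0) (x 1) (x 2) * F x)
  simp only [e2]
  rw [sum_const, card_univ, Fintype.card_perm, Fintype.card_fin, nsmul_eq_mul, mul_sum, sum_filter]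
  refine sum_congr rfl fun x _ => ?_
  unfold wgt Srt
  split_ifs with h1
  · norm_num [Nat.factorial]; ring
  · ring

/-- sums over triples as double sums -/
theorem sum_TT {M : Type*} [AddCommMonoid M] (h : ℕ) (F : ℕ → ℕ → ℕ → M) :
    ∑ x ∈ TT h, F (x 0) (x 1) (x 2) = ∑ b ∈ range (2 * h + 1), ∑ a ∈ range (2 * h + 1),
      if h ≤ a + b ∧ a + b ≤ 3 * h then F a b (3 * h - a - b) else 0 := by
  rw [sum_comm, ← sum_product', ← sum_filter]
  refine Finset.sum_nbij' (fun x => (x 0, x 1)) (fun y => ![y.1, y.2, 3 * h - y.1 - y.2])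
    ?_ ?_ ?_ ?_ ?_
  · intro x hx
    have := mem_TT.1 hx
    simp only [mem_filter, mem_product, mem_range]
    omega
  · intro y hy
    simp only [mem_filter, mem_product, mem_range] at hy
    rw [mem_TT]
    simp
    omega
  · intro x hx
    have := mem_TT.1 hx
    funext i
    fin_cases i <;> simp
    omega
  · intro y _; simp
  · intro x hx
    have := mem_TT.1 hx
    have e : x 2 = 3 * h - x 0 - x 1 := by omega
    simp only [e]

end Crest.Agent.R163.Ck
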