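import Crest.Agent.R163.CkB

/-!
# Row 163, chain: the packed numbers of the checker as sums of monomials
-/

set_option autoImplicit false

namespace Crest.Agent.R163.Ck

open Finset

/-- coefficient at a triple -/
noncomputable def cc (m st : ℕ) (x : Fin 3 → ℕ) : ℕ := cf m st (x 0) (x 1)

theorem cc_eq {m st : ℕ} {x : Fin 3 → ℕ} (hx : x ∈ TT (2 * m)) :
    cc m st x = dig 32 st (ix m (max (x 0) (max (x 1) (x 2))) (min (x 0) (min (x 1) (x 2)))) := by
  have := mem_TT.1 hx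
  unfold cc
  rw [cf_eq, if_pos (by omega)]
  have e : 6 * m - x 0 - x 1 = x 2 := by omega
  rw [e]

theorem max3_perm (x : Fin 3 → ℕ) (σ : Equiv.Perm (Fin 3)) :
    max (x (σ 0)) (max (x (σ 1)) (x (σ 2))) = max (x 0) (max (x 1) (x 2)) := by
  have key : ∀ y : Fin 3 → ℕ, max (y 0) (max (y 1) (y 2)) = univ.sup y := by
    intro y
    apply le_antisymm
    · simp only [sup_le_iff]
      exact ⟨le_sup (mem_univ _), le_sup (mem_univ _), le_sup (mem_univ _)⟩
    · refine Finset.sup_le fun i _ => ?_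
      fin_cases i <;> simp
  refine ((key (fun i => x (σ i))).trans ?_).trans (key x).symm
  apply le_antisymm
  · exact Finset.sup_le fun i _ => le_sup (f := x) (mem_univ _)
  · refine Finset.sup_le fun i _ => ?_
    have := le_sup (f := fun i => x (σ i)) (mem_univ (σ.symm i))
    simpa using this

theorem min3_perm (x : Fin 3 → ℕ) (σ : Equiv.Perm (Fin 3)) :
    min (x (σ 0)) (min (x (σ 1)) (x (σ 2))) = min (x 0) (min (x 1) (x 2)) := by
  have h1 : ∀ (x : Fin 3 → ℕ) (i : Fin 3), min (x 0) (min (x 1) (x 2)) ≤ x i := by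
    intro x i; fin_cases i <;> simp
  apply le_antisymm
  · have := h1 (fun i => x (σ i))
    simp only [le_min_iff]
    refine ⟨?_, ?_, ?_⟩
    · simpa using this (σ.symm 0)
    · simpa using this (σ.symm 1)
    · simpa using this (σ.symm 2)
  · simp only [le_min_iff]
    exact ⟨h1 x _, h1 x _, h1 x _⟩

theorem cc_perm {m st : ℕ} {x : Fin 3 → ℕ} (hx : x ∈ TT (2 * m)) (σ : Equiv.Perm (Fin 3)) :
    cc m st (fun i => x (σ i)) = cc m st x := by
  rw [cc_eq hx, cc_eq (perm_mem hx σ)]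
  show dig 32 st (ix m (max (x (σ 0)) (max (x (σ 1)) (x (σ 2))))
    (min (x (σ 0)) (min (x (σ 1)) (x (σ 2))))) = _
  rw [max3_perm, min3_perm]

theorem box_sum {m : ℕ} (hm : m ≤ 15) (st : ℕ) (g : ℕ → ℕ → ℕ → ℕ) :
    bsum (RR m) (fun b => bsum (RR m) (fun a =>
      cf m st a b * g a b (6 * m - a - b)) 6 0) 6 0 =
    ∑ x ∈ TT (2 * m), cc m st x * g (x 0) (x 1) (x 2) := by
  have hR : RR m = 4 * m + 1 := rfl
  rw [bsum_eq (by rw [hR]; norm_num; omega)]
  simp only [bsum_eq (show RR m ≤ 2 ^ 6 by rw [hR]; norm_num; omega)]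
  have e := sum_TT (2 * m) (fun a b c => cf m st a b * g a b c)
  have e2 : 2 * (2 * m) + 1 = RR m := by rw [hR]; ring
  rw [e2] at e
  unfold cc
  rw [e]
  refine sum_congr rfl fun b _ => sum_congr rfl fun a _ => ?_
  have e3 : 3 * (2 * m) = 6 * m := by ring
  rw [e3]
  split_ifs with h
  · rfl
  · rw [cf_eq, if_neg h, zero_mul]

theorem npoly_eq {m : ℕ} (hm : m ≤ 15) (st : ℕ) :
    npoly m st = ∑ x ∈ TT (2 * m), cc m st x * (2 ^ 136) ^ (x 0 + WW m * x 1) := by
  rw [← box_sum hm st (fun a b _ => (2 ^ 136) ^ (a + WW m * b))]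
  have hR : RR m ≤ 2 ^ 6 := by
    show 4 * m + 1 ≤ 2 ^ 6
    norm_num; omega
  unfold npoly
  rw [bsum_eq hR, bsum_eq hR]
  refine sum_congr rfl fun b _ => ?_
  rw [bsum_eq hR, bsum_eq hR]
  show (∑ i ∈ range (RR m), (cf m st i b) <<< (136 * i)) <<< (136 * WW m * b) = _
  rw [Nat.shiftLeft_eq, sum_mul]
  refine sum_congr rfl fun a _ => ?_
  rw [Nat.shiftLeft_eq, mul_assoc, ← pow_add, ← pow_mul]
  congr 2
  ring

theorem csum_eq {m : ℕ} (hm : m ≤ 15) (st : ℕ) :
    csum m st = ∑ x ∈ TT (2 * m), cc m st x := by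
  have := box_sum hm st (fun _ _ _ => 1)
  simp only [mul_one] at this
  exact this

theorem rpoly_eq {m : ℕ} (hm : m ≤ 15) (p s st : ℕ) :
    rpoly m p s st = ∑ x ∈ TT (2 * m),
      (cc m st x * rt m p s (x 2)) * (2 ^ 224) ^ (x 0 + 2 * x 1) := by
  have e : ∀ x : Fin 3 → ℕ, (cc m st x * rt m p s (x 2)) * (2 ^ 224) ^ (x 0 + 2 * x 1) =
      cc m st x * (rt m p s (x 2) * (2 ^ 224) ^ (x 0 + 2 * x 1)) := fun x => by ring
  simp only [e]
  rw [← box_sum hm st (fun a b c => rt m p s c * (2 ^ 224) ^ (a + 2 * b))]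
  have hR : RR m ≤ 2 ^ 6 := by
    show 4 * m + 1 ≤ 2 ^ 6
    norm_num; omega
  unfold rpoly
  rw [bsum_eq hR, bsum_eq hR]
  refine sum_congr rfl fun b _ => ?_
  rw [bsum_eq hR, bsum_eq hR]
  refine sum_congr rfl fun a _ => ?_
  show (cf m st a b * rt m p s (6 * m - a - b)) <<< (224 * (a + 2 * b)) = _
  rw [Nat.shiftLeft_eq, mul_assoc, ← pow_mul]

/-- `∑ c(x) p^(x 0) s^(4m - x 0)` -/
theorem wsum_eq {m : ℕ} (hm : m ≤ 15) (p s st : ℕ) :
    wsum m p s st = ∑ x ∈ TT (2 * m), cc m st x * (p ^ (x 0) * s ^ (4 * m - x 0)) := by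
  rw [← box_sum hm st (fun a _ _ => p ^ a * s ^ (4 * m - a))]
  have hR : RR m ≤ 2 ^ 6 := by
    show 4 * m + 1 ≤ 2 ^ 6
    norm_num; omega
  unfold wsum
  rw [bsum_eq hR, bsum_eq hR]
  simp only [bsum_eq hR]
  rw [sum_comm]
  refine sum_congr rfl fun b _ => ?_
  show p ^ b * s ^ (4 * m - b) * ∑ i ∈ range (RR m), cf m st b i = _
  rw [mul_sum]
  refine sum_congr rfl fun a _ => ?_
  ring

/-- the coefficients of the fourth power -/
noncomputable def PP (m st : ℕ) (y : Fin 3 → ℕ) : ℕ :=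
  ∑ g ∈ Fintype.piFinset (fun _ : Fin 4 => TT (2 * m)) with (fun c => ∑ i, g i c) = y,
    ∏ i, cc m st (g i)

theorem sum4_mem {m : ℕ} {g : Fin 4 → Fin 3 → ℕ}
    (hg : g ∈ Fintype.piFinset (fun _ : Fin 4 => TT (2 * m))) :
    (fun c => ∑ i, g i c) ∈ TT (8 * m) := by
  rw [Fintype.mem_piFinset] at hg
  rw [mem_TT]
  have h0 := mem_TT.1 (hg 0)
  have h1 := mem_TT.1 (hg 1)
  have h2 := mem_TT.1 (hg 2)
  have h3 := mem_TT.1 (hg 3)
  simp only [Fin.sum_univ_four]
  omega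

theorem PP_digit {m st : ℕ} (hm : m ≤ 15) (hc : csum m st < 2 ^ 33) {y : Fin 3 → ℕ}
    (hy : y ∈ TT (8 * m)) : dig 136 (npoly m st ^ 4) (y 0 + WW m * y 1) = PP m st y := by
  rw [dig_eq, npoly_eq hm, sum_pow']
  have e : ∀ g : Fin 4 → Fin 3 → ℕ,
      ∏ i, (cc m st (g i) * (2 ^ 136) ^ (g i 0 + WW m * g i 1)) =
      (∏ i, cc m st (g i)) * (2 ^ 136) ^ (∑ i, (g i 0 + WW m * g i 1)) := by
    intro g
    rw [prod_mul_distrib, prod_pow_eq_pow_sum]
  simp only [e]
  rw [digit_sum]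
  · unfold PP
    refine sum_congr ?_ fun _ _ => rfl
    ext g
    simp only [mem_filter]
    refine and_congr_right fun hg => ?_
    have hg' := mem_TT.1 (sum4_mem hg)
    have hy' := mem_TT.1 hy
    have hW : WW m = 16 * m + 1 := rfl
    rw [sum_add_distrib, ← mul_sum]
    constructor
    · intro h
      have h1 : ∑ i, g i 1 = y 1 ∧ ∑ i, g i 0 = y 0 := by
        have ha : (∑ i, g i 0) < WW m := by omega
        have hb : y 0 < WW m := by omega
        have e1 : (∑ i, g i 0 + WW m * ∑ i, g i 1) % WW m = ∑ i, g i 0 := by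
          rw [Nat.add_mul_mod_self_left, Nat.mod_eq_of_lt ha]
        have e2 : (y 0 + WW m * y 1) % WW m = y 0 := by
          rw [Nat.add_mul_mod_self_left, Nat.mod_eq_of_lt hb]
        rw [h, e2] at e1
        refine ⟨?_, e1.symm⟩
        have : WW m * ∑ i, g i 1 = WW m * y 1 := by omega
        exact Nat.eq_of_mul_eq_mul_left (by omega) this
      funext c
      fin_cases c
      · exact h1.2
      · exact h1.1
      · show ∑ i, g i 2 = y 2
        omega
    · intro h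
      rw [← h]
  · have e2 : ∑ g ∈ Fintype.piFinset (fun _ : Fin 4 => TT (2 * m)), ∏ i, cc m st (g i) =
        (∑ x ∈ TT (2 * m), cc m st x) ^ 4 := by rw [sum_pow']
    rw [e2, ← csum_eq hm]
    calc csum m st ^ 4 < (2 ^ 33) ^ 4 := Nat.pow_lt_pow_left hc (by norm_num)
      _ ≤ 2 ^ 136 := by norm_num

theorem PP_perm {m st : ℕ} (y : Fin 3 → ℕ) (σ : Equiv.Perm (Fin 3)) :
    PP m st (fun i => y (σ i)) = PP m st y := by
  unfold PP
  refine Finset.sum_nbij' (fun g i c => g i (σ.symm c)) (fun g i c => g i (σ c)) ?_ ?_ ?_ ?_ ?_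
  · intro g hg
    rw [mem_filter, Fintype.mem_piFinset] at hg ⊢
    refine ⟨fun i => perm_mem (hg.1 i) σ.symm, ?_⟩
    funext c
    have := congrFun hg.2 (σ.symm c)
    simpa using this
  · intro g hg
    rw [mem_filter, Fintype.mem_piFinset] at hg ⊢
    refine ⟨fun i => perm_mem (hg.1 i) σ, ?_⟩
    funext c
    have := congrFun hg.2 (σ c)
    simpa using this
  · intro g _; funext i c; simp
  · intro g _; funext i c; simp
  · intro g hg
    rw [mem_filter, Fintype.mem_piFinset] at hg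
    refine prod_congr rfl fun i _ => ?_
    exact (cc_perm (hg.1 i) σ.symm).symm

/-- fibering by the sum -/
theorem sum_PP (m st : ℕ) (F : (Fin 3 → ℕ) → ℝ) :
    ∑ g ∈ Fintype.piFinset (fun _ : Fin 4 => TT (2 * m)),
      ((∏ i, cc m st (g i) : ℕ) : ℝ) * F (fun c => ∑ i, g i c) =
    ∑ y ∈ TT (8 * m), (PP m st y : ℝ) * F y := by
  rw [← sum_fiberwise_of_maps_to (s := Fintype.piFinset (fun _ : Fin 4 => TT (2 * m)))
    (t := TT (8 * m)) (g := fun g c => ∑ i, g i c) (fun g hg => sum4_mem hg)]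
  refine sum_congr rfl fun y _ => ?_
  unfold PP
  rw [Nat.cast_sum, sum_mul]
  refine sum_congr rfl fun g hg => ?_
  rw [(mem_filter.1 hg).2]

/-- digits of a window -/
theorem dig_window (K P a N k : ℕ) (hk : k < N) :
    dig K ((P >>> (K * a)) % 2 ^ (K * N)) k = dig K P (a + k) := by
  rw [dig_eq, dig_eq, Nat.shiftRight_eq_div_pow]
  have hB : 0 < 2 ^ K := by positivity
  generalize hQ : P / 2 ^ (K * a) = Q
  have e1 : P / (2 ^ K) ^ (a + k) = Q / (2 ^ K) ^ k := by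
    rw [← hQ, Nat.div_div_eq_div_mul, pow_mul, ← pow_add]
  rw [e1, pow_mul]
  generalize 2 ^ K = B at hB
  have e2 : Q / B ^ k = (Q % B ^ N) / B ^ k + B * (B ^ (N - k - 1) * (Q / B ^ N)) := by
    conv_lhs => rw [← Nat.mod_add_div Q (B ^ N)]
    have e3 : B ^ N * (Q / B ^ N) = B ^ k * (B * (B ^ (N - k - 1) * (Q / B ^ N))) := by
      have h1 : N = k + (1 + (N - k - 1)) := by omega
      have h2 : B ^ N = B ^ k * (B * B ^ (N - k - 1)) := by
        conv_lhs => rw [h1]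
        rw [pow_add, pow_add, pow_one]
      generalize Q / B ^ N = R
      rw [h2]
      ring
    rw [e3, Nat.add_mul_div_left _ _ (by positivity)]
  rw [e2, Nat.add_mul_mod_self_left]

end Crest.Agent.R163.Ck
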