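import Crest.Agent.R163.CkC

/-!
# Row 163, chain: real vectors, the state functional, table entries
-/

set_option autoImplicit false

namespace Crest.Agent.R163.Ck

open Finset

/-- the vector of a lattice triple -/
noncomputable def vec (r : ℝ) (h : ℕ) (x : Fin 3 → ℕ) : Fin 3 → ℝ := fun i => r ^ ((x i : ℤ) - h)

/-- the edge atom `1 - e_a` -/
noncomputable def nu (a : Fin 3) : Fin 3 → ℝ := fun b => if b = a then 0 else 1

/-- value of the state -/
noncomputable def VV (r : ℝ) (m st al : ℕ) (G : (Fin 3 → ℝ) → ℝ) : ℝ :=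
  ∑ x ∈ TT (2 * m), ((cc m st x : ℝ) / 2 ^ 32) * G (vec r (2 * m) x) +
    ((al : ℝ) / 2 ^ 32) * ∑ a, G (nu a)

theorem vec_nonneg {r : ℝ} (hr : 0 < r) (h : ℕ) (x : Fin 3 → ℕ) (a : Fin 3) : 0 ≤ vec r h x a :=
  (zpow_pos hr _).le

theorem nu_nonneg (a b : Fin 3) : 0 ≤ nu a b := by
  unfold nu; split_ifs <;> norm_num

theorem nu_perm (a : Fin 3) (σ : Equiv.Perm (Fin 3)) :
    (fun b => nu a (σ b)) = nu (σ.symm a) := by
  funext b
  unfold nu
  have : (σ b = a) ↔ (b = σ.symm a) := by rw [Equiv.eq_symm_apply]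
  simp only [this]

theorem VV_perm (r : ℝ) (m st al : ℕ) (G : (Fin 3 → ℝ) → ℝ) (σ : Equiv.Perm (Fin 3)) :
    VV r m st al (fun v => G (fun a => v (σ a))) = VV r m st al G := by
  unfold VV
  congr 1
  · have e := sum_perm (2 * m) σ (fun x => ((cc m st x : ℝ) / 2 ^ 32) * G (vec r (2 * m) x))
    rw [← e]
    refine sum_congr rfl fun x hx => ?_
    rw [cc_perm hx σ]
    rfl
  · congr 1
    simp only [nu_perm]
    exact Equiv.sum_comp σ.symm (fun a => G (nu a))

theorem VV_symG (r : ℝ) (m st al : ℕ) (G : (Fin 3 → ℝ) → ℝ) :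
    VV r m st al (symG G) = VV r m st al G := by
  have hc : (0 : ℝ) < Fintype.card (Equiv.Perm (Fin 3)) := by
    exact_mod_cast Fintype.card_pos
  have h1 : VV r m st al (symG G) = (1 / (Fintype.card (Equiv.Perm (Fin 3)) : ℝ)) *
      ∑ σ : Equiv.Perm (Fin 3), VV r m st al (fun v => G (fun a => v (σ a))) := by
    unfold VV symG
    rw [sum_add_distrib, mul_add]
    congr 1
    · rw [sum_comm, mul_sum]
      refine sum_congr rfl fun x _ => ?_
      rw [mul_sum, mul_sum, mul_sum]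
      refine sum_congr rfl fun σ _ => ?_
      ring
    · rw [← mul_sum, ← mul_sum, sum_comm]
      ring
  rw [h1]
  simp only [VV_perm]
  rw [sum_const, nsmul_eq_mul, card_univ]
  field_simp

/-- the bound for symmetric functionals gives the bound for all functionals -/
theorem VV_all {r : ℝ} {m st al : ℕ} {ι : Type*} {W : ι → Fin 3 → ℝ} (hW : IsExp W)
    (hs : IsSymm W) (h : ∀ G : (Fin 3 → ℝ) → ℝ, GG G → GSym G → VV r m st al G ≤ Ex G W)
    (G : (Fin 3 → ℝ) → ℝ) (hG : GG G) : VV r m st al G ≤ Ex G W := by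
  rw [← VV_symG, ← Ex_symG (by norm_num) hW hs hG]
  exact h _ hG.symG (gsym_symG G)

theorem chv_half (v : Fin 3 → ℝ) (c : Fin 3) :
    chv (-1 / 2) v c = (v 0 + v 1 + v 2 - v c) / 2 := by
  unfold chv mass
  rw [Fin.sum_univ_three]
  push_cast
  ring

theorem chv_perm (β : ℝ) (v : Fin 3 → ℝ) (σ : Equiv.Perm (Fin 3)) :
    chv β (fun a => v (σ a)) = fun a => chv β v (σ a) := by
  funext a
  unfold chv mass
  rw [Equiv.sum_comp σ (fun b => v b)]

/-- index of the edge atom -/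
noncomputable def nuI (m : ℕ) : ℕ := (2 * m + 1) * (2 * m + 1)

/-- the sorted triple of an index -/
noncomputable def trip (m n : ℕ) : Fin 3 → ℕ :=
  ![2 * m + n % (2 * m + 1), m + n / (2 * m + 1),
    6 * m - (2 * m + n % (2 * m + 1)) - (m + n / (2 * m + 1))]

/-- value of an index -/
noncomputable def phi (r : ℝ) (m : ℕ) (G : (Fin 3 → ℝ) → ℝ) (n : ℕ) : ℝ :=
  if n = nuI m then G (nu 0) else G (vec r (2 * m) (trip m n))

theorem phi_nonneg {r : ℝ} (hr : 0 < r) (m : ℕ) {G : (Fin 3 → ℝ) → ℝ} (hG : GG G) (n : ℕ) :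
    0 ≤ phi r m G n := by
  unfold phi
  split_ifs
  · exact hG.nonneg _ (nu_nonneg 0)
  · exact hG.nonneg _ (vec_nonneg hr _ _)

/-- the vector of a target -/
noncomputable def uvec (r : ℝ) (m x : ℕ) (c : Fin 3) : ℝ :=
  if tidx x = nuI m then (if tcode x = (c : ℕ) then 0 else 1) else
    r ^ (((perm3 (tcode x) c (trip m (tidx x) 0) (trip m (tidx x) 1) (trip m (tidx x) 2) : ℕ) : ℤ)
      - (2 * m : ℕ))

theorem uvec_nonneg {r : ℝ} (hr : 0 < r) (m x : ℕ) (c : Fin 3) : 0 ≤ uvec r m x c := by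
  unfold uvec
  split_ifs
  · exact le_rfl
  · norm_num
  · exact (zpow_pos hr _).le

theorem perm3_ex (code : ℕ) : ∃ σ : Equiv.Perm (Fin 3), ∀ (t : Fin 3 → ℕ) (c : Fin 3),
    perm3 code c (t 0) (t 1) (t 2) = t (σ c) := by
  unfold perm3
  simp only [cond_beq]
  by_cases h0 : code = 0
  · refine ⟨1, fun t c => ?_⟩
    rw [if_pos h0]; fin_cases c <;> rfl
  simp only [if_neg h0]
  by_cases h1 : code = 1
  · refine ⟨Equiv.swap 1 2, fun t c => ?_⟩
    rw [if_pos h1]; fin_cases c <;> rfl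
  simp only [if_neg h1]
  by_cases h2 : code = 2
  · refine ⟨Equiv.swap 0 1, fun t c => ?_⟩
    rw [if_pos h2]; fin_cases c <;> rfl
  simp only [if_neg h2]
  by_cases h3 : code = 3
  · refine ⟨Equiv.swap 0 1 * Equiv.swap 1 2, fun t c => ?_⟩
    rw [if_pos h3]; fin_cases c <;> rfl
  simp only [if_neg h3]
  by_cases h4 : code = 4
  · refine ⟨Equiv.swap 1 2 * Equiv.swap 0 1, fun t c => ?_⟩
    rw [if_pos h4]; fin_cases c <;> rfl
  simp only [if_neg h4]
  · refine ⟨Equiv.swap 0 2, fun t c => ?_⟩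
    fin_cases c <;> rfl

theorem uvec_val {r : ℝ} {m x : ℕ} {G : (Fin 3 → ℝ) → ℝ} (hG : GSym G)
    (hx : tvalid m x = true) (ht : tco x ≠ 0) : G (uvec r m x) = phi r m G (tidx x) := by
  unfold tvalid at hx
  simp only [cond_beq, cond_ble] at hx
  rw [if_neg ht] at hx
  unfold phi
  by_cases hn : tidx x = nuI m
  · rw [if_pos hn]
    have hn' : tidx x = Nat.mul (Nat.add (Nat.mul 2 m) 1) (Nat.add (Nat.mul 2 m) 1) := hn
    rw [if_pos hn'] at hx
    have hc : tcode x ≤ 2 := Nat.le_of_ble_eq_true hx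
    have e : uvec r m x = nu ⟨tcode x, by omega⟩ := by
      funext c
      unfold uvec nu
      rw [if_pos hn]
      have : (tcode x = (c : ℕ)) ↔ (c = (⟨tcode x, by omega⟩ : Fin 3)) := by
        rw [Fin.ext_iff]
        exact eq_comm
      simp only [this]
    rw [e]
    have h := hG (Equiv.swap 0 ⟨tcode x, by omega⟩) (nu 0)
    rw [nu_perm] at h
    rw [← h]
    congr 2
  · rw [if_neg hn]
    obtain ⟨σ, hσ⟩ := perm3_ex (tcode x)
    have e : uvec r m x = fun c => vec r (2 * m) (trip m (tidx x)) (σ c) := by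
      funext c
      unfold uvec vec
      rw [if_neg hn, hσ]
    rw [e]
    exact hG σ _

end Crest.Agent.R163.Ck
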