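import Mathlib

/-!
# Row 163: kernel checked Blackwell chain for `b = 4`, `lam = -1/2` (helper56): the checker

State: `st` (packed coefficients, base `2^32`, of the sorted lattice triples `hi ≥ mid ≥ lo`,
`hi + mid + lo = 6 m`, index `(hi - 2m) + (2m+1) (mid - m)`) and `al`.
-/

set_option autoImplicit false

namespace Crest.Agent.R163.Ck

/-- `cond` by the recursor -/
noncomputable def cnd {α : Type*} (c : Bool) (x y : α) : α := Bool.rec y x c

/-- `∑ f i` over `i < n`, `s ≤ i < s + 2^k` -/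
noncomputable def bsum (n : ℕ) (f : ℕ → ℕ) (k s : ℕ) : ℕ :=
  Nat.rec (motive := fun _ => ℕ → ℕ) (fun s => cnd (Nat.ble n s) 0 (f s))
    (fun k ih s => cnd (Nat.ble n (Nat.add s (Nat.pow 2 k))) (ih s)
      (Nat.add (ih s) (ih (Nat.add s (Nat.pow 2 k))))) k s

/-- conjunction of `f i` over `i < n`, `s ≤ i < s + 2^k` -/
noncomputable def ball (n : ℕ) (f : ℕ → Bool) (k s : ℕ) : Bool :=
  Nat.rec (motive := fun _ => ℕ → Bool) (fun s => cnd (Nat.ble n s) true (f s))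
    (fun k ih s => cnd (ih s)
      (cnd (Nat.ble n (Nat.add s (Nat.pow 2 k))) true (ih (Nat.add s (Nat.pow 2 k)))) false) k s

/-- digit `n` in base `2^K` -/
noncomputable def dig (K st n : ℕ) : ℕ := Nat.mod (Nat.shiftRight st (Nat.mul K n)) (Nat.pow 2 K)

noncomputable def mx (a b : ℕ) : ℕ := cnd (Nat.ble a b) b a
noncomputable def mn (a b : ℕ) : ℕ := cnd (Nat.ble a b) a b

/-- bucket index of the sorted triple with largest entry `hi` and smallest entry `lo` -/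
noncomputable def ix (m hi lo : ℕ) : ℕ :=
  Nat.add (Nat.sub hi (Nat.mul 2 m)) (Nat.mul (Nat.add (Nat.mul 2 m) 1)
    (Nat.sub (Nat.sub (Nat.mul 5 m) hi) lo))

/-- coefficient of the state at `(a, b, 6 m - a - b)` -/
noncomputable def cf (m st a b : ℕ) : ℕ :=
  cnd (Nat.ble (Nat.mul 2 m) (Nat.add a b))
    (cnd (Nat.ble (Nat.add a b) (Nat.mul 6 m))
      ((fun c => dig 32 st (ix m (mx a (mx b c)) (mn a (mn b c))))
        (Nat.sub (Nat.sub (Nat.mul 6 m) a) b)) 0) 0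

/-- number of lattice points per side, minus one, plus one -/
noncomputable def RR (m : ℕ) : ℕ := Nat.add (Nat.mul 4 m) 1
noncomputable def WW (m : ℕ) : ℕ := Nat.add (Nat.mul 16 m) 1

/-- the packed polynomial `∑ c(a,b) B^(a + W b)`, `B = 2^136`, `W = 16 m + 1` -/
noncomputable def npoly (m st : ℕ) : ℕ :=
  bsum (RR m) (fun b => Nat.shiftLeft
    (bsum (RR m) (fun a => Nat.shiftLeft (cf m st a b) (Nat.mul 136 a)) 6 0)
    (Nat.mul (Nat.mul 136 (WW m)) b)) 6 0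

/-- `∑ c(a,b)` -/
noncomputable def csum (m st : ℕ) : ℕ :=
  bsum (RR m) (fun b => bsum (RR m) (fun a => cf m st a b) 6 0) 6 0

/-- `∑ c(a,b) p^a s^(4m-a)` -/
noncomputable def wsum (m p s st : ℕ) : ℕ :=
  bsum (RR m) (fun a => Nat.mul (Nat.mul (Nat.pow p a) (Nat.pow s (Nat.sub (Nat.mul 4 m) a)))
    (bsum (RR m) (fun b => cf m st a b) 6 0)) 6 0

/-- `⌊2^16 ρ^(n - 2m)⌋` -/
noncomputable def rt (m p s n : ℕ) : ℕ :=
  Nat.div (Nat.mul (Nat.pow 2 16) (Nat.mul (Nat.pow p n) (Nat.pow s (Nat.sub (Nat.mul 4 m) n))))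
    (Nat.mul (Nat.pow p (Nat.mul 2 m)) (Nat.pow s (Nat.mul 2 m)))

/-- the packed one-dimensional polynomial `∑ c(a,b) rt(6m-a-b) Be^(a + 2b)`, `Be = 2^224` -/
noncomputable def rpoly (m p s st : ℕ) : ℕ :=
  bsum (RR m) (fun b => bsum (RR m) (fun a =>
    Nat.shiftLeft (Nat.mul (cf m st a b) (rt m p s (Nat.sub (Nat.sub (Nat.mul 6 m) a) b)))
      (Nat.mul 224 (Nat.add a (Nat.mul 2 b)))) 6 0) 6 0

/-- target `l` (80 bits: index 10, code 6, coefficient 64) of a table entry -/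
noncomputable def tg (e l : ℕ) : ℕ := dig 80 e l
noncomputable def tidx (x : ℕ) : ℕ := Nat.mod x (Nat.pow 2 10)
noncomputable def tcode (x : ℕ) : ℕ := Nat.mod (Nat.shiftRight x 10) (Nat.pow 2 6)
noncomputable def tco (x : ℕ) : ℕ := Nat.shiftRight x 16

/-- contribution `w * ∑_l t_l B'^(idx_l)`, `B' = 2^256` -/
noncomputable def item (w e : ℕ) : ℕ :=
  Nat.mul w (Nat.add (Nat.add (Nat.shiftLeft (tco (tg e 0)) (Nat.mul 256 (tidx (tg e 0))))
    (Nat.shiftLeft (tco (tg e 1)) (Nat.mul 256 (tidx (tg e 1)))))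
    (Nat.shiftLeft (tco (tg e 2)) (Nat.mul 256 (tidx (tg e 2)))))

noncomputable def mult (A B C : ℕ) : ℕ :=
  cnd (Nat.beq A B) (cnd (Nat.beq B C) 1 3) (cnd (Nat.beq B C) 3 6)

/-- first `A` in the row `B` -/
noncomputable def A0 (m B : ℕ) : ℕ := mx B (Nat.sub (Nat.mul 24 m) (Nat.mul 2 B))

/-- contribution of row `B` -/
noncomputable def rowI (m P rw B a0 : ℕ) : ℕ :=
  (fun pr => bsum (Nat.add (Nat.mul 6 m) 1) (fun k =>
    cnd (Nat.beq (dig 240 rw k) 0) 0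
    (item (Nat.mul (mult (Nat.add a0 k) B (Nat.sub (Nat.sub (Nat.mul 24 m) (Nat.add a0 k)) B))
      (dig 136 pr k)) (dig 240 rw k))) 7 0)
  (Nat.mod (Nat.shiftRight P (Nat.mul 136 (Nat.add (Nat.mul (WW m) B) a0)))
    (Nat.pow 2 (Nat.mul 136 (Nat.add (Nat.mul 6 m) 1))))

/-- row `j` of a table -/
noncomputable def row (T : List ℕ) (j : ℕ) : ℕ := T.getD j 0

noncomputable def accI (m P : ℕ) (T : List ℕ) : ℕ :=
  bsum (Nat.add (Nat.mul 8 m) 1) (fun j =>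
    rowI m P (row T j) (Nat.add (Nat.mul 4 m) j) (A0 m (Nat.add (Nat.mul 4 m) j))) 7 0

/-- contribution of the edges; `e` packed in base `2^224`; position `n = 12 m + i` -/
noncomputable def accE (m e E : ℕ) : ℕ :=
  bsum (Nat.add (Nat.mul 24 m) 1) (fun i =>
    item (Nat.mul 3 (Nat.shiftRight (dig 224 e (Nat.add (Nat.mul 12 m) i)) 64)) (dig 240 E i)) 9 0

/-- the packed bucket sums -/
noncomputable def acc (m p s st al : ℕ) (T : List ℕ) (E : ℕ) : ℕ :=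
  Nat.add (accI m (Nat.pow (npoly m st) 4) T)
    ((fun r => accE m (Nat.sub (Nat.pow (Nat.add r (Nat.shiftLeft al
      (Nat.add 16 (Nat.mul 224 (Nat.mul 6 m))))) 4) (Nat.pow r 4)) E) (rpoly m p s st))

/-- comparison of the new state with the buckets -/
noncomputable def cmp (m ac st' : ℕ) : Bool :=
  ball (Nat.add (Nat.mul 2 m) 1) (fun v => ball (Nat.add (Nat.mul 2 m) 1) (fun u =>
    -- hi = 2m + u, mid = m + v, lo = 3m - u - v
    cnd (Nat.ble v (Nat.add m u))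
      (cnd (Nat.ble (Nat.mul 2 m) (Nat.add u (Nat.mul 2 v)))
        (cnd (Nat.ble (Nat.add u v) (Nat.mul 3 m))
          (Nat.ble (Nat.shiftLeft (Nat.mul (mult (Nat.add (Nat.mul 2 m) u) (Nat.add m v)
              (Nat.sub (Nat.sub (Nat.mul 3 m) u) v))
            (dig 32 st' (Nat.add u (Nat.mul (Nat.add (Nat.mul 2 m) 1) v)))) 128)
            (dig 256 ac (Nat.add u (Nat.mul (Nat.add (Nat.mul 2 m) 1) v))))
          true) true) true) 6 0) 6 0

/-- the full check of one step -/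
noncomputable def check (m p s : ℕ) (T : List ℕ) (E st al sp st' al' : ℕ) : Bool :=
  cnd (Nat.ble (wsum m p s st) (Nat.mul sp (Nat.mul (Nat.pow p (Nat.mul 2 m)) (Nat.pow s (Nat.mul 2 m)))))
  (cnd (Nat.ble (Nat.succ (csum m st)) (Nat.pow 2 33))
  (cnd (Nat.ble al (Nat.pow 2 32))
  (cnd (Nat.ble (Nat.mul 2 (Nat.pow (Nat.add sp al) 4)) (Nat.add (Nat.pow 2 128) (Nat.pow sp 4)))
  ((fun ac => cnd (cmp m ac st')
    (Nat.ble (Nat.mul 3 (Nat.shiftLeft al' 129))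
      (Nat.add (Nat.mul 2 (dig 256 ac (Nat.mul (Nat.add (Nat.mul 2 m) 1) (Nat.add (Nat.mul 2 m) 1))))
        (Nat.mul 3 (Nat.shiftLeft (Nat.sub (Nat.add (Nat.pow 2 128) (Nat.pow sp 4))
          (Nat.mul 2 (Nat.pow (Nat.add sp al) 4))) 32)))) false)
    (acc m p s st al T E)) false) false) false) false

/-! ### table checks -/

/-- `p^n s^(M-n)` -/
noncomputable def PW (p s M n : ℕ) : ℕ := Nat.mul (Nat.pow p n) (Nat.pow s (Nat.sub M n))

/-- coordinate `r` of the permuted triple -/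
noncomputable def perm3 (code r x y z : ℕ) : ℕ :=
  -- code = 0: (x,y,z), 1: (x,z,y), 2: (y,x,z), 3: (y,z,x), 4: (z,x,y), 5: (z,y,x)
  cnd (Nat.beq code 0) (cnd (Nat.beq r 0) x (cnd (Nat.beq r 1) y z))
  (cnd (Nat.beq code 1) (cnd (Nat.beq r 0) x (cnd (Nat.beq r 1) z y))
  (cnd (Nat.beq code 2) (cnd (Nat.beq r 0) y (cnd (Nat.beq r 1) x z))
  (cnd (Nat.beq code 3) (cnd (Nat.beq r 0) y (cnd (Nat.beq r 1) z x))
  (cnd (Nat.beq code 4) (cnd (Nat.beq r 0) z (cnd (Nat.beq r 1) x y))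
    (cnd (Nat.beq r 0) z (cnd (Nat.beq r 1) y x))))))

/-- `t * (u_l)_r` for target `x`; exponent shift `d`, total `M`, `nuv` the value of the edge atom -/
noncomputable def uval (m p s M d nuv x r : ℕ) : ℕ :=
  Nat.mul (tco x) (cnd (Nat.beq (tidx x) (Nat.mul (Nat.add (Nat.mul 2 m) 1) (Nat.add (Nat.mul 2 m) 1)))
    (cnd (Nat.beq (tcode x) r) 0 nuv)
    ((fun hi => (fun md => PW p s M (Nat.add d (perm3 (tcode x) r hi md
        (Nat.sub (Nat.sub (Nat.mul 6 m) hi) md)))) (Nat.add m (Nat.div (tidx x) (Nat.add (Nat.mul 2 m) 1))))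
      (Nat.add (Nat.mul 2 m) (Nat.mod (tidx x) (Nat.add (Nat.mul 2 m) 1)))))

/-- a target is either of coefficient 0 or valid -/
noncomputable def tvalid (m x : ℕ) : Bool :=
  cnd (Nat.beq (tco x) 0) true
  (cnd (Nat.beq (tidx x) (Nat.mul (Nat.add (Nat.mul 2 m) 1) (Nat.add (Nat.mul 2 m) 1)))
    (Nat.ble (tcode x) 2)
    ((fun u v => cnd (Nat.ble v (Nat.mul 2 m)) (cnd (Nat.ble v (Nat.add m u))
      (cnd (Nat.ble (Nat.mul 2 m) (Nat.add u (Nat.mul 2 v)))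
        (Nat.ble (Nat.add u v) (Nat.mul 3 m)) false) false) false)
      (Nat.mod (tidx x) (Nat.add (Nat.mul 2 m) 1)) (Nat.div (tidx x) (Nat.add (Nat.mul 2 m) 1))))

noncomputable def usum (m p s M d nuv e r : ℕ) : ℕ :=
  Nat.mul 2 (Nat.add (Nat.add (uval m p s M d nuv (tg e 0) r) (uval m p s M d nuv (tg e 1) r))
    (uval m p s M d nuv (tg e 2) r))

noncomputable def evalid (m e : ℕ) : Bool :=
  cnd (tvalid m (tg e 0)) (cnd (tvalid m (tg e 1)) (tvalid m (tg e 2)) false) false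

/-- interior entry -/
noncomputable def okI (m p s e A B : ℕ) : Bool :=
  cnd (Nat.beq e 0) true
  (cnd (evalid m e)
  (cnd (Nat.ble (Nat.add A B) (Nat.mul 24 m))
  (cnd (Nat.ble A (Nat.mul 16 m))
  ((fun C => cnd (Nat.ble (usum m p s (Nat.mul 16 m) (Nat.mul 6 m) (PW p s (Nat.mul 16 m) (Nat.mul 8 m)) e 0)
      (Nat.shiftLeft (Nat.add (PW p s (Nat.mul 16 m) B) (PW p s (Nat.mul 16 m) C)) 32))
    (cnd (Nat.ble (usum m p s (Nat.mul 16 m) (Nat.mul 6 m) (PW p s (Nat.mul 16 m) (Nat.mul 8 m)) e 1)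
      (Nat.shiftLeft (Nat.add (PW p s (Nat.mul 16 m) A) (PW p s (Nat.mul 16 m) C)) 32))
    (Nat.ble (usum m p s (Nat.mul 16 m) (Nat.mul 6 m) (PW p s (Nat.mul 16 m) (Nat.mul 8 m)) e 2)
      (Nat.shiftLeft (Nat.add (PW p s (Nat.mul 16 m) A) (PW p s (Nat.mul 16 m) B)) 32)) false) false)
    (Nat.sub (Nat.sub (Nat.mul 24 m) A) B)) false) false) false)

/-- edge entry, `δ = i - 12 m` -/
noncomputable def okE (m p s e i : ℕ) : Bool :=
  cnd (evalid m e)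
  (cnd (Nat.ble (usum m p s (Nat.mul 24 m) (Nat.mul 10 m) (PW p s (Nat.mul 24 m) (Nat.mul 12 m)) e 0)
      (Nat.shiftLeft (Nat.add (PW p s (Nat.mul 24 m) i) (PW p s (Nat.mul 24 m) (Nat.mul 12 m))) 32))
    (cnd (Nat.ble (usum m p s (Nat.mul 24 m) (Nat.mul 10 m) (PW p s (Nat.mul 24 m) (Nat.mul 12 m)) e 1)
      (Nat.shiftLeft (PW p s (Nat.mul 24 m) (Nat.mul 12 m)) 32))
    (Nat.ble (usum m p s (Nat.mul 24 m) (Nat.mul 10 m) (PW p s (Nat.mul 24 m) (Nat.mul 12 m)) e 2)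
      (Nat.shiftLeft (PW p s (Nat.mul 24 m) i) 32)) false) false) false

noncomputable def tabOK (m p s : ℕ) (T : List ℕ) (E : ℕ) : Bool :=
  cnd (ball (Nat.add (Nat.mul 8 m) 1) (fun j => ball (Nat.add (Nat.mul 6 m) 1) (fun k =>
      okI m p s (dig 240 (row T j) k) (Nat.add (A0 m (Nat.add (Nat.mul 4 m) j)) k)
        (Nat.add (Nat.mul 4 m) j)) 7 0) 7 0)
    (ball (Nat.add (Nat.mul 24 m) 1) (fun i => okE m p s (dig 240 E i) i) 9 0) false

/-! ### change of lattice -/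

/-- state `st2` on the lattice with `r2 = r1^(1/2)`: centred exponents doubled, dropping points -/
noncomputable def conv (m m2 st st2 : ℕ) : Bool :=
  ball (RR m2) (fun b => ball (RR m2) (fun a =>
    Nat.ble (cf m2 st2 a b)
      (cnd (Nat.beq (Nat.mod (Nat.add (Nat.add a (Nat.mul 4 m)) (Nat.mul 2 m2)) 2) 0)
        (cnd (Nat.beq (Nat.mod (Nat.add (Nat.add b (Nat.mul 4 m)) (Nat.mul 2 m2)) 2) 0)
          (cf m st (Nat.div (Nat.sub (Nat.add a (Nat.mul 4 m)) (Nat.mul 2 m2)) 2)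
            (Nat.div (Nat.sub (Nat.add b (Nat.mul 4 m)) (Nat.mul 2 m2)) 2)) 0) 0)) 6 0) 6 0

/-! ### final bounds -/

/-- `⌊2^33 e₂ / e₁⌋` at `(a, b, 6m - a - b)` -/
noncomputable def gx (m p s a b : ℕ) : ℕ :=
  (fun c => Nat.div (Nat.shiftLeft (Nat.add (Nat.add (PW p s (Nat.mul 4 m) (Nat.sub (Nat.mul 4 m) a))
      (PW p s (Nat.mul 4 m) (Nat.sub (Nat.mul 4 m) b))) (PW p s (Nat.mul 4 m) (Nat.sub (Nat.mul 4 m) c))) 33)
    (Nat.add (Nat.add (PW p s (Nat.mul 4 m) a) (PW p s (Nat.mul 4 m) b)) (PW p s (Nat.mul 4 m) c)))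
  (Nat.sub (Nat.sub (Nat.mul 6 m) a) b)

/-- `∑ c(a,b) gx(a,b)` -/
noncomputable def xsum (m p s st : ℕ) : ℕ :=
  bsum (RR m) (fun b => bsum (RR m) (fun a =>
    cnd (Nat.beq (cf m st a b) 0) 0 (Nat.mul (cf m st a b) (gx m p s a b))) 6 0) 6 0

/-- `rt n ≤ 2^20` for `n ≤ 4m` -/
noncomputable def rtOK (m p s : ℕ) : Bool :=
  ball (RR m) (fun n => Nat.ble (rt m p s n) (Nat.pow 2 20)) 6 0

end Crest.Agent.R163.Ck
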