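import Crest.Agent.R163.CkD

/-!
# Row 163, chain: table entries
-/

set_option autoImplicit false

namespace Crest.Agent.R163.Ck

open Finset

theorem uval_real {r : ℝ} {m p s M d nuv x : ℕ} {S : ℝ}
    (hPW : ∀ n ≤ 4 * m, ((PW p s M (d + n) : ℕ) : ℝ) = S * r ^ ((n : ℤ) - (2 * m : ℕ)))
    (hnu : (nuv : ℝ) = S) (hx : tvalid m x = true) (c : Fin 3) :
    ((uval m p s M d nuv x c : ℕ) : ℝ) = tco x * (S * uvec r m x c) := by
  by_cases ht : tco x = 0
  · unfold uval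
    rw [ht]
    show ((0 * _ : ℕ) : ℝ) = _
    simp
  unfold tvalid at hx
  simp only [cond_beq, cond_ble] at hx
  rw [if_neg ht] at hx
  unfold uval
  show ((tco x * _ : ℕ) : ℝ) = _
  rw [Nat.cast_mul]
  congr 1
  by_cases hn : tidx x = nuI m
  · have hn' : tidx x = Nat.mul (Nat.add (Nat.mul 2 m) 1) (Nat.add (Nat.mul 2 m) 1) := hn
    unfold uvec
    rw [if_pos hn, cond_beq, if_pos hn', cond_beq]
    split_ifs with hc
    · simp
    · rw [hnu, mul_one]
  · have hn' : ¬ tidx x = Nat.mul (Nat.add (Nat.mul 2 m) 1) (Nat.add (Nat.mul 2 m) 1) := hn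
    rw [if_neg hn'] at hx
    have hx2 : (if tidx x / (2 * m + 1) ≤ 2 * m then
        if tidx x / (2 * m + 1) ≤ m + tidx x % (2 * m + 1) then
        if 2 * m ≤ tidx x % (2 * m + 1) + 2 * (tidx x / (2 * m + 1)) then
          Nat.ble (tidx x % (2 * m + 1) + tidx x / (2 * m + 1)) (3 * m) else false
        else false else false) = true := hx
    have hu : tidx x % (2 * m + 1) ≤ 2 * m := Nat.lt_succ_iff.1 (Nat.mod_lt _ (by omega))
    split_ifs at hx2 with h1 h2 h3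
    have h4 := Nat.le_of_ble_eq_true hx2
    unfold uvec
    rw [if_neg hn, cond_beq, if_neg hn']
    obtain ⟨σ, hσ⟩ := perm3_ex (tcode x)
    have hle : ∀ c, trip m (tidx x) c ≤ 4 * m := by
      intro c
      fin_cases c
      · show 2 * m + tidx x % (2 * m + 1) ≤ 4 * m
        omega
      · show m + tidx x / (2 * m + 1) ≤ 4 * m
        omega
      · show 6 * m - (2 * m + tidx x % (2 * m + 1)) - (m + tidx x / (2 * m + 1)) ≤ 4 * m
        omega
    have key := hPW (perm3 (tcode x) c (trip m (tidx x) 0) (trip m (tidx x) 1)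
      (trip m (tidx x) 2)) (by rw [hσ]; exact hle _)
    rw [← key]
    rfl

theorem evalid_iff {m e : ℕ} (h : evalid m e = true) :
    tvalid m (tg e 0) = true ∧ tvalid m (tg e 1) = true ∧ tvalid m (tg e 2) = true := by
  unfold evalid at h
  cases h0 : tvalid m (tg e 0) <;> rw [h0] at h
  · exact absurd h (by simp)
  cases h1 : tvalid m (tg e 1) <;> rw [h1] at h
  · exact absurd h (by simp)
  exact ⟨rfl, rfl, h⟩

theorem entry_ge {r : ℝ} (hr : 0 < r) {m p s M d nuv e : ℕ} {G : (Fin 3 → ℝ) → ℝ} (hG : GG G)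
    (hs : GSym G) {S : ℝ} (hS : 0 < S)
    (hPW : ∀ n ≤ 4 * m, ((PW p s M (d + n) : ℕ) : ℝ) = S * r ^ ((n : ℤ) - (2 * m : ℕ)))
    (hnu : (nuv : ℝ) = S) (he : evalid m e = true) (v : Fin 3 → ℝ)
    (hv : ∀ c : Fin 3, ((usum m p s M d nuv e c : ℕ) : ℝ) ≤ 2 ^ 33 * S * v c) :
    ∑ l ∈ range 3, ((tco (tg e l) : ℝ) / 2 ^ 32) * phi r m G (tidx (tg e l)) ≤ G v := by
  obtain ⟨h0, h1, h2⟩ := evalid_iff he
  have hval : ∀ l ∈ range 3, tvalid m (tg e l) = true := by
    intro l hl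
    have : l < 3 := mem_range.1 hl
    interval_cases l
    · exact h0
    · exact h1
    · exact h2
  have hc := hG.comb (range 3) (fun l => (tco (tg e l) : ℝ) / 2 ^ 32) (fun l => by positivity)
    (fun l => uvec r m (tg e l)) (fun l c => uvec_nonneg hr m _ c) v ?_
  · refine le_trans (le_of_eq (sum_congr rfl fun l hl => ?_)) hc
    by_cases ht : tco (tg e l) = 0
    · rw [ht]; simp
    · rw [uvec_val hs (hval l hl) ht]
  · intro c
    have h := hv c
    have e1 : ((usum m p s M d nuv e c : ℕ) : ℝ) =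
        2 * ((uval m p s M d nuv (tg e 0) c : ℕ) + (uval m p s M d nuv (tg e 1) c : ℕ) +
          (uval m p s M d nuv (tg e 2) c : ℕ)) := by
      unfold usum
      show ((2 * (_ + _ + _) : ℕ) : ℝ) = _
      push_cast
      ring
    rw [e1, uval_real hPW hnu h0, uval_real hPW hnu h1, uval_real hPW hnu h2] at h
    rw [sum_range_succ, sum_range_succ, sum_range_one]
    have h3 : S * ((tco (tg e 0) : ℝ) * uvec r m (tg e 0) c + tco (tg e 1) * uvec r m (tg e 1) c +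
        tco (tg e 2) * uvec r m (tg e 2) c) ≤ S * (2 ^ 32 * v c) := by
      have e3 : 2 ^ 33 * S * v c = 2 * (S * (2 ^ 32 * v c)) := by ring
      have e4 : 2 * ((tco (tg e 0) : ℝ) * (S * uvec r m (tg e 0) c) +
          tco (tg e 1) * (S * uvec r m (tg e 1) c) + tco (tg e 2) * (S * uvec r m (tg e 2) c)) =
          2 * (S * ((tco (tg e 0) : ℝ) * uvec r m (tg e 0) c + tco (tg e 1) * uvec r m (tg e 1) c +
          tco (tg e 2) * uvec r m (tg e 2) c)) := by ring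
      rw [e3, e4] at h
      exact le_of_mul_le_mul_left h two_pos
    have h4 := le_of_mul_le_mul_left h3 hS
    have e2 : (tco (tg e 0) : ℝ) / 2 ^ 32 * uvec r m (tg e 0) c +
        (tco (tg e 1) : ℝ) / 2 ^ 32 * uvec r m (tg e 1) c +
        (tco (tg e 2) : ℝ) / 2 ^ 32 * uvec r m (tg e 2) c =
        ((tco (tg e 0) : ℝ) * uvec r m (tg e 0) c + tco (tg e 1) * uvec r m (tg e 1) c +
        tco (tg e 2) * uvec r m (tg e 2) c) / 2 ^ 32 := by ring
    rw [e2, div_le_iff₀ (by positivity)]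
    linarith

theorem PW_real {p s : ℕ} (hs : 0 < s) (M n : ℕ) (h : n ≤ M) :
    ((PW p s M n : ℕ) : ℝ) = (s : ℝ) ^ M * ((p : ℝ) / s) ^ n := by
  have hs' : (s : ℝ) ≠ 0 := by exact_mod_cast hs.ne'
  unfold PW
  show ((p ^ n * s ^ (M - n) : ℕ) : ℝ) = _
  push_cast
  obtain ⟨k, rfl⟩ := Nat.exists_eq_add_of_le h
  rw [Nat.add_sub_cancel_left, div_pow, pow_add]
  field_simp

theorem shiftLeft_real (a k : ℕ) : ((a <<< k : ℕ) : ℝ) = a * 2 ^ k := by
  rw [Nat.shiftLeft_eq]; push_cast; ring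

theorem toreal {a b c : ℕ} (h : a ≤ Nat.shiftLeft (Nat.add b c) 32) :
    (a : ℝ) ≤ ((b : ℝ) + c) * 2 ^ 32 := by
  have h1 : a ≤ (b + c) <<< 32 := h
  rw [Nat.shiftLeft_eq] at h1
  exact_mod_cast h1

theorem toreal1 {a b : ℕ} (h : a ≤ Nat.shiftLeft b 32) : (a : ℝ) ≤ (b : ℝ) * 2 ^ 32 := by
  have h1 : a ≤ b <<< 32 := h
  rw [Nat.shiftLeft_eq] at h1
  exact_mod_cast h1

/-- interior entries -/
theorem okI_ge {m p s : ℕ} (hp : 0 < p) (hs : 0 < s) {e A B : ℕ} (he : e ≠ 0)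
    (h : okI m p s e A B = true) (hBA : B ≤ A) (hCB : 24 * m - A - B ≤ B)
    {G : (Fin 3 → ℝ) → ℝ} (hG : GG G) (hsG : GSym G) :
    A + B ≤ 24 * m ∧ A ≤ 16 * m ∧
    ∑ l ∈ range 3, ((tco (tg e l) : ℝ) / 2 ^ 32) * phi ((p : ℝ) / s) m G (tidx (tg e l)) ≤
      G (chv (-1 / 2) (vec ((p : ℝ) / s) (8 * m) ![A, B, 24 * m - A - B])) := by
  unfold okI at h
  simp only [cond_beq, if_neg he, cond_ble] at h
  cases hv : evalid m e <;> rw [hv] at h
  · exact absurd h (by simp)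
  simp only [cnd_true] at h
  split_ifs at h with h1 h2 h3 h4
  have h1' : A + B ≤ 24 * m := h1
  have h2' : A ≤ 16 * m := h2
  have h5 := Nat.le_of_ble_eq_true h
  refine ⟨h1', h2', ?_⟩
  have hr : (0 : ℝ) < (p : ℝ) / s := by positivity
  set r : ℝ := (p : ℝ) / s with hrdef
  have hsR : (0 : ℝ) < s := by exact_mod_cast hs
  have hexp : ∀ n k : ℕ, r ^ (8 * m + k) * r ^ ((n : ℤ) - (2 * m : ℕ)) = r ^ (6 * m + n + k) := by
    intro n k
    rw [← zpow_natCast r (8 * m + k), ← zpow_natCast r (6 * m + n + k), ← zpow_add₀ hr.ne']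
    congr 1
    push_cast
    ring
  refine entry_ge (p := p) (s := s) (M := 16 * m) (d := 6 * m) (nuv := PW p s (16 * m) (8 * m))
    (S := (s : ℝ) ^ (16 * m) * r ^ (8 * m)) hr hG hsG (by positivity) ?_ ?_ hv _ ?_
  · intro n hn
    rw [PW_real hs _ _ (by omega), mul_assoc]
    have := hexp n 0
    rw [add_zero, add_zero] at this
    rw [this]
  · rw [PW_real hs _ _ (by omega)]
  · intro c
    rw [chv_half]
    have e8 : ∀ n : ℕ, n ≤ 16 * m → ((PW p s (16 * m) n : ℕ) : ℝ) =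
        (s : ℝ) ^ (16 * m) * r ^ (8 * m) * r ^ ((n : ℤ) - (8 * m : ℕ)) := by
      intro n hn
      rw [PW_real hs _ _ hn, mul_assoc]
      congr 1
      rw [← zpow_natCast r (8 * m), ← zpow_natCast r n, ← zpow_add₀ hr.ne']
      congr 1
      push_cast
      ring
    have hA := e8 A (by omega)
    have hB := e8 B (by omega)
    have hC := e8 (24 * m - A - B) (by omega)
    have v0 : vec r (8 * m) ![A, B, 24 * m - A - B] 0 = r ^ ((A : ℤ) - (8 * m : ℕ)) := rfl
    have v1 : vec r (8 * m) ![A, B, 24 * m - A - B] 1 = r ^ ((B : ℤ) - (8 * m : ℕ)) := rfl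
    have v2 : vec r (8 * m) ![A, B, 24 * m - A - B] 2 =
      r ^ (((24 * m - A - B : ℕ) : ℤ) - (8 * m : ℕ)) := rfl
    have v0' : vec r (8 * m) ![A, B, 24 * m - A - B] 0 + vec r (8 * m) ![A, B, 24 * m - A - B] 1 +
        vec r (8 * m) ![A, B, 24 * m - A - B] 2 = r ^ ((A : ℤ) - (8 * m : ℕ)) +
        r ^ ((B : ℤ) - (8 * m : ℕ)) + r ^ (((24 * m - A - B : ℕ) : ℤ) - (8 * m : ℕ)) := rfl
    rw [v0']
    fin_cases c
    · refine (toreal (b := PW p s (16 * m) B) (c := PW p s (16 * m) (24 * m - A - B)) h3).trans (le_of_eq ?_)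
      rw [hB, hC]
      show _ = 2 ^ 33 * (↑s ^ (16 * m) * r ^ (8 * m)) * ((_ + _ + _ -
        vec r (8 * m) ![A, B, 24 * m - A - B] 0) / 2)
      rw [v0]
      ring
    · refine (toreal (b := PW p s (16 * m) A) (c := PW p s (16 * m) (24 * m - A - B)) h4).trans (le_of_eq ?_)
      rw [hA, hC]
      show _ = 2 ^ 33 * (↑s ^ (16 * m) * r ^ (8 * m)) * ((_ + _ + _ -
        vec r (8 * m) ![A, B, 24 * m - A - B] 1) / 2)
      rw [v1]
      ring
    · refine (toreal (b := PW p s (16 * m) A) (c := PW p s (16 * m) B) h5).trans (le_of_eq ?_)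
      rw [hA, hB]
      show _ = 2 ^ 33 * (↑s ^ (16 * m) * r ^ (8 * m)) * ((_ + _ + _ -
        vec r (8 * m) ![A, B, 24 * m - A - B] 2) / 2)
      rw [v2]
      ring

/-- vector of an edge product -/
noncomputable def evc (r : ℝ) (d : ℤ) : Fin 3 → ℝ := ![0, r ^ d, 1]

/-- edge entries -/
theorem okE_ge {m p s : ℕ} (hp : 0 < p) (hs : 0 < s) {e i : ℕ} (hi : i ≤ 24 * m)
    (h : okE m p s e i = true) {G : (Fin 3 → ℝ) → ℝ} (hG : GG G) (hsG : GSym G) :
    ∑ l ∈ range 3, ((tco (tg e l) : ℝ) / 2 ^ 32) * phi ((p : ℝ) / s) m G (tidx (tg e l)) ≤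
      G (chv (-1 / 2) (evc ((p : ℝ) / s) ((i : ℤ) - (12 * m : ℕ)))) := by
  unfold okE at h
  simp only [cond_ble] at h
  cases hv : evalid m e <;> rw [hv] at h
  · exact absurd h (by simp)
  simp only [cnd_true] at h
  split_ifs at h with h3 h4
  have h5 := Nat.le_of_ble_eq_true h
  have hr : (0 : ℝ) < (p : ℝ) / s := by positivity
  set r : ℝ := (p : ℝ) / s with hrdef
  have hsR : (0 : ℝ) < s := by exact_mod_cast hs
  refine entry_ge (p := p) (s := s) (M := 24 * m) (d := 10 * m) (nuv := PW p s (24 * m) (12 * m))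
    (S := (s : ℝ) ^ (24 * m) * r ^ (12 * m)) hr hG hsG (by positivity) ?_ ?_ hv _ ?_
  · intro n hn
    rw [PW_real hs _ _ (by omega), mul_assoc, ← hrdef]
    congr 1
    rw [← zpow_natCast r (12 * m), ← zpow_natCast r (10 * m + n), ← zpow_add₀ hr.ne']
    congr 1
    push_cast
    ring
  · rw [PW_real hs _ _ (by omega)]
  · intro c
    rw [chv_half]
    have hA : ((PW p s (24 * m) i : ℕ) : ℝ) =
        (s : ℝ) ^ (24 * m) * r ^ (12 * m) * r ^ ((i : ℤ) - (12 * m : ℕ)) := by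
      rw [PW_real hs _ _ hi, mul_assoc, ← hrdef]
      congr 1
      rw [← zpow_natCast r (12 * m), ← zpow_natCast r i, ← zpow_add₀ hr.ne']
      congr 1
      ring
    have hB : ((PW p s (24 * m) (12 * m) : ℕ) : ℝ) = (s : ℝ) ^ (24 * m) * r ^ (12 * m) := by
      rw [PW_real hs _ _ (by omega)]
    have v0' : evc r ((i : ℤ) - (12 * m : ℕ)) 0 + evc r ((i : ℤ) - (12 * m : ℕ)) 1 +
        evc r ((i : ℤ) - (12 * m : ℕ)) 2 = 0 + r ^ ((i : ℤ) - (12 * m : ℕ)) + 1 := rfl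
    rw [v0']
    fin_cases c
    · refine (toreal (b := PW p s (24 * m) i) (c := PW p s (24 * m) (12 * m)) h3).trans (le_of_eq ?_)
      rw [hA, hB]
      show _ = 2 ^ 33 * (↑s ^ (24 * m) * r ^ (12 * m)) * ((_ + _ + _ -
        evc r ((i : ℤ) - (12 * m : ℕ)) 0) / 2)
      show _ = 2 ^ 33 * (↑s ^ (24 * m) * r ^ (12 * m)) * ((_ + _ + _ - 0) / 2)
      ring
    · refine (toreal1 (b := PW p s (24 * m) (12 * m)) h4).trans (le_of_eq ?_)
      rw [hB]
      show _ = 2 ^ 33 * (↑s ^ (24 * m) * r ^ (12 * m)) * ((_ + _ + _ -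
        r ^ ((i : ℤ) - (12 * m : ℕ))) / 2)
      ring
    · refine (toreal1 (b := PW p s (24 * m) i) h5).trans (le_of_eq ?_)
      rw [hA]
      show _ = 2 ^ 33 * (↑s ^ (24 * m) * r ^ (12 * m)) * ((_ + _ + _ - 1) / 2)
      ring

end Crest.Agent.R163.Ck
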