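import Crest.Agent.R163.CkE

/-!
# Row 163, chain: the buckets
-/

set_option autoImplicit false

namespace Crest.Agent.R163.Ck

open Finset

/-- table entry -/
noncomputable def ent (T : List ℕ) (j k : ℕ) : ℕ := dig 240 (row T j) k

/-- coefficient of the interior item -/
noncomputable def wI (m P j k : ℕ) : ℕ :=
  mult (A0 m (4 * m + j) + k) (4 * m + j) (24 * m - (A0 m (4 * m + j) + k) - (4 * m + j)) *
    dig 136 P (WW m * (4 * m + j) + A0 m (4 * m + j) + k)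

/-- coefficient of the edge item -/
noncomputable def wE (m e i : ℕ) : ℕ := 3 * (dig 224 e (12 * m + i) >>> 64)

theorem item_eq (w e : ℕ) : item w e =
    ∑ l ∈ range 3, (w * tco (tg e l)) * (2 ^ 256) ^ tidx (tg e l) := by
  rw [sum_range_succ, sum_range_succ, sum_range_one]
  unfold item
  show w * (((tco (tg e 0)) <<< (256 * tidx (tg e 0)) + (tco (tg e 1)) <<< (256 * tidx (tg e 1))) +
    (tco (tg e 2)) <<< (256 * tidx (tg e 2))) = _
  rw [Nat.shiftLeft_eq, Nat.shiftLeft_eq, Nat.shiftLeft_eq, pow_mul, pow_mul, pow_mul]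
  ring

theorem mult_le (A B C : ℕ) : mult A B C ≤ 6 := by
  rw [mult_eq]; split_ifs <;> norm_num

theorem tco_zero_tg (l : ℕ) : tco (tg 0 l) = 0 := by
  unfold tg
  rw [dig_eq]
  unfold tco
  simp

theorem item_zero (w : ℕ) : item w 0 = 0 := by
  rw [item_eq]
  simp only [tco_zero_tg, mul_zero, zero_mul, sum_const_zero]

theorem accI_eq {m : ℕ} (hm : m ≤ 15) (P : ℕ) (T : List ℕ) :
    accI m P T = ∑ j ∈ range (8 * m + 1), ∑ k ∈ range (6 * m + 1), item (wI m P j k) (ent T j k) := by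
  unfold accI
  rw [bsum_eq (show Nat.add (Nat.mul 8 m) 1 ≤ 2 ^ 7 by
    show 8 * m + 1 ≤ 2 ^ 7
    norm_num; omega)]
  refine sum_congr rfl fun j _ => ?_
  unfold rowI
  show bsum (6 * m + 1) (fun k => cnd (Nat.beq (dig 240 (row T j) k) 0) 0
      (item (mult (A0 m (4 * m + j) + k) (4 * m + j)
      (24 * m - (A0 m (4 * m + j) + k) - (4 * m + j)) *
      dig 136 ((P >>> (136 * (WW m * (4 * m + j) + A0 m (4 * m + j)))) % 2 ^ (136 * (6 * m + 1))) k)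
      (dig 240 (row T j) k))) 7 0 = _
  rw [bsum_eq (show 6 * m + 1 ≤ 2 ^ 7 by norm_num; omega)]
  refine sum_congr rfl fun k hk => ?_
  rw [dig_window _ _ _ _ _ (mem_range.1 hk), cond_beq]
  split_ifs with h0
  · show 0 = item _ (dig 240 (row T j) k)
    rw [h0, item_zero]
  · rfl

theorem accE_eq {m : ℕ} (hm : m ≤ 15) (e E : ℕ) :
    accE m e E = ∑ i ∈ range (24 * m + 1), item (wE m e i) (dig 240 E i) := by
  unfold accE
  rw [bsum_eq (show Nat.add (Nat.mul 24 m) 1 ≤ 2 ^ 9 by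
    show 24 * m + 1 ≤ 2 ^ 9
    norm_num; omega)]
  rfl

theorem tco_lt (e l : ℕ) : tco (tg e l) < 2 ^ 64 := by
  have h : tg e l < 2 ^ 80 := dig_lt _ _ _
  unfold tco
  show (tg e l) >>> 16 < _
  rw [Nat.shiftRight_eq_div_pow]
  rw [Nat.div_lt_iff_lt_mul (by positivity)]
  calc tg e l < 2 ^ 80 := h
    _ = 2 ^ 64 * 2 ^ 16 := by norm_num

/-- index set of the packed bucket sum -/
noncomputable def SB (m : ℕ) : Finset ((ℕ × ℕ × ℕ) ⊕ (ℕ × ℕ)) :=
  (range (8 * m + 1) ×ˢ range (6 * m + 1) ×ˢ range 3).disjSum (range (24 * m + 1) ×ˢ range 3)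

noncomputable def gB (m P e : ℕ) (T : List ℕ) (E : ℕ) : (ℕ × ℕ × ℕ) ⊕ (ℕ × ℕ) → ℕ
  | Sum.inl x => wI m P x.1 x.2.1 * tco (tg (ent T x.1 x.2.1) x.2.2)
  | Sum.inr x => wE m e x.1 * tco (tg (dig 240 E x.1) x.2)

noncomputable def nB (T : List ℕ) (E : ℕ) : (ℕ × ℕ × ℕ) ⊕ (ℕ × ℕ) → ℕ
  | Sum.inl x => tidx (tg (ent T x.1 x.2.1) x.2.2)
  | Sum.inr x => tidx (tg (dig 240 E x.1) x.2)

theorem acc_sum {m : ℕ} (hm : m ≤ 15) (P e : ℕ) (T : List ℕ) (E : ℕ) :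
    accI m P T + accE m e E = ∑ i ∈ SB m, gB m P e T E i * (2 ^ 256) ^ nB T E i := by
  unfold SB
  rw [sum_disjSum, accI_eq hm, accE_eq hm]
  simp only [item_eq, gB, nB]
  congr 1
  · rw [sum_product]
    refine sum_congr rfl fun j _ => ?_
    rw [sum_product]
  · rw [sum_product]

theorem wI_le (m P j k : ℕ) : wI m P j k ≤ 6 * 2 ^ 136 := by
  unfold wI
  exact Nat.mul_le_mul (mult_le _ _ _) (dig_lt _ _ _).le

theorem wE_le (m e i : ℕ) : wE m e i ≤ 3 * 2 ^ 160 := by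
  unfold wE
  refine Nat.mul_le_mul_left _ ?_
  rw [Nat.shiftRight_eq_div_pow]
  apply Nat.div_le_of_le_mul
  calc dig 224 e (12 * m + i) ≤ 2 ^ 224 := (dig_lt _ _ _).le
    _ = 2 ^ 64 * 2 ^ 160 := by norm_num

theorem gB_lt {m : ℕ} (hm : m ≤ 15) (P e : ℕ) (T : List ℕ) (E : ℕ) :
    ∑ i ∈ SB m, gB m P e T E i < 2 ^ 256 := by
  unfold SB
  rw [sum_disjSum]
  have h1 : ∑ x ∈ range (8 * m + 1) ×ˢ range (6 * m + 1) ×ˢ range 3, gB m P e T E (Sum.inl x) ≤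
      ∑ x ∈ range (8 * m + 1) ×ˢ range (6 * m + 1) ×ˢ range 3, 6 * 2 ^ 136 * 2 ^ 64 :=
    sum_le_sum fun x _ => Nat.mul_le_mul (wI_le _ _ _ _) (tco_lt _ _).le
  have h2 : ∑ x ∈ range (24 * m + 1) ×ˢ range 3, gB m P e T E (Sum.inr x) ≤
      ∑ x ∈ range (24 * m + 1) ×ˢ range 3, 3 * 2 ^ 160 * 2 ^ 64 :=
    sum_le_sum fun x _ => Nat.mul_le_mul (wE_le _ _ _) (tco_lt _ _).le
  rw [sum_const, card_product, card_product, card_range, card_range, card_range, smul_eq_mul] at h1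
  rw [sum_const, card_product, card_range, card_range, smul_eq_mul] at h2
  have h3 : (8 * m + 1) * ((6 * m + 1) * 3) ≤ 121 * (91 * 3) :=
    Nat.mul_le_mul (by omega) (Nat.mul_le_mul (by omega) le_rfl)
  have h4 : (24 * m + 1) * 3 ≤ 361 * 3 := Nat.mul_le_mul (by omega) le_rfl
  have h5 := Nat.mul_le_mul_right (6 * 2 ^ 136 * 2 ^ 64) h3
  have h6 := Nat.mul_le_mul_right (3 * 2 ^ 160 * 2 ^ 64) h4
  calc _ ≤ 121 * (91 * 3) * (6 * 2 ^ 136 * 2 ^ 64) + 361 * 3 * (3 * 2 ^ 160 * 2 ^ 64) :=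
        Nat.add_le_add (h1.trans h5) (h2.trans h6)
    _ < 2 ^ 256 := by norm_num

/-- the bucket inequality -/
theorem bucket_le {m : ℕ} (hm : m ≤ 15) (P e : ℕ) (T : List ℕ) (E : ℕ) (φ : ℕ → ℝ)
    (hφ : ∀ n, 0 ≤ φ n) (N : Finset ℕ) :
    ∑ n ∈ N, (dig 256 (accI m P T + accE m e E) n : ℝ) * φ n ≤
      ∑ j ∈ range (8 * m + 1), ∑ k ∈ range (6 * m + 1), (wI m P j k : ℝ) *
        ∑ l ∈ range 3, (tco (tg (ent T j k) l) : ℝ) * φ (tidx (tg (ent T j k) l)) +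
      ∑ i ∈ range (24 * m + 1), (wE m e i : ℝ) *
        ∑ l ∈ range 3, (tco (tg (dig 240 E i) l) : ℝ) * φ (tidx (tg (dig 240 E i) l)) := by
  have e1 : ∑ i ∈ SB m, (gB m P e T E i : ℝ) * φ (nB T E i) =
      ∑ j ∈ range (8 * m + 1), ∑ k ∈ range (6 * m + 1), (wI m P j k : ℝ) *
        ∑ l ∈ range 3, (tco (tg (ent T j k) l) : ℝ) * φ (tidx (tg (ent T j k) l)) +
      ∑ i ∈ range (24 * m + 1), (wE m e i : ℝ) *
        ∑ l ∈ range 3, (tco (tg (dig 240 E i) l) : ℝ) * φ (tidx (tg (dig 240 E i) l)) := by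
    unfold SB
    rw [sum_disjSum]
    simp only [gB, nB]
    congr 1
    · rw [sum_product]
      refine sum_congr rfl fun j _ => ?_
      rw [sum_product]
      refine sum_congr rfl fun k _ => ?_
      rw [mul_sum]
      refine sum_congr rfl fun l _ => ?_
      push_cast
      ring
    · rw [sum_product]
      refine sum_congr rfl fun i _ => ?_
      rw [mul_sum]
      refine sum_congr rfl fun l _ => ?_
      push_cast
      ring
  rw [← e1]
  have e2 : ∀ n, dig 256 (accI m P T + accE m e E) n =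
      ∑ i ∈ SB m with nB T E i = n, gB m P e T E i := by
    intro n
    rw [dig_eq, acc_sum hm, digit_sum _ _ _ _ _ (gB_lt hm P e T E)]
  simp only [e2]
  have e3 : ∀ n ∈ N, ((∑ i ∈ SB m with nB T E i = n, gB m P e T E i : ℕ) : ℝ) * φ n =
      ∑ i ∈ SB m with nB T E i = n, (gB m P e T E i : ℝ) * φ (nB T E i) := by
    intro n _
    rw [Nat.cast_sum, sum_mul]
    refine sum_congr rfl fun i hi => ?_
    rw [(mem_filter.1 hi).2]
  rw [sum_congr rfl e3]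
  have e4 : ∑ n ∈ N, ∑ i ∈ SB m with nB T E i = n, (gB m P e T E i : ℝ) * φ (nB T E i) =
      ∑ i ∈ SB m with nB T E i ∈ N, (gB m P e T E i : ℝ) * φ (nB T E i) := by
    rw [← sum_fiberwise_of_maps_to (s := (SB m).filter fun i => nB T E i ∈ N) (t := N)
      (g := nB T E) (fun i hi => (mem_filter.1 hi).2)]
    refine sum_congr rfl fun n hn => ?_
    refine sum_congr ?_ fun _ _ => rfl
    ext i
    simp only [mem_filter]
    constructor
    · rintro ⟨h1, h2⟩; exact ⟨⟨h1, h2 ▸ hn⟩, h2⟩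
    · rintro ⟨⟨h1, _⟩, h2⟩; exact ⟨h1, h2⟩
  rw [e4]
  refine sum_le_sum_of_subset_of_nonneg (filter_subset _ _) fun i _ _ => ?_
  exact mul_nonneg (Nat.cast_nonneg _) (hφ _)

/-- the index of a sorted triple -/
noncomputable def ixx (m : ℕ) (x : Fin 3 → ℕ) : ℕ := (x 0 - 2 * m) + (2 * m + 1) * (x 1 - m)

theorem srt_bounds {m : ℕ} {x : Fin 3 → ℕ} (hx : x ∈ TT (2 * m)) (hs : Srt x) :
    2 * m ≤ x 0 ∧ x 0 ≤ 4 * m ∧ m ≤ x 1 ∧ x 1 ≤ 3 * m ∧ x 0 + x 1 + x 2 = 6 * m ∧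
      x 1 ≤ x 0 ∧ x 2 ≤ x 1 := by
  have h := mem_TT.1 hx
  unfold Srt at hs
  omega

theorem ixx_mod {m : ℕ} {x : Fin 3 → ℕ} (hx : x ∈ TT (2 * m)) (hs : Srt x) :
    ixx m x % (2 * m + 1) = x 0 - 2 * m ∧ ixx m x / (2 * m + 1) = x 1 - m := by
  have h := srt_bounds hx hs
  unfold ixx
  constructor
  · rw [Nat.add_mul_mod_self_left, Nat.mod_eq_of_lt (by omega)]
  · rw [Nat.add_mul_div_left _ _ (by omega), Nat.div_eq_of_lt (by omega), zero_add]

theorem ixx_trip {m : ℕ} {x : Fin 3 → ℕ} (hx : x ∈ TT (2 * m)) (hs : Srt x) :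
    trip m (ixx m x) = x := by
  have h := srt_bounds hx hs
  obtain ⟨h1, h2⟩ := ixx_mod hx hs
  unfold trip
  rw [h1, h2]
  funext i
  fin_cases i
  · show 2 * m + (x 0 - 2 * m) = x 0
    omega
  · show m + (x 1 - m) = x 1
    omega
  · show 6 * m - (2 * m + (x 0 - 2 * m)) - (m + (x 1 - m)) = x 2
    omega

theorem ixx_lt {m : ℕ} {x : Fin 3 → ℕ} (hx : x ∈ TT (2 * m)) (hs : Srt x) :
    ixx m x < nuI m := by
  have h := srt_bounds hx hs
  unfold ixx nuI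
  have : (2 * m + 1) * (x 1 - m) ≤ (2 * m + 1) * (2 * m) := Nat.mul_le_mul_left _ (by omega)
  have e : (2 * m + 1) * (2 * m + 1) = (2 * m + 1) * (2 * m) + (2 * m + 1) := by ring
  have h0 : x 0 - 2 * m < 2 * m + 1 := by omega
  rw [e]
  omega

theorem phi_ixx {r : ℝ} {m : ℕ} {x : Fin 3 → ℕ} (hx : x ∈ TT (2 * m)) (hs : Srt x)
    (G : (Fin 3 → ℝ) → ℝ) : phi r m G (ixx m x) = G (vec r (2 * m) x) := by
  unfold phi
  rw [if_neg (ixx_lt hx hs).ne, ixx_trip hx hs]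

theorem cc_sorted {m st : ℕ} {x : Fin 3 → ℕ} (hx : x ∈ TT (2 * m)) (hs : Srt x) :
    cc m st x = dig 32 st (ixx m x) := by
  have h := srt_bounds hx hs
  rw [cc_eq hx]
  have e1 : max (x 0) (max (x 1) (x 2)) = x 0 := by omega
  have e2 : min (x 0) (min (x 1) (x 2)) = x 2 := by omega
  rw [e1, e2]
  congr 1
  unfold ix ixx
  show (x 0 - 2 * m) + (2 * m + 1) * (5 * m - x 0 - x 2) = _
  have e3 : 5 * m - x 0 - x 2 = x 1 - m := by omega
  rw [e3]

theorem cmp_spec {m ac st' : ℕ} (hm : m ≤ 15) (h : cmp m ac st' = true) {x : Fin 3 → ℕ}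
    (hx : x ∈ TT (2 * m)) (hs : Srt x) :
    mult (x 0) (x 1) (x 2) * cc m st' x * 2 ^ 128 ≤ dig 256 ac (ixx m x) := by
  have hb := srt_bounds hx hs
  unfold cmp at h
  have hk : Nat.add (Nat.mul 2 m) 1 ≤ 2 ^ 6 := by
    show 2 * m + 1 ≤ 2 ^ 6
    norm_num; omega
  have h1 := ball_eq hk h (x 1 - m) (by show x 1 - m < 2 * m + 1; omega)
  have h2 := ball_eq hk h1 (x 0 - 2 * m) (by show x 0 - 2 * m < 2 * m + 1; omega)
  rw [cond_ble, if_pos (by show x 1 - m ≤ m + (x 0 - 2 * m); omega),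
    cond_ble, if_pos (by show 2 * m ≤ (x 0 - 2 * m) + 2 * (x 1 - m); omega),
    cond_ble, if_pos (by show (x 0 - 2 * m) + (x 1 - m) ≤ 3 * m; omega)] at h2
  have h3 := Nat.le_of_ble_eq_true h2
  have h4 : (mult (2 * m + (x 0 - 2 * m)) (m + (x 1 - m)) (3 * m - (x 0 - 2 * m) - (x 1 - m)) *
      dig 32 st' (ixx m x)) <<< 128 ≤ dig 256 ac (ixx m x) := h3
  rw [Nat.shiftLeft_eq] at h4
  have e1 : 2 * m + (x 0 - 2 * m) = x 0 := by omega
  have e2 : m + (x 1 - m) = x 1 := by omega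
  have e3 : 3 * m - (x 0 - 2 * m) - (x 1 - m) = x 2 := by omega
  rw [e1, e2, e3] at h4
  rw [cc_sorted hx hs]
  exact h4

/-- the new state against the buckets -/
theorem new_state_le {r : ℝ} (hr : 0 < r) {m ac st' al' : ℕ} (hm : m ≤ 15)
    (h : cmp m ac st' = true) {G : (Fin 3 → ℝ) → ℝ} (hG : GG G) (hsG : GSym G) {R : ℝ}
    (hB : ∀ N : Finset ℕ, ∑ n ∈ N, (dig 256 ac n : ℝ) * phi r m G n ≤ R) {Q : ℝ}
    (hal : 3 * (al' : ℝ) * 2 ^ 128 ≤ (dig 256 ac (nuI m) : ℝ) + Q) :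
    VV r m st' al' G ≤ (R + Q * phi r m G (nuI m)) / 2 ^ 160 := by
  have e1 : ∑ x ∈ TT (2 * m), ((cc m st' x : ℝ) / 2 ^ 32) * G (vec r (2 * m) x) =
      ∑ x ∈ TT (2 * m) with Srt x, (mult (x 0) (x 1) (x 2) : ℝ) *
        (((cc m st' x : ℝ) / 2 ^ 32) * G (vec r (2 * m) x)) := by
    apply orbit
    intro σ x hx
    rw [cc_perm hx σ]
    congr 1
    exact hsG σ (vec r (2 * m) x)
  have e2 : ∑ a, G (nu a) = 3 * phi r m G (nuI m) := by
    have : ∀ a : Fin 3, G (nu a) = phi r m G (nuI m) := by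
      intro a
      unfold phi
      rw [if_pos rfl]
      have h := hsG (Equiv.swap 0 a) (nu 0)
      rw [nu_perm] at h
      rw [← h]
      congr 2
    simp only [this]
    rw [sum_const, card_univ, Fintype.card_fin, nsmul_eq_mul]
    norm_num
  unfold VV
  rw [e1, e2]
  have e3 : ∑ x ∈ TT (2 * m) with Srt x, (mult (x 0) (x 1) (x 2) : ℝ) *
        (((cc m st' x : ℝ) / 2 ^ 32) * G (vec r (2 * m) x)) ≤
      ∑ x ∈ TT (2 * m) with Srt x, ((dig 256 ac (ixx m x) : ℝ) * phi r m G (ixx m x)) / 2 ^ 160 := by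
    refine sum_le_sum fun x hx => ?_
    obtain ⟨h1, h2⟩ := mem_filter.1 hx
    rw [phi_ixx h1 h2, le_div_iff₀ (by positivity)]
    have h3 := cmp_spec hm h h1 h2
    have h4 : (mult (x 0) (x 1) (x 2) : ℝ) * (cc m st' x : ℝ) * 2 ^ 128 ≤ dig 256 ac (ixx m x) := by
      exact_mod_cast h3
    have h5 := mul_le_mul_of_nonneg_right h4 (hG.nonneg _ (vec_nonneg hr (2 * m) x))
    refine le_trans (le_of_eq ?_) h5
    ring
  have e4 : ∑ x ∈ TT (2 * m) with Srt x,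
      ((dig 256 ac (ixx m x) : ℝ) * phi r m G (ixx m x)) / 2 ^ 160 =
      (∑ n ∈ ((TT (2 * m)).filter Srt).image (ixx m), (dig 256 ac n : ℝ) * phi r m G n) / 2 ^ 160 := by
    rw [← sum_div, sum_image]
    intro x hx y hy hxy
    obtain ⟨h1, h2⟩ := mem_filter.1 (mem_coe.1 hx)
    obtain ⟨h3, h4⟩ := mem_filter.1 (mem_coe.1 hy)
    rw [← ixx_trip h1 h2, ← ixx_trip h3 h4, hxy]
  rw [e4] at e3
  have hnot : nuI m ∉ ((TT (2 * m)).filter Srt).image (ixx m) := by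
    intro hmem
    obtain ⟨x, hx, hxe⟩ := mem_image.1 hmem
    obtain ⟨h1, h2⟩ := mem_filter.1 hx
    exact absurd hxe (ixx_lt h1 h2).ne
  have h5 := hB (insert (nuI m) (((TT (2 * m)).filter Srt).image (ixx m)))
  rw [sum_insert hnot] at h5
  have h6 := mul_le_mul_of_nonneg_right hal (phi_nonneg hr m hG (nuI m))
  have h7 : (al' : ℝ) / 2 ^ 32 * (3 * phi r m G (nuI m)) =
      (3 * (al' : ℝ) * 2 ^ 128 * phi r m G (nuI m)) / 2 ^ 160 := by ring
  rw [h7]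
  refine le_trans (add_le_add e3 (div_le_div_of_nonneg_right h6 (by positivity))) ?_
  rw [← add_div]
  refine div_le_div_of_nonneg_right ?_ (by positivity)
  linarith

end Crest.Agent.R163.Ck
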