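import Crest.Agent.R163.CkF

/-!
# Row 163, chain: the interior part
-/

set_option autoImplicit false

namespace Crest.Agent.R163.Ck

open Finset

theorem tabOK_I {m p s : ℕ} (hm : m ≤ 15) {T : List ℕ} {E : ℕ} (h : tabOK m p s T E = true)
    {j k : ℕ} (hj : j < 8 * m + 1) (hk : k < 6 * m + 1) :
    okI m p s (ent T j k) (A0 m (4 * m + j) + k) (4 * m + j) = true := by
  unfold tabOK at h
  cases h1 : ball (Nat.add (Nat.mul 8 m) 1) (fun j => ball (Nat.add (Nat.mul 6 m) 1) (fun k =>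
      okI m p s (dig 240 (row T j) k) (Nat.add (A0 m (Nat.add (Nat.mul 4 m) j)) k)
        (Nat.add (Nat.mul 4 m) j)) 7 0) 7 0 with
  | false => rw [h1] at h; exact absurd h (by simp)
  | true =>
    have h2 := ball_eq (show Nat.add (Nat.mul 8 m) 1 ≤ 2 ^ 7 by
      show 8 * m + 1 ≤ 2 ^ 7
      norm_num; omega) h1 j hj
    exact ball_eq (show Nat.add (Nat.mul 6 m) 1 ≤ 2 ^ 7 by
      show 6 * m + 1 ≤ 2 ^ 7
      norm_num; omega) h2 k hk

theorem tabOK_E {m p s : ℕ} (hm : m ≤ 15) {T : List ℕ} {E : ℕ} (h : tabOK m p s T E = true)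
    {i : ℕ} (hi : i < 24 * m + 1) : okE m p s (dig 240 E i) i = true := by
  unfold tabOK at h
  cases h1 : ball (Nat.add (Nat.mul 8 m) 1) (fun j => ball (Nat.add (Nat.mul 6 m) 1) (fun k =>
      okI m p s (dig 240 (row T j) k) (Nat.add (A0 m (Nat.add (Nat.mul 4 m) j)) k)
        (Nat.add (Nat.mul 4 m) j)) 7 0) 7 0 with
  | false => rw [h1] at h; exact absurd h (by simp)
  | true =>
    rw [h1, cnd_true] at h
    exact ball_eq (show Nat.add (Nat.mul 24 m) 1 ≤ 2 ^ 9 by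
      show 24 * m + 1 ≤ 2 ^ 9
      norm_num; omega) h i hi

theorem A0_eq (m B : ℕ) : A0 m B = max B (24 * m - 2 * B) := by
  unfold A0; rw [mx_eq]; rfl

/-- the triple of the entry `(j, k)` -/
noncomputable def Yv (m : ℕ) (x : ℕ × ℕ) : Fin 3 → ℕ :=
  ![A0 m (4 * m + x.1) + x.2, 4 * m + x.1, 24 * m - (A0 m (4 * m + x.1) + x.2) - (4 * m + x.1)]

theorem interior_ge {m p s : ℕ} (hm : m ≤ 15) (hp : 0 < p) (hs : 0 < s) {T : List ℕ} {E : ℕ}
    (hT : tabOK m p s T E = true) {st : ℕ} (hc : csum m st < 2 ^ 33)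
    {G : (Fin 3 → ℝ) → ℝ} (hG : GG G) (hsG : GSym G) :
    (∑ j ∈ range (8 * m + 1), ∑ k ∈ range (6 * m + 1), (wI m (npoly m st ^ 4) j k : ℝ) *
      ∑ l ∈ range 3, (tco (tg (ent T j k) l) : ℝ) *
        phi ((p : ℝ) / s) m G (tidx (tg (ent T j k) l))) / 2 ^ 160 ≤
    ∑ g ∈ Fintype.piFinset (fun _ : Fin 4 => TT (2 * m)), (((∏ i, cc m st (g i) : ℕ) : ℝ) / 2 ^ 128) *
      G (chv (-1 / 2) (vec ((p : ℝ) / s) (8 * m) (fun c => ∑ i, g i c))) := by
  have hr : (0 : ℝ) < (p : ℝ) / s := by positivity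
  have okI' : ∀ x : ℕ × ℕ, x ∈ range (8 * m + 1) ×ˢ range (6 * m + 1) → ent T x.1 x.2 ≠ 0 →
      (A0 m (4 * m + x.1) + x.2) + (4 * m + x.1) ≤ 24 * m ∧ A0 m (4 * m + x.1) + x.2 ≤ 16 * m ∧
      ∑ l ∈ range 3, ((tco (tg (ent T x.1 x.2) l) : ℝ) / 2 ^ 32) *
        phi ((p : ℝ) / s) m G (tidx (tg (ent T x.1 x.2) l)) ≤
      G (chv (-1 / 2) (vec ((p : ℝ) / s) (8 * m) (Yv m x))) := by
    intro x hx he
    rw [mem_product, mem_range, mem_range] at hx
    have hA := A0_eq m (4 * m + x.1)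
    exact okI_ge hp hs he (tabOK_I hm hT hx.1 hx.2) (by omega) (by omega) hG hsG
  have hΓ : ∀ y : Fin 3 → ℕ, 0 ≤ G (chv (-1 / 2) (vec ((p : ℝ) / s) (8 * m) y)) := by
    intro y
    refine hG.nonneg _ fun a => ?_
    rw [chv_half]
    have h0 := vec_nonneg hr (8 * m) y 0
    have h1 := vec_nonneg hr (8 * m) y 1
    have h2 := vec_nonneg hr (8 * m) y 2
    fin_cases a
    · show 0 ≤ (vec (↑p / ↑s) (8 * m) y 0 + vec (↑p / ↑s) (8 * m) y 1 +
        vec (↑p / ↑s) (8 * m) y 2 - vec (↑p / ↑s) (8 * m) y 0) / 2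
      linarith
    · show 0 ≤ (vec (↑p / ↑s) (8 * m) y 0 + vec (↑p / ↑s) (8 * m) y 1 +
        vec (↑p / ↑s) (8 * m) y 2 - vec (↑p / ↑s) (8 * m) y 1) / 2
      linarith
    · show 0 ≤ (vec (↑p / ↑s) (8 * m) y 0 + vec (↑p / ↑s) (8 * m) y 1 +
        vec (↑p / ↑s) (8 * m) y 2 - vec (↑p / ↑s) (8 * m) y 2) / 2
      linarith
  -- right-hand side
  have e1 := sum_PP m st (fun y => G (chv (-1 / 2) (vec ((p : ℝ) / s) (8 * m) y)) / 2 ^ 128)
  have e2 : ∑ g ∈ Fintype.piFinset (fun _ : Fin 4 => TT (2 * m)),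
      (((∏ i, cc m st (g i) : ℕ) : ℝ) / 2 ^ 128) *
      G (chv (-1 / 2) (vec ((p : ℝ) / s) (8 * m) (fun c => ∑ i, g i c))) =
      ∑ y ∈ TT (8 * m), (PP m st y : ℝ) *
        (G (chv (-1 / 2) (vec ((p : ℝ) / s) (8 * m) y)) / 2 ^ 128) := by
    rw [← e1]
    refine sum_congr rfl fun g _ => ?_
    ring
  rw [e2, orbit (8 * m) (fun y => (PP m st y : ℝ) *
        (G (chv (-1 / 2) (vec ((p : ℝ) / s) (8 * m) y)) / 2 ^ 128))]
  swap
  · intro σ x _
    rw [PP_perm]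
    congr 2
    have e3 : vec ((p : ℝ) / s) (8 * m) (fun i => x (σ i)) =
      fun a => vec ((p : ℝ) / s) (8 * m) x (σ a) := rfl
    rw [e3, chv_perm]
    exact hsG σ _
  -- left-hand side
  set S := (range (8 * m + 1) ×ˢ range (6 * m + 1)).filter (fun x : ℕ × ℕ => ent T x.1 x.2 ≠ 0)
    with hS
  set F : (Fin 3 → ℕ) → ℝ := fun y => (mult (y 0) (y 1) (y 2) : ℝ) * ((PP m st y : ℝ) *
        (G (chv (-1 / 2) (vec ((p : ℝ) / s) (8 * m) y)) / 2 ^ 128)) with hF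
  have hmap : ∀ x ∈ S, Yv m x ∈ (TT (8 * m)).filter Srt := by
    intro x hx
    obtain ⟨h1, h2⟩ := mem_filter.1 hx
    obtain ⟨h3, h4, _⟩ := okI' x h1 h2
    rw [mem_product, mem_range, mem_range] at h1
    have hA := A0_eq m (4 * m + x.1)
    rw [mem_filter, mem_TT]
    unfold Yv Srt
    simp only [Matrix.cons_val_zero, Matrix.cons_val_one, Matrix.cons_val]
    omega
  have hinj : Set.InjOn (Yv m) (S : Set (ℕ × ℕ)) := by
    intro x _ y _ hxy
    have h1 := congrFun hxy 1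
    have h0 := congrFun hxy 0
    unfold Yv at h0 h1
    simp only [Matrix.cons_val_zero, Matrix.cons_val_one] at h0 h1
    have e : x.1 = y.1 := by omega
    rw [e] at h0
    have e' : x.2 = y.2 := by omega
    exact Prod.ext e e'
  have hFnn : ∀ y, 0 ≤ F y := fun y => by
    rw [hF]
    exact mul_nonneg (Nat.cast_nonneg _) (mul_nonneg (Nat.cast_nonneg _)
      (div_nonneg (hΓ y) (by positivity)))
  have e4 : ∑ x ∈ S, F (Yv m x) ≤ ∑ y ∈ TT (8 * m) with Srt y, F y := by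
    rw [← sum_image (f := F) (g := Yv m) hinj]
    refine sum_le_sum_of_subset_of_nonneg ?_ fun y _ _ => hFnn y
    intro y hy
    obtain ⟨x, hx, rfl⟩ := mem_image.1 hy
    exact hmap x hx
  refine le_trans ?_ e4
  rw [← sum_product', sum_div]
  have e5 : ∀ x ∈ range (8 * m + 1) ×ˢ range (6 * m + 1), x ∉ S →
      ((wI m (npoly m st ^ 4) x.1 x.2 : ℝ) *
      ∑ l ∈ range 3, (tco (tg (ent T x.1 x.2) l) : ℝ) *
        phi ((p : ℝ) / s) m G (tidx (tg (ent T x.1 x.2) l))) / 2 ^ 160 = 0 := by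
    intro x hx hxS
    have : ent T x.1 x.2 = 0 := by
      by_contra hne
      exact hxS (mem_filter.2 ⟨hx, hne⟩)
    rw [this]
    simp only [tco_zero_tg, Nat.cast_zero, zero_mul, sum_const_zero, mul_zero, zero_div]
  rw [← sum_subset (filter_subset _ _) e5]
  refine sum_le_sum fun x hx => ?_
  obtain ⟨h1, h2⟩ := mem_filter.1 hx
  obtain ⟨h3, h4, h5⟩ := okI' x h1 h2
  have hY := hmap x hx
  obtain ⟨hY1, hY2⟩ := mem_filter.1 hY
  have e6 : wI m (npoly m st ^ 4) x.1 x.2 =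
      mult (Yv m x 0) (Yv m x 1) (Yv m x 2) * PP m st (Yv m x) := by
    rw [← PP_digit hm hc hY1]
    unfold wI Yv
    simp only [Matrix.cons_val_zero, Matrix.cons_val_one, Matrix.cons_val]
    congr 2
    ring
  rw [e6, hF]
  simp only
  have h6 : ∑ l ∈ range 3, (tco (tg (ent T x.1 x.2) l) : ℝ) *
        phi ((p : ℝ) / s) m G (tidx (tg (ent T x.1 x.2) l)) ≤
      2 ^ 32 * G (chv (-1 / 2) (vec ((p : ℝ) / s) (8 * m) (Yv m x))) := by
    have := mul_le_mul_of_nonneg_left h5 (show (0 : ℝ) ≤ 2 ^ 32 by positivity)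
    refine le_trans (le_of_eq ?_) this
    rw [mul_sum]
    refine sum_congr rfl fun l _ => ?_
    ring
  have h7 : (0 : ℝ) ≤ ((mult (Yv m x 0) (Yv m x 1) (Yv m x 2) * PP m st (Yv m x) : ℕ) : ℝ) :=
    Nat.cast_nonneg _
  have h8 := mul_le_mul_of_nonneg_left h6 h7
  rw [div_le_iff₀ (by positivity)]
  refine h8.trans (le_of_eq ?_)
  push_cast
  ring

end Crest.Agent.R163.Ck
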