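import Crest.Agent.R163.CkG

/-!
# Row 163, chain: the edge part
-/

set_option autoImplicit false

namespace Crest.Agent.R163.Ck

open Finset

/-- functions with at least one `none` -/
noncomputable def J1 (m : ℕ) : Finset (Fin 4 → Option (Fin 3 → ℕ)) :=
  (Fintype.piFinset fun _ : Fin 4 => insertNone (TT (2 * m))).filter fun g => ∃ i, g i = none

theorem mem_J1 {m : ℕ} {g : Fin 4 → Option (Fin 3 → ℕ)} :
    g ∈ J1 m ↔ (∀ i x, g i = some x → x ∈ TT (2 * m)) ∧ ∃ i, g i = none := by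
  unfold J1
  rw [mem_filter, Fintype.mem_piFinset]
  refine and_congr_left fun _ => forall_congr' fun i => ?_
  rw [Finset.mem_insertNone]
  simp only [Option.mem_def]

theorem J1_sum {R : Type*} [CommSemiring R] (m : ℕ) (f : Option (Fin 3 → ℕ) → R) :
    (f none + ∑ x ∈ TT (2 * m), f (some x)) ^ 4 =
      (∑ x ∈ TT (2 * m), f (some x)) ^ 4 + ∑ g ∈ J1 m, ∏ i, f (g i) := by
  classical
  have h1 : ∀ F : Option (Fin 3 → ℕ) → R, (F none + ∑ x ∈ TT (2 * m), F (some x)) ^ 4 =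
      ∑ g ∈ Fintype.piFinset (fun _ : Fin 4 => insertNone (TT (2 * m))), ∏ i, F (g i) := by
    intro F
    rw [← sum_pow', sum_insertNone]
  rw [h1 f, ← sum_filter_add_sum_filter_not _ (fun g : Fin 4 → Option (Fin 3 → ℕ) => ∃ i, g i = none)
    (fun g => ∏ i, f (g i)), add_comm]
  congr 1
  have h2 := h1 (fun o => o.elim 0 fun x => f (some x))
  simp only [Option.elim_none, Option.elim_some, zero_add] at h2
  rw [h2, ← sum_filter_add_sum_filter_not _
    (fun g : Fin 4 → Option (Fin 3 → ℕ) => ∃ i, g i = none)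
    (fun g => ∏ i, (g i).elim 0 fun x => f (some x))]
  have h3 : ∑ g ∈ Fintype.piFinset (fun _ : Fin 4 => insertNone (TT (2 * m))) with
      ∃ i, g i = none, ∏ i, (g i).elim 0 (fun x => f (some x)) = 0 := by
    refine sum_eq_zero fun g hg => ?_
    obtain ⟨i, hi⟩ := (mem_filter.1 hg).2
    exact prod_eq_zero (mem_univ i) (by rw [hi]; rfl)
  rw [h3, zero_add]
  refine sum_congr rfl fun g hg => prod_congr rfl fun i _ => ?_
  have := (mem_filter.1 hg).2
  cases hgi : g i with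
  | none => exact absurd ⟨i, hgi⟩ this
  | some x => rfl

/-- integer weights -/
noncomputable def we (m p s st al : ℕ) : Option (Fin 3 → ℕ) → ℕ
  | none => al * 2 ^ 16
  | some x => cc m st x * rt m p s (x 2)

/-- positions -/
noncomputable def pe (m : ℕ) : Option (Fin 3 → ℕ) → ℕ
  | none => 6 * m
  | some x => x 0 + 2 * x 1

/-- real weights -/
noncomputable def wr (r : ℝ) (m st al : ℕ) : Option (Fin 3 → ℕ) → ℝ
  | none => (al : ℝ) / 2 ^ 32
  | some x => ((cc m st x : ℝ) / 2 ^ 32) * r ^ ((x 2 : ℤ) - (2 * m : ℕ))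

noncomputable def de : Option (Fin 3 → ℕ) → ℤ
  | none => 0
  | some x => (x 1 : ℤ) - x 2

theorem pe_eq {m : ℕ} {o : Option (Fin 3 → ℕ)} (ho : ∀ x, o = some x → x ∈ TT (2 * m)) :
    (pe m o : ℤ) = 6 * m + de o := by
  cases o with
  | none => simp [pe, de]
  | some x =>
    have h := mem_TT.1 (ho x rfl)
    show ((x 0 + 2 * x 1 : ℕ) : ℤ) = 6 * m + ((x 1 : ℤ) - x 2)
    push_cast
    omega

/-- the packed edge number -/
noncomputable def epoly (m p s st al : ℕ) : ℕ :=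
  (rpoly m p s st + al <<< (16 + 224 * (6 * m))) ^ 4 - rpoly m p s st ^ 4

theorem epoly_eq {m : ℕ} (hm : m ≤ 15) (p s st al : ℕ) : epoly m p s st al =
    ∑ g ∈ J1 m, (∏ i, we m p s st al (g i)) * (2 ^ 224) ^ (∑ i, pe m (g i)) := by
  have h := J1_sum m (fun o => we m p s st al o * (2 ^ 224) ^ pe m o)
  have h1 : ∑ x ∈ TT (2 * m), we m p s st al (some x) * (2 ^ 224) ^ pe m (some x) =
      rpoly m p s st := by rw [rpoly_eq hm]; rfl
  have h2 : we m p s st al none * (2 ^ 224) ^ pe m none = al <<< (16 + 224 * (6 * m)) := by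
    show al * 2 ^ 16 * (2 ^ 224) ^ (6 * m) = _
    rw [Nat.shiftLeft_eq, pow_add, ← pow_mul]
    ring
  have h3 : ∀ g : Fin 4 → Option (Fin 3 → ℕ),
      ∏ i, (we m p s st al (g i) * (2 ^ 224) ^ pe m (g i)) =
      (∏ i, we m p s st al (g i)) * (2 ^ 224) ^ (∑ i, pe m (g i)) := by
    intro g
    rw [prod_mul_distrib, prod_pow_eq_pow_sum]
  rw [h1, h2, add_comm (al <<< (16 + 224 * (6 * m)))] at h
  simp only [h3] at h
  unfold epoly
  rw [h, Nat.add_sub_cancel_left]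

theorem rtOK_le {m p s : ℕ} (hm : m ≤ 15) (h : rtOK m p s = true) {n : ℕ} (hn : n ≤ 4 * m) :
    rt m p s n ≤ 2 ^ 20 := by
  unfold rtOK at h
  have := ball_eq (show RR m ≤ 2 ^ 6 by
    show 4 * m + 1 ≤ 2 ^ 6
    norm_num; omega) h n (by show n < 4 * m + 1; omega)
  exact Nat.le_of_ble_eq_true this

theorem epoly_small {m p s st al : ℕ} (hm : m ≤ 15) (h : rtOK m p s = true)
    (hc : csum m st < 2 ^ 33) (hal : al ≤ 2 ^ 32) :
    ∑ g ∈ J1 m, ∏ i, we m p s st al (g i) < 2 ^ 224 := by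
  have h1 := J1_sum m (we m p s st al)
  have h2 : ∑ x ∈ TT (2 * m), we m p s st al (some x) ≤ 2 ^ 33 * 2 ^ 20 := by
    calc ∑ x ∈ TT (2 * m), we m p s st al (some x)
        ≤ ∑ x ∈ TT (2 * m), cc m st x * 2 ^ 20 := by
          refine sum_le_sum fun x hx => Nat.mul_le_mul_left _ (rtOK_le hm h ?_)
          have := mem_TT.1 hx
          omega
      _ = csum m st * 2 ^ 20 := by rw [← sum_mul, csum_eq hm]
      _ ≤ 2 ^ 33 * 2 ^ 20 := Nat.mul_le_mul_right _ hc.le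
  have h3 : we m p s st al none ≤ 2 ^ 48 := by
    show al * 2 ^ 16 ≤ 2 ^ 48
    calc al * 2 ^ 16 ≤ 2 ^ 32 * 2 ^ 16 := Nat.mul_le_mul_right _ hal
      _ = 2 ^ 48 := by norm_num
  calc ∑ g ∈ J1 m, ∏ i, we m p s st al (g i)
      ≤ (we m p s st al none + ∑ x ∈ TT (2 * m), we m p s st al (some x)) ^ 4 := by
        rw [h1]; exact Nat.le_add_left _ _
    _ ≤ (2 ^ 48 + 2 ^ 33 * 2 ^ 20) ^ 4 := Nat.pow_le_pow_left (Nat.add_le_add h3 h2) 4
    _ < 2 ^ 224 := by norm_num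

theorem rt_real {m p s : ℕ} (hp : 0 < p) (hs : 0 < s) {n : ℕ} (hn : n ≤ 4 * m) :
    (rt m p s n : ℝ) ≤ 2 ^ 16 * ((p : ℝ) / s) ^ ((n : ℤ) - (2 * m : ℕ)) := by
  have hr : (0 : ℝ) < (p : ℝ) / s := by positivity
  have hpR : (0 : ℝ) < p := by exact_mod_cast hp
  have hsR : (0 : ℝ) < s := by exact_mod_cast hs
  unfold rt
  show (((2 ^ 16 * (p ^ n * s ^ (4 * m - n))) / (p ^ (2 * m) * s ^ (2 * m)) : ℕ) : ℝ) ≤ _
  refine (Nat.cast_div_le (α := ℝ)).trans (le_of_eq ?_)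
  rw [zpow_sub₀ hr.ne', zpow_natCast, zpow_natCast, div_pow, div_pow]
  push_cast
  have e : (s : ℝ) ^ (4 * m - n) * s ^ n = s ^ (2 * m) * s ^ (2 * m) := by
    rw [← pow_add, ← pow_add]
    congr 1
    omega
  field_simp
  rw [mul_assoc, e]
  ring

theorem we_real {m p s st al : ℕ} (hp : 0 < p) (hs : 0 < s) {o : Option (Fin 3 → ℕ)}
    (ho : ∀ x, o = some x → x ∈ TT (2 * m)) :
    (we m p s st al o : ℝ) / 2 ^ 48 ≤ wr ((p : ℝ) / s) m st al o := by
  cases o with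
  | none =>
    show ((al * 2 ^ 16 : ℕ) : ℝ) / 2 ^ 48 ≤ (al : ℝ) / 2 ^ 32
    push_cast
    apply le_of_eq
    field_simp
    norm_num
  | some x =>
    have h := mem_TT.1 (ho x rfl)
    show ((cc m st x * rt m p s (x 2) : ℕ) : ℝ) / 2 ^ 48 ≤
      ((cc m st x : ℝ) / 2 ^ 32) * ((p : ℝ) / s) ^ ((x 2 : ℤ) - (2 * m : ℕ))
    have h1 := rt_real (m := m) hp hs (n := x 2) (by omega)
    push_cast at h1 ⊢
    rw [div_le_iff₀ (by positivity)]
    have h2 := mul_le_mul_of_nonneg_left h1 (Nat.cast_nonneg (α := ℝ) (cc m st x))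
    refine h2.trans (le_of_eq ?_)
    ring

/-- nonnegativity of the transformed functional -/
theorem gam_nonneg {G : (Fin 3 → ℝ) → ℝ} (hG : GG G) {v : Fin 3 → ℝ} (hv : ∀ a, 0 ≤ v a) :
    0 ≤ G (chv (-1 / 2) v) := by
  refine hG.nonneg _ fun a => ?_
  rw [chv_half]
  have h0 := hv 0
  have h1 := hv 1
  have h2 := hv 2
  fin_cases a
  · show 0 ≤ (v 0 + v 1 + v 2 - v 0) / 2
    linarith
  · show 0 ≤ (v 0 + v 1 + v 2 - v 1) / 2
    linarith
  · show 0 ≤ (v 0 + v 1 + v 2 - v 2) / 2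
    linarith

theorem evc_nonneg {r : ℝ} (hr : 0 < r) (d : ℤ) (c : Fin 3) : 0 ≤ evc r d c := by
  fin_cases c
  · exact le_rfl
  · exact (zpow_pos hr _).le
  · exact zero_le_one

theorem edges_ge {m p s : ℕ} (hm : m ≤ 15) (hp : 0 < p) (hs : 0 < s) {T : List ℕ} {E : ℕ}
    (hT : tabOK m p s T E = true) (hrt : rtOK m p s = true) {st al : ℕ}
    (hc : csum m st < 2 ^ 33) (hal : al ≤ 2 ^ 32) {G : (Fin 3 → ℝ) → ℝ} (hG : GG G)
    (hsG : GSym G) :
    (∑ i ∈ range (24 * m + 1), (wE m (epoly m p s st al) i : ℝ) *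
        ∑ l ∈ range 3, (tco (tg (dig 240 E i) l) : ℝ) *
          phi ((p : ℝ) / s) m G (tidx (tg (dig 240 E i) l))) / 2 ^ 160 ≤
    3 * ∑ g ∈ J1 m, (∏ i, wr ((p : ℝ) / s) m st al (g i)) *
      G (chv (-1 / 2) (evc ((p : ℝ) / s) (∑ i, de (g i)))) := by
  have hr : (0 : ℝ) < (p : ℝ) / s := by positivity
  set r : ℝ := (p : ℝ) / s with hrdef
  set Γ : ℤ → ℝ := fun d => G (chv (-1 / 2) (evc r d)) with hΓ
  have hΓ0 : ∀ d, 0 ≤ Γ d := fun d => gam_nonneg hG (evc_nonneg hr d)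
  -- step 1: integer weights
  have s1 : ∑ g ∈ J1 m, ((∏ i, we m p s st al (g i) : ℕ) : ℝ) / 2 ^ 192 *
      Γ (((∑ i, pe m (g i) : ℕ) : ℤ) - 24 * m) ≤
      ∑ g ∈ J1 m, (∏ i, wr r m st al (g i)) * Γ (∑ i, de (g i)) := by
    refine sum_le_sum fun g hg => ?_
    have hg' := (mem_J1.1 hg).1
    have e1 : ((∑ i, pe m (g i) : ℕ) : ℤ) - 24 * m = ∑ i, de (g i) := by
      rw [Nat.cast_sum]
      have : ∀ i ∈ (univ : Finset (Fin 4)), ((pe m (g i) : ℕ) : ℤ) = 6 * m + de (g i) :=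
        fun i _ => pe_eq (hg' i)
      rw [sum_congr rfl this, sum_add_distrib, sum_const, card_univ, Fintype.card_fin]
      simp
      ring
    rw [e1]
    refine mul_le_mul_of_nonneg_right ?_ (hΓ0 _)
    have e2 : ((∏ i, we m p s st al (g i) : ℕ) : ℝ) / 2 ^ 192 =
        ∏ i, ((we m p s st al (g i) : ℝ) / 2 ^ 48) := by
      rw [prod_div_distrib, prod_const, card_univ, Fintype.card_fin, ← pow_mul]
      push_cast
      norm_num
    rw [e2]
    exact prod_le_prod (fun i _ => by positivity) fun i _ => we_real hp hs (hg' i)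
  -- step 2: digits
  have hdig : ∀ N, dig 224 (epoly m p s st al) N =
      ∑ g ∈ J1 m with ∑ i, pe m (g i) = N, ∏ i, we m p s st al (g i) := by
    intro N
    rw [dig_eq, epoly_eq hm, digit_sum _ _ _ _ _ (epoly_small hm hrt hc hal)]
  have s2 : ∑ i ∈ range (24 * m + 1), ((dig 224 (epoly m p s st al) (12 * m + i) : ℝ) / 2 ^ 192) *
      Γ ((i : ℤ) - (12 * m : ℕ)) ≤
      ∑ g ∈ J1 m, ((∏ i, we m p s st al (g i) : ℕ) : ℝ) / 2 ^ 192 *
      Γ (((∑ i, pe m (g i) : ℕ) : ℤ) - 24 * m) := by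
    have e3 : ∀ i ∈ range (24 * m + 1),
        ((dig 224 (epoly m p s st al) (12 * m + i) : ℝ) / 2 ^ 192) * Γ ((i : ℤ) - (12 * m : ℕ)) =
        ∑ g ∈ J1 m with ∑ i, pe m (g i) = 12 * m + i,
          ((∏ i, we m p s st al (g i) : ℕ) : ℝ) / 2 ^ 192 *
            Γ (((∑ i, pe m (g i) : ℕ) : ℤ) - 24 * m) := by
      intro i _
      rw [hdig, Nat.cast_sum, sum_div, sum_mul]
      refine sum_congr rfl fun g hg => ?_
      rw [(mem_filter.1 hg).2]
      congr 2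
      push_cast
      ring
    rw [sum_congr rfl e3]
    have e4 : ∑ i ∈ range (24 * m + 1), ∑ g ∈ J1 m with ∑ i, pe m (g i) = 12 * m + i,
          ((∏ i, we m p s st al (g i) : ℕ) : ℝ) / 2 ^ 192 *
            Γ (((∑ i, pe m (g i) : ℕ) : ℤ) - 24 * m) =
        ∑ g ∈ (J1 m).filter (fun g => 12 * m ≤ ∑ i, pe m (g i) ∧
          ∑ i, pe m (g i) - 12 * m ∈ range (24 * m + 1)),
          ((∏ i, we m p s st al (g i) : ℕ) : ℝ) / 2 ^ 192 *
            Γ (((∑ i, pe m (g i) : ℕ) : ℤ) - 24 * m) := by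
      rw [← sum_fiberwise_of_maps_to (s := (J1 m).filter (fun g => 12 * m ≤ ∑ i, pe m (g i) ∧
          ∑ i, pe m (g i) - 12 * m ∈ range (24 * m + 1))) (t := range (24 * m + 1))
        (g := fun g => ∑ i, pe m (g i) - 12 * m) (fun g hg => (mem_filter.1 hg).2.2)]
      refine sum_congr rfl fun i hi => ?_
      refine sum_congr ?_ fun _ _ => rfl
      ext g
      simp only [mem_filter]
      constructor
      · rintro ⟨h1, h2⟩
        refine ⟨⟨h1, by omega, ?_⟩, by omega⟩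
        rw [h2, Nat.add_sub_cancel_left]
        exact hi
      · rintro ⟨⟨h1, h2, _⟩, h3⟩
        exact ⟨h1, by omega⟩
    rw [e4]
    refine sum_le_sum_of_subset_of_nonneg (filter_subset _ _) fun g _ _ => ?_
    exact mul_nonneg (by positivity) (hΓ0 _)
  -- step 3: table
  have s3 : (∑ i ∈ range (24 * m + 1), (wE m (epoly m p s st al) i : ℝ) *
        ∑ l ∈ range 3, (tco (tg (dig 240 E i) l) : ℝ) *
          phi r m G (tidx (tg (dig 240 E i) l))) / 2 ^ 160 ≤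
      3 * ∑ i ∈ range (24 * m + 1), ((dig 224 (epoly m p s st al) (12 * m + i) : ℝ) / 2 ^ 192) *
      Γ ((i : ℤ) - (12 * m : ℕ)) := by
    rw [sum_div, mul_sum]
    refine sum_le_sum fun i hi => ?_
    have h1 := okE_ge hp hs (Nat.lt_succ_iff.1 (mem_range.1 hi)) (tabOK_E hm hT (mem_range.1 hi))
      hG hsG
    have h2 : ∑ l ∈ range 3, (tco (tg (dig 240 E i) l) : ℝ) *
          phi r m G (tidx (tg (dig 240 E i) l)) ≤ 2 ^ 32 * Γ ((i : ℤ) - (12 * m : ℕ)) := by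
      have := mul_le_mul_of_nonneg_left h1 (show (0 : ℝ) ≤ 2 ^ 32 by positivity)
      refine le_trans (le_of_eq ?_) this
      rw [mul_sum]
      refine sum_congr rfl fun l _ => ?_
      ring
    have h3 : ((dig 224 (epoly m p s st al) (12 * m + i) >>> 64 : ℕ) : ℝ) ≤
        (dig 224 (epoly m p s st al) (12 * m + i) : ℝ) / 2 ^ 64 := by
      rw [Nat.shiftRight_eq_div_pow]
      refine (Nat.cast_div_le (α := ℝ)).trans (le_of_eq ?_)
      norm_num
    have h4 : (wE m (epoly m p s st al) i : ℝ) ≤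
        3 * ((dig 224 (epoly m p s st al) (12 * m + i) : ℝ) / 2 ^ 64) := by
      unfold wE
      push_cast at h3 ⊢
      linarith
    rw [div_le_iff₀ (by positivity)]
    calc _ ≤ (wE m (epoly m p s st al) i : ℝ) * (2 ^ 32 * Γ ((i : ℤ) - (12 * m : ℕ))) :=
          mul_le_mul_of_nonneg_left h2 (Nat.cast_nonneg _)
      _ ≤ 3 * ((dig 224 (epoly m p s st al) (12 * m + i) : ℝ) / 2 ^ 64) *
          (2 ^ 32 * Γ ((i : ℤ) - (12 * m : ℕ))) :=
          mul_le_mul_of_nonneg_right h4 (mul_nonneg (by positivity) (hΓ0 _))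
      _ = _ := by
          field_simp
  refine s3.trans ?_
  exact mul_le_mul_of_nonneg_left (s2.trans s1) (by norm_num)

end Crest.Agent.R163.Ck
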