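import Crest.Agent.R163.CkH

/-!
# Row 163, chain: soundness of one step of the checker
-/

set_option autoImplicit false

namespace Crest.Agent.R163.Ck

open Finset

/-- atoms of the lower bound of the experiment -/
noncomputable def atm (r : ℝ) (m st al : ℕ) (a : Fin 3) : Option (Fin 3 → ℕ) → Fin 3 → ℝ
  | none => fun c => ((al : ℝ) / 2 ^ 32) * nu a c
  | some x => fun c => ((cc m st x : ℝ) / 2 ^ 32) * vec r (2 * m) x c

theorem atm_nonneg {r : ℝ} (hr : 0 < r) (m st al : ℕ) (a : Fin 3) (o : Option (Fin 3 → ℕ))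
    (c : Fin 3) : 0 ≤ atm r m st al a o c := by
  cases o with
  | none => exact mul_nonneg (by positivity) (nu_nonneg a c)
  | some x => exact mul_nonneg (by positivity) (vec_nonneg hr _ _ c)

theorem gam_homog {G : (Fin 3 → ℝ) → ℝ} (hG : GG G) {t : ℝ} (ht : 0 ≤ t) {v : Fin 3 → ℝ}
    (hv : ∀ a, 0 ≤ v a) : G (chv (-1 / 2) (fun c => t * v c)) = t * G (chv (-1 / 2) v) := by
  rw [← hG.homog t (chv (-1 / 2) v) ht]
  · congr 1
    funext c
    rw [chv_half, chv_half]
    ring
  · intro a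
    rw [chv_half]
    have h0 := hv 0
    have h1 := hv 1
    have h2 := hv 2
    fin_cases a
    · show 0 ≤ (v 0 + v 1 + v 2 - v 0) / 2
      linarith
    · show 0 ≤ (v 0 + v 1 + v 2 - v 1) / 2
      linarith
    · show 0 ≤ (v 0 + v 1 + v 2 - v 2) / 2
      linarith

/-- the product vector of an edge term (colour `0`) -/
theorem prod_edge {r : ℝ} (hr : 0 < r) {m st al : ℕ} {g : Fin 4 → Option (Fin 3 → ℕ)}
    (hg : g ∈ J1 m) : (fun c => ∏ i, atm r m st al 0 (g i) c) =
      fun c => (∏ i, wr r m st al (g i)) * evc r (∑ i, de (g i)) c := by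
  obtain ⟨_, i0, hi0⟩ := mem_J1.1 hg
  have h1 : ∀ o : Option (Fin 3 → ℕ), atm r m st al 0 o 1 = wr r m st al o * r ^ de o := by
    intro o
    cases o with
    | none =>
      show ((al : ℝ) / 2 ^ 32) * nu 0 1 = ((al : ℝ) / 2 ^ 32) * r ^ (0 : ℤ)
      rw [zpow_zero]
      rfl
    | some x =>
      show ((cc m st x : ℝ) / 2 ^ 32) * r ^ ((x 1 : ℤ) - (2 * m : ℕ)) =
        ((cc m st x : ℝ) / 2 ^ 32) * r ^ ((x 2 : ℤ) - (2 * m : ℕ)) * r ^ ((x 1 : ℤ) - x 2)
      rw [mul_assoc, ← zpow_add₀ hr.ne']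
      congr 2
      ring
  have h2 : ∀ o : Option (Fin 3 → ℕ), atm r m st al 0 o 2 = wr r m st al o := by
    intro o
    cases o with
    | none =>
      show ((al : ℝ) / 2 ^ 32) * nu 0 2 = ((al : ℝ) / 2 ^ 32)
      have : nu 0 2 = 1 := rfl
      rw [this, mul_one]
    | some x => rfl
  funext c
  fin_cases c
  · show ∏ i, atm r m st al 0 (g i) 0 = (∏ i, wr r m st al (g i)) * 0
    rw [mul_zero]
    refine prod_eq_zero (mem_univ i0) ?_
    rw [hi0]
    show ((al : ℝ) / 2 ^ 32) * nu 0 0 = 0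
    have : nu 0 0 = 0 := rfl
    rw [this, mul_zero]
  · show ∏ i, atm r m st al 0 (g i) 1 = (∏ i, wr r m st al (g i)) * r ^ (∑ i, de (g i))
    simp only [h1]
    rw [prod_mul_distrib]
    congr 1
    rw [Fin.prod_univ_four, Fin.sum_univ_four, zpow_add₀ hr.ne', zpow_add₀ hr.ne', zpow_add₀ hr.ne']
  · show ∏ i, atm r m st al 0 (g i) 2 = (∏ i, wr r m st al (g i)) * 1
    simp only [h2, mul_one]

theorem wr_nonneg {r : ℝ} (hr : 0 < r) (m st al : ℕ) (o : Option (Fin 3 → ℕ)) :
    0 ≤ wr r m st al o := by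
  cases o with
  | none => exact div_nonneg (Nat.cast_nonneg _) (by positivity)
  | some x => exact mul_nonneg (by positivity) (zpow_pos hr _).le

/-- colour symmetry of the edge sums -/
theorem edge_colour {r : ℝ} {m st al : ℕ} {G : (Fin 3 → ℝ) → ℝ} (hsG : GSym G) (a : Fin 3) :
    ∑ g ∈ J1 m, G (chv (-1 / 2) (fun c => ∏ i, atm r m st al a (g i) c)) =
    ∑ g ∈ J1 m, G (chv (-1 / 2) (fun c => ∏ i, atm r m st al 0 (g i) c)) := by
  set τ : Equiv.Perm (Fin 3) := Equiv.swap 0 a with hτ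
  have hτ0 : τ.symm a = 0 := by rw [hτ]; simp
  refine Finset.sum_nbij' (fun g i => (g i).map fun x c => x (τ c))
    (fun g i => (g i).map fun x c => x (τ.symm c)) ?_ ?_ ?_ ?_ ?_
  · intro g hg
    obtain ⟨h1, i, hi⟩ := mem_J1.1 hg
    rw [mem_J1]
    refine ⟨fun i x hx => ?_, i, by simp [hi]⟩
    obtain ⟨y, hy, rfl⟩ := Option.map_eq_some_iff.1 hx
    exact perm_mem (h1 i y hy) τ
  · intro g hg
    obtain ⟨h1, i, hi⟩ := mem_J1.1 hg
    rw [mem_J1]
    refine ⟨fun i x hx => ?_, i, by simp [hi]⟩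
    obtain ⟨y, hy, rfl⟩ := Option.map_eq_some_iff.1 hx
    exact perm_mem (h1 i y hy) τ.symm
  · intro g _
    funext i
    cases hgi : g i with
    | none => simp [hgi]
    | some x => simp [hgi]
  · intro g _
    funext i
    cases hgi : g i with
    | none => simp [hgi]
    | some x => simp [hgi]
  · intro g hg
    obtain ⟨h1, _⟩ := mem_J1.1 hg
    set V : Fin 3 → ℝ := fun c => ∏ i, atm r m st al a (g i) c with hV
    have e : (fun c => ∏ i, atm r m st al 0 ((g i).map fun x c => x (τ c)) c) =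
        fun c => V (τ c) := by
      funext c
      rw [hV]
      refine prod_congr rfl fun i _ => ?_
      cases hgi : g i with
      | none =>
        show ((al : ℝ) / 2 ^ 32) * nu 0 c = ((al : ℝ) / 2 ^ 32) * nu a (τ c)
        rw [congrFun (nu_perm a τ) c, hτ0]
      | some x =>
        show ((cc m st (fun c => x (τ c)) : ℝ) / 2 ^ 32) * vec r (2 * m) (fun c => x (τ c)) c =
          ((cc m st x : ℝ) / 2 ^ 32) * vec r (2 * m) x (τ c)
        rw [cc_perm (h1 i x hgi) τ]
        rfl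
    rw [e, chv_perm]
    exact (hsG τ _).symm

/-- `pw_lower` for finsets -/
theorem pw_lower_finset {q : ℕ} (hq : 0 < q) {ι : Type*} {w : ι → Fin q → ℝ} (hw : IsExp w)
    {κ : Type*} [DecidableEq κ] (S : Finset κ) (E : κ → Fin q → ℝ) (hE : ∀ k a, 0 ≤ E k a)
    (h : ∀ G : (Fin q → ℝ) → ℝ, GG G → ∑ k ∈ S, G (E k) ≤ Ex G w) (n : ℕ)
    (G : (Fin q → ℝ) → ℝ) (hG : GG G) :
    ∑ f ∈ Fintype.piFinset (fun _ : Fin n => S), G (fun a => ∏ m, E (f m) a) ≤ Ex G (pw w n) := by
  have h1 := GG.pw_lower hq hw (fun k : S => E k) (fun k a => hE k a)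
    (fun G hG => by
      have := h G hG
      rw [← Finset.sum_coe_sort] at this
      exact this) n G hG
  refine le_trans (le_of_eq ?_) h1
  symm
  refine Finset.sum_nbij (fun f i => (f i : κ)) ?_ ?_ ?_ ?_
  · intro f _
    rw [Fintype.mem_piFinset]
    exact fun i => (f i).2
  · intro f _ g _ hfg
    funext i
    exact Subtype.ext (congrFun hfg i)
  · intro f hf
    rw [mem_coe, Fintype.mem_piFinset] at hf
    exact ⟨fun i => ⟨f i, hf i⟩, by simp, rfl⟩
  · intro f _; rfl

/-- the index type of the fourth power -/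
abbrev JJ := (Fin 4 → Fin 3 → ℕ) ⊕ (Fin 3 × (Fin 4 → Option (Fin 3 → ℕ)))

noncomputable def SJ (m : ℕ) : Finset JJ :=
  (Fintype.piFinset fun _ : Fin 4 => TT (2 * m)).disjSum ((univ : Finset (Fin 3)) ×ˢ J1 m)

noncomputable def EJ (r : ℝ) (m st al : ℕ) : JJ → Fin 3 → ℝ
  | Sum.inl g => fun c => ∏ i, atm r m st al 0 (some (g i)) c
  | Sum.inr x => fun c => ∏ i, atm r m st al x.1 (x.2 i) c

noncomputable def PhiJ : JJ → Fin 4 → (Fin 3 → ℕ) ⊕ Fin 3
  | Sum.inl g => fun i => Sum.inl (g i)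
  | Sum.inr x => fun i => (x.2 i).elim (Sum.inr x.1) Sum.inl

theorem phiJ_inj (m : ℕ) : Set.InjOn PhiJ (SJ m : Set JJ) := by
  intro x hx y hy hxy
  have hx' := mem_disjSum.1 (mem_coe.1 hx)
  have hy' := mem_disjSum.1 (mem_coe.1 hy)
  rcases hx' with ⟨g, _, rfl⟩ | ⟨⟨a, g⟩, hg, rfl⟩ <;> rcases hy' with ⟨g', _, rfl⟩ | ⟨⟨a', g'⟩, hg', rfl⟩
  · congr 1
    funext i
    have := congrFun hxy i
    exact Sum.inl.inj this
  · obtain ⟨_, i, hi⟩ := mem_J1.1 (mem_product.1 hg').2
    have := congrFun hxy i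
    simp only [PhiJ] at this hi
    rw [hi] at this
    exact absurd this (by simp)
  · obtain ⟨_, i, hi⟩ := mem_J1.1 (mem_product.1 hg).2
    have := congrFun hxy i
    simp only [PhiJ] at this hi
    rw [hi] at this
    exact absurd this (by simp)
  · have hall : ∀ i, (g i).elim (Sum.inr a) Sum.inl =
      ((g' i).elim (Sum.inr a') Sum.inl : (Fin 3 → ℕ) ⊕ Fin 3) := fun i => congrFun hxy i
    obtain ⟨_, i, hi⟩ := mem_J1.1 (mem_product.1 hg).2
    simp only at hi
    have ha : a = a' := by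
      have h := hall i
      rw [hi] at h
      cases hg'i : g' i with
      | none => rw [hg'i] at h; exact Sum.inr.inj h
      | some x => rw [hg'i] at h; exact absurd h (by simp)
    have hgg : g = g' := by
      funext i
      have h := hall i
      cases h1 : g i with
      | none =>
        cases h2 : g' i with
        | none => rfl
        | some x => rw [h1, h2] at h; exact absurd h (by simp)
      | some x =>
        cases h2 : g' i with
        | none => rw [h1, h2] at h; exact absurd h (by simp)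
        | some y => rw [h1, h2] at h; rw [Sum.inl.inj h]
    rw [ha, hgg]

/-- the lower bound of the fourth power -/
theorem pow4_lower {r : ℝ} (hr : 0 < r) {m st al : ℕ} {ι : Type*} {W : ι → Fin 3 → ℝ}
    (hW : IsExp W) (h : ∀ G : (Fin 3 → ℝ) → ℝ, GG G → VV r m st al G ≤ Ex G W)
    (G : (Fin 3 → ℝ) → ℝ) (hG : GG G) : ∑ j ∈ SJ m, G (EJ r m st al j) ≤ Ex G (pw W 4) := by
  classical
  set E : (Fin 3 → ℕ) ⊕ Fin 3 → Fin 3 → ℝ :=
    Sum.elim (fun x => atm r m st al 0 (some x)) (fun a => atm r m st al a none) with hE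
  have hE0 : ∀ k a, 0 ≤ E k a := by
    intro k a
    rcases k with x | b
    · exact atm_nonneg hr m st al 0 (some x) a
    · exact atm_nonneg hr m st al b none a
  have h1 := pw_lower_finset (by norm_num) hW ((TT (2 * m)).disjSum (univ : Finset (Fin 3))) E hE0
    (fun G hG => by
      refine le_trans (le_of_eq ?_) (h G hG)
      rw [sum_disjSum]
      unfold VV
      congr 1
      · refine sum_congr rfl fun x _ => ?_
        exact hG.homog _ _ (by positivity) (vec_nonneg hr _ x)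
      · rw [mul_sum]
        refine sum_congr rfl fun a _ => ?_
        exact hG.homog _ _ (by positivity) (nu_nonneg a)) 4 G hG
  refine le_trans ?_ h1
  have e1 : ∀ j, EJ r m st al j = fun a => ∏ i, E (PhiJ j i) a := by
    intro j
    rcases j with g | ⟨b, g⟩
    · rfl
    · funext c
      show ∏ i, atm r m st al b (g i) c = ∏ i, E ((g i).elim (Sum.inr b) Sum.inl) c
      refine prod_congr rfl fun i _ => ?_
      cases g i with
      | none => rfl
      | some x => rfl
  have e2 : ∑ j ∈ SJ m, G (EJ r m st al j) =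
      ∑ f ∈ (SJ m).image PhiJ, G (fun a => ∏ i, E (f i) a) := by
    rw [sum_image (phiJ_inj m)]
    exact sum_congr rfl fun j _ => by rw [e1]
  rw [e2]
  refine sum_le_sum_of_subset_of_nonneg ?_ fun f _ _ =>
    hG.nonneg _ fun a => prod_nonneg fun i _ => hE0 _ _
  intro f hf
  obtain ⟨j, hj, rfl⟩ := mem_image.1 hf
  rw [Fintype.mem_piFinset]
  intro i
  rcases mem_disjSum.1 hj with ⟨g, hg, rfl⟩ | ⟨⟨b, g⟩, hg, rfl⟩
  · rw [Fintype.mem_piFinset] at hg
    exact mem_disjSum.2 (Or.inl ⟨g i, hg i, rfl⟩)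
  · obtain ⟨h2, _⟩ := mem_J1.1 (mem_product.1 hg).2
    show (g i).elim (Sum.inr b) Sum.inl ∈ _
    cases hgi : g i with
    | none => exact mem_disjSum.2 (Or.inr ⟨b, mem_univ b, rfl⟩)
    | some x => exact mem_disjSum.2 (Or.inl ⟨x, h2 i x hgi, rfl⟩)

end Crest.Agent.R163.Ck
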