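import Crest.Agent.R163.CkI

/-!
# Row 163, chain: soundness of one step of the checker, assembly
-/

set_option autoImplicit false

namespace Crest.Agent.R163.Ck

open Finset

noncomputable def sR (r : ℝ) (m st : ℕ) : ℝ :=
  ∑ x ∈ TT (2 * m), ((cc m st x : ℝ) / 2 ^ 32) * vec r (2 * m) x 0

theorem sR_nonneg {r : ℝ} (hr : 0 < r) (m st : ℕ) : 0 ≤ sR r m st :=
  sum_nonneg fun x _ => mul_nonneg (by positivity) (vec_nonneg hr _ x 0)

theorem sR_col (r : ℝ) (m st : ℕ) (a : Fin 3) :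
    ∑ x ∈ TT (2 * m), ((cc m st x : ℝ) / 2 ^ 32) * vec r (2 * m) x a = sR r m st := by
  unfold sR
  rw [← sum_perm (2 * m) (Equiv.swap 0 a)
    (fun x => ((cc m st x : ℝ) / 2 ^ 32) * vec r (2 * m) x 0)]
  refine sum_congr rfl fun x hx => ?_
  rw [cc_perm hx]
  unfold vec
  simp only [Equiv.swap_apply_left]

theorem sR_le {p s : ℕ} (hp : 0 < p) (hs : 0 < s) {m st sp : ℕ} (hm : m ≤ 15)
    (h : wsum m p s st ≤ sp * (p ^ (2 * m) * s ^ (2 * m))) :
    sR ((p : ℝ) / s) m st ≤ (sp : ℝ) / 2 ^ 32 := by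
  have hr : (0 : ℝ) < (p : ℝ) / s := by positivity
  have hpR : (0 : ℝ) < p := by exact_mod_cast hp
  have hsR : (0 : ℝ) < s := by exact_mod_cast hs
  rw [wsum_eq hm] at h
  have h1 : ((∑ x ∈ TT (2 * m), cc m st x * (p ^ (x 0) * s ^ (4 * m - x 0)) : ℕ) : ℝ) ≤
      ((sp * (p ^ (2 * m) * s ^ (2 * m)) : ℕ) : ℝ) := by exact_mod_cast h
  have h2 : ((∑ x ∈ TT (2 * m), cc m st x * (p ^ (x 0) * s ^ (4 * m - x 0)) : ℕ) : ℝ) =
      (p : ℝ) ^ (2 * m) * s ^ (2 * m) * (2 ^ 32 * sR ((p : ℝ) / s) m st) := by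
    unfold sR
    rw [Nat.cast_sum, mul_sum, mul_sum]
    refine sum_congr rfl fun x hx => ?_
    have hx' := mem_TT.1 hx
    have e : (p : ℝ) ^ (x 0) * (s : ℝ) ^ (4 * m - x 0) =
        (p : ℝ) ^ (2 * m) * s ^ (2 * m) * vec ((p : ℝ) / s) (2 * m) x 0 := by
      unfold vec
      rw [zpow_sub₀ hr.ne', zpow_natCast, zpow_natCast, div_pow, div_pow]
      have e2 : (s : ℝ) ^ (4 * m - x 0) * s ^ (x 0) = s ^ (2 * m) * s ^ (2 * m) := by
        rw [← pow_add, ← pow_add]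
        congr 1
        omega
      field_simp
      rw [e2]
      ring
    push_cast
    rw [e]
    field_simp
  rw [h2] at h1
  push_cast at h1
  have h3 : (p : ℝ) ^ (2 * m) * s ^ (2 * m) * (2 ^ 32 * sR ((p : ℝ) / s) m st) ≤
      (p : ℝ) ^ (2 * m) * s ^ (2 * m) * sp := by linarith
  have h4 := le_of_mul_le_mul_left h3 (by positivity)
  rw [le_div_iff₀ (by positivity)]
  linarith

theorem massJ (r : ℝ) (m st al : ℕ) (a : Fin 3) :
    ∑ j ∈ SJ m, EJ r m st al j a =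
      2 * (sR r m st + (al : ℝ) / 2 ^ 32) ^ 4 - sR r m st ^ 4 := by
  unfold SJ
  rw [sum_disjSum]
  have e1 : ∑ g ∈ Fintype.piFinset (fun _ : Fin 4 => TT (2 * m)), EJ r m st al (Sum.inl g) a =
      sR r m st ^ 4 := by
    rw [← sR_col r m st a, sum_pow']
    rfl
  have e2 : ∀ b : Fin 3, ∑ g ∈ J1 m, EJ r m st al (Sum.inr (b, g)) a =
      (((al : ℝ) / 2 ^ 32) * nu b a + sR r m st) ^ 4 - sR r m st ^ 4 := by
    intro b
    have h := J1_sum m (fun o => atm r m st al b o a)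
    have h2 : ∑ x ∈ TT (2 * m), atm r m st al b (some x) a = sR r m st := sR_col r m st a
    rw [h2] at h
    have h3 : atm r m st al b none a = ((al : ℝ) / 2 ^ 32) * nu b a := rfl
    rw [h3] at h
    rw [h]
    show ∑ g ∈ J1 m, ∏ i, atm r m st al b (g i) a = _
    ring
  rw [e1, sum_product]
  simp only [e2]
  rw [Fin.sum_univ_three]
  have n0 : ∀ b c : Fin 3, nu b c = if c = b then 0 else 1 := fun _ _ => rfl
  fin_cases a <;> simp [n0] <;> ring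

theorem chv_ev (a : Fin 3) : chv (-1 / 2) (ev 3 a) = fun c => (1 / 2) * nu a c := by
  funext c
  rw [chv_half]
  have h1 : ev 3 a 0 + ev 3 a 1 + ev 3 a 2 = 1 := by
    unfold ev
    fin_cases a <;> simp
  rw [h1]
  unfold ev nu
  by_cases h : a = c
  · rw [if_pos h, if_pos h.symm]; norm_num
  · rw [if_neg h, if_neg (fun h' => h h'.symm)]; norm_num

theorem div32_nonneg (al : ℕ) : (0 : ℝ) ≤ (al : ℝ) / 2 ^ 32 :=
  div_nonneg (Nat.cast_nonneg _) (by positivity)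

theorem div128_nonneg (al : ℕ) : (0 : ℝ) ≤ (al : ℝ) / 2 ^ 128 :=
  div_nonneg (Nat.cast_nonneg _) (by positivity)

theorem mass_bound {s ŝ α : ℝ} (h0 : 0 ≤ s) (h1 : s ≤ ŝ) (hα : 0 ≤ α) :
    1 + ŝ ^ 4 - 2 * (ŝ + α) ^ 4 ≤ 1 - (2 * (s + α) ^ 4 - s ^ 4) := by
  have h2 : ŝ ^ 4 - s ^ 4 = (ŝ - s) * (ŝ ^ 3 + ŝ ^ 2 * s + ŝ * s ^ 2 + s ^ 3) := by ring
  have h3 : (ŝ + α) ^ 4 - (s + α) ^ 4 = (ŝ - s) * ((ŝ + α) ^ 3 + (ŝ + α) ^ 2 * (s + α) +
      (ŝ + α) * (s + α) ^ 2 + (s + α) ^ 3) := by ring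
  have h4 : 0 ≤ ŝ := h0.trans h1
  have h5 : ŝ ^ 3 + ŝ ^ 2 * s + ŝ * s ^ 2 + s ^ 3 ≤ (ŝ + α) ^ 3 + (ŝ + α) ^ 2 * (s + α) +
      (ŝ + α) * (s + α) ^ 2 + (s + α) ^ 3 := by
    gcongr <;> linarith
  have h6 : 0 ≤ ŝ ^ 3 + ŝ ^ 2 * s + ŝ * s ^ 2 + s ^ 3 := by positivity
  have h7 : ŝ ^ 4 - s ^ 4 ≤ (ŝ + α) ^ 4 - (s + α) ^ 4 := by
    rw [h2, h3]
    exact mul_le_mul_of_nonneg_left h5 (by linarith)
  have h8 : 0 ≤ ŝ ^ 4 - s ^ 4 := by
    rw [h2]
    exact mul_nonneg (by linarith) h6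
  linarith

theorem check_spec {m p s : ℕ} {T : List ℕ} {E st al sp st' al' : ℕ}
    (h : check m p s T E st al sp st' al' = true) :
    wsum m p s st ≤ sp * (p ^ (2 * m) * s ^ (2 * m)) ∧ csum m st < 2 ^ 33 ∧ al ≤ 2 ^ 32 ∧
    2 * (sp + al) ^ 4 ≤ 2 ^ 128 + sp ^ 4 ∧
    cmp m (accI m (npoly m st ^ 4) T + accE m (epoly m p s st al) E) st' = true ∧
    3 * (al' <<< 129) ≤ 2 * dig 256 (accI m (npoly m st ^ 4) T + accE m (epoly m p s st al) E)
      (nuI m) + 3 * ((2 ^ 128 + sp ^ 4 - 2 * (sp + al) ^ 4) <<< 32) := by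
  unfold check at h
  rw [cond_ble, cond_ble, cond_ble, cond_ble] at h
  split_ifs at h with h1 h2 h3 h4
  refine ⟨h1, h2, h3, h4, ?_⟩
  have h5 : (cnd (cmp m (accI m (npoly m st ^ 4) T + accE m (epoly m p s st al) E) st')
    (Nat.ble (3 * (al' <<< 129)) (2 * dig 256 (accI m (npoly m st ^ 4) T +
      accE m (epoly m p s st al) E) (nuI m) +
      3 * ((2 ^ 128 + sp ^ 4 - 2 * (sp + al) ^ 4) <<< 32))) false) = true := h
  cases hc : cmp m (accI m (npoly m st ^ 4) T + accE m (epoly m p s st al) E) st' with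
  | false => rw [hc] at h5; exact absurd h5 (by simp)
  | true =>
    rw [hc, cnd_true] at h5
    exact ⟨rfl, Nat.le_of_ble_eq_true h5⟩

set_option maxHeartbeats 400000 in
/-- **soundness of one step** -/
theorem step {m p s : ℕ} (hm : m ≤ 15) (hp : 0 < p) (hs : 0 < s) {T : List ℕ} {E : ℕ}
    (hT : tabOK m p s T E = true) (hrt : rtOK m p s = true) {st al sp st' al' : ℕ}
    (hck : check m p s T E st al sp st' al' = true)
    {ι : Type*} {W : ι → Fin 3 → ℝ} (hW : IsExp W)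
    (h : ∀ G : (Fin 3 → ℝ) → ℝ, GG G → VV ((p : ℝ) / s) m st al G ≤ Ex G W)
    (G : (Fin 3 → ℝ) → ℝ) (hG : GG G) (hsG : GSym G) :
    VV ((p : ℝ) / s) m st' al' G ≤ Ex G (ch (-1 / 2) (pw W 4)) := by
  have hr : (0 : ℝ) < (p : ℝ) / s := by positivity
  obtain ⟨c1, c2, c3, c4, c5, c6⟩ := check_spec hck
  have hs1 := sR_le hp hs hm c1
  have hI := interior_ge hm hp hs hT c2 hG hsG
  have hE := edges_ge hm hp hs hT hrt c2 c3 hG hsG
  obtain ⟨r, hrdef⟩ : ∃ r : ℝ, r = (p : ℝ) / s := ⟨_, rfl⟩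
  rw [← hrdef] at hr hs1 h hI hE ⊢
  obtain ⟨ac, hac⟩ : ∃ n, n = accI m (npoly m st ^ 4) T + accE m (epoly m p s st al) E := ⟨_, rfl⟩
  rw [← hac] at c5 c6
  -- the channel step
  have hβ0 : -(1 / (((3 : ℕ) : ℝ) - 1)) ≤ (-1 / 2 : ℝ) := by norm_num
  have hβ1 : (-1 / 2 : ℝ) ≤ 1 := by norm_num
  have hcl := GG.ch_lower (q := 3) (by norm_num) hβ0 hβ1 (isExp_pw hW 4) (SJ m) (fun _ => 1)
    (EJ r m st al) hG (by
      simp only [one_mul]
      exact pow4_lower hr hW h _ (hG.comp_ch (by norm_num) hβ0 hβ1))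
  refine le_trans ?_ hcl
  simp only [one_mul]
  -- the edge atoms of the channel
  have hev : ∀ a : Fin 3, G (chv (-1 / 2) (ev 3 a)) = phi r m G (nuI m) / 2 := by
    intro a
    rw [chv_ev, hG.homog (1 / 2) (nu a) (by norm_num) (nu_nonneg a)]
    unfold phi
    rw [if_pos rfl]
    have h := hsG (Equiv.swap 0 a) (nu 0)
    rw [nu_perm] at h
    rw [← h]
    have : (Equiv.swap 0 a).symm 0 = a := by simp
    rw [this]
    ring
  have hφ := phi_nonneg hr m hG (nuI m)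
  -- the restored mass
  obtain ⟨PiN, hPi⟩ : ∃ n : ℕ, n = 2 ^ 128 + sp ^ 4 - 2 * (sp + al) ^ 4 := ⟨_, rfl⟩
  rw [← hPi] at c6
  have hPiR : (PiN : ℝ) = 2 ^ 128 + (sp : ℝ) ^ 4 - 2 * ((sp : ℝ) + al) ^ 4 := by
    rw [hPi, Nat.cast_sub c4]
    push_cast
    ring
  have hmass : ∀ a : Fin 3, (PiN : ℝ) / 2 ^ 128 ≤ 1 - ∑ j ∈ SJ m, EJ r m st al j a := by
    intro a
    rw [massJ]
    have hmb := mass_bound (sR_nonneg hr m st) hs1 (div32_nonneg al)
    have e : (PiN : ℝ) / 2 ^ 128 = 1 + ((sp : ℝ) / 2 ^ 32) ^ 4 -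
        2 * ((sp : ℝ) / 2 ^ 32 + (al : ℝ) / 2 ^ 32) ^ 4 := by
      rw [hPiR]
      ring
    rw [e]
    exact hmb
  have hB : ∑ a : Fin 3, (1 - ∑ j ∈ SJ m, EJ r m st al j a) * G (chv (-1 / 2) (ev 3 a)) ≥
      3 * ((PiN : ℝ) / 2 ^ 129 * phi r m G (nuI m)) := by
    have : ∀ a ∈ (univ : Finset (Fin 3)), (PiN : ℝ) / 2 ^ 129 * phi r m G (nuI m) ≤
        (1 - ∑ j ∈ SJ m, EJ r m st al j a) * G (chv (-1 / 2) (ev 3 a)) := by
      intro a _
      rw [hev a]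
      calc (PiN : ℝ) / 2 ^ 129 * phi r m G (nuI m) =
            (PiN : ℝ) / 2 ^ 128 * (phi r m G (nuI m) / 2) := by ring
        _ ≤ _ := mul_le_mul_of_nonneg_right (hmass a) (by linarith)
    have h2 := sum_le_sum this
    rw [sum_const, card_univ, Fintype.card_fin, nsmul_eq_mul] at h2
    push_cast at h2
    exact h2
  -- interior and edges
  have hsum : ∑ j ∈ SJ m, G (chv (-1 / 2) (EJ r m st al j)) =
      ∑ g ∈ Fintype.piFinset (fun _ : Fin 4 => TT (2 * m)),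
        (((∏ i, cc m st (g i) : ℕ) : ℝ) / 2 ^ 128) *
        G (chv (-1 / 2) (vec r (8 * m) (fun c => ∑ i, g i c))) +
      3 * ∑ g ∈ J1 m, (∏ i, wr r m st al (g i)) *
        G (chv (-1 / 2) (evc r (∑ i, de (g i)))) := by
    unfold SJ
    rw [sum_disjSum]
    congr 1
    · refine sum_congr rfl fun g _ => ?_
      have e : EJ r m st al (Sum.inl g) = fun c => (((∏ i, cc m st (g i) : ℕ) : ℝ) / 2 ^ 128) *
          vec r (8 * m) (fun c => ∑ i, g i c) c := by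
        funext c
        show ∏ i, (((cc m st (g i) : ℝ) / 2 ^ 32) * r ^ ((g i c : ℤ) - (2 * m : ℕ))) =
          (((∏ i, cc m st (g i) : ℕ) : ℝ) / 2 ^ 128) * r ^ (((∑ i, g i c : ℕ) : ℤ) - (8 * m : ℕ))
        rw [prod_mul_distrib, prod_div_distrib, prod_const, card_univ, Fintype.card_fin, ← pow_mul]
        congr 1
        · push_cast; rfl
        · rw [Fin.prod_univ_four, Fin.sum_univ_four, ← zpow_add₀ hr.ne', ← zpow_add₀ hr.ne',
            ← zpow_add₀ hr.ne']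
          congr 1
          push_cast
          ring
      rw [e]
      exact gam_homog hG (div128_nonneg _) (vec_nonneg hr _ _)
    · rw [sum_product]
      have e1 : ∀ b : Fin 3, ∑ g ∈ J1 m, G (chv (-1 / 2) (EJ r m st al (Sum.inr (b, g)))) =
          ∑ g ∈ J1 m, (∏ i, wr r m st al (g i)) *
            G (chv (-1 / 2) (evc r (∑ i, de (g i)))) := by
        intro b
        have h1 := edge_colour (r := r) (m := m) (st := st) (al := al) hsG b
        refine h1.trans (sum_congr rfl fun g hg => ?_)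
        rw [prod_edge hr hg]
        exact gam_homog hG (prod_nonneg fun i _ => wr_nonneg hr m st al _) (evc_nonneg hr _)
      simp only [e1]
      rw [sum_const, card_univ, Fintype.card_fin, nsmul_eq_mul]
      norm_num
  rw [hsum]
  -- buckets
  have c6' : 3 * (al' : ℝ) * 2 ^ 128 ≤ (dig 256 ac (nuI m) : ℝ) + 3 * (PiN : ℝ) * 2 ^ 31 := by
    rw [Nat.shiftLeft_eq, Nat.shiftLeft_eq] at c6
    have c7 : ((3 * (al' * 2 ^ 129) : ℕ) : ℝ) ≤
        ((2 * dig 256 ac (nuI m) + 3 * (PiN * 2 ^ 32) : ℕ) : ℝ) := by exact_mod_cast c6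
    push_cast at c7
    linarith
  have hbk := bucket_le hm (npoly m st ^ 4) (epoly m p s st al) T E (phi r m G)
      (phi_nonneg hr m hG)
  rw [← hac] at hbk
  have hnew := new_state_le hr hm c5 hG hsG hbk c6'
  refine hnew.trans ?_
  rw [add_div, add_div]
  have e3 : 3 * (PiN : ℝ) * 2 ^ 31 * phi r m G (nuI m) / 2 ^ 160 =
      3 * ((PiN : ℝ) / 2 ^ 129 * phi r m G (nuI m)) := by ring
  rw [e3]
  linarith

end Crest.Agent.R163.Ck
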