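import Crest.Agent.R163.CkJ
import Crest.Agent.R163.Reg

/-!
# Row 163, chain: the process, the base case, change of lattice, final bounds
-/

set_option autoImplicit false

namespace Crest.Agent.R163.Ck

open Finset

/-- the state is a lower bound for the experiment -/
noncomputable def Good (r : ℝ) (m st al : ℕ) {ι : Type*} (W : ι → Fin 3 → ℝ) : Prop :=
  ∀ G : (Fin 3 → ℝ) → ℝ, GG G → VV r m st al G ≤ Ex G W

theorem hb0 : -(1 / (((3 : ℕ) : ℝ) - 1)) ≤ (-1 / 2 : ℝ) := by norm_num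
theorem hb1 : (-1 / 2 : ℝ) ≤ 1 := by norm_num

theorem homog_comp {G : (Fin 3 → ℝ) → ℝ} (hG : GG G) :
    Homog (fun v : Fin 3 → ℝ => G (chv (-1 / 2) v)) := by
  intro t v ht hv
  exact gam_homog hG ht hv

theorem mbdd_comp {G : (Fin 3 → ℝ) → ℝ} (hG : GG G) :
    MBdd (fun v : Fin 3 → ℝ => G (chv (-1 / 2) v)) := by
  obtain ⟨C, hC, h⟩ := hG.mbdd
  refine ⟨C, hC, fun v hv => ?_⟩
  have h1 := h (chv (-1 / 2) v) (chv_nonneg (by norm_num) hb0 hb1 v hv)
  have h2 : mass (chv (-1 / 2) v) = mass v := mass_chv (by norm_num) (-1 / 2) v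
  rwa [h2] at h1

theorem base {ι : ℕ → Type} {w : ∀ n, ι n → Fin 3 → ℝ} {lam : ℝ} {pp : ℕ → ℝ}
    (hw : IsProcess 3 lam pp ι w) (r : ℝ) (m : ℕ) :
    Good r m 0 (2 ^ 31) (ch (-1 / 2) (w 0)) := by
  intro G hG
  have h1 : Ex G (ch (-1 / 2) (w 0)) = Ex (fun v => G (chv (-1 / 2) v)) (w 0) := rfl
  rw [h1, hw.zero _ (homog_comp hG) (mbdd_comp hG)]
  unfold Ex
  rw [tsum_fintype]
  have h2 : ∀ x : Fin 3 → ℕ, (cc m 0 x : ℝ) = 0 := by
    intro x
    unfold cc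
    rw [cf_eq]
    split_ifs
    · rw [dig_eq]; simp
    · simp
  unfold VV
  simp only [h2, zero_div, zero_mul, sum_const_zero, zero_add]
  rw [mul_sum]
  refine sum_le_sum fun a _ => ?_
  have h3 : perfect 3 a = ev 3 a := rfl
  rw [h3, chv_ev, hG.homog (1 / 2) (nu a) (by norm_num) (nu_nonneg a)]
  apply le_of_eq
  push_cast
  norm_num

theorem chain_step {m p s : ℕ} {T : List ℕ} {E : ℕ} (hT : tabOK m p s T E = true)
    (hrt : rtOK m p s = true) (hm : m ≤ 15) (hp : 0 < p) (hs : 0 < s)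
    {st al sp st' al' : ℕ} (hck : check m p s T E st al sp st' al' = true)
    {ι : ℕ → Type} {w : ∀ n, ι n → Fin 3 → ℝ} (hw : IsProcess 3 (-1 / 2) (pReg 4) ι w) {n : ℕ}
    (h : Good ((p : ℝ) / s) m st al (ch (-1 / 2) (w n))) :
    Good ((p : ℝ) / s) m st' al' (ch (-1 / 2) (w (n + 1))) := by
  have hW : IsExp (ch (-1 / 2) (w n)) := isExp_ch (by norm_num) hb0 hb1 (hw.isExp n)
  have hW' : IsExp (ch (-1 / 2) (w (n + 1))) := isExp_ch (by norm_num) hb0 hb1 (hw.isExp (n + 1))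
  have hS' : IsSymm (ch (-1 / 2) (w (n + 1))) := isSymm_ch _ (hw.isSymm (n + 1))
  refine VV_all hW' hS' fun G hG hsG => ?_
  have h1 : Ex G (ch (-1 / 2) (w (n + 1))) = Ex (fun v => G (chv (-1 / 2) v)) (w (n + 1)) := rfl
  rw [h1, hw.succ n _ (homog_comp hG) (mbdd_comp hG)]
  have h2 : ∑' c : ℕ, pReg 4 c * Ex (fun v => G (chv (-1 / 2) v)) (pw (ch (-1 / 2) (w n)) c) =
      Ex (fun v => G (chv (-1 / 2) v)) (pw (ch (-1 / 2) (w n)) 4) := by
    rw [tsum_eq_single 4]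
    · unfold pReg; rw [if_pos rfl, one_mul]
    · intro c hc
      unfold pReg; rw [if_neg hc, zero_mul]
  rw [h2]
  exact step hm hp hs hT hrt hck hW h G hG hsG

/-- change of lattice -/
theorem convert_good {m m2 p s p2 s2 : ℕ} (hm : m ≤ 15) (hm2 : m2 ≤ 15) (hp2 : 0 < p2)
    (hs2 : 0 < s2) (hs : 0 < s) (hmm : m2 ≤ 2 * m) (hsq : p * s2 ^ 2 = p2 ^ 2 * s) {st st2 al : ℕ}
    (h : conv m m2 st st2 = true) {ι : Type*} {W : ι → Fin 3 → ℝ}
    (hg : Good ((p : ℝ) / s) m st al W) : Good ((p2 : ℝ) / s2) m2 st2 al W := by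
  intro G hG
  refine le_trans ?_ (hg G hG)
  have hr2 : (0 : ℝ) < (p2 : ℝ) / s2 := by positivity
  have hrr : (p : ℝ) / s = ((p2 : ℝ) / s2) ^ 2 := by
    have hs' : (s : ℝ) ≠ 0 := by exact_mod_cast hs.ne'
    have hs2' : (s2 : ℝ) ≠ 0 := by exact_mod_cast hs2.ne'
    have : (p : ℝ) * s2 ^ 2 = p2 ^ 2 * s := by exact_mod_cast hsq
    rw [div_pow, div_eq_div_iff hs' (by positivity)]
    exact this
  have hr : (0 : ℝ) < (p : ℝ) / s := by rw [hrr]; positivity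
  have key : ∀ y ∈ TT (2 * m2), cc m2 st2 y ≠ 0 →
      (∀ i, (y i + 4 * m + 2 * m2) % 2 = 0) ∧
      (fun i => (y i + 4 * m - 2 * m2) / 2) ∈ TT (2 * m) ∧
      cc m2 st2 y ≤ cc m st (fun i => (y i + 4 * m - 2 * m2) / 2) := by
    intro y hy hne
    have hy' := mem_TT.1 hy
    unfold conv at h
    have hk : RR m2 ≤ 2 ^ 6 := by
      show 4 * m2 + 1 ≤ 2 ^ 6
      norm_num; omega
    have h1 := ball_eq hk h (y 1) (by show y 1 < 4 * m2 + 1; omega)
    have h2 := ball_eq hk h1 (y 0) (by show y 0 < 4 * m2 + 1; omega)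
    have h3 := Nat.le_of_ble_eq_true h2
    rw [cond_beq, cond_beq] at h3
    have h4 : cc m2 st2 y ≤ if (y 0 + 4 * m + 2 * m2) % 2 = 0 then
        if (y 1 + 4 * m + 2 * m2) % 2 = 0 then
          cf m st ((y 0 + 4 * m - 2 * m2) / 2) ((y 1 + 4 * m - 2 * m2) / 2) else 0 else 0 := h3
    split_ifs at h4 with ha hb
    · refine ⟨?_, ?_, h4⟩
      · intro i
        fin_cases i
        · exact ha
        · exact hb
        · show (y 2 + 4 * m + 2 * m2) % 2 = 0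
          omega
      · rw [mem_TT]
        omega
    · exact absurd (Nat.le_zero.1 h4) hne
    · exact absurd (Nat.le_zero.1 h4) hne
  unfold VV
  refine add_le_add ?_ le_rfl
  have e1 : ∑ y ∈ TT (2 * m2), ((cc m2 st2 y : ℝ) / 2 ^ 32) * G (vec ((p2 : ℝ) / s2) (2 * m2) y) =
      ∑ y ∈ TT (2 * m2) with cc m2 st2 y ≠ 0,
        ((cc m2 st2 y : ℝ) / 2 ^ 32) * G (vec ((p2 : ℝ) / s2) (2 * m2) y) := by
    rw [sum_filter]
    refine sum_congr rfl fun y _ => ?_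
    split_ifs with h0
    · rfl
    · push Not at h0
      rw [h0]; simp
  rw [e1]
  have e2 : ∑ y ∈ TT (2 * m2) with cc m2 st2 y ≠ 0,
        ((cc m2 st2 y : ℝ) / 2 ^ 32) * G (vec ((p2 : ℝ) / s2) (2 * m2) y) ≤
      ∑ y ∈ TT (2 * m2) with cc m2 st2 y ≠ 0,
        ((cc m st (fun i => (y i + 4 * m - 2 * m2) / 2) : ℝ) / 2 ^ 32) *
          G (vec ((p : ℝ) / s) (2 * m) (fun i => (y i + 4 * m - 2 * m2) / 2)) := by
    refine sum_le_sum fun y hy => ?_
    obtain ⟨hy1, hy2⟩ := mem_filter.1 hy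
    obtain ⟨k1, k2, k3⟩ := key y hy1 hy2
    have e3 : vec ((p2 : ℝ) / s2) (2 * m2) y =
        vec ((p : ℝ) / s) (2 * m) (fun i => (y i + 4 * m - 2 * m2) / 2) := by
      funext i
      unfold vec
      rw [hrr]
      rw [← zpow_natCast ((p2 : ℝ) / s2) 2, ← zpow_mul]
      congr 1
      have := k1 i
      have hi : ((y i + 4 * m - 2 * m2) / 2 : ℕ) * 2 + 2 * m2 = y i + 4 * m := by omega
      push_cast
      omega
    rw [e3]
    refine mul_le_mul_of_nonneg_right ?_ (hG.nonneg _ (vec_nonneg hr _ _))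
    exact div_le_div_of_nonneg_right (by exact_mod_cast k3) (by positivity)
  refine e2.trans ?_
  have hinj : Set.InjOn (fun (y : Fin 3 → ℕ) i => (y i + 4 * m - 2 * m2) / 2)
      (((TT (2 * m2)).filter fun y => cc m2 st2 y ≠ 0 : Finset (Fin 3 → ℕ)) : Set (Fin 3 → ℕ)) := by
    intro y hy z hz hyz
    obtain ⟨hy1, hy2⟩ := mem_filter.1 (mem_coe.1 hy)
    obtain ⟨hz1, hz2⟩ := mem_filter.1 (mem_coe.1 hz)
    have k1 := (key y hy1 hy2).1
    have l1 := (key z hz1 hz2).1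
    funext i
    have h1 := congrFun hyz i
    simp only at h1
    have h2 := k1 i
    have h3 := l1 i
    omega
  rw [← sum_image (f := fun x => ((cc m st x : ℝ) / 2 ^ 32) * G (vec ((p : ℝ) / s) (2 * m) x))
    (g := fun (y : Fin 3 → ℕ) i => (y i + 4 * m - 2 * m2) / 2) hinj]
  refine sum_le_sum_of_subset_of_nonneg ?_ fun x _ _ =>
    mul_nonneg (by positivity) (hG.nonneg _ (vec_nonneg hr _ _))
  intro x hx
  obtain ⟨y, hy, rfl⟩ := mem_image.1 hx
  obtain ⟨hy1, hy2⟩ := mem_filter.1 hy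
  exact (key y hy1 hy2).2.1

end Crest.Agent.R163.Ck
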