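import Crest.Agent.R163.Bl
import Crest.Agent.R163.PotPt
import Crest.Agent.R163.Reg
import Crest.Agent.R163.GW

/-!
# Row 163: degradation of processes

A process with a smaller offspring law (stochastic order) and a noisier channel (`lam = γ lam'`,
`0 ≤ γ ≤ 1`) is less informative.
-/

set_option autoImplicit false

namespace Crest.Agent.R163

open Finset Filter

variable {q : ℕ}

/-- `X` is sublinear -/
theorem subL_fX (hq : 0 < q) : SubL (fX : (Fin q → ℝ) → ℝ) where
  homog := homog_fX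
  mbdd := mbdd_fX hq
  add_le := by
    intro u v hu hv
    have hmu := mass_nonneg u hu
    have hmv := mass_nonneg v hv
    by_cases h1 : mass u = 0
    · have h0 : u = fun _ => (0 : ℝ) := funext fun a => eq_zero_of_mass_eq_zero hq u hu h1 a
      rw [h0]
      simp only [zero_add]
      linarith [fX_nonneg (fun _ : Fin q => (0 : ℝ)) (fun _ => le_rfl)]
    by_cases h2 : mass v = 0
    · have h0 : v = fun _ => (0 : ℝ) := funext fun a => eq_zero_of_mass_eq_zero hq v hv h2 a
      rw [h0]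
      simp only [add_zero]
      linarith [fX_nonneg (fun _ : Fin q => (0 : ℝ)) (fun _ => le_rfl)]
    have hs : 0 < mass u := lt_of_le_of_ne hmu (Ne.symm h1)
    have ht : 0 < mass v := lt_of_le_of_ne hmv (Ne.symm h2)
    have e : ∀ a, uv (fun a => u a + v a) a =
        (mass u * uv u a + mass v * uv v a) / (mass u + mass v) := by
      intro a
      unfold uv
      rw [mass_add]
      field_simp
      ring
    unfold fX m2
    rw [mass_add]
    have key : ∀ a, (mass u + mass v) * uv (fun a => u a + v a) a ^ 2 ≤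
        mass u * uv u a ^ 2 + mass v * uv v a ^ 2 := by
      intro a
      rw [e a, div_pow]
      rw [mul_div_assoc', div_le_iff₀ (by positivity)]
      nlinarith [mul_nonneg (mul_nonneg hs.le ht.le) (mul_nonneg (by linarith : 0 ≤ mass u + mass v)
        (sq_nonneg (uv u a - uv v a)))]
    have hsum := Finset.sum_le_sum fun a (_ : a ∈ (Finset.univ : Finset (Fin q))) => key a
    rw [Finset.sum_add_distrib, ← Finset.mul_sum, ← Finset.mul_sum, ← Finset.mul_sum] at hsum
    have hq' : (0 : ℝ) ≤ 1 / q := by positivity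
    calc (mass u + mass v) * (1 / (q : ℝ) * ∑ a, uv (fun a => u a + v a) a ^ 2)
        = 1 / (q : ℝ) * ((mass u + mass v) * ∑ a, uv (fun a => u a + v a) a ^ 2) := by ring
      _ ≤ 1 / (q : ℝ) * (mass u * ∑ a, uv u a ^ 2 + mass v * ∑ a, uv v a ^ 2) :=
        mul_le_mul_of_nonneg_left hsum hq'
      _ = _ := by ring

/-- functionals of experiments are bounded -/
theorem abs_Ex_le (hq : 0 < q) {κ : Type*} {w : κ → Fin q → ℝ} (hw : IsExp w)
    {F : (Fin q → ℝ) → ℝ} {C : ℝ} (hC : 0 ≤ C)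
    (hb : ∀ v : Fin q → ℝ, (∀ a, 0 ≤ v a) → |F v| ≤ C * mass v) : |Ex F w| ≤ C := by
  have hmass := (hw.hasSum_mass hq).mul_left C
  have hs := hw.summable hq ⟨C, hC, hb⟩
  rw [mul_one] at hmass
  have h1 := hs.norm.tsum_le_tsum (fun i => hb _ (hw.nonneg i)) hmass.summable
  rw [hmass.tsum_eq] at h1
  exact (norm_tsum_le_tsum_norm hs.norm).trans h1

/-- the offspring law `p` is stochastically smaller than `p'` (on bounded monotone functions) -/
def StLe (p p' : ℕ → ℝ) : Prop :=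
  ∀ f : ℕ → ℝ, Monotone f → (∃ C, ∀ c, |f c| ≤ C) → ∑' c, p c * f c ≤ ∑' c, p' c * f c

theorem dom_process (hq : 1 < q) {lam lam' γ : ℝ} (hγ0 : -(1 / ((q : ℝ) - 1)) ≤ γ) (hγ1 : γ ≤ 1)
    (hl : lam = γ * lam')
    (hl0 : -(1 / ((q : ℝ) - 1)) ≤ lam) (hl1 : lam ≤ 1)
    (hl0' : -(1 / ((q : ℝ) - 1)) ≤ lam') (hl1' : lam' ≤ 1) {p p' : ℕ → ℝ}
    (hp0 : ∀ c, 0 ≤ p c) (hp : Summable p)
    (hpp : StLe p p') {ι ι' : ℕ → Type} {w : ∀ n, ι n → Fin q → ℝ} {w' : ∀ n, ι' n → Fin q → ℝ}
    (hw : IsProcess q lam p ι w) (hw' : IsProcess q lam' p' ι' w') (n : ℕ) :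
    Dom (w n) (w' n) := by
  have hq0 : 0 < q := by omega
  induction n with
  | zero =>
    intro F hF
    rw [hw.zero F hF.homog hF.mbdd, hw'.zero F hF.homog hF.mbdd]
  | succ n ih =>
    intro F hF
    rw [hw.succ n F hF.homog hF.mbdd, hw'.succ n F hF.homog hF.mbdd]
    obtain ⟨C, hC, hb⟩ := hF.mbdd
    have hE := isExp_ch hq hl0 hl1 (hw.isExp n)
    have hE' := isExp_ch hq hl0' hl1' (hw'.isExp n)
    have hdom : Dom (ch lam (w n)) (ch lam' (w' n)) := by
      have h1 := dom_ch_mul hq hγ0 hγ1 hl0' hl1' (hw.isExp n) (hw.isSymm n)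
      rw [← hl] at h1
      exact h1.trans (dom_ch hq hl0' hl1' ih)
    have hsum : ∀ {κ : Type} {Q : κ → Fin q → ℝ}, IsExp Q →
        Summable fun c => p c * Ex F (pw Q c) := by
      intro κ Q hQ
      refine Summable.of_norm_bounded (g := fun c => p c * C) (hp.mul_right C) fun c => ?_
      rw [Real.norm_eq_abs, abs_mul, abs_of_nonneg (hp0 c)]
      exact mul_le_mul_of_nonneg_left (abs_Ex_le hq0 (isExp_pw hQ c) hC hb) (hp0 c)
    refine le_trans ((hsum hE).tsum_le_tsum (fun c => ?_) (hsum hE')) ?_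
    · exact mul_le_mul_of_nonneg_left (dom_pw hq0 hE hE' hdom c F hF) (hp0 c)
    · refine hpp (fun c => Ex F (pw (ch lam' (w' n)) c)) (fun c c' h => ?_) ⟨C, fun c => ?_⟩
      · exact dom_pw_mono hq0 hE' h F hF
      · exact abs_Ex_le hq0 (isExp_pw hE' c) hC hb

theorem StLe.refl (p : ℕ → ℝ) : StLe p p := fun _ _ _ => le_rfl

theorem stLe_pReg {b b' : ℕ} (h : b ≤ b') : StLe (pReg b) (pReg b') := by
  intro f hf _
  have e : ∀ b : ℕ, ∑' c, pReg b c * f c = f b := by
    intro b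
    rw [tsum_eq_single b]
    · unfold pReg; simp
    · intro c hc
      unfold pReg; simp [hc]
  rw [e, e]
  exact hf h

/-- the Poisson laws are stochastically increasing -/
theorem stLe_pPoi {d d' : ℝ} (hd : 0 ≤ d) (h : d ≤ d') : StLe (pPoi d) (pPoi d') := by
  intro f hf hb
  obtain ⟨C, hC⟩ := hb
  obtain ⟨e, he, rfl⟩ : ∃ e, 0 ≤ e ∧ d' = d + e := ⟨d' - d, by linarith, by ring⟩
  have hsf : ∀ d : ℝ, 0 ≤ d → Summable fun c => pPoi d c * f c := by
    intro d hd
    refine Summable.of_norm_bounded (g := fun c => pPoi d c * C)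
      ((hasSum_pPoi d).summable.mul_right C) fun c => ?_
    rw [Real.norm_eq_abs, abs_mul, abs_of_nonneg (pPoi_nonneg d hd c)]
    exact mul_le_mul_of_nonneg_left (hC c) (pPoi_nonneg d hd c)
  -- convolution
  have hconv : ∀ n : ℕ, pPoi (d + e) n =
      ∑ kl ∈ Finset.HasAntidiagonal.antidiagonal n, pPoi d kl.1 * pPoi e kl.2 := by
    intro n
    have h1 := (Commute.all d e).add_pow' n
    unfold pPoi
    have e0 : -(d + e) = -d + -e := by ring
    rw [e0, Real.exp_add, h1, Finset.mul_sum, Finset.sum_div]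
    refine Finset.sum_congr rfl fun kl hkl => ?_
    have hk := Finset.HasAntidiagonal.mem_antidiagonal.1 hkl
    have h2 : (Nat.factorial n : ℝ) = (n.choose kl.1 : ℝ) * Nat.factorial kl.1 * Nat.factorial kl.2 := by
      have h6 := Nat.choose_mul_factorial_mul_factorial (by omega : kl.1 ≤ n)
      have h7 : n - kl.1 = kl.2 := by omega
      rw [h7] at h6
      exact_mod_cast h6.symm
    have h3 : (n.choose kl.1 : ℝ) ≠ 0 := by
      exact_mod_cast (Nat.choose_pos (by omega : kl.1 ≤ n)).ne'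
    have h4 : (Nat.factorial kl.1 : ℝ) ≠ 0 := by exact_mod_cast (Nat.factorial_pos _).ne'
    have h5 : (Nat.factorial kl.2 : ℝ) ≠ 0 := by exact_mod_cast (Nat.factorial_pos _).ne'
    rw [h2, nsmul_eq_mul]
    field_simp
  have hs2 : Summable fun x : ℕ × ℕ => pPoi d x.1 * pPoi e x.2 * f (x.1 + x.2) := by
    have h1 : Summable fun x : ℕ × ℕ => pPoi d x.1 * pPoi e x.2 :=
      (hasSum_pPoi d).summable.mul_of_nonneg (hasSum_pPoi e).summable (pPoi_nonneg d hd)
        (pPoi_nonneg e he)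
    refine Summable.of_norm_bounded (g := fun x : ℕ × ℕ => pPoi d x.1 * pPoi e x.2 * C)
      (h1.mul_right C) fun x => ?_
    have h2 : 0 ≤ pPoi d x.1 * pPoi e x.2 := mul_nonneg (pPoi_nonneg d hd _) (pPoi_nonneg e he _)
    rw [Real.norm_eq_abs, abs_mul, abs_of_nonneg h2]
    exact mul_le_mul_of_nonneg_left (hC _) h2
  have hT : ∑' n, pPoi (d + e) n * f n =
      ∑' x : ℕ × ℕ, pPoi d x.1 * pPoi e x.2 * f (x.1 + x.2) := by
    have h1 := Finset.HasAntidiagonal.sigmaAntidiagonalEquivProd.tsum_eq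
      (fun x : ℕ × ℕ => pPoi d x.1 * pPoi e x.2 * f (x.1 + x.2))
    have h2 := (Finset.HasAntidiagonal.sigmaAntidiagonalEquivProd.summable_iff
        (f := fun x : ℕ × ℕ => pPoi d x.1 * pPoi e x.2 * f (x.1 + x.2))).2 hs2
    rw [← h1]
    have h3 := h2.tsum_sigma' (fun n => (hasSum_fintype _).summable)
    simp only [Function.comp_def] at h3
    rw [h3]
    refine tsum_congr fun n => ?_
    rw [hconv n, Finset.sum_mul, tsum_fintype, ← Finset.sum_coe_sort]
    refine Finset.sum_congr rfl fun x _ => ?_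
    have hx := Finset.HasAntidiagonal.mem_antidiagonal.1 x.2
    show pPoi d x.1.1 * pPoi e x.1.2 * f n = pPoi d x.1.1 * pPoi e x.1.2 * f (x.1.1 + x.1.2)
    rw [hx]
  rw [hT, hs2.tsum_prod]
  refine (hsf d hd).tsum_le_tsum (fun a => ?_) hs2.prod
  have h1 : HasSum (fun b => pPoi d a * f a * pPoi e b) (pPoi d a * f a * 1) :=
    (hasSum_pPoi e).mul_left _
  rw [mul_one] at h1
  rw [← h1.tsum_eq]
  refine h1.summable.tsum_le_tsum (fun b => ?_) (hs2.prod_factor a)
  have h2 := hf (Nat.le_add_right a b)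
  have h3 : 0 ≤ pPoi d a * pPoi e b := mul_nonneg (pPoi_nonneg d hd _) (pPoi_nonneg e he _)
  nlinarith [mul_le_mul_of_nonneg_left h2 h3]

/-- comparison of the limits -/
theorem tendsto_X_of_dom (hq : 0 < q) {ι ι' : ℕ → Type} {w : ∀ n, ι n → Fin q → ℝ}
    {w' : ∀ n, ι' n → Fin q → ℝ} (hw : ∀ n, IsExp (w n)) (h : ∀ n, Dom (w n) (w' n))
    (hlim : Tendsto (fun n => X (w' n)) atTop (nhds 0)) :
    Tendsto (fun n => X (w n)) atTop (nhds 0) :=
  squeeze_zero (fun n => X_nonneg (hw n)) (fun n => h n _ (subL_fX hq)) hlim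

end Crest.Agent.R163
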