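import Crest.Agent.R163.CkK
import Crest.Agent.R163.Deg

/-!
# Row 163, chain: bound of `X` from a state
-/

set_option autoImplicit false

namespace Crest.Agent.R163.Ck

open Finset

/-- `2 mass - fX` -/
noncomputable def GX (v : Fin 3 → ℝ) : ℝ := 2 * mass v - fX v

theorem GX_formula (v : Fin 3 → ℝ) (h : v 0 + v 1 + v 2 ≠ 0) :
    GX v = 2 * (v 0 * v 1 + v 0 * v 2 + v 1 * v 2) / (v 0 + v 1 + v 2) := by
  unfold GX fX m2 uv
  have hm : mass v = (v 0 + v 1 + v 2) / 3 := by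
    unfold mass
    rw [Fin.sum_univ_three]
    push_cast
    ring
  rw [hm, Fin.sum_univ_three]
  push_cast
  field_simp
  ring

theorem GG_GX : GG GX := by
  have hS := subL_fX (q := 3) (by norm_num)
  refine ⟨?_, ?_, ?_, ?_⟩
  · intro t v ht hv
    unfold GX
    rw [mass_smul, hS.homog t v ht hv]
    ring
  · obtain ⟨C, hC, h⟩ := hS.mbdd
    refine ⟨2 + C, by linarith, fun v hv => ?_⟩
    unfold GX
    have h1 := h v hv
    have h2 := mass_nonneg v hv
    calc |2 * mass v - fX v| ≤ |2 * mass v| + |fX v| := abs_sub _ _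
      _ ≤ 2 * mass v + C * mass v := by
          rw [abs_of_nonneg (by linarith : 0 ≤ 2 * mass v)]
          linarith
      _ = (2 + C) * mass v := by ring
  · intro u v hu hv
    unfold GX
    rw [mass_add]
    have := hS.add_le u v hu hv
    linarith
  · intro a
    have h1 : ev 3 a 0 + ev 3 a 1 + ev 3 a 2 = 1 := by
      unfold ev
      fin_cases a <;> simp
    rw [GX_formula _ (by rw [h1]; norm_num), h1]
    unfold ev
    fin_cases a <;> simp

theorem GX_vec {p s : ℕ} (hp : 0 < p) (hs : 0 < s) {m : ℕ} {x : Fin 3 → ℕ}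
    (hx : x ∈ TT (2 * m)) : (gx m p s (x 0) (x 1) : ℝ) ≤
      2 ^ 32 * GX (vec ((p : ℝ) / s) (2 * m) x) := by
  have hx' := mem_TT.1 hx
  have hr : (0 : ℝ) < (p : ℝ) / s := by positivity
  have hpR : (0 : ℝ) < p := by exact_mod_cast hp
  have hsR : (0 : ℝ) < s := by exact_mod_cast hs
  have e2 : 6 * m - x 0 - x 1 = x 2 := by omega
  have e1 : gx m p s (x 0) (x 1) =
      ((PW p s (4 * m) (4 * m - x 0) + PW p s (4 * m) (4 * m - x 1) +
        PW p s (4 * m) (4 * m - x 2)) <<< 33) /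
      (PW p s (4 * m) (x 0) + PW p s (4 * m) (x 1) + PW p s (4 * m) (x 2)) := by
    rw [← e2]; rfl
  rw [e1]
  refine (Nat.cast_div_le (α := ℝ)).trans (le_of_eq ?_)
  rw [shiftLeft_real]
  obtain ⟨r, hrdef⟩ : ∃ r : ℝ, r = (p : ℝ) / s := ⟨_, rfl⟩
  have hv : ∀ i : Fin 3, vec ((p : ℝ) / s) (2 * m) x i = r ^ (x i) / r ^ (2 * m) := by
    intro i
    unfold vec
    rw [zpow_sub₀ hr.ne', zpow_natCast, zpow_natCast, hrdef]
  rw [← hrdef] at hr
  have hpos : ∀ i : Fin 3, 0 < vec ((p : ℝ) / s) (2 * m) x i := by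
    intro i
    rw [hv i]
    positivity
  rw [GX_formula _ (by linarith [hpos 0, hpos 1, hpos 2] : vec ((p : ℝ) / s) (2 * m) x 0 +
    vec ((p : ℝ) / s) (2 * m) x 1 + vec ((p : ℝ) / s) (2 * m) x 2 ≠ 0)]
  rw [hv 0, hv 1, hv 2]
  push_cast
  rw [PW_real hs _ _ (by omega), PW_real hs _ _ (by omega), PW_real hs _ _ (by omega),
    PW_real hs _ _ (by omega : x 0 ≤ 4 * m), PW_real hs _ _ (by omega : x 1 ≤ 4 * m),
    PW_real hs _ _ (by omega : x 2 ≤ 4 * m), ← hrdef]
  have k0 : r ^ (4 * m - x 0) * r ^ (2 * m) = r ^ (x 1) * r ^ (x 2) := by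
    rw [← pow_add, ← pow_add]; congr 1; omega
  have k1 : r ^ (4 * m - x 1) * r ^ (2 * m) = r ^ (x 0) * r ^ (x 2) := by
    rw [← pow_add, ← pow_add]; congr 1; omega
  have k2 : r ^ (4 * m - x 2) * r ^ (2 * m) = r ^ (x 0) * r ^ (x 1) := by
    rw [← pow_add, ← pow_add]; congr 1; omega
  have hR : (0 : ℝ) < r ^ (2 * m) := by positivity
  have hS : (0 : ℝ) < (s : ℝ) ^ (4 * m) := by positivity
  have hA := pow_pos hr (x 0)
  have hB := pow_pos hr (x 1)
  have hC := pow_pos hr (x 2)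
  generalize r ^ (4 * m - x 0) = a0 at k0
  generalize r ^ (4 * m - x 1) = a1 at k1
  generalize r ^ (4 * m - x 2) = a2 at k2
  generalize r ^ (x 0) = A at *
  generalize r ^ (x 1) = B at *
  generalize r ^ (x 2) = C at *
  generalize r ^ (2 * m) = R at *
  generalize (s : ℝ) ^ (4 * m) = S at *
  have hABC : 0 < A + B + C := by positivity
  have e3 : a0 = B * C / R := by rw [eq_div_iff hR.ne']; exact k0
  have e4 : a1 = A * C / R := by rw [eq_div_iff hR.ne']; exact k1
  have e5 : a2 = A * B / R := by rw [eq_div_iff hR.ne']; exact k2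
  rw [e3, e4, e5]
  have h6 : S * A + S * B + S * C ≠ 0 := by
    have : S * A + S * B + S * C = S * (A + B + C) := by ring
    rw [this]; positivity
  have h7 : A / R + B / R + C / R ≠ 0 := by
    have : A / R + B / R + C / R = (A + B + C) / R := by ring
    rw [this]; positivity
  rw [div_eq_iff h6]
  field_simp
  ring

theorem xsum_eq {m : ℕ} (hm : m ≤ 15) (p s st : ℕ) :
    xsum m p s st = ∑ x ∈ TT (2 * m), cc m st x * gx m p s (x 0) (x 1) := by
  rw [← box_sum hm st (fun a b _ => gx m p s a b)]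
  have hR : RR m ≤ 2 ^ 6 := by
    show 4 * m + 1 ≤ 2 ^ 6
    norm_num; omega
  unfold xsum
  rw [bsum_eq hR, bsum_eq hR]
  refine sum_congr rfl fun b _ => ?_
  rw [bsum_eq hR, bsum_eq hR]
  refine sum_congr rfl fun a _ => ?_
  rw [cond_beq]
  split_ifs with h
  · rw [h, zero_mul]
  · rfl

theorem Ex_GX {ι : Type*} {W : ι → Fin 3 → ℝ} (hW : IsExp W) : Ex GX W = 2 - X W := by
  unfold X Ex GX
  have h1 := (hW.hasSum_mass (q := 3) (by norm_num)).mul_left 2
  have h2 := (hW.summable (by norm_num) (mbdd_fX (q := 3) (by norm_num))).hasSum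
  have h3 := h1.sub h2
  rw [mul_one] at h3
  exact h3.tsum_eq

theorem X_ch {ι : Type*} {W : ι → Fin 3 → ℝ} (hW : IsExp W) (β : ℝ) :
    X (ch β W) = β ^ 2 * X W := by
  unfold X Ex
  rw [← tsum_mul_left]
  congr 1
  funext i
  by_cases h : mass (W i) = 0
  · have h0 : W i = fun _ => 0 :=
      funext fun a => eq_zero_of_mass_eq_zero (by norm_num) (W i) (hW.nonneg i) h a
    have h1 : mass (ch β W i) = 0 := by rw [mass_ch (by norm_num), h]
    unfold fX
    rw [h1, h]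
    ring
  · unfold fX m2
    rw [mass_ch (by norm_num)]
    simp only [uv_ch (q := 3) (by norm_num) β W i h]
    simp only [mul_pow]
    rw [← mul_sum]
    ring

theorem X_le_of_good {m p s : ℕ} (hm : m ≤ 15) (hp : 0 < p) (hs : 0 < s) {st al B : ℕ}
    {ι : Type*} {W : ι → Fin 3 → ℝ} (hW : IsExp W)
    (hg : Good ((p : ℝ) / s) m st al (ch (-1 / 2) W)) (hB : B ≤ xsum m p s st) :
    X W ≤ 4 * (2 - (B : ℝ) / 2 ^ 64) := by
  have hr : (0 : ℝ) < (p : ℝ) / s := by positivity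
  have h1 := hg GX GG_GX
  rw [Ex_GX (isExp_ch (by norm_num) hb0 hb1 hW), X_ch hW] at h1
  have h2 : (B : ℝ) / 2 ^ 64 ≤ VV ((p : ℝ) / s) m st al GX := by
    unfold VV
    have h3 : 0 ≤ ((al : ℝ) / 2 ^ 32) * ∑ a, GX (nu a) :=
      mul_nonneg (by positivity) (sum_nonneg fun a _ => GG_GX.nonneg _ (nu_nonneg a))
    have h4 : (xsum m p s st : ℝ) / 2 ^ 64 ≤
        ∑ x ∈ TT (2 * m), ((cc m st x : ℝ) / 2 ^ 32) * GX (vec ((p : ℝ) / s) (2 * m) x) := by
      rw [xsum_eq hm, Nat.cast_sum, sum_div]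
      refine sum_le_sum fun x hx => ?_
      have h5 := GX_vec hp hs hx
      rw [div_le_iff₀ (by positivity)]
      push_cast
      have h6 := mul_le_mul_of_nonneg_left h5 (Nat.cast_nonneg (α := ℝ) (cc m st x))
      refine h6.trans (le_of_eq ?_)
      ring
    have h7 : (B : ℝ) / 2 ^ 64 ≤ (xsum m p s st : ℝ) / 2 ^ 64 :=
      div_le_div_of_nonneg_right (by exact_mod_cast hB) (by positivity)
    linarith
  nlinarith [h1, h2]

end Crest.Agent.R163.Ck
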