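import Crest.Agent.R163.CkL

/-!
# Row 163, chain: reachable states
-/

set_option autoImplicit false

namespace Crest.Agent.R163.Ck

/-- the state is a lower bound at time `n` for every regular process with `b = 4`, `lam = -1/2` -/
def Reach (p s m st al n : ℕ) : Prop :=
  ∀ (ι : ℕ → Type) (w : ∀ n, ι n → Fin 3 → ℝ), IsProcess 3 (-1 / 2) (pReg 4) ι w →
    Good ((p : ℝ) / s) m st al (ch (-1 / 2) (w n))

theorem Reach.base (p s m : ℕ) : Reach p s m 0 (2 ^ 31) 0 := fun _ _ hw => Ck.base hw _ m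

theorem Reach.step {p s m st al n : ℕ} (h : Reach p s m st al n) {T : List ℕ} {E : ℕ}
    (hT : tabOK m p s T E = true) (hrt : rtOK m p s = true) (hm : m ≤ 15) (hp : 0 < p) (hs : 0 < s)
    {sp st' al' : ℕ} (hck : check m p s T E st al sp st' al' = true) :
    Reach p s m st' al' (n + 1) :=
  fun ι w hw => chain_step hT hrt hm hp hs hck hw (h ι w hw)

theorem Reach.conv {p s m st al n : ℕ} (h : Reach p s m st al n) {m2 p2 s2 st2 : ℕ} (hm : m ≤ 15)
    (hm2 : m2 ≤ 15) (hp2 : 0 < p2) (hs2 : 0 < s2) (hs : 0 < s) (hmm : m2 ≤ 2 * m)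
    (hsq : p * s2 ^ 2 = p2 ^ 2 * s) (hc : Ck.conv m m2 st st2 = true) :
    Reach p2 s2 m2 st2 al n :=
  fun ι w hw => convert_good hm hm2 hp2 hs2 hs hmm hsq hc (h ι w hw)

theorem Reach.X_le {p s m st al n : ℕ} (h : Reach p s m st al n) {B : ℕ} (hm : m ≤ 15)
    (hp : 0 < p) (hs : 0 < s) (hB : Nat.ble B (xsum m p s st) = true)
    {ι : ℕ → Type} {w : ∀ n, ι n → Fin 3 → ℝ} (hw : IsProcess 3 (-1 / 2) (pReg 4) ι w) :
    X (w n) ≤ 4 * (2 - (B : ℝ) / 2 ^ 64) :=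
  X_le_of_good hm hp hs (hw.isExp n) (h ι w hw) (Nat.le_of_ble_eq_true hB)

end Crest.Agent.R163.Ck
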