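import Crest.Agent.R163.CkS09

/-! # Row 163: the `b = 4` chain, result -/

set_option autoImplicit false
set_option maxRecDepth 100000
set_option Elab.async false

namespace Crest.Agent.R163.Ck

theorem xs_ok : Nat.ble 35943480827623061324 (xsum 13 24 23 st3_20) = true := by decide +kernel

/-- **the chain**: `X (w 165) ≤ 206/1000` for every regular process with `b = 4`, `lam = -1/2` -/
theorem chain_b4 {ι : ℕ → Type} {w : ∀ n, ι n → Fin 3 → ℝ}
    (hw : IsProcess 3 (-1 / 2) (pReg 4) ι w) : X (w 165) ≤ 206 / 1000 := by
  have h := r3_20.X_le (by norm_num) (by norm_num) (by norm_num) xs_ok hw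
  norm_num at h ⊢
  linarith

end Crest.Agent.R163.Ck
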