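import Crest.Agent.R163.Conv1

/-!
# Row 163, piece CONV3: processes are decreasing

`dom_perfect`: for sublinear `F` and an experiment `P`,
`F (P i) ≤ ∑ a, P i a * F (e_a)` (`SubL.sum_le` + homogeneity; `perfect q` is the family `e_a`), sum
over `i`: `≤ ∑ a, F (e_a) = Ex F (perfect q)`.

`dom_succ`: induction on `n`: `w 1 ≤ perfect ~ w 0` (`hw.zero`), and the step as in
`dom_process` (Deg.lean; `dom_ch`, `dom_pw`, `abs_Ex_le` for summability).

`DC.tendsto`: `Ex A (w n)`, `Ex B (w n)` are antitone and bounded (`abs_Ex_le`), and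
`Ex F = Ex A - Ex B`.
-/

set_option autoImplicit false

namespace Crest.Agent.R163

open Finset Filter

variable {q : ℕ}

/-- the perfect experiment is the best one -/
theorem dom_perfect (hq : 0 < q) {κ : Type*} {P : κ → Fin q → ℝ} (hP : IsExp P) :
    Dom P (perfect q) := by
  intro F hF
  have h1 : ∀ i, F (P i) ≤ ∑ a, P i a * F (perfect q a) := by
    intro i
    have h2 := hF.sum_le Finset.univ (fun a b => P i a * perfect q a b) (fun a b =>
      mul_nonneg (hP.nonneg i a) ((isExp_perfect q).nonneg a b))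
    have e : (fun b => ∑ a, P i a * perfect q a b) = P i := by
      funext b
      unfold perfect
      simp
    rw [e] at h2
    refine h2.trans (le_of_eq ?_)
    exact Finset.sum_congr rfl fun a _ =>
      hF.homog (P i a) (perfect q a) (hP.nonneg i a) fun b => (isExp_perfect q).nonneg a b
  have h3 : HasSum (fun i => ∑ a, P i a * F (perfect q a)) (∑ a, 1 * F (perfect q a)) :=
    hasSum_sum fun a _ => (hP.hasSum a).mul_right _
  have h4 : Ex F (perfect q) = ∑ a, 1 * F (perfect q a) := by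
    unfold Ex
    rw [tsum_fintype]
    simp
  rw [h4]
  exact hasSum_le h1 (hP.summable hq hF.mbdd).hasSum h3

/-- a process is decreasing -/
theorem dom_succ (hq : 1 < q) {lam : ℝ} (hl0 : -(1 / ((q : ℝ) - 1)) ≤ lam) (hl1 : lam ≤ 1)
    {p : ℕ → ℝ} (hp0 : ∀ c, 0 ≤ p c) (hp : Summable p) {ι : ℕ → Type}
    {w : ∀ n, ι n → Fin q → ℝ} (hw : IsProcess q lam p ι w) (n : ℕ) : Dom (w (n + 1)) (w n) := by
  have hq0 : 0 < q := by omega
  induction n with
  | zero =>
    intro F hF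
    rw [hw.zero F hF.homog hF.mbdd]
    exact dom_perfect hq0 (hw.isExp 1) F hF
  | succ n ih =>
    intro F hF
    rw [hw.succ (n + 1) F hF.homog hF.mbdd, hw.succ n F hF.homog hF.mbdd]
    obtain ⟨C, hC, hb⟩ := hF.mbdd
    have hE := isExp_ch hq hl0 hl1 (hw.isExp (n + 1))
    have hE' := isExp_ch hq hl0 hl1 (hw.isExp n)
    have hdom : Dom (ch lam (w (n + 1))) (ch lam (w n)) := dom_ch hq hl0 hl1 ih
    have hsum : ∀ {κ : Type} {Q : κ → Fin q → ℝ}, IsExp Q →
        Summable fun c => p c * Ex F (pw Q c) := by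
      intro κ Q hQ
      refine Summable.of_norm_bounded (g := fun c => p c * C) (hp.mul_right C) fun c => ?_
      rw [Real.norm_eq_abs, abs_mul, abs_of_nonneg (hp0 c)]
      exact mul_le_mul_of_nonneg_left (abs_Ex_le hq0 (isExp_pw hQ c) hC hb) (hp0 c)
    refine (hsum hE).tsum_le_tsum (fun c => ?_) (hsum hE')
    exact mul_le_mul_of_nonneg_left (dom_pw hq0 hE hE' hdom c F hF) (hp0 c)

theorem SubL.tendsto {ι : ℕ → Type} {w : ∀ n, ι n → Fin q → ℝ} (hq : 0 < q)
    (hw : ∀ n, IsExp (w n)) (hd : ∀ n, Dom (w (n + 1)) (w n)) {F : (Fin q → ℝ) → ℝ}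
    (hF : SubL F) : ∃ L, Tendsto (fun n => Ex F (w n)) atTop (nhds L) := by
  obtain ⟨C, hC, hb⟩ := hF.mbdd
  refine ⟨_, tendsto_atTop_ciInf (antitone_nat_of_succ_le fun n => hd n F hF) ⟨-C, ?_⟩⟩
  rintro x ⟨n, rfl⟩
  exact (abs_le.1 (abs_Ex_le hq (hw n) hC hb)).1

theorem DC.tendsto {ι : ℕ → Type} {w : ∀ n, ι n → Fin q → ℝ} (hq : 0 < q)
    (hw : ∀ n, IsExp (w n)) (hd : ∀ n, Dom (w (n + 1)) (w n)) {F : (Fin q → ℝ) → ℝ}
    (hF : DC F) : ∃ L, Tendsto (fun n => Ex F (w n)) atTop (nhds L) := by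
  obtain ⟨A, B, hA, hB, h⟩ := hF
  obtain ⟨L, hL⟩ := hA.tendsto hq hw hd
  obtain ⟨M, hM⟩ := hB.tendsto hq hw hd
  refine ⟨L - M, (hL.sub hM).congr fun n => ?_⟩
  unfold Ex
  rw [← ((hw n).summable hq hA.mbdd).tsum_sub ((hw n).summable hq hB.mbdd)]
  exact tsum_congr fun i => (h _ ((hw n).nonneg i)).symm

end Crest.Agent.R163
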