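import Crest.Agent.R163.Conv2
import Crest.Agent.R163.Conv3

/-!
# Row 163, piece CONV4: every continuous functional converges along a decreasing sequence

For `ε > 0` take `G` from `DC.dense`; then `|Ex F (w n) - Ex G (w n)| ≤ ε` for all `n`
(homogeneity: `|F v - G v| ≤ ε * mass v` on nonnegative vectors, `F 0 = G 0 = 0`; sum with
`IsExp.hasSum_mass`), and `Ex G (w n)` converges (`DC.tendsto`), so `Ex F (w n)` is Cauchy.
(`MBdd F` follows from compactness, or from `|F - G| ≤ mass` and `MBdd G`.)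
-/

set_option autoImplicit false

namespace Crest.Agent.R163

open Finset Filter

variable {q : ℕ}

private theorem near_of_simpK (hq : 0 < q) {F G : (Fin q → ℝ) → ℝ} (hH : Homog F) (hG : Homog G)
    {ε : ℝ} (h : ∀ v ∈ simpK q, |F v - G v| ≤ ε) (v : Fin q → ℝ) (hv : ∀ a, 0 ≤ v a) :
    |F v - G v| ≤ ε * mass v := by
  by_cases hm : mass v = 0
  · have hz : ∀ a, v a = 0 := eq_zero_of_mass_eq_zero hq v hv hm
    have hF := hH 0 v le_rfl hv
    have hG' := hG 0 v le_rfl hv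
    have e : (fun a => (0 : ℝ) * v a) = v := by
      funext a
      rw [hz a, zero_mul]
    rw [e, zero_mul] at hF hG'
    rw [hF, hG', hm, sub_zero, abs_zero, mul_zero]
  · have hm0 : 0 < mass v := lt_of_le_of_ne (mass_nonneg v hv) (Ne.symm hm)
    set u : Fin q → ℝ := fun a => (1 / mass v) * v a with hu
    have hu0 : ∀ a, 0 ≤ u a := fun a => mul_nonneg (by positivity) (hv a)
    have hum : mass u = 1 := by
      rw [hu, mass_smul, one_div, inv_mul_cancel₀ hm]
    have e : v = fun a => mass v * u a := by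
      funext a
      rw [hu]
      field_simp
    have hF : F v = mass v * F u := by
      conv_lhs => rw [e]
      exact hH _ u hm0.le hu0
    have hG' : G v = mass v * G u := by
      conv_lhs => rw [e]
      exact hG _ u hm0.le hu0
    rw [hF, hG', ← mul_sub, abs_mul, abs_of_pos hm0, mul_comm ε]
    exact mul_le_mul_of_nonneg_left (h u ⟨hu0, hum⟩) hm0.le

private theorem mbdd_of_near {F G : (Fin q → ℝ) → ℝ} (hG : MBdd G) {ε : ℝ} (hε : 0 ≤ ε)
    (h : ∀ v : Fin q → ℝ, (∀ a, 0 ≤ v a) → |F v - G v| ≤ ε * mass v) : MBdd F := by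
  obtain ⟨C, hC, hC'⟩ := hG
  refine ⟨C + ε, by positivity, fun v hv => ?_⟩
  have h1 := hC' v hv
  have h2 := h v hv
  have h3 : |F v| ≤ |F v - G v| + |G v| := by
    have := abs_add_le (F v - G v) (G v)
    rwa [sub_add_cancel] at this
  linarith

private theorem Ex_near (hq : 0 < q) {κ : Type} {P : κ → Fin q → ℝ} (hP : IsExp P)
    {F G : (Fin q → ℝ) → ℝ} (hF : MBdd F) (hG : MBdd G) {ε : ℝ}
    (h : ∀ v : Fin q → ℝ, (∀ a, 0 ≤ v a) → |F v - G v| ≤ ε * mass v) :
    |Ex F P - Ex G P| ≤ ε := by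
  have hsF := hP.summable hq hF
  have hsG := hP.summable hq hG
  have hm := hP.hasSum_mass hq
  have e : Ex F P - Ex G P = ∑' i, (F (P i) - G (P i)) := (hsF.tsum_sub hsG).symm
  have hsD : Summable fun i => ε * mass (P i) := hm.summable.mul_left ε
  have hle : ∀ i, ‖F (P i) - G (P i)‖ ≤ ε * mass (P i) := fun i => h _ (hP.nonneg i)
  rw [e, ← Real.norm_eq_abs]
  refine (tsum_of_norm_bounded (hm.mul_left ε) hle).trans ?_
  rw [mul_one]

/-- **every continuous functional converges** -/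
theorem Ex_tendsto (hq : 0 < q) {ι : ℕ → Type} {w : ∀ n, ι n → Fin q → ℝ}
    (hw : ∀ n, IsExp (w n)) (hd : ∀ n, Dom (w (n + 1)) (w n)) {F : (Fin q → ℝ) → ℝ}
    (hH : Homog F) (hc : ContinuousOn F (simpK q)) :
    ∃ L, Tendsto (fun n => Ex F (w n)) atTop (nhds L) := by
  classical
  have key : ∀ ε : ℝ, 0 < ε → ∃ G : (Fin q → ℝ) → ℝ, DC G ∧
      ∀ n, |Ex F (w n) - Ex G (w n)| ≤ ε := by
    intro ε hε
    obtain ⟨G, hG, hGH, hGM, hGn⟩ := DC.dense hq F hc ε hε
    have h1 := near_of_simpK hq hH hGH hGn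
    exact ⟨G, hG, fun n => Ex_near hq (hw n) (mbdd_of_near hGM hε.le h1) hGM h1⟩
  refine cauchySeq_tendsto_of_complete (Metric.cauchySeq_iff'.2 fun ε hε => ?_)
  obtain ⟨G, hG, hGn⟩ := key (ε / 4) (by positivity)
  obtain ⟨L, hL⟩ := DC.tendsto hq hw hd hG
  obtain ⟨N, hN⟩ := Metric.cauchySeq_iff'.1 hL.cauchySeq (ε / 4) (by positivity)
  refine ⟨N, fun n hn => ?_⟩
  have h1 := hN n hn
  have h2 := hGn n
  have h3 := hGn N
  rw [Real.dist_eq] at h1 ⊢
  rw [abs_lt] at h1 ⊢
  rw [abs_le] at h2 h3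
  constructor <;> linarith [h1.1, h1.2, h2.1, h2.2, h3.1, h3.2]

end Crest.Agent.R163
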