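import Crest.Agent.R163.Deg

/-!
# Row 163: along a process every continuous functional converges

`DC F`     : `F` is a difference of sublinear functionals (on nonnegative vectors).
`simpK q`  : normalised nonnegative vectors (compact).
The processes are decreasing in the degradation order, hence `Ex F (w n)` converges for `DC F`,
and, by Stone-Weierstrass, for every homogeneous `F` which is continuous on `simpK q`.
-/

set_option autoImplicit false

namespace Crest.Agent.R163

open Finset Filter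

variable {q : ℕ}

/-- normalised nonnegative vectors -/
def simpK (q : ℕ) : Set (Fin q → ℝ) := {v | (∀ a, 0 ≤ v a) ∧ mass v = 1}

/-- difference of sublinear functionals -/
def DC (F : (Fin q → ℝ) → ℝ) : Prop :=
  ∃ A B : (Fin q → ℝ) → ℝ, SubL A ∧ SubL B ∧ ∀ v, (∀ a, 0 ≤ v a) → F v = A v - B v

theorem SubL.add {A B : (Fin q → ℝ) → ℝ} (hA : SubL A) (hB : SubL B) :
    SubL (fun v => A v + B v) where
  homog := fun t v ht hv => by
    show A (fun a => t * v a) + B (fun a => t * v a) = t * (A v + B v)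
    rw [hA.homog t v ht hv, hB.homog t v ht hv]; ring
  mbdd := by
    obtain ⟨C, hC, h⟩ := hA.mbdd
    obtain ⟨D, hD, h'⟩ := hB.mbdd
    refine ⟨C + D, by positivity, fun v hv => ?_⟩
    have := abs_add_le (A v) (B v)
    have h1 := h v hv
    have h2 := h' v hv
    calc |A v + B v| ≤ |A v| + |B v| := this
      _ ≤ (C + D) * mass v := by linarith
  add_le := fun u v hu hv => by
    have h1 := hA.add_le u v hu hv
    have h2 := hB.add_le u v hu hv
    show A (fun a => u a + v a) + B (fun a => u a + v a) ≤ (A u + B u) + (A v + B v)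
    linarith

theorem SubL.smul {A : (Fin q → ℝ) → ℝ} (hA : SubL A) {c : ℝ} (hc : 0 ≤ c) :
    SubL (fun v => c * A v) where
  homog := fun t v ht hv => by
    show c * A (fun a => t * v a) = t * (c * A v)
    rw [hA.homog t v ht hv]; ring
  mbdd := by
    obtain ⟨C, hC, h⟩ := hA.mbdd
    refine ⟨c * C, by positivity, fun v hv => ?_⟩
    rw [abs_mul, abs_of_nonneg hc, mul_assoc]
    exact mul_le_mul_of_nonneg_left (h v hv) hc
  add_le := fun u v hu hv => by
    show c * A (fun a => u a + v a) ≤ c * A u + c * A v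
    rw [← mul_add]
    exact mul_le_mul_of_nonneg_left (hA.add_le u v hu hv) hc

/-- linear functionals are sublinear -/
theorem subL_coord (hq : 0 < q) (a : Fin q) : SubL (fun v : Fin q → ℝ => v a) where
  homog := fun _ _ _ _ => rfl
  mbdd := ⟨q, by positivity, fun v hv => by rw [abs_of_nonneg (hv a)]; exact le_mass hq v hv a⟩
  add_le := fun _ _ _ _ => le_rfl

theorem subL_mass : SubL (mass : (Fin q → ℝ) → ℝ) where
  homog := homog_mass
  mbdd := mbdd_mass
  add_le := fun u v _ _ => (mass_add u v).le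

/-- squares of nonnegative sublinear functionals -/
theorem SubL.sq_div (hq : 0 < q) {A : (Fin q → ℝ) → ℝ} (hA : SubL A)
    (h0 : ∀ v : Fin q → ℝ, (∀ a, 0 ≤ v a) → 0 ≤ A v) : SubL (fun v => A v ^ 2 / mass v) where
  homog := fun t v ht hv => by
    show A (fun a => t * v a) ^ 2 / mass (fun a => t * v a) = t * (A v ^ 2 / mass v)
    rw [hA.homog t v ht hv, mass_smul, mul_pow, mul_div_mul_comm]
    rcases eq_or_ne t 0 with rfl | h
    · simp
    · rw [sq, mul_div_assoc, div_self h, mul_one]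
  mbdd := by
    obtain ⟨C, hC, h⟩ := hA.mbdd
    refine ⟨C ^ 2, by positivity, fun v hv => ?_⟩
    have hm := mass_nonneg v hv
    have h1 := h v hv
    have h2 : A v ^ 2 ≤ (C * mass v) ^ 2 := by
      rw [← sq_abs (A v)]
      exact pow_le_pow_left₀ (abs_nonneg _) h1 2
    show |A v ^ 2 / mass v| ≤ C ^ 2 * mass v
    rw [abs_of_nonneg (by positivity)]
    rcases hm.eq_or_lt with h3 | h3
    · rw [← h3]; simp
    · rw [div_le_iff₀ h3]
      nlinarith
  add_le := fun u v hu hv => by
    have huv : ∀ a, 0 ≤ u a + v a := fun a => add_nonneg (hu a) (hv a)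
    have hz : ∀ w : Fin q → ℝ, (∀ a, 0 ≤ w a) → mass w = 0 → A w = 0 := by
      intro w hw h
      obtain ⟨C, hC, h'⟩ := hA.mbdd
      have h1 := h' w hw
      rw [h, mul_zero] at h1
      exact abs_nonpos_iff.1 h1
    show A (fun a => u a + v a) ^ 2 / mass (fun a => u a + v a) ≤ A u ^ 2 / mass u + A v ^ 2 / mass v
    rw [mass_add]
    have h1 : A (fun a => u a + v a) ^ 2 ≤ (A u + A v) ^ 2 :=
      pow_le_pow_left₀ (h0 _ huv) (hA.add_le u v hu hv) 2
    have hmu := mass_nonneg u hu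
    have hmv := mass_nonneg v hv
    refine (div_le_div_of_nonneg_right h1 (add_nonneg hmu hmv)).trans ?_
    rcases hmu.eq_or_lt with h2 | h2
    · rw [hz u hu h2.symm, ← h2]; simp
    · rcases hmv.eq_or_lt with h3 | h3
      · rw [hz v hv h3.symm, ← h3]; simp
      · rw [div_add_div _ _ h2.ne' h3.ne', div_le_div_iff₀ (by positivity) (by positivity)]
        nlinarith [mul_nonneg (mul_nonneg h2.le h3.le) (sq_nonneg (A u * mass v - A v * mass u)),
          sq_nonneg (A u * mass v - A v * mass u)]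

/-- a sublinear functional plus a multiple of the mass is nonnegative -/
theorem DC.nonneg_rep (hq : 0 < q) {F : (Fin q → ℝ) → ℝ} (hF : DC F) :
    ∃ A B : (Fin q → ℝ) → ℝ, SubL A ∧ SubL B ∧ (∀ v : Fin q → ℝ, (∀ a, 0 ≤ v a) → 0 ≤ A v) ∧
      (∀ v : Fin q → ℝ, (∀ a, 0 ≤ v a) → 0 ≤ B v) ∧ ∀ v, (∀ a, 0 ≤ v a) → F v = A v - B v := by
  obtain ⟨A, B, hA, hB, h⟩ := hF
  obtain ⟨C, hC, h1⟩ := hA.mbdd
  obtain ⟨D, hD, h2⟩ := hB.mbdd
  refine ⟨fun v => A v + (C + D) * mass v, fun v => B v + (C + D) * mass v,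
    hA.add (subL_mass.smul (by positivity)), hB.add (subL_mass.smul (by positivity)),
    fun v hv => ?_, fun v hv => ?_, fun v hv => ?_⟩
  · have := abs_le.1 (h1 v hv)
    have h3 : 0 ≤ D * mass v := mul_nonneg hD (mass_nonneg v hv)
    show 0 ≤ A v + (C + D) * mass v
    nlinarith [this.1]
  · have := abs_le.1 (h2 v hv)
    have h3 : 0 ≤ C * mass v := mul_nonneg hC (mass_nonneg v hv)
    show 0 ≤ B v + (C + D) * mass v
    nlinarith [this.1]
  · rw [h v hv]; ring

theorem DC.add {F G : (Fin q → ℝ) → ℝ} (hF : DC F) (hG : DC G) : DC (fun v => F v + G v) := by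
  obtain ⟨A, B, hA, hB, h⟩ := hF
  obtain ⟨A', B', hA', hB', h'⟩ := hG
  exact ⟨_, _, hA.add hA', hB.add hB', fun v hv => by
    show F v + G v = _
    rw [h v hv, h' v hv]; ring⟩

/-- products -/
theorem DC.mul_div (hq : 0 < q) {F G : (Fin q → ℝ) → ℝ} (hF : DC F) (hG : DC G) :
    DC (fun v => F v * G v / mass v) := by
  obtain ⟨A, B, hA, hB, hA0, hB0, h⟩ := hF.nonneg_rep hq
  obtain ⟨A', B', hA', hB', hA0', hB0', h'⟩ := hG.nonneg_rep hq
  have e : ∀ {X Y : (Fin q → ℝ) → ℝ}, SubL X → SubL Y → (∀ v : Fin q → ℝ, (∀ a, 0 ≤ v a) → 0 ≤ X v) →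
      (∀ v : Fin q → ℝ, (∀ a, 0 ≤ v a) → 0 ≤ Y v) →
      SubL (fun v => (1 / 2) * ((X v + Y v) ^ 2 / mass v)) := by
    intro X Y hX hY hX0 hY0
    exact ((hX.add hY).sq_div hq fun v hv => add_nonneg (hX0 v hv) (hY0 v hv)).smul (by norm_num)
  refine ⟨_, _, (e hA hA' hA0 hA0').add (e hB hB' hB0 hB0'),
    (e hA hB' hA0 hB0').add (e hB hA' hB0 hA0'), fun v hv => ?_⟩
  show F v * G v / mass v = _
  rw [h v hv, h' v hv]
  ring

theorem dc_smul_mass (c : ℝ) : DC (fun v : Fin q → ℝ => c * mass v) := by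
  rcases le_total 0 c with hc | hc
  · exact ⟨_, _, subL_mass.smul hc, subL_mass.smul (le_refl (0 : ℝ)), fun v _ => by ring⟩
  · exact ⟨_, _, subL_mass.smul (le_refl (0 : ℝ)), subL_mass.smul (neg_nonneg.2 hc), fun v _ => by ring⟩

end Crest.Agent.R163
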