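import Crest.Agent.R163.Conv1
import Mathlib.Topology.ContinuousMap.StoneWeierstrass

/-!
# Row 163, piece CONV2: compactness of `simpK` and density of `DC` functionals

`isCompact_simpK`: closed and bounded (`v a ≤ q` by `le_mass`).

`DC.dense`: Stone-Weierstrass
(`ContinuousMap.exists_mem_subalgebra_near_continuous_of_separatesPoints`, or the version with
`Algebra.adjoin ℝ (range of the coordinate functions)` and `Algebra.adjoin_induction`) on the
compact space `simpK q`: the set of `f : C(simpK q, ℝ)` such that there is `G` with `DC G`,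
`Homog G`, `MBdd G` and `f v = G v` on `simpK q` is a subalgebra: constants `c * mass`
(`dc_smul_mass`), sums (`DC.add`), products `G * G' / mass` (`DC.mul_div`; on `simpK q` the mass is
one); it contains the coordinates (`subL_coord`), which separate points. (`Homog`, `MBdd` of a
`DC` functional restricted to nonnegative vectors follow from the representation `A - B`.)
-/

set_option autoImplicit false

namespace Crest.Agent.R163

open Finset Filter

variable {q : ℕ}

private theorem continuous_mass' : Continuous (mass : (Fin q → ℝ) → ℝ) := by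
  unfold mass
  exact continuous_const.mul (continuous_finsetSum _ fun a _ => continuous_apply a)

theorem isCompact_simpK (hq : 0 < q) : IsCompact (simpK q) := by
  refine IsCompact.of_isClosed_subset (isCompact_Icc (a := (0 : Fin q → ℝ)) (b := fun _ => (q : ℝ))) ?_ ?_
  · have h : simpK q = (⋂ a, {v : Fin q → ℝ | 0 ≤ v a}) ∩ {v | mass v = 1} := by
      ext v
      simp [simpK]
    rw [h]
    exact (isClosed_iInter fun a => isClosed_le continuous_const (continuous_apply a)).inter
      (isClosed_eq continuous_mass' continuous_const)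
  · rintro v ⟨hv, hm⟩
    refine ⟨fun a => hv a, fun a => ?_⟩
    have h1 := le_mass hq v hv a
    rw [hm, mul_one] at h1
    exact h1

private theorem dc_homog {F : (Fin q → ℝ) → ℝ} (hF : DC F) : Homog F := by
  obtain ⟨A, B, hA, hB, h⟩ := hF
  intro t v ht hv
  rw [h _ (fun a => mul_nonneg ht (hv a)), h v hv, hA.homog t v ht hv, hB.homog t v ht hv]
  ring

private theorem dc_mbdd {F : (Fin q → ℝ) → ℝ} (hF : DC F) : MBdd F := by
  obtain ⟨A, B, hA, hB, h⟩ := hF
  obtain ⟨C, hC, h1⟩ := hA.mbdd
  obtain ⟨D, hD, h2⟩ := hB.mbdd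
  refine ⟨C + D, by positivity, fun v hv => ?_⟩
  rw [h v hv]
  have := abs_sub (A v) (B v)
  have h3 := h1 v hv
  have h4 := h2 v hv
  calc |A v - B v| ≤ |A v| + |B v| := this
    _ ≤ (C + D) * mass v := by linarith

/-- the subalgebra of `DC` functionals on `simpK q` -/
private def dcAlg (hq : 0 < q) : Subalgebra ℝ C(simpK q, ℝ) where
  carrier := {f | ∃ G : (Fin q → ℝ) → ℝ, DC G ∧ ∀ v : simpK q, f v = G v.1}
  mul_mem' := by
    rintro f g ⟨F, hF, h1⟩ ⟨G, hG, h2⟩
    refine ⟨_, hF.mul_div hq hG, fun v => ?_⟩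
    rw [ContinuousMap.mul_apply, h1, h2, v.2.2, div_one]
  add_mem' := by
    rintro f g ⟨F, hF, h1⟩ ⟨G, hG, h2⟩
    refine ⟨_, hF.add hG, fun v => ?_⟩
    rw [ContinuousMap.add_apply, h1, h2]
  algebraMap_mem' := by
    intro r
    refine ⟨_, dc_smul_mass r, fun v => ?_⟩
    rw [v.2.2, mul_one]
    simp

private theorem dcAlg_sep (hq : 0 < q) : (dcAlg hq).SeparatesPoints := by
  intro x y hxy
  have h : ∃ a, x.1 a ≠ y.1 a := by
    by_contra hcon
    push Not at hcon
    exact hxy (Subtype.ext (funext hcon))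
  obtain ⟨a, ha⟩ := h
  refine ⟨fun v : simpK q => v.1 a, ⟨⟨fun v : simpK q => v.1 a,
    (continuous_apply a).comp continuous_subtype_val⟩, ⟨fun v => v a, ?_, fun v => rfl⟩, rfl⟩, ha⟩
  exact ⟨_, _, subL_coord hq a, subL_mass.smul (le_refl (0 : ℝ)), fun v _ => by ring⟩

/-- density of `DC` functionals -/
theorem DC.dense (hq : 0 < q) (F : (Fin q → ℝ) → ℝ) (hc : ContinuousOn F (simpK q)) (ε : ℝ)
    (hε : 0 < ε) : ∃ G : (Fin q → ℝ) → ℝ, DC G ∧ Homog G ∧ MBdd G ∧
      ∀ v ∈ simpK q, |F v - G v| ≤ ε := by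
  have hK : CompactSpace (simpK q) := isCompact_iff_compactSpace.mp (isCompact_simpK hq)
  obtain ⟨⟨g, G, hG, hg⟩, hgF⟩ :=
    ContinuousMap.exists_mem_subalgebra_near_continuous_of_separatesPoints (dcAlg hq) (dcAlg_sep hq)
      (fun v : simpK q => F v.1) (hc.comp_continuous continuous_subtype_val fun v => v.2) ε hε
  refine ⟨G, hG, dc_homog hG, dc_mbdd hG, fun v hv => ?_⟩
  have h1 := hgF ⟨v, hv⟩
  have h2 := hg ⟨v, hv⟩
  change ‖g ⟨v, hv⟩ - F v‖ < ε at h1
  rw [h2, Real.norm_eq_abs] at h1
  rw [abs_sub_comm]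
  exact h1.le

end Crest.Agent.R163
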