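import Mathlib
import Crest.Prelude.Def_Broadcast
import Crest.Prelude.Def_TreeBroadcast

/-!
# Row 163 (Potts reconstruction at Kesten-Stigum): interface

An *experiment* about the root spin `a : Fin q` is a (finite or countable) family
`w : ι → Fin q → ℝ` of likelihood vectors: `w i a = P(observation = i | root = a)`.

* `ch β w`     : the experiment seen through the symmetric channel with parameter `β` (`T_β`);
* `mul w v`    : two (conditionally on the root) independent experiments (`*`);
* `pw w n`     : `n` independent copies;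
* `Ex F w`     : `∑' i, F (w i)`, for a degree-one homogeneous `F` this is an expectation
                 (under the uniform prior) of a function of the posterior;
* `mass v`     : the probability of the observation with likelihood vector `v`, uniform prior;
* `uv v a`     : `q * posterior a - 1`;
* `m2, m3`     : `<u^2>`, `<u^3>`, with `<f> = (1/q) ∑ a, f a`;
* `X w`        : `E <u^2>`;  `KK w = E[(4-q)<u^2> + 2<u^3> - <u^2>^2]`;
* `gain P Q`   : `X (P*Q) - X P`.
-/

set_option autoImplicit false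

namespace Crest.Agent.R163

open Finset

variable {ι κ : Type*} {q : ℕ}

/-- `w` is an experiment. -/
structure IsExp (w : ι → Fin q → ℝ) : Prop where
  nonneg : ∀ i a, 0 ≤ w i a
  hasSum : ∀ a, HasSum (fun i => w i a) 1

/-- The law of the experiment is invariant under permutations of the spin values. -/
def IsSymm (w : ι → Fin q → ℝ) : Prop :=
  ∀ σ : Equiv.Perm (Fin q), ∃ e : ι ≃ ι, ∀ i a, w (e i) a = w i (σ a)

/-- probability of an observation with likelihood vector `v` (uniform prior) -/
noncomputable def mass (v : Fin q → ℝ) : ℝ := (1 / q) * ∑ a, v a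

/-- `q * posterior - 1` -/
noncomputable def uv (v : Fin q → ℝ) (a : Fin q) : ℝ := v a / mass v - 1

/-- `<u^2>` -/
noncomputable def m2 (u : Fin q → ℝ) : ℝ := (1 / q) * ∑ a, u a ^ 2

/-- `<u^3>` -/
noncomputable def m3 (u : Fin q → ℝ) : ℝ := (1 / q) * ∑ a, u a ^ 3

/-- expectation of the functional `F` (homogeneous of degree one in the likelihood vector) -/
noncomputable def Ex (F : (Fin q → ℝ) → ℝ) (w : ι → Fin q → ℝ) : ℝ := ∑' i, F (w i)

/-- `F` is homogeneous of degree one on nonnegative vectors. -/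
def Homog (F : (Fin q → ℝ) → ℝ) : Prop :=
  ∀ (t : ℝ) (v : Fin q → ℝ), 0 ≤ t → (∀ a, 0 ≤ v a) → F (fun a => t * v a) = t * F v

/-- `F` is bounded by a multiple of the mass on nonnegative vectors. -/
def MBdd (F : (Fin q → ℝ) → ℝ) : Prop :=
  ∃ C : ℝ, 0 ≤ C ∧ ∀ v : Fin q → ℝ, (∀ a, 0 ≤ v a) → |F v| ≤ C * mass v

/-- pointwise functional of `X` -/
noncomputable def fX (v : Fin q → ℝ) : ℝ := mass v * m2 (uv v)

/-- pointwise functional of `x2 = E <u^2>^2` -/
noncomputable def fX2 (v : Fin q → ℝ) : ℝ := mass v * m2 (uv v) ^ 2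

/-- pointwise functional of `kappa = E <u^3>` -/
noncomputable def fk (v : Fin q → ℝ) : ℝ := mass v * m3 (uv v)

/-- `k(u) = (4-q)<u^2> + 2<u^3> - <u^2>^2` -/
noncomputable def kf (u : Fin q → ℝ) : ℝ := (4 - q) * m2 u + 2 * m3 u - m2 u ^ 2

/-- pointwise functional of `K` -/
noncomputable def fK (v : Fin q → ℝ) : ℝ := mass v * kf (uv v)

/-- the weight for `q = 4`: with `t = e2/6`, `s = e3/4`, `d = e4` (elementary symmetric functions of
`1 + u`) it is `1/96 - t/96 + (5/32) t^2 + (3/4) s - (157/96) t s + (293/96) s^2 - (127/96) d` -/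
noncomputable def alf4 (u : Fin q → ℝ) : ℝ :=
  1/96 - (1/96) * (1 - m2 u / 3) + (5/32) * (1 - m2 u / 3)^2 + (3/4) * (1 - m2 u + m3 u / 3)
    - (157/96) * (1 - m2 u / 3) * (1 - m2 u + m3 u / 3)
    + (293/96) * (1 - m2 u + m3 u / 3)^2 - (127/96) * ∏ a, (1 + u a)

/-- `alpha(u) = (1 - <u^2>/(q-1)) ∏ (1 + u_a)` (`q ≠ 4`) -/
noncomputable def alf (u : Fin q → ℝ) : ℝ :=
  if q = 4 then alf4 u else (1 - m2 u / (q - 1)) * ∏ a, (1 + u a)

/-- pointwise functional of `E alpha` -/
noncomputable def fal (v : Fin q → ℝ) : ℝ := mass v * alf (uv v)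

/-- pointwise functional of the reconstruction advantage -/
noncomputable def fTV (v : Fin q → ℝ) : ℝ := (1 / (2 * q)) * ∑ a, |v a - mass v|

/-- `x = E <u^2>` -/
noncomputable def X (w : ι → Fin q → ℝ) : ℝ := Ex fX w

/-- `K = E[(4-q)<u^2> + 2<u^3> - <u^2>^2]` -/
noncomputable def KK (w : ι → Fin q → ℝ) : ℝ := Ex fK w

/-- `E alpha` -/
noncomputable def Al (w : ι → Fin q → ℝ) : ℝ := Ex fal w

/-- the symmetric channel applied to an experiment -/
noncomputable def ch (β : ℝ) (w : ι → Fin q → ℝ) : ι → Fin q → ℝ :=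
  fun i a => β * w i a + (1 - β) * mass (w i)

/-- two independent experiments -/
def mul (w : ι → Fin q → ℝ) (v : κ → Fin q → ℝ) : ι × κ → Fin q → ℝ :=
  fun p a => w p.1 a * v p.2 a

/-- `n` independent copies -/
def pw (w : ι → Fin q → ℝ) (n : ℕ) : (Fin n → ι) → Fin q → ℝ :=
  fun f a => ∏ m, w (f m) a

/-- the perfect experiment -/
def perfect (q : ℕ) : Fin q → Fin q → ℝ := fun i a => if i = a then 1 else 0

/-- the trivial experiment -/
def trivE (q : ℕ) : Unit → Fin q → ℝ := fun _ _ => 1

/-- `X (P*Q) - X P` -/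
noncomputable def gain (P : κ → Fin q → ℝ) (Q : ι → Fin q → ℝ) : ℝ := X (mul P Q) - X P

/-- A *broadcast process* with offspring law `p`: the `(n+1)`-st experiment is the `p`-mixture of
the powers of the `n`-th one seen through the channel `lam` (in the sense that all functionals
agree). Both the regular tree and the Poisson tree are examples. -/
structure IsProcess (q : ℕ) (lam : ℝ) (p : ℕ → ℝ) (ι : ℕ → Type) (w : ∀ n, ι n → Fin q → ℝ) :
    Prop where
  isExp : ∀ n, IsExp (w n)
  isSymm : ∀ n, IsSymm (w n)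
  zero : ∀ F : (Fin q → ℝ) → ℝ, Homog F → MBdd F → Ex F (w 0) = Ex F (perfect q)
  succ : ∀ n, ∀ F : (Fin q → ℝ) → ℝ, Homog F → MBdd F →
    Ex F (w (n + 1)) = ∑' c : ℕ, p c * Ex F (pw (ch lam (w n)) c)

end Crest.Agent.R163
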