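import Crest.Agent.R163.Sc
import Crest.Agent.R163.Knot4

/-!
# Row 163: scalar inequalities, `b`-ary case, `4 ≤ b ≤ 9`
-/

set_option autoImplicit false

namespace Crest.Agent.R163.KnP

open Finset Filter

/-- small regime, `b = 4`, `t = tau / 4` -/
theorem small_b4 {t : ℝ} (h0 : 0 ≤ t) (h1 : t ≤ (1 / 20)) :
    43123 / 8000 * (1 - 4 * (1 - 3 / 5 * t) ^ 3 + 3 * (1 - 3 / 5 * t) ^ 4) -
      3461 / 1600 * (1 - (1 - t) ^ 4) +
      (3461 / 1600 - 1051 / 500 * (5 / 3 * (1 - (1 - 3 / 5 * t) ^ 3))) * (4 * t) ≤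
      -(1 / 20 * (5 / 3 * (1 - (1 - 3 / 5 * t) ^ 3)) ^ 2) := by
  have p1 : 0 ≤ t ^ 1 * ((843167 / 250000) + (-(3755057 / 2500000)) * t) := mul_nonneg (pow_nonneg h0 _) (by linarith)
  have p3 : 0 ≤ t ^ 3 * ((81 / 1250) + (-(81 / 12500)) * t) := mul_nonneg (pow_nonneg h0 _) (by linarith)
  have q : 0 ≤ t ^ 2 * ((3801 / 25000) + t ^ 1 * ((843167 / 250000) + (-(3755057 / 2500000)) * t) + t ^ 3 * ((81 / 1250) + (-(81 / 12500)) * t)) := mul_nonneg (sq_nonneg _) (by linarith)
  refine sub_nonneg.1 (q.trans_eq ?_)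
  ring

/-- small regime, `b = 5`, `t = tau / 5` -/
theorem small_b5 {t : ℝ} (h0 : 0 ≤ t) (h1 : t ≤ (3 / 80)) :
    43123 / 8000 * (1 - 5 * (1 - 3 / 5 * t) ^ 4 + 4 * (1 - 3 / 5 * t) ^ 5) -
      3461 / 1600 * (1 - (1 - t) ^ 5) +
      (3461 / 1600 - 1051 / 500 * (5 / 3 * (1 - (1 - 3 / 5 * t) ^ 4))) * (5 * t) ≤
      -(1 / 20 * (5 / 3 * (1 - (1 - 3 / 5 * t) ^ 4)) ^ 2) := by
  have p1 : 0 ≤ t ^ 1 * ((852167 / 100000) + (-(3692057 / 500000)) * t) := mul_nonneg (pow_nonneg h0 _) (by linarith)
  have p3 : 0 ≤ t ^ 3 * ((54359681 / 25000000) + (-(567 / 3125)) * t) := mul_nonneg (pow_nonneg h0 _) (by linarith)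
  have p5 : 0 ≤ t ^ 5 * ((486 / 15625) + (-(729 / 312500)) * t) := mul_nonneg (pow_nonneg h0 _) (by linarith)
  have q : 0 ≤ t ^ 2 * ((1017 / 5000) + t ^ 1 * ((852167 / 100000) + (-(3692057 / 500000)) * t) + t ^ 3 * ((54359681 / 25000000) + (-(567 / 3125)) * t) + t ^ 5 * ((486 / 15625) + (-(729 / 312500)) * t)) := mul_nonneg (sq_nonneg _) (by linarith)
  refine sub_nonneg.1 (q.trans_eq ?_)
  ring

/-- small regime, `b = 6`, `t = tau / 6` -/
theorem small_b6 {t : ℝ} (h0 : 0 ≤ t) (h1 : t ≤ (3 / 100)) :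
    43123 / 8000 * (1 - 6 * (1 - 3 / 5 * t) ^ 5 + 5 * (1 - 3 / 5 * t) ^ 6) -
      3461 / 1600 * (1 - (1 - t) ^ 6) +
      (3461 / 1600 - 1051 / 500 * (5 / 3 * (1 - (1 - 3 / 5 * t) ^ 5))) * (6 * t) ≤
      -(1 / 20 * (5 / 3 * (1 - (1 - 3 / 5 * t) ^ 5)) ^ 2) := by
  have p1 : 0 ≤ t ^ 1 * ((858167 / 50000) + (-(11040171 / 500000)) * t) := mul_nonneg (pow_nonneg h0 _) (by linarith)
  have p3 : 0 ≤ t ^ 3 * ((151469043 / 12500000) + (-(9833989 / 3125000)) * t) := mul_nonneg (pow_nonneg h0 _) (by linarith)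
  have p5 : 0 ≤ t ^ 5 * ((1458 / 3125) + (-(6561 / 62500)) * t) := mul_nonneg (pow_nonneg h0 _) (by linarith)
  have p7 : 0 ≤ t ^ 7 * ((2187 / 156250) + (-(6561 / 7812500)) * t) := mul_nonneg (pow_nonneg h0 _) (by linarith)
  have q : 0 ≤ t ^ 2 * ((2551 / 10000) + t ^ 1 * ((858167 / 50000) + (-(11040171 / 500000)) * t) + t ^ 3 * ((151469043 / 12500000) + (-(9833989 / 3125000)) * t) + t ^ 5 * ((1458 / 3125) + (-(6561 / 62500)) * t) + t ^ 7 * ((2187 / 156250) + (-(6561 / 7812500)) * t)) := mul_nonneg (sq_nonneg _) (by linarith)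
  refine sub_nonneg.1 (q.trans_eq ?_)
  ring

/-- small regime, `b = 7`, `t = tau / 7` -/
theorem small_b7 {t : ℝ} (h0 : 0 ≤ t) (h1 : t ≤ (1 / 40)) :
    43123 / 8000 * (1 - 7 * (1 - 3 / 5 * t) ^ 6 + 6 * (1 - 3 / 5 * t) ^ 7) -
      3461 / 1600 * (1 - (1 - t) ^ 7) +
      (3461 / 1600 - 1051 / 500 * (5 / 3 * (1 - (1 - 3 / 5 * t) ^ 6))) * (7 * t) ≤
      -(1 / 20 * (5 / 3 * (1 - (1 - 3 / 5 * t) ^ 6)) ^ 2) := by
  have p1 : 0 ≤ t ^ 1 * ((6037169 / 200000) + (-(25745399 / 500000)) * t) := mul_nonneg (pow_nonneg h0 _) (by linarith)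
  have p3 : 0 ≤ t ^ 3 * ((1034633301 / 25000000) + (-(57740923 / 3125000)) * t) := mul_nonneg (pow_nonneg h0 _) (by linarith)
  have p5 : 0 ≤ t ^ 5 * ((3127272731 / 625000000) + (-(72171 / 62500)) * t) := mul_nonneg (pow_nonneg h0 _) (by linarith)
  have p7 : 0 ≤ t ^ 7 * ((24057 / 78125) + (-(216513 / 3906250)) * t) := mul_nonneg (pow_nonneg h0 _) (by linarith)
  have p9 : 0 ≤ t ^ 9 * ((59049 / 9765625) + (-(59049 / 195312500)) * t) := mul_nonneg (pow_nonneg h0 _) (by linarith)
  have q : 0 ≤ t ^ 2 * ((15357 / 50000) + t ^ 1 * ((6037169 / 200000) + (-(25745399 / 500000)) * t) + t ^ 3 * ((1034633301 / 25000000) + (-(57740923 / 3125000)) * t) + t ^ 5 * ((3127272731 / 625000000) + (-(72171 / 62500)) * t) + t ^ 7 * ((24057 / 78125) + (-(216513 / 3906250)) * t) + t ^ 9 * ((59049 / 9765625) + (-(59049 / 195312500)) * t)) := mul_nonneg (sq_nonneg _) (by linarith)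
  refine sub_nonneg.1 (q.trans_eq ?_)
  ring

/-- small regime, `b = 8`, `t = tau / 8` -/
theorem small_b8 {t : ℝ} (h0 : 0 ≤ t) (h1 : t ≤ (3 / 140)) :
    43123 / 8000 * (1 - 8 * (1 - 3 / 5 * t) ^ 7 + 7 * (1 - 3 / 5 * t) ^ 8) -
      3461 / 1600 * (1 - (1 - t) ^ 8) +
      (3461 / 1600 - 1051 / 500 * (5 / 3 * (1 - (1 - 3 / 5 * t) ^ 7))) * (8 * t) ≤
      -(1 / 20 * (5 / 3 * (1 - (1 - 3 / 5 * t) ^ 7)) ^ 2) := by
  have p1 : 0 ≤ t ^ 1 * ((6059669 / 125000) + (-(25749899 / 250000)) * t) := mul_nonneg (pow_nonneg h0 _) (by linarith)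
  have p3 : 0 ≤ t ^ 3 * ((340827767 / 3125000) + (-(108404471 / 1562500)) * t) := mul_nonneg (pow_nonneg h0 _) (by linarith)
  have p5 : 0 ≤ t ^ 5 * ((2244575231 / 78125000) + (-(14090186423 / 1562500000)) * t) := mul_nonneg (pow_nonneg h0 _) (by linarith)
  have p7 : 0 ≤ t ^ 7 * ((2189187 / 781250) + (-(6567561 / 7812500)) * t) := mul_nonneg (pow_nonneg h0 _) (by linarith)
  have p9 : 0 ≤ t ^ 9 * ((1791153 / 9765625) + (-(5373459 / 195312500)) * t) := mul_nonneg (pow_nonneg h0 _) (by linarith)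
  have p11 : 0 ≤ t ^ 11 * ((1240029 / 488281250) + (-(531441 / 4882812500)) * t) := mul_nonneg (pow_nonneg h0 _) (by linarith)
  have q : 0 ≤ t ^ 2 * ((2247 / 6250) + t ^ 1 * ((6059669 / 125000) + (-(25749899 / 250000)) * t) + t ^ 3 * ((340827767 / 3125000) + (-(108404471 / 1562500)) * t) + t ^ 5 * ((2244575231 / 78125000) + (-(14090186423 / 1562500000)) * t) + t ^ 7 * ((2189187 / 781250) + (-(6567561 / 7812500)) * t) + t ^ 9 * ((1791153 / 9765625) + (-(5373459 / 195312500)) * t) + t ^ 11 * ((1240029 / 488281250) + (-(531441 / 4882812500)) * t)) := mul_nonneg (sq_nonneg _) (by linarith)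
  refine sub_nonneg.1 (q.trans_eq ?_)
  ring

/-- small regime, `b = 9`, `t = tau / 9` -/
theorem small_b9 {t : ℝ} (h0 : 0 ≤ t) (h1 : t ≤ (3 / 160)) :
    43123 / 8000 * (1 - 9 * (1 - 3 / 5 * t) ^ 8 + 8 * (1 - 3 / 5 * t) ^ 9) -
      3461 / 1600 * (1 - (1 - t) ^ 9) +
      (3461 / 1600 - 1051 / 500 * (5 / 3 * (1 - (1 - 3 / 5 * t) ^ 8))) * (9 * t) ≤
      -(1 / 20 * (5 / 3 * (1 - (1 - 3 / 5 * t) ^ 8)) ^ 2) := by
  have p1 : 0 ≤ t ^ 1 * ((18231507 / 250000) + (-(231843591 / 1250000)) * t) := mul_nonneg (pow_nonneg h0 _) (by linarith)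
  have p3 : 0 ≤ t ^ 3 * ((3046659903 / 12500000) + (-(157468269 / 781250)) * t) := mul_nonneg (pow_nonneg h0 _) (by linarith)
  have p5 : 0 ≤ t ^ 5 * ((17764494579 / 156250000) + (-(75202122807 / 1562500000)) * t) := mul_nonneg (pow_nonneg h0 _) (by linarith)
  have p7 : 0 ≤ t ^ 7 * ((282507214997 / 15625000000) + (-(13135122 / 1953125)) * t) := mul_nonneg (pow_nonneg h0 _) (by linarith)
  have p9 : 0 ≤ t ^ 9 * ((21493836 / 9765625) + (-(5373459 / 9765625)) * t) := mul_nonneg (pow_nonneg h0 _) (by linarith)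
  have p11 : 0 ≤ t ^ 11 * ((4960116 / 48828125) + (-(3188646 / 244140625)) * t) := mul_nonneg (pow_nonneg h0 _) (by linarith)
  have p13 : 0 ≤ t ^ 13 * ((6377292 / 6103515625) + (-(4782969 / 122070312500)) * t) := mul_nonneg (pow_nonneg h0 _) (by linarith)
  have q : 0 ≤ t ^ 2 * ((5153 / 12500) + t ^ 1 * ((18231507 / 250000) + (-(231843591 / 1250000)) * t) + t ^ 3 * ((3046659903 / 12500000) + (-(157468269 / 781250)) * t) + t ^ 5 * ((17764494579 / 156250000) + (-(75202122807 / 1562500000)) * t) + t ^ 7 * ((282507214997 / 15625000000) + (-(13135122 / 1953125)) * t) + t ^ 9 * ((21493836 / 9765625) + (-(5373459 / 9765625)) * t) + t ^ 11 * ((4960116 / 48828125) + (-(3188646 / 244140625)) * t) + t ^ 13 * ((6377292 / 6103515625) + (-(4782969 / 122070312500)) * t)) := mul_nonneg (sq_nonneg _) (by linarith)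
  refine sub_nonneg.1 (q.trans_eq ?_)
  ring

/-- the knot of the small regime in `b`-ary form -/
theorem small_reg {s : ℝ} {b : ℕ} (hb : 2 ≤ b) (h : ∀ θ : ℝ, 0 ≤ θ → θ ≤ 3 / 20 →
    KO s (1 - 3 / 5 * θ) (3461 / 1600 - 1051 / 500 * θ) (-(1 / 20 * θ ^ 2)))
    {t : ℝ} (t0 : 0 ≤ t) (t1 : (b - 1) * t ≤ 3 / 20)
    (hp : 43123 / 8000 * (1 - b * (1 - 3 / 5 * t) ^ (b - 1) + (b - 1) * (1 - 3 / 5 * t) ^ b) -
      3461 / 1600 * (1 - (1 - t) ^ b) +
      (3461 / 1600 - 1051 / 500 * (5 / 3 * (1 - (1 - 3 / 5 * t) ^ (b - 1)))) * (b * t) ≤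
      -(1 / 20 * (5 / 3 * (1 - (1 - 3 / 5 * t) ^ (b - 1))) ^ 2)) :
    ∃ z nu K : ℝ, 0 ≤ z ∧
      KnotOK (43123 / 8000) (3461 / 1600) (7 / 20) (47 / 100) (31 / 100) (1 / 2000) s
        (z ^ (b - 1)) nu K ∧
      43123 / 8000 * (1 - b * z ^ (b - 1) + (b - 1) * z ^ b) -
        3461 / 1600 * (1 - (1 - b * t / b) ^ b) + nu * (b * t) ≤ K := by
  have hb2 : (2 : ℝ) ≤ b := by exact_mod_cast hb
  have t2 : t ≤ 3 / 20 := by nlinarith
  have w0 : 0 ≤ 1 - 3 / 5 * t := by linarith
  have w1 : 1 - 3 / 5 * t ≤ 1 := by linarith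
  have x1 : (1 - 3 / 5 * t) ^ (b - 1) ≤ 1 := pow_le_one₀ w0 w1
  have x2 : 1 - (b - 1) * (3 / 5 * t) ≤ (1 - 3 / 5 * t) ^ (b - 1) := by
    have := one_add_mul_le_pow (a := -(3 / 5 * t)) (by linarith) (b - 1)
    have e : ((b - 1 : ℕ) : ℝ) = b - 1 := by
      rw [Nat.cast_sub (by omega)]; norm_num
    rw [e] at this
    have e2 : 1 + -(3 / 5 * t) = 1 - 3 / 5 * t := by ring
    rw [e2] at this
    linarith
  set θ : ℝ := 5 / 3 * (1 - (1 - 3 / 5 * t) ^ (b - 1)) with hθ
  have hx : 1 - 3 / 5 * θ = (1 - 3 / 5 * t) ^ (b - 1) := by rw [hθ]; ring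
  have hK := h θ (by rw [hθ]; linarith) (by rw [hθ]; linarith)
  rw [hx] at hK
  refine ⟨1 - 3 / 5 * t, _, _, w0, hK, ?_⟩
  have e3 : (b : ℝ) * t / b = t := by
    have : (b : ℝ) ≠ 0 := by linarith
    field_simp
  rw [e3]
  exact hp

theorem reg_hk5 {s : ℝ} (h : RegData s) : ∀ tau : ℝ, 0 ≤ tau → tau ≤ 5 →
    ∃ z nu K : ℝ, 0 ≤ z ∧
      KnotOK (43123 / 8000) (3461 / 1600) (7 / 20) (47 / 100) (31 / 100) (1 / 2000) s
        (z ^ (5 - 1)) nu K ∧
      43123 / 8000 * (1 - 5 * z ^ (5 - 1) + (5 - 1) * z ^ 5) -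
        3461 / 1600 * (1 - (1 - tau / 5) ^ 5) + nu * tau ≤ K := by
  intro tau h0 hT
  rcases le_total tau (150 / 1000) with c0 | c0
  · have t0 : 0 ≤ tau / 5 := by positivity
    have t1 : tau / 5 ≤ (3 / 80) := by linarith
    obtain ⟨z, nu, K, hz, hK, hs⟩ := small_reg (b := 5) (by norm_num) h.small t0
      (by push_cast; linarith) (by
        have := small_b5 t0 t1
        push_cast
        norm_num at this ⊢
        linarith)
    refine ⟨z, nu, K, hz, hK, ?_⟩
    have e : ((5 : ℕ) : ℝ) * (tau / 5) = tau := by push_cast; ring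
    rw [e] at hs
    push_cast at hs
    exact hs
  rcases le_total tau (195 / 1000) with c1 | c1
  · obtain ⟨z, hz, hzx, hs⟩ := reg_scal (g1 := 43123 / 8000) (g0 := 3461 / 1600) (b := 5)
      (x := (9116 / 10000)) (zh := 97712716 / 100000000) (nu := (18418 / 10000)) (K := (-(236 / 100000)))
      (a := 150 / 1000) (a' := 195 / 1000) (tau := tau)
      (by norm_num) (by norm_num) (by norm_num) (by norm_num) (by norm_num) (by norm_num)
      (by norm_num) c0 c1 (by norm_num) (by norm_num) (by norm_num)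
    exact ⟨z, _, _, hz, by rw [hzx]; exact h.k1, by push_cast at hs; exact hs⟩
  rcases le_total tau (249 / 1000) with c2 | c2
  · obtain ⟨z, hz, hzx, hs⟩ := reg_scal (g1 := 43123 / 8000) (g0 := 3461 / 1600) (b := 5)
      (x := (8880 / 10000)) (zh := 97074072 / 100000000) (nu := (17592 / 10000)) (K := (-(360 / 100000)))
      (a := 195 / 1000) (a' := 249 / 1000) (tau := tau)
      (by norm_num) (by norm_num) (by norm_num) (by norm_num) (by norm_num) (by norm_num)
      (by norm_num) c1 c2 (by norm_num) (by norm_num) (by norm_num)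
    exact ⟨z, _, _, hz, by rw [hzx]; exact h.k2, by push_cast at hs; exact hs⟩
  rcases le_total tau (314 / 1000) with c3 | c3
  · obtain ⟨z, hz, hzx, hs⟩ := reg_scal (g1 := 43123 / 8000) (g0 := 3461 / 1600) (b := 5)
      (x := (8608 / 10000)) (zh := 96322018 / 100000000) (nu := (16649 / 10000)) (K := (-(530 / 100000)))
      (a := 249 / 1000) (a' := 314 / 1000) (tau := tau)
      (by norm_num) (by norm_num) (by norm_num) (by norm_num) (by norm_num) (by norm_num)
      (by norm_num) c2 c3 (by norm_num) (by norm_num) (by norm_num)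
    exact ⟨z, _, _, hz, by rw [hzx]; exact h.k3, by push_cast at hs; exact hs⟩
  rcases le_total tau (393 / 1000) with c4 | c4
  · obtain ⟨z, hz, hzx, hs⟩ := reg_scal (g1 := 43123 / 8000) (g0 := 3461 / 1600) (b := 5)
      (x := (8296 / 10000)) (zh := 95437091 / 100000000) (nu := (15577 / 10000)) (K := (-(764 / 100000)))
      (a := 314 / 1000) (a' := 393 / 1000) (tau := tau)
      (by norm_num) (by norm_num) (by norm_num) (by norm_num) (by norm_num) (by norm_num)
      (by norm_num) c3 c4 (by norm_num) (by norm_num) (by norm_num)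
    exact ⟨z, _, _, hz, by rw [hzx]; exact h.k4, by push_cast at hs; exact hs⟩
  rcases le_total tau (490 / 1000) with c5 | c5
  · obtain ⟨z, hz, hzx, hs⟩ := reg_scal (g1 := 43123 / 8000) (g0 := 3461 / 1600) (b := 5)
      (x := (7938 / 10000)) (zh := 94390390 / 100000000) (nu := (14366 / 10000)) (K := (-(1059 / 100000)))
      (a := 393 / 1000) (a' := 490 / 1000) (tau := tau)
      (by norm_num) (by norm_num) (by norm_num) (by norm_num) (by norm_num) (by norm_num)
      (by norm_num) c4 c5 (by norm_num) (by norm_num) (by norm_num)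
    exact ⟨z, _, _, hz, by rw [hzx]; exact h.k5, by push_cast at hs; exact hs⟩
  rcases le_total tau (616 / 1000) with c6 | c6
  · obtain ⟨z, hz, hzx, hs⟩ := reg_scal (g1 := 43123 / 8000) (g0 := 3461 / 1600) (b := 5)
      (x := (7523 / 10000)) (zh := 93131752 / 100000000) (nu := (12965 / 10000)) (K := (-(1515 / 100000)))
      (a := 490 / 1000) (a' := 616 / 1000) (tau := tau)
      (by norm_num) (by norm_num) (by norm_num) (by norm_num) (by norm_num) (by norm_num)
      (by norm_num) c5 c6 (by norm_num) (by norm_num) (by norm_num)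
    exact ⟨z, _, _, hz, by rw [hzx]; exact h.k6, by push_cast at hs; exact hs⟩
  rcases le_total tau (796 / 1000) with c7 | c7
  · obtain ⟨z, hz, hzx, hs⟩ := reg_scal (g1 := 43123 / 8000) (g0 := 3461 / 1600) (b := 5)
      (x := (7014 / 10000)) (zh := 91514824 / 100000000) (nu := (11268 / 10000)) (K := (-(2173 / 100000)))
      (a := 616 / 1000) (a' := 796 / 1000) (tau := tau)
      (by norm_num) (by norm_num) (by norm_num) (by norm_num) (by norm_num) (by norm_num)
      (by norm_num) c6 c7 (by norm_num) (by norm_num) (by norm_num)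
    exact ⟨z, _, _, hz, by rw [hzx]; exact h.k7, by push_cast at hs; exact hs⟩
  rcases le_total tau (1105 / 1000) with c8 | c8
  · obtain ⟨z, hz, hzx, hs⟩ := reg_scal (g1 := 43123 / 8000) (g0 := 3461 / 1600) (b := 5)
      (x := (6325 / 10000)) (zh := 89179522 / 100000000) (nu := (9017 / 10000)) (K := (-(3109 / 100000)))
      (a := 796 / 1000) (a' := 1105 / 1000) (tau := tau)
      (by norm_num) (by norm_num) (by norm_num) (by norm_num) (by norm_num) (by norm_num)
      (by norm_num) c7 c8 (by norm_num) (by norm_num) (by norm_num)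
    exact ⟨z, _, _, hz, by rw [hzx]; exact h.k8, by push_cast at hs; exact hs⟩
  rcases le_total tau (1862 / 1000) with c9 | c9
  · obtain ⟨z, hz, hzx, hs⟩ := reg_scal (g1 := 43123 / 8000) (g0 := 3461 / 1600) (b := 5)
      (x := (5247 / 10000)) (zh := 85109448 / 100000000) (nu := (5415 / 10000)) (K := (-(6679 / 100000)))
      (a := 1105 / 1000) (a' := 1862 / 1000) (tau := tau)
      (by norm_num) (by norm_num) (by norm_num) (by norm_num) (by norm_num) (by norm_num)
      (by norm_num) c8 c9 (by norm_num) (by norm_num) (by norm_num)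
    exact ⟨z, _, _, hz, by rw [hzx]; exact h.k9, by push_cast at hs; exact hs⟩
  rcases le_total tau (2200 / 1000) with c10 | c10
  · obtain ⟨z, hz, hzx, hs⟩ := reg_scal (g1 := 43123 / 8000) (g0 := 3461 / 1600) (b := 5)
      (x := (4054 / 10000)) (zh := 79794130 / 100000000) (nu := (2231 / 10000)) (K := (-(9817 / 100000)))
      (a := 1862 / 1000) (a' := 2200 / 1000) (tau := tau)
      (by norm_num) (by norm_num) (by norm_num) (by norm_num) (by norm_num) (by norm_num)
      (by norm_num) c9 c10 (by norm_num) (by norm_num) (by norm_num)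
    exact ⟨z, _, _, hz, by rw [hzx]; exact h.k10, by push_cast at hs; exact hs⟩
  · obtain ⟨z, hz, hzx, hs⟩ := reg_scal (g1 := 43123 / 8000) (g0 := 3461 / 1600) (b := 5)
      (x := (3350 / 10000)) (zh := 76078372 / 100000000) (nu := 0) (K := (-(18721 / 100000)))
      (a := 2200 / 1000) (a' := 5) (tau := tau)
      (by norm_num) (by norm_num) (by norm_num) (by norm_num) (by norm_num) (by norm_num)
      (by norm_num) c10 hT (by norm_num) (by norm_num) (by norm_num)
    exact ⟨z, _, _, hz, by rw [hzx]; exact h.k11, by push_cast at hs; exact hs⟩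

theorem reg_hk6 {s : ℝ} (h : RegData s) : ∀ tau : ℝ, 0 ≤ tau → tau ≤ 6 →
    ∃ z nu K : ℝ, 0 ≤ z ∧
      KnotOK (43123 / 8000) (3461 / 1600) (7 / 20) (47 / 100) (31 / 100) (1 / 2000) s
        (z ^ (6 - 1)) nu K ∧
      43123 / 8000 * (1 - 6 * z ^ (6 - 1) + (6 - 1) * z ^ 6) -
        3461 / 1600 * (1 - (1 - tau / 6) ^ 6) + nu * tau ≤ K := by
  intro tau h0 hT
  rcases le_total tau (150 / 1000) with c0 | c0
  · have t0 : 0 ≤ tau / 6 := by positivity
    have t1 : tau / 6 ≤ (3 / 100) := by linarith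
    obtain ⟨z, nu, K, hz, hK, hs⟩ := small_reg (b := 6) (by norm_num) h.small t0
      (by push_cast; linarith) (by
        have := small_b6 t0 t1
        push_cast
        norm_num at this ⊢
        linarith)
    refine ⟨z, nu, K, hz, hK, ?_⟩
    have e : ((6 : ℕ) : ℝ) * (tau / 6) = tau := by push_cast; ring
    rw [e] at hs
    push_cast at hs
    exact hs
  rcases le_total tau (195 / 1000) with c1 | c1
  · obtain ⟨z, hz, hzx, hs⟩ := reg_scal (g1 := 43123 / 8000) (g0 := 3461 / 1600) (b := 6)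
      (x := (9116 / 10000)) (zh := 98165949 / 100000000) (nu := (18418 / 10000)) (K := (-(236 / 100000)))
      (a := 150 / 1000) (a' := 195 / 1000) (tau := tau)
      (by norm_num) (by norm_num) (by norm_num) (by norm_num) (by norm_num) (by norm_num)
      (by norm_num) c0 c1 (by norm_num) (by norm_num) (by norm_num)
    exact ⟨z, _, _, hz, by rw [hzx]; exact h.k1, by push_cast at hs; exact hs⟩
  rcases le_total tau (249 / 1000) with c2 | c2
  · obtain ⟨z, hz, hzx, hs⟩ := reg_scal (g1 := 43123 / 8000) (g0 := 3461 / 1600) (b := 6)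
      (x := (8880 / 10000)) (zh := 97652328 / 100000000) (nu := (17592 / 10000)) (K := (-(360 / 100000)))
      (a := 195 / 1000) (a' := 249 / 1000) (tau := tau)
      (by norm_num) (by norm_num) (by norm_num) (by norm_num) (by norm_num) (by norm_num)
      (by norm_num) c1 c2 (by norm_num) (by norm_num) (by norm_num)
    exact ⟨z, _, _, hz, by rw [hzx]; exact h.k2, by push_cast at hs; exact hs⟩
  rcases le_total tau (314 / 1000) with c3 | c3
  · obtain ⟨z, hz, hzx, hs⟩ := reg_scal (g1 := 43123 / 8000) (g0 := 3461 / 1600) (b := 6)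
      (x := (8608 / 10000)) (zh := 97046630 / 100000000) (nu := (16649 / 10000)) (K := (-(530 / 100000)))
      (a := 249 / 1000) (a' := 314 / 1000) (tau := tau)
      (by norm_num) (by norm_num) (by norm_num) (by norm_num) (by norm_num) (by norm_num)
      (by norm_num) c2 c3 (by norm_num) (by norm_num) (by norm_num)
    exact ⟨z, _, _, hz, by rw [hzx]; exact h.k3, by push_cast at hs; exact hs⟩
  rcases le_total tau (393 / 1000) with c4 | c4
  · obtain ⟨z, hz, hzx, hs⟩ := reg_scal (g1 := 43123 / 8000) (g0 := 3461 / 1600) (b := 6)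
      (x := (8296 / 10000)) (zh := 96332705 / 100000000) (nu := (15577 / 10000)) (K := (-(764 / 100000)))
      (a := 314 / 1000) (a' := 393 / 1000) (tau := tau)
      (by norm_num) (by norm_num) (by norm_num) (by norm_num) (by norm_num) (by norm_num)
      (by norm_num) c3 c4 (by norm_num) (by norm_num) (by norm_num)
    exact ⟨z, _, _, hz, by rw [hzx]; exact h.k4, by push_cast at hs; exact hs⟩
  rcases le_total tau (490 / 1000) with c5 | c5
  · obtain ⟨z, hz, hzx, hs⟩ := reg_scal (g1 := 43123 / 8000) (g0 := 3461 / 1600) (b := 6)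
      (x := (7938 / 10000)) (zh := 95486555 / 100000000) (nu := (14366 / 10000)) (K := (-(1059 / 100000)))
      (a := 393 / 1000) (a' := 490 / 1000) (tau := tau)
      (by norm_num) (by norm_num) (by norm_num) (by norm_num) (by norm_num) (by norm_num)
      (by norm_num) c4 c5 (by norm_num) (by norm_num) (by norm_num)
    exact ⟨z, _, _, hz, by rw [hzx]; exact h.k5, by push_cast at hs; exact hs⟩
  rcases le_total tau (616 / 1000) with c6 | c6
  · obtain ⟨z, hz, hzx, hs⟩ := reg_scal (g1 := 43123 / 8000) (g0 := 3461 / 1600) (b := 6)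
      (x := (7523 / 10000)) (zh := 94466586 / 100000000) (nu := (12965 / 10000)) (K := (-(1515 / 100000)))
      (a := 490 / 1000) (a' := 616 / 1000) (tau := tau)
      (by norm_num) (by norm_num) (by norm_num) (by norm_num) (by norm_num) (by norm_num)
      (by norm_num) c5 c6 (by norm_num) (by norm_num) (by norm_num)
    exact ⟨z, _, _, hz, by rw [hzx]; exact h.k6, by push_cast at hs; exact hs⟩
  rcases le_total tau (796 / 1000) with c7 | c7
  · obtain ⟨z, hz, hzx, hs⟩ := reg_scal (g1 := 43123 / 8000) (g0 := 3461 / 1600) (b := 6)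
      (x := (7014 / 10000)) (zh := 93152209 / 100000000) (nu := (11268 / 10000)) (K := (-(2173 / 100000)))
      (a := 616 / 1000) (a' := 796 / 1000) (tau := tau)
      (by norm_num) (by norm_num) (by norm_num) (by norm_num) (by norm_num) (by norm_num)
      (by norm_num) c6 c7 (by norm_num) (by norm_num) (by norm_num)
    exact ⟨z, _, _, hz, by rw [hzx]; exact h.k7, by push_cast at hs; exact hs⟩
  rcases le_total tau (1105 / 1000) with c8 | c8
  · obtain ⟨z, hz, hzx, hs⟩ := reg_scal (g1 := 43123 / 8000) (g0 := 3461 / 1600) (b := 6)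
      (x := (6325 / 10000)) (zh := 91245638 / 100000000) (nu := (9017 / 10000)) (K := (-(3109 / 100000)))
      (a := 796 / 1000) (a' := 1105 / 1000) (tau := tau)
      (by norm_num) (by norm_num) (by norm_num) (by norm_num) (by norm_num) (by norm_num)
      (by norm_num) c7 c8 (by norm_num) (by norm_num) (by norm_num)
    exact ⟨z, _, _, hz, by rw [hzx]; exact h.k8, by push_cast at hs; exact hs⟩
  rcases le_total tau (1862 / 1000) with c9 | c9
  · obtain ⟨z, hz, hzx, hs⟩ := reg_scal (g1 := 43123 / 8000) (g0 := 3461 / 1600) (b := 6)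
      (x := (5247 / 10000)) (zh := 87898653 / 100000000) (nu := (5415 / 10000)) (K := (-(6679 / 100000)))
      (a := 1105 / 1000) (a' := 1862 / 1000) (tau := tau)
      (by norm_num) (by norm_num) (by norm_num) (by norm_num) (by norm_num) (by norm_num)
      (by norm_num) c8 c9 (by norm_num) (by norm_num) (by norm_num)
    exact ⟨z, _, _, hz, by rw [hzx]; exact h.k9, by push_cast at hs; exact hs⟩
  rcases le_total tau (2200 / 1000) with c10 | c10
  · obtain ⟨z, hz, hzx, hs⟩ := reg_scal (g1 := 43123 / 8000) (g0 := 3461 / 1600) (b := 6)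
      (x := (4054 / 10000)) (zh := 83478907 / 100000000) (nu := (2231 / 10000)) (K := (-(9817 / 100000)))
      (a := 1862 / 1000) (a' := 2200 / 1000) (tau := tau)
      (by norm_num) (by norm_num) (by norm_num) (by norm_num) (by norm_num) (by norm_num)
      (by norm_num) c9 c10 (by norm_num) (by norm_num) (by norm_num)
    exact ⟨z, _, _, hz, by rw [hzx]; exact h.k10, by push_cast at hs; exact hs⟩
  · obtain ⟨z, hz, hzx, hs⟩ := reg_scal (g1 := 43123 / 8000) (g0 := 3461 / 1600) (b := 6)
      (x := (3350 / 10000)) (zh := 80354272 / 100000000) (nu := 0) (K := (-(18721 / 100000)))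
      (a := 2200 / 1000) (a' := 6) (tau := tau)
      (by norm_num) (by norm_num) (by norm_num) (by norm_num) (by norm_num) (by norm_num)
      (by norm_num) c10 hT (by norm_num) (by norm_num) (by norm_num)
    exact ⟨z, _, _, hz, by rw [hzx]; exact h.k11, by push_cast at hs; exact hs⟩

theorem reg_hk7 {s : ℝ} (h : RegData s) : ∀ tau : ℝ, 0 ≤ tau → tau ≤ 7 →
    ∃ z nu K : ℝ, 0 ≤ z ∧
      KnotOK (43123 / 8000) (3461 / 1600) (7 / 20) (47 / 100) (31 / 100) (1 / 2000) s
        (z ^ (7 - 1)) nu K ∧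
      43123 / 8000 * (1 - 7 * z ^ (7 - 1) + (7 - 1) * z ^ 7) -
        3461 / 1600 * (1 - (1 - tau / 7) ^ 7) + nu * tau ≤ K := by
  intro tau h0 hT
  rcases le_total tau (150 / 1000) with c0 | c0
  · have t0 : 0 ≤ tau / 7 := by positivity
    have t1 : tau / 7 ≤ (1 / 40) := by linarith
    obtain ⟨z, nu, K, hz, hK, hs⟩ := small_reg (b := 7) (by norm_num) h.small t0
      (by push_cast; linarith) (by
        have := small_b7 t0 t1
        push_cast
        norm_num at this ⊢
        linarith)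
    refine ⟨z, nu, K, hz, hK, ?_⟩
    have e : ((7 : ℕ) : ℝ) * (tau / 7) = tau := by push_cast; ring
    rw [e] at hs
    push_cast at hs
    exact hs
  rcases le_total tau (195 / 1000) with c1 | c1
  · obtain ⟨z, hz, hzx, hs⟩ := reg_scal (g1 := 43123 / 8000) (g0 := 3461 / 1600) (b := 7)
      (x := (9116 / 10000)) (zh := 98469272 / 100000000) (nu := (18418 / 10000)) (K := (-(236 / 100000)))
      (a := 150 / 1000) (a' := 195 / 1000) (tau := tau)
      (by norm_num) (by norm_num) (by norm_num) (by norm_num) (by norm_num) (by norm_num)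
      (by norm_num) c0 c1 (by norm_num) (by norm_num) (by norm_num)
    exact ⟨z, _, _, hz, by rw [hzx]; exact h.k1, by push_cast at hs; exact hs⟩
  rcases le_total tau (249 / 1000) with c2 | c2
  · obtain ⟨z, hz, hzx, hs⟩ := reg_scal (g1 := 43123 / 8000) (g0 := 3461 / 1600) (b := 7)
      (x := (8880 / 10000)) (zh := 98039744 / 100000000) (nu := (17592 / 10000)) (K := (-(360 / 100000)))
      (a := 195 / 1000) (a' := 249 / 1000) (tau := tau)
      (by norm_num) (by norm_num) (by norm_num) (by norm_num) (by norm_num) (by norm_num)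
      (by norm_num) c1 c2 (by norm_num) (by norm_num) (by norm_num)
    exact ⟨z, _, _, hz, by rw [hzx]; exact h.k2, by push_cast at hs; exact hs⟩
  rcases le_total tau (314 / 1000) with c3 | c3
  · obtain ⟨z, hz, hzx, hs⟩ := reg_scal (g1 := 43123 / 8000) (g0 := 3461 / 1600) (b := 7)
      (x := (8608 / 10000)) (zh := 97532731 / 100000000) (nu := (16649 / 10000)) (K := (-(530 / 100000)))
      (a := 249 / 1000) (a' := 314 / 1000) (tau := tau)
      (by norm_num) (by norm_num) (by norm_num) (by norm_num) (by norm_num) (by norm_num)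
      (by norm_num) c2 c3 (by norm_num) (by norm_num) (by norm_num)
    exact ⟨z, _, _, hz, by rw [hzx]; exact h.k3, by push_cast at hs; exact hs⟩
  rcases le_total tau (393 / 1000) with c4 | c4
  · obtain ⟨z, hz, hzx, hs⟩ := reg_scal (g1 := 43123 / 8000) (g0 := 3461 / 1600) (b := 7)
      (x := (8296 / 10000)) (zh := 96934446 / 100000000) (nu := (15577 / 10000)) (K := (-(764 / 100000)))
      (a := 314 / 1000) (a' := 393 / 1000) (tau := tau)
      (by norm_num) (by norm_num) (by norm_num) (by norm_num) (by norm_num) (by norm_num)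
      (by norm_num) c3 c4 (by norm_num) (by norm_num) (by norm_num)
    exact ⟨z, _, _, hz, by rw [hzx]; exact h.k4, by push_cast at hs; exact hs⟩
  rcases le_total tau (490 / 1000) with c5 | c5
  · obtain ⟨z, hz, hzx, hs⟩ := reg_scal (g1 := 43123 / 8000) (g0 := 3461 / 1600) (b := 7)
      (x := (7938 / 10000)) (zh := 96224395 / 100000000) (nu := (14366 / 10000)) (K := (-(1059 / 100000)))
      (a := 393 / 1000) (a' := 490 / 1000) (tau := tau)
      (by norm_num) (by norm_num) (by norm_num) (by norm_num) (by norm_num) (by norm_num)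
      (by norm_num) c4 c5 (by norm_num) (by norm_num) (by norm_num)
    exact ⟨z, _, _, hz, by rw [hzx]; exact h.k5, by push_cast at hs; exact hs⟩
  rcases le_total tau (616 / 1000) with c6 | c6
  · obtain ⟨z, hz, hzx, hs⟩ := reg_scal (g1 := 43123 / 8000) (g0 := 3461 / 1600) (b := 7)
      (x := (7523 / 10000)) (zh := 95367087 / 100000000) (nu := (12965 / 10000)) (K := (-(1515 / 100000)))
      (a := 490 / 1000) (a' := 616 / 1000) (tau := tau)
      (by norm_num) (by norm_num) (by norm_num) (by norm_num) (by norm_num) (by norm_num)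
      (by norm_num) c5 c6 (by norm_num) (by norm_num) (by norm_num)
    exact ⟨z, _, _, hz, by rw [hzx]; exact h.k6, by push_cast at hs; exact hs⟩
  rcases le_total tau (796 / 1000) with c7 | c7
  · obtain ⟨z, hz, hzx, hs⟩ := reg_scal (g1 := 43123 / 8000) (g0 := 3461 / 1600) (b := 7)
      (x := (7014 / 10000)) (zh := 94260043 / 100000000) (nu := (11268 / 10000)) (K := (-(2173 / 100000)))
      (a := 616 / 1000) (a' := 796 / 1000) (tau := tau)
      (by norm_num) (by norm_num) (by norm_num) (by norm_num) (by norm_num) (by norm_num)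
      (by norm_num) c6 c7 (by norm_num) (by norm_num) (by norm_num)
    exact ⟨z, _, _, hz, by rw [hzx]; exact h.k7, by push_cast at hs; exact hs⟩
  rcases le_total tau (1105 / 1000) with c8 | c8
  · obtain ⟨z, hz, hzx, hs⟩ := reg_scal (g1 := 43123 / 8000) (g0 := 3461 / 1600) (b := 7)
      (x := (6325 / 10000)) (zh := 92649574 / 100000000) (nu := (9017 / 10000)) (K := (-(3109 / 100000)))
      (a := 796 / 1000) (a' := 1105 / 1000) (tau := tau)
      (by norm_num) (by norm_num) (by norm_num) (by norm_num) (by norm_num) (by norm_num)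
      (by norm_num) c7 c8 (by norm_num) (by norm_num) (by norm_num)
    exact ⟨z, _, _, hz, by rw [hzx]; exact h.k8, by push_cast at hs; exact hs⟩
  rcases le_total tau (1862 / 1000) with c9 | c9
  · obtain ⟨z, hz, hzx, hs⟩ := reg_scal (g1 := 43123 / 8000) (g0 := 3461 / 1600) (b := 7)
      (x := (5247 / 10000)) (zh := 89808722 / 100000000) (nu := (5415 / 10000)) (K := (-(6679 / 100000)))
      (a := 1105 / 1000) (a' := 1862 / 1000) (tau := tau)
      (by norm_num) (by norm_num) (by norm_num) (by norm_num) (by norm_num) (by norm_num)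
      (by norm_num) c8 c9 (by norm_num) (by norm_num) (by norm_num)
    exact ⟨z, _, _, hz, by rw [hzx]; exact h.k9, by push_cast at hs; exact hs⟩
  rcases le_total tau (2200 / 1000) with c10 | c10
  · obtain ⟨z, hz, hzx, hs⟩ := reg_scal (g1 := 43123 / 8000) (g0 := 3461 / 1600) (b := 7)
      (x := (4054 / 10000)) (zh := 86029480 / 100000000) (nu := (2231 / 10000)) (K := (-(9817 / 100000)))
      (a := 1862 / 1000) (a' := 2200 / 1000) (tau := tau)
      (by norm_num) (by norm_num) (by norm_num) (by norm_num) (by norm_num) (by norm_num)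
      (by norm_num) c9 c10 (by norm_num) (by norm_num) (by norm_num)
    exact ⟨z, _, _, hz, by rw [hzx]; exact h.k10, by push_cast at hs; exact hs⟩
  · obtain ⟨z, hz, hzx, hs⟩ := reg_scal (g1 := 43123 / 8000) (g0 := 3461 / 1600) (b := 7)
      (x := (3350 / 10000)) (zh := 83337565 / 100000000) (nu := 0) (K := (-(18721 / 100000)))
      (a := 2200 / 1000) (a' := 7) (tau := tau)
      (by norm_num) (by norm_num) (by norm_num) (by norm_num) (by norm_num) (by norm_num)
      (by norm_num) c10 hT (by norm_num) (by norm_num) (by norm_num)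
    exact ⟨z, _, _, hz, by rw [hzx]; exact h.k11, by push_cast at hs; exact hs⟩

theorem reg_hk8 {s : ℝ} (h : RegData s) : ∀ tau : ℝ, 0 ≤ tau → tau ≤ 8 →
    ∃ z nu K : ℝ, 0 ≤ z ∧
      KnotOK (43123 / 8000) (3461 / 1600) (7 / 20) (47 / 100) (31 / 100) (1 / 2000) s
        (z ^ (8 - 1)) nu K ∧
      43123 / 8000 * (1 - 8 * z ^ (8 - 1) + (8 - 1) * z ^ 8) -
        3461 / 1600 * (1 - (1 - tau / 8) ^ 8) + nu * tau ≤ K := by
  intro tau h0 hT
  rcases le_total tau (150 / 1000) with c0 | c0
  · have t0 : 0 ≤ tau / 8 := by positivity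
    have t1 : tau / 8 ≤ (3 / 140) := by linarith
    obtain ⟨z, nu, K, hz, hK, hs⟩ := small_reg (b := 8) (by norm_num) h.small t0
      (by push_cast; linarith) (by
        have := small_b8 t0 t1
        push_cast
        norm_num at this ⊢
        linarith)
    refine ⟨z, nu, K, hz, hK, ?_⟩
    have e : ((8 : ℕ) : ℝ) * (tau / 8) = tau := by push_cast; ring
    rw [e] at hs
    push_cast at hs
    exact hs
  rcases le_total tau (195 / 1000) with c1 | c1
  · obtain ⟨z, hz, hzx, hs⟩ := reg_scal (g1 := 43123 / 8000) (g0 := 3461 / 1600) (b := 8)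
      (x := (9116 / 10000)) (zh := 98686504 / 100000000) (nu := (18418 / 10000)) (K := (-(236 / 100000)))
      (a := 150 / 1000) (a' := 195 / 1000) (tau := tau)
      (by norm_num) (by norm_num) (by norm_num) (by norm_num) (by norm_num) (by norm_num)
      (by norm_num) c0 c1 (by norm_num) (by norm_num) (by norm_num)
    exact ⟨z, _, _, hz, by rw [hzx]; exact h.k1, by push_cast at hs; exact hs⟩
  rcases le_total tau (249 / 1000) with c2 | c2
  · obtain ⟨z, hz, hzx, hs⟩ := reg_scal (g1 := 43123 / 8000) (g0 := 3461 / 1600) (b := 8)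
      (x := (8880 / 10000)) (zh := 98317410 / 100000000) (nu := (17592 / 10000)) (K := (-(360 / 100000)))
      (a := 195 / 1000) (a' := 249 / 1000) (tau := tau)
      (by norm_num) (by norm_num) (by norm_num) (by norm_num) (by norm_num) (by norm_num)
      (by norm_num) c1 c2 (by norm_num) (by norm_num) (by norm_num)
    exact ⟨z, _, _, hz, by rw [hzx]; exact h.k2, by push_cast at hs; exact hs⟩
  rcases le_total tau (314 / 1000) with c3 | c3
  · obtain ⟨z, hz, hzx, hs⟩ := reg_scal (g1 := 43123 / 8000) (g0 := 3461 / 1600) (b := 8)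
      (x := (8608 / 10000)) (zh := 97881435 / 100000000) (nu := (16649 / 10000)) (K := (-(530 / 100000)))
      (a := 249 / 1000) (a' := 314 / 1000) (tau := tau)
      (by norm_num) (by norm_num) (by norm_num) (by norm_num) (by norm_num) (by norm_num)
      (by norm_num) c2 c3 (by norm_num) (by norm_num) (by norm_num)
    exact ⟨z, _, _, hz, by rw [hzx]; exact h.k3, by push_cast at hs; exact hs⟩
  rcases le_total tau (393 / 1000) with c4 | c4
  · obtain ⟨z, hz, hzx, hs⟩ := reg_scal (g1 := 43123 / 8000) (g0 := 3461 / 1600) (b := 8)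
      (x := (8296 / 10000)) (zh := 97366560 / 100000000) (nu := (15577 / 10000)) (K := (-(764 / 100000)))
      (a := 314 / 1000) (a' := 393 / 1000) (tau := tau)
      (by norm_num) (by norm_num) (by norm_num) (by norm_num) (by norm_num) (by norm_num)
      (by norm_num) c3 c4 (by norm_num) (by norm_num) (by norm_num)
    exact ⟨z, _, _, hz, by rw [hzx]; exact h.k4, by push_cast at hs; exact hs⟩
  rcases le_total tau (490 / 1000) with c5 | c5
  · obtain ⟨z, hz, hzx, hs⟩ := reg_scal (g1 := 43123 / 8000) (g0 := 3461 / 1600) (b := 8)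
      (x := (7938 / 10000)) (zh := 96754912 / 100000000) (nu := (14366 / 10000)) (K := (-(1059 / 100000)))
      (a := 393 / 1000) (a' := 490 / 1000) (tau := tau)
      (by norm_num) (by norm_num) (by norm_num) (by norm_num) (by norm_num) (by norm_num)
      (by norm_num) c4 c5 (by norm_num) (by norm_num) (by norm_num)
    exact ⟨z, _, _, hz, by rw [hzx]; exact h.k5, by push_cast at hs; exact hs⟩
  rcases le_total tau (616 / 1000) with c6 | c6
  · obtain ⟨z, hz, hzx, hs⟩ := reg_scal (g1 := 43123 / 8000) (g0 := 3461 / 1600) (b := 8)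
      (x := (7523 / 10000)) (zh := 96015553 / 100000000) (nu := (12965 / 10000)) (K := (-(1515 / 100000)))
      (a := 490 / 1000) (a' := 616 / 1000) (tau := tau)
      (by norm_num) (by norm_num) (by norm_num) (by norm_num) (by norm_num) (by norm_num)
      (by norm_num) c5 c6 (by norm_num) (by norm_num) (by norm_num)
    exact ⟨z, _, _, hz, by rw [hzx]; exact h.k6, by push_cast at hs; exact hs⟩
  rcases le_total tau (796 / 1000) with c7 | c7
  · obtain ⟨z, hz, hzx, hs⟩ := reg_scal (g1 := 43123 / 8000) (g0 := 3461 / 1600) (b := 8)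
      (x := (7014 / 10000)) (zh := 95059410 / 100000000) (nu := (11268 / 10000)) (K := (-(2173 / 100000)))
      (a := 616 / 1000) (a' := 796 / 1000) (tau := tau)
      (by norm_num) (by norm_num) (by norm_num) (by norm_num) (by norm_num) (by norm_num)
      (by norm_num) c6 c7 (by norm_num) (by norm_num) (by norm_num)
    exact ⟨z, _, _, hz, by rw [hzx]; exact h.k7, by push_cast at hs; exact hs⟩
  rcases le_total tau (1105 / 1000) with c8 | c8
  · obtain ⟨z, hz, hzx, hs⟩ := reg_scal (g1 := 43123 / 8000) (g0 := 3461 / 1600) (b := 8)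
      (x := (6325 / 10000)) (zh := 93665592 / 100000000) (nu := (9017 / 10000)) (K := (-(3109 / 100000)))
      (a := 796 / 1000) (a' := 1105 / 1000) (tau := tau)
      (by norm_num) (by norm_num) (by norm_num) (by norm_num) (by norm_num) (by norm_num)
      (by norm_num) c7 c8 (by norm_num) (by norm_num) (by norm_num)
    exact ⟨z, _, _, hz, by rw [hzx]; exact h.k8, by push_cast at hs; exact hs⟩
  rcases le_total tau (1862 / 1000) with c9 | c9
  · obtain ⟨z, hz, hzx, hs⟩ := reg_scal (g1 := 43123 / 8000) (g0 := 3461 / 1600) (b := 8)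
      (x := (5247 / 10000)) (zh := 91198417 / 100000000) (nu := (5415 / 10000)) (K := (-(6679 / 100000)))
      (a := 1105 / 1000) (a' := 1862 / 1000) (tau := tau)
      (by norm_num) (by norm_num) (by norm_num) (by norm_num) (by norm_num) (by norm_num)
      (by norm_num) c8 c9 (by norm_num) (by norm_num) (by norm_num)
    exact ⟨z, _, _, hz, by rw [hzx]; exact h.k9, by push_cast at hs; exact hs⟩
  rcases le_total tau (2200 / 1000) with c10 | c10
  · obtain ⟨z, hz, hzx, hs⟩ := reg_scal (g1 := 43123 / 8000) (g0 := 3461 / 1600) (b := 8)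
      (x := (4054 / 10000)) (zh := 87898892 / 100000000) (nu := (2231 / 10000)) (K := (-(9817 / 100000)))
      (a := 1862 / 1000) (a' := 2200 / 1000) (tau := tau)
      (by norm_num) (by norm_num) (by norm_num) (by norm_num) (by norm_num) (by norm_num)
      (by norm_num) c9 c10 (by norm_num) (by norm_num) (by norm_num)
    exact ⟨z, _, _, hz, by rw [hzx]; exact h.k10, by push_cast at hs; exact hs⟩
  · obtain ⟨z, hz, hzx, hs⟩ := reg_scal (g1 := 43123 / 8000) (g0 := 3461 / 1600) (b := 8)
      (x := (3350 / 10000)) (zh := 85536065 / 100000000) (nu := 0) (K := (-(18721 / 100000)))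
      (a := 2200 / 1000) (a' := 8) (tau := tau)
      (by norm_num) (by norm_num) (by norm_num) (by norm_num) (by norm_num) (by norm_num)
      (by norm_num) c10 hT (by norm_num) (by norm_num) (by norm_num)
    exact ⟨z, _, _, hz, by rw [hzx]; exact h.k11, by push_cast at hs; exact hs⟩

theorem reg_hk9 {s : ℝ} (h : RegData s) : ∀ tau : ℝ, 0 ≤ tau → tau ≤ 9 →
    ∃ z nu K : ℝ, 0 ≤ z ∧
      KnotOK (43123 / 8000) (3461 / 1600) (7 / 20) (47 / 100) (31 / 100) (1 / 2000) s
        (z ^ (9 - 1)) nu K ∧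
      43123 / 8000 * (1 - 9 * z ^ (9 - 1) + (9 - 1) * z ^ 9) -
        3461 / 1600 * (1 - (1 - tau / 9) ^ 9) + nu * tau ≤ K := by
  intro tau h0 hT
  rcases le_total tau (150 / 1000) with c0 | c0
  · have t0 : 0 ≤ tau / 9 := by positivity
    have t1 : tau / 9 ≤ (3 / 160) := by linarith
    obtain ⟨z, nu, K, hz, hK, hs⟩ := small_reg (b := 9) (by norm_num) h.small t0
      (by push_cast; linarith) (by
        have := small_b9 t0 t1
        push_cast
        norm_num at this ⊢
        linarith)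
    refine ⟨z, nu, K, hz, hK, ?_⟩
    have e : ((9 : ℕ) : ℝ) * (tau / 9) = tau := by push_cast; ring
    rw [e] at hs
    push_cast at hs
    exact hs
  rcases le_total tau (195 / 1000) with c1 | c1
  · obtain ⟨z, hz, hzx, hs⟩ := reg_scal (g1 := 43123 / 8000) (g0 := 3461 / 1600) (b := 9)
      (x := (9116 / 10000)) (zh := 98849743 / 100000000) (nu := (18418 / 10000)) (K := (-(236 / 100000)))
      (a := 150 / 1000) (a' := 195 / 1000) (tau := tau)
      (by norm_num) (by norm_num) (by norm_num) (by norm_num) (by norm_num) (by norm_num)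
      (by norm_num) c0 c1 (by norm_num) (by norm_num) (by norm_num)
    exact ⟨z, _, _, hz, by rw [hzx]; exact h.k1, by push_cast at hs; exact hs⟩
  rcases le_total tau (249 / 1000) with c2 | c2
  · obtain ⟨z, hz, hzx, hs⟩ := reg_scal (g1 := 43123 / 8000) (g0 := 3461 / 1600) (b := 9)
      (x := (8880 / 10000)) (zh := 98526176 / 100000000) (nu := (17592 / 10000)) (K := (-(360 / 100000)))
      (a := 195 / 1000) (a' := 249 / 1000) (tau := tau)
      (by norm_num) (by norm_num) (by norm_num) (by norm_num) (by norm_num) (by norm_num)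
      (by norm_num) c1 c2 (by norm_num) (by norm_num) (by norm_num)
    exact ⟨z, _, _, hz, by rw [hzx]; exact h.k2, by push_cast at hs; exact hs⟩
  rcases le_total tau (314 / 1000) with c3 | c3
  · obtain ⟨z, hz, hzx, hs⟩ := reg_scal (g1 := 43123 / 8000) (g0 := 3461 / 1600) (b := 9)
      (x := (8608 / 10000)) (zh := 98143782 / 100000000) (nu := (16649 / 10000)) (K := (-(530 / 100000)))
      (a := 249 / 1000) (a' := 314 / 1000) (tau := tau)
      (by norm_num) (by norm_num) (by norm_num) (by norm_num) (by norm_num) (by norm_num)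
      (by norm_num) c2 c3 (by norm_num) (by norm_num) (by norm_num)
    exact ⟨z, _, _, hz, by rw [hzx]; exact h.k3, by push_cast at hs; exact hs⟩
  rcases le_total tau (393 / 1000) with c4 | c4
  · obtain ⟨z, hz, hzx, hs⟩ := reg_scal (g1 := 43123 / 8000) (g0 := 3461 / 1600) (b := 9)
      (x := (8296 / 10000)) (zh := 97691910 / 100000000) (nu := (15577 / 10000)) (K := (-(764 / 100000)))
      (a := 314 / 1000) (a' := 393 / 1000) (tau := tau)
      (by norm_num) (by norm_num) (by norm_num) (by norm_num) (by norm_num) (by norm_num)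
      (by norm_num) c3 c4 (by norm_num) (by norm_num) (by norm_num)
    exact ⟨z, _, _, hz, by rw [hzx]; exact h.k4, by push_cast at hs; exact hs⟩
  rcases le_total tau (490 / 1000) with c5 | c5
  · obtain ⟨z, hz, hzx, hs⟩ := reg_scal (g1 := 43123 / 8000) (g0 := 3461 / 1600) (b := 9)
      (x := (7938 / 10000)) (zh := 97154718 / 100000000) (nu := (14366 / 10000)) (K := (-(1059 / 100000)))
      (a := 393 / 1000) (a' := 490 / 1000) (tau := tau)
      (by norm_num) (by norm_num) (by norm_num) (by norm_num) (by norm_num) (by norm_num)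
      (by norm_num) c4 c5 (by norm_num) (by norm_num) (by norm_num)
    exact ⟨z, _, _, hz, by rw [hzx]; exact h.k5, by push_cast at hs; exact hs⟩
  rcases le_total tau (616 / 1000) with c6 | c6
  · obtain ⟨z, hz, hzx, hs⟩ := reg_scal (g1 := 43123 / 8000) (g0 := 3461 / 1600) (b := 9)
      (x := (7523 / 10000)) (zh := 96504794 / 100000000) (nu := (12965 / 10000)) (K := (-(1515 / 100000)))
      (a := 490 / 1000) (a' := 616 / 1000) (tau := tau)
      (by norm_num) (by norm_num) (by norm_num) (by norm_num) (by norm_num) (by norm_num)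
      (by norm_num) c5 c6 (by norm_num) (by norm_num) (by norm_num)
    exact ⟨z, _, _, hz, by rw [hzx]; exact h.k6, by push_cast at hs; exact hs⟩
  rcases le_total tau (796 / 1000) with c7 | c7
  · obtain ⟨z, hz, hzx, hs⟩ := reg_scal (g1 := 43123 / 8000) (g0 := 3461 / 1600) (b := 9)
      (x := (7014 / 10000)) (zh := 95663381 / 100000000) (nu := (11268 / 10000)) (K := (-(2173 / 100000)))
      (a := 616 / 1000) (a' := 796 / 1000) (tau := tau)
      (by norm_num) (by norm_num) (by norm_num) (by norm_num) (by norm_num) (by norm_num)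
      (by norm_num) c6 c7 (by norm_num) (by norm_num) (by norm_num)
    exact ⟨z, _, _, hz, by rw [hzx]; exact h.k7, by push_cast at hs; exact hs⟩
  rcases le_total tau (1105 / 1000) with c8 | c8
  · obtain ⟨z, hz, hzx, hs⟩ := reg_scal (g1 := 43123 / 8000) (g0 := 3461 / 1600) (b := 9)
      (x := (6325 / 10000)) (zh := 94434911 / 100000000) (nu := (9017 / 10000)) (K := (-(3109 / 100000)))
      (a := 796 / 1000) (a' := 1105 / 1000) (tau := tau)
      (by norm_num) (by norm_num) (by norm_num) (by norm_num) (by norm_num) (by norm_num)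
      (by norm_num) c7 c8 (by norm_num) (by norm_num) (by norm_num)
    exact ⟨z, _, _, hz, by rw [hzx]; exact h.k8, by push_cast at hs; exact hs⟩
  rcases le_total tau (1862 / 1000) with c9 | c9
  · obtain ⟨z, hz, hzx, hs⟩ := reg_scal (g1 := 43123 / 8000) (g0 := 3461 / 1600) (b := 9)
      (x := (5247 / 10000)) (zh := 92254783 / 100000000) (nu := (5415 / 10000)) (K := (-(6679 / 100000)))
      (a := 1105 / 1000) (a' := 1862 / 1000) (tau := tau)
      (by norm_num) (by norm_num) (by norm_num) (by norm_num) (by norm_num) (by norm_num)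
      (by norm_num) c8 c9 (by norm_num) (by norm_num) (by norm_num)
    exact ⟨z, _, _, hz, by rw [hzx]; exact h.k9, by push_cast at hs; exact hs⟩
  rcases le_total tau (2200 / 1000) with c10 | c10
  · obtain ⟨z, hz, hzx, hs⟩ := reg_scal (g1 := 43123 / 8000) (g0 := 3461 / 1600) (b := 9)
      (x := (4054 / 10000)) (zh := 89327561 / 100000000) (nu := (2231 / 10000)) (K := (-(9817 / 100000)))
      (a := 1862 / 1000) (a' := 2200 / 1000) (tau := tau)
      (by norm_num) (by norm_num) (by norm_num) (by norm_num) (by norm_num) (by norm_num)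
      (by norm_num) c9 c10 (by norm_num) (by norm_num) (by norm_num)
    exact ⟨z, _, _, hz, by rw [hzx]; exact h.k10, by push_cast at hs; exact hs⟩
  · obtain ⟨z, hz, hzx, hs⟩ := reg_scal (g1 := 43123 / 8000) (g0 := 3461 / 1600) (b := 9)
      (x := (3350 / 10000)) (zh := 87222917 / 100000000) (nu := 0) (K := (-(18721 / 100000)))
      (a := 2200 / 1000) (a' := 9) (tau := tau)
      (by norm_num) (by norm_num) (by norm_num) (by norm_num) (by norm_num) (by norm_num)
      (by norm_num) c10 hT (by norm_num) (by norm_num) (by norm_num)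
    exact ⟨z, _, _, hz, by rw [hzx]; exact h.k11, by push_cast at hs; exact hs⟩

/-- `b`-ary case from the data, `5 ≤ b ≤ 9` -/
theorem antiReg_of_data {b : ℕ} {s : ℝ} (hb : 5 ≤ b) (hb9 : b ≤ 9) (hs : s = 1 / Real.sqrt b)
    (h : RegData s) : AntiReg b := by
  have hs1 : s ≤ 4473 / 10000 := by
    have hb5 : (5 : ℝ) ≤ (b : ℝ) := by exact_mod_cast hb
    have h1 : (22361 / 10000 : ℝ) - 1 / 10000 ≤ Real.sqrt b := by
      apply Real.le_sqrt_of_sq_le
      norm_num
      linarith
    rw [hs, div_le_iff₀ (by linarith)]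
    norm_num at h1
    linarith
  refine antiReg_final hb hs hs1 (g1 := 43123 / 8000) (g0 := 3461 / 1600) (a := 7 / 20)
    (th0 := 47 / 100) (th1 := 31 / 100) (del := 1 / 2000) (by norm_num) (by norm_num)
    (by norm_num) (by norm_num) (by norm_num) (by norm_num) (by norm_num) (by norm_num) ?_
  interval_cases b
  · exact_mod_cast reg_hk5 h
  · exact_mod_cast reg_hk6 h
  · exact_mod_cast reg_hk7 h
  · exact_mod_cast reg_hk8 h
  · exact_mod_cast reg_hk9 h

end Crest.Agent.R163.KnP
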