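import Crest.Agent.R163.CkZ
import Crest.Agent.R163.KnD
import Crest.Agent.R163.Conv3
import Crest.Agent.R163.Knot4
import Crest.Agent.R163.ScB

/-!
# Row 163: the case `b = 4` from the chain and the knots
-/

set_option autoImplicit false

namespace Crest.Agent.R163.KnP

open Finset Filter

/-- chord of the fourth power -/
theorem chord4 {p p1 p2 : ℝ} (h0 : 0 ≤ p1) (h1 : p1 ≤ p) (h2 : p ≤ p2) :
    p ^ 4 ≤ p1 ^ 4 + (p - p1) * (p2 ^ 3 + p2 ^ 2 * p1 + p2 * p1 ^ 2 + p1 ^ 3) := by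
  have hp : 0 ≤ p := h0.trans h1
  have hp2 : 0 ≤ p2 := hp.trans h2
  have e : p ^ 4 = p1 ^ 4 + (p - p1) * (p ^ 3 + p ^ 2 * p1 + p * p1 ^ 2 + p1 ^ 3) := by ring
  rw [e]
  have h3 : p ^ 3 + p ^ 2 * p1 + p * p1 ^ 2 + p1 ^ 3 ≤
      p2 ^ 3 + p2 ^ 2 * p1 + p2 * p1 ^ 2 + p1 ^ 3 := by gcongr
  have := mul_le_mul_of_nonneg_left h3 (by linarith : 0 ≤ p - p1)
  linarith

/-- cube root with an upper bound -/
theorem cbrt_ex {x c : ℝ} (hx : 0 ≤ x) (hc : 0 ≤ c) (h : x ≤ c ^ 3) :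
    ∃ z : ℝ, 0 ≤ z ∧ z ^ 3 = x ∧ z ≤ c := by
  refine ⟨x ^ (1 / 3 : ℝ), Real.rpow_nonneg hx _, ?_, ?_⟩
  · rw [← Real.rpow_natCast, ← Real.rpow_mul hx]; norm_num
  · have h1 : x ^ (1 / 3 : ℝ) ≤ (c ^ 3) ^ (1 / 3 : ℝ) := Real.rpow_le_rpow hx h (by norm_num)
    rwa [← Real.rpow_natCast, ← Real.rpow_mul hc, show ((3 : ℕ) : ℝ) * (1 / 3) = 1 by norm_num,
      Real.rpow_one] at h1

/-- the scalar inequality from a bound of the cube root and the two ends of an interval -/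
theorem scal4 {x nu K c l u : ℝ} (hx : 0 ≤ x) (hc : 0 ≤ c) (hxc : x ≤ c ^ 3) (hu : u ≤ 4)
    (hend1 : 43123 / 8000 * (1 - 4 * x + 3 * x * c) - 3461 / 1600 * (1 - (1 - l / 4) ^ 4) +
      nu * l ≤ K)
    (hend2 : 43123 / 8000 * (1 - 4 * x + 3 * x * c) - 3461 / 1600 * (1 - (1 - u / 4) ^ 4) +
      nu * u ≤ K) {tau : ℝ} (h1 : l ≤ tau) (h2 : tau ≤ u) (hlu : l < u) :
    ∃ z : ℝ, 0 ≤ z ∧ z ^ 3 = x ∧ 43123 / 8000 * (1 - 4 * z ^ 3 + 3 * z ^ 4) -
      3461 / 1600 * (1 - (1 - tau / 4) ^ 4) + nu * tau ≤ K := by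
  obtain ⟨z, hz0, hz, hzc⟩ := cbrt_ex hx hc hxc
  refine ⟨z, hz0, hz, ?_⟩
  have e1 : z ^ 4 = x * z := by rw [← hz]; ring
  rw [e1, hz]
  have h3 : x * z ≤ x * c := mul_le_mul_of_nonneg_left hzc hx
  have h4 := chord4 (p := 1 - tau / 4) (p1 := 1 - u / 4) (p2 := 1 - l / 4) (by linarith)
    (by linarith) (by linarith)
  set w : ℝ := (u - tau) / (u - l) with hw
  have hul : 0 < u - l := by linarith
  have w0 : 0 ≤ w := div_nonneg (by linarith) hul.le
  have w1 : w ≤ 1 := by rw [hw, div_le_one hul]; linarith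
  have ew : tau = u - w * (u - l) := by rw [hw]; field_simp; ring
  have e2 : (1 - u / 4) ^ 4 + (1 - tau / 4 - (1 - u / 4)) * ((1 - l / 4) ^ 3 +
      (1 - l / 4) ^ 2 * (1 - u / 4) + (1 - l / 4) * (1 - u / 4) ^ 2 + (1 - u / 4) ^ 3) =
      (1 - w) * (1 - u / 4) ^ 4 + w * (1 - l / 4) ^ 4 := by
    rw [ew]; ring
  rw [e2] at h4
  have h5 := mul_le_mul_of_nonneg_left hend1 w0
  have h6 := mul_le_mul_of_nonneg_left hend2 (by linarith : 0 ≤ 1 - w)
  have e3 : nu * tau = w * (nu * l) + (1 - w) * (nu * u) := by rw [ew]; ring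
  rw [e3]
  nlinarith [h3, h4, h5, h6]

/-- all knots, `0 ≤ tau ≤ 4783/10000` -/
theorem four_scalar (h : FourData (1 / 2)) (tau : ℝ) (h0 : 0 ≤ tau) (h1 : tau ≤ 478 / 1000) :
    ∃ z nu K : ℝ, 0 ≤ z ∧ KO (1 / 2) (z ^ 3) nu K ∧
      43123 / 8000 * (1 - 4 * z ^ 3 + 3 * z ^ 4) - 3461 / 1600 * (1 - (1 - tau / 4) ^ 4) +
        nu * tau ≤ K := by
  rcases le_total tau (1 / 5) with hs | hs
  · -- small
    obtain ⟨z, nu, K, hz0, hk, hs⟩ := small_reg (b := 4) (t := tau / 4) (by norm_num)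
      (fun θ t0 t1 => h.small θ t0 t1) (by positivity) (by push_cast; linarith) (by
        have := small_b4 (t := tau / 4) (by positivity) (by linarith)
        push_cast
        norm_num at this ⊢
        linarith)
    refine ⟨z, nu, K, hz0, hk, ?_⟩
    push_cast at hs
    have e : (4 : ℝ) * (tau / 4) = tau := by ring
    rw [e] at hs
    norm_num at hs ⊢
    linarith
  rcases le_total tau (282 / 1000) with hs2 | hs2
  · obtain ⟨z, hz0, hz, hs⟩ := scal4 (x := 9002 / 10000) (nu := 18027 / 10000)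
      (K := -(348 / 100000)) (c := 9655609 / 10000000) (l := 1 / 5) (u := 282 / 1000)
      (by norm_num) (by norm_num) (by norm_num) (by norm_num) (by norm_num) (by norm_num)
      (by linarith : (1 / 5 : ℝ) ≤ tau) hs2 (by norm_num)
    exact ⟨z, _, _, hz0, by rw [hz]; exact h.k1, hs⟩
  rcases le_total tau (384 / 1000) with hs3 | hs3
  · obtain ⟨z, hz0, hz, hs⟩ := scal4 (x := 8603 / 10000) (nu := 16669 / 10000)
      (K := -(595 / 100000)) (c := 9510792 / 10000000) (l := 282 / 1000) (u := 384 / 1000)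
      (by norm_num) (by norm_num) (by norm_num) (by norm_num) (by norm_num) (by norm_num)
      hs2 hs3 (by norm_num)
    exact ⟨z, _, _, hz0, by rw [hz]; exact h.k2, hs⟩
  · obtain ⟨z, hz0, hz, hs⟩ := scal4 (x := 8216 / 10000) (nu := 15368 / 10000)
      (K := -(908 / 100000)) (c := 9365986 / 10000000) (l := 384 / 1000) (u := 478 / 1000)
      (by norm_num) (by norm_num) (by norm_num) (by norm_num) (by norm_num) (by norm_num)
      hs3 h1 (by norm_num)
    exact ⟨z, _, _, hz0, by rw [hz]; exact h.k3, hs⟩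

/-- **`b = 4`** -/
theorem antiReg_four (h : FourData (1 / 2)) (hq : Q1 (1 / 2)) : AntiReg 4 := by
  have hs : (1 / 2 : ℝ) = 1 / Real.sqrt ((4 : ℕ) : ℝ) := by
    have : Real.sqrt ((4 : ℕ) : ℝ) = 2 := by
      rw [show ((4 : ℕ) : ℝ) = 2 ^ 2 by norm_num, Real.sqrt_sq (by norm_num)]
    rw [this]
  have hl0 : -(1 / (((3 : ℕ) : ℝ) - 1)) ≤ (-(1 / 2) : ℝ) := by norm_num
  have hl1 : (-(1 / 2) : ℝ) ≤ 1 := by norm_num
  have hproc : IsProcess 3 (-(1 / 2)) (pReg 4) (fun ℓ => (Fin ℓ → Fin 4) → Fin 3)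
      (wReg 3 4 (-(1 / 2))) := isProcess_reg 3 4 (by norm_num) _ hl0 hl1
  have hX0 : X (wReg 3 4 (-(1 / 2)) 165) ≤ 206 / 1000 := by
    have e : (-(1 / 2) : ℝ) = -1 / 2 := by norm_num
    rw [e] at hproc ⊢
    exact Ck.chain_b4 hproc
  have hXn : ∀ n, 165 ≤ n → X (wReg 3 4 (-(1 / 2)) n) ≤ 206 / 1000 := by
    intro n hn
    induction n, hn using Nat.le_induction with
    | base => exact hX0
    | succ n _ ih =>
      refine le_trans ?_ ih
      exact dom_succ (by norm_num) hl0 hl1 (fun c => pReg_nonneg 4 c) (hasSum_pReg 4).summable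
        hproc n fX (subL_fX (by norm_num))
  refine antiReg_of_knots_from (b := 4) (s := 1 / 2) (g1 := 43123 / 8000) (g0 := 3461 / 1600)
    (a := 7 / 20) (th0 := 47 / 100) (th1 := 31 / 100) (del := 1 / 2000) (taumax := 478 / 1000)
    (by norm_num) hs (by norm_num) (by norm_num) (by norm_num) (by norm_num) 165
    (Or.inl (by decide)) ?_ ?_
  · intro n hn
    have h1 := tau_le_X (s := 1 / 2) (d := 4) (by norm_num) (by norm_num) (hproc.isExp n)
      (mfc_cF (a := 7 / 20) (th := 47 / 100) (by norm_num) (by norm_num)).toMF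
      (C := 271 / 125) (by
        intro v hv
        rw [cF_eq (by norm_num) _ (chv_nonneg (by norm_num) hl0 hl1 v hv.1)]
        have := hq v hv
        linarith)
    have h2 := hXn n hn
    push_cast
    linarith
  · intro tau h0 h1
    obtain ⟨z, nu, K, hz0, hk, hs⟩ := four_scalar h tau h0 h1
    refine ⟨z, nu, K, hz0, hk, ?_⟩
    push_cast
    norm_num at hs ⊢
    linarith

end Crest.Agent.R163.KnP
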