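import Mathlib

/-!
# Row 163: `LgD1` : the one-dimensional inequality for `log cosh` (piece R163_LG1)

PROOF. WLOG `b ≤ a`; `y = (log a - log b)/2 ≥ 0`. Then `log((a+b)/2) - (log a + log b)/2 = log cosh y`
and `(a-b)/(a+b) = tanh y` (or avoid cosh/tanh: work with `a = b * exp (2y)`).
With `z = 10 y / 9`:
(1) `y ≥ 2.35`: `log cosh y ≥ y - log 2`, `Real.log_two_lt_d9`, `8/9*(2.35-0.6932) = 1.4727 ≥ 36/25 ≥ 18/25*(1-cos z)`.
(2) `0 ≤ y ≤ 2.35`: `1 - cos z ≤ z^2/2 - z^4/24 + z^6/720` (all z; iterated derivatives /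
    integrate; check Mathlib for `Real.cos_bound`-like facts), so
    `18/25 (1 - cos z) ≤ g(y) = 4/9 y^2 - 100/2187 y^4 + 1000/531441 y^6`.
    `tanh y ≥ R(y) = y(105+10y^2)/(105+45y^2+y^4)` for y ≥ 0 (`R' ≤ 1 - R^2`, `R 0 = 0`: e.g. show that
    `y - (1/2) log((1+R)/(1-R))` is monotone; or cross-multiply: `sinh y (105+45y^2+y^4) - cosh y (105 y+10y^3) ≥ 0`
    by differentiating 4-5 times: derivatives are again of the form `P sinh + Q cosh`).
    `log cosh y ≥ p(y)` where `p' ≤ R` : `p' = y - y^3/3 + y^5 s(y^2)`, any polynomial `s(Y) ≤ (14+Y/3)/(105+45Y+Y^2)` on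
    `[0, 5.5225]` with error below 3e-4 (degree 4-5; lower bound e.g. by interpolation).
    Then `8/9 p(y) + 13/250 R(y)^4 - g(y) ≥ 0` on `[0, 2.35]`: the quotient by `y^4` is a rational function
    `≥ 7e-4`; clear the denominator `(105+45y^2+y^4)^4` and use `Kr.kr_sound` (one variable `x`, boxes `[0, 2.35]`),
    `by decide +kernel` (see KrSound.lean), or `nlinarith`/`positivity` after a substitution.
The exact slack of the inequality: minimum of (RHS-LHS)/y^4 is 7.5e-4 at y = 1.33.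
-/

set_option autoImplicit false

namespace Crest.Agent.R163.Lg


/-! ### a monotonicity tool -/

private theorem mono0 {f f' : ℝ → ℝ} (hf : ∀ x, HasDerivAt f (f' x) x) (h0 : f 0 = 0)
    (h : ∀ x, 0 ≤ x → 0 ≤ f' x) : ∀ x, 0 ≤ x → 0 ≤ f x := by
  intro x hx
  have hm : MonotoneOn f (Set.Ici 0) := by
    refine monotoneOn_of_deriv_nonneg (convex_Ici 0)
      (fun y _ => (hf y).continuousAt.continuousWithinAt)
      (fun y _ => (hf y).differentiableAt.differentiableWithinAt) ?_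
    intro y hy
    rw [interior_Ici, Set.mem_Ioi] at hy
    rw [(hf y).deriv]
    exact h y hy.le
  have := hm (Set.mem_Ici.2 le_rfl) (Set.mem_Ici.2 hx) hx
  rwa [h0] at this

private theorem mono1 {f f' : ℝ → ℝ} {c : ℝ} (hf : ∀ x, HasDerivAt f (f' x) x) (h0 : f 0 = 0)
    (h : ∀ x, 0 ≤ x → x ≤ c → 0 ≤ f' x) : ∀ x, 0 ≤ x → x ≤ c → 0 ≤ f x := by
  intro x hx hxc
  have hm : MonotoneOn f (Set.Icc 0 c) := by
    refine monotoneOn_of_deriv_nonneg (convex_Icc 0 c)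
      (fun y _ => (hf y).continuousAt.continuousWithinAt)
      (fun y _ => (hf y).differentiableAt.differentiableWithinAt) ?_
    intro y hy
    rw [interior_Icc, Set.mem_Ioo] at hy
    rw [(hf y).deriv]
    exact h y hy.1.le hy.2.le
  have := hm (Set.mem_Icc.2 ⟨le_rfl, hx.trans hxc⟩) (Set.mem_Icc.2 ⟨hx, hxc⟩) hx
  rwa [h0] at this

/-! ### bound for the cosine -/

private theorem sin3 : ∀ z : ℝ, 0 ≤ z → 0 ≤ Real.sin z - z + z ^ 3 / 6 := by
  refine mono0 (f' := fun z => Real.cos z - 1 + z ^ 2 / 2) (fun x => ?_) (by simp) fun x _ => ?_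
  · have := ((Real.hasDerivAt_sin x).sub (hasDerivAt_id x)).add ((hasDerivAt_pow 3 x).div_const 6)
    refine this.congr_deriv ?_
    norm_num
    try ring
  · have := Real.one_sub_sq_div_two_le_cos (x := x)
    linarith

private theorem cos4 : ∀ z : ℝ, 0 ≤ z → 0 ≤ 1 - z ^ 2 / 2 + z ^ 4 / 24 - Real.cos z := by
  refine mono0 (f' := fun z => Real.sin z - z + z ^ 3 / 6) (fun x => ?_) (by simp) sin3
  have := ((((hasDerivAt_const x (1 : ℝ)).sub ((hasDerivAt_pow 2 x).div_const 2)).add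
    ((hasDerivAt_pow 4 x).div_const 24)).sub (Real.hasDerivAt_cos x))
  refine this.congr_deriv ?_
  norm_num
  try ring

private theorem sin5 : ∀ z : ℝ, 0 ≤ z → 0 ≤ z - z ^ 3 / 6 + z ^ 5 / 120 - Real.sin z := by
  refine mono0 (f' := fun z => 1 - z ^ 2 / 2 + z ^ 4 / 24 - Real.cos z) (fun x => ?_) (by simp) cos4
  have := ((((hasDerivAt_id x).sub ((hasDerivAt_pow 3 x).div_const 6)).add
    ((hasDerivAt_pow 5 x).div_const 120)).sub (Real.hasDerivAt_sin x))
  refine this.congr_deriv ?_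
  norm_num
  try ring

private theorem cos6 : ∀ z : ℝ, 0 ≤ z →
    0 ≤ Real.cos z - 1 + z ^ 2 / 2 - z ^ 4 / 24 + z ^ 6 / 720 := by
  refine mono0 (f' := fun z => z - z ^ 3 / 6 + z ^ 5 / 120 - Real.sin z) (fun x => ?_) (by simp) sin5
  have := ((((Real.hasDerivAt_cos x).sub (hasDerivAt_const x (1 : ℝ))).add
    ((hasDerivAt_pow 2 x).div_const 2)).sub ((hasDerivAt_pow 4 x).div_const 24)).add
    ((hasDerivAt_pow 6 x).div_const 720)
  refine this.congr_deriv ?_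
  norm_num
  try ring

/-! ### `sinh y (105+45y²+y⁴) ≥ cosh y (105y+10y³)` -/

private theorem tG : ∀ y : ℝ, 0 ≤ y →
    0 ≤ Real.sinh y * (y ^ 2 - 5) + 5 * y * Real.cosh y := by
  refine mono0 (f' := fun y => Real.cosh y * y ^ 2 + 7 * y * Real.sinh y) (fun x => ?_) (by simp)
    fun x hx => ?_
  · have := ((Real.hasDerivAt_sinh x).mul ((hasDerivAt_pow 2 x).sub_const 5)).add
      (((hasDerivAt_id x).const_mul 5).mul (Real.hasDerivAt_cosh x))
    refine this.congr_deriv ?_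
    norm_num
    ring
  · have h1 := Real.cosh_pos x
    have h2 := Real.sinh_nonneg_iff.2 hx
    positivity

private theorem tE : ∀ y : ℝ, 0 ≤ y →
    0 ≤ Real.cosh y * (y ^ 3 - 9 * y) + Real.sinh y * (2 * y ^ 2 + 9) := by
  refine mono0 (f' := fun y => y * (Real.sinh y * (y ^ 2 - 5) + 5 * y * Real.cosh y))
    (fun x => ?_) (by simp) fun x hx => mul_nonneg hx (tG x hx)
  have := ((Real.hasDerivAt_cosh x).mul ((hasDerivAt_pow 3 x).sub ((hasDerivAt_id x).const_mul 9))).add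
      ((Real.hasDerivAt_sinh x).mul (((hasDerivAt_pow 2 x).const_mul 2).add_const 9))
  refine this.congr_deriv ?_
  norm_num
  try ring

private theorem tD2 : ∀ y : ℝ, 0 ≤ y →
    0 ≤ Real.sinh y * (y ^ 4 - 3 * y ^ 2 - 15) + Real.cosh y * (15 * y - 2 * y ^ 3) := by
  refine mono0 (f' := fun y => y * (Real.cosh y * (y ^ 3 - 9 * y) + Real.sinh y * (2 * y ^ 2 + 9)))
    (fun x => ?_) (by simp) fun x hx => mul_nonneg hx (tE x hx)
  have := ((Real.hasDerivAt_sinh x).mul (((hasDerivAt_pow 4 x).sub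
      ((hasDerivAt_pow 2 x).const_mul 3)).sub_const 15)).add
      ((Real.hasDerivAt_cosh x).mul (((hasDerivAt_id x).const_mul 15).sub
        ((hasDerivAt_pow 3 x).const_mul 2)))
  refine this.congr_deriv ?_
  norm_num
  try ring

private theorem tD1 : ∀ y : ℝ, 0 ≤ y →
    0 ≤ Real.cosh y * (15 * y ^ 2 + y ^ 4) - Real.sinh y * (15 * y + 6 * y ^ 3) := by
  refine mono0 (f' := fun y => Real.sinh y * (y ^ 4 - 3 * y ^ 2 - 15) +
    Real.cosh y * (15 * y - 2 * y ^ 3)) (fun x => ?_) (by simp) tD2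
  have := ((Real.hasDerivAt_cosh x).mul (((hasDerivAt_pow 2 x).const_mul 15).add
      (hasDerivAt_pow 4 x))).sub
      ((Real.hasDerivAt_sinh x).mul (((hasDerivAt_id x).const_mul 15).add
        ((hasDerivAt_pow 3 x).const_mul 6)))
  refine this.congr_deriv ?_
  norm_num
  try ring

private theorem tD0 : ∀ y : ℝ, 0 ≤ y →
    0 ≤ Real.sinh y * (105 + 45 * y ^ 2 + y ^ 4) - Real.cosh y * (105 * y + 10 * y ^ 3) := by
  refine mono0 (f' := fun y => Real.cosh y * (15 * y ^ 2 + y ^ 4) -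
    Real.sinh y * (15 * y + 6 * y ^ 3)) (fun x => ?_) (by simp) tD1
  have := ((Real.hasDerivAt_sinh x).mul (((hasDerivAt_const x (105 : ℝ)).add
      ((hasDerivAt_pow 2 x).const_mul 45)).add (hasDerivAt_pow 4 x))).sub
      ((Real.hasDerivAt_cosh x).mul (((hasDerivAt_id x).const_mul 105).add
        ((hasDerivAt_pow 3 x).const_mul 10)))
  refine this.congr_deriv ?_
  norm_num
  try ring

/-! ### polynomial inequalities -/

private theorem df0 {Y : ℝ} (h0 : 0 ≤ Y) (h1 : Y ≤ 2) :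
    0 ≤ 14 + Y / 3 - (129 / 1000 - 43 / 1000 * Y + 93 / 10000 * Y ^ 2 - 88 / 100000 * Y ^ 3) * (105 + 45 * Y + Y ^ 2) := by
  have hs : 0 ≤ Y - 0 := sub_nonneg.2 h0
  have ht : 0 ≤ 2 - Y := sub_nonneg.2 h1
  have key : 14 + Y / 3 - (129 / 1000 - 43 / 1000 * Y + 93 / 10000 * Y ^ 2 - 88 / 100000 * Y ^ 3) * (105 + 45 * Y + Y ^ 2) =
      91 / 6400 * ((Y - 0) ^ 0 * (2 - Y) ^ 5)
      + 217 / 19200 * ((Y - 0) ^ 1 * (2 - Y) ^ 4)
      + 161 / 24000 * ((Y - 0) ^ 2 * (2 - Y) ^ 3)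
      + 949 / 40000 * ((Y - 0) ^ 3 * (2 - Y) ^ 2)
      + 7963 / 480000 * ((Y - 0) ^ 4 * (2 - Y) ^ 1)
      + 8087 / 2400000 * ((Y - 0) ^ 5 * (2 - Y) ^ 0) := by
    ring
  rw [key]
  positivity

private theorem df1 {Y : ℝ} (h0 : 2 ≤ Y) (h1 : Y ≤ 4) :
    0 ≤ 14 + Y / 3 - (129 / 1000 - 43 / 1000 * Y + 93 / 10000 * Y ^ 2 - 88 / 100000 * Y ^ 3) * (105 + 45 * Y + Y ^ 2) := by
  have hs : 0 ≤ Y - 2 := sub_nonneg.2 h0
  have ht : 0 ≤ 4 - Y := sub_nonneg.2 h1
  have key : 14 + Y / 3 - (129 / 1000 - 43 / 1000 * Y + 93 / 10000 * Y ^ 2 - 88 / 100000 * Y ^ 3) * (105 + 45 * Y + Y ^ 2) =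
      8087 / 2400000 * ((Y - 2) ^ 0 * (4 - Y) ^ 5)
      + 2737 / 160000 * ((Y - 2) ^ 1 * (4 - Y) ^ 4)
      + 619 / 24000 * ((Y - 2) ^ 2 * (4 - Y) ^ 3)
      + 847 / 120000 * ((Y - 2) ^ 3 * (4 - Y) ^ 2)
      + 1259 / 160000 * ((Y - 2) ^ 4 * (4 - Y) ^ 1)
      + 32989 / 2400000 * ((Y - 2) ^ 5 * (4 - Y) ^ 0) := by
    ring
  rw [key]
  positivity

private theorem df2 {Y : ℝ} (h0 : 4 ≤ Y) (h1 : Y ≤ 553 / 100) :
    0 ≤ 14 + Y / 3 - (129 / 1000 - 43 / 1000 * Y + 93 / 10000 * Y ^ 2 - 88 / 100000 * Y ^ 3) * (105 + 45 * Y + Y ^ 2) := by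
  have hs : 0 ≤ Y - 4 := sub_nonneg.2 h0
  have ht : 0 ≤ 553 / 100 - Y := sub_nonneg.2 h1
  have key : 14 + Y / 3 - (129 / 1000 - 43 / 1000 * Y + 93 / 10000 * Y ^ 2 - 88 / 100000 * Y ^ 3) * (105 + 45 * Y + Y ^ 2) =
      13195600000 / 251523407979 * ((Y - 4) ^ 0 * (553 / 100 - Y) ^ 5)
      + 110672360000 / 251523407979 * ((Y - 4) ^ 1 * (553 / 100 - Y) ^ 4)
      + 374239716100 / 251523407979 * ((Y - 4) ^ 2 * (553 / 100 - Y) ^ 3)
      + 627441691975 / 251523407979 * ((Y - 4) ^ 3 * (553 / 100 - Y) ^ 2)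
      + 51675016665797 / 25152340797900 * ((Y - 4) ^ 4 * (553 / 100 - Y) ^ 1)
      + 1039329821137447 / 1572021299868750 * ((Y - 4) ^ 5 * (553 / 100 - Y) ^ 0) := by
    ring
  rw [key]
  positivity

private theorem qf0 {Y : ℝ} (h0 : 0 ≤ Y) (h1 : Y ≤ 4) :
    0 ≤ (105 + 45 * Y + Y ^ 2) ^ 4 * (-62 / 2187 + 2289107 / 132860250 * Y + -43 / 9000 * Y ^ 2 + 31 / 37500 * Y ^ 3 + -11 / 168750 * Y ^ 4) + 13 / 250 * (105 + 10 * Y) ^ 4 := by
  have hs : 0 ≤ Y - 0 := sub_nonneg.2 h0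
  have ht : 0 ≤ 4 - Y := sub_nonneg.2 h1
  have key : (105 + 45 * Y + Y ^ 2) ^ 4 * (-62 / 2187 + 2289107 / 132860250 * Y + -43 / 9000 * Y ^ 2 + 31 / 37500 * Y ^ 3 + -11 / 168750 * Y ^ 4) + 13 / 250 * (105 + 10 * Y) ^ 4 =
      155236655 / 905969664 * ((Y - 0) ^ 0 * (4 - Y) ^ 12)
      + 47364809975 / 27518828544 * ((Y - 0) ^ 1 * (4 - Y) ^ 11)
      + 778806436345 / 110075314176 * ((Y - 0) ^ 2 * (4 - Y) ^ 10)
      + 6100339380569 / 412782428160 * ((Y - 0) ^ 3 * (4 - Y) ^ 9)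
      + 5479006642453 / 366917713920 * ((Y - 0) ^ 4 * (4 - Y) ^ 8)
      + 3899563986473 / 1031956070400 * ((Y - 0) ^ 5 * (4 - Y) ^ 7)
      + 5670862770581 / 4127824281600 * ((Y - 0) ^ 6 * (4 - Y) ^ 6)
      + 1269382366782673 / 46438023168000 * ((Y - 0) ^ 7 * (4 - Y) ^ 5)
      + 9206474925879289 / 148601674137600 * ((Y - 0) ^ 8 * (4 - Y) ^ 4)
      + 93274688973949427 / 1393140695040000 * ((Y - 0) ^ 9 * (4 - Y) ^ 3)
      + 24815886350832689 / 619173642240000 * ((Y - 0) ^ 10 * (4 - Y) ^ 2)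
      + 29157795300978941 / 2321901158400000 * ((Y - 0) ^ 11 * (4 - Y) ^ 1)
      + 85707947650178321 / 55725627801600000 * ((Y - 0) ^ 12 * (4 - Y) ^ 0) := by
    ring
  rw [key]
  positivity

private theorem qf1 {Y : ℝ} (h0 : 4 ≤ Y) (h1 : Y ≤ 553 / 100) :
    0 ≤ (105 + 45 * Y + Y ^ 2) ^ 4 * (-62 / 2187 + 2289107 / 132860250 * Y + -43 / 9000 * Y ^ 2 + 31 / 37500 * Y ^ 3 + -11 / 168750 * Y ^ 4) + 13 / 250 * (105 + 10 * Y) ^ 4 := by
  have hs : 0 ≤ Y - 4 := sub_nonneg.2 h0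
  have ht : 0 ≤ 553 / 100 - Y := sub_nonneg.2 h1
  have key : (105 + 45 * Y + Y ^ 2) ^ 4 * (-62 / 2187 + 2289107 / 132860250 * Y + -43 / 9000 * Y ^ 2 + 31 / 37500 * Y ^ 3 + -11 / 168750 * Y ^ 4) + 13 / 250 * (105 + 10 * Y) ^ 4 =
      13713271624028531360000000000000000000 / 87448472212922680764527492040081 * ((Y - 4) ^ 0 * (553 / 100 - Y) ^ 12)
      + 61558735501518488907200000000000000000 / 29149490737640893588175830680027 * ((Y - 4) ^ 1 * (553 / 100 - Y) ^ 11)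
      + 376956163861967284893116000000000000000 / 29149490737640893588175830680027 * ((Y - 4) ^ 2 * (553 / 100 - Y) ^ 10)
      + 4159197638791625804333447600000000000000 / 87448472212922680764527492040081 * ((Y - 4) ^ 3 * (553 / 100 - Y) ^ 9)
      + 1135342858983801866590370636000000000000 / 9716496912546964529391943560009 * ((Y - 4) ^ 4 * (553 / 100 - Y) ^ 8)
      + 1959031808754488066127136986176000000000 / 9716496912546964529391943560009 * ((Y - 4) ^ 5 * (553 / 100 - Y) ^ 7)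
      + 7283653167024825549087610456590280000000 / 29149490737640893588175830680027 * ((Y - 4) ^ 6 * (553 / 100 - Y) ^ 6)
      + 2169088383177511903051038785538744800000 / 9716496912546964529391943560009 * ((Y - 4) ^ 7 * (553 / 100 - Y) ^ 5)
      + 1378353212566099967497082696601306680000 / 9716496912546964529391943560009 * ((Y - 4) ^ 8 * (553 / 100 - Y) ^ 4)
      + 5416694020339897413024651895748934408800 / 87448472212922680764527492040081 * ((Y - 4) ^ 9 * (553 / 100 - Y) ^ 3)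
      + 2528883671598594745520294740311787786654 / 145747453688204467940879153400135 * ((Y - 4) ^ 10 * (553 / 100 - Y) ^ 2)
      + 9865950412851458467191748735868921127571 / 3643686342205111698521978835003375 * ((Y - 4) ^ 11 * (553 / 100 - Y) ^ 1)
      + 89351823338329235244289485097347814463117 / 546552951330766754778296825250506250 * ((Y - 4) ^ 12 * (553 / 100 - Y) ^ 0) := by
    ring
  rw [key]
  positivity

private theorem df {Y : ℝ} (h0 : 0 ≤ Y) (h1 : Y ≤ 553 / 100) :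
    0 ≤ 14 + Y / 3 - (129 / 1000 - 43 / 1000 * Y + 93 / 10000 * Y ^ 2 - 88 / 100000 * Y ^ 3) * (105 + 45 * Y + Y ^ 2) := by
  rcases le_total Y 2 with h2 | h2
  · exact df0 h0 h2
  · rcases le_total Y 4 with h4 | h4
    · exact df1 h2 h4
    · exact df2 h4 h1

private theorem qf {Y : ℝ} (h0 : 0 ≤ Y) (h1 : Y ≤ 553 / 100) :
    0 ≤ (105 + 45 * Y + Y ^ 2) ^ 4 * (-62 / 2187 + 2289107 / 132860250 * Y + -43 / 9000 * Y ^ 2 + 31 / 37500 * Y ^ 3 + -11 / 168750 * Y ^ 4) + 13 / 250 * (105 + 10 * Y) ^ 4 := by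
  rcases le_total Y 4 with h4 | h4
  · exact qf0 h0 h4
  · exact qf1 h4 h1

/-! ### `log cosh` -/

/-- minorant of `log cosh` -/
private noncomputable def pp (y : ℝ) : ℝ :=
  y ^ 2 / 2 - y ^ 4 / 12 + 129 / 1000 * (y ^ 6 / 6) - 43 / 1000 * (y ^ 8 / 8) +
    93 / 10000 * (y ^ 10 / 10) - 88 / 100000 * (y ^ 12 / 12)

private theorem tanh_ge {y : ℝ} (hy : 0 ≤ y) :
    y * (105 + 10 * y ^ 2) / (105 + 45 * y ^ 2 + y ^ 4) ≤ Real.sinh y / Real.cosh y := by
  have h1 := Real.cosh_pos y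
  have h2 : 0 < 105 + 45 * y ^ 2 + y ^ 4 := by positivity
  rw [div_le_div_iff₀ h2 h1]
  have := tD0 y hy
  linarith

private theorem logcosh_ge : ∀ y : ℝ, 0 ≤ y → y ≤ 235 / 100 → 0 ≤ Real.log (Real.cosh y) - pp y := by
  refine mono1 (f' := fun y => Real.sinh y / Real.cosh y - (y - y ^ 3 / 3 + 129 / 1000 * y ^ 5 -
    43 / 1000 * y ^ 7 + 93 / 10000 * y ^ 9 - 88 / 100000 * y ^ 11)) (fun x => ?_)
    (by simp [pp]) fun y hy hy2 => ?_
  · have h1 := (Real.hasDerivAt_cosh x).log (Real.cosh_pos x).ne'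
    have h2 := (((((((hasDerivAt_pow 2 x).div_const 2).sub ((hasDerivAt_pow 4 x).div_const 12)).add
      (((hasDerivAt_pow 6 x).div_const 6).const_mul (129 / 1000 : ℝ))).sub
      (((hasDerivAt_pow 8 x).div_const 8).const_mul (43 / 1000 : ℝ))).add
      (((hasDerivAt_pow 10 x).div_const 10).const_mul (93 / 10000 : ℝ))).sub
      (((hasDerivAt_pow 12 x).div_const 12).const_mul (88 / 100000 : ℝ)))
    have h3 := h1.sub h2
    refine h3.congr_deriv ?_
    norm_num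
    try ring
  · have h1 := tanh_ge hy
    have h2 : 0 < 105 + 45 * y ^ 2 + y ^ 4 := by positivity
    have hY : y ^ 2 ≤ 553 / 100 := by nlinarith
    have h3 := df (sq_nonneg y) hY
    have h4 : y - y ^ 3 / 3 + 129 / 1000 * y ^ 5 -
        43 / 1000 * y ^ 7 + 93 / 10000 * y ^ 9 - 88 / 100000 * y ^ 11 ≤
        y * (105 + 10 * y ^ 2) / (105 + 45 * y ^ 2 + y ^ 4) := by
      rw [le_div_iff₀ h2]
      have h5 := mul_nonneg (pow_nonneg hy 5) h3
      have h6 : y * (105 + 10 * y ^ 2) - (y - y ^ 3 / 3 + 129 / 1000 * y ^ 5 -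
        43 / 1000 * y ^ 7 + 93 / 10000 * y ^ 9 - 88 / 100000 * y ^ 11) *
        (105 + 45 * y ^ 2 + y ^ 4) = y ^ 5 * (14 + y ^ 2 / 3 - (129 / 1000 - 43 / 1000 * y ^ 2 +
          93 / 10000 * (y ^ 2) ^ 2 - 88 / 100000 * (y ^ 2) ^ 3) *
          (105 + 45 * y ^ 2 + (y ^ 2) ^ 2)) := by ring
      linarith
    linarith

/-! ### the inequality in `y` -/

private theorem core {y : ℝ} (hy : 0 ≤ y) :
    18 / 25 * (1 - Real.cos (10 / 9 * y)) ≤
      8 / 9 * Real.log (Real.cosh y) + 13 / 250 * (Real.sinh y / Real.cosh y) ^ 4 := by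
  rcases le_total y (235 / 100) with h | h
  · have h1 := logcosh_ge y hy h
    have h2 := tanh_ge hy
    have hD : 0 < 105 + 45 * y ^ 2 + y ^ 4 := by positivity
    have hR : 0 ≤ y * (105 + 10 * y ^ 2) / (105 + 45 * y ^ 2 + y ^ 4) := by positivity
    have h3 := pow_le_pow_left₀ hR h2 4
    have h4 := cos6 (10 / 9 * y) (by positivity)
    have hY : y ^ 2 ≤ 553 / 100 := by nlinarith
    have h5 := qf (sq_nonneg y) hY
    have h6 : 0 ≤ 8 / 9 * pp y + 13 / 250 * (y * (105 + 10 * y ^ 2) / (105 + 45 * y ^ 2 + y ^ 4)) ^ 4 -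
        18 / 25 * ((10 / 9 * y) ^ 2 / 2 - (10 / 9 * y) ^ 4 / 24 + (10 / 9 * y) ^ 6 / 720) := by
      have h7 : 8 / 9 * pp y + 13 / 250 * (y * (105 + 10 * y ^ 2) / (105 + 45 * y ^ 2 + y ^ 4)) ^ 4 -
        18 / 25 * ((10 / 9 * y) ^ 2 / 2 - (10 / 9 * y) ^ 4 / 24 + (10 / 9 * y) ^ 6 / 720) =
        y ^ 4 / (105 + 45 * y ^ 2 + y ^ 4) ^ 4 * ((105 + 45 * y ^ 2 + (y ^ 2) ^ 2) ^ 4 * (-62 / 2187 + 2289107 / 132860250 * y ^ 2 + -43 / 9000 * (y ^ 2) ^ 2 + 31 / 37500 * (y ^ 2) ^ 3 + -11 / 168750 * (y ^ 2) ^ 4) + 13 / 250 * (105 + 10 * y ^ 2) ^ 4) := by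
        unfold pp
        field_simp
        ring
      rw [h7]
      exact mul_nonneg (by positivity) h5
    linarith
  · have h1 : y - Real.log 2 ≤ Real.log (Real.cosh y) := by
      have h2 : Real.exp y / 2 ≤ Real.cosh y := by
        rw [Real.cosh_eq]
        have := Real.exp_pos (-y)
        linarith
      have h3 := Real.log_le_log (by positivity) h2
      rwa [Real.log_div (Real.exp_pos y).ne' two_ne_zero, Real.log_exp] at h3
    have h2 := Real.log_two_lt_d9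
    have h3 := Real.neg_one_le_cos (10 / 9 * y)
    have h4 : 0 ≤ (Real.sinh y / Real.cosh y) ^ 4 := by positivity
    linarith

private theorem gcos_aux {a b : ℝ} (ha : 0 < a) (hb : 0 < b) (hba : b ≤ a) :
    18 / 25 * (1 - Real.cos (5 / 9 * (Real.log a - Real.log b))) ≤
      8 / 9 * (Real.log ((a + b) / 2) - (Real.log a + Real.log b) / 2) +
        13 / 250 * ((a - b) / (a + b)) ^ 4 := by
  obtain ⟨y, hy⟩ : ∃ y, y = (Real.log a - Real.log b) / 2 := ⟨_, rfl⟩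
  obtain ⟨c, hc⟩ : ∃ c, c = (Real.log a + Real.log b) / 2 := ⟨_, rfl⟩
  have hy0 : 0 ≤ y := by
    have := Real.log_le_log hb hba
    linarith
  have ha' : a = Real.exp c * Real.exp y := by
    rw [← Real.exp_add, hc, hy]
    conv_lhs => rw [← Real.exp_log ha]
    congr 1
    ring
  have hb' : b = Real.exp c * Real.exp (-y) := by
    rw [← Real.exp_add, hc, hy]
    conv_lhs => rw [← Real.exp_log hb]
    congr 1
    ring
  have h1 : (a + b) / 2 = Real.exp c * Real.cosh y := by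
    rw [Real.cosh_eq, ha', hb']
    ring
  have h2 : (a - b) / (a + b) = Real.sinh y / Real.cosh y := by
    rw [Real.sinh_eq, Real.cosh_eq, ha', hb']
    have h3 := Real.exp_pos c
    have h4 := Real.exp_pos y
    have h5 := Real.exp_pos (-y)
    field_simp
  have h3 := core hy0
  rw [h2, h1, Real.log_mul (Real.exp_pos c).ne' (Real.cosh_pos y).ne', Real.log_exp, ← hc]
  have h4 : 5 / 9 * (Real.log a - Real.log b) = 10 / 9 * y := by
    rw [hy]; ring
  rw [h4]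
  linarith

theorem gcos {a b : ℝ} (ha : 0 < a) (hb : 0 < b) :
    18 / 25 * (1 - Real.cos (5 / 9 * (Real.log a - Real.log b))) ≤
      8 / 9 * (Real.log ((a + b) / 2) - (Real.log a + Real.log b) / 2) +
        13 / 250 * ((a - b) / (a + b)) ^ 4 := by
  rcases le_total b a with h | h
  · exact gcos_aux ha hb h
  · have h1 := gcos_aux hb ha h
    have h2 : 5 / 9 * (Real.log a - Real.log b) = -(5 / 9 * (Real.log b - Real.log a)) := by ring
    have h3 : ((a - b) / (a + b)) ^ 4 = ((b - a) / (b + a)) ^ 4 := by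
      rw [add_comm a b, ← neg_sub b a, neg_div, Even.neg_pow (by decide)]
    rw [h2, Real.cos_neg, h3, add_comm a b, add_comm (Real.log a)]
    exact h1

end Crest.Agent.R163.Lg
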