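import Crest.Agent.R163.LgD

/-!
# Row 163: `LgD2` : lower bound of `1 - cos` (piece R163_LG2)

PROOF. `t = |a-b|/(a+b) ≤ 3/5`, `s = t^2 ≤ 9/25`, `ℓ = |log a - log b| = log((1+t)/(1-t)) ≥ 2(t + t^3/3 + t^5/5 + t^7/7)`
(`Real.hasSum_log_sub_log_of_abs_lt_one`, partial sums), hence
`ℓ^2 ≥ L := 4 s (1 + 2/3 s + 23/45 s^2 + 44/105 s^3)` (the square has nonnegative coefficients).
`ℓ ≤ log 4 < 1.3863` so `z = 5/9 ℓ < 1`; `1 - cos z ≥ z^2/2 - z^4/24`
(from `1 - cos z = 2 sin(z/2)^2` and `sin x ≥ x - x^3/6`), which is increasing in `z^2 ≤ 6`, so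
`1 - cos z ≥ Y/2 - Y^2/24`, `Y = 25/81 * L`. Finally `18/25 (Y/2 - Y^2/24) ≥ 4/9 s + s^2/4 + s^3/6` for `0 ≤ s ≤ 9/25`:
polynomial, the `s`-terms cancel.
-/

set_option autoImplicit false

namespace Crest.Agent.R163.Lg

theorem sin_ge_cub {x : ℝ} (hx : 0 ≤ x) : x - x ^ 3 / 6 ≤ Real.sin x := by
  have hd : ∀ y : ℝ, HasDerivAt (fun y => Real.sin y - (y - y ^ 3 / 6))
      (Real.cos y - (1 - y ^ 2 / 2)) y := by
    intro y
    have h3 : HasDerivAt (fun y : ℝ => Real.sin y - (y - y ^ 3 / 6))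
        (Real.cos y - (1 - (3 : ℕ) * y ^ (3 - 1) / 6)) y :=
      (Real.hasDerivAt_sin y).sub ((hasDerivAt_id y).sub ((hasDerivAt_pow 3 y).div_const 6))
    have e : Real.cos y - (1 - y ^ 2 / 2) = Real.cos y - (1 - (3 : ℕ) * y ^ (3 - 1) / 6) := by
      norm_num
      ring
    rw [e]
    exact h3
  have hm : Monotone (fun y => Real.sin y - (y - y ^ 3 / 6)) :=
    monotone_of_deriv_nonneg (fun y => (hd y).differentiableAt) (fun y => by
      rw [(hd y).deriv]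
      have := Real.one_sub_sq_div_two_le_cos (x := y)
      linarith)
  have := hm hx
  simp at this
  linarith

theorem one_sub_cos_ge {z : ℝ} (hz : 0 ≤ z) (hz2 : z ≤ 1) :
    z ^ 2 / 2 - z ^ 4 / 24 ≤ 1 - Real.cos z := by
  have h1 := sin_ge_cub (x := z / 2) (by linarith)
  have h2 : 0 ≤ z / 2 - (z / 2) ^ 3 / 6 := by nlinarith [pow_le_one₀ hz hz2 (n := 2), mul_nonneg hz hz]
  have h3 : Real.cos z = 1 - 2 * Real.sin (z / 2) ^ 2 := by
    have := Real.cos_two_mul (z / 2)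
    have h4 := Real.sin_sq_add_cos_sq (z / 2)
    rw [show 2 * (z / 2) = z by ring] at this
    linarith
  have h5 : (z / 2 - (z / 2) ^ 3 / 6) ^ 2 ≤ Real.sin (z / 2) ^ 2 := pow_le_pow_left₀ h2 h1 2
  rw [h3]
  have h6 : 0 ≤ z ^ 6 := by positivity
  nlinarith [h5, h6]

theorem coslow_poly {s : ℝ} (h0 : 0 ≤ s) (h1 : s ≤ 9 / 25) :
    4 / 9 * s + s ^ 2 / 4 + s ^ 3 / 6 ≤
      18 / 25 * ((100 / 81 * (s + 2 / 3 * s ^ 2 + 23 / 45 * s ^ 3 + 44 / 105 * s ^ 4)) / 2 -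
        (100 / 81 * (s + 2 / 3 * s ^ 2 + 23 / 45 * s ^ 3 + 44 / 105 * s ^ 4)) ^ 2 / 24) := by
  have e2 : s ^ 2 ≤ (9 / 25) ^ 2 := pow_le_pow_left₀ h0 h1 2
  have e3 : s ^ 3 ≤ (9 / 25) ^ 3 := pow_le_pow_left₀ h0 h1 3
  have e4 : s ^ 4 ≤ (9 / 25) ^ 4 := pow_le_pow_left₀ h0 h1 4
  have a1 : 0 ≤ s ^ 2 * (5 / 8748 - 31 / 65610 * s) :=
    mul_nonneg (by positivity) (by linarith)
  have key : 0 ≤ s ^ 4 * (119 / 1000 - 70 / 1000 * s - 38 / 1000 * s ^ 2 - 20 / 1000 * s ^ 3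
      - 81 / 10000 * s ^ 4) := by
    apply mul_nonneg (by positivity)
    nlinarith
  nlinarith [key, a1, pow_nonneg h0 4, pow_nonneg h0 5, pow_nonneg h0 6, pow_nonneg h0 7,
    pow_nonneg h0 8]

theorem log_ge_part {t : ℝ} (h0 : 0 ≤ t) (h1 : t < 1) :
    2 * (t + t ^ 3 / 3 + t ^ 5 / 5 + t ^ 7 / 7) ≤ Real.log (1 + t) - Real.log (1 - t) := by
  have hs := Real.hasSum_log_sub_log_of_abs_lt_one (x := t) (by rw [abs_of_nonneg h0]; exact h1)
  have := sum_le_hasSum (Finset.range 4) (fun k _ => by positivity) hs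
  refine le_trans (le_of_eq ?_) this
  simp only [Finset.sum_range_succ, Finset.sum_range_zero]
  push_cast
  ring

theorem coslow_aux {a b : ℝ} (hb : 0 < b) (hab : b ≤ a)
    (h : ((a - b) / (a + b)) ^ 2 ≤ 9 / 25) :
    cl (((a - b) / (a + b)) ^ 2) ≤
      18 / 25 * (1 - Real.cos (5 / 9 * (Real.log a - Real.log b))) := by
  have ha : 0 < a := lt_of_lt_of_le hb hab
  have hs : 0 < a + b := by linarith
  set t := (a - b) / (a + b) with ht
  have t0 : 0 ≤ t := div_nonneg (by linarith) hs.le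
  have t1 : t ≤ 3 / 5 := by
    by_contra hc
    push Not at hc
    nlinarith
  have hp : 1 + t = 2 * a / (a + b) := by rw [ht]; field_simp; ring
  have hm : 1 - t = 2 * b / (a + b) := by rw [ht]; field_simp; ring
  have hl : Real.log (1 + t) - Real.log (1 - t) = Real.log a - Real.log b := by
    rw [hp, hm, Real.log_div (by positivity) hs.ne', Real.log_div (by positivity) hs.ne',
      Real.log_mul (by norm_num) ha.ne', Real.log_mul (by norm_num) hb.ne']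
    ring
  have h2 := log_ge_part t0 (by linarith)
  rw [hl] at h2
  set l := Real.log a - Real.log b with hldef
  have hup : l ≤ 2 * Real.log 2 := by
    have hab4 : a ≤ 4 * b := by
      have : (a - b) ≤ 3 / 5 * (a + b) := by
        rw [ht, div_le_iff₀ hs] at t1
        exact t1
      linarith
    have h5 : Real.log a ≤ Real.log (4 * b) := Real.log_le_log ha hab4
    rw [Real.log_mul (by norm_num) hb.ne', show (4 : ℝ) = 2 * 2 by norm_num,
      Real.log_mul (by norm_num) (by norm_num)] at h5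
    rw [hldef]
    linarith
  have hl2 := Real.log_two_lt_d9
  have l0 : 0 ≤ l := le_trans (by positivity) h2
  have lz : 5 / 9 * l ≤ 1 := by linarith
  have hz0 : 0 ≤ 5 / 9 * l := by positivity
  have hcos := one_sub_cos_ge hz0 lz
  set s := t ^ 2 with hsdef
  have s0 : 0 ≤ s := by positivity
  have hsq : (2 * (t + t ^ 3 / 3 + t ^ 5 / 5 + t ^ 7 / 7)) ^ 2 ≤ l ^ 2 :=
    pow_le_pow_left₀ (by positivity) h2 2
  have hY : 100 / 81 * (s + 2 / 3 * s ^ 2 + 23 / 45 * s ^ 3 + 44 / 105 * s ^ 4) ≤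
      (5 / 9 * l) ^ 2 := by
    have e1 : (2 * (t + t ^ 3 / 3 + t ^ 5 / 5 + t ^ 7 / 7)) ^ 2 =
        4 * (s + 2 / 3 * s ^ 2 + 23 / 45 * s ^ 3 + 44 / 105 * s ^ 4) +
          4 * (71 / 525 * s ^ 5 + 2 / 35 * s ^ 6 + 1 / 49 * s ^ 7) * 1 + 0 := by
      rw [hsdef]
      ring
    have e2 : 0 ≤ 71 / 525 * s ^ 5 + 2 / 35 * s ^ 6 + 1 / 49 * s ^ 7 := by positivity
    rw [e1] at hsq
    nlinarith
  set Y := 100 / 81 * (s + 2 / 3 * s ^ 2 + 23 / 45 * s ^ 3 + 44 / 105 * s ^ 4) with hYdef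
  have Y0 : 0 ≤ Y := by positivity
  have hz1 : (5 / 9 * l) ^ 2 ≤ 1 := pow_le_one₀ hz0 lz
  have hpoly := coslow_poly s0 h
  rw [← hYdef] at hpoly
  have hmono : Y / 2 - Y ^ 2 / 24 ≤ (5 / 9 * l) ^ 2 / 2 - (5 / 9 * l) ^ 4 / 24 := by
    have : (5 / 9 * l) ^ 4 = ((5 / 9 * l) ^ 2) ^ 2 := by ring
    rw [this]
    set Z := (5 / 9 * l) ^ 2 with hZ
    nlinarith
  unfold cl
  linarith

theorem coslow {a b : ℝ} (ha : 0 < a) (hb : 0 < b) (h : ((a - b) / (a + b)) ^ 2 ≤ 9 / 25) :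
    cl (((a - b) / (a + b)) ^ 2) ≤ 18 / 25 * (1 - Real.cos (5 / 9 * (Real.log a - Real.log b))) := by
  rcases le_total b a with hab | hab
  · exact coslow_aux hb hab h
  · have e : ((a - b) / (a + b)) ^ 2 = ((b - a) / (b + a)) ^ 2 := by
      rw [show a - b = -(b - a) by ring, show a + b = b + a by ring, neg_div, neg_sq]
    have e2 : Real.cos (5 / 9 * (Real.log a - Real.log b)) =
        Real.cos (5 / 9 * (Real.log b - Real.log a)) := by
      rw [← Real.cos_neg]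
      congr 1
      ring
    rw [e] at h ⊢
    rw [e2]
    exact coslow_aux ha hab h

end Crest.Agent.R163.Lg
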