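import Crest.Agent.R163.KrSem

/-!
# Kronecker test: soundness
-/

set_option autoImplicit false

namespace Crest.Agent.R163.Kr

open Finset MvPolynomial

/-- numerator and denominator of one variable -/
noncomputable def numP (I : Iv) (i : Fin 3) : MvPolynomial (Fin 3) ℤ := C (I.A + I.C) + C I.A * X i
noncomputable def denP (I : Iv) (i : Fin 3) : MvPolynomial (Fin 3) ℤ := C (I.D : ℤ) + C (I.D : ℤ) * X i
noncomputable def numH (I : Iv) (i : Fin 3) : MvPolynomial (Fin 3) ℕ :=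
  C (I.A + I.C).natAbs + C I.A.natAbs * X i
noncomputable def denH (I : Iv) (i : Fin 3) : MvPolynomial (Fin 3) ℕ := C I.D + C I.D * X i

/-- semantic point -/
noncomputable def spt (I J K : Iv) : Pt (MvPolynomial (Fin 3) ℤ) :=
  ⟨numP I 0, denP I 0, numP J 1, denP J 1, numP K 2, denP K 2⟩
noncomputable def hpt (I J K : Iv) : Pt (MvPolynomial (Fin 3) ℕ) :=
  ⟨numH I 0, denH I 0, numH J 1, denH J 1, numH K 2, denH K 2⟩

theorem maj_num (I : Iv) (i : Fin 3) : Maj (numP I i) (numH I i) :=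
  (Maj.C _).add ((Maj.C _).mul (Maj.X i))

theorem maj_den (I : Iv) (i : Fin 3) : Maj (denP I i) (denH I i) := by
  have h : ((I.D : ℤ)).natAbs = I.D := Int.natAbs_natCast _
  have h1 := (Maj.C (I.D : ℤ)).add ((Maj.C (I.D : ℤ)).mul (Maj.X i))
  rw [h] at h1
  exact h1

theorem maj_pt (I J K : Iv) : (spt I J K).MajP (hpt I J K) :=
  ⟨maj_num I 0, maj_den I 0, maj_num J 1, maj_den J 1, maj_num K 2, maj_den K 2⟩

theorem apt_eq (I J K : Iv) : (hpt I J K).map (MvPolynomial.eval fun _ => 1) = apt I J K := by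
  simp [hpt, apt, Pt.map, numH, denH]

theorem kpt_eq (I J K : Iv) (W₁ W₂ W₃ : ℕ) :
    (spt I J K).map (MvPolynomial.eval ![(W₁ : ℤ), (W₂ : ℤ), (W₃ : ℤ)]) = kpt I J K W₁ W₂ W₃ := by
  simp [spt, kpt, Pt.map, numP, denP]

/-! ### degrees -/

/-- exponents are bounded -/
def Box (p : MvPolynomial (Fin 3) ℤ) (d : ℕ × ℕ × ℕ) : Prop :=
  degreeOf 0 p ≤ d.1 ∧ degreeOf 1 p ≤ d.2.1 ∧ degreeOf 2 p ≤ d.2.2

theorem Box.mono {p : MvPolynomial (Fin 3) ℤ} {d d' : ℕ × ℕ × ℕ} (h : Box p d) (h1 : d.1 ≤ d'.1)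
    (h2 : d.2.1 ≤ d'.2.1) (h3 : d.2.2 ≤ d'.2.2) : Box p d' :=
  ⟨h.1.trans h1, h.2.1.trans h2, h.2.2.trans h3⟩

theorem Box.add {p q : MvPolynomial (Fin 3) ℤ} {d : ℕ × ℕ × ℕ} (h : Box p d) (h' : Box q d) :
    Box (p + q) d :=
  ⟨(degreeOf_add_le _ _ _).trans (max_le h.1 h'.1), (degreeOf_add_le _ _ _).trans (max_le h.2.1 h'.2.1),
    (degreeOf_add_le _ _ _).trans (max_le h.2.2 h'.2.2)⟩

theorem Box.mul {p q : MvPolynomial (Fin 3) ℤ} {d d' : ℕ × ℕ × ℕ} (h : Box p d) (h' : Box q d') :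
    Box (p * q) (d.1 + d'.1, d.2.1 + d'.2.1, d.2.2 + d'.2.2) :=
  ⟨(degreeOf_mul_le _ _ _).trans (add_le_add h.1 h'.1),
    (degreeOf_mul_le _ _ _).trans (add_le_add h.2.1 h'.2.1),
    (degreeOf_mul_le _ _ _).trans (add_le_add h.2.2 h'.2.2)⟩

theorem Box.pow {p : MvPolynomial (Fin 3) ℤ} {d : ℕ × ℕ × ℕ} (h : Box p d) (n : ℕ) :
    Box (p ^ n) (n * d.1, n * d.2.1, n * d.2.2) :=
  ⟨(degreeOf_pow_le _ _ _).trans (Nat.mul_le_mul_left _ h.1),
    (degreeOf_pow_le _ _ _).trans (Nat.mul_le_mul_left _ h.2.1),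
    (degreeOf_pow_le _ _ _).trans (Nat.mul_le_mul_left _ h.2.2)⟩

theorem box_C (a : ℤ) (d : ℕ × ℕ × ℕ) : Box (C a) d := by
  refine ⟨?_, ?_, ?_⟩ <;> exact (degreeOf_C a _).le.trans (Nat.zero_le _)

theorem degreeOf_lin_le (a b : ℤ) (i j : Fin 3) :
    degreeOf j (C a + C b * X i : MvPolynomial (Fin 3) ℤ) ≤ if i = j then 1 else 0 := by
  refine (degreeOf_add_le _ _ _).trans (max_le ((degreeOf_C a j).le.trans (Nat.zero_le _)) ?_)
  refine (degreeOf_mul_le _ _ _).trans ?_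
  rw [degreeOf_C, zero_add, degreeOf_X]
  split_ifs <;> simp_all

theorem box_lin0 (a b : ℤ) : Box (C a + C b * X 0) (1, 0, 0) :=
  ⟨by simpa using degreeOf_lin_le a b 0 0, by simpa using degreeOf_lin_le a b 0 1,
    by simpa using degreeOf_lin_le a b 0 2⟩
theorem box_lin1 (a b : ℤ) : Box (C a + C b * X 1) (0, 1, 0) :=
  ⟨by simpa using degreeOf_lin_le a b 1 0, by simpa using degreeOf_lin_le a b 1 1,
    by simpa using degreeOf_lin_le a b 1 2⟩
theorem box_lin2 (a b : ℤ) : Box (C a + C b * X 2) (0, 0, 1) :=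
  ⟨by simpa using degreeOf_lin_le a b 2 0, by simpa using degreeOf_lin_le a b 2 1,
    by simpa using degreeOf_lin_le a b 2 2⟩

theorem box_hv (I J K : Iv) (e : E3) : Box (hv (ringOps _) (spt I J K) e).1 (dg e) := by
  induction e with
  | c n =>
    show Box ((n : ℤ) : MvPolynomial (Fin 3) ℤ) _
    have : ((n : ℤ) : MvPolynomial (Fin 3) ℤ) = C n := by simp
    rw [this]; exact box_C n _
  | x => exact box_lin0 _ _
  | y => exact box_lin1 _ _
  | z => exact box_lin2 _ _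
  | add a b iha ihb =>
    simp only [hv, Ops.hadd, Ops.lift, hv_deg]
    have e1 : (dg (E3.add a b)) = (max (dg a).1 (dg b).1, max (dg a).2.1 (dg b).2.1,
      max (dg a).2.2 (dg b).2.2) := rfl
    rw [e1]
    have hx := box_lin0 (I.D : ℤ) (I.D : ℤ)
    have hy := box_lin1 (J.D : ℤ) (J.D : ℤ)
    have hz := box_lin2 (K.D : ℤ) (K.D : ℤ)
    refine Box.add (Box.mono (((iha.mul (hx.pow _)).mul (hy.pow _)).mul (hz.pow _)) ?_ ?_ ?_)
      (Box.mono (((ihb.mul (hx.pow _)).mul (hy.pow _)).mul (hz.pow _)) ?_ ?_ ?_) <;>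
    simp <;> omega
  | mul a b iha ihb => exact iha.mul ihb
  | pow a n iha => exact iha.pow n

/-! ### Kronecker value -/

/-- exponent vector with number `t` -/
noncomputable def psi (m₁ m₂ t : ℕ) : Fin 3 →₀ ℕ :=
  Finsupp.equivFunOnFinite.symm ![t % m₁, t / m₁ % m₂, t / (m₁ * m₂)]

/-- number of the exponent vector -/
def phi (m₁ m₂ : ℕ) (d : Fin 3 →₀ ℕ) : ℕ := d 0 + m₁ * d 1 + m₁ * m₂ * d 2

theorem phi_psi (m₁ m₂ t : ℕ) : phi m₁ m₂ (psi m₁ m₂ t) = t := by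
  simp only [phi, psi, Finsupp.equivFunOnFinite_symm_apply_apply]
  simp only [Matrix.cons_val_zero, Matrix.cons_val_one, Matrix.cons_val]
  have h1 := Nat.mod_add_div t m₁
  have h2 := Nat.mod_add_div (t / m₁) m₂
  rw [Nat.div_div_eq_div_mul] at h2
  calc t % m₁ + m₁ * (t / m₁ % m₂) + m₁ * m₂ * (t / (m₁ * m₂))
      = t % m₁ + m₁ * (t / m₁ % m₂ + m₂ * (t / (m₁ * m₂))) := by ring
    _ = t := by rw [h2, h1]

theorem psi_phi (m₁ m₂ : ℕ) (d : Fin 3 →₀ ℕ) (h0 : d 0 < m₁) (h1 : d 1 < m₂) :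
    psi m₁ m₂ (phi m₁ m₂ d) = d := by
  have hm₁ : 0 < m₁ := by omega
  have hm₂ : 0 < m₂ := by omega
  have e : phi m₁ m₂ d = d 0 + m₁ * (d 1 + m₂ * d 2) := by unfold phi; ring
  have e1 : phi m₁ m₂ d % m₁ = d 0 := by
    rw [e, Nat.add_mul_mod_self_left, Nat.mod_eq_of_lt h0]
  have e2 : phi m₁ m₂ d / m₁ = d 1 + m₂ * d 2 := by
    rw [e, Nat.add_mul_div_left _ _ hm₁, Nat.div_eq_of_lt h0, zero_add]
  have e3 : phi m₁ m₂ d / m₁ % m₂ = d 1 := by
    rw [e2, Nat.add_mul_mod_self_left, Nat.mod_eq_of_lt h1]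
  have e4 : phi m₁ m₂ d / (m₁ * m₂) = d 2 := by
    rw [← Nat.div_div_eq_div_mul, e2, Nat.add_mul_div_left _ _ hm₂, Nat.div_eq_of_lt h1, zero_add]
  ext i
  simp only [psi, Finsupp.equivFunOnFinite_symm_apply_apply]
  fin_cases i
  · simpa using e1
  · simpa using e3
  · simpa using e4

theorem kron_eval (p : MvPolynomial (Fin 3) ℤ) (X : ℤ) (d : ℕ × ℕ × ℕ) (hp : Box p d) :
    MvPolynomial.eval ![X, X ^ (d.1 + 1), X ^ ((d.1 + 1) * (d.2.1 + 1))] p =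
      ∑ t ∈ range ((d.1 + 1) * (d.2.1 + 1) * (d.2.2 + 1)),
        MvPolynomial.coeff (psi (d.1 + 1) (d.2.1 + 1) t) p * X ^ t := by
  classical
  set m₁ := d.1 + 1
  set m₂ := d.2.1 + 1
  set m₃ := d.2.2 + 1
  rw [MvPolynomial.eval_eq']
  have hbox : ∀ n ∈ p.support, n 0 < m₁ ∧ n 1 < m₂ ∧ n 2 < m₃ := by
    intro n hn
    have h0 := (degreeOf_le_iff.1 hp.1) n hn
    have h1 := (degreeOf_le_iff.1 hp.2.1) n hn
    have h2 := (degreeOf_le_iff.1 hp.2.2) n hn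
    exact ⟨Nat.lt_succ_of_le h0, Nat.lt_succ_of_le h1, Nat.lt_succ_of_le h2⟩
  have hinj : Set.InjOn (psi m₁ m₂) (range (m₁ * m₂ * m₃) : Set ℕ) := by
    intro a _ b _ h
    have := congrArg (phi m₁ m₂) h
    rwa [phi_psi, phi_psi] at this
  have h1 : ∑ t ∈ range (m₁ * m₂ * m₃), MvPolynomial.coeff (psi m₁ m₂ t) p * X ^ t =
      ∑ n ∈ (range (m₁ * m₂ * m₃)).image (psi m₁ m₂),
        MvPolynomial.coeff n p * ∏ i, ![X, X ^ m₁, X ^ (m₁ * m₂)] i ^ n i := by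
    rw [sum_image hinj]
    refine sum_congr rfl fun t _ => ?_
    congr 1
    rw [Fin.prod_univ_three]
    simp only [Matrix.cons_val_zero, Matrix.cons_val_one, Matrix.cons_val]
    rw [← pow_mul, ← pow_mul, ← pow_add, ← pow_add]
    congr 1
    exact (phi_psi m₁ m₂ t).symm
  rw [h1]
  refine sum_subset ?_ ?_
  · intro n hn
    obtain ⟨h0, h1, h2⟩ := hbox n hn
    refine mem_image.2 ⟨phi m₁ m₂ n, mem_range.2 ?_, psi_phi m₁ m₂ n h0 h1⟩
    unfold phi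
    calc n 0 + m₁ * n 1 + m₁ * m₂ * n 2 < m₁ + m₁ * n 1 + m₁ * m₂ * n 2 := by omega
      _ = m₁ * (n 1 + 1) + m₁ * m₂ * n 2 := by ring
      _ ≤ m₁ * m₂ + m₁ * m₂ * n 2 := Nat.add_le_add_right (Nat.mul_le_mul_left _ h1) _
      _ = m₁ * m₂ * (n 2 + 1) := by ring
      _ ≤ m₁ * m₂ * m₃ := Nat.mul_le_mul_left _ h2
  · intro n _ hn
    rw [notMem_support_iff.1 hn, zero_mul]

/-- all coefficients of the numerator are nonnegative -/
theorem coeff_nonneg_of_kr {e : E3} {I J K : Iv} {k : ℕ} (h : kr e I J K k = true) (n : Fin 3 →₀ ℕ) :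
    0 ≤ MvPolynomial.coeff n (hv (ringOps _) (spt I J K) e).1 := by
  simp only [kr, Bool.and_eq_true, Nat.ble_eq, decide_eq_true_eq] at h
  obtain ⟨⟨⟨⟨⟨⟨⟨⟨hD1, hD2⟩, hD3⟩, hk⟩, hC1⟩, hC2⟩, hC3⟩, hB⟩, hN⟩ := h
  set p := (hv (ringOps _) (spt I J K) e).1 with hp
  have hbox : Box p (dg e) := box_hv I J K e
  -- bound of the coefficients
  have hbd : ∀ n, |MvPolynomial.coeff n p| < 2 ^ (k - 1) := by
    intro n
    have h1 := hv_maj (maj_pt I J K) e n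
    have h2 := coeff_le_eval_one (hv hatOps (hpt I J K) e).1 n
    rw [← hv_nat, apt_eq] at h2
    have h3 : MvPolynomial.coeff n (hv hatOps (hpt I J K) e).1 < 2 ^ (k - 1) :=
      lt_of_le_of_lt h2 (Nat.lt_of_succ_le hB)
    calc |MvPolynomial.coeff n p| ≤ ((MvPolynomial.coeff n (hv hatOps (hpt I J K) e).1 : ℕ) : ℤ) := h1
      _ < ((2 ^ (k - 1) : ℕ) : ℤ) := by exact_mod_cast h3
      _ = 2 ^ (k - 1) := by push_cast; ring
  by_cases hn : n ∈ p.support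
  · have h0 := (degreeOf_le_iff.1 hbox.1) n hn
    have h1 := (degreeOf_le_iff.1 hbox.2.1) n hn
    have h2 := (degreeOf_le_iff.1 hbox.2.2) n hn
    set m₁ := (dg e).1 + 1
    set m₂ := (dg e).2.1 + 1
    set m₃ := (dg e).2.2 + 1
    -- the big integer
    have hK : (hv intOps (kpt I J K (2 ^ k) (2 ^ (k * m₁)) (2 ^ (k * (m₁ * m₂)))) e).1 =
        MvPolynomial.eval ![(2 : ℤ) ^ k, (2 ^ k) ^ m₁, (2 ^ k) ^ (m₁ * m₂)] p := by
      rw [intOps_eq, ← kpt_eq, hv_map]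
      have : (![((2 ^ k : ℕ) : ℤ), ((2 ^ (k * m₁) : ℕ) : ℤ), ((2 ^ (k * (m₁ * m₂)) : ℕ) : ℤ)] : Fin 3 → ℤ)
          = ![(2 : ℤ) ^ k, (2 ^ k) ^ m₁, (2 ^ k) ^ (m₁ * m₂)] := by
        push_cast
        rw [pow_mul, pow_mul (2 : ℤ) k (m₁ * m₂)]
      rw [this]
    rw [hK, kron_eval p (2 ^ k) (dg e) hbox] at hN
    cases hc : (∑ t ∈ range (m₁ * m₂ * m₃), MvPolynomial.coeff (psi m₁ m₂ t) p * ((2 : ℤ) ^ k) ^ t) with
    | ofNat N =>
      rw [hc] at hN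
      have h3 := coeff_nonneg (by omega) hN (fun t => MvPolynomial.coeff (psi m₁ m₂ t) p)
        (fun t _ => hbd _) hc.symm
      have h4 : phi m₁ m₂ n < m₁ * m₂ * m₃ := by
        unfold phi
        calc n 0 + m₁ * n 1 + m₁ * m₂ * n 2 < m₁ + m₁ * n 1 + m₁ * m₂ * n 2 := by omega
          _ = m₁ * (n 1 + 1) + m₁ * m₂ * n 2 := by ring
          _ ≤ m₁ * m₂ + m₁ * m₂ * n 2 := Nat.add_le_add_right (Nat.mul_le_mul_left _ (by omega)) _
          _ = m₁ * m₂ * (n 2 + 1) := by ring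
          _ ≤ m₁ * m₂ * m₃ := Nat.mul_le_mul_left _ (by omega)
      have h5 := h3 (phi m₁ m₂ n) h4
      rwa [psi_phi m₁ m₂ n (by omega) (by omega)] at h5
    | negSucc N =>
      rw [hc] at hN
      simp [chk] at hN
  · rw [notMem_support_iff.1 hn]

/-- positivity for interior parameters -/
theorem ev_nonneg_aux {e : E3} {I J K : Iv} {k : ℕ} (h : kr e I J K k = true) {u v w : ℝ}
    (hu : 0 ≤ u) (hv' : 0 ≤ v) (hw : 0 ≤ w) :
    0 ≤ e.ev (((I.A + I.C) + I.A * u) / (I.D + I.D * u)) (((J.A + J.C) + J.A * v) / (J.D + J.D * v))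
      (((K.A + K.C) + K.A * w) / (K.D + K.D * w)) := by
  have hcoef := coeff_nonneg_of_kr h
  simp only [kr, Bool.and_eq_true, Nat.ble_eq, decide_eq_true_eq] at h
  obtain ⟨⟨⟨⟨⟨⟨⟨⟨hD1, hD2⟩, hD3⟩, hk⟩, hC1⟩, hC2⟩, hC3⟩, hB⟩, hN⟩ := h
  have hD1' : (0 : ℝ) < I.D := by exact_mod_cast hD1
  have hD2' : (0 : ℝ) < J.D := by exact_mod_cast hD2
  have hD3' : (0 : ℝ) < K.D := by exact_mod_cast hD3
  set p := (hv (ringOps _) (spt I J K) e).1 with hp
  let φ : MvPolynomial (Fin 3) ℤ →+* ℝ := MvPolynomial.eval₂Hom (Int.castRingHom ℝ) ![u, v, w]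
  have hφ : 0 ≤ φ p := by
    show 0 ≤ MvPolynomial.eval₂ (Int.castRingHom ℝ) ![u, v, w] p
    rw [MvPolynomial.eval₂_eq']
    refine sum_nonneg fun n _ => mul_nonneg ?_ (prod_nonneg fun i _ => pow_nonneg ?_ _)
    · have := hcoef n
      simp only [eq_intCast]
      exact_mod_cast this
    · fin_cases i
      · exact hu
      · exact hv'
      · exact hw
  have h1 := hv_map φ (spt I J K) e
  have h2 : (spt I J K).map φ = ⟨(I.A + I.C) + I.A * u, I.D + I.D * u, (J.A + J.C) + J.A * v,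
      J.D + J.D * v, (K.A + K.C) + K.A * w, K.D + K.D * w⟩ := by
    have hC : ∀ a : ℤ, φ (MvPolynomial.C a) = a := by
      intro a
      show MvPolynomial.eval₂ (Int.castRingHom ℝ) ![u, v, w] (MvPolynomial.C a) = a
      rw [MvPolynomial.eval₂_C, eq_intCast]
    have hX : ∀ i, φ (MvPolynomial.X i) = ![u, v, w] i := fun i =>
      MvPolynomial.eval₂_X (Int.castRingHom ℝ) ![u, v, w] i
    simp only [spt, Pt.map, numP, denP, map_add φ, map_mul φ, hC, hX, Int.cast_add, Int.cast_natCast,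
      Matrix.cons_val_zero, Matrix.cons_val_one, Matrix.cons_val]
  rw [h2] at h1
  have d1 : (0 : ℝ) < I.D + I.D * u := by positivity
  have d2 : (0 : ℝ) < J.D + J.D * v := by positivity
  have d3 : (0 : ℝ) < K.D + K.D * w := by positivity
  have h3 := hv_real ⟨(I.A + I.C) + I.A * u, I.D + I.D * u, (J.A + J.C) + J.A * v,
      J.D + J.D * v, (K.A + K.C) + K.A * w, K.D + K.D * w⟩ d1.ne' d2.ne' d3.ne' e
  rw [h1] at h3
  simp only at h3
  rw [h3] at hφ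
  have h4 : 0 < ((I.D : ℝ) + I.D * u) ^ (dg e).1 := pow_pos d1 _
  have h5 : 0 < ((J.D : ℝ) + J.D * v) ^ (dg e).2.1 := pow_pos d2 _
  have h6 : 0 < ((K.D : ℝ) + K.D * w) ^ (dg e).2.2 := pow_pos d3 _
  exact nonneg_of_mul_nonneg_left (nonneg_of_mul_nonneg_left (nonneg_of_mul_nonneg_left hφ h6) h5) h4

theorem continuous_ev (e : E3) {f g h : ℝ → ℝ} (hf : Continuous f) (hg : Continuous g)
    (hh : Continuous h) : Continuous fun t => e.ev (f t) (g t) (h t) := by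
  induction e with
  | c n => exact continuous_const
  | x => exact hf
  | y => exact hg
  | z => exact hh
  | add a b iha ihb => exact iha.add ihb
  | mul a b iha ihb => exact iha.mul ihb
  | pow a n iha => exact iha.pow n

/-- point of a half-open interval as a value of the substitution -/
theorem exists_param {I : Iv} (hD : 0 < I.D) (hC : 0 < I.C) {x : ℝ} (h0 : (I.A : ℝ) / I.D < x)
    (h1 : x ≤ ((I.A : ℝ) + I.C) / I.D) :
    ∃ u : ℝ, 0 ≤ u ∧ x = ((I.A + I.C) + I.A * u) / (I.D + I.D * u) := by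
  have hD' : (0 : ℝ) < I.D := by exact_mod_cast hD
  have hC' : (0 : ℝ) < I.C := by exact_mod_cast hC
  rw [div_lt_iff₀ hD'] at h0
  rw [le_div_iff₀ hD'] at h1
  refine ⟨(I.A + I.C - x * I.D) / (x * I.D - I.A), div_nonneg (by linarith) (by linarith), ?_⟩
  have h2 : x * I.D - I.A ≠ 0 := by linarith
  have h3 : (I.D : ℝ) + I.D * ((I.A + I.C - x * I.D) / (x * I.D - I.A)) ≠ 0 := by
    have : 0 ≤ (I.A + I.C - x * I.D) / (x * I.D - I.A) := div_nonneg (by linarith) (by linarith)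
    positivity
  rw [eq_div_iff h3]
  field_simp
  ring

/-- **soundness of the Kronecker test** -/
theorem kr_sound {e : E3} {I J K : Iv} {k : ℕ} (h : kr e I J K k = true) {x y z : ℝ}
    (hx : I.mem x) (hy : J.mem y) (hz : K.mem z) : 0 ≤ e.ev x y z := by
  have h' := h
  simp only [kr, Bool.and_eq_true, Nat.ble_eq, decide_eq_true_eq] at h'
  obtain ⟨⟨⟨⟨⟨⟨⟨⟨hD1, hD2⟩, hD3⟩, hk⟩, hC1⟩, hC2⟩, hC3⟩, hB⟩, hN⟩ := h'
  -- approximation from the right end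
  have key : ∀ (L : Iv), 0 < L.D → 0 < L.C → ∀ t, L.mem t → ∀ ε : ℝ, 0 < ε → ε ≤ 1 →
      ∃ u : ℝ, 0 ≤ u ∧ t + ε * (((L.A : ℝ) + L.C) / L.D - t) = ((L.A + L.C) + L.A * u) / (L.D + L.D * u) := by
    intro L hD hC t ht ε hε hε1
    have hD' : (0 : ℝ) < L.D := by exact_mod_cast hD
    have hC' : (0 : ℝ) < L.C := by exact_mod_cast hC
    have hlt : (L.A : ℝ) / L.D < ((L.A : ℝ) + L.C) / L.D := by
      apply div_lt_div_of_pos_right _ hD'; linarith
    refine exists_param hD hC ?_ ?_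
    · nlinarith [ht.1, ht.2]
    · nlinarith [ht.1, ht.2]
  have hcont : Continuous fun ε : ℝ => e.ev (x + ε * (((I.A : ℝ) + I.C) / I.D - x))
      (y + ε * (((J.A : ℝ) + J.C) / J.D - y)) (z + ε * (((K.A : ℝ) + K.C) / K.D - z)) :=
    continuous_ev e (by fun_prop) (by fun_prop) (by fun_prop)
  have hlim := (hcont.tendsto 0).mono_left (nhdsWithin_le_nhds (s := Set.Ioi 0))
  simp only [zero_mul, add_zero] at hlim
  refine ge_of_tendsto hlim ?_
  filter_upwards [Ioc_mem_nhdsGT (show (0 : ℝ) < 1 by norm_num)] with ε hε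
  obtain ⟨u, hu, hxu⟩ := key I hD1 hC1 x hx ε hε.1 hε.2
  obtain ⟨v, hv', hyv⟩ := key J hD2 hC2 y hy ε hε.1 hε.2
  obtain ⟨w, hw, hzw⟩ := key K hD3 hC3 z hz ε hε.1 hε.2
  rw [hxu, hyv, hzw]
  exact ev_nonneg_aux h hu hv' hw

end Crest.Agent.R163.Kr
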