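import Crest.Agent.R163.LgD
import Crest.Agent.R163.KrSound

/-!
# Row 163: `LgD3` : one-dimensional log inequality (piece R163_LG3)

PROOF. `x = p - 1`, `z = 3x/(4+x)`, `(1+z)/(1-z) = 2p/(3-p)`, so `log p - log((3-p)/2) = log(1+z) - log(1-z)`.
Series of `log(1+z)-log(1-z)` with 8 terms, exact division by `x^4`, positivity of the remaining
polynomial `E3p` in Bernstein form on `[0,2]`, resp. `[-1,0]`.
-/

set_option autoImplicit false

namespace Crest.Agent.R163.Lg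

/-- the polynomial `E` -/
noncomputable def E3p (x : ℝ) : ℝ :=
  (8 - x) * (4 + x) ^ 12 / 3 +
    16 / 27 * (1 + x) * (3 ^ 5 / 5 * x * (4 + x) ^ 10 + 3 ^ 7 / 7 * x ^ 3 * (4 + x) ^ 8 +
      3 ^ 9 / 9 * x ^ 5 * (4 + x) ^ 6 + 3 ^ 11 / 11 * x ^ 7 * (4 + x) ^ 4 +
      3 ^ 13 / 13 * x ^ 9 * (4 + x) ^ 2 + 3 ^ 15 / 15 * x ^ 11) -
    (4 + x) ^ 15 * (402 - 81 * x + 149 * x ^ 2 - 85 * x ^ 3 + 43 * x ^ 4) / 10000

set_option maxHeartbeats 1000000 in
lemma E3p_nonneg_pos (s : ℝ) (hs : 0 ≤ s) (hs1 : s ≤ 1) : 0 ≤ E3p (2 * s) := by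
  obtain ⟨t, ht⟩ : ∃ t, t = 1 - s := ⟨_, rfl⟩
  have ht0 : 0 ≤ t := by linarith
  have key : E3p (2 * s) = (2952790016/1875) * s ^ 0 * t ^ 19 + (25769803776/625) * s ^ 1 * t ^ 18 + (312593088512/625) * s ^ 2 * t ^ 17 + (49101609631744/13125) * s ^ 3 * t ^ 16 + (84886304063488/4375) * s ^ 4 * t ^ 15 + (325946460602368/4375) * s ^ 5 * t ^ 14 + (414897422729216/1875) * s ^ 6 * t ^ 13 + (3612353090289664/6875) * s ^ 7 * t ^ 12 + (7038342726156288/6875) * s ^ 8 * t ^ 11 + (13543465653633024/8125) * s ^ 9 * t ^ 10 + (109943641351913472/48125) * s ^ 10 * t ^ 9 + (1638839812879024128/625625) * s ^ 11 * t ^ 8 + (1544206292897366016/625625) * s ^ 12 * t ^ 7 + (166696357860089856/89375) * s ^ 13 * t ^ 6 + (98570716912705536/89375) * s ^ 14 * t ^ 5 + (4067088175632384/8125) * s ^ 15 * t ^ 4 + (15385866985746432/89375) * s ^ 16 * t ^ 3 + (27448871408898048/625625) * s ^ 17 * t ^ 2 + (363569329999872/48125)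 * s ^ 18 * t ^ 1 + (398763304943616/625625) * s ^ 19 * t ^ 0 := by
    unfold E3p
    rw [ht]
    ring
  rw [key]
  positivity

set_option maxHeartbeats 1000000 in
lemma E3p_nonneg_neg (s : ℝ) (hs : 0 ≤ s) (hs1 : s ≤ 1) :
    0 ≤ (2 - -s) * E3p (-s) + 2 / 459 * 3 ^ 17 * (-s) ^ 13 := by
  obtain ⟨t, ht⟩ : ∃ t, t = 1 - s := ⟨_, rfl⟩
  have ht0 : 0 ≤ t := by linarith
  have key : (2 - -s) * E3p (-s) + 2 / 459 * 3 ^ 17 * (-s) ^ 13 = (5905580032/1875) * s ^ 0 * t ^ 20 + (33285996544/625) * s ^ 1 * t ^ 19 + (10536091648/25) * s ^ 2 * t ^ 18 + (5436640067584/2625) * s ^ 3 * t ^ 17 + (30952583593984/4375) * s ^ 4 * t ^ 16 + (77981016915968/4375) * s ^ 5 * t ^ 15 + (64339106332672/1875) * s ^ 6 * t ^ 14 + (71047284064256/1375) * s ^ 7 * t ^ 13 + (85183619825664/1375) * s ^ 8 * t ^ 12 + (5382772684886016/89375) * s ^ 9 * t ^ 11 + (4355090976328704/89375) * s ^ 10 * t ^ 10 + (3058208957332224/89375) *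 s ^ 11 * t ^ 9 + (393637336759872/17875) * s ^ 12 * t ^ 8 + (4086650515568688/303875) * s ^ 13 * t ^ 7 + (11584313783728524/1519375) * s ^ 14 * t ^ 6 + (22842157882907943/6077500) * s ^ 15 * t ^ 5 + (9132579857923983/6077500) * s ^ 16 * t ^ 4 + (15603884201619243/34034000) * s ^ 17 * t ^ 3 + (424887143686263/4254250) * s ^ 18 * t ^ 2 + (1185716182056291/85085000) * s ^ 19 * t ^ 1 + (4032042867/4250) * s ^ 20 * t ^ 0 := by
    unfold E3p
    rw [ht]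
    ring
  rw [key]
  positivity

/-- partial sum -/
noncomputable def S8 (z : ℝ) : ℝ :=
  2 * (z + z ^ 3 / 3 + z ^ 5 / 5 + z ^ 7 / 7 + z ^ 9 / 9 + z ^ 11 / 11 + z ^ 13 / 13 + z ^ 15 / 15)

lemma S8_eq (z : ℝ) : ∑ k ∈ Finset.range 8, (2 : ℝ) * (1 / (2 * (k : ℝ) + 1)) * z ^ (2 * k + 1) = S8 z := by
  unfold S8
  simp only [Finset.sum_range_succ, Finset.sum_range_zero]
  norm_num
  ring

lemma log_ge {z : ℝ} (h0 : 0 ≤ z) (h1 : z < 1) : S8 z ≤ Real.log (1 + z) - Real.log (1 - z) := by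
  have h := Real.hasSum_log_sub_log_of_abs_lt_one (abs_lt.2 ⟨by linarith, h1⟩)
  rw [← S8_eq]
  refine sum_le_hasSum _ (fun k _ => ?_) h
  positivity

lemma log_le {z : ℝ} (h0 : 0 ≤ z) (h1 : z < 1) :
    Real.log (1 + z) - Real.log (1 - z) ≤ S8 z + 2 * z ^ 17 / (17 * (1 - z ^ 2)) := by
  have h := Real.hasSum_log_sub_log_of_abs_lt_one (abs_lt.2 ⟨by linarith, h1⟩)
  have h' := (hasSum_nat_add_iff' 8).2 h
  rw [S8_eq] at h'
  have hz2 : z ^ 2 < 1 := by nlinarith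
  have hg := (hasSum_geometric_of_lt_one (sq_nonneg z) hz2).mul_left (2 / 17 * z ^ 17)
  have hle := hasSum_le (fun k => ?_) h' hg
  · have e : 2 / 17 * z ^ 17 * (1 - z ^ 2)⁻¹ = 2 * z ^ 17 / (17 * (1 - z ^ 2)) := by
      have : (1 - z ^ 2) ≠ 0 := by linarith
      field_simp
    rw [e] at hle
    linarith
  · show (2 : ℝ) * (1 / (2 * ((k + 8 : ℕ) : ℝ) + 1)) * z ^ (2 * (k + 8) + 1) ≤
      2 / 17 * z ^ 17 * (z ^ 2) ^ k
    have e2 : z ^ (2 * (k + 8) + 1) = z ^ 17 * (z ^ 2) ^ k := by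
      rw [← pow_mul, ← pow_add]
      congr 1
      ring
    rw [e2]
    have h3 : (2 : ℝ) * (1 / (2 * ((k + 8 : ℕ) : ℝ) + 1)) ≤ 2 / 17 := by
      rw [mul_one_div]
      apply div_le_div_of_nonneg_left (by norm_num) (by norm_num)
      push_cast
      have : (0 : ℝ) ≤ k := Nat.cast_nonneg k
      linarith
    have h4 : 0 ≤ z ^ 17 * (z ^ 2) ^ k := by positivity
    calc _ ≤ 2 / 17 * (z ^ 17 * (z ^ 2) ^ k) := mul_le_mul_of_nonneg_right h3 h4
      _ = _ := by ring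

theorem log_Q {p : ℝ} (h0 : 0 < p) (h3 : p < 3) :
    4 / 9 * (p - 1) + (p - 1) ^ 2 / 3 + Qp (p - 1) ≤
      8 / 27 * (p * (Real.log p - Real.log ((3 - p) / 2))) := by
  obtain ⟨x, rfl⟩ : ∃ x, p = 1 + x := ⟨p - 1, by ring⟩
  have e1 : 1 + x - 1 = x := by ring
  rw [e1]
  have hx1 : -1 < x := by linarith
  have hx2 : x < 2 := by linarith
  have hD : 0 < 4 + x := by linarith
  obtain ⟨z, hz⟩ : ∃ z, z = 3 * x / (4 + x) := ⟨_, rfl⟩
  have hzD : z * (4 + x) = 3 * x := by rw [hz]; field_simp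
  have hz1 : z < 1 := by rw [hz, div_lt_one hD]; linarith
  have hz2 : -1 < z := by rw [hz, lt_div_iff₀ hD]; linarith
  have hc : (0 : ℝ) < 4 / (4 + x) := by positivity
  have ea : 1 + z = (1 + x) * (4 / (4 + x)) := by
    rw [hz]; field_simp; ring
  have eb : 1 - z = (3 - (1 + x)) / 2 * (4 / (4 + x)) := by
    rw [hz]; field_simp; ring
  have elog : Real.log (1 + z) - Real.log (1 - z) =
      Real.log (1 + x) - Real.log ((3 - (1 + x)) / 2) := by
    rw [ea, eb, Real.log_mul (by linarith) hc.ne', Real.log_mul (by linarith) hc.ne']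
    ring
  rw [← elog]
  -- exact identity
  have hid : (4 + x) ^ 15 * (8 / 27 * ((1 + x) * S8 z) - (4 / 9 * x + x ^ 2 / 3 + Qp x)) =
      x ^ 4 * E3p x := by
    have g1 : (4 + x) ^ 15 * z = (3 * x) * (4 + x) ^ 14 := by rw [← hzD]; ring
    have g3 : (4 + x) ^ 15 * z ^ 3 = (3 * x) ^ 3 * (4 + x) ^ 12 := by rw [← hzD]; ring
    have g5 : (4 + x) ^ 15 * z ^ 5 = (3 * x) ^ 5 * (4 + x) ^ 10 := by rw [← hzD]; ring
    have g7 : (4 + x) ^ 15 * z ^ 7 = (3 * x) ^ 7 * (4 + x) ^ 8 := by rw [← hzD]; ring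
    have g9 : (4 + x) ^ 15 * z ^ 9 = (3 * x) ^ 9 * (4 + x) ^ 6 := by rw [← hzD]; ring
    have g11 : (4 + x) ^ 15 * z ^ 11 = (3 * x) ^ 11 * (4 + x) ^ 4 := by rw [← hzD]; ring
    have g13 : (4 + x) ^ 15 * z ^ 13 = (3 * x) ^ 13 * (4 + x) ^ 2 := by rw [← hzD]; ring
    have g15 : (4 + x) ^ 15 * z ^ 15 = (3 * x) ^ 15 := by rw [← hzD]; ring
    have e5 : (4 + x) ^ 15 * (8 / 27 * ((1 + x) * S8 z) - (4 / 9 * x + x ^ 2 / 3 + Qp x)) =
        16 / 27 * (1 + x) * ((4 + x) ^ 15 * z + (4 + x) ^ 15 * z ^ 3 / 3 + (4 + x) ^ 15 * z ^ 5 / 5 +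
          (4 + x) ^ 15 * z ^ 7 / 7 + (4 + x) ^ 15 * z ^ 9 / 9 + (4 + x) ^ 15 * z ^ 11 / 11 +
          (4 + x) ^ 15 * z ^ 13 / 13 + (4 + x) ^ 15 * z ^ 15 / 15) -
        (4 + x) ^ 15 * (4 / 9 * x + x ^ 2 / 3 + Qp x) := by
      unfold S8
      ring
    rw [e5, g1, g3, g5, g7, g9, g11, g13, g15]
    unfold E3p Qp
    ring
  have hD15 : 0 < (4 + x) ^ 15 := by positivity
  rcases le_total 0 x with hx | hx
  · have hz0 : 0 ≤ z := by rw [hz]; positivity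
    have hl := log_ge hz0 hz1
    have hE : 0 ≤ E3p x := by
      have := E3p_nonneg_pos (x / 2) (by linarith) (by linarith)
      rwa [show 2 * (x / 2) = x by ring] at this
    have h5 : 0 ≤ 8 / 27 * ((1 + x) * S8 z) - (4 / 9 * x + x ^ 2 / 3 + Qp x) := by
      by_contra hneg
      push_neg at hneg
      have h6 := mul_neg_of_pos_of_neg hD15 hneg
      rw [hid] at h6
      have h7 : 0 ≤ x ^ 4 * E3p x := by positivity
      linarith
    have h8 : (1 + x) * S8 z ≤ (1 + x) * (Real.log (1 + z) - Real.log (1 - z)) :=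
      mul_le_mul_of_nonneg_left hl (by linarith)
    linarith
  · have hz0 : 0 ≤ -z := by
      have : z ≤ 0 := by rw [hz]; exact div_nonpos_of_nonpos_of_nonneg (by linarith) hD.le
      linarith
    have hl := log_le hz0 (by linarith)
    have eS : S8 (-z) = -S8 z := by unfold S8; ring
    rw [eS] at hl
    have hl2 : S8 z + 2 * z ^ 17 / (17 * (1 - z ^ 2)) ≤ Real.log (1 + z) - Real.log (1 - z) := by
      have e6 : 2 * (-z) ^ 17 / (17 * (1 - (-z) ^ 2)) = -(2 * z ^ 17 / (17 * (1 - z ^ 2))) := by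
        rw [neg_sq, ← neg_div]
        congr 1
        ring
      rw [e6] at hl
      have e7 : 1 - -z = 1 + z := by ring
      have e8 : 1 + -z = 1 - z := by ring
      rw [e7, e8] at hl
      linarith
    have hE := E3p_nonneg_neg (-x) (by linarith) (by linarith)
    rw [neg_neg] at hE
    have h2x : 0 < 2 - x := by linarith
    have h1x : 0 < 1 + x := by linarith
    have h1z : 0 < 1 - z ^ 2 := by nlinarith
    -- tail term
    have e9 : (1 - z ^ 2) * (4 + x) ^ 2 = 8 * ((2 - x) * (1 + x)) := by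
      have : (1 - z ^ 2) * (4 + x) ^ 2 = (4 + x) ^ 2 - (z * (4 + x)) ^ 2 := by ring
      rw [this, hzD]
      ring
    have e10 : (4 + x) ^ 15 * (8 / 27 * ((1 + x) * (2 * z ^ 17 / (17 * (1 - z ^ 2))))) * (2 - x) =
        x ^ 4 * (2 / 459 * 3 ^ 17 * x ^ 13) := by
      have e11 : (4 + x) ^ 15 * (8 / 27 * ((1 + x) * (2 * z ^ 17 / (17 * (1 - z ^ 2))))) * (2 - x) =
          2 / 459 * ((4 + x) ^ 15 * z ^ 17) * (8 * ((2 - x) * (1 + x))) / (1 - z ^ 2) := by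
        field_simp
        ring
      rw [e11, ← e9]
      have e12 : 2 / 459 * ((4 + x) ^ 15 * z ^ 17) * ((1 - z ^ 2) * (4 + x) ^ 2) / (1 - z ^ 2) =
          2 / 459 * (z * (4 + x)) ^ 17 := by
        field_simp
      rw [e12, hzD]
      ring
    have h5 : 0 ≤ 8 / 27 * ((1 + x) * S8 z) - (4 / 9 * x + x ^ 2 / 3 + Qp x) +
        8 / 27 * ((1 + x) * (2 * z ^ 17 / (17 * (1 - z ^ 2)))) := by
      by_contra hneg
      push_neg at hneg
      have h6 := mul_neg_of_pos_of_neg (mul_pos hD15 h2x) hneg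
      have h7 : (4 + x) ^ 15 * (2 - x) * (8 / 27 * ((1 + x) * S8 z) - (4 / 9 * x + x ^ 2 / 3 + Qp x) +
          8 / 27 * ((1 + x) * (2 * z ^ 17 / (17 * (1 - z ^ 2))))) =
          x ^ 4 * ((2 - x) * E3p x + 2 / 459 * 3 ^ 17 * x ^ 13) := by
        have : (4 + x) ^ 15 * (2 - x) * (8 / 27 * ((1 + x) * S8 z) -
            (4 / 9 * x + x ^ 2 / 3 + Qp x) + 8 / 27 * ((1 + x) * (2 * z ^ 17 / (17 * (1 - z ^ 2))))) =
            (2 - x) * ((4 + x) ^ 15 * (8 / 27 * ((1 + x) * S8 z) -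
              (4 / 9 * x + x ^ 2 / 3 + Qp x))) +
            (4 + x) ^ 15 * (8 / 27 * ((1 + x) * (2 * z ^ 17 / (17 * (1 - z ^ 2))))) * (2 - x) := by
          ring
        rw [this, hid, e10]
        ring
      rw [h7] at h6
      have h8 : 0 ≤ x ^ 4 * ((2 - x) * E3p x + 2 / 459 * 3 ^ 17 * x ^ 13) := by
        apply mul_nonneg (by positivity)
        exact hE
      linarith
    have h9 : (1 + x) * (S8 z + 2 * z ^ 17 / (17 * (1 - z ^ 2))) ≤
        (1 + x) * (Real.log (1 + z) - Real.log (1 - z)) := mul_le_mul_of_nonneg_left hl2 h1x.le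
    have h10 : 8 / 27 * ((1 + x) * S8 z) + 8 / 27 * ((1 + x) * (2 * z ^ 17 / (17 * (1 - z ^ 2)))) =
        8 / 27 * ((1 + x) * (S8 z + 2 * z ^ 17 / (17 * (1 - z ^ 2)))) := by ring
    linarith

end Crest.Agent.R163.Lg
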