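import Crest.Agent.R163.LgD
import Crest.Agent.R163.KrSound

/-!
# Row 163: `LgD4` : `∑ p t^4 / 3 ≤ U(m, κ)` (piece R163_LG4)

PROOF. WLOG `p ≥ q ≥ r` (everything is symmetric). With `c = 1 - r ∈ [0,1)`: `p-1 = c e1`, `q-1 = c e2`, `r-1 = c e3`,
`e = (2-3ρ, 3ρ-1, -1)`, `ρ ∈ [0,1/2]` (`ρ = ((q-1)/c + 1)/3`; `c = 0` trivial: both sides 0).
`m = c^2 A`, `A = 2-6ρ+6ρ^2`; `κ = c^3 B`, `B = -(2-3ρ)(3ρ-1)`; `p + q = 2 - (r-1)` etc., differences
`q-r = 3ρ c`, `p-r = 3(1-ρ)c`, `p-q = 3(1-2ρ)c`. So the claim, divided by `c^4`, is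
`F := U' g1^4 g2^4 g3^4 - 27 [ (1+c e1) ρ^4 g2^4 g3^4 + (1+c e2)(1-ρ)^4 g1^4 g3^4 + (1+c e3)(1-2ρ)^4 g1^4 g2^4 ] ≥ 0`,
`g_k = 2 - c e_k`, `U' = (1288 A^2 - 3825 c A B + 1657 c^2 A^3 + 40 c^2 B^2)/1000`.
Numerically checked (Bernstein, `Kr.kr_sound`, variables x = c, y = ρ; x in one of the boxes):
`F ≥ 0` on the boxes  c∈[0,7/16]×ρ∈[0,1/2];  c∈[7/16,7/8]×[0,1/2];  c∈[7/8,1]×[1/16,9/32];  c∈[7/8,1]×[9/32,1/2];
c∈[7/8,15/16]×[0,1/16]; corner c∈[15/16,1], ρ∈[0,1/16]: there `∑ p t^4/3 ≤ ∑ p /3 = 1 ≤ c^4 U'`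
(`t^2 ≤ 1`; `c^4 U' - 1 ≥ 0` : one box).
-/

set_option autoImplicit false

namespace Crest.Agent.R163.Lg

open Crest.Agent.R163.Kr

private def sE (a b : E3) : E3 := .add a (.mul (.c (-1)) b)
private def e1E : E3 := .add (.c 2) (.mul (.c (-3)) .y)
private def e2E : E3 := .add (.c (-1)) (.mul (.c 3) .y)
private def g1E : E3 := sE (.c 2) (.mul .x e1E)
private def g2E : E3 := sE (.c 2) (.mul .x e2E)
private def g3E : E3 := .add (.c 2) .x
private def AE : E3 := .add (.c 2) (.add (.mul (.c (-6)) .y) (.mul (.c 6) (.pow .y 2)))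
private def BE : E3 := .mul (.c (-1)) (.mul e1E e2E)
private def UE : E3 := .add (.mul (.c 1288) (.pow AE 2)) (.add (.mul (.c (-3825)) (.mul .x (.mul AE BE)))
  (.add (.mul (.c 1657) (.mul (.pow .x 2) (.pow AE 3))) (.mul (.c 40) (.mul (.pow .x 2) (.pow BE 2)))))
private def WE : E3 :=
  .add (.mul (.add (.c 1) (.mul .x e1E)) (.mul (.pow .y 4) (.mul (.pow g2E 4) (.pow g3E 4))))
  (.add (.mul (.add (.c 1) (.mul .x e2E)) (.mul (.pow (sE (.c 1) .y) 4) (.mul (.pow g1E 4) (.pow g3E 4))))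
   (.mul (sE (.c 1) .x) (.mul (.pow (sE (.c 1) (.mul (.c 2) .y)) 4) (.mul (.pow g1E 4) (.pow g2E 4)))))
private def FE : E3 :=
  .add (.mul UE (.mul (.pow g1E 4) (.mul (.pow g2E 4) (.pow g3E 4)))) (.mul (.c (-27000)) WE)
private def CE : E3 := .add (.mul (.pow .x 4) UE) (.c (-1000))

private theorem k1 : kr FE ⟨0,7,16⟩ ⟨0,1,2⟩ ⟨0,1,1⟩ 400 = true := by decide +kernel
private theorem k2 : kr FE ⟨7,7,16⟩ ⟨0,1,2⟩ ⟨0,1,1⟩ 400 = true := by decide +kernel
private theorem k3 : kr FE ⟨7,1,8⟩ ⟨2,7,32⟩ ⟨0,1,1⟩ 400 = true := by decide +kernel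
private theorem k4 : kr FE ⟨7,1,8⟩ ⟨9,7,32⟩ ⟨0,1,1⟩ 400 = true := by decide +kernel
private theorem k5 : kr FE ⟨14,1,16⟩ ⟨0,1,16⟩ ⟨0,1,1⟩ 400 = true := by decide +kernel
private theorem k6 : kr CE ⟨15,1,16⟩ ⟨0,1,16⟩ ⟨0,1,1⟩ 400 = true := by decide +kernel

private theorem F_ev {x y : ℝ} (hx0 : 0 ≤ x) (hx1 : x ≤ 1) (hy0 : 0 ≤ y) (hy1 : y ≤ 1 / 2)
    (h : x ≤ 15 / 16 ∨ 1 / 16 ≤ y) : 0 ≤ FE.ev x y 0 := by
  have hz : Iv.mem ⟨0,1,1⟩ (0 : ℝ) := by constructor <;> norm_num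
  by_cases h1 : x ≤ 7 / 16
  · exact kr_sound k1 (by constructor <;> norm_num <;> linarith) (by constructor <;> norm_num <;> linarith) hz
  push Not at h1
  by_cases h2 : x ≤ 7 / 8
  · exact kr_sound k2 (by constructor <;> norm_num <;> linarith) (by constructor <;> norm_num <;> linarith) hz
  push Not at h2
  by_cases h3 : y ≤ 1 / 16
  · have h4 : x ≤ 15 / 16 ∨ y = 1 / 16 := by
      rcases h with h | h
      · exact Or.inl h
      · exact Or.inr (le_antisymm h3 h)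
    rcases h4 with h4 | h4
    · exact kr_sound k5 (by constructor <;> norm_num <;> linarith) (by constructor <;> norm_num <;> linarith) hz
    · exact kr_sound k3 (by constructor <;> norm_num <;> linarith) (by constructor <;> norm_num <;> linarith) hz
  push Not at h3
  by_cases h4 : y ≤ 9 / 32
  · exact kr_sound k3 (by constructor <;> norm_num <;> linarith) (by constructor <;> norm_num <;> linarith) hz
  · push Not at h4
    exact kr_sound k4 (by constructor <;> norm_num <;> linarith) (by constructor <;> norm_num <;> linarith) hz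

private theorem C_ev {x y : ℝ} (hx0 : 15 / 16 ≤ x) (hx1 : x ≤ 1) (hy0 : 0 ≤ y) (hy1 : y ≤ 1 / 16) :
    0 ≤ CE.ev x y 0 := by
  have hz : Iv.mem ⟨0,1,1⟩ (0 : ℝ) := by constructor <;> norm_num
  exact kr_sound k6 (by constructor <;> norm_num <;> linarith) (by constructor <;> norm_num <;> linarith) hz

/-- `1000 U'` -/
private noncomputable def UU (c y : ℝ) : ℝ :=
  1288 * (2 - 6 * y + 6 * y ^ 2) ^ 2 - 3825 * c * (2 - 6 * y + 6 * y ^ 2) * (-((2 - 3 * y) * (3 * y - 1))) +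
    1657 * c ^ 2 * (2 - 6 * y + 6 * y ^ 2) ^ 3 + 40 * c ^ 2 * (-((2 - 3 * y) * (3 * y - 1))) ^ 2

private theorem CE_eq (c y : ℝ) : CE.ev c y 0 = c ^ 4 * UU c y - 1000 := by
  simp only [CE, UE, AE, BE, e1E, e2E, E3.ev, UU]
  push_cast
  ring

private theorem FE_eq (c y : ℝ) : FE.ev c y 0 =
    UU c y * ((2 - c * (2 - 3 * y)) ^ 4 * (2 - c * (3 * y - 1)) ^ 4 * (2 + c) ^ 4) -
      27000 * ((1 + c * (2 - 3 * y)) * y ^ 4 * ((2 - c * (3 * y - 1)) ^ 4 * (2 + c) ^ 4) +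
        (1 + c * (3 * y - 1)) * (1 - y) ^ 4 * ((2 - c * (2 - 3 * y)) ^ 4 * (2 + c) ^ 4) +
        (1 - c) * (1 - 2 * y) ^ 4 * ((2 - c * (2 - 3 * y)) ^ 4 * (2 - c * (3 * y - 1)) ^ 4)) := by
  have e1 : UE.ev c y 0 = UU c y := by
    simp only [UE, AE, BE, e1E, e2E, E3.ev, UU]
    push_cast
    ring
  have e2 : g1E.ev c y 0 = 2 - c * (2 - 3 * y) := by
    simp only [g1E, sE, e1E, E3.ev]; push_cast; ring
  have e3 : g2E.ev c y 0 = 2 - c * (3 * y - 1) := by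
    simp only [g2E, sE, e2E, E3.ev]; push_cast; ring
  have e4 : g3E.ev c y 0 = 2 + c := by
    simp only [g3E, E3.ev]; push_cast; ring
  have e5 : WE.ev c y 0 = (1 + c * (2 - 3 * y)) * y ^ 4 * ((2 - c * (3 * y - 1)) ^ 4 * (2 + c) ^ 4) +
        (1 + c * (3 * y - 1)) * (1 - y) ^ 4 * ((2 - c * (2 - 3 * y)) ^ 4 * (2 + c) ^ 4) +
        (1 - c) * (1 - 2 * y) ^ 4 * ((2 - c * (2 - 3 * y)) ^ 4 * (2 - c * (3 * y - 1)) ^ 4) := by
    simp only [WE, E3.ev, e2, e3, e4, sE, e1E, e2E]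
    push_cast
    ring
  simp only [FE, E3.ev, e1, e2, e3, e4, e5]
  push_cast
  ring

private noncomputable def TT (p q r : ℝ) : ℝ :=
  (p * ((q - r) / (q + r)) ^ 4 + q * ((r - p) / (r + p)) ^ 4 + r * ((p - q) / (p + q)) ^ 4) / 3

private theorem sym4 (a b : ℝ) : ((a - b) / (a + b)) ^ 4 = ((b - a) / (b + a)) ^ 4 := by
  rw [← neg_sub b a, add_comm a b, neg_div, Even.neg_pow (by decide)]

private theorem TT_swap1 (p q r : ℝ) : TT p q r = TT q p r := by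
  unfold TT
  rw [sym4 q r, sym4 r p, sym4 p q]
  ring

private theorem TT_swap2 (p q r : ℝ) : TT p q r = TT p r q := by
  unfold TT
  rw [sym4 q r, sym4 r p, sym4 p q]
  ring

private theorem t4_core {c y : ℝ} (hc0 : 0 ≤ c) (hc1 : c < 1) (hy0 : 0 ≤ y) (hy1 : y ≤ 1 / 2) :
    TT (1 + c * (2 - 3 * y)) (1 + c * (3 * y - 1)) (1 - c) ≤ c ^ 4 * UU c y / 1000 := by
  have hp : 0 < 1 + c * (2 - 3 * y) := by nlinarith
  have hq : 0 < 1 + c * (3 * y - 1) := by nlinarith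
  have hr : 0 < 1 - c := by linarith
  by_cases h : c ≤ 15 / 16 ∨ 1 / 16 ≤ y
  · have hF := F_ev hc0 hc1.le hy0 hy1 h
    rw [FE_eq] at hF
    have g1 : 0 < 2 - c * (2 - 3 * y) := by linarith
    have g2 : 0 < 2 - c * (3 * y - 1) := by linarith
    have g3 : 0 < 2 + c := by linarith
    have e1 : TT (1 + c * (2 - 3 * y)) (1 + c * (3 * y - 1)) (1 - c) =
        c ^ 4 * (27 * ((1 + c * (2 - 3 * y)) * y ^ 4 * ((2 - c * (3 * y - 1)) ^ 4 * (2 + c) ^ 4) +
        (1 + c * (3 * y - 1)) * (1 - y) ^ 4 * ((2 - c * (2 - 3 * y)) ^ 4 * (2 + c) ^ 4) +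
        (1 - c) * (1 - 2 * y) ^ 4 * ((2 - c * (2 - 3 * y)) ^ 4 * (2 - c * (3 * y - 1)) ^ 4)) /
        ((2 - c * (2 - 3 * y)) ^ 4 * (2 - c * (3 * y - 1)) ^ 4 * (2 + c) ^ 4)) := by
      unfold TT
      have a1 : 1 + c * (3 * y - 1) - (1 - c) = 3 * (c * y) := by ring
      have a2 : 1 + c * (3 * y - 1) + (1 - c) = 2 - c * (2 - 3 * y) := by ring
      have a3 : 1 - c - (1 + c * (2 - 3 * y)) = -3 * (c * (1 - y)) := by ring
      have a4 : 1 - c + (1 + c * (2 - 3 * y)) = 2 - c * (3 * y - 1) := by ring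
      have a5 : 1 + c * (2 - 3 * y) - (1 + c * (3 * y - 1)) = 3 * (c * (1 - 2 * y)) := by ring
      have a6 : 1 + c * (2 - 3 * y) + (1 + c * (3 * y - 1)) = 2 + c := by ring
      rw [a1, a2, a3, a4, a5, a6]
      generalize 2 - c * (2 - 3 * y) = G1 at *
      generalize 2 - c * (3 * y - 1) = G2 at *
      generalize 2 + c = G3 at *
      generalize 1 + c * (2 - 3 * y) = P at *
      generalize 1 + c * (3 * y - 1) = Q at *
      field_simp
      ring
    rw [e1, mul_div_assoc (c ^ 4) (UU c y) 1000]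
    refine mul_le_mul_of_nonneg_left ?_ (by positivity)
    rw [div_le_iff₀ (by positivity)]
    linarith
  · push Not at h
    have hC := C_ev h.1.le hc1.le hy0 h.2.le
    rw [CE_eq] at hC
    have ht : ∀ a b : ℝ, 0 < a → 0 < b → ((a - b) / (a + b)) ^ 4 ≤ 1 := by
      intro a b ha hb
      have h1 : |(a - b) / (a + b)| ≤ 1 := by
        rw [abs_div, abs_of_pos (by linarith : (0 : ℝ) < a + b), div_le_one (by linarith), abs_le]
        constructor <;> linarith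
      have h2 : ((a - b) / (a + b)) ^ 4 = |(a - b) / (a + b)| ^ 4 := by
        rw [← Even.pow_abs (by decide : Even 4)]
      rw [h2]
      exact pow_le_one₀ (abs_nonneg _) h1
    have h1 := mul_le_mul_of_nonneg_left (ht _ _ hq hr) hp.le
    have h2 := mul_le_mul_of_nonneg_left (ht _ _ hr hp) hq.le
    have h3 := mul_le_mul_of_nonneg_left (ht _ _ hp hq) hr.le
    unfold TT
    linarith

private theorem t4_sorted {p q r : ℝ} (hr : 0 < r) (hs : p + q + r = 3) (hpq : q ≤ p) (hqr : r ≤ q) :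
    TT p q r ≤
      Up (((p - 1) ^ 2 + (q - 1) ^ 2 + (r - 1) ^ 2) / 3) ((p - 1) * (q - 1) * (r - 1)) := by
  obtain ⟨c, hc⟩ : ∃ c, c = 1 - r := ⟨_, rfl⟩
  have hc0 : 0 ≤ c := by linarith
  have hr' : r = 1 - c := by linarith
  rcases hc0.eq_or_lt with h0 | hpos
  · have e1 : r = 1 := by linarith
    have e2 : q = 1 := by linarith
    have e3 : p = 1 := by linarith
    rw [e1, e2, e3]
    unfold TT Up
    norm_num
  · obtain ⟨y, hy⟩ : ∃ y, y = ((q - 1) / c + 1) / 3 := ⟨_, rfl⟩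
    have hq : q = 1 + c * (3 * y - 1) := by
      rw [hy]
      field_simp
      ring
    have hp : p = 1 + c * (2 - 3 * y) := by linarith
    have hy0 : 0 ≤ y := by
      rw [hy]
      have : -1 ≤ (q - 1) / c := by
        rw [le_div_iff₀ hpos]
        linarith
      linarith
    have hy1 : y ≤ 1 / 2 := by
      rw [hy]
      have : (q - 1) / c ≤ 1 / 2 := by
        rw [div_le_iff₀ hpos]
        linarith
      linarith
    have h := t4_core hc0 (by linarith) hy0 hy1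
    rw [hp, hq, hr']
    refine h.trans (le_of_eq ?_)
    unfold Up UU
    ring

theorem t4_le {p q r : ℝ} (hp : 0 < p) (hq : 0 < q) (hr : 0 < r) (hs : p + q + r = 3) :
    (p * ((q - r) / (q + r)) ^ 4 + q * ((r - p) / (r + p)) ^ 4 + r * ((p - q) / (p + q)) ^ 4) / 3 ≤
      Up (((p - 1) ^ 2 + (q - 1) ^ 2 + (r - 1) ^ 2) / 3) ((p - 1) * (q - 1) * (r - 1)) := by
  change TT p q r ≤ _
  have key : ∀ a b c : ℝ, 0 < a → 0 < b → 0 < c → a + b + c = 3 → b ≤ a → c ≤ b →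
      TT a b c = TT p q r →
      ((a - 1) ^ 2 + (b - 1) ^ 2 + (c - 1) ^ 2) = ((p - 1) ^ 2 + (q - 1) ^ 2 + (r - 1) ^ 2) →
      (a - 1) * (b - 1) * (c - 1) = (p - 1) * (q - 1) * (r - 1) →
      TT p q r ≤
      Up (((p - 1) ^ 2 + (q - 1) ^ 2 + (r - 1) ^ 2) / 3) ((p - 1) * (q - 1) * (r - 1)) := by
    intro a b c _ _ hc h1 h2 h3 h4 h5 h6
    rw [← h4, ← h5, ← h6]
    exact t4_sorted hc h1 h2 h3
  rcases le_total q p with h1 | h1
  · rcases le_total r q with h2 | h2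
    · exact key p q r hp hq hr hs h1 h2 rfl rfl rfl
    · rcases le_total r p with h3 | h3
      · exact key p r q hp hr hq (by linarith) h3 h2 (TT_swap2 _ _ _) (by ring) (by ring)
      · exact key r p q hr hp hq (by linarith) h3 h1
          (by rw [TT_swap1, TT_swap2]) (by ring) (by ring)
  · rcases le_total r p with h2 | h2
    · exact key q p r hq hp hr (by linarith) h1 h2 (TT_swap1 _ _ _) (by ring) (by ring)
    · rcases le_total r q with h3 | h3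
      · exact key q r p hq hr hp (by linarith) h3 h2
          (by rw [TT_swap2, TT_swap1]) (by ring) (by ring)
      · exact key r q p hr hq hp (by linarith) h3 h1
          (by rw [TT_swap1, TT_swap2, TT_swap1]) (by ring) (by ring)

end Crest.Agent.R163.Lg
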