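import Crest.Agent.R163.LgD

/-!
# Row 163: `LgD5` : elementary one-variable bounds (piece R163_LG5)

* `phi_le`: `k(x) = log(1+x) - (x - x^2/2 + x^3/3 - x^4/4 + x^5/5 - x^6/6 + 3x^7/7)` has
  `k' = x^6 (1/(1+x) - 3) ≤ 0` on `[-2/3, ∞)`, `k 0 = 0`, so `x k(x) ≤ 0`; `x = -l u ∈ [-2/3, 1/3]`.
* `r1, r2, r3`: polynomial inequalities after clearing denominators:
  `(1-y) - (2+y)^2(1/4 - y/2 + 7y^2/16 - 5y^3/16) = (13/16)y^4 + (5/16)y^5`.
* `Pz_le`: `f(z) = 1 - exp(-z) - z + z^2/2 - α z^3 + β z^4`, `α = 73/250*(18/25)^2`, `β = 17/250*(18/25)^3`: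
  `f''' = exp(-z) - 6α + 24β z ≥ 0` since `exp(-z) ≥ exp(-1/2)(3/2 - z)` and `exp(-1/2) ∈ (0.60653, 0.60654)`,
  `6α = 0.90824 ≤ 1.5*0.60653`, `24β = 0.60914 ≥ 0.60654`. Hence `f ≥ 0` for `z ≥ 0` (three integrations), apply with `z = Z/w`.
-/

set_option autoImplicit false

namespace Crest.Agent.R163.Lg

theorem kder (x : ℝ) (hx : -(2 / 3) ≤ x) :
    HasDerivAt (fun x : ℝ => x - x ^ 2 / 2 + x ^ 3 / 3 - x ^ 4 / 4 + x ^ 5 / 5 - x ^ 6 / 6 + 3 * x ^ 7 / 7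
      - Real.log (1 + x)) (x ^ 6 * (3 - 1 / (1 + x))) x := by
  have hp : (1 + x) ≠ 0 := by linarith
  have h1 : HasDerivAt (fun x : ℝ => x - x ^ 2 / 2 + x ^ 3 / 3 - x ^ 4 / 4 + x ^ 5 / 5 - x ^ 6 / 6 + 3 * x ^ 7 / 7)
      (1 - 2 * x / 2 + 3 * x ^ 2 / 3 - 4 * x ^ 3 / 4 + 5 * x ^ 4 / 5 - 6 * x ^ 5 / 6 + 3 * (7 * x ^ 6) / 7) x := by
    have e := ((((((hasDerivAt_id x).sub ((hasDerivAt_pow 2 x).div_const 2)).add
      ((hasDerivAt_pow 3 x).div_const 3)).sub ((hasDerivAt_pow 4 x).div_const 4)).add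
      ((hasDerivAt_pow 5 x).div_const 5)).sub ((hasDerivAt_pow 6 x).div_const 6)).add
      (((hasDerivAt_pow 7 x).const_mul 3).div_const 7)
    refine e.congr_deriv ?_
    norm_num
  have h2 : HasDerivAt (fun x : ℝ => Real.log (1 + x)) (1 / (1 + x)) x := by
    have h3 : HasDerivAt (fun x : ℝ => 1 + x) 1 x := (hasDerivAt_id x).const_add 1
    exact h3.log hp
  refine (h1.sub h2).congr_deriv ?_
  field_simp
  ring

theorem k_nonneg (x : ℝ) (hx : -(2 / 3) ≤ x) :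
    x * Real.log (1 + x) ≤
      x * (x - x ^ 2 / 2 + x ^ 3 / 3 - x ^ 4 / 4 + x ^ 5 / 5 - x ^ 6 / 6 + 3 * x ^ 7 / 7) := by
  have hm : MonotoneOn (fun x : ℝ => x - x ^ 2 / 2 + x ^ 3 / 3 - x ^ 4 / 4 + x ^ 5 / 5 - x ^ 6 / 6 + 3 * x ^ 7 / 7
      - Real.log (1 + x)) (Set.Ici (-(2 / 3))) := by
    refine monotoneOn_of_deriv_nonneg (convex_Ici _)
      (fun y hy => (kder y hy).continuousAt.continuousWithinAt) ?_ ?_
    · intro y hy
      rw [interior_Ici] at hy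
      exact (kder y (le_of_lt hy)).differentiableAt.differentiableWithinAt
    · intro y hy
      rw [interior_Ici] at hy
      have hy' : -(2 / 3) < y := hy
      rw [(kder y (le_of_lt hy)).deriv]
      refine mul_nonneg (by positivity) ?_
      have h3 : 1 / (1 + y) ≤ 3 := by
        rw [div_le_iff₀ (by linarith)]
        linarith
      linarith
  have h0 : (0 : ℝ) ∈ Set.Ici (-(2 / 3 : ℝ)) := by
    show -(2 / 3 : ℝ) ≤ 0
    norm_num
  rcases le_total 0 x with h | h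
  · have := hm h0 (show x ∈ Set.Ici (-(2 / 3 : ℝ)) from hx) h
    simp only [add_zero, Real.log_one] at this
    have h2 : Real.log (1 + x) ≤
        x - x ^ 2 / 2 + x ^ 3 / 3 - x ^ 4 / 4 + x ^ 5 / 5 - x ^ 6 / 6 + 3 * x ^ 7 / 7 := by
      norm_num at this
      linarith
    exact mul_le_mul_of_nonneg_left h2 h
  · have := hm (show x ∈ Set.Ici (-(2 / 3 : ℝ)) from hx) h0 h
    simp only [add_zero, Real.log_one] at this
    have h2 : x - x ^ 2 / 2 + x ^ 3 / 3 - x ^ 4 / 4 + x ^ 5 / 5 - x ^ 6 / 6 + 3 * x ^ 7 / 7 ≤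
        Real.log (1 + x) := by
      norm_num at this
      linarith
    exact mul_le_mul_of_nonpos_left h2 h

theorem phi_le {l u : ℝ} (h0 : 0 < l) (h1 : l ≤ 1 / 3) (hu : -1 ≤ u) (hu2 : u ≤ 2) :
    -(l * u) * Real.log (1 - l * u) ≤ l ^ 2 * sl l u := by
  have hx : -(2 / 3) ≤ -(l * u) := by nlinarith
  have h := k_nonneg (-(l * u)) hx
  have e : (1 : ℝ) + -(l * u) = 1 - l * u := by ring
  rw [e] at h
  refine h.trans (le_of_eq ?_)
  unfold sl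
  ring

theorem r1 {y : ℝ} (h0 : -(1 / 3) ≤ y) (h1 : y ≤ 2 / 3) :
    1 / 4 - y / 2 + 7 * y ^ 2 / 16 - 5 * y ^ 3 / 16 + y ^ 4 * (1 / 5 - 3 * y / 20) ≤
      (1 - y) / (2 + y) ^ 2 := by
  have hp : 0 < 2 + y := by linarith
  rw [le_div_iff₀ (by positivity)]
  have h2 : 0 ≤ 1 / 80 + 9 * y / 80 + 2 / 5 * y ^ 2 + 3 / 20 * y ^ 3 := by
    nlinarith [sq_nonneg (y + 9 / 56), mul_nonneg (sq_nonneg y) (sub_nonneg.2 h0)]
  have h3 : 0 ≤ y ^ 4 * (1 / 80 + 9 * y / 80 + 2 / 5 * y ^ 2 + 3 / 20 * y ^ 3) :=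
    mul_nonneg (by positivity) h2
  nlinarith [h3]

theorem r2 {y : ℝ} (h0 : -(1 / 3) ≤ y) (h1 : y ≤ 2 / 3) :
    (1 - 3 * y + 62 / 25 * y ^ 2) / 16 ≤ (1 - y) / (2 + y) ^ 4 := by
  have hp : 0 < 2 + y := by linarith
  rw [le_div_iff₀ (by positivity)]
  have e2 : y ^ 2 ≤ y / 3 + 2 / 9 := by nlinarith
  have e3 : y ^ 3 ≤ y / 3 + 2 / 27 := by
    have : 0 ≤ (2 / 3 - y) * (y + 1 / 3) ^ 2 := mul_nonneg (by linarith) (sq_nonneg _)
    nlinarith
  have e4 : y ^ 4 ≤ 5 * y / 27 + 6 / 81 := by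
    have h5 : 0 ≤ (2 / 3 - y) * (y + 1 / 3) := mul_nonneg (by linarith) (by linarith)
    have h6 : 0 ≤ (2 / 3 - y) * (y + 1 / 3) * (y ^ 2 + y / 3 + 1 / 3) :=
      mul_nonneg h5 (by nlinarith [sq_nonneg (y + 1 / 6)])
    nlinarith
  have h2 : 0 ≤ 808 / 25 - 384 / 25 * y - 913 / 25 * y ^ 2 - 421 / 25 * y ^ 3 - 62 / 25 * y ^ 4 := by
    linarith
  have h3 : 0 ≤ y ^ 2 * (808 / 25 - 384 / 25 * y - 913 / 25 * y ^ 2 - 421 / 25 * y ^ 3 - 62 / 25 * y ^ 4) :=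
    mul_nonneg (by positivity) h2
  nlinarith [h3]

theorem r3 {y : ℝ} (h0 : -(1 / 3) ≤ y) (h1 : y ≤ 2 / 3) :
    (1 - 4 * y) / 64 ≤ (1 - y) / (2 + y) ^ 6 := by
  have hp : 0 < 2 + y := by linarith
  rw [le_div_iff₀ (by positivity)]
  have h2 : 0 ≤ 528 + 800 * y + 580 * y ^ 2 + 228 * y ^ 3 + 47 * y ^ 4 + 4 * y ^ 5 := by
    have a3 : -(1 / 3) * y ^ 2 ≤ y ^ 3 := by
      nlinarith [mul_nonneg (sq_nonneg y) (sub_nonneg.2 h0)]
    have a5 : -(1 / 3) * y ^ 4 ≤ y ^ 5 := by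
      have : 0 ≤ y ^ 4 * (y - -(1 / 3)) := mul_nonneg (by positivity) (by linarith)
      nlinarith
    have a2 : 0 ≤ y ^ 2 := by positivity
    have a4 : 0 ≤ y ^ 4 := by positivity
    linarith
  have h3 : 0 ≤ y ^ 2 * (528 + 800 * y + 580 * y ^ 2 + 228 * y ^ 3 + 47 * y ^ 4 + 4 * y ^ 5) :=
    mul_nonneg (by positivity) h2
  nlinarith [h3]

theorem nonneg_of_hasDeriv {f f' : ℝ → ℝ} (h : ∀ x, HasDerivAt f (f' x) x) (h0 : f 0 = 0)
    (h1 : ∀ x, 0 ≤ x → 0 ≤ f' x) : ∀ x, 0 ≤ x → 0 ≤ f x := by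
  intro x hx
  have hm : MonotoneOn f (Set.Ici 0) := by
    refine monotoneOn_of_deriv_nonneg (convex_Ici _)
      (fun y _ => (h y).continuousAt.continuousWithinAt)
      (fun y _ => (h y).differentiableAt.differentiableWithinAt) ?_
    intro y hy
    rw [interior_Ici] at hy
    rw [(h y).deriv]
    exact h1 y (le_of_lt hy)
  have := hm (Set.mem_Ici.2 (le_refl (0 : ℝ))) (Set.mem_Ici.2 hx) hx
  rwa [h0] at this

theorem expneg_deriv (x : ℝ) : HasDerivAt (fun x : ℝ => Real.exp (-x)) (-Real.exp (-x)) x := by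
  have := (hasDerivAt_id x).neg.exp
  simpa using this

theorem Pz_aux (z : ℝ) (hz : 0 ≤ z) :
    0 ≤ 1 - Real.exp (-z) - z + z ^ 2 / 2 - 73 / 250 * (18 / 25) ^ 2 * z ^ 3 +
      17 / 250 * (18 / 25) ^ 3 * z ^ 4 := by
  have hE1 : Real.exp (-(1 / 2)) * Real.exp (-(1 / 2)) * Real.exp 1 = 1 := by
    rw [← Real.exp_add, ← Real.exp_add]; norm_num
  have hE0 : 0 < Real.exp (-(1 / 2)) := Real.exp_pos _
  have hg := Real.exp_one_gt_d9
  have hl := Real.exp_one_lt_d9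
  have hlo : 0.6055 < Real.exp (-(1 / 2)) := by
    by_contra hc
    push Not at hc
    have h1 : Real.exp (-(1 / 2)) * Real.exp (-(1 / 2)) ≤ 0.6055 * 0.6055 := by nlinarith
    have h2 : Real.exp (-(1 / 2)) * Real.exp (-(1 / 2)) * Real.exp 1 ≤ 0.6055 * 0.6055 * 2.7182818286 := by
      have h3 : 0 ≤ Real.exp (-(1 / 2)) * Real.exp (-(1 / 2)) := by positivity
      exact mul_le_mul h1 hl.le (Real.exp_pos _).le (by norm_num)
    rw [hE1] at h2
    norm_num at h2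
  have hhi : Real.exp (-(1 / 2)) < 0.609 := by
    by_contra hc
    push Not at hc
    have h1 : 0.609 * 0.609 ≤ Real.exp (-(1 / 2)) * Real.exp (-(1 / 2)) := by nlinarith
    have h2 : 0.609 * 0.609 * 2.7182818283 ≤ Real.exp (-(1 / 2)) * Real.exp (-(1 / 2)) * Real.exp 1 :=
      mul_le_mul h1 hg.le (by norm_num) (by positivity)
    rw [hE1] at h2
    norm_num at h2
  have g3 : ∀ z : ℝ, 0 ≤ z →
      0 ≤ Real.exp (-z) - 6 * (73 / 250 * (18 / 25) ^ 2) + 24 * (17 / 250 * (18 / 25) ^ 3) * z := by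
    intro z hz
    have h1 : Real.exp (-(1 / 2)) * (3 / 2 - z) ≤ Real.exp (-z) := by
      have h2 := Real.add_one_le_exp (-(z - 1 / 2))
      have h3 : Real.exp (-z) = Real.exp (-(1 / 2)) * Real.exp (-(z - 1 / 2)) := by
        rw [← Real.exp_add]; congr 1; ring
      rw [h3]
      refine mul_le_mul_of_nonneg_left ?_ hE0.le
      linarith
    nlinarith
  have g2 := nonneg_of_hasDeriv (f := fun z => -Real.exp (-z) + 1 - 6 * (73 / 250 * (18 / 25) ^ 2) * z +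
      12 * (17 / 250 * (18 / 25) ^ 3) * z ^ 2)
    (f' := fun z => Real.exp (-z) - 6 * (73 / 250 * (18 / 25) ^ 2) + 24 * (17 / 250 * (18 / 25) ^ 3) * z)
    (fun x => by
      refine ((((expneg_deriv x).neg.add_const 1).sub ((hasDerivAt_id x).const_mul _)).add
        ((hasDerivAt_pow 2 x).const_mul _)).congr_deriv ?_
      norm_num
      ring) (by norm_num) g3
  have g1 := nonneg_of_hasDeriv (f := fun z => Real.exp (-z) - 1 + z - 3 * (73 / 250 * (18 / 25) ^ 2) * z ^ 2 +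
      4 * (17 / 250 * (18 / 25) ^ 3) * z ^ 3)
    (f' := fun z => -Real.exp (-z) + 1 - 6 * (73 / 250 * (18 / 25) ^ 2) * z +
      12 * (17 / 250 * (18 / 25) ^ 3) * z ^ 2)
    (fun x => by
      refine (((((expneg_deriv x).sub_const 1).add (hasDerivAt_id x)).sub
        ((hasDerivAt_pow 2 x).const_mul _)).add
        ((hasDerivAt_pow 3 x).const_mul _)).congr_deriv ?_
      norm_num
      ring) (by norm_num) g2
  have g0 := nonneg_of_hasDeriv (f := fun z => 1 - Real.exp (-z) - z + z ^ 2 / 2 -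
      73 / 250 * (18 / 25) ^ 2 * z ^ 3 + 17 / 250 * (18 / 25) ^ 3 * z ^ 4)
    (f' := fun z => Real.exp (-z) - 1 + z - 3 * (73 / 250 * (18 / 25) ^ 2) * z ^ 2 +
      4 * (17 / 250 * (18 / 25) ^ 3) * z ^ 3)
    (fun x => by
      refine ((((((expneg_deriv x).const_sub 1).sub (hasDerivAt_id x)).add
        ((hasDerivAt_pow 2 x).div_const 2)).sub ((hasDerivAt_pow 3 x).const_mul _)).add
        ((hasDerivAt_pow 4 x).const_mul _)).congr_deriv ?_
      norm_num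
      ring) (by norm_num) g1
  exact g0 z hz

theorem Pz_le {Z X : ℝ} (h0 : 0 ≤ Z) (h : Z ≤ 18 / 25 * X) :
    Pz Z ≤ 18 / 25 * (1 - Real.exp (-X)) := by
  have h1 := Pz_aux (25 / 18 * Z) (by positivity)
  have h2 : Real.exp (-X) ≤ Real.exp (-(25 / 18 * Z)) := by
    apply Real.exp_le_exp.2
    linarith
  unfold Pz
  nlinarith

end Crest.Agent.R163.Lg
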