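import Crest.Agent.R163.LgD
import Crest.Agent.R163.KrSound

/-!
# Row 163: `LgD6` : the final polynomial inequality (helper39)
-/

set_option autoImplicit false

namespace Crest.Agent.R163.Lg

open Crest.Agent.R163.Kr

/-- direction -/
def d1 : E3 := E3.add (E3.c (2)) (E3.mul (E3.c (-3)) (E3.y))
/-- direction -/
def d2 : E3 := E3.add (E3.mul (E3.c (3)) (E3.y)) (E3.c (-1))
/-- direction -/
def d3 : E3 := E3.c (-1)
/-- m / c^2 -/
def eA : E3 := E3.add (E3.add (E3.c (2)) (E3.mul (E3.c (-6)) (E3.y))) (E3.mul (E3.c (6)) (E3.pow (E3.y) 2))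
/-- k / c^3 -/
def eB : E3 := E3.mul (E3.mul (E3.c (-1)) (d1)) (d2)
/-- terms of one coordinate without zeta -/
def tE (e : E3) : E3 :=
  E3.add (E3.add (E3.add (E3.add (E3.add (E3.add (E3.add (E3.add (E3.add (E3.mul (E3.c (48398739701760000000)) (E3.pow (e) 4)) (E3.mul (E3.mul (E3.c (-178362777600000000000)) (E3.pow (E3.z) 2)) (E3.pow (e) 4))) (E3.mul (E3.mul (E3.c (-9751984865280000000)) (E3.pow (E3.x) 1)) (E3.pow (e) 5))) (E3.mul (E3.mul (E3.mul (E3.c (-133772083200000000000)) (E3.pow (E3.z) 3)) (E3.pow (E3.x) 1)) (E3.pow (e) 5))) (E3.mul (E3.mul (E3.c (17938836357120000000)) (E3.pow (E3.x) 2)) (E3.pow (e) 6))) (E3.mul (E3.mul (E3.mul (E3.c (-107017666560000000000)) (E3.pow (E3.z) 4)) (E3.pow (E3.x) 2)) (E3.pow (e) 6))) (E3.mul (E3.mul (E3.c (-10233564364800000000)) (E3.pow (E3.x) 3)) (E3.pow (e) 7))) (E3.mul (E3.mul (E3.mul (E3.c (-89181388800000000000)) (E3.pow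 (E3.z) 5)) (E3.pow (E3.x) 3)) (E3.pow (e) 7))) (E3.mul (E3.mul (E3.c (5176979619840000000)) (E3.pow (E3.x) 4)) (E3.pow (e) 8))) (E3.mul (E3.mul (E3.mul (E3.c (-229323571200000000000)) (E3.pow (E3.z) 6)) (E3.pow (E3.x) 4)) (E3.pow (e) 8))
/-- terms of `zeta` of one coordinate -/
def zE (e d : E3) : E3 :=
  E3.add (E3.add (E3.mul (E3.mul (E3.mul (d) (E3.pow (e) 2)) (E3.pow (E3.z) 2)) (E3.add (E3.add (E3.add (E3.c (5600)) (E3.mul (E3.c (-4000)) (E3.mul (E3.mul (E3.z) (E3.x)) (e)))) (E3.mul (E3.c (2560)) (E3.pow (E3.mul (E3.mul (E3.z) (E3.x)) (e)) 2))) (E3.mul (E3.c (-1920)) (E3.pow (E3.mul (E3.mul (E3.z) (E3.x)) (e)) 3)))) (E3.mul (E3.mul (E3.pow (E3.z) 2) (E3.pow (d) 2)) (E3.add (E3.add (E3.c (1350)) (E3.mul (E3.c (-4050)) (E3.mul (E3.mul (E3.z) (E3.x)) (e)))) (E3.mul (E3.c (3348)) (E3.pow (E3.mul (E3.mul (E3.z) (E3.x)) (e)) 2))))) (E3.mul (E3.mul (E3.mul (E3.mul (E3.c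 (675)) (E3.pow (E3.z) 4)) (E3.pow (E3.x) 2)) (E3.pow (d) 3)) (E3.add (E3.c (1)) (E3.mul (E3.c (-4)) (E3.mul (E3.mul (E3.z) (E3.x)) (e)))))
/-- squared differences / 3 -/
def q1 : E3 := E3.mul (E3.c (3)) (E3.pow (E3.y) 2)
/-- squared differences / 3 -/
def q2 : E3 := E3.mul (E3.c (3)) (E3.pow (E3.add (E3.c (1)) (E3.mul (E3.c (-1)) (E3.y))) 2)
/-- squared differences / 3 -/
def q3 : E3 := E3.mul (E3.c (3)) (E3.pow (E3.add (E3.c (1)) (E3.mul (E3.c (-2)) (E3.y))) 2)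
/-- remainder -/
def zR : E3 := E3.add (E3.add (zE d1 q1) (zE d2 q2)) (zE d3 q3)
/-- `28800 * zeta` -/
def zN : E3 := E3.add (E3.add (E3.mul (E3.c (9600)) (eA)) (E3.mul (E3.mul (E3.mul (E3.c (19200)) (E3.x)) (E3.z)) (eB))) (E3.mul (E3.pow (E3.x) 2) (zR))
/-- U part -/
def uE : E3 := E3.add (E3.add (E3.add (E3.mul (E3.c (-81839620148428800000)) (E3.pow (eA) 2)) (E3.mul (E3.mul (E3.mul (E3.c (239465406136320000000)) (E3.x)) (eA)) (eB))) (E3.mul (E3.mul (E3.c (-103737039991603200000)) (E3.pow (E3.x) 2)) (E3.pow (eA) 3))) (E3.mul (E3.mul (E3.c (-2504213397504000000)) (E3.pow (E3.x) 2)) (E3.pow (eB) 2))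
/-- everything -/
def bigE : E3 := E3.add (E3.add (E3.add (E3.add (E3.add (E3.add (E3.add (tE d1) (tE d2)) (tE d3)) (uE)) (E3.mul (E3.c (41803776000000000)) (zR))) (E3.mul (E3.c (-1008000000000)) (E3.pow (zN) 2))) (E3.mul (E3.mul (E3.c (14716800)) (E3.pow (E3.x) 2)) (E3.pow (zN) 3))) (E3.mul (E3.mul (E3.c (-119)) (E3.pow (E3.x) 4)) (E3.pow (zN) 4))


theorem kr_big : kr bigE ⟨0, 1, 1⟩ ⟨0, 1, 2⟩ ⟨0, 1, 3⟩ 208 = true := by decide +kernel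

theorem kr_zN : kr zN ⟨0, 1, 1⟩ ⟨0, 1, 2⟩ ⟨0, 1, 3⟩ 64 = true := by decide +kernel

/-- `zR / 28800` in coordinates -/
noncomputable def zrR (c r l : ℝ) : ℝ := zR.ev c r l / 28800

/-- `zN / 28800` in coordinates -/
noncomputable def zeR (c r l : ℝ) : ℝ := zN.ev c r l / 28800

theorem zeR_eq (c r l : ℝ) : zeR c r l =
    (2 - 6 * r + 6 * r ^ 2) / 3 + 2 / 3 * c * l * (-((2 - 3 * r) * (3 * r - 1))) +
      c ^ 2 * zrR c r l := by
  unfold zeR zrR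
  simp only [zN, eA, eB, d1, d2, E3.ev]
  push_cast
  ring

theorem zt_sum (c r l : ℝ) : zt (c ^ 2 * (2 - 6 * r + 6 * r ^ 2)) l (c * (2 - 3 * r)) +
    zt (c ^ 2 * (2 - 6 * r + 6 * r ^ 2)) l (c * (3 * r - 1)) +
    zt (c ^ 2 * (2 - 6 * r + 6 * r ^ 2)) l (c * (-1)) = c ^ 2 * zeR c r l := by
  rw [zeR_eq]
  unfold zrR zt
  simp only [zR, zE, q1, q2, q3, d1, d2, d3, E3.ev]
  push_cast
  ring

/-- the inequality divided by `c^4` -/
noncomputable def bigR (c r l : ℝ) : ℝ :=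
  (∑ i : Fin 3, (402 * (![2 - 3 * r, 3 * r - 1, -1] i) ^ 4 - 81 * c * (![2 - 3 * r, 3 * r - 1, -1] i) ^ 5 +
    149 * c ^ 2 * (![2 - 3 * r, 3 * r - 1, -1] i) ^ 6 - 85 * c ^ 3 * (![2 - 3 * r, 3 * r - 1, -1] i) ^ 7 +
    43 * c ^ 4 * (![2 - 3 * r, 3 * r - 1, -1] i) ^ 8)) / 10000 -
  4 / 9 * (∑ i : Fin 3, (l ^ 2 * (![2 - 3 * r, 3 * r - 1, -1] i) ^ 4 / 3 +
    l ^ 3 * c * (![2 - 3 * r, 3 * r - 1, -1] i) ^ 5 / 4 +
    l ^ 4 * c ^ 2 * (![2 - 3 * r, 3 * r - 1, -1] i) ^ 6 / 5 +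
    l ^ 5 * c ^ 3 * (![2 - 3 * r, 3 * r - 1, -1] i) ^ 7 / 6 +
    3 * l ^ 6 * c ^ 4 * (![2 - 3 * r, 3 * r - 1, -1] i) ^ 8 / 7)) -
  13 / 250 * ((1288 * (2 - 6 * r + 6 * r ^ 2) ^ 2 -
    3825 * c * (2 - 6 * r + 6 * r ^ 2) * (-((2 - 3 * r) * (3 * r - 1))) +
    1657 * c ^ 2 * (2 - 6 * r + 6 * r ^ 2) ^ 3 +
    40 * c ^ 2 * (-((2 - 3 * r) * (3 * r - 1))) ^ 2) / 1000) -
  (2 - 6 * r + 6 * r ^ 2) ^ 2 / 1000 + zrR c r l - 25 / 36 * zeR c r l ^ 2 +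
  73 / 250 * c ^ 2 * zeR c r l ^ 3 - 17 / 250 * c ^ 4 * zeR c r l ^ 4

theorem bigE_ev (c r l : ℝ) : bigE.ev c r l = 28800 ^ 4 * 1750 * bigR c r l := by
  have h1 : zN.ev c r l = 28800 * zeR c r l := by unfold zeR; ring
  have h2 : zR.ev c r l = 28800 * zrR c r l := by unfold zrR; ring
  unfold bigR
  simp only [bigE, tE, uE, eA, eB, d1, d2, d3, E3.ev, h1, h2, Fin.sum_univ_three, Matrix.cons_val_zero,
    Matrix.cons_val_one, Matrix.cons_val_two, Matrix.head_cons, Matrix.tail_cons, Matrix.cons_val]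
  push_cast
  ring

theorem final_coord {c r l : ℝ} (hc : 0 ≤ c) (hc1 : c ≤ 1) (hr : 0 ≤ r) (hr1 : r ≤ 1 / 2)
    (hl : 0 ≤ l) (hl1 : l ≤ 1 / 3) : 0 ≤ zeR c r l ∧ 0 ≤ bigR c r l := by
  have hx : (⟨0, 1, 1⟩ : Iv).mem c := by
    constructor <;> norm_num <;> linarith
  have hy : (⟨0, 1, 2⟩ : Iv).mem r := by
    constructor <;> norm_num <;> linarith
  have hz : (⟨0, 1, 3⟩ : Iv).mem l := by
    constructor <;> norm_num <;> linarith
  constructor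
  · have := kr_sound kr_zN hx hy hz
    unfold zeR
    positivity
  · have := kr_sound kr_big hx hy hz
    rw [bigE_ev] at this
    exact nonneg_of_mul_nonneg_right this (by norm_num)

theorem final_ineq {l x y z : ℝ} (hl : 0 ≤ l) (hl1 : l ≤ 1 / 3) (hxy : y ≤ x) (hyz : z ≤ y)
    (hz : -1 ≤ z) (hs : x + y + z = 0) {m k Z : ℝ} (hm : m = (x ^ 2 + y ^ 2 + z ^ 2) / 3)
    (hk : k = x * y * z) (hZ : Z = zt m l x + zt m l y + zt m l z) :
    0 ≤ Z ∧ 4 / 9 * (sl l x + sl l y + sl l z) - Pz Z + m ^ 2 / 1000 ≤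
      m + (Qp x + Qp y + Qp z) - 13 / 250 * Up m k := by
  -- coordinates
  obtain ⟨c, r, hc, hc1, hr, hr1, hx, hy, hz'⟩ : ∃ c r : ℝ, 0 ≤ c ∧ c ≤ 1 ∧ 0 ≤ r ∧ r ≤ 1 / 2 ∧
      x = c * (2 - 3 * r) ∧ y = c * (3 * r - 1) ∧ z = c * (-1) := by
    have hz0 : z ≤ 0 := by linarith
    rcases hz0.eq_or_lt with h | h
    · have h1 : y = 0 := by linarith
      have h2 : x = 0 := by linarith
      exact ⟨0, 0, le_rfl, zero_le_one, le_rfl, by norm_num, by rw [h2]; ring, by rw [h1]; ring,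
        by rw [h]; ring⟩
    · have hne : (-z) ≠ 0 := by linarith
      have hpos : 0 < -z := by linarith
      refine ⟨-z, (y / (-z) + 1) / 3, hpos.le, by linarith, ?_, ?_, ?_, ?_, by ring⟩
      · have : -1 ≤ y / (-z) := by rw [le_div_iff₀ hpos]; linarith
        linarith
      · have : y / (-z) ≤ 1 / 2 := by rw [div_le_iff₀ hpos]; linarith
        linarith
      · have ht : y / (-z) * (-z) = y := div_mul_cancel₀ _ hne
        linear_combination hs + ht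
      · have ht : y / (-z) * (-z) = y := div_mul_cancel₀ _ hne
        linear_combination -ht
  obtain ⟨h1, h2⟩ := final_coord hc hc1 hr hr1 hl hl1
  have em : m = c ^ 2 * (2 - 6 * r + 6 * r ^ 2) := by
    rw [hm, hx, hy, hz']; ring
  have ek : k = c ^ 3 * (-((2 - 3 * r) * (3 * r - 1))) := by
    rw [hk, hx, hy, hz']; ring
  have eZ : Z = c ^ 2 * zeR c r l := by
    rw [hZ, em, hx, hy, hz', zt_sum]
  refine ⟨by rw [eZ]; positivity, ?_⟩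
  have e := zeR_eq c r l
  have key : m + (Qp x + Qp y + Qp z) - 13 / 250 * Up m k -
      (4 / 9 * (sl l x + sl l y + sl l z) - Pz Z + m ^ 2 / 1000) = c ^ 4 * bigR c r l := by
    rw [em, ek, eZ, hx, hy, hz']
    unfold Qp sl Pz Up bigR
    simp only [Fin.sum_univ_three, Matrix.cons_val_zero,
      Matrix.cons_val_one, Matrix.cons_val_two, Matrix.head_cons, Matrix.tail_cons, Matrix.cons_val]
    generalize zeR c r l = ζ at e ⊢
    generalize zrR c r l = ρ at e ⊢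
    linear_combination c ^ 2 * e
  have h3 : 0 ≤ c ^ 4 * bigR c r l := by positivity
  linarith

end Crest.Agent.R163.Lg
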