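import Crest.Agent.R163.LgE
import Crest.Agent.R163.LgD1
import Crest.Agent.R163.LgD2
import Crest.Agent.R163.LgD3
import Crest.Agent.R163.LgD4
import Crest.Agent.R163.LgD5
import Crest.Agent.R163.LgD6

/-!
# Row 163: the certificate for `|lam| ≤ 1/3` (Poisson `d ≥ 9`, `b ≥ 9`) (helper39)
-/

set_option autoImplicit false

namespace Crest.Agent.R163.Lg

open Finset Filter

/-- the polynomial potential -/
noncomputable def piP (u : Fin 3 → ℝ) : ℝ :=
  m2 u + (Qp (u 0) + Qp (u 1) + Qp (u 2)) - 13 / 250 * Up (m2 u) (u 0 * u 1 * u 2)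

theorem sort3 (u : Fin 3 → ℝ) : ∃ x y z : ℝ, y ≤ x ∧ z ≤ y ∧
    (∀ f : ℝ → ℝ, f (u 0) + f (u 1) + f (u 2) = f x + f y + f z) ∧ u 0 * u 1 * u 2 = x * y * z ∧
    (z = u 0 ∨ z = u 1 ∨ z = u 2) := by
  rcases le_total (u 0) (u 1) with h | h
  · rcases le_total (u 1) (u 2) with h' | h'
    · exact ⟨u 2, u 1, u 0, h', h, fun f => by ring, by ring, Or.inl rfl⟩
    · rcases le_total (u 0) (u 2) with h'' | h''
      · exact ⟨u 1, u 2, u 0, h', h'', fun f => by ring, by ring, Or.inl rfl⟩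
      · exact ⟨u 1, u 0, u 2, h, h'', fun f => by ring, by ring, Or.inr (Or.inr rfl)⟩
  · rcases le_total (u 0) (u 2) with h' | h'
    · exact ⟨u 2, u 0, u 1, h', h, fun f => by ring, by ring, Or.inr (Or.inl rfl)⟩
    · rcases le_total (u 1) (u 2) with h'' | h''
      · exact ⟨u 0, u 2, u 1, h', h'', fun f => by ring, by ring, Or.inr (Or.inl rfl)⟩
      · exact ⟨u 0, u 1, u 2, h, h'', fun f => by ring, by ring, Or.inr (Or.inr rfl)⟩

theorem m2_eq (u : Fin 3 → ℝ) : m2 u = (u 0 ^ 2 + u 1 ^ 2 + u 2 ^ 2) / 3 := by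
  unfold m2
  rw [Fin.sum_univ_three]
  push_cast
  ring

theorem bdd_piP : ∃ B : ℝ, ∀ u, Simp u → |piP u| ≤ B := by
  have hc : Continuous piP := by
    unfold piP m2 Qp Up
    fun_prop
  obtain ⟨B, hB⟩ := (isCompact_closedBall (0 : Fin 3 → ℝ) 2).exists_bound_of_continuousOn
    hc.continuousOn
  refine ⟨B, fun u hu => ?_⟩
  have := hB u (by
    rw [mem_closedBall_zero_iff, pi_norm_le_iff_of_nonneg (by norm_num)]
    intro a
    rw [Real.norm_eq_abs, abs_le]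
    exact ⟨by linarith [hu.2 a], hu.le_two a⟩)
  rwa [Real.norm_eq_abs] at this

/-- value of the symmetrised potential functional -/
theorem sy_gf (p : Fin 3 → ℝ) : sy (gf ![(18 : ℝ) / 25] ![(5 : ℝ) / 9]) p =
    1 / 3 * (p 0 * (8 / 9 * (Real.log (p 0) - (Real.log (p 1) + Real.log (p 2)) / 2) -
        18 / 25 * (1 - Real.cos (5 / 9 * (Real.log (p 1) - Real.log (p 2))))) +
      p 1 * (8 / 9 * (Real.log (p 1) - (Real.log (p 2) + Real.log (p 0)) / 2) -
        18 / 25 * (1 - Real.cos (5 / 9 * (Real.log (p 2) - Real.log (p 0))))) +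
      p 2 * (8 / 9 * (Real.log (p 2) - (Real.log (p 0) + Real.log (p 1)) / 2) -
        18 / 25 * (1 - Real.cos (5 / 9 * (Real.log (p 0) - Real.log (p 1)))))) := by
  unfold sy gf la lr rt
  rw [Fin.sum_univ_three]
  simp only [Finset.univ_unique, Fin.default_eq_zero, Finset.sum_singleton, Matrix.cons_val_fin_one]
  norm_num
  rfl

theorem gf_smul {t : ℝ} (ht : 0 < t) {v : Fin 3 → ℝ} (hv : ∀ a, 0 < v a) {k : ℕ}
    (wt θ : Fin k → ℝ) : gf wt θ (fun a => t * v a) = t * gf wt θ v := by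
  unfold gf
  rw [la_smul ht hv, lr_smul ht hv]
  ring

theorem sy_gf_smul {t : ℝ} (ht : 0 < t) {v : Fin 3 → ℝ} (hv : ∀ a, 0 < v a) {k : ℕ}
    (wt θ : Fin k → ℝ) : sy (gf wt θ) (fun a => t * v a) = t * sy (gf wt θ) v := by
  unfold sy
  have : ∀ k', gf wt θ (rt k' (fun a => t * v a)) = t * gf wt θ (rt k' v) := fun k' =>
    gf_smul ht (v := rt k' v) (fun a => hv _) wt θ
  simp only [this]
  rw [← Finset.mul_sum]
  ring

theorem term_ge {p a b : ℝ} (hp : 0 < p) (ha : 0 < a) (hb : 0 < b) (hs : p + a + b = 3) :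
    4 / 9 * (p - 1) + (p - 1) ^ 2 / 3 + Qp (p - 1) - 13 / 250 * (p * ((a - b) / (a + b)) ^ 4) / 3 ≤
      1 / 3 * (p * (8 / 9 * (Real.log p - (Real.log a + Real.log b) / 2) -
        18 / 25 * (1 - Real.cos (5 / 9 * (Real.log a - Real.log b))))) := by
  have h1 := gcos ha hb
  have h2 := log_Q hp (by linarith)
  have e : (a + b) / 2 = (3 - p) / 2 := by linarith
  rw [e] at h1
  have h3 := mul_le_mul_of_nonneg_left h1 hp.le
  nlinarith [h3, h2]

theorem pot_le {p : Fin 3 → ℝ} (hp : ∀ a, 0 < p a) (hs : p 0 + p 1 + p 2 = 3) :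
    piP (fun a => p a - 1) ≤ sy (gf ![(18 : ℝ) / 25] ![(5 : ℝ) / 9]) p := by
  rw [sy_gf]
  have h0 := term_ge (hp 0) (hp 1) (hp 2) hs
  have h1 := term_ge (hp 1) (hp 2) (hp 0) (by linarith)
  have h2 := term_ge (hp 2) (hp 0) (hp 1) (by linarith)
  have h3 := t4_le (hp 0) (hp 1) (hp 2) hs
  unfold piP
  rw [m2_eq]
  simp only
  linarith

theorem cert_hV (v : Fin 3 → ℝ) (hv : ∀ a, 0 < v a) :
    mass v * piP (uv v) ≤ sy (gf ![(18 : ℝ) / 25] ![(5 : ℝ) / 9]) v := by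
  have hM : 0 < mass v := by
    unfold mass
    have : 0 < ∑ a, v a := Finset.sum_pos (fun a _ => hv a) ⟨0, Finset.mem_univ _⟩
    positivity
  have hp : ∀ a, 0 < v a / mass v := fun a => div_pos (hv a) hM
  have e : v = fun a => mass v * (v a / mass v) := by
    funext a; field_simp
  have hs : v 0 / mass v + v 1 / mass v + v 2 / mass v = 3 := by
    rw [← add_div, ← add_div, div_eq_iff hM.ne']
    unfold mass
    rw [Fin.sum_univ_three]
    push_cast
    ring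
  have h := pot_le (p := fun a => v a / mass v) hp hs
  have h2 : sy (gf ![(18 : ℝ) / 25] ![(5 : ℝ) / 9]) v =
      mass v * sy (gf ![(18 : ℝ) / 25] ![(5 : ℝ) / 9]) (fun a => v a / mass v) := by
    conv_lhs => rw [e]
    exact sy_gf_smul hM hp _ _
  rw [h2]
  exact mul_le_mul_of_nonneg_left h hM.le

/-! ### the moment side -/

theorem qv_bounds {l : ℝ} (h0 : 0 < l) (h1 : l ≤ 1 / 3) {u : Fin 3 → ℝ} (hu : Simp u) (a : Fin 3) :
    1 / 3 ≤ qv l u a ∧ qv l u a ≤ 4 / 3 := by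
  unfold qv
  constructor
  · nlinarith [hu.le_two a]
  · nlinarith [hu.2 a]

theorem JL_eq {l : ℝ} {u : Fin 3 → ℝ} (hu : Simp u) :
    JL l u = 1 / 2 * (-(l * u 0) * Real.log (1 - l * u 0) + -(l * u 1) * Real.log (1 - l * u 1) +
      -(l * u 2) * Real.log (1 - l * u 2)) := by
  have h := hu.1
  rw [Fin.sum_univ_three] at h
  unfold JL sy rt la qv
  rw [Fin.sum_univ_three]
  norm_num
  have e1 : ((1 : Fin 3) + 1) = 2 := rfl
  have e2 : ((2 : Fin 3) + 1) = 0 := rfl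
  have e3 : ((1 : Fin 3) + 2) = 0 := rfl
  have e4 : ((2 : Fin 3) + 2) = 1 := rfl
  simp only [e1, e2, e3, e4]
  have h2 : u 2 = -u 0 - u 1 := by linarith
  rw [h2]
  ring

theorem CC_eq (l : ℝ) (u : Fin 3 → ℝ) : CC (5 / 9) l u =
    1 / 3 * ((1 - l * u 0) * Real.cos (5 / 9 * (Real.log (1 - l * u 1) - Real.log (1 - l * u 2))) +
      (1 - l * u 1) * Real.cos (5 / 9 * (Real.log (1 - l * u 2) - Real.log (1 - l * u 0))) +
      (1 - l * u 2) * Real.cos (5 / 9 * (Real.log (1 - l * u 0) - Real.log (1 - l * u 1)))) := by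
  unfold CC sy rt lr qv
  rw [Fin.sum_univ_three]
  norm_num
  rfl

theorem zt_le {l x a b : ℝ} (h0 : 0 < l) (h1 : l ≤ 1 / 3) (hx : -1 ≤ x) (hx2 : x ≤ 2) (ha : -1 ≤ a)
    (hb : -1 ≤ b) (hs : x + a + b = 0) {m : ℝ} (hm : m = (x ^ 2 + a ^ 2 + b ^ 2) / 3) :
    zt m l x * (3 * l ^ 2) ≤ (1 - l * x) * (18 / 25 * (1 - Real.cos (5 / 9 *
      (Real.log (1 - l * a) - Real.log (1 - l * b))))) := by
  have ha2 : a ≤ 2 := by linarith
  have hb2 : b ≤ 2 := by linarith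
  have hqa : 0 < 1 - l * a := by nlinarith
  have hqb : 0 < 1 - l * b := by nlinarith
  have hqx : 0 < 1 - l * x := by nlinarith
  have hy0 : -(1 / 3) ≤ l * x := by nlinarith
  have hy1 : l * x ≤ 2 / 3 := by nlinarith
  have hy2 : 0 < 2 + l * x := by linarith
  have e1 : (1 - l * a) + (1 - l * b) = 2 + l * x := by
    have : a = -x - b := by linarith
    rw [this]; ring
  have e2 : (1 - l * a) - (1 - l * b) = -(l * (a - b)) := by ring
  have e3 : (a - b) ^ 2 = 3 * (2 * m - x ^ 2) := by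
    have : x = -a - b := by linarith
    rw [hm, this]; ring
  have e4 : (((1 - l * a) - (1 - l * b)) / ((1 - l * a) + (1 - l * b))) ^ 2 =
      3 * l ^ 2 * (2 * m - x ^ 2) / (2 + l * x) ^ 2 := by
    rw [e1, e2, div_pow, neg_sq, mul_pow, e3]
    ring
  have hD : 0 ≤ 2 * m - x ^ 2 := by nlinarith [sq_nonneg (a - b)]
  have h35 : (((1 - l * a) - (1 - l * b)) / ((1 - l * a) + (1 - l * b))) ^ 2 ≤ 9 / 25 := by
    rw [e1, e2, div_pow, neg_sq, div_le_iff₀ (by positivity)]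
    have h5 : |5 * (l * (a - b))| ≤ 3 * (2 + l * x) := by
      rw [abs_le]
      constructor
      · have : a - b ≥ -(2 - x) := by linarith
        nlinarith
      · have : a - b ≤ 2 - x := by linarith
        nlinarith
    have h6 := sq_abs (5 * (l * (a - b)))
    have h7 := abs_nonneg (5 * (l * (a - b)))
    nlinarith
  have h8 := coslow hqa hqb h35
  rw [e4] at h8
  refine le_trans ?_ (mul_le_mul_of_nonneg_left h8 hqx.le)
  set D := 2 * m - x ^ 2 with hDdef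
  have hr1 := mul_le_mul_of_nonneg_left (r1 hy0 hy1) (mul_nonneg (by norm_num : (0 : ℝ) ≤ 4 / 9) hD)
  have hr2 := mul_le_mul_of_nonneg_left (r2 hy0 hy1)
    (mul_nonneg (mul_nonneg (by norm_num : (0 : ℝ) ≤ 3 / 4) (sq_nonneg l)) (sq_nonneg D))
  have hr3 := mul_le_mul_of_nonneg_left (r3 hy0 hy1)
    (mul_nonneg (mul_nonneg (by norm_num : (0 : ℝ) ≤ 3 / 2) (by positivity : (0 : ℝ) ≤ l ^ 4))
      (pow_nonneg hD 3))
  have e5 : (1 - l * x) * cl (3 * l ^ 2 * D / (2 + l * x) ^ 2) =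
      (4 / 9 * D * ((1 - l * x) / (2 + l * x) ^ 2) +
      3 / 4 * l ^ 2 * D ^ 2 * ((1 - l * x) / (2 + l * x) ^ 4) +
      3 / 2 * l ^ 4 * D ^ 3 * ((1 - l * x) / (2 + l * x) ^ 6)) * (3 * l ^ 2) := by
    unfold cl
    field_simp
    ring
  rw [e5]
  refine mul_le_mul_of_nonneg_right ?_ (by positivity)
  unfold zt
  rw [← hDdef]
  linarith

theorem cert_hG (l : ℝ) (h0 : 0 < l) (h1 : l ≤ 1 / 3) (u : Fin 3 → ℝ) (hu : Simp u) :
    Gl ![(18 : ℝ) / 25] ![(5 : ℝ) / 9] l u + 1 / 1000 * m2 u ^ 2 ≤ piP u := by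
  have hs := hu.1
  rw [Fin.sum_univ_three] at hs
  have hl2 : 0 < l ^ 2 := by positivity
  have hm := m2_eq u
  -- drift
  have hJ : 8 / 9 * (JL l u / l ^ 2) ≤ 4 / 9 * (sl l (u 0) + sl l (u 1) + sl l (u 2)) := by
    rw [JL_eq hu]
    have p0 := phi_le h0 h1 (hu.2 0) (hu.le_two 0)
    have p1 := phi_le h0 h1 (hu.2 1) (hu.le_two 1)
    have p2 := phi_le h0 h1 (hu.2 2) (hu.le_two 2)
    rw [← mul_div_assoc, div_le_iff₀ hl2]
    nlinarith
  -- Z
  have z0 := zt_le h0 h1 (hu.2 0) (hu.le_two 0) (hu.2 1) (hu.2 2) hs hm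
  have z1 := zt_le h0 h1 (hu.2 1) (hu.le_two 1) (hu.2 2) (hu.2 0)
    (by linarith : u 1 + u 2 + u 0 = 0) (by rw [hm]; ring : m2 u = (u 1 ^ 2 + u 2 ^ 2 + u 0 ^ 2) / 3)
  have z2 := zt_le h0 h1 (hu.2 2) (hu.le_two 2) (hu.2 0) (hu.2 1)
    (by linarith : u 2 + u 0 + u 1 = 0) (by rw [hm]; ring : m2 u = (u 2 ^ 2 + u 0 ^ 2 + u 1 ^ 2) / 3)
  set Z := zt (m2 u) l (u 0) + zt (m2 u) l (u 1) + zt (m2 u) l (u 2) with hZ
  have hX : Z ≤ 18 / 25 * ((1 - CC (5 / 9) l u) / l ^ 2) := by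
    rw [CC_eq, ← mul_div_assoc, le_div_iff₀ hl2]
    have h2 : u 2 = -u 0 - u 1 := by linarith
    have e : (1 : ℝ) = 1 / 3 * ((1 - l * u 0) + (1 - l * u 1) + (1 - l * u 2)) := by
      rw [h2]; ring
    nlinarith [z0, z1, z2, e]
  obtain ⟨x, y, z, hxy, hyz, hf, hk, hz⟩ := sort3 u
  have hz1 : -1 ≤ z := by
    rcases hz with h | h | h <;> rw [h] <;> exact hu.2 _
  have hs' : x + y + z = 0 := by
    have := hf id
    simp only [id] at this
    linarith
  have hm' : m2 u = (x ^ 2 + y ^ 2 + z ^ 2) / 3 := by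
    have := hf (fun t => t ^ 2)
    rw [hm, this]
  have hZ' : Z = zt (m2 u) l x + zt (m2 u) l y + zt (m2 u) l z := hf (zt (m2 u) l)
  obtain ⟨hZ0, hfin⟩ := final_ineq h0.le h1 hxy hyz hz1 hs' hm' rfl hZ'
  have hP := Pz_le hZ0 hX
  have hsl := hf (sl l)
  have hQ := hf Qp
  rw [← hsl, ← hQ, ← hk] at hfin
  unfold Gl piP
  simp only [Finset.univ_unique, Fin.default_eq_zero, Finset.sum_singleton, Matrix.cons_val_fin_one]
  linarith

theorem cert_hC (l : ℝ) (h0 : 0 < l) (h1 : l ≤ 1 / 3) (u : Fin 3 → ℝ) (hu : Simp u) :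
    -(1 / 4) ≤ CC (5 / 9) l u := by
  have hb := qv_bounds h0 h1 hu
  have hlog : ∀ a, -(7 / 5) ≤ Real.log (1 - l * u a) ∧ Real.log (1 - l * u a) ≤ 1 / 3 := by
    intro a
    obtain ⟨h2, h3⟩ := hb a
    unfold qv at h2 h3
    have hpos : 0 < 1 - l * u a := by linarith
    constructor
    · have h4 : Real.log (1 / 4) ≤ Real.log (1 - l * u a) :=
        Real.log_le_log (by norm_num) (by linarith)
      have h5 : Real.log (1 / 4) = -(2 * Real.log 2) := by
        rw [one_div, Real.log_inv, show (4 : ℝ) = 2 ^ 2 by norm_num, Real.log_pow]; norm_num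
      have h9 := Real.log_two_lt_d9
      linarith
    · have := Real.log_le_sub_one_of_pos hpos
      linarith
  have hcos : ∀ a b, 0 ≤ Real.cos (5 / 9 * (Real.log (1 - l * u a) - Real.log (1 - l * u b))) := by
    intro a b
    obtain ⟨h2, h3⟩ := hlog a
    obtain ⟨h4, h5⟩ := hlog b
    have hpi := Real.pi_gt_three
    exact Real.cos_nonneg_of_neg_pi_div_two_le_of_le (by linarith) (by linarith)
  rw [CC_eq]
  have hq : ∀ a, 0 ≤ 1 - l * u a := fun a => by
    have := (hb a).1; unfold qv at this; linarith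
  have := mul_nonneg (hq 0) (hcos 1 2)
  have := mul_nonneg (hq 1) (hcos 2 0)
  have := mul_nonneg (hq 2) (hcos 0 1)
  linarith

/-- the certificate -/
theorem certL : CertL ![(18 : ℝ) / 25] ![(5 : ℝ) / 9] (1 / 3) piP (1 / 1000) where
  wt_nonneg := by intro j; fin_cases j; norm_num
  l0_pos := by norm_num
  l0_lt := by norm_num
  bdd := bdd_piP
  hV := cert_hV
  hC := by
    intro j l h0 h1 u hu
    fin_cases j
    exact cert_hC l h0 h1 u hu
  hG := cert_hG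

theorem antiPoi_large (d : ℝ) (hd : 9 ≤ d) : AntiPoi d :=
  antiPoi_of_certL (by norm_num) certL d (by norm_num; exact hd)

theorem antiReg_large (b : ℕ) (hb : 9 ≤ b) : AntiReg b :=
  antiReg_of_certL (by norm_num) certL b (by norm_num; exact hb)

end Crest.Agent.R163.Lg
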