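import Crest.Agent.R163.ScA
import Crest.Agent.R163.Knot4

/-!
# Row 163: Poisson case from the data
-/

set_option autoImplicit false

namespace Crest.Agent.R163.KnP

open Finset Filter

theorem antiPoi_of_data {d s : ℝ} (hd : 4 ≤ d) (hs : s = 1 / Real.sqrt d) (h : PoiData s) :
    AntiPoi d :=
  antiPoi_final hd hs (tau1 := 885 / 1000) (by norm_num) (by norm_num) (by norm_num)
    (by norm_num) (fun _ ht => poi_hlev h ht) (poi_hk h)

end Crest.Agent.R163.KnP
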