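import Crest.Agent.R163.BxM
import Crest.Agent.R163.ScP
import Crest.Agent.R163.ScB
import Crest.Agent.R163.Kn4
import Crest.Agent.R163.LgF

/-!
# Row 163: assembly of the antiferromagnetic cases of S0244
-/

set_option autoImplicit false

namespace Crest.Agent.R163

open Finset Filter Bx

/-- Poisson, all degrees -/
theorem antiPoi_all (hA : ∀ s : ℝ, 1 / 3 ≤ s → s ≤ 1 / 2 → PoiPos s) (d : ℝ) (hd : 4 ≤ d) :
    AntiPoi d := by
  rcases le_total 9 d with h | h
  · exact Lg.antiPoi_large d h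
  · obtain ⟨-, hs1, -⟩ := s_facts hd rfl
    refine KnP.antiPoi_of_data hd rfl (hA _ ?_ hs1).data
    have h1 : Real.sqrt d ≤ 3 := by
      rw [show (3 : ℝ) = Real.sqrt (3 ^ 2) by rw [Real.sqrt_sq (by norm_num)]]
      exact Real.sqrt_le_sqrt (by linarith)
    have h2 : 0 < Real.sqrt d := Real.sqrt_pos.2 (by linarith)
    exact one_div_le_one_div_of_le h2 h1

/-- regular trees -/
theorem antiReg_all (hB : ∀ s : ℝ, 3535 / 10000 ≤ s → s ≤ 4473 / 10000 → RegPos s)
    (hC : FourPos (1 / 2)) (b : ℕ) (hb : 4 ≤ b) : AntiReg b := by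
  rcases Nat.lt_or_ge b 9 with h | h
  · rcases Nat.lt_or_ge b 5 with h5 | h5
    · have : b = 4 := by omega
      subst this
      exact KnP.antiReg_four hC.data (knQ1 hC.q1)
    · have hb5 : (5 : ℝ) ≤ (b : ℝ) := by exact_mod_cast h5
      have hb8 : (b : ℝ) ≤ 8 := by
        have : b ≤ 8 := by omega
        exact_mod_cast this
      have h0 : 0 < Real.sqrt b := Real.sqrt_pos.2 (by linarith)
      refine KnP.antiReg_of_data h5 (by omega) rfl (hB _ ?_ ?_).data
      · rw [le_div_iff₀ h0]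
        have h1 : Real.sqrt b ≤ Real.sqrt (2.8285 ^ 2) := Real.sqrt_le_sqrt (by
          refine hb8.trans ?_
          norm_num)
        rw [Real.sqrt_sq (by norm_num)] at h1
        linarith
      · rw [div_le_iff₀ h0]
        have h1 : Real.sqrt (2.236 ^ 2) ≤ Real.sqrt b := Real.sqrt_le_sqrt (by
          refine le_trans ?_ hb5
          norm_num)
        rw [Real.sqrt_sq (by norm_num)] at h1
        linarith
  · exact Lg.antiReg_large b h

/-- **S0244 from the three families of kernel certificates** -/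
theorem s0244_final (hA : ∀ s : ℝ, 1 / 3 ≤ s → s ≤ 1 / 2 → PoiPos s)
    (hB : ∀ s : ℝ, 3535 / 10000 ≤ s → s ≤ 4473 / 10000 → RegPos s) (hC : FourPos (1 / 2)) :
    (∀ b : ℕ, 2 ≤ b → ∀ lam : ℝ, -(1 / 2 : ℝ) ≤ lam → lam ≤ 1 → (b : ℝ) * lam ^ 2 ≤ 1 →
      Filter.Tendsto (Crest.ProbabilityR.Broadcast.advantage 3 b lam) Filter.atTop (nhds 0)) ∧
    (∀ d : ℝ, 1 < d → ∀ lam : ℝ, -(1 / 2 : ℝ) ≤ lam → lam ≤ 1 → d * lam ^ 2 ≤ 1 →
      Filter.Tendsto (Crest.ProbabilityR.Broadcast.gwAdvantage 3 lam d) Filter.atTop (nhds 0)) :=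
  s0244_of (fun b hb => antiReg_all hB hC b hb) (fun d hd => antiPoi_all hA d hd)

end Crest.Agent.R163
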