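import Crest.Agent.R163.Sym

/-!
# Row 163: fixed-point certificates

`GProc q lam G ι w` : what we use of the two processes (`G t = t ^ b`, `G t = exp (d (t - 1))`).

`fix_pre` : from a pointwise inequality on the simplex
`R v ≤ ∑ x_j (a_j + s_j m_j(Tv) - m_j v) + ∑ y_j (n_j v - H (n_j (Tv))) + g0 M0 v + mu M0(Tv)`
(`a_j + s_j t ≤ G t`, `H ≥ G` convex, `x, y ≥ 0`, `g0, mu` arbitrary) one gets
`Ex R (w n) ≤ ∑ x_j (m_j(n+1) - m_j(n)) + ∑ y_j (n_j(n) - n_j(n+1)) + g0 M0(n) + mu M0(T n)`,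
and in the limit `fix_cert`: `lim Ex R ≤ g0 G(T0) + mu T0`.
-/

set_option autoImplicit false

namespace Crest.Agent.R163

open Finset Filter

variable {q : ℕ}

/-- abstract process: the expectation of multiplicative functionals is transformed by `G` -/
structure GProc (q : ℕ) (lam : ℝ) (G : ℝ → ℝ) (ι : ℕ → Type) (w : ∀ n, ι n → Fin q → ℝ) :
    Prop where
  isExp : ∀ n, IsExp (w n)
  isSymm : ∀ n, IsSymm (w n)
  dom : ∀ n, Dom (w (n + 1)) (w n)
  mf : ∀ F : (Fin q → ℝ) → ℝ, MF F → ∀ n, Ex F (w (n + 1)) = G (Ex F (ch lam (w n)))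

theorem gproc_reg (hq : 1 < q) {lam : ℝ} (hl0 : -(1 / ((q : ℝ) - 1)) ≤ lam) (hl1 : lam ≤ 1)
    {b : ℕ} {ι : ℕ → Type} {w : ∀ n, ι n → Fin q → ℝ} (hw : IsProcess q lam (pReg b) ι w) :
    GProc q lam (fun t => t ^ b) ι w where
  isExp := hw.isExp
  isSymm := hw.isSymm
  dom := dom_succ hq hl0 hl1 (fun c => by
    show 0 ≤ (if c = b then (1 : ℝ) else 0)
    split_ifs <;> norm_num)
    (hasSum_ite_eq b (1 : ℝ)).summable hw
  mf := fun F hF n => hF.reg hq hl0 hl1 hw n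

theorem gproc_poi (hq : 1 < q) {lam : ℝ} (hl0 : -(1 / ((q : ℝ) - 1)) ≤ lam) (hl1 : lam ≤ 1)
    {d : ℝ} (hd : 0 ≤ d) {ι : ℕ → Type} {w : ∀ n, ι n → Fin q → ℝ}
    (hw : IsProcess q lam (pPoi d) ι w) :
    GProc q lam (fun t => Real.exp (d * (t - 1))) ι w where
  isExp := hw.isExp
  isSymm := hw.isSymm
  dom := dom_succ hq hl0 hl1 (pPoi_nonneg d hd) (hasSum_pPoi d).summable hw
  mf := fun F hF n => hF.poi hq hl0 hl1 hw n

theorem homog_comp_chv (hq : 1 < q) {lam : ℝ} (hl0 : -(1 / ((q : ℝ) - 1)) ≤ lam) (hl1 : lam ≤ 1)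
    {F : (Fin q → ℝ) → ℝ} (hF : Homog F) : Homog (fun v => F (chv lam v)) := by
  intro t v ht hv
  show F (chv lam fun a => t * v a) = t * F (chv lam v)
  rw [chv_smul, hF t (chv lam v) ht (chv_nonneg hq hl0 hl1 v hv)]

theorem cont_comp_chv (hq : 1 < q) {lam : ℝ} (hl0 : -(1 / ((q : ℝ) - 1)) ≤ lam) (hl1 : lam ≤ 1)
    {F : (Fin q → ℝ) → ℝ} (hF : ContinuousOn F (simpK q)) :
    ContinuousOn (fun v => F (chv lam v)) (simpK q) := by
  refine hF.comp (t := simpK q) (Continuous.continuousOn ?_) fun v hv => ?_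
  · refine continuous_pi fun a => ?_
    unfold chv mass
    fun_prop
  · exact ⟨chv_nonneg hq hl0 hl1 v hv.1, by rw [mass_chV (by omega)]; exact hv.2⟩

/-- the convexity used in the Jensen step -/
def SupLine (H : ℝ → ℝ) : Prop := ∀ T : ℝ, ∃ c : ℝ, ∀ t : ℝ, H T + c * (t - T) ≤ H t

theorem supLine_exp (d : ℝ) : SupLine (fun t => Real.exp (d * (t - 1))) := by
  intro T
  refine ⟨d * Real.exp (d * (T - 1)), fun t => ?_⟩
  have h := Real.add_one_le_exp (d * (t - T))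
  have e : Real.exp (d * (t - 1)) = Real.exp (d * (T - 1)) * Real.exp (d * (t - T)) := by
    rw [← Real.exp_add]; congr 1; ring
  show Real.exp (d * (T - 1)) + d * Real.exp (d * (T - 1)) * (t - T) ≤ Real.exp (d * (t - 1))
  rw [e]
  nlinarith [mul_le_mul_of_nonneg_left h (Real.exp_pos (d * (T - 1))).le]

theorem supLine_of_convex {H : ℝ → ℝ} (hH : ConvexOn ℝ Set.univ H)
    (hd : Differentiable ℝ H) : SupLine H := by
  intro T
  refine ⟨deriv H T, fun t => ?_⟩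
  rcases lt_trichotomy T t with h | rfl | h
  · have h1 := hH.deriv_le_slope (Set.mem_univ T) (Set.mem_univ t) h (hd T)
    rw [slope_def_field, le_div_iff₀ (by linarith)] at h1
    linarith
  · simp
  · have h1 := hH.slope_le_deriv (Set.mem_univ t) (Set.mem_univ T) h (hd T)
    rw [slope_def_field, div_le_iff₀ (by linarith)] at h1
    linarith

theorem supLine_pow {b : ℕ} (hb : Even b) : SupLine (fun t => t ^ b) :=
  supLine_of_convex hb.convexOn_pow (differentiable_pow b)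

/-- `max t 0 ^ b` -/
theorem supLine_posPow {b : ℕ} (hb : 1 ≤ b) : SupLine (fun t => max t 0 ^ b) := by
  intro T
  rcases le_total T 0 with hT | hT
  · refine ⟨0, fun t => ?_⟩
    show max T 0 ^ b + 0 * (t - T) ≤ max t 0 ^ b
    rw [max_eq_right hT, zero_pow (by omega)]
    have : 0 ≤ max t 0 ^ b := pow_nonneg (le_max_right _ _) _
    linarith
  · refine ⟨b * T ^ (b - 1), fun t => ?_⟩
    show max T 0 ^ b + b * T ^ (b - 1) * (t - T) ≤ max t 0 ^ b
    rw [max_eq_left hT]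
    -- reduce to `t ≥ 0`
    have key : ∀ t : ℝ, 0 ≤ t → T ^ b + b * T ^ (b - 1) * (t - T) ≤ t ^ b := by
      intro t ht
      rcases hT.eq_or_lt with h0 | h0
      · rw [← h0]
        rcases Nat.lt_or_ge 1 b with h1 | h1
        · rw [zero_pow (by omega : b ≠ 0), zero_pow (by omega : b - 1 ≠ 0)]
          have := pow_nonneg ht b
          linarith
        · have : b = 1 := by omega
          subst this
          simp
      · have h2 := one_add_mul_le_pow (a := t / T - 1) (by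
          have : 0 ≤ t / T := div_nonneg ht h0.le
          linarith) b
        have e1 : 1 + (t / T - 1) = t / T := by ring
        rw [e1, div_pow, le_div_iff₀ (pow_pos h0 b)] at h2
        have e2 : T ^ b = T ^ (b - 1) * T := by
          rw [← pow_succ]; congr 1; omega
        calc T ^ b + b * T ^ (b - 1) * (t - T) = (1 + b * (t / T - 1)) * T ^ b := by
              rw [e2]; field_simp
          _ ≤ t ^ b := h2
    have h3 := key (max t 0) (le_max_right _ _)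
    have h4 : b * T ^ (b - 1) * (t - T) ≤ b * T ^ (b - 1) * (max t 0 - T) :=
      mul_le_mul_of_nonneg_left (by linarith [le_max_left t 0]) (by positivity)
    linarith

/-- Jensen -/
theorem jensen_sup (hq : 0 < q) {ι : Type} {w : ι → Fin q → ℝ} (hw : IsExp w)
    {F : (Fin q → ℝ) → ℝ} (hF : MBdd F) (hH : Homog F) {H : ℝ → ℝ} (hs : SupLine H)
    (hsum : Summable fun i => mass (w i) * H (nrm F (w i))) :
    H (Ex F w) ≤ ∑' i, mass (w i) * H (nrm F (w i)) := by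
  obtain ⟨c, hc⟩ := hs (Ex F w)
  have hmass := hw.hasSum_mass hq
  have hFs := (hw.summable hq hF).hasSum
  have h1 : HasSum (fun i => H (Ex F w) * mass (w i) + c * (F (w i) - Ex F w * mass (w i)))
      (H (Ex F w) * 1 + c * (Ex F w - Ex F w * 1)) :=
    (hmass.mul_left _).add ((hFs.sub (hmass.mul_left _)).mul_left c)
  have h2 : H (Ex F w) * 1 + c * (Ex F w - Ex F w * 1) = H (Ex F w) := by ring
  rw [h2] at h1
  rw [← h1.tsum_eq]
  refine Summable.tsum_le_tsum (fun i => ?_) h1.summable hsum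
  have h3 := mass_mul_nrm hq hH (w i) (hw.nonneg i)
  have h4 := mul_le_mul_of_nonneg_left (hc (nrm F (w i))) (mass_nonneg _ (hw.nonneg i))
  calc H (Ex F w) * mass (w i) + c * (F (w i) - Ex F w * mass (w i))
      = mass (w i) * (H (Ex F w) + c * (nrm F (w i) - Ex F w)) := by rw [← h3]; ring
    _ ≤ _ := h4

/-- the right hand side of a fixed-point certificate -/
noncomputable def ptf {k l : ℕ} (lam : ℝ) (x a s : Fin k → ℝ) (F : Fin k → (Fin q → ℝ) → ℝ)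
    (y : Fin l → ℝ) (H : ℝ → ℝ) (E : Fin l → (Fin q → ℝ) → ℝ) (F0 : (Fin q → ℝ) → ℝ) (g0 mu : ℝ)
    (v : Fin q → ℝ) : ℝ :=
  ∑ j, x j * (a j + s j * F j (chv lam v) - F j v) +
    ∑ j, y j * (E j v - H (E j (chv lam v))) + g0 * F0 v + mu * F0 (chv lam v)

/-- one step -/
theorem step_ineq (hq : 1 < q) {lam : ℝ} (hl0 : -(1 / ((q : ℝ) - 1)) ≤ lam) (hl1 : lam ≤ 1)
    {G : ℝ → ℝ} {κ : Type} {Q : κ → Fin q → ℝ} (hQ : IsExp Q)
    {k l : ℕ} (x a s : Fin k → ℝ) (hx : ∀ j, 0 ≤ x j) (F : Fin k → (Fin q → ℝ) → ℝ)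
    (hF : ∀ j, MF (F j))
    (hline : ∀ j, a j + s j * Ex (F j) (ch lam Q) ≤ G (Ex (F j) (ch lam Q)))
    (y : Fin l → ℝ) (hy : ∀ j, 0 ≤ y j) (H : ℝ → ℝ) (hH : SupLine H)
    (hHb : ∀ C : ℝ, ∃ D : ℝ, ∀ t, |t| ≤ C → |H t| ≤ D) (hHG : ∀ t, |t| ≤ 1 → G t ≤ H t)
    (E : Fin l → (Fin q → ℝ) → ℝ) (hE : ∀ j, MF (E j)) (F0 : (Fin q → ℝ) → ℝ) (hF0 : MF F0)
    (g0 mu : ℝ) (R : (Fin q → ℝ) → ℝ) (hRH : Homog R) (hRb : MBdd R)
    (hpt : ∀ v ∈ simpK q, R v ≤ ptf lam x a s F y H E F0 g0 mu v) :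
    Ex R Q ≤ ∑ j, x j * (G (Ex (F j) (ch lam Q)) - Ex (F j) Q) +
      ∑ j, y j * (Ex (E j) Q - G (Ex (E j) (ch lam Q))) + g0 * Ex F0 Q +
      mu * Ex F0 (ch lam Q) := by
  have hq0 : 0 < q := by omega
  have hch : IsExp (ch lam Q) := isExp_ch hq hl0 hl1 hQ
  have hmass := hQ.hasSum_mass hq0
  have hz1 : ∀ F : (Fin q → ℝ) → ℝ, Homog F → ∀ i, mass (Q i) * nrm F (Q i) = F (Q i) :=
    fun F hF i => mass_mul_nrm hq0 hF _ (hQ.nonneg i)
  -- homogeneous extension of the pointwise inequality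
  have hsumH : ∀ j, Summable fun i => mass (Q i) * H (nrm (E j) (chv lam (Q i))) := by
    intro j
    obtain ⟨C, hC, hb⟩ := abs_nrm_le hq (hE j)
    obtain ⟨D, hD⟩ := hHb C
    refine Summable.of_norm_bounded (g := fun i => D * mass (Q i))
      (hmass.summable.mul_left _) fun i => ?_
    have hm := mass_nonneg _ (hQ.nonneg i)
    rw [Real.norm_eq_abs, abs_mul, abs_of_nonneg hm, mul_comm]
    exact mul_le_mul_of_nonneg_right (hD _ (hb _ (chv_nonneg hq hl0 hl1 _ (hQ.nonneg i)))) hm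
  have hpt' : ∀ i, R (Q i) ≤
      (∑ j, x j * (a j * mass (Q i) + s j * F j (ch lam Q i) - F j (Q i)) +
      ∑ j, y j * (E j (Q i) - mass (Q i) * H (nrm (E j) (chv lam (Q i)))) +
      g0 * F0 (Q i)) + mu * F0 (ch lam Q i) := by
    intro i
    by_cases hm : mass (Q i) = 0
    · have h0 : Q i = fun _ => (0 : ℝ) := by
        funext a; exact eq_zero_of_mass_eq_zero hq0 _ (hQ.nonneg i) hm a
      have hz : ∀ F : (Fin q → ℝ) → ℝ, Homog F → F (fun _ => (0 : ℝ)) = 0 := by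
        intro F hF
        have := hF 0 (fun _ => 0) le_rfl (fun _ => le_rfl)
        simpa using this
      have hc0 : ch lam Q i = fun _ => (0 : ℝ) := by
        funext a
        unfold ch
        rw [hm, h0]; ring
      rw [hc0, hm, h0, hz R hRH, hz F0 hF0.homog]
      have e1 : ∀ j, x j * (a j * 0 + s j * F j (fun _ => (0 : ℝ)) - F j (fun _ => (0 : ℝ))) = 0 := by
        intro j; rw [hz _ (hF j).homog]; ring
      have e2 : ∀ j, y j * (E j (fun _ => (0 : ℝ)) -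
          0 * H (nrm (E j) (chv lam (fun _ => (0 : ℝ))))) = 0 := by
        intro j; rw [hz _ (hE j).homog]; ring
      rw [Finset.sum_eq_zero fun j _ => e1 j, Finset.sum_eq_zero fun j _ => e2 j]
      simp
    · have hm' : 0 < mass (Q i) := lt_of_le_of_ne (mass_nonneg _ (hQ.nonneg i)) (Ne.symm hm)
      have ht : 0 < (mass (Q i))⁻¹ := inv_pos.2 hm'
      set v : Fin q → ℝ := fun a => (mass (Q i))⁻¹ * Q i a with hv
      have hvn : ∀ a, 0 ≤ v a := fun a => mul_nonneg ht.le (hQ.nonneg i a)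
      have h1 := hpt v ⟨hvn, by rw [hv, mass_smul]; exact inv_mul_cancel₀ hm⟩
      have hR1 : ∀ F : (Fin q → ℝ) → ℝ, Homog F → F v = (mass (Q i))⁻¹ * F (Q i) :=
        fun F hF => hF _ _ ht.le (hQ.nonneg i)
      have hR2 : ∀ F : (Fin q → ℝ) → ℝ, Homog F → F (chv lam v) = (mass (Q i))⁻¹ * F (ch lam Q i) := by
        intro F hF
        rw [hv, chv_smul, hF _ _ ht.le (chv_nonneg hq hl0 hl1 _ (hQ.nonneg i)), ch_eq_chv]
      have hR3 : ∀ j, H (E j (chv lam v)) = H (nrm (E j) (chv lam (Q i))) := by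
        intro j
        congr 1
        unfold nrm
        rw [mass_chV hq0, hR2 _ (hE j).homog, ch_eq_chv, div_eq_inv_mul]
      have h2 := mul_le_mul_of_nonneg_left h1 hm'.le
      rw [hR1 R hRH, mul_inv_cancel_left₀ hm] at h2
      refine h2.trans (le_of_eq ?_)
      unfold ptf
      rw [mul_add, mul_add, mul_add, Finset.mul_sum, Finset.mul_sum]
      congr 1
      · congr 1
        · congr 1
          · refine Finset.sum_congr rfl fun j _ => ?_
            rw [hR1 _ (hF j).homog, hR2 _ (hF j).homog]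
            field_simp
          · refine Finset.sum_congr rfl fun j _ => ?_
            rw [hR1 _ (hE j).homog, hR3 j]
            field_simp
        · rw [hR1 _ hF0.homog]; field_simp
      · rw [hR2 _ hF0.homog]; field_simp
  -- sum over i
  have hS1 : ∀ F : (Fin q → ℝ) → ℝ, MF F → HasSum (fun i => F (Q i)) (Ex F Q) := fun F hF =>
    (hQ.summable hq0 hF.mbdd).hasSum
  have hS2 : ∀ F : (Fin q → ℝ) → ℝ, MF F → HasSum (fun i => F (ch lam Q i)) (Ex F (ch lam Q)) :=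
    fun F hF => (hch.summable hq0 hF.mbdd).hasSum
  have hA : HasSum (fun i => ∑ j, x j * (a j * mass (Q i) + s j * F j (ch lam Q i) - F j (Q i)))
      (∑ j, x j * (a j * 1 + s j * Ex (F j) (ch lam Q) - Ex (F j) Q)) :=
    hasSum_sum fun j _ => (((hmass.mul_left (a j)).add ((hS2 _ (hF j)).mul_left (s j))).sub
      (hS1 _ (hF j))).mul_left (x j)
  have hB : HasSum (fun i => ∑ j, y j * (E j (Q i) - mass (Q i) * H (nrm (E j) (chv lam (Q i)))))
      (∑ j, y j * (Ex (E j) Q - ∑' i, mass (Q i) * H (nrm (E j) (chv lam (Q i))))) :=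
    hasSum_sum fun j _ => ((hS1 _ (hE j)).sub (hsumH j).hasSum).mul_left (y j)
  have hC := ((hA.add hB).add ((hS1 _ hF0).mul_left g0)).add ((hS2 _ hF0).mul_left mu)
  have hR := (hQ.summable hq0 hRb).hasSum
  have hle := hasSum_le hpt' hR hC
  refine hle.trans ?_
  gcongr ?_ + ?_ + _ + _
  · refine Finset.sum_le_sum fun j _ => mul_le_mul_of_nonneg_left ?_ (hx j)
    rw [mul_one]
    linarith [hline j]
  · refine Finset.sum_le_sum fun j _ => mul_le_mul_of_nonneg_left ?_ (hy j)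
    have h1 := hHG (Ex (E j) (ch lam Q)) ((hE j).abs_le_one _ _ hch)
    have h2 := jensen_sup hq0 hch (hE j).mbdd (hE j).homog hH (by
      refine (hsumH j).congr fun i => ?_
      rw [ch_eq_chv, mass_chV hq0])
    have h3 : (∑' i, mass (ch lam Q i) * H (nrm (E j) (ch lam Q i))) =
        ∑' i, mass (Q i) * H (nrm (E j) (chv lam (Q i))) :=
      tsum_congr fun i => by rw [ch_eq_chv, mass_chV hq0]
    rw [h3] at h2
    linarith

theorem fix_pre (hq : 1 < q) {lam : ℝ} (hl0 : -(1 / ((q : ℝ) - 1)) ≤ lam) (hl1 : lam ≤ 1)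
    {G : ℝ → ℝ} {ι : ℕ → Type} {w : ∀ n, ι n → Fin q → ℝ} (hw : GProc q lam G ι w)
    {k l : ℕ} (x a s : Fin k → ℝ) (hx : ∀ j, 0 ≤ x j) (F : Fin k → (Fin q → ℝ) → ℝ)
    (hF : ∀ j, MF (F j))
    (hline : ∀ j, ∀ n, a j + s j * Ex (F j) (ch lam (w n)) ≤ G (Ex (F j) (ch lam (w n))))
    (y : Fin l → ℝ) (hy : ∀ j, 0 ≤ y j) (H : ℝ → ℝ) (hH : SupLine H)
    (hHb : ∀ C : ℝ, ∃ D : ℝ, ∀ t, |t| ≤ C → |H t| ≤ D) (hHG : ∀ t, |t| ≤ 1 → G t ≤ H t)
    (E : Fin l → (Fin q → ℝ) → ℝ) (hE : ∀ j, MF (E j)) (F0 : (Fin q → ℝ) → ℝ) (hF0 : MF F0)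
    (g0 mu : ℝ) (R : (Fin q → ℝ) → ℝ) (hRH : Homog R) (hRb : MBdd R)
    (hpt : ∀ v ∈ simpK q, R v ≤ ptf lam x a s F y H E F0 g0 mu v) (n : ℕ) :
    Ex R (w n) ≤ ∑ j, x j * (Ex (F j) (w (n + 1)) - Ex (F j) (w n)) +
      ∑ j, y j * (Ex (E j) (w n) - Ex (E j) (w (n + 1))) + g0 * Ex F0 (w n) +
      mu * Ex F0 (ch lam (w n)) := by
  refine (step_ineq hq hl0 hl1 (G := G) (hw.isExp n) x a s hx F hF (fun j => hline j n) y hy H hH
    hHb hHG E hE F0 hF0 g0 mu R hRH hRb hpt).trans (le_of_eq ?_)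
  simp only [hw.mf _ (hF _) n, hw.mf _ (hE _) n]

/-- the limits exist -/
theorem GProc.lim (hq : 1 < q) {lam : ℝ} {G : ℝ → ℝ} {ι : ℕ → Type} {w : ∀ n, ι n → Fin q → ℝ}
    (hw : GProc q lam G ι w) {F : (Fin q → ℝ) → ℝ} (hH : Homog F)
    (hc : ContinuousOn F (simpK q)) : ∃ L, Tendsto (fun n => Ex F (w n)) atTop (nhds L) :=
  Ex_tendsto (by omega) hw.isExp hw.dom hH hc

theorem GProc.limT (hq : 1 < q) {lam : ℝ} (hl0 : -(1 / ((q : ℝ) - 1)) ≤ lam) (hl1 : lam ≤ 1)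
    {G : ℝ → ℝ} {ι : ℕ → Type} {w : ∀ n, ι n → Fin q → ℝ}
    (hw : GProc q lam G ι w) {F : (Fin q → ℝ) → ℝ} (hH : Homog F)
    (hc : ContinuousOn F (simpK q)) :
    ∃ L, Tendsto (fun n => Ex F (ch lam (w n))) atTop (nhds L) := by
  obtain ⟨L, hL⟩ := hw.lim hq (homog_comp_chv hq hl0 hl1 hH) (cont_comp_chv hq hl0 hl1 hc)
  exact ⟨L, hL⟩

/-- **fixed-point certificate** -/
theorem fix_cert (hq : 1 < q) {lam : ℝ} (hl0 : -(1 / ((q : ℝ) - 1)) ≤ lam) (hl1 : lam ≤ 1)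
    {G : ℝ → ℝ} (hG : Continuous G) {ι : ℕ → Type} {w : ∀ n, ι n → Fin q → ℝ}
    (hw : GProc q lam G ι w)
    {k l : ℕ} (x a s : Fin k → ℝ) (hx : ∀ j, 0 ≤ x j) (F : Fin k → (Fin q → ℝ) → ℝ)
    (hF : ∀ j, MFc (F j))
    (hline : ∀ j, ∀ n, a j + s j * Ex (F j) (ch lam (w n)) ≤ G (Ex (F j) (ch lam (w n))))
    (y : Fin l → ℝ) (hy : ∀ j, 0 ≤ y j) (H : ℝ → ℝ) (hH : SupLine H)
    (hHb : ∀ C : ℝ, ∃ D : ℝ, ∀ t, |t| ≤ C → |H t| ≤ D) (hHG : ∀ t, |t| ≤ 1 → G t ≤ H t)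
    (E : Fin l → (Fin q → ℝ) → ℝ) (hE : ∀ j, MFc (E j)) (F0 : (Fin q → ℝ) → ℝ) (hF0 : MFc F0)
    (g0 mu : ℝ) (R : (Fin q → ℝ) → ℝ) (hRH : Homog R) (hRb : MBdd R)
    (hpt : ∀ v ∈ simpK q, R v ≤ ptf lam x a s F y H E F0 g0 mu v) (T0 LR : ℝ)
    (hT0 : Tendsto (fun n => Ex F0 (ch lam (w n))) atTop (nhds T0))
    (hLR : Tendsto (fun n => Ex R (w n)) atTop (nhds LR)) : LR ≤ g0 * G T0 + mu * T0 := by
  have hpre := fix_pre hq hl0 hl1 hw x a s hx F (fun j => (hF j).toMF) hline y hy H hH hHb hHG E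
    (fun j => (hE j).toMF) F0 hF0.toMF g0 mu R hRH hRb hpt
  have hd : ∀ F : (Fin q → ℝ) → ℝ, MFc F →
      Tendsto (fun n => Ex F (w (n + 1)) - Ex F (w n)) atTop (nhds 0) := by
    intro F hF
    obtain ⟨L, hL⟩ := hw.lim hq hF.homog hF.cont
    have := (hL.comp (tendsto_add_atTop_nat 1)).sub hL
    rw [sub_self] at this
    exact this
  have hG0 : Tendsto (fun n => Ex F0 (w n)) atTop (nhds (G T0)) := by
    obtain ⟨L, hL⟩ := hw.lim hq hF0.homog hF0.cont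
    have h1 : Tendsto (fun n => Ex F0 (w (n + 1))) atTop (nhds (G T0)) := by
      refine ((hG.tendsto T0).comp hT0).congr fun n => ?_
      exact (hw.mf _ hF0.toMF n).symm
    have h2 := hL.comp (tendsto_add_atTop_nat 1)
    rw [tendsto_nhds_unique h1 h2]
    exact hL
  have h1 : Tendsto (fun n => ∑ j, x j * (Ex (F j) (w (n + 1)) - Ex (F j) (w n))) atTop
      (nhds (∑ j : Fin k, x j * 0)) :=
    tendsto_finsetSum _ fun j _ => (hd _ (hF j)).const_mul (x j)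
  have h2 : Tendsto (fun n => ∑ j, y j * (Ex (E j) (w n) - Ex (E j) (w (n + 1)))) atTop
      (nhds (∑ j : Fin l, y j * 0)) := by
    refine tendsto_finsetSum _ fun j _ => Tendsto.const_mul (y j) ?_
    have := (hd _ (hE j)).neg
    rw [neg_zero] at this
    exact this.congr fun n => by ring
  have h3 := (((h1.add h2).add (hG0.const_mul g0)).add (hT0.const_mul mu))
  have h4 := le_of_tendsto_of_tendsto' hLR h3 hpre
  simpa using h4

end Crest.Agent.R163
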