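import Crest.Agent.R163.Basic

/-!
# Row 163: the Poisson tree (definitions and Poisson sums; piece R163_GW0)

Equivalence `List α ≃ Σ c, (Fin c → α)` (`List.equivSigmaTuple`), homogeneity of `F`, summability
of everything by `IsExp.summable`.
-/

set_option autoImplicit false

namespace Crest.Agent.R163

open Finset Crest.ProbabilityR.Broadcast

/-- the Poisson-tree experiment -/
noncomputable def wGW (q : ℕ) (lam d : ℝ) (ℓ : ℕ) : PObs q ℓ → Fin q → ℝ :=
  fun o a => gwLaw q lam d ℓ a o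

/-- offspring law: Poisson -/
noncomputable def pPoi (d : ℝ) : ℕ → ℝ := fun c => Real.exp (-d) * d ^ c / Nat.factorial c

theorem pPoi_nonneg (d : ℝ) (hd : 0 ≤ d) (c : ℕ) : 0 ≤ pPoi d c := by
  unfold pPoi; positivity

theorem hasSum_pPoi (d : ℝ) : HasSum (pPoi d) 1 := by
  have h : HasSum (fun n : ℕ => d ^ n / (Nat.factorial n : ℝ)) (Real.exp d) := by
    rw [Real.exp_eq_exp_ℝ]
    exact NormedSpace.expSeries_div_hasSum_exp d
  have h2 := h.mul_left (Real.exp (-d))
  rw [← Real.exp_add, neg_add_cancel, Real.exp_zero] at h2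
  refine h2.congr_fun ?_
  intro c
  unfold pPoi
  rw [mul_div_assoc]

theorem hasSum_mul_pPoi (d : ℝ) : HasSum (fun c : ℕ => (c : ℝ) * pPoi d c) d := by
  rw [← hasSum_nat_add_iff' 1]
  simp only [Finset.range_one, Finset.sum_singleton, Nat.cast_zero, zero_mul, sub_zero]
  have h := (hasSum_pPoi d).mul_left d
  rw [mul_one] at h
  refine h.congr_fun ?_
  intro c
  unfold pPoi
  rw [Nat.factorial_succ]
  have h1 : ((c : ℝ) + 1) ≠ 0 := by positivity
  have h2 : ((Nat.factorial c : ℕ) : ℝ) ≠ 0 := by positivity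
  push_cast
  field_simp
  ring

theorem gwAdvantage_eq (q : ℕ) (lam d : ℝ) (ℓ : ℕ) :
    gwAdvantage q lam d ℓ = Ex fTV (wGW q lam d ℓ) := by
  unfold gwAdvantage Ex
  rw [← tsum_mul_left]
  rfl

end Crest.Agent.R163
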