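import Crest.Agent.R163.GW0

/-!
# Row 163: the Poisson tree is a broadcast process (piece R163_GWB)

`∑ j, channel q lam i j * f j = lam * f i + (1-lam) * mass f` (see `channel_sum` in `Reg.lean`, not
imported: reprove it privately). Equivalence `List α ≃ Σ c, (Fin c → α)` (`List.equivSigmaTuple`),
`F` homogeneous (Poisson weight `pPoi d c ≥ 0`), `isExp`: by induction on the level,
`HasSum` over the sigma type of nonnegative terms (`HasSum.sigma_of_hasSum` / `isExp_pw`),
`isSymm`: by induction, `List.map` with the equivalence of the previous level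
(`Equiv.listEquivOfEquiv`), summability by `IsExp.summable`.
-/

set_option autoImplicit false

namespace Crest.Agent.R163

open Finset Crest.ProbabilityR.Broadcast

private theorem gwb_channel_sum (q : ℕ) (lam : ℝ) (i : Fin q) (f : Fin q → ℝ) :
    ∑ j : Fin q, channel q lam i j * f j = lam * f i + (1 - lam) * mass f := by
  unfold channel mass
  simp only [add_mul, Finset.sum_add_distrib, ite_mul, zero_mul, Finset.sum_ite_eq, Finset.mem_univ,
    if_true, ← Finset.mul_sum]
  ring

private theorem gwb_succ' (q : ℕ) (lam d : ℝ) (ℓ : ℕ) (o : List (PObs q ℓ)) (a : Fin q) :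
    wGW q lam d (ℓ + 1) o a =
      pPoi d o.length * (o.map (fun o' => ch lam (wGW q lam d ℓ) o' a)).prod := by
  show Real.exp (-d) * d ^ o.length / Nat.factorial o.length *
        (o.map (fun o' => ∑ j : Fin q, channel q lam a j * gwLaw q lam d ℓ j o')).prod = _
  have h : (fun o' : PObs q ℓ => ∑ j : Fin q, channel q lam a j * gwLaw q lam d ℓ j o') =
      fun o' => ch lam (wGW q lam d ℓ) o' a := by
    funext o'
    exact gwb_channel_sum q lam a (fun j => gwLaw q lam d ℓ j o')
  rw [h]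
  rfl

private theorem gwb_succ (q : ℕ) (lam d : ℝ) (ℓ : ℕ) (c : ℕ) (f : Fin c → PObs q ℓ) :
    wGW q lam d (ℓ + 1) (List.ofFn f) = fun a => pPoi d c * pw (ch lam (wGW q lam d ℓ)) c f a := by
  funext a
  rw [gwb_succ', List.length_ofFn, List.map_ofFn, List.prod_ofFn]
  rfl

private theorem gwb_isExp (q : ℕ) (hq : 1 < q) (lam d : ℝ) (hd : 0 ≤ d)
    (h0 : -(1 / ((q : ℝ) - 1)) ≤ lam) (h1 : lam ≤ 1) (ℓ : ℕ) : IsExp (wGW q lam d ℓ) := by
  induction ℓ with
  | zero => exact isExp_perfect q
  | succ ℓ ih =>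
    have hpw : ∀ c, IsExp (pw (ch lam (wGW q lam d ℓ)) c) := fun c => isExp_pw (isExp_ch hq h0 h1 ih) c
    have hnn : ∀ (x : Σ c, Fin c → PObs q ℓ) (a : Fin q),
        0 ≤ pPoi d x.1 * pw (ch lam (wGW q lam d ℓ)) x.1 x.2 a :=
      fun x a => mul_nonneg (pPoi_nonneg d hd _) ((hpw x.1).nonneg _ _)
    refine ⟨fun o a => ?_, fun a => ?_⟩
    · have h2 := gwb_succ q lam d ℓ _ (List.get (o : List (PObs q ℓ)))
      rw [List.ofFn_get] at h2
      rw [h2]
      exact hnn ⟨_, _⟩ a
    · have h2 : HasSum (fun x : Σ c, Fin c → PObs q ℓ =>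
          pPoi d x.1 * pw (ch lam (wGW q lam d ℓ)) x.1 x.2 a) 1 := by
        have h3 : ∀ c, HasSum (fun f : Fin c → PObs q ℓ =>
            pPoi d c * pw (ch lam (wGW q lam d ℓ)) c f a) (pPoi d c) := fun c => by
          have := ((hpw c).hasSum a).mul_left (pPoi d c)
          rwa [mul_one] at this
        refine HasSum.sigma_of_hasSum (g := pPoi d) (hasSum_pPoi d) h3 ?_
        rw [summable_sigma_of_nonneg (fun x => hnn x a)]
        refine ⟨fun c => (h3 c).summable, ?_⟩
        have h4 : (fun c => ∑' f : Fin c → PObs q ℓ,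
            pPoi d c * pw (ch lam (wGW q lam d ℓ)) c f a) = pPoi d := funext fun c => (h3 c).tsum_eq
        show Summable (fun c => ∑' f : Fin c → PObs q ℓ,
            pPoi d c * pw (ch lam (wGW q lam d ℓ)) c f a)
        rw [h4]
        exact (hasSum_pPoi d).summable
      have h5 := (List.equivSigmaTuple (α := PObs q ℓ)).symm.hasSum_iff (f := fun o => wGW q lam d (ℓ + 1) o a)
        (a := (1 : ℝ))
      refine h5.1 ?_
      refine h2.congr_fun ?_
      rintro ⟨c, f⟩
      exact congrFun (gwb_succ q lam d ℓ c f) a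

private theorem gwb_isSymm (q : ℕ) (lam d : ℝ) (ℓ : ℕ) : IsSymm (wGW q lam d ℓ) := by
  induction ℓ with
  | zero => exact isSymm_perfect q
  | succ ℓ ih =>
    intro σ
    obtain ⟨e, he⟩ := isSymm_ch lam ih σ
    refine ⟨Equiv.listEquivOfEquiv e, fun o a => ?_⟩
    show wGW q lam d (ℓ + 1) (List.map e o) a = wGW q lam d (ℓ + 1) o (σ a)
    rw [gwb_succ', gwb_succ', List.length_map, List.map_map]
    congr 2
    refine List.map_congr_left fun o' _ => ?_
    exact he o' a

theorem isProcess_GW (q : ℕ) (hq : 1 < q) (lam d : ℝ) (hd : 0 ≤ d)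
    (h0 : -(1 / ((q : ℝ) - 1)) ≤ lam) (h1 : lam ≤ 1) :
    IsProcess q lam (pPoi d) (fun ℓ => PObs q ℓ) (wGW q lam d) where
  isExp := gwb_isExp q hq lam d hd h0 h1
  isSymm := gwb_isSymm q lam d
  zero := fun F _ _ => rfl
  succ := by
    intro n F hF hFb
    have hE : ∀ n, IsExp (wGW q lam d n) := gwb_isExp q hq lam d hd h0 h1
    have hpw : ∀ c, IsExp (pw (ch lam (wGW q lam d n)) c) := fun c => isExp_pw (isExp_ch hq h0 h1 (hE n)) c
    have hs : Summable (fun o : PObs q (n + 1) => F (wGW q lam d (n + 1) o)) :=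
      (hE (n + 1)).summable (by omega) hFb
    set e := (List.equivSigmaTuple (α := PObs q n)).symm with he
    have h2 : (fun o : PObs q (n + 1) => F (wGW q lam d (n + 1) o)) ∘ e =
        fun x : Σ c, Fin c → PObs q n => pPoi d x.1 * F (pw (ch lam (wGW q lam d n)) x.1 x.2) := by
      funext x
      obtain ⟨c, f⟩ := x
      show F (wGW q lam d (n + 1) (List.ofFn f)) = pPoi d c * F (pw (ch lam (wGW q lam d n)) c f)
      rw [gwb_succ, hF _ _ (pPoi_nonneg d hd c) ((hpw c).nonneg f)]
    have h3 : Summable (fun x : Σ c, Fin c → PObs q n =>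
        pPoi d x.1 * F (pw (ch lam (wGW q lam d n)) x.1 x.2)) := by
      rw [← h2]; exact e.summable_iff.2 hs
    unfold Ex
    rw [← e.tsum_eq (fun o : PObs q (n + 1) => F (wGW q lam d (n + 1) o))]
    have h4 : ∑' x, F (wGW q lam d (n + 1) (e x)) = ∑' x : Σ c, Fin c → PObs q n,
        pPoi d x.1 * F (pw (ch lam (wGW q lam d n)) x.1 x.2) := by
      rw [← h2]; rfl
    rw [h4, h3.tsum_sigma]
    refine tsum_congr fun c => ?_
    rw [← tsum_mul_left]

end Crest.Agent.R163
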