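import Crest.Agent.R163.Basic

/-!
# Row 163: the gain `X (P * T_β Q) - X P` and its convexity in `β`

Pointwise kernel: for `u`-vectors `u` (of `P`) and `b` (of `Q`), with `<f> = (1/q) ∑ f a`,

  `gq u b β = <(1+u)^2 (b - <ub>)^2> / (1 + β <ub>)`.

Proof of `gain_ch`: with `u' = (1+u)(1+βb)/(1+β<ub>) - 1` one has
`(1+β<ub>) (u'-u) = β (1+u)(b-<ub>)`, hence
`(1+β<ub>) (<u'^2> - <u^2>) = β^2 gq u b β + 2 β <u(1+u)(b-<ub>)>`, the last term and
`β <ub> <u^2>` are linear in `b` and vanish after summing over the observations of `Q`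
(`IsExp.hasSum_mass_uv`). When `1 + β <ub> = 0` then `(1+u a)(1+β b a) = 0` for all `a` and all
terms vanish (Lean's `x/0 = 0`).
-/

set_option autoImplicit false

namespace Crest.Agent.R163

open Finset

variable {ι κ : Type*} {q : ℕ}

/-- `<u b>` -/
noncomputable def ip (u b : Fin q → ℝ) : ℝ := (1 / q) * ∑ a, u a * b a

/-- the gain kernel -/
noncomputable def gq (u b : Fin q → ℝ) (β : ℝ) : ℝ :=
  ((1 / q) * ∑ a, (1 + u a) ^ 2 * (b a - ip u b) ^ 2) / (1 + β * ip u b)

/-- the kernel seen through the channel (piece R163_GAIN2): `uv (ch β v) = β uv v` -/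
theorem gq_smul (u b : Fin q → ℝ) (β : ℝ) :
    gq u (fun a => β * b a) 1 = β ^ 2 * gq u b β := by
  have h : ip u (fun a => β * b a) = β * ip u b := by
    unfold ip
    rw [mul_left_comm, Finset.mul_sum (a := β)]
    exact congrArg _ (Finset.sum_congr rfl fun a _ => by ring)
  have h2 : (1 / (q : ℝ)) * ∑ a, (1 + u a) ^ 2 * (β * b a - β * ip u b) ^ 2 =
      β ^ 2 * ((1 / (q : ℝ)) * ∑ a, (1 + u a) ^ 2 * (b a - ip u b) ^ 2) := by
    rw [mul_left_comm, Finset.mul_sum (a := β ^ 2)]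
    exact congrArg _ (Finset.sum_congr rfl fun a _ => by ring)
  unfold gq
  rw [h, one_mul, ← mul_div_assoc, h2]

end Crest.Agent.R163
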