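import Crest.Agent.R163.Gain0

/-!
# Row 163: pointwise facts about the gain kernel (piece R163_GAIN1)

Hint for `fX_prod`: if `mass p = 0` or `mass v = 0` the vector `p` (`v`) is `0`. Otherwise write
`p a = s (1 + u a)`, `v a = t (1 + b a)` (`eq_mass_mul`), `∑ u = ∑ b = 0` (`sum_uv`), `c = ip u b`;
`mass (p·v) = s t (1+c)`. If `1 + c = 0` then `(1+u a)(1+b a) = 0` for all `a` (nonneg terms with
sum 0). Else `uv (p·v) a = (1+u a)(1+b a)/(1+c) - 1 = u a + (1+u a)(b a - c)/(1+c)`, expand the square.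
`fX v = (1/q) (∑ v a ^2)/mass v - mass v` may be useful.
-/

set_option autoImplicit false

namespace Crest.Agent.R163

open Finset

variable {ι κ : Type*} {q : ℕ}

theorem mass_mul_eq (hq : 0 < q) (p v : Fin q → ℝ) (hp : ∀ a, 0 ≤ p a) (hv : ∀ a, 0 ≤ v a)
    (hp0 : mass p ≠ 0) (hv0 : mass v ≠ 0) :
    mass (fun a => p a * v a) = mass p * mass v * (1 + ip (uv p) (uv v)) := by
  have hq' : (q : ℝ) ≠ 0 := by exact_mod_cast hq.ne'
  have h1 : ∀ a, p a * v a = mass p * mass v *
      (1 + uv p a + uv v a + uv p a * uv v a) := by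
    intro a
    conv_lhs => rw [eq_mass_mul hq p hp a, eq_mass_mul hq v hv a]
    ring
  have h2 : mass (fun a => p a * v a) = (1 / (q : ℝ)) * ∑ a, p a * v a := rfl
  rw [h2]
  simp only [h1]
  rw [← Finset.mul_sum, Finset.sum_add_distrib, Finset.sum_add_distrib, Finset.sum_add_distrib,
    sum_uv hq p hp0, sum_uv hq v hv0]
  simp only [Finset.sum_const, Finset.card_univ, Fintype.card_fin, nsmul_eq_mul, mul_one, add_zero]
  unfold ip
  field_simp

theorem one_add_ip_nonneg (hq : 0 < q) (p v : Fin q → ℝ) (hp : ∀ a, 0 ≤ p a) (hv : ∀ a, 0 ≤ v a)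
    (hp0 : mass p ≠ 0) (hv0 : mass v ≠ 0) : 0 ≤ 1 + ip (uv p) (uv v) := by
  have h1 := mass_mul_eq hq p v hp hv hp0 hv0
  have h2 : 0 ≤ mass (fun a => p a * v a) := mass_nonneg _ fun a => mul_nonneg (hp a) (hv a)
  have hpp : 0 < mass p := lt_of_le_of_ne (mass_nonneg p hp) (Ne.symm hp0)
  have hvp : 0 < mass v := lt_of_le_of_ne (mass_nonneg v hv) (Ne.symm hv0)
  rw [h1] at h2
  by_contra hneg
  push Not at hneg
  have := mul_pos hpp hvp
  nlinarith

theorem one_add_mul_eq_zero (hq : 0 < q) (p v : Fin q → ℝ) (hp : ∀ a, 0 ≤ p a) (hv : ∀ a, 0 ≤ v a)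
    (hp0 : mass p ≠ 0) (hv0 : mass v ≠ 0) (h : 1 + ip (uv p) (uv v) = 0) (a : Fin q) :
    (1 + uv p a) * (1 + uv v a) = 0 := by
  have h1 := mass_mul_eq hq p v hp hv hp0 hv0
  rw [h, mul_zero] at h1
  have h2 := eq_zero_of_mass_eq_zero hq (fun a => p a * v a)
    (fun a => mul_nonneg (hp a) (hv a)) h1 a
  have h3 : p a * v a = 0 := h2
  rw [eq_mass_mul hq p hp a, eq_mass_mul hq v hv a] at h3
  have h4 : mass p * mass v * ((1 + uv p a) * (1 + uv v a)) = 0 := by
    rw [← h3]; ring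
  rcases mul_eq_zero.1 h4 with h5 | h5
  · exact absurd h5 (mul_ne_zero hp0 hv0)
  · exact h5

/-- pointwise: the functional `fX` at a product, minus linear terms (piece R163_GAIN1).
`mass (p·v) = s t (1+<ub>)`, `uv (p·v) = (1+u)(1+b)/(1+<ub>) - 1`. -/
theorem fX_prod (hq : 0 < q) (p v : Fin q → ℝ) (hp : ∀ a, 0 ≤ p a) (hv : ∀ a, 0 ≤ v a) :
    fX (fun a => p a * v a) = mass p * mass v *
      (gq (uv p) (uv v) 1 + (1 + ip (uv p) (uv v)) * m2 (uv p)
        + 2 * ((1 / q) * ∑ a, uv p a * (1 + uv p a) * (uv v a - ip (uv p) (uv v)))) := by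
  have hq' : (q : ℝ) ≠ 0 := by exact_mod_cast hq.ne'
  by_cases hp0 : mass p = 0
  · have h0 : mass (fun a => p a * v a) = 0 := by
      have : (fun a => p a * v a) = fun a => (0 : ℝ) * v a := by
        funext a
        rw [eq_zero_of_mass_eq_zero hq p hp hp0 a]
      rw [this, mass_smul, zero_mul]
    unfold fX
    rw [h0, hp0]; ring
  by_cases hv0 : mass v = 0
  · have h0 : mass (fun a => p a * v a) = 0 := by
      have : (fun a => p a * v a) = fun a => (0 : ℝ) * p a := by
        funext a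
        rw [eq_zero_of_mass_eq_zero hq v hv hv0 a]; ring
      rw [this, mass_smul, zero_mul]
    unfold fX
    rw [h0, hv0]; ring
  have hm := mass_mul_eq hq p v hp hv hp0 hv0
  by_cases hc : 1 + ip (uv p) (uv v) = 0
  · have hz := one_add_mul_eq_zero hq p v hp hv hp0 hv0 hc
    unfold fX
    rw [hm, hc]
    have h1 : gq (uv p) (uv v) 1 = 0 := by
      unfold gq
      rw [one_mul, hc, div_zero]
    have h2 : ∑ a, uv p a * (1 + uv p a) * (uv v a - ip (uv p) (uv v)) = 0 := by
      refine Finset.sum_eq_zero fun a _ => ?_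
      have h3 : ip (uv p) (uv v) = -1 := by linarith
      rw [h3]
      have h4 := hz a
      have : uv p a * (1 + uv p a) * (uv v a - -1) = uv p a * ((1 + uv p a) * (1 + uv v a)) := by
        ring
      rw [this, h4, mul_zero]
    rw [h1, h2]; ring
  · set c := ip (uv p) (uv v) with hcdef
    have hu : ∀ a, uv (fun a => p a * v a) a =
        uv p a + (1 + uv p a) * (uv v a - c) / (1 + c) := by
      intro a
      have e1 : uv (fun a => p a * v a) a = p a * v a / mass (fun a => p a * v a) - 1 := rfl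
      rw [e1, hm]
      have e2 : p a * v a = mass p * mass v * ((1 + uv p a) * (1 + uv v a)) := by
        conv_lhs => rw [eq_mass_mul hq p hp a, eq_mass_mul hq v hv a]
        ring
      rw [e2, mul_div_mul_left _ _ (mul_ne_zero hp0 hv0)]
      field_simp
      ring
    unfold fX
    rw [hm]
    have h5 : (1 + c) * m2 (uv fun a => p a * v a) =
        gq (uv p) (uv v) 1 + (1 + c) * m2 (uv p)
        + 2 * ((1 / q) * ∑ a, uv p a * (1 + uv p a) * (uv v a - c)) := by
      unfold m2 gq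
      rw [← hcdef, one_mul]
      have e3 : ∀ a, uv (fun a => p a * v a) a ^ 2 =
          ((1 + uv p a) ^ 2 * (uv v a - c) ^ 2) * (1 / (1 + c) ^ 2) + uv p a ^ 2 +
          (uv p a * (1 + uv p a) * (uv v a - c)) * (2 / (1 + c)) := by
        intro a
        rw [hu a]
        field_simp
        ring
      simp only [e3]
      rw [Finset.sum_add_distrib, Finset.sum_add_distrib, ← Finset.sum_mul, ← Finset.sum_mul]
      field_simp
    rw [mul_assoc, h5]

/-- `0 ≤ gq`, `gq ≤ ` const (piece R163_GAIN1) -/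
theorem gq_nonneg (hq : 0 < q) (p v : Fin q → ℝ) (hp : ∀ a, 0 ≤ p a) (hv : ∀ a, 0 ≤ v a)
    (hp0 : mass p ≠ 0) (hv0 : mass v ≠ 0) (β : ℝ) (h0 : 0 ≤ β) (h1 : β ≤ 1) :
    0 ≤ gq (uv p) (uv v) β := by
  have hc := one_add_ip_nonneg hq p v hp hv hp0 hv0
  unfold gq
  refine div_nonneg (by positivity) ?_
  nlinarith

/-- convexity of the kernel in `β` (piece R163_GAIN3). If `1+<ub> = 0` the numerator vanishes;
otherwise `1/(1+βc) ≤ (1-β) + β/(1+c)` for `c > -1`, `0 ≤ β ≤ 1`. -/
theorem gq_convex (hq : 0 < q) (p v : Fin q → ℝ) (hp : ∀ a, 0 ≤ p a) (hv : ∀ a, 0 ≤ v a)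
    (hp0 : mass p ≠ 0) (hv0 : mass v ≠ 0) (β : ℝ) (h0 : 0 ≤ β) (h1 : β ≤ 1) :
    gq (uv p) (uv v) β ≤ (1 - β) * gq (uv p) (uv v) 0 + β * gq (uv p) (uv v) 1 := by
  have hc := one_add_ip_nonneg hq p v hp hv hp0 hv0
  unfold gq
  set c := ip (uv p) (uv v) with hcdef
  set N := (1 / (q : ℝ)) * ∑ a, (1 + uv p a) ^ 2 * (uv v a - c) ^ 2 with hN
  have hN0 : 0 ≤ N := by rw [hN]; positivity
  rw [zero_mul, add_zero, div_one, one_mul]
  rcases hc.eq_or_lt with h | h
  · have hN' : N = 0 := by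
      have hz := one_add_mul_eq_zero hq p v hp hv hp0 hv0 h.symm
      rw [hN]
      rw [Finset.sum_eq_zero, mul_zero]
      intro a _
      have h3 : c = -1 := by linarith
      have : (1 + uv p a) ^ 2 * (uv v a - c) ^ 2 = ((1 + uv p a) * (1 + uv v a)) ^ 2 := by
        rw [h3]; ring
      rw [this, hz a]; ring
    rw [hN']; simp
  · have hd : 0 < 1 + β * c := by
      rcases h1.eq_or_lt with h2 | h2
      · rw [h2, one_mul]; exact h
      · nlinarith
    have key : 1 / (1 + β * c) ≤ (1 - β) + β * (1 / (1 + c)) := by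
      have e1 : (1 - β) + β * (1 / (1 + c)) - 1 / (1 + β * c) =
          (β * c ^ 2 * (1 - β)) / ((1 + c) * (1 + β * c)) := by
        field_simp
        ring
      have e2 : 0 ≤ (β * c ^ 2 * (1 - β)) / ((1 + c) * (1 + β * c)) := by
        have : 0 ≤ 1 - β := by linarith
        positivity
      linarith
    calc N / (1 + β * c) = N * (1 / (1 + β * c)) := by ring
      _ ≤ N * ((1 - β) + β * (1 / (1 + c))) := mul_le_mul_of_nonneg_left key hN0
      _ = (1 - β) * N + β * (N / (1 + c)) := by ring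

end Crest.Agent.R163
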