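import Crest.Agent.R163.Gain1
import Crest.Agent.R163.Basic

/-!
# Row 163: the gain formula (piece R163_GAIN2)

Sum `Gain1.fX_prod` over all pairs: `∑_{k,i} mass(P_i) mass(Q_k) (1+<u_i b_k>) m2 u_i = X P` and the
term linear in `b` vanishes, by `IsExp.hasSum_mass_uv`. Use `Ex_mul` for the double sum. All double
sums are absolutely summable (bounded by a constant times `mass (P i) * mass (Q k)`).
-/

set_option autoImplicit false

namespace Crest.Agent.R163

open Finset

variable {ι κ : Type*} {q : ℕ}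

/-- mass of a product -/
theorem mass_prod_le (hq : 0 < q) (p v : Fin q → ℝ) (hp : ∀ a, 0 ≤ p a) (hv : ∀ a, 0 ≤ v a) :
    mass (fun a => p a * v a) ≤ q * (mass v * mass p) := by
  have h1 : ∀ a, p a * v a ≤ (q * mass p) * v a := fun a =>
    mul_le_mul_of_nonneg_right (le_mass hq p hp a) (hv a)
  have hq' : (0 : ℝ) < q := by exact_mod_cast hq
  calc mass (fun a => p a * v a) = (1 / q) * ∑ a, p a * v a := rfl
    _ ≤ (1 / q) * ∑ a, (q * mass p) * v a := by
        apply mul_le_mul_of_nonneg_left _ (by positivity)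
        exact Finset.sum_le_sum fun a _ => h1 a
    _ = q * (mass v * mass p) := by
        rw [← Finset.mul_sum]
        conv_rhs => rw [mass]
        ring

/-- the part of `fX_prod` linear in `b` -/
noncomputable def gainLin (u b : Fin q → ℝ) : ℝ :=
  ip u b * m2 u + 2 * ((1 / q) * ∑ a, u a * (1 + u a) * (b a - ip u b))

theorem abs_avg_le (hq : 0 < q) (f : Fin q → ℝ) (C : ℝ) (h : ∀ a, |f a| ≤ C) :
    |(1 / (q : ℝ)) * ∑ a, f a| ≤ C := by
  have hq' : (0 : ℝ) < q := by exact_mod_cast hq
  rw [abs_mul, abs_of_nonneg (by positivity : (0 : ℝ) ≤ 1 / q)]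
  have h1 : |∑ a, f a| ≤ q * C := by
    refine (Finset.abs_sum_le_sum_abs _ _).trans ?_
    refine (Finset.sum_le_sum fun a _ => h a).trans ?_
    simp
  calc 1 / (q : ℝ) * |∑ a, f a| ≤ 1 / (q : ℝ) * (q * C) :=
        mul_le_mul_of_nonneg_left h1 (by positivity)
    _ = C := by field_simp

theorem abs_gainLin_le (hq : 0 < q) (u b : Fin q → ℝ) (hu : ∀ a, |u a| ≤ q)
    (hb : ∀ a, |b a| ≤ q) :
    |gainLin u b| ≤ (q : ℝ) * q * (q * q) + 2 * (q * (1 + q) * (q + q * q)) := by
  have hq' : (0 : ℝ) < q := by exact_mod_cast hq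
  have h1 : |ip u b| ≤ (q : ℝ) * q := by
    unfold ip
    refine abs_avg_le hq _ _ fun a => ?_
    rw [abs_mul]
    exact mul_le_mul (hu a) (hb a) (abs_nonneg _) hq'.le
  have h2 : |m2 u| ≤ (q : ℝ) * q := by
    unfold m2
    refine abs_avg_le hq _ _ fun a => ?_
    rw [pow_two, abs_mul]
    exact mul_le_mul (hu a) (hu a) (abs_nonneg _) hq'.le
  have h3 : |(1 / (q : ℝ)) * ∑ a, u a * (1 + u a) * (b a - ip u b)| ≤
      q * (1 + q) * (q + q * q) := by
    refine abs_avg_le hq _ _ fun a => ?_
    rw [abs_mul, abs_mul]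
    have e1 : |1 + u a| ≤ 1 + q := (abs_add_le _ _).trans (by rw [abs_one]; linarith [hu a])
    have e2 : |b a - ip u b| ≤ q + q * q := (abs_sub _ _).trans (by linarith [hb a])
    exact mul_le_mul (mul_le_mul (hu a) e1 (abs_nonneg _) hq'.le) e2 (abs_nonneg _) (by positivity)
  unfold gainLin
  refine (abs_add_le _ _).trans ?_
  rw [abs_mul, abs_mul, abs_two]
  have := mul_le_mul h1 h2 (abs_nonneg _) (by positivity)
  linarith

set_option maxHeartbeats 1600000 in
/-- gain formula (piece R163_GAIN2) -/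
theorem gain_eq (hq : 1 < q) {P : κ → Fin q → ℝ} (hP : IsExp P) {Q : ι → Fin q → ℝ}
    (hQ : IsExp Q) :
    gain P Q = ∑' k, ∑' i, mass (P i) * mass (Q k) * gq (uv (P i)) (uv (Q k)) 1 := by
  have hq0 : 0 < q := by omega
  have hq' : (0 : ℝ) < q := by exact_mod_cast hq0
  have hmP : ∀ i, 0 ≤ mass (P i) := fun i => mass_nonneg _ (hP.nonneg i)
  have hmQ : ∀ k, 0 ≤ mass (Q k) := fun k => mass_nonneg _ (hQ.nonneg k)
  -- summability of the product of the masses
  have hS : Summable fun x : ι × κ => mass (Q x.1) * mass (P x.2) :=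
    Summable.mul_of_nonneg (hQ.hasSum_mass hq0).summable (hP.hasSum_mass hq0).summable
      (fun k => hmQ k) (fun i => hmP i)
  have key : ∀ (f : ι × κ → ℝ) (C : ℝ), (∀ x, |f x| ≤ C * (mass (Q x.1) * mass (P x.2))) →
      Summable f := by
    intro f C h
    refine Summable.of_norm_bounded (g := fun x : ι × κ => C * (mass (Q x.1) * mass (P x.2)))
      (hS.mul_left C) fun x => ?_
    rw [Real.norm_eq_abs]
    exact h x
  set A : ι × κ → ℝ := fun x => fX (fun a => P x.2 a * Q x.1 a) with hAdef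
  set B : ι × κ → ℝ := fun x => mass (Q x.1) * fX (P x.2) with hBdef
  set L : ι × κ → ℝ := fun x => mass (P x.2) * mass (Q x.1) * gainLin (uv (P x.2)) (uv (Q x.1))
    with hLdef
  set G : ι × κ → ℝ := fun x => mass (P x.2) * mass (Q x.1) * gq (uv (P x.2)) (uv (Q x.1)) 1
    with hGdef
  have hA : Summable A := by
    refine key A (((q : ℝ) - 1) * q) fun x => ?_
    have hpos : ∀ a, 0 ≤ P x.2 a * Q x.1 a := fun a =>
      mul_nonneg (hP.nonneg _ a) (hQ.nonneg _ a)
    have h1 := fX_le hq0 (fun a => P x.2 a * Q x.1 a) hpos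
    have h2 := mass_prod_le hq0 (P x.2) (Q x.1) (hP.nonneg _) (hQ.nonneg _)
    have hq1 : (0 : ℝ) ≤ (q : ℝ) - 1 := by
      have : (1 : ℝ) ≤ q := by exact_mod_cast hq0
      linarith
    rw [abs_of_nonneg (fX_nonneg _ hpos)]
    calc fX (fun a => P x.2 a * Q x.1 a) ≤ ((q : ℝ) - 1) * mass (fun a => P x.2 a * Q x.1 a) := h1
      _ ≤ ((q : ℝ) - 1) * (q * (mass (Q x.1) * mass (P x.2))) :=
          mul_le_mul_of_nonneg_left h2 hq1
      _ = _ := by ring
  have hB : Summable B := by
    refine key B ((q : ℝ) - 1) fun x => ?_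
    have h1 := fX_le hq0 (P x.2) (hP.nonneg _)
    rw [abs_of_nonneg (mul_nonneg (hmQ _) (fX_nonneg _ (hP.nonneg _)))]
    calc mass (Q x.1) * fX (P x.2) ≤ mass (Q x.1) * (((q : ℝ) - 1) * mass (P x.2)) :=
          mul_le_mul_of_nonneg_left h1 (hmQ _)
      _ = _ := by ring
  have hL : Summable L := by
    refine key L ((q : ℝ) * q * (q * q) + 2 * (q * (1 + q) * (q + q * q))) fun x => ?_
    have h1 := abs_gainLin_le hq0 (uv (P x.2)) (uv (Q x.1))
      (fun a => abs_uv_le hq0 _ (hP.nonneg _) a) (fun a => abs_uv_le hq0 _ (hQ.nonneg _) a)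
    rw [hLdef]
    simp only
    rw [abs_mul, abs_of_nonneg (mul_nonneg (hmP _) (hmQ _))]
    calc mass (P x.2) * mass (Q x.1) * |gainLin (uv (P x.2)) (uv (Q x.1))| ≤
          mass (P x.2) * mass (Q x.1) *
            ((q : ℝ) * q * (q * q) + 2 * (q * (1 + q) * (q + q * q))) :=
          mul_le_mul_of_nonneg_left h1 (mul_nonneg (hmP _) (hmQ _))
      _ = _ := by ring
  have hpt : ∀ x, G x = A x - B x - L x := by
    intro x
    have h := fX_prod hq0 (P x.2) (Q x.1) (hP.nonneg _) (hQ.nonneg _)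
    have e : A x = fX (fun a => P x.2 a * Q x.1 a) := rfl
    rw [e, h]
    simp only [hGdef, hBdef, hLdef, fX, gainLin]
    ring
  have hGs : Summable G := by
    have : G = fun x => A x - B x - L x := funext hpt
    rw [this]
    exact (hA.sub hB).sub hL
  have hXB : ∑' x, B x = X P := by
    rw [hB.tsum_prod]
    simp only [hBdef]
    have : ∀ k : ι, ∑' i : κ, mass (Q k) * fX (P i) = mass (Q k) * X P := by
      intro k
      rw [tsum_mul_left]
      rfl
    rw [tsum_congr this, tsum_mul_right, (hQ.hasSum_mass hq0).tsum_eq, one_mul]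
  have hXL : ∑' x, L x = 0 := by
    have e1 : ∑' x, L x = ∑' y : κ × ι, L (Prod.swap y) :=
      ((Equiv.prodComm κ ι).tsum_eq L).symm
    have hL' : Summable fun y : κ × ι => L (Prod.swap y) :=
      (Equiv.prodComm κ ι).summable_iff.mpr hL
    rw [e1, hL'.tsum_prod]
    have : ∀ i : κ, ∑' k : ι, L (Prod.swap (i, k)) = 0 := by
      intro i
      have hs : ∀ a, HasSum (fun k => mass (Q k) * uv (Q k) a) 0 := fun a =>
        hQ.hasSum_mass_uv hq0 a
      set u := uv (P i) with hu
      have hip : HasSum (fun k => mass (Q k) * ip u (uv (Q k))) 0 := by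
        have h := (hasSum_sum (s := Finset.univ) fun a _ => (hs a).mul_left (u a)).mul_left
          (1 / (q : ℝ))
        simp only [mul_zero, Finset.sum_const_zero] at h
        have e : (fun k => (1 / (q : ℝ)) * ∑ a, u a * (mass (Q k) * uv (Q k) a)) =
            fun k => mass (Q k) * ip u (uv (Q k)) := by
          funext k
          unfold ip
          rw [mul_left_comm (mass (Q k)), Finset.mul_sum (a := mass (Q k))]
          congr 1
          exact Finset.sum_congr rfl fun a _ => by ring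
        rwa [e] at h
      have h1 := hip.mul_right (m2 u)
      have h2 := ((hasSum_sum (s := Finset.univ) fun a _ =>
        ((hs a).sub hip).mul_left (u a * (1 + u a))).mul_left (1 / (q : ℝ))).mul_left 2
      have h3 := (h1.add h2).mul_left (mass (P i))
      simp only [zero_mul, sub_zero, mul_zero, Finset.sum_const_zero, add_zero] at h3
      have e : (fun k => L (Prod.swap (i, k))) = fun k => mass (P i) *
          (mass (Q k) * ip u (uv (Q k)) * m2 u + 2 * (1 / (q : ℝ) * ∑ a,
            u a * (1 + u a) * (mass (Q k) * uv (Q k) a - mass (Q k) * ip u (uv (Q k))))) := by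
        funext k
        have e0 : L (Prod.swap (i, k)) = mass (P i) * mass (Q k) * gainLin u (uv (Q k)) := rfl
        rw [e0]
        unfold gainLin
        have e1 : ∑ a, u a * (1 + u a) * (mass (Q k) * uv (Q k) a - mass (Q k) * ip u (uv (Q k)))
            = mass (Q k) * ∑ a, u a * (1 + u a) * (uv (Q k) a - ip u (uv (Q k))) := by
          rw [Finset.mul_sum]
          exact Finset.sum_congr rfl fun a _ => by ring
        rw [e1]
        ring
      rw [← e] at h3
      exact h3.tsum_eq
    rw [tsum_congr this, tsum_zero]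
  have e2 : X (mul P Q) = ∑' x, A x := by
    unfold X
    rw [Ex_mul hq0 hP hQ (mbdd_fX hq0), hA.tsum_prod]
  have e3 : ∑' k, ∑' i, mass (P i) * mass (Q k) * gq (uv (P i)) (uv (Q k)) 1 = ∑' x, G x := by
    rw [hGs.tsum_prod]
  rw [e3]
  unfold gain
  rw [e2, ← hXB]
  have : ∑' x, G x = ∑' x, A x - ∑' x, B x - ∑' x, L x := by
    rw [tsum_congr hpt, (hA.sub hB).tsum_sub hL, hA.tsum_sub hB]
  rw [this, hXL, sub_zero]

end Crest.Agent.R163
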