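import Crest.Agent.R163.Gain0
import Crest.Agent.R163.Basic

/-!
# Row 163: the kernel at `β = 0` (piece R163_GAIN4)

`gq u b 0 = (1/q) ∑ a, (1+u a)^2 (b a - <ub>)^2` is a quadratic form in `b`. Let
`M a c = ∑' k, mass (Q k) * uv (Q k) a * uv (Q k) c` (summable: `|uv| ≤ q`). Symmetry of `Q`
(`Equiv.tsum_eq`, `mass` invariant) gives `M (σ a) (σ c) = M a c`, so all `M a a` are equal
(`= X Q`, because `(1/q) ∑ M a a = X Q`) and all `M a c`, `a ≠ c`, are equal; `∑_c M a c = 0` gives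
`M a c = - X Q/(q-1)`. Then expand; with `S = ∑ u = 0` the result is `X Q (1 - kf u/(q-1))`.
-/

set_option autoImplicit false

namespace Crest.Agent.R163

open Finset

variable {ι κ : Type*} {q : ℕ}

private theorem abs_uv_le_gq (hq : 1 < q) (v : Fin q → ℝ) (hv : ∀ a, 0 ≤ v a) (a : Fin q) :
    |uv v a| ≤ q := by
  have hq1 : (1 : ℝ) ≤ q := by exact_mod_cast hq.le
  rw [abs_le]
  constructor
  · have := neg_one_le_uv v hv a
    linarith
  · unfold uv
    by_cases h : mass v = 0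
    · rw [h, div_zero]; linarith
    · have h0 : 0 < mass v := lt_of_le_of_ne (mass_nonneg v hv) (Ne.symm h)
      have h1 := le_mass (by omega) v hv a
      have : v a / mass v ≤ q := by rw [div_le_iff₀ h0]; exact h1
      linarith

/-- second moments -/
private noncomputable def NN (Q : ι → Fin q → ℝ) (a c : Fin q) : ℝ :=
  ∑' k, mass (Q k) * (uv (Q k) a * uv (Q k) c)

private theorem mbdd_ac (hq : 1 < q) (a c : Fin q) :
    MBdd (fun v : Fin q → ℝ => mass v * (uv v a * uv v c)) := by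
  refine ⟨(q : ℝ) * q, by positivity, fun v hv => ?_⟩
  rw [abs_mul, abs_mul, abs_of_nonneg (mass_nonneg v hv), mul_comm]
  refine mul_le_mul_of_nonneg_right ?_ (mass_nonneg v hv)
  exact mul_le_mul (abs_uv_le_gq hq v hv a) (abs_uv_le_gq hq v hv c) (abs_nonneg _) (by positivity)

private theorem hasSum_NN (hq : 1 < q) {Q : ι → Fin q → ℝ} (hQ : IsExp Q) (a c : Fin q) :
    HasSum (fun k => mass (Q k) * (uv (Q k) a * uv (Q k) c)) (NN Q a c) :=
  (hQ.summable (by omega) (mbdd_ac hq a c)).hasSum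

private theorem NN_perm {Q : ι → Fin q → ℝ} (hs : IsSymm Q) (σ : Equiv.Perm (Fin q))
    (a c : Fin q) : NN Q (σ a) (σ c) = NN Q a c := by
  obtain ⟨e, he⟩ := hs σ
  have hmass : ∀ i, mass (Q (e i)) = mass (Q i) := by
    intro i
    unfold mass
    congr 1
    simp_rw [he]
    exact Equiv.sum_comp σ (fun a => Q i a)
  have huv : ∀ i a, uv (Q (e i)) a = uv (Q i) (σ a) := by
    intro i a
    unfold uv
    rw [hmass, he]
  unfold NN
  rw [← Equiv.tsum_eq e (fun k => mass (Q k) * (uv (Q k) a * uv (Q k) c))]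
  simp_rw [hmass, huv]

private theorem NN_diag (hq : 1 < q) {Q : ι → Fin q → ℝ} (hQ : IsExp Q) (hs : IsSymm Q)
    (a : Fin q) : NN Q a a = X Q := by
  have hq' : (q : ℝ) ≠ 0 := by exact_mod_cast (show q ≠ 0 by omega)
  have h1 : ∀ c, NN Q c c = NN Q a a := by
    intro c
    have := NN_perm hs (Equiv.swap a c) a a
    rwa [Equiv.swap_apply_left] at this
  have h2 : HasSum (fun k => (1 / (q : ℝ)) * ∑ c, mass (Q k) * (uv (Q k) c * uv (Q k) c))
      ((1 / (q : ℝ)) * ∑ c, NN Q c c) :=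
    (hasSum_sum fun c _ => hasSum_NN hq hQ c c).mul_left _
  have h3 : (1 / (q : ℝ)) * ∑ c, NN Q c c = NN Q a a := by
    rw [Finset.sum_congr rfl fun c _ => h1 c, Finset.sum_const, Finset.card_univ,
      Fintype.card_fin, nsmul_eq_mul]
    field_simp
  rw [h3] at h2
  rw [← h2.tsum_eq]
  unfold X Ex
  refine tsum_congr fun k => ?_
  unfold fX m2
  have e : ∑ c, mass (Q k) * (uv (Q k) c * uv (Q k) c) = mass (Q k) * ∑ c, uv (Q k) c ^ 2 := by
    rw [Finset.mul_sum]
    exact Finset.sum_congr rfl fun c _ => by ring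
  rw [e]
  ring

private theorem sum_NN (hq : 1 < q) {Q : ι → Fin q → ℝ} (hQ : IsExp Q) (a : Fin q) :
    ∑ c, NN Q a c = 0 := by
  have h2 : HasSum (fun k => ∑ c, mass (Q k) * (uv (Q k) a * uv (Q k) c)) (∑ c, NN Q a c) :=
    hasSum_sum fun c _ => hasSum_NN hq hQ a c
  have h3 : (fun k => ∑ c, mass (Q k) * (uv (Q k) a * uv (Q k) c)) = fun _ => 0 := by
    funext k
    by_cases h : mass (Q k) = 0
    · simp [h]
    · have h4 : ∑ c, mass (Q k) * (uv (Q k) a * uv (Q k) c) =
          mass (Q k) * (uv (Q k) a * ∑ c, uv (Q k) c) := by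
        rw [Finset.mul_sum, Finset.mul_sum]
      rw [h4, sum_uv (by omega) _ h, mul_zero, mul_zero]
  rw [h3] at h2
  exact h2.unique hasSum_zero

private theorem NN_off (hq : 1 < q) {Q : ι → Fin q → ℝ} (hQ : IsExp Q) (hs : IsSymm Q)
    {a c : Fin q} (hac : a ≠ c) : NN Q a c = -(X Q / (q - 1)) := by
  have hq1 : (q : ℝ) - 1 ≠ 0 := by
    have : (1 : ℝ) < q := by exact_mod_cast hq
    linarith
  have h1 : ∀ d ∈ Finset.univ.erase a, NN Q a d = NN Q a c := by
    intro d hd
    have hda : d ≠ a := Finset.ne_of_mem_erase hd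
    have := NN_perm hs (Equiv.swap c d) a c
    rwa [Equiv.swap_apply_left, Equiv.swap_apply_of_ne_of_ne hac hda.symm] at this
  have h2 := sum_NN hq hQ a
  rw [← Finset.add_sum_erase _ _ (Finset.mem_univ a), Finset.sum_congr rfl h1, Finset.sum_const,
    Finset.card_erase_of_mem (Finset.mem_univ a), Finset.card_univ, Fintype.card_fin,
    nsmul_eq_mul, NN_diag hq hQ hs, Nat.cast_sub hq.le, Nat.cast_one] at h2
  rw [eq_neg_iff_add_eq_zero]
  field_simp
  linarith

private theorem NN_eq (hq : 1 < q) {Q : ι → Fin q → ℝ} (hQ : IsExp Q) (hs : IsSymm Q)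
    (a c : Fin q) : NN Q a c = X Q / (q - 1) * ((if c = a then (q : ℝ) else 0) - 1) := by
  have hq1 : (q : ℝ) - 1 ≠ 0 := by
    have : (1 : ℝ) < q := by exact_mod_cast hq
    linarith
  by_cases h : c = a
  · subst h
    rw [if_pos rfl, NN_diag hq hQ hs]
    field_simp
  · rw [if_neg h, NN_off hq hQ hs (fun e => h e.symm)]
    ring

/-- the value at `β = 0`, summed over a symmetric `Q` (piece R163_GAIN4): by symmetry
`E[b_a b_c] = X(Q) (q δ_{ac} - 1)/(q-1)`, hence
`E_k <(1+u)^2 (b-<ub>)^2> = X(Q) (1 - kf u/(q-1))` for every `u` with `∑ u = 0`. -/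
theorem gq_zero_sum (hq : 1 < q) (u : Fin q → ℝ) (hu : ∑ a, u a = 0) {Q : ι → Fin q → ℝ}
    (hQ : IsExp Q) (hs : IsSymm Q) :
    ∑' k, mass (Q k) * gq u (uv (Q k)) 0 = X Q * (1 - kf u / (q - 1)) := by
  have hq0 : (q : ℝ) ≠ 0 := by exact_mod_cast (show q ≠ 0 by omega)
  have hq1 : (q : ℝ) - 1 ≠ 0 := by
    have : (1 : ℝ) < q := by exact_mod_cast hq
    linarith
  -- `E[<ub> b_a]`
  have hI : ∀ a, HasSum (fun k => mass (Q k) * (ip u (uv (Q k)) * uv (Q k) a))
      (X Q / (q - 1) * u a) := by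
    intro a
    have h : HasSum (fun k => (1 / (q : ℝ)) * ∑ c, u c *
        (mass (Q k) * (uv (Q k) a * uv (Q k) c))) ((1 / (q : ℝ)) * ∑ c, u c * NN Q a c) :=
      (hasSum_sum fun c _ => (hasSum_NN hq hQ a c).mul_left _).mul_left _
    have e : (1 / (q : ℝ)) * ∑ c, u c * NN Q a c = X Q / (q - 1) * u a := by
      have : ∑ c, u c * NN Q a c = X Q / (q - 1) * (q * u a) := by
        calc ∑ c, u c * NN Q a c = ∑ c, (X Q / (q - 1) * (if c = a then (q : ℝ) * u c else 0) -
              X Q / (q - 1) * u c) := by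
              refine Finset.sum_congr rfl fun c _ => ?_
              rw [NN_eq hq hQ hs a c]
              split_ifs <;> ring
          _ = X Q / (q - 1) * (q * u a) := by
              rw [Finset.sum_sub_distrib, ← Finset.mul_sum, ← Finset.mul_sum, hu,
                Finset.sum_ite_eq' Finset.univ a (fun c => (q : ℝ) * u c)]
              simp
      rw [this]
      field_simp
    rw [e] at h
    have hf : (fun k => mass (Q k) * (ip u (uv (Q k)) * uv (Q k) a)) = fun k => (1 / (q : ℝ)) *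
        ∑ c, u c * (mass (Q k) * (uv (Q k) a * uv (Q k) c)) := by
      funext k
      have h1 : ∑ c, u c * (mass (Q k) * (uv (Q k) a * uv (Q k) c)) =
          (∑ c, u c * uv (Q k) c) * (mass (Q k) * uv (Q k) a) := by
        rw [Finset.sum_mul]
        exact Finset.sum_congr rfl fun c _ => by ring
      rw [h1]
      unfold ip
      ring
    rw [hf]
    exact h
  -- `E[<ub>^2]`
  have hJ : HasSum (fun k => mass (Q k) * (ip u (uv (Q k)) * ip u (uv (Q k))))
      (X Q / (q - 1) * m2 u) := by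
    have h : HasSum (fun k => (1 / (q : ℝ)) * ∑ a, u a *
        (mass (Q k) * (ip u (uv (Q k)) * uv (Q k) a)))
        ((1 / (q : ℝ)) * ∑ a, u a * (X Q / (q - 1) * u a)) :=
      (hasSum_sum fun a _ => (hI a).mul_left _).mul_left _
    have e : (1 / (q : ℝ)) * ∑ a, u a * (X Q / (q - 1) * u a) = X Q / (q - 1) * m2 u := by
      unfold m2
      rw [mul_left_comm (X Q / (q - 1)), Finset.mul_sum (a := X Q / (q - 1))]
      congr 1
      exact Finset.sum_congr rfl fun a _ => by ring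
    rw [e] at h
    have hf : (fun k => mass (Q k) * (ip u (uv (Q k)) * ip u (uv (Q k)))) =
        fun k => (1 / (q : ℝ)) * ∑ a, u a * (mass (Q k) * (ip u (uv (Q k)) * uv (Q k) a)) := by
      funext k
      have h1 : ∑ a, u a * (mass (Q k) * (ip u (uv (Q k)) * uv (Q k) a)) =
          (mass (Q k) * ip u (uv (Q k))) * ∑ a, u a * uv (Q k) a := by
        rw [Finset.mul_sum]
        exact Finset.sum_congr rfl fun a _ => by ring
      have h2 : (1 / (q : ℝ)) * ∑ a, u a * uv (Q k) a = ip u (uv (Q k)) := rfl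
      rw [h1]
      calc mass (Q k) * (ip u (uv (Q k)) * ip u (uv (Q k))) =
            mass (Q k) * ip u (uv (Q k)) * ip u (uv (Q k)) := by ring
        _ = mass (Q k) * ip u (uv (Q k)) * ((1 / (q : ℝ)) * ∑ a, u a * uv (Q k) a) := by rw [h2]
        _ = _ := by ring
    rw [hf]
    exact h
  -- total
  have hT : HasSum (fun k => (1 / (q : ℝ)) * ∑ a, (1 + u a) ^ 2 *
      (mass (Q k) * (uv (Q k) a * uv (Q k) a) + (-2) * (mass (Q k) * (ip u (uv (Q k)) * uv (Q k) a))
        + mass (Q k) * (ip u (uv (Q k)) * ip u (uv (Q k)))))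
      ((1 / (q : ℝ)) * ∑ a, (1 + u a) ^ 2 * (NN Q a a + (-2) * (X Q / (q - 1) * u a) +
        X Q / (q - 1) * m2 u)) :=
    (hasSum_sum fun a _ => (((hasSum_NN hq hQ a a).add ((hI a).mul_left (-2))).add hJ).mul_left
      ((1 + u a) ^ 2)).mul_left _
  have hf : (fun k => mass (Q k) * gq u (uv (Q k)) 0) = fun k => (1 / (q : ℝ)) *
      ∑ a, (1 + u a) ^ 2 * (mass (Q k) * (uv (Q k) a * uv (Q k) a) +
        (-2) * (mass (Q k) * (ip u (uv (Q k)) * uv (Q k) a))
        + mass (Q k) * (ip u (uv (Q k)) * ip u (uv (Q k)))) := by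
    funext k
    unfold gq
    rw [zero_mul, add_zero, div_one, mul_left_comm, Finset.mul_sum (a := mass (Q k))]
    congr 1
    exact Finset.sum_congr rfl fun a _ => by ring
  rw [hf, hT.tsum_eq]
  have s0 : ∑ a, (1 + u a) ^ 2 = q + ∑ a, u a ^ 2 := by
    calc ∑ a, (1 + u a) ^ 2 = ∑ a, ((1 : ℝ) + 2 * u a + u a ^ 2) :=
          Finset.sum_congr rfl fun a _ => by ring
      _ = q + ∑ a, u a ^ 2 := by
          rw [Finset.sum_add_distrib, Finset.sum_add_distrib, ← Finset.mul_sum, hu]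
          simp
  have s1 : ∑ a, (1 + u a) ^ 2 * u a = 2 * ∑ a, u a ^ 2 + ∑ a, u a ^ 3 := by
    calc ∑ a, (1 + u a) ^ 2 * u a = ∑ a, (u a + 2 * u a ^ 2 + u a ^ 3) :=
          Finset.sum_congr rfl fun a _ => by ring
      _ = 2 * ∑ a, u a ^ 2 + ∑ a, u a ^ 3 := by
          rw [Finset.sum_add_distrib, Finset.sum_add_distrib, ← Finset.mul_sum, hu]
          ring
  have s2 : ∑ a, (1 + u a) ^ 2 * (NN Q a a + (-2) * (X Q / (q - 1) * u a) +
        X Q / (q - 1) * m2 u) = (X Q + X Q / (q - 1) * m2 u) * ∑ a, (1 + u a) ^ 2 -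
        2 * (X Q / (q - 1)) * ∑ a, (1 + u a) ^ 2 * u a := by
    rw [Finset.mul_sum, Finset.mul_sum, ← Finset.sum_sub_distrib]
    refine Finset.sum_congr rfl fun a _ => ?_
    rw [NN_diag hq hQ hs]
    ring
  rw [s2, s0, s1]
  unfold kf m2 m3
  field_simp
  ring

end Crest.Agent.R163
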