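import Crest.Agent.R163.Gain1
import Crest.Agent.R163.Gain2
import Crest.Agent.R163.Gain4

/-!
# Row 163: the gain bound (piece R163_GAIN5)

`gain_eq` for `P` and `ch β Q` (`isExp_ch`, `mass_ch`, `uv_ch`), `gq_smul`, `gq_convex` pointwise
(terms with `mass = 0` vanish), then `gq_zero_sum` and `gain_eq` again; sum over `i` of
`mass (P i) * (1 - kf (uv (P i))/(q-1)) = 1 - KK P/(q-1)`.
-/

set_option autoImplicit false

namespace Crest.Agent.R163

open Finset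

variable {ι κ : Type*} {q : ℕ}

private theorem one_add_uv_nonneg (v : Fin q → ℝ) (hv : ∀ a, 0 ≤ v a) (a : Fin q) :
    0 ≤ 1 + uv v a := by
  have := neg_one_le_uv v hv a
  linarith

private theorem one_add_uv_le (hq : 0 < q) (v : Fin q → ℝ) (hv : ∀ a, 0 ≤ v a)
    (h : mass v ≠ 0) (a : Fin q) : 1 + uv v a ≤ q := by
  have h1 := le_mass hq v hv a
  have h2 : 0 < mass v := lt_of_le_of_ne (mass_nonneg v hv) (Ne.symm h)
  unfold uv
  have : v a / mass v ≤ q := by rw [div_le_iff₀ h2]; exact h1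
  linarith

private theorem sum_prod_eq (hq : 0 < q) (p v : Fin q → ℝ)
    (hp0 : mass p ≠ 0) (hv0 : mass v ≠ 0) :
    ∑ a, (1 + uv p a) * (1 + uv v a) = q * (1 + ip (uv p) (uv v)) := by
  have hq' : (q : ℝ) ≠ 0 := by exact_mod_cast hq.ne'
  have h1 := sum_uv hq p hp0
  have h2 := sum_uv hq v hv0
  have h3 : ∑ a, (1 + uv p a) * (1 + uv v a) =
      ∑ a : Fin q, (1 : ℝ) + ∑ a, uv p a + ∑ a, uv v a + ∑ a, uv p a * uv v a := by
    rw [← Finset.sum_add_distrib, ← Finset.sum_add_distrib, ← Finset.sum_add_distrib]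
    exact Finset.sum_congr rfl fun a _ => by ring
  rw [h3, h1, h2]
  unfold ip
  simp only [Finset.sum_const, Finset.card_univ, Fintype.card_fin, nsmul_eq_mul, mul_one, add_zero]
  field_simp

/-- a bound for the kernel at `β = 1` -/
private theorem gq_one_le (hq : 0 < q) (p v : Fin q → ℝ) (hp : ∀ a, 0 ≤ p a) (hv : ∀ a, 0 ≤ v a)
    (hp0 : mass p ≠ 0) (hv0 : mass v ≠ 0) :
    gq (uv p) (uv v) 1 ≤ (q : ℝ) ^ 4 := by
  have hq' : (0 : ℝ) < q := by exact_mod_cast hq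
  set t : ℝ := 1 + ip (uv p) (uv v) with ht
  have hsum := sum_prod_eq hq p v hp0 hv0
  have hx0 : ∀ a, 0 ≤ (1 + uv p a) * (1 + uv v a) := fun a =>
    mul_nonneg (one_add_uv_nonneg p hp a) (one_add_uv_nonneg v hv a)
  have ht0 : 0 ≤ t := by
    have : 0 ≤ q * t := by rw [← hsum]; exact Finset.sum_nonneg fun a _ => hx0 a
    exact nonneg_of_mul_nonneg_right this hq'
  have ht1 : t ≤ (q : ℝ) ^ 2 := by
    have : q * t ≤ q * (q : ℝ) ^ 2 := by
      rw [← hsum]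
      calc ∑ a, (1 + uv p a) * (1 + uv v a) ≤ ∑ _a : Fin q, (q : ℝ) ^ 2 := by
            refine Finset.sum_le_sum fun a _ => ?_
            rw [sq]
            exact mul_le_mul (one_add_uv_le hq p hp hp0 a) (one_add_uv_le hq v hv hv0 a)
              (one_add_uv_nonneg v hv a) hq'.le
        _ = q * (q : ℝ) ^ 2 := by simp
    exact le_of_mul_le_mul_left this hq'
  have hnum : (1 / (q : ℝ)) * ∑ a, (1 + uv p a) ^ 2 * (uv v a - ip (uv p) (uv v)) ^ 2 ≤
      (q : ℝ) ^ 2 * t ^ 2 := by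
    have h1 : ∀ a, (1 + uv p a) ^ 2 * (uv v a - ip (uv p) (uv v)) ^ 2 ≤ (q : ℝ) ^ 2 * t ^ 2 := by
      intro a
      have e1 : (1 + uv p a) ^ 2 * (uv v a - ip (uv p) (uv v)) ^ 2 =
          ((1 + uv p a) * (1 + uv v a) - (1 + uv p a) * t) ^ 2 := by rw [ht]; ring
      rw [e1, ← mul_pow]
      have h2 : (1 + uv p a) * (1 + uv v a) ≤ q * t := by
        rw [← hsum]
        exact Finset.single_le_sum (fun b _ => hx0 b) (Finset.mem_univ a)
      have h3 : (1 + uv p a) * t ≤ q * t :=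
        mul_le_mul_of_nonneg_right (one_add_uv_le hq p hp hp0 a) ht0
      have h4 : 0 ≤ (1 + uv p a) * t := mul_nonneg (one_add_uv_nonneg p hp a) ht0
      have h5 := hx0 a
      exact sq_le_sq' (by linarith) (by linarith)
    calc (1 / (q : ℝ)) * ∑ a, (1 + uv p a) ^ 2 * (uv v a - ip (uv p) (uv v)) ^ 2
        ≤ (1 / (q : ℝ)) * ∑ _a : Fin q, (q : ℝ) ^ 2 * t ^ 2 :=
          mul_le_mul_of_nonneg_left (Finset.sum_le_sum fun a _ => h1 a) (by positivity)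
      _ = (q : ℝ) ^ 2 * t ^ 2 := by
          simp only [Finset.sum_const, Finset.card_univ, Fintype.card_fin, nsmul_eq_mul]
          field_simp
  unfold gq
  rw [one_mul, ← ht]
  rcases ht0.eq_or_lt with h | h
  · rw [← h, div_zero]; positivity
  · rw [div_le_iff₀ h]
    calc _ ≤ (q : ℝ) ^ 2 * t ^ 2 := hnum
      _ = (q : ℝ) ^ 2 * t * t := by ring
      _ ≤ (q : ℝ) ^ 2 * (q : ℝ) ^ 2 * t := by gcongr
      _ = (q : ℝ) ^ 4 * t := by ring

private theorem gq_zero_le (hq : 0 < q) (p v : Fin q → ℝ) (hp : ∀ a, 0 ≤ p a) (hv : ∀ a, 0 ≤ v a)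
    (hp0 : mass p ≠ 0) (hv0 : mass v ≠ 0) :
    gq (uv p) (uv v) 0 ≤ (q : ℝ) ^ 2 * (q + q ^ 2) ^ 2 := by
  have hq' : (0 : ℝ) < q := by exact_mod_cast hq
  have hq1 : (1 : ℝ) ≤ q := by exact_mod_cast hq
  set t : ℝ := 1 + ip (uv p) (uv v) with ht
  have hsum := sum_prod_eq hq p v hp0 hv0
  have hx0 : ∀ a, 0 ≤ (1 + uv p a) * (1 + uv v a) := fun a =>
    mul_nonneg (one_add_uv_nonneg p hp a) (one_add_uv_nonneg v hv a)
  have ht0 : 0 ≤ t := by
    have : 0 ≤ q * t := by rw [← hsum]; exact Finset.sum_nonneg fun a _ => hx0 a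
    exact nonneg_of_mul_nonneg_right this hq'
  have ht1 : t ≤ (q : ℝ) ^ 2 := by
    have : q * t ≤ q * (q : ℝ) ^ 2 := by
      rw [← hsum]
      calc ∑ a, (1 + uv p a) * (1 + uv v a) ≤ ∑ _a : Fin q, (q : ℝ) ^ 2 := by
            refine Finset.sum_le_sum fun a _ => ?_
            rw [sq]
            exact mul_le_mul (one_add_uv_le hq p hp hp0 a) (one_add_uv_le hq v hv hv0 a)
              (one_add_uv_nonneg v hv a) hq'.le
        _ = q * (q : ℝ) ^ 2 := by simp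
    exact le_of_mul_le_mul_left this hq'
  have h1 : ∀ a, (1 + uv p a) ^ 2 * (uv v a - ip (uv p) (uv v)) ^ 2 ≤
      (q : ℝ) ^ 2 * (q + q ^ 2) ^ 2 := by
    intro a
    have e1 : uv v a - ip (uv p) (uv v) = (1 + uv v a) - t := by rw [ht]; ring
    rw [e1]
    have h2 := one_add_uv_nonneg v hv a
    have h3 := one_add_uv_le hq v hv hv0 a
    have h4 := one_add_uv_nonneg p hp a
    have h5 := one_add_uv_le hq p hp hp0 a
    have h6 : (1 + uv p a) ^ 2 ≤ (q : ℝ) ^ 2 := pow_le_pow_left₀ h4 h5 2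
    have h7 : ((1 + uv v a) - t) ^ 2 ≤ ((q : ℝ) + q ^ 2) ^ 2 :=
      sq_le_sq' (by nlinarith) (by nlinarith [sq_nonneg (q : ℝ)])
    exact mul_le_mul h6 h7 (sq_nonneg _) (by positivity)
  unfold gq
  rw [zero_mul, add_zero, div_one]
  calc (1 / (q : ℝ)) * ∑ a, (1 + uv p a) ^ 2 * (uv v a - ip (uv p) (uv v)) ^ 2
      ≤ (1 / (q : ℝ)) * ∑ _a : Fin q, (q : ℝ) ^ 2 * (q + q ^ 2) ^ 2 :=
        mul_le_mul_of_nonneg_left (Finset.sum_le_sum fun a _ => h1 a) (by positivity)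
    _ = (q : ℝ) ^ 2 * (q + q ^ 2) ^ 2 := by
        simp only [Finset.sum_const, Finset.card_univ, Fintype.card_fin, nsmul_eq_mul]
        field_simp

/-- the summand -/
private noncomputable def gA (P : κ → Fin q → ℝ) (Q : ι → Fin q → ℝ) (β : ℝ) (x : ι × κ) : ℝ :=
  mass (P x.2) * mass (Q x.1) * gq (uv (P x.2)) (uv (Q x.1)) β

private theorem gA_le (hq : 0 < q) {P : κ → Fin q → ℝ} (hP : IsExp P) {Q : ι → Fin q → ℝ}
    (hQ : IsExp Q) (β : ℝ) (h0 : 0 ≤ β) (h1 : β ≤ 1) (x : ι × κ) :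
    gA P Q β x ≤ (1 - β) * gA P Q 0 x + β * gA P Q 1 x := by
  unfold gA
  by_cases hp0 : mass (P x.2) = 0
  · rw [hp0]; simp
  by_cases hv0 : mass (Q x.1) = 0
  · rw [hv0]; simp
  have h := gq_convex hq (P x.2) (Q x.1) (hP.nonneg _) (hQ.nonneg _) hp0 hv0 β h0 h1
  have h2 : 0 ≤ mass (P x.2) * mass (Q x.1) :=
    mul_nonneg (mass_nonneg _ (hP.nonneg _)) (mass_nonneg _ (hQ.nonneg _))
  calc mass (P x.2) * mass (Q x.1) * gq (uv (P x.2)) (uv (Q x.1)) β
      ≤ mass (P x.2) * mass (Q x.1) * ((1 - β) * gq (uv (P x.2)) (uv (Q x.1)) 0 +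
        β * gq (uv (P x.2)) (uv (Q x.1)) 1) := mul_le_mul_of_nonneg_left h h2
    _ = _ := by ring

private theorem gA_nonneg (hq : 0 < q) {P : κ → Fin q → ℝ} (hP : IsExp P) {Q : ι → Fin q → ℝ}
    (hQ : IsExp Q) (β : ℝ) (h0 : 0 ≤ β) (h1 : β ≤ 1) (x : ι × κ) : 0 ≤ gA P Q β x := by
  unfold gA
  by_cases hp0 : mass (P x.2) = 0
  · rw [hp0]; simp
  by_cases hv0 : mass (Q x.1) = 0
  · rw [hv0]; simp
  have h := gq_nonneg hq (P x.2) (Q x.1) (hP.nonneg _) (hQ.nonneg _) hp0 hv0 β h0 h1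
  have h2 : 0 ≤ mass (P x.2) * mass (Q x.1) :=
    mul_nonneg (mass_nonneg _ (hP.nonneg _)) (mass_nonneg _ (hQ.nonneg _))
  exact mul_nonneg h2 h

private theorem gA_bound (hq : 0 < q) {P : κ → Fin q → ℝ} (hP : IsExp P) {Q : ι → Fin q → ℝ}
    (hQ : IsExp Q) (β : ℝ) (h0 : 0 ≤ β) (h1 : β ≤ 1) (x : ι × κ) :
    gA P Q β x ≤ ((q : ℝ) ^ 2 * (q + q ^ 2) ^ 2 + q ^ 4) * (mass (Q x.1) * mass (P x.2)) := by
  have hc := gA_le hq hP hQ β h0 h1 x
  have h2 : 0 ≤ mass (Q x.1) * mass (P x.2) :=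
    mul_nonneg (mass_nonneg _ (hQ.nonneg _)) (mass_nonneg _ (hP.nonneg _))
  have h3 : gA P Q 0 x ≤ ((q : ℝ) ^ 2 * (q + q ^ 2) ^ 2) * (mass (Q x.1) * mass (P x.2)) := by
    unfold gA
    by_cases hp0 : mass (P x.2) = 0
    · rw [hp0]; simp
    by_cases hv0 : mass (Q x.1) = 0
    · rw [hv0]; simp
    have := gq_zero_le hq (P x.2) (Q x.1) (hP.nonneg _) (hQ.nonneg _) hp0 hv0
    calc mass (P x.2) * mass (Q x.1) * gq (uv (P x.2)) (uv (Q x.1)) 0
        = gq (uv (P x.2)) (uv (Q x.1)) 0 * (mass (Q x.1) * mass (P x.2)) := by ring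
      _ ≤ _ := mul_le_mul_of_nonneg_right this h2
  have h4 : gA P Q 1 x ≤ ((q : ℝ) ^ 4) * (mass (Q x.1) * mass (P x.2)) := by
    unfold gA
    by_cases hp0 : mass (P x.2) = 0
    · rw [hp0]; simp
    by_cases hv0 : mass (Q x.1) = 0
    · rw [hv0]; simp
    have := gq_one_le hq (P x.2) (Q x.1) (hP.nonneg _) (hQ.nonneg _) hp0 hv0
    calc mass (P x.2) * mass (Q x.1) * gq (uv (P x.2)) (uv (Q x.1)) 1
        = gq (uv (P x.2)) (uv (Q x.1)) 1 * (mass (Q x.1) * mass (P x.2)) := by ring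
      _ ≤ _ := mul_le_mul_of_nonneg_right this h2
  have h5 := gA_nonneg hq hP hQ 0 le_rfl zero_le_one x
  have h6 := gA_nonneg hq hP hQ 1 zero_le_one le_rfl x
  calc gA P Q β x ≤ (1 - β) * gA P Q 0 x + β * gA P Q 1 x := hc
    _ ≤ 1 * gA P Q 0 x + 1 * gA P Q 1 x := by
        gcongr
        linarith
    _ ≤ _ := by linarith

private theorem summable_gA (hq : 0 < q) {P : κ → Fin q → ℝ} (hP : IsExp P) {Q : ι → Fin q → ℝ}
    (hQ : IsExp Q) (β : ℝ) (h0 : 0 ≤ β) (h1 : β ≤ 1) : Summable (gA P Q β) := by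
  have hs : Summable (fun x : ι × κ => mass (Q x.1) * mass (P x.2)) :=
    (hQ.hasSum_mass hq).summable.mul_of_nonneg (hP.hasSum_mass hq).summable
      (fun k => mass_nonneg _ (hQ.nonneg k)) (fun i => mass_nonneg _ (hP.nonneg i))
  exact Summable.of_nonneg_of_le (gA_nonneg hq hP hQ β h0 h1) (gA_bound hq hP hQ β h0 h1)
    (hs.mul_left _)

private theorem tsum_gA_zero (hq : 1 < q) {P : κ → Fin q → ℝ} (hP : IsExp P) {Q : ι → Fin q → ℝ}
    (hQ : IsExp Q) (hs : IsSymm Q) :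
    ∑' x, gA P Q 0 x = X Q * (1 - KK P / (q - 1)) := by
  have hq0 : 0 < q := by omega
  have hsum := summable_gA hq0 hP hQ 0 le_rfl zero_le_one
  have e1 : ∑' x, gA P Q 0 x = ∑' x : κ × ι, gA P Q 0 (Equiv.prodComm κ ι x) :=
    ((Equiv.prodComm κ ι).tsum_eq (gA P Q 0)).symm
  have hsum' : Summable (fun x : κ × ι => gA P Q 0 (Equiv.prodComm κ ι x)) :=
    (Equiv.prodComm κ ι).summable_iff.2 hsum
  rw [e1, hsum'.tsum_prod]
  have e2 : ∀ i : κ, ∑' k : ι, gA P Q 0 (Equiv.prodComm κ ι (i, k)) =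
      X Q * (mass (P i) - fK (P i) / (q - 1)) := by
    intro i
    have e3 : ∑' k : ι, gA P Q 0 (Equiv.prodComm κ ι (i, k)) =
        mass (P i) * ∑' k, mass (Q k) * gq (uv (P i)) (uv (Q k)) 0 := by
      rw [← tsum_mul_left]
      refine tsum_congr fun k => ?_
      simp only [gA, Equiv.prodComm_apply, Prod.swap]
      ring
    rw [e3]
    by_cases hp0 : mass (P i) = 0
    · rw [hp0]; unfold fK; rw [hp0]; simp
    · rw [gq_zero_sum hq _ (sum_uv hq0 _ hp0) hQ hs]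
      unfold fK
      ring
  rw [tsum_congr e2, tsum_mul_left]
  congr 1
  have h1 := (hP.hasSum_mass hq0)
  have h2 : HasSum (fun i => fK (P i)) (KK P) := (hP.summable hq0 (mbdd_fK hq0)).hasSum
  exact (h1.sub (h2.div_const _)).tsum_eq

/-- **gain bound** (piece R163_GAIN5), from `gain_eq`, `gq_smul`, `gq_convex`, `gq_zero_sum`. -/
theorem gain_ch_le (hq : 1 < q) {P : κ → Fin q → ℝ} (hP : IsExp P) {Q : ι → Fin q → ℝ}
    (hQ : IsExp Q) (hs : IsSymm Q) (β : ℝ) (h0 : 0 ≤ β) (h1 : β ≤ 1) :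
    gain P (ch β Q) ≤
      β ^ 2 * ((1 - β) * (X Q * (1 - KK P / (q - 1))) + β * gain P Q) := by
  have hq0 : 0 < q := by omega
  have hq1 : (1 : ℝ) < q := by exact_mod_cast hq
  have hβ : -(1 / ((q : ℝ) - 1)) ≤ β := by
    have : 0 ≤ 1 / ((q : ℝ) - 1) := by
      apply div_nonneg zero_le_one
      linarith
    linarith
  have hch : IsExp (ch β Q) := isExp_ch hq hβ h1 hQ
  have hsβ := summable_gA hq0 hP hQ β h0 h1
  have hs0 := summable_gA hq0 hP hQ 0 le_rfl zero_le_one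
  have hs1 := summable_gA hq0 hP hQ 1 zero_le_one le_rfl
  have e1 : gain P (ch β Q) = β ^ 2 * ∑' x, gA P Q β x := by
    rw [gain_eq hq hP hch, hsβ.tsum_prod, ← tsum_mul_left]
    refine tsum_congr fun k => ?_
    rw [← tsum_mul_left]
    refine tsum_congr fun i => ?_
    unfold gA
    rw [mass_ch hq0]
    by_cases hv0 : mass (Q k) = 0
    · rw [hv0]; simp
    · have e2 : uv (ch β Q k) = fun a => β * uv (Q k) a := by
        funext a
        exact uv_ch hq0 β Q k hv0 a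
      rw [e2, gq_smul]
      ring
  have e2 : gain P Q = ∑' x, gA P Q 1 x := by
    rw [gain_eq hq hP hQ, hs1.tsum_prod]
    rfl
  rw [e1, e2, ← tsum_gA_zero hq hP hQ hs]
  apply mul_le_mul_of_nonneg_left _ (by positivity)
  rw [← tsum_mul_left, ← tsum_mul_left, ← (hs0.mul_left _).tsum_add (hs1.mul_left _)]
  exact hsβ.tsum_le_tsum (gA_le hq0 hP hQ β h0 h1) ((hs0.mul_left _).add (hs1.mul_left _))

end Crest.Agent.R163
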