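import Crest.Agent.R163.Basic

/-!
# Row 163: the class `0 ≤ KK` and the channel (piece R163_KCH)

`uv (ch β w i) = β uv (w i)`, `mass` unchanged, so
`KK (ch β w) = β^2 ((4-q) X + 2 β κ - β^2 X2)` with `X, κ, X2 = Ex fX, Ex fk, Ex fX2`.
For `0 ≤ β ≤ 1`, `q ≤ 4`: `(4-q)X + 2βκ - β²X2 ≥ β((4-q)X + 2κ - X2) + β(1-β) X2`, and
`X2 ≥ X^2` (from `m^2 ≥ 2 m X - X^2` pointwise).
-/

set_option autoImplicit false

namespace Crest.Agent.R163

open Finset

variable {ι κ : Type*} {q : ℕ}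

theorem sq_X_le (hq : 0 < q) {w : ι → Fin q → ℝ} (hw : IsExp w) : X w ^ 2 ≤ Ex fX2 w := by
  have h2 := (hw.summable hq (mbdd_fX2 hq)).hasSum
  have h1 := (hw.summable hq (mbdd_fX hq)).hasSum
  have hm := hw.hasSum_mass hq
  have h3 := (h1.mul_left (2 * X w)).sub (hm.mul_left (X w ^ 2))
  have h4 : 2 * X w * X w - X w ^ 2 * 1 ≤ Ex fX2 w := by
    refine hasSum_le (fun i => ?_) h3 h2
    unfold fX fX2
    have := mass_nonneg (w i) (hw.nonneg i)
    nlinarith [mul_nonneg this (sq_nonneg (m2 (uv (w i)) - X w))]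
  linarith [h4]

theorem KK_ch_ge (hq : 1 < q) (hq4 : q ≤ 4) {w : ι → Fin q → ℝ} (hw : IsExp w) (h : 0 ≤ KK w)
    (β : ℝ) (h0 : 0 ≤ β) (h1 : β ≤ 1) : β ^ 3 * (1 - β) * X w ^ 2 ≤ KK (ch β w) := by
  have hq0 : 0 < q := by omega
  have hq1 : (1 : ℝ) < q := by exact_mod_cast hq
  have hq4' : (q : ℝ) ≤ 4 := by exact_mod_cast hq4
  have hneg : -(1 / ((q : ℝ) - 1)) ≤ β := by
    have : 0 ≤ 1 / ((q : ℝ) - 1) := by
      apply div_nonneg zero_le_one; linarith
    linarith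
  have hch := (isExp_ch hq hneg h1 hw).summable hq0 (mbdd_fK hq0)
  have hK := (hw.summable hq0 (mbdd_fK hq0)).hasSum
  have hX2 := (hw.summable hq0 (mbdd_fX2 hq0)).hasSum
  have h3 := (hK.mul_left (β ^ 3)).add (hX2.mul_left (β ^ 3 * (1 - β)))
  have h4 : β ^ 3 * KK w + β ^ 3 * (1 - β) * Ex fX2 w ≤ KK (ch β w) := by
    refine hasSum_le (fun i => ?_) h3 hch.hasSum
    unfold fK fX2
    rw [mass_ch hq0]
    by_cases hm : mass (w i) = 0
    · rw [hm]; simp
    have hmn := mass_nonneg (w i) (hw.nonneg i)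
    have hu : uv (ch β w i) = fun a => β * uv (w i) a := by
      funext a; exact uv_ch hq0 β w i hm a
    have e2 : m2 (uv (ch β w i)) = β ^ 2 * m2 (uv (w i)) := by
      rw [hu]; unfold m2
      simp only [mul_pow]
      rw [← Finset.mul_sum]; ring
    have e3 : m3 (uv (ch β w i)) = β ^ 3 * m3 (uv (w i)) := by
      rw [hu]; unfold m3
      simp only [mul_pow]
      rw [← Finset.mul_sum]; ring
    have hm2 := m2_nonneg (uv (w i))
    have hdiff : mass (w i) * kf (uv (ch β w i)) - (β ^ 3 * (mass (w i) * kf (uv (w i))) +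
        β ^ 3 * (1 - β) * (mass (w i) * m2 (uv (w i)) ^ 2)) =
        mass (w i) * (β ^ 2 * (1 - β) * ((4 - q) * m2 (uv (w i)))) := by
      unfold kf
      rw [e2, e3]
      ring
    have hpos : 0 ≤ mass (w i) * (β ^ 2 * (1 - β) * ((4 - q) * m2 (uv (w i)))) := by
      apply mul_nonneg hmn
      apply mul_nonneg
      · exact mul_nonneg (sq_nonneg β) (by linarith)
      · exact mul_nonneg (by linarith) hm2
    linarith
  have h5 := sq_X_le hq0 hw
  have h6 : 0 ≤ β ^ 3 * (1 - β) := mul_nonneg (pow_nonneg h0 3) (by linarith)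
  nlinarith [mul_le_mul_of_nonneg_left h5 h6, mul_nonneg (pow_nonneg h0 3) h]

end Crest.Agent.R163
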