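import Crest.Agent.R163.O3Cone
import Crest.Agent.R163.Basic

/-!
# Row 163, orbit inequality for `q = 3`
-/

set_option autoImplicit false
set_option linter.unusedVariables false
set_option linter.unusedSimpArgs false

namespace Crest.Agent.R163.O3

open Finset
open O4 (dotR dotRR SS SS_nonneg dotZ lin toR dotR_toR dotRR_toR dotR_lin)

/-- symmetrised monomial -/
noncomputable def M (p q r : ℕ) (w : Fin 3 → ℝ) : ℝ :=
  ∑ τ : Equiv.Perm (Fin 3), w (τ 0) ^ p * w (τ 1) ^ q * w (τ 2) ^ r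

theorem M_mul (p q r : ℕ) (y z : Fin 3 → ℝ) :
    ∑ σ : Equiv.Perm (Fin 3), M p q r (fun a => y a * z (σ a)) = M p q r y * M p q r z := by
  unfold M
  rw [Finset.sum_comm, Finset.sum_mul]
  refine Finset.sum_congr rfl fun τ _ => ?_
  have h : ∑ σ : Equiv.Perm (Fin 3), z (σ 0) ^ p * z (σ 1) ^ q * z (σ 2) ^ r =
      ∑ σ : Equiv.Perm (Fin 3), z (σ (τ 0)) ^ p * z (σ (τ 1)) ^ q * z (σ (τ 2)) ^ r :=
    (Equiv.sum_comp (Equiv.mulRight τ)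
      (fun σ : Equiv.Perm (Fin 3) => z (σ 0) ^ p * z (σ 1) ^ q * z (σ 2) ^ r)).symm
  rw [h, Finset.mul_sum]
  refine Finset.sum_congr rfl fun σ _ => ?_
  simp only [mul_pow]
  ring

theorem perms3 : (Finset.univ : Finset (Equiv.Perm (Fin 3))).val.map
    (fun τ => (τ 0, τ 1, τ 2)) = (([(0, 1, 2), (0, 2, 1), (1, 0, 2), (1, 2, 0), (2, 0, 1), (2, 1, 0)] : List (Fin 3 × Fin 3 × Fin 3)) :
      Multiset (Fin 3 × Fin 3 × Fin 3)) := by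
  decide +kernel

theorem sum_perm3 (f : Fin 3 × Fin 3 × Fin 3 → ℝ) :
    ∑ τ : Equiv.Perm (Fin 3), f (τ 0, τ 1, τ 2) =
    f (0, 1, 2) + f (0, 2, 1) + f (1, 0, 2) + f (1, 2, 0) + f (2, 0, 1) + f (2, 1, 0) := by
  have h : ∑ τ : Equiv.Perm (Fin 3), f (τ 0, τ 1, τ 2) =
      (((Finset.univ : Finset (Equiv.Perm (Fin 3))).val.map
        (fun τ => (τ 0, τ 1, τ 2))).map f).sum := by
    rw [Multiset.map_map]; rfl
  rw [h, perms3]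
  simp only [Multiset.map_coe, Multiset.sum_coe, List.map_cons, List.map_nil, List.sum_cons,
    List.sum_nil]
  ring

theorem M_expand (p q r : ℕ) (w : Fin 3 → ℝ) : M p q r w =
    w 0 ^ p * w 1 ^ q * w 2 ^ r + w 0 ^ p * w 2 ^ q * w 1 ^ r + w 1 ^ p * w 0 ^ q * w 2 ^ r + w 1 ^ p * w 2 ^ q * w 0 ^ r + w 2 ^ p * w 0 ^ q * w 1 ^ r + w 2 ^ p * w 1 ^ q * w 0 ^ r := by
  unfold M
  exact sum_perm3 (fun t => w t.1 ^ p * w t.2.1 ^ q * w t.2.2 ^ r)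

theorem M100 (w : Fin 3 → ℝ) : M 1 0 0 w =
    (2)*(s1 w) := by
  simp only [M_expand, s1_eq, s2_eq, s3_eq]
  ring

theorem M110 (w : Fin 3 → ℝ) : M 1 1 0 w =
    (2)*(s2 w) := by
  simp only [M_expand, s1_eq, s2_eq, s3_eq]
  ring

theorem M200 (w : Fin 3 → ℝ) : M 2 0 0 w =
    (2)*(s1 w)^2 + (-4)*(s2 w) := by
  simp only [M_expand, s1_eq, s2_eq, s3_eq]
  ring

theorem M111 (w : Fin 3 → ℝ) : M 1 1 1 w =
    (6)*(s3 w) := by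
  simp only [M_expand, s1_eq, s2_eq, s3_eq]
  ring

theorem M210 (w : Fin 3 → ℝ) : M 2 1 0 w =
    (1)*(s1 w)*(s2 w) + (-3)*(s3 w) := by
  simp only [M_expand, s1_eq, s2_eq, s3_eq]
  ring

theorem M300 (w : Fin 3 → ℝ) : M 3 0 0 w =
    (2)*(s1 w)^3 + (-6)*(s1 w)*(s2 w) + (6)*(s3 w) := by
  simp only [M_expand, s1_eq, s2_eq, s3_eq]
  ring

theorem M211 (w : Fin 3 → ℝ) : M 2 1 1 w =
    (2)*(s1 w)*(s3 w) := by
  simp only [M_expand, s1_eq, s2_eq, s3_eq]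
  ring

theorem M220 (w : Fin 3 → ℝ) : M 2 2 0 w =
    (-4)*(s1 w)*(s3 w) + (2)*(s2 w)^2 := by
  simp only [M_expand, s1_eq, s2_eq, s3_eq]
  ring

theorem M310 (w : Fin 3 → ℝ) : M 3 1 0 w =
    (1)*(s1 w)^2*(s2 w) + (-1)*(s1 w)*(s3 w) + (-2)*(s2 w)^2 := by
  simp only [M_expand, s1_eq, s2_eq, s3_eq]
  ring

theorem M400 (w : Fin 3 → ℝ) : M 4 0 0 w =
    (2)*(s1 w)^4 + (-8)*(s1 w)^2*(s2 w) + (8)*(s1 w)*(s3 w) + (4)*(s2 w)^2 := by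
  simp only [M_expand, s1_eq, s2_eq, s3_eq]
  ring

theorem M221 (w : Fin 3 → ℝ) : M 2 2 1 w =
    (2)*(s2 w)*(s3 w) := by
  simp only [M_expand, s1_eq, s2_eq, s3_eq]
  ring

theorem M311 (w : Fin 3 → ℝ) : M 3 1 1 w =
    (2)*(s1 w)^2*(s3 w) + (-4)*(s2 w)*(s3 w) := by
  simp only [M_expand, s1_eq, s2_eq, s3_eq]
  ring

theorem M320 (w : Fin 3 → ℝ) : M 3 2 0 w =
    (-2)*(s1 w)^2*(s3 w) + (1)*(s1 w)*(s2 w)^2 + (-1)*(s2 w)*(s3 w) := by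
  simp only [M_expand, s1_eq, s2_eq, s3_eq]
  ring

theorem M410 (w : Fin 3 → ℝ) : M 4 1 0 w =
    (1)*(s1 w)^3*(s2 w) + (-1)*(s1 w)^2*(s3 w) + (-3)*(s1 w)*(s2 w)^2 + (5)*(s2 w)*(s3 w) := by
  simp only [M_expand, s1_eq, s2_eq, s3_eq]
  ring

theorem M500 (w : Fin 3 → ℝ) : M 5 0 0 w =
    (2)*(s1 w)^5 + (-10)*(s1 w)^3*(s2 w) + (10)*(s1 w)^2*(s3 w) + (10)*(s1 w)*(s2 w)^2 + (-10)*(s2 w)*(s3 w) := by
  simp only [M_expand, s1_eq, s2_eq, s3_eq]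
  ring

theorem M222 (w : Fin 3 → ℝ) : M 2 2 2 w =
    (6)*(s3 w)^2 := by
  simp only [M_expand, s1_eq, s2_eq, s3_eq]
  ring

theorem M321 (w : Fin 3 → ℝ) : M 3 2 1 w =
    (1)*(s1 w)*(s2 w)*(s3 w) + (-3)*(s3 w)^2 := by
  simp only [M_expand, s1_eq, s2_eq, s3_eq]
  ring

theorem M330 (w : Fin 3 → ℝ) : M 3 3 0 w =
    (-6)*(s1 w)*(s2 w)*(s3 w) + (2)*(s2 w)^3 + (6)*(s3 w)^2 := by
  simp only [M_expand, s1_eq, s2_eq, s3_eq]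
  ring

theorem M411 (w : Fin 3 → ℝ) : M 4 1 1 w =
    (2)*(s1 w)^3*(s3 w) + (-6)*(s1 w)*(s2 w)*(s3 w) + (6)*(s3 w)^2 := by
  simp only [M_expand, s1_eq, s2_eq, s3_eq]
  ring

theorem M420 (w : Fin 3 → ℝ) : M 4 2 0 w =
    (-2)*(s1 w)^3*(s3 w) + (1)*(s1 w)^2*(s2 w)^2 + (4)*(s1 w)*(s2 w)*(s3 w) + (-2)*(s2 w)^3 + (-3)*(s3 w)^2 := by
  simp only [M_expand, s1_eq, s2_eq, s3_eq]
  ring

theorem M510 (w : Fin 3 → ℝ) : M 5 1 0 w =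
    (1)*(s1 w)^4*(s2 w) + (-1)*(s1 w)^3*(s3 w) + (-4)*(s1 w)^2*(s2 w)^2 + (7)*(s1 w)*(s2 w)*(s3 w) + (2)*(s2 w)^3 + (-3)*(s3 w)^2 := by
  simp only [M_expand, s1_eq, s2_eq, s3_eq]
  ring

theorem M600 (w : Fin 3 → ℝ) : M 6 0 0 w =
    (2)*(s1 w)^6 + (-12)*(s1 w)^4*(s2 w) + (12)*(s1 w)^3*(s3 w) + (18)*(s1 w)^2*(s2 w)^2 + (-24)*(s1 w)*(s2 w)*(s3 w) + (-4)*(s2 w)^3 + (6)*(s3 w)^2 := by
  simp only [M_expand, s1_eq, s2_eq, s3_eq]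
  ring

theorem M322 (w : Fin 3 → ℝ) : M 3 2 2 w =
    (2)*(s1 w)*(s3 w)^2 := by
  simp only [M_expand, s1_eq, s2_eq, s3_eq]
  ring

theorem M331 (w : Fin 3 → ℝ) : M 3 3 1 w =
    (-4)*(s1 w)*(s3 w)^2 + (2)*(s2 w)^2*(s3 w) := by
  simp only [M_expand, s1_eq, s2_eq, s3_eq]
  ring

theorem M421 (w : Fin 3 → ℝ) : M 4 2 1 w =
    (1)*(s1 w)^2*(s2 w)*(s3 w) + (-1)*(s1 w)*(s3 w)^2 + (-2)*(s2 w)^2*(s3 w) := by
  simp only [M_expand, s1_eq, s2_eq, s3_eq]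
  ring

theorem M430 (w : Fin 3 → ℝ) : M 4 3 0 w =
    (-3)*(s1 w)^2*(s2 w)*(s3 w) + (1)*(s1 w)*(s2 w)^3 + (5)*(s1 w)*(s3 w)^2 + (-1)*(s2 w)^2*(s3 w) := by
  simp only [M_expand, s1_eq, s2_eq, s3_eq]
  ring

theorem M511 (w : Fin 3 → ℝ) : M 5 1 1 w =
    (2)*(s1 w)^4*(s3 w) + (-8)*(s1 w)^2*(s2 w)*(s3 w) + (8)*(s1 w)*(s3 w)^2 + (4)*(s2 w)^2*(s3 w) := by
  simp only [M_expand, s1_eq, s2_eq, s3_eq]
  ring

theorem M520 (w : Fin 3 → ℝ) : M 5 2 0 w =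
    (-2)*(s1 w)^4*(s3 w) + (1)*(s1 w)^3*(s2 w)^2 + (6)*(s1 w)^2*(s2 w)*(s3 w) + (-3)*(s1 w)*(s2 w)^3 + (-7)*(s1 w)*(s3 w)^2 + (3)*(s2 w)^2*(s3 w) := by
  simp only [M_expand, s1_eq, s2_eq, s3_eq]
  ring

theorem M610 (w : Fin 3 → ℝ) : M 6 1 0 w =
    (1)*(s1 w)^5*(s2 w) + (-1)*(s1 w)^4*(s3 w) + (-5)*(s1 w)^3*(s2 w)^2 + (9)*(s1 w)^2*(s2 w)*(s3 w) + (5)*(s1 w)*(s2 w)^3 + (-4)*(s1 w)*(s3 w)^2 + (-7)*(s2 w)^2*(s3 w) := by
  simp only [M_expand, s1_eq, s2_eq, s3_eq]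
  ring

theorem M700 (w : Fin 3 → ℝ) : M 7 0 0 w =
    (2)*(s1 w)^7 + (-14)*(s1 w)^5*(s2 w) + (14)*(s1 w)^4*(s3 w) + (28)*(s1 w)^3*(s2 w)^2 + (-42)*(s1 w)^2*(s2 w)*(s3 w) + (-14)*(s1 w)*(s2 w)^3 + (14)*(s1 w)*(s3 w)^2 + (14)*(s2 w)^2*(s3 w) := by
  simp only [M_expand, s1_eq, s2_eq, s3_eq]
  ring

/-- the polynomial `R` of the certificate -/
noncomputable def RR (W T S : ℝ) : ℝ :=
  (155/32)*S + (269/24)*T + (211/192)*T*S + (175/16)*T^2 + (9/8)*W + (-2047/192)*W*S + (-307/24)*W*T + (-277/128)*W*T^2 + (-53/48)*W^2 + (935/384)*W^2*S + (107/24)*W^2*T + (-83/192)*W^3*T + (49/192)*W^4 + (-11/192)*W^5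

/-- the polynomial majorant of `W * N` -/
noncomputable def PP (W T S : ℝ) : ℝ :=
  2 * T^2 * (4 - 3 * W) - S * (3 - 2 * W) + (W - 1)^2 * RR W T S

noncomputable def Ehat (W e2 e3 : ℝ) : ℝ :=
  RR W (W^2 * (e2 / 3)) (W^3 * e3) - 2 * (e2 / 3)^2 * W * (1 + 2 * W + 3 * W^2)
    + e3 * W * (1 + 2 * W)

theorem Ehat_id0 (W e2 e3 : ℝ) : 134369280 * (1/32) * Ehat W e2 e3 =
    1 * (W - 0)^0 * (1/2 - W)^5 * dotR c_0_0 (mu 3 e2 e3) + 5 * (W - 0)^1 * (1/2 - W)^4 * dotR c_0_1 (mu 3 e2 e3) + 10 * (W - 0)^2 * (1/2 - W)^3 * dotR c_0_2 (mu 3 e2 e3) + 10 * (W - 0)^3 * (1/2 - W)^2 * dotR c_0_3 (mu 3 e2 e3) + 5 * (W - 0)^4 * (1/2 - W)^1 * dotR c_0_4 (mu 3 e2 e3) + 1 * (W - 0)^5 * (1/2 - W)^0 * dotR c_0_5 (mu 3 e2 e3) := by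
  simp only [Ehat, RR, dotR, mu, c_0_0, c_0_1, c_0_2, c_0_3, c_0_4, c_0_5]
  push_cast
  ring

theorem Ehat_nonneg0 (x : Fin 3 → ℝ) (hx : ∀ i, 0 ≤ x i) (h3 : s1 x = 3) (W : ℝ)
    (h0 : 0 ≤ W) (h1 : W ≤ 1/2) : 0 ≤ Ehat W (s2 x) (s3 x) := by
  have e := Ehat_id0 W (s2 x) (s3 x)
  have hm : mu 3 (s2 x) (s3 x) = muy x := by unfold muy; rw [h3]
  rw [hm] at e
  have a0 : 0 ≤ W - 0 := by linarith
  have a1 : 0 ≤ 1/2 - W := by linarith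
  have n0 := cone_int x hx _ c_0_0_ok
  have n1 := cone_int x hx _ c_0_1_ok
  have n2 := cone_int x hx _ c_0_2_ok
  have n3 := cone_int x hx _ c_0_3_ok
  have n4 := cone_int x hx _ c_0_4_ok
  have n5 := cone_int x hx _ c_0_5_ok
  have : 0 ≤ 134369280 * (1/32) * Ehat W (s2 x) (s3 x) := by
    rw [e]; positivity
  exact nonneg_of_mul_nonneg_right this (by norm_num)

theorem Ehat_id1 (W e2 e3 : ℝ) : 134369280 * (1/32) * Ehat W e2 e3 =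
    1 * (W - 1/2)^0 * (1 - W)^5 * dotR c_1_0 (mu 3 e2 e3) + 5 * (W - 1/2)^1 * (1 - W)^4 * dotR c_1_1 (mu 3 e2 e3) + 10 * (W - 1/2)^2 * (1 - W)^3 * dotR c_1_2 (mu 3 e2 e3) + 10 * (W - 1/2)^3 * (1 - W)^2 * dotR c_1_3 (mu 3 e2 e3) + 5 * (W - 1/2)^4 * (1 - W)^1 * dotR c_1_4 (mu 3 e2 e3) + 1 * (W - 1/2)^5 * (1 - W)^0 * dotR c_1_5 (mu 3 e2 e3) := by
  simp only [Ehat, RR, dotR, mu, c_1_0, c_1_1, c_1_2, c_1_3, c_1_4, c_1_5]
  push_cast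
  ring

theorem Ehat_nonneg1 (x : Fin 3 → ℝ) (hx : ∀ i, 0 ≤ x i) (h3 : s1 x = 3) (W : ℝ)
    (h0 : 1/2 ≤ W) (h1 : W ≤ 1) : 0 ≤ Ehat W (s2 x) (s3 x) := by
  have e := Ehat_id1 W (s2 x) (s3 x)
  have hm : mu 3 (s2 x) (s3 x) = muy x := by unfold muy; rw [h3]
  rw [hm] at e
  have a0 : 0 ≤ W - 1/2 := by linarith
  have a1 : 0 ≤ 1 - W := by linarith
  have n0 := cone_int x hx _ c_1_0_ok
  have n1 := cone_int x hx _ c_1_1_ok
  have n2 := cone_int x hx _ c_1_2_ok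
  have n3 := cone_int x hx _ c_1_3_ok
  have n4 := cone_int x hx _ c_1_4_ok
  have n5 := cone_int x hx _ c_1_5_ok
  have : 0 ≤ 134369280 * (1/32) * Ehat W (s2 x) (s3 x) := by
    rw [e]; positivity
  exact nonneg_of_mul_nonneg_right this (by norm_num)

theorem Ehat_id2 (W e2 e3 : ℝ) : 134369280 * (1/32) * Ehat W e2 e3 =
    1 * (W - 1)^0 * (3/2 - W)^5 * dotR c_2_0 (mu 3 e2 e3) + 5 * (W - 1)^1 * (3/2 - W)^4 * dotR c_2_1 (mu 3 e2 e3) + 10 * (W - 1)^2 * (3/2 - W)^3 * dotR c_2_2 (mu 3 e2 e3) + 10 * (W - 1)^3 * (3/2 - W)^2 * dotR c_2_3 (mu 3 e2 e3) + 5 * (W - 1)^4 * (3/2 - W)^1 * dotR c_2_4 (mu 3 e2 e3) + 1 * (W - 1)^5 * (3/2 - W)^0 * dotR c_2_5 (mu 3 e2 e3) := by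
  simp only [Ehat, RR, dotR, mu, c_2_0, c_2_1, c_2_2, c_2_3, c_2_4, c_2_5]
  push_cast
  ring

theorem Ehat_nonneg2 (x : Fin 3 → ℝ) (hx : ∀ i, 0 ≤ x i) (h3 : s1 x = 3) (W : ℝ)
    (h0 : 1 ≤ W) (h1 : W ≤ 3/2) : 0 ≤ Ehat W (s2 x) (s3 x) := by
  have e := Ehat_id2 W (s2 x) (s3 x)
  have hm : mu 3 (s2 x) (s3 x) = muy x := by unfold muy; rw [h3]
  rw [hm] at e
  have a0 : 0 ≤ W - 1 := by linarith
  have a1 : 0 ≤ 3/2 - W := by linarith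
  have n0 := cone_int x hx _ c_2_0_ok
  have n1 := cone_int x hx _ c_2_1_ok
  have n2 := cone_int x hx _ c_2_2_ok
  have n3 := cone_int x hx _ c_2_3_ok
  have n4 := cone_int x hx _ c_2_4_ok
  have n5 := cone_int x hx _ c_2_5_ok
  have : 0 ≤ 134369280 * (1/32) * Ehat W (s2 x) (s3 x) := by
    rw [e]; positivity
  exact nonneg_of_mul_nonneg_right this (by norm_num)

theorem Ehat_id3 (W e2 e3 : ℝ) : 134369280 * (1/32) * Ehat W e2 e3 =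
    1 * (W - 3/2)^0 * (2 - W)^5 * dotR c_3_0 (mu 3 e2 e3) + 5 * (W - 3/2)^1 * (2 - W)^4 * dotR c_3_1 (mu 3 e2 e3) + 10 * (W - 3/2)^2 * (2 - W)^3 * dotR c_3_2 (mu 3 e2 e3) + 10 * (W - 3/2)^3 * (2 - W)^2 * dotR c_3_3 (mu 3 e2 e3) + 5 * (W - 3/2)^4 * (2 - W)^1 * dotR c_3_4 (mu 3 e2 e3) + 1 * (W - 3/2)^5 * (2 - W)^0 * dotR c_3_5 (mu 3 e2 e3) := by
  simp only [Ehat, RR, dotR, mu, c_3_0, c_3_1, c_3_2, c_3_3, c_3_4, c_3_5]
  push_cast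
  ring

theorem Ehat_nonneg3 (x : Fin 3 → ℝ) (hx : ∀ i, 0 ≤ x i) (h3 : s1 x = 3) (W : ℝ)
    (h0 : 3/2 ≤ W) (h1 : W ≤ 2) : 0 ≤ Ehat W (s2 x) (s3 x) := by
  have e := Ehat_id3 W (s2 x) (s3 x)
  have hm : mu 3 (s2 x) (s3 x) = muy x := by unfold muy; rw [h3]
  rw [hm] at e
  have a0 : 0 ≤ W - 3/2 := by linarith
  have a1 : 0 ≤ 2 - W := by linarith
  have n0 := cone_int x hx _ c_3_0_ok
  have n1 := cone_int x hx _ c_3_1_ok
  have n2 := cone_int x hx _ c_3_2_ok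
  have n3 := cone_int x hx _ c_3_3_ok
  have n4 := cone_int x hx _ c_3_4_ok
  have n5 := cone_int x hx _ c_3_5_ok
  have : 0 ≤ 134369280 * (1/32) * Ehat W (s2 x) (s3 x) := by
    rw [e]; positivity
  exact nonneg_of_mul_nonneg_right this (by norm_num)

theorem Ehat_id4 (W e2 e3 : ℝ) : 134369280 * (1) * Ehat W e2 e3 =
    1 * (W - 2)^0 * (3 - W)^5 * dotR c_4_0 (mu 3 e2 e3) + 5 * (W - 2)^1 * (3 - W)^4 * dotR c_4_1 (mu 3 e2 e3) + 10 * (W - 2)^2 * (3 - W)^3 * dotR c_4_2 (mu 3 e2 e3) + 10 * (W - 2)^3 * (3 - W)^2 * dotR c_4_3 (mu 3 e2 e3) + 5 * (W - 2)^4 * (3 - W)^1 * dotR c_4_4 (mu 3 e2 e3) + 1 * (W - 2)^5 * (3 - W)^0 * dotR c_4_5 (mu 3 e2 e3) := by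
  simp only [Ehat, RR, dotR, mu, c_4_0, c_4_1, c_4_2, c_4_3, c_4_4, c_4_5]
  push_cast
  ring

theorem Ehat_nonneg4 (x : Fin 3 → ℝ) (hx : ∀ i, 0 ≤ x i) (h3 : s1 x = 3) (W : ℝ)
    (h0 : 2 ≤ W) (h1 : W ≤ 3) : 0 ≤ Ehat W (s2 x) (s3 x) := by
  have e := Ehat_id4 W (s2 x) (s3 x)
  have hm : mu 3 (s2 x) (s3 x) = muy x := by unfold muy; rw [h3]
  rw [hm] at e
  have a0 : 0 ≤ W - 2 := by linarith
  have a1 : 0 ≤ 3 - W := by linarith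
  have n0 := cone_int x hx _ c_4_0_ok
  have n1 := cone_int x hx _ c_4_1_ok
  have n2 := cone_int x hx _ c_4_2_ok
  have n3 := cone_int x hx _ c_4_3_ok
  have n4 := cone_int x hx _ c_4_4_ok
  have n5 := cone_int x hx _ c_4_5_ok
  have : 0 ≤ 134369280 * (1) * Ehat W (s2 x) (s3 x) := by
    rw [e]; positivity
  exact nonneg_of_mul_nonneg_right this (by norm_num)

theorem Ehat_nonneg (x : Fin 3 → ℝ) (hx : ∀ i, 0 ≤ x i) (h3 : s1 x = 3) (W : ℝ)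
    (h0 : 0 ≤ W) (h1 : W ≤ 3) : 0 ≤ Ehat W (s2 x) (s3 x) := by
  rcases le_total W (1/2) with h | h
  · exact Ehat_nonneg0 x hx h3 W h0 h
  clear h0; rename' h => h0
  rcases le_total W (1) with h | h
  · exact Ehat_nonneg1 x hx h3 W h0 h
  clear h0; rename' h => h0
  rcases le_total W (3/2) with h | h
  · exact Ehat_nonneg2 x hx h3 W h0 h
  clear h0; rename' h => h0
  rcases le_total W (2) with h | h
  · exact Ehat_nonneg3 x hx h3 W h0 h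
  clear h0; rename' h => h0
  exact Ehat_nonneg4 x hx h3 W h0 h1

theorem fK_eq (w : Fin 3 → ℝ) (h : s1 w ≠ 0) : fK w =
    2 * (s1 w / 3 - (2 * (s2 w / 3)^2 / (s1 w / 3)^3 - s3 w / (s1 w / 3)^2)) := by
  have hm : mass w = s1 w / 3 := by unfold mass s1; push_cast; ring
  unfold fK kf m2 m3 uv
  rw [hm]
  rw [s1_eq] at h ⊢
  rw [s2_eq, s3_eq]
  simp only [Fin.sum_univ_three]
  push_cast
  field_simp
  ring

theorem fK_ge (w : Fin 3 → ℝ) (hw : ∀ i, 0 ≤ w i) (h9 : s1 w ≤ 9) :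
    2 * (s1 w / 3 - PP (s1 w / 3) (s2 w / 3) (s3 w)) ≤ fK w := by
  have hs : 0 ≤ s1 w := by unfold s1; exact Finset.sum_nonneg fun i _ => hw i
  rcases hs.eq_or_lt with h0 | hpos
  · have hz : ∀ i, w i = 0 := by
      intro i
      have : w i ≤ s1 w := Finset.single_le_sum (fun j _ => hw j) (Finset.mem_univ i)
      have := hw i
      linarith
    have hw0 : w = fun _ => 0 := funext hz
    subst hw0
    have e1 : s1 (fun _ : Fin 3 => (0 : ℝ)) = 0 := by simp [s1_eq]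
    have e2 : s2 (fun _ : Fin 3 => (0 : ℝ)) = 0 := by simp [s2_eq]
    have e3 : s3 (fun _ : Fin 3 => (0 : ℝ)) = 0 := by simp [s3_eq]
    rw [e1, e2, e3]
    have : fK (fun _ : Fin 3 => (0 : ℝ)) = 0 := by unfold fK mass; simp
    rw [this]
    unfold PP RR
    norm_num
  · rw [fK_eq w hpos.ne']
    set W := s1 w / 3 with hW
    have hWpos : 0 < W := by positivity
    have hx : ∀ i, 0 ≤ (fun i => w i / W) i := fun i => div_nonneg (hw i) hWpos.le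
    have x1 : s1 (fun i => w i / W) = 3 := by
      rw [s1_eq]; rw [s1_eq] at hW; field_simp; linarith
    have x2 : s2 (fun i => w i / W) = s2 w / W^2 := by
      rw [s2_eq, s2_eq]; field_simp
    have x3 : s3 (fun i => w i / W) = s3 w / W^3 := by
      rw [s3_eq, s3_eq]; field_simp
    have key := Ehat_nonneg _ hx x1 W hWpos.le (by rw [hW]; linarith)
    rw [x2, x3] at key
    have e : PP W (s2 w / 3) (s3 w) - (2 * (s2 w / 3)^2 / W^3 - s3 w / W^2) =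
        (W - 1)^2 * Ehat W (s2 w / W^2) (s3 w / W^3) := by
      unfold PP Ehat
      have t1 : W^2 * (s2 w / W^2 / 3) = s2 w / 3 := by field_simp
      have t2 : W^3 * (s3 w / W^3) = s3 w := by field_simp
      rw [t1, t2]
      generalize RR W (s2 w / 3) (s3 w) = R
      field_simp
      ring
    have := mul_nonneg (sq_nonneg (W - 1)) key
    rw [← e] at this
    linarith

theorem PP_eq (w : Fin 3 → ℝ) : PP (s1 w / 3) (s2 w / 3) (s3 w) =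
    (3/16) * M 1 0 0 w + (323/216) * M 1 1 0 w + (-161/864) * M 2 0 0 w + (-7907/5184) * M 1 1 1 w + (-85/24) * M 2 1 0 w + (5/81) * M 3 0 0 w + (29057/10368) * M 2 1 1 w + (13211/5184) * M 2 2 0 w + (5777/3888) * M 3 1 0 w + (-163/31104) * M 4 0 0 w + (-68141/62208) * M 2 2 1 w + (-93991/186624) * M 3 1 1 w + (-182513/93312) * M 3 2 0 w + (-6649/23328) * M 4 1 0 w + (-109/93312) * M 5 0 0 w + (-8131/93312) * M 2 2 2 w + (65/1296) * M 3 2 1 w + (36287/139968) * M 3 3 0 w + (41/5832) * M 4 1 1 w + (1103/3888) * M 4 2 0 w + (97/3888) * M 5 1 0 w + (71/279936) * M 6 0 0 w + (21949/186624) * M 3 2 2 w + (3577/104976) * M 3 3 1 w + (11051/279936) * M 4 2 1 w + (-28187/839808) * M 4 3 0 w + (1295/559872) * M 5 1 1 w + (-1159/93312) * M 5 2 0 w + (-163/209952) * M 6 1 0 w + (-11/839808) * M 7 0 0 w := by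
  rw [M100, M110, M200, M111, M210, M300, M211, M220, M310, M400, M221, M311, M320, M410, M500, M222, M321, M330, M411, M420, M510, M600, M322, M331, M421, M430, M511, M520, M610, M700]
  unfold PP RR
  ring

theorem sum_PP (y z : Fin 3 → ℝ) :
    ∑ σ : Equiv.Perm (Fin 3), PP (s1 (fun a => y a * z (σ a)) / 3)
      (s2 (fun a => y a * z (σ a)) / 3) (s3 (fun a => y a * z (σ a))) =
    (3/16) * (M 1 0 0 y * M 1 0 0 z) + (323/216) * (M 1 1 0 y * M 1 1 0 z) + (-161/864) * (M 2 0 0 y * M 2 0 0 z) + (-7907/5184) * (M 1 1 1 y * M 1 1 1 z) + (-85/24) * (M 2 1 0 y * M 2 1 0 z) + (5/81) * (M 3 0 0 y * M 3 0 0 z) + (29057/10368) * (M 2 1 1 y * M 2 1 1 z) + (13211/5184) * (M 2 2 0 y * M 2 2 0 z) + (5777/3888) * (M 3 1 0 y * M 3 1 0 z) + (-163/31104) * (M 4 0 0 y * M 4 0 0 z) + (-68141/62208) * (M 2 2 1 y * M 2 2 1 z) + (-93991/186624) * (M 3 1 1 y *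 M 3 1 1 z) + (-182513/93312) * (M 3 2 0 y * M 3 2 0 z) + (-6649/23328) * (M 4 1 0 y * M 4 1 0 z) + (-109/93312) * (M 5 0 0 y * M 5 0 0 z) + (-8131/93312) * (M 2 2 2 y * M 2 2 2 z) + (65/1296) * (M 3 2 1 y * M 3 2 1 z) + (36287/139968) * (M 3 3 0 y * M 3 3 0 z) + (41/5832) * (M 4 1 1 y * M 4 1 1 z) + (1103/3888) * (M 4 2 0 y * M 4 2 0 z) + (97/3888) * (M 5 1 0 y * M 5 1 0 z) + (71/279936) * (M 6 0 0 y * M 6 0 0 z) + (21949/186624) * (M 3 2 2 y * M 3 2 2 z) + (3577/104976) * (M 3 3 1 y * M 3 3 1 z) + (11051/279936) * (M 4 2 1 y * M 4 2 1 z) + (-28187/839808) * (M 4 3 0 y * M 4 3 0 z) + (1295/559872) * (M 5 1 1 y * M 5 1 1 z) + (-1159/93312) * (M 5 2 0 y * M 5 2 0 z) + (-163/209952) * (M 6 1 0 y * M 6 1 0 z) + (-11/839808) * (M 7 0 0 y * M 7 0 0 z) := by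
  simp only [PP_eq, Finset.sum_add_distrib, ← Finset.mul_sum, M_mul]

/-- the weight in terms of the elementary symmetric functions of a vector with sum `3` -/
noncomputable def Aw (e2 e3 : ℝ) : ℝ := (e2/3) * e3

/-- `K` in terms of the elementary symmetric functions of a vector with sum `3` -/
noncomputable def Kw (e2 e3 : ℝ) : ℝ := 2 * (1 - 2 * (e2/3)^2 + e3)

theorem final_id (y z : Fin 3 → ℝ) (hy : s1 y = 3) (hz : s1 z = 3) :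
    1224440064 * (12 - 2 * ((3/16) * (M 1 0 0 y * M 1 0 0 z) + (323/216) * (M 1 1 0 y * M 1 1 0 z) + (-161/864) * (M 2 0 0 y * M 2 0 0 z) + (-7907/5184) * (M 1 1 1 y * M 1 1 1 z) + (-85/24) * (M 2 1 0 y * M 2 1 0 z) + (5/81) * (M 3 0 0 y * M 3 0 0 z) + (29057/10368) * (M 2 1 1 y * M 2 1 1 z) + (13211/5184) * (M 2 2 0 y * M 2 2 0 z) + (5777/3888) * (M 3 1 0 y * M 3 1 0 z) + (-163/31104) * (M 4 0 0 y * M 4 0 0 z) + (-68141/62208) * (M 2 2 1 y * M 2 2 1 z) + (-93991/186624) * (M 3 1 1 y * M 3 1 1 z) + (-182513/93312) * (M 3 2 0 y * M 3 2 0 z) + (-6649/23328) * (M 4 1 0 y * M 4 1 0 z) + (-109/93312) * (M 5 0 0 y * M 5 0 0 z) + (-8131/93312) * (M 2 2 2 y * M 2 2 2 z) + (65/1296) * (M 3 2 1 y * M 3 2 1 z) + (36287/139968) * (M 3 3 0 y * M 3 3 0 z) + (41/5832) * (M 4 1 1 y * M 4 1 1 z) + (1103/3888) * (M 4 2 0 y * M 4 2 0 z) + (97/3888) * (M 5 1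 0 y * M 5 1 0 z) + (71/279936) * (M 6 0 0 y * M 6 0 0 z) + (21949/186624) * (M 3 2 2 y * M 3 2 2 z) + (3577/104976) * (M 3 3 1 y * M 3 3 1 z) + (11051/279936) * (M 4 2 1 y * M 4 2 1 z) + (-28187/839808) * (M 4 3 0 y * M 4 3 0 z) + (1295/559872) * (M 5 1 1 y * M 5 1 1 z) + (-1159/93312) * (M 5 2 0 y * M 5 2 0 z) + (-163/209952) * (M 6 1 0 y * M 6 1 0 z) + (-11/839808) * (M 7 0 0 y * M 7 0 0 z)) -
      6 * (Aw (s2 z) (s3 z) * Kw (s2 y) (s3 y) + Aw (s2 y) (s3 y) * Kw (s2 z) (s3 z))) =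
    12 * dotRR (muy y) (G.map fun g => dotR g (muy z)) := by
  simp only [M100, M110, M200, M111, M210, M300, M211, M220, M310, M400, M221, M311, M320, M410, M500, M222, M321, M330, M411, M420, M510, M600, M322, M331, M421, M430, M511, M520, M610, M700]
  simp only [muy, mu, G, List.map_cons, List.map_nil, dotRR, dotR, hy, hz, Aw, Kw]
  push_cast
  ring

theorem orbit_norm (y z : Fin 3 → ℝ) (hy : ∀ i, 0 ≤ y i) (hz : ∀ i, 0 ≤ z i)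
    (hy3 : s1 y = 3) (hz3 : s1 z = 3) :
    6 * (Aw (s2 z) (s3 z) * Kw (s2 y) (s3 y) + Aw (s2 y) (s3 y) * Kw (s2 z) (s3 z)) ≤
      ∑ σ : Equiv.Perm (Fin 3), fK (fun a => y a * z (σ a)) := by
  have hnn : ∀ (σ : Equiv.Perm (Fin 3)) (i : Fin 3), 0 ≤ y i * z (σ i) :=
    fun σ i => mul_nonneg (hy i) (hz _)
  have h9 : ∀ σ : Equiv.Perm (Fin 3), s1 (fun a => y a * z (σ a)) ≤ 9 := by
    intro σ
    have h1 : ∀ i, y i ≤ 3 := by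
      intro i
      rw [← hy3]
      exact Finset.single_le_sum (fun j _ => hy j) (Finset.mem_univ i)
    have h2 : s1 (fun a => y a * z (σ a)) ≤ ∑ i, 3 * z (σ i) :=
      Finset.sum_le_sum fun i _ => mul_le_mul_of_nonneg_right (h1 i) (hz _)
    rw [← Finset.mul_sum] at h2
    have h3 : ∑ i, z (σ i) = 3 := by
      rw [← hz3]; exact Equiv.sum_comp σ z
    rw [h3] at h2
    linarith
  have hle : ∑ σ : Equiv.Perm (Fin 3), 2 * (s1 (fun a => y a * z (σ a)) / 3 -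
      PP (s1 (fun a => y a * z (σ a)) / 3) (s2 (fun a => y a * z (σ a)) / 3)
        (s3 (fun a => y a * z (σ a)))) ≤
      ∑ σ : Equiv.Perm (Fin 3), fK (fun a => y a * z (σ a)) :=
    Finset.sum_le_sum fun σ _ => fK_ge _ (hnn σ) (h9 σ)
  refine le_trans ?_ hle
  rw [← Finset.mul_sum, Finset.sum_sub_distrib, sum_PP]
  have hs : ∑ σ : Equiv.Perm (Fin 3), s1 (fun a => y a * z (σ a)) / 3 = 6 := by
    have e : ∀ w : Fin 3 → ℝ, s1 w / 3 = (1/6) * M 1 0 0 w := by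
      intro w; rw [M100]; ring
    simp only [e, ← Finset.mul_sum, M_mul]
    rw [M100, M100, hy3, hz3]
    norm_num
  rw [hs]
  have hb := bil_nonneg y z hy hz
  have hf := final_id y z hy3 hz3
  linarith

end Crest.Agent.R163.O3
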