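import Crest.Agent.R163.Orbit4
import Crest.Agent.R163.O3Fin

/-!
# Row 163: the orbit inequality (the finite-dimensional heart)

For nonnegative vectors `p r` (likelihood vectors), `q = 3` or `4`:

 `∑_σ fK (p · r∘σ) ≥ q! (fal r * fK p + fal p * fK r)`.

(In terms of `u`-vectors: `(1/q!) ∑_σ (1+<u v_σ>) k(u * v_σ) ≥ α(v) k(u) + α(u) k(v)`.)
-/

set_option autoImplicit false

namespace Crest.Agent.R163

open Finset

namespace O3

theorem alf_eq (y : Fin 3 → ℝ) (h : s1 y = 3) :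
    alf (fun a => y a - 1) = Aw (s2 y) (s3 y) := by
  rw [s1_eq] at h
  have h3 : y 2 = 3 - y 0 - y 1 := by linarith
  rw [s2_eq, s3_eq]
  unfold alf Aw m2
  rw [if_neg (by norm_num)]
  simp only [Fin.sum_univ_three, Fin.prod_univ_three]
  push_cast
  rw [h3]
  ring

theorem kf_eq (y : Fin 3 → ℝ) (h : s1 y = 3) :
    kf (fun a => y a - 1) = Kw (s2 y) (s3 y) := by
  rw [s1_eq] at h
  have h3 : y 2 = 3 - y 0 - y 1 := by linarith
  rw [s2_eq, s3_eq]
  unfold kf Kw m2 m3
  simp only [Fin.sum_univ_three]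
  push_cast
  rw [h3]
  ring

theorem s1_div_mass (p : Fin 3 → ℝ) (h : mass p ≠ 0) : s1 (fun a => p a / mass p) = 3 := by
  have e : mass p = s1 p / 3 := by unfold mass s1; push_cast; ring
  unfold s1
  rw [← Finset.sum_div]
  have e2 : ∑ i, p i = 3 * mass p := by rw [e]; unfold s1; ring
  rw [e2]
  field_simp

end O3

theorem orbit3 (p r : Fin 3 → ℝ) (hp : ∀ a, 0 ≤ p a) (hr : ∀ a, 0 ≤ r a) :
    6 * (fal r * fK p + fal p * fK r) ≤
      ∑ σ : Equiv.Perm (Fin 3), fK (fun a => p a * r (σ a)) := by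
  by_cases hmp : mass p = 0
  · have hz : p = fun _ => 0 := funext fun a => eq_zero_of_mass_eq_zero (by norm_num) p hp hmp a
    subst hz
    have e : ∀ σ : Equiv.Perm (Fin 3), fK (fun a => (fun _ => (0 : ℝ)) a * r (σ a)) = 0 := by
      intro σ
      simp [fK, mass]
    rw [Finset.sum_congr rfl fun σ _ => e σ]
    simp [fK, fal, mass]
  by_cases hmr : mass r = 0
  · have hz : r = fun _ => 0 := funext fun a => eq_zero_of_mass_eq_zero (by norm_num) r hr hmr a
    subst hz
    have e : ∀ σ : Equiv.Perm (Fin 3), fK (fun a => p a * (fun _ => (0 : ℝ)) (σ a)) = 0 := by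
      intro σ
      simp [fK, mass]
    rw [Finset.sum_congr rfl fun σ _ => e σ]
    simp [fK, fal, mass]
  have hP : 0 < mass p := lt_of_le_of_ne (mass_nonneg p hp) (Ne.symm hmp)
  have hR : 0 < mass r := lt_of_le_of_ne (mass_nonneg r hr) (Ne.symm hmr)
  obtain ⟨y, hy⟩ : ∃ y : Fin 3 → ℝ, y = fun a => p a / mass p := ⟨_, rfl⟩
  obtain ⟨z, hz⟩ : ∃ z : Fin 3 → ℝ, z = fun a => r a / mass r := ⟨_, rfl⟩
  have hy0 : ∀ a, 0 ≤ y a := fun a => by rw [hy]; exact div_nonneg (hp a) hP.le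
  have hz0 : ∀ a, 0 ≤ z a := fun a => by rw [hz]; exact div_nonneg (hr a) hR.le
  have hy3 : O3.s1 y = 3 := by rw [hy]; exact O3.s1_div_mass p hmp
  have hz3 : O3.s1 z = 3 := by rw [hz]; exact O3.s1_div_mass r hmr
  have key := O3.orbit_norm y z hy0 hz0 hy3 hz3
  have e1 : fK p = mass p * O3.Kw (O3.s2 y) (O3.s3 y) := by
    rw [← O3.kf_eq y hy3, hy]; rfl
  have e2 : fK r = mass r * O3.Kw (O3.s2 z) (O3.s3 z) := by
    rw [← O3.kf_eq z hz3, hz]; rfl
  have e3 : fal p = mass p * O3.Aw (O3.s2 y) (O3.s3 y) := by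
    rw [← O3.alf_eq y hy3, hy]; rfl
  have e4 : fal r = mass r * O3.Aw (O3.s2 z) (O3.s3 z) := by
    rw [← O3.alf_eq z hz3, hz]; rfl
  have e5 : ∀ σ : Equiv.Perm (Fin 3), fK (fun a => p a * r (σ a)) =
      mass p * mass r * fK (fun a => y a * z (σ a)) := by
    intro σ
    rw [← homog_fK (mass p * mass r) (fun a => y a * z (σ a)) (by positivity)
      (fun a => mul_nonneg (hy0 a) (hz0 _))]
    congr 1
    funext a
    rw [hy, hz]
    field_simp
  rw [Finset.sum_congr rfl fun σ _ => e5 σ, ← Finset.mul_sum, e1, e2, e3, e4]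
  have := mul_le_mul_of_nonneg_left key (mul_nonneg hP.le hR.le)
  linarith

theorem alf_nonneg {q : ℕ} (v : Fin q → ℝ) (hv : ∀ a, 0 ≤ v a) (h : mass v ≠ 0) :
    0 ≤ alf (uv v) := by
  unfold alf
  split_ifs with hq
  · subst hq
    exact le_trans (by positivity) (alf4_ge v hv h)
  · have hd1 : 0 ≤ ∏ a, (1 + uv v a) :=
      Finset.prod_nonneg fun a _ => by have := neg_one_le_uv v hv a; linarith
    refine mul_nonneg ?_ hd1
    rcases Nat.eq_zero_or_pos q with h0 | h0
    · subst h0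
      exact absurd (by simp [mass]) h
    · have h2 := m2_uv_le h0 v hv h
      have h3 := m2_nonneg (uv v)
      rcases (show 1 ≤ q from h0).eq_or_lt with h1 | h1
      · subst h1
        simp
      · have hq1 : (1 : ℝ) < q := by exact_mod_cast h1
        have : m2 (uv v) / (q - 1) ≤ 1 := by
          rw [div_le_one (by linarith)]; exact h2
        linarith

end Crest.Agent.R163
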