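import Crest.Agent.R163.Basic
import Crest.Agent.R163.Orbit

/-!
# Row 163: the class `0 ≤ KK` is closed under products
-/

set_option autoImplicit false

namespace Crest.Agent.R163

open Finset

variable {ι κ : Type*} {q : ℕ}

/-- symmetrisation (piece R163_KMUL): for a symmetric experiment `Ex F w = Ex (F∘σ) w`. -/
theorem Ex_perm {w : ι → Fin q → ℝ} (hs : IsSymm w) (F : (Fin q → ℝ) → ℝ)
    (σ : Equiv.Perm (Fin q)) : Ex (fun v => F (fun a => v (σ a))) w = Ex F w := by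
  obtain ⟨e, he⟩ := hs σ
  unfold Ex
  rw [← e.tsum_eq (fun i => F (w i))]
  refine tsum_congr fun i => ?_
  have : w (e i) = fun a => w i (σ a) := funext fun a => he i a
  rw [this]

theorem KK_mul_ge_aux (hq : 1 < q)
    (horb : ∀ p r : Fin q → ℝ, (∀ a, 0 ≤ p a) → (∀ a, 0 ≤ r a) →
      ((Fintype.card (Equiv.Perm (Fin q)) : ℕ) : ℝ) * (fal r * fK p + fal p * fK r) ≤
        ∑ σ : Equiv.Perm (Fin q), fK (fun a => p a * r (σ a)))
    {P : κ → Fin q → ℝ} (hP : IsExp P) {Q : ι → Fin q → ℝ}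
    (hQ : IsExp Q) (hs : IsSymm Q) :
    Al Q * KK P + Al P * KK Q ≤ KK (mul P Q) := by
  have hq0 : 0 < q := by omega
  have hsum : Summable (fun x : κ × ι => fK (mul P Q x)) :=
    (isExp_mul hP hQ).summable hq0 (mbdd_fK hq0)
  have hsumk : ∀ k, Summable (fun i => fK (fun a => P k a * Q i a)) :=
    fun k => hsum.prod_factor k
  have hKP := hP.summable hq0 (mbdd_fK hq0)
  have hKQ := hQ.summable hq0 (mbdd_fK hq0)
  have hAP := hP.summable hq0 (mbdd_fal hq)
  have hAQ := hQ.summable hq0 (mbdd_fal hq)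
  have e1 : KK (mul P Q) = ∑' k, ∑' i, fK (fun a => P k a * Q i a) := hsum.tsum_prod
  have e2 : Al Q * KK P + Al P * KK Q = ∑' k, (Al Q * fK (P k) + fal (P k) * KK Q) := by
    rw [(hKP.mul_left (Al Q)).tsum_add (hAP.mul_right (KK Q)), tsum_mul_left, tsum_mul_right]
    rfl
  rw [e1, e2]
  refine Summable.tsum_le_tsum (fun k => ?_) ((hKP.mul_left (Al Q)).add (hAP.mul_right (KK Q)))
    hsum.prod
  -- fixed `k`
  have hcard : (0 : ℝ) < ((Fintype.card (Equiv.Perm (Fin q)) : ℕ) : ℝ) := by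
    exact_mod_cast Fintype.card_pos
  have hsσ : ∀ σ : Equiv.Perm (Fin q), Summable (fun i => fK (fun a => P k a * Q i (σ a))) := by
    intro σ
    obtain ⟨e, he⟩ := hs σ
    have h := e.summable_iff.2 (hsumk k)
    refine h.congr fun i => ?_
    have : Q (e i) = fun a => Q i (σ a) := funext fun a => he i a
    simp only [Function.comp, this]
  have e3 : ((Fintype.card (Equiv.Perm (Fin q)) : ℕ) : ℝ) * ∑' i, fK (fun a => P k a * Q i a) =
      ∑' i, ∑ σ : Equiv.Perm (Fin q), fK (fun a => P k a * Q i (σ a)) := by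
    rw [Summable.tsum_finsetSum (fun σ _ => hsσ σ)]
    have : ∀ σ ∈ (Finset.univ : Finset (Equiv.Perm (Fin q))),
        ∑' i, fK (fun a => P k a * Q i (σ a)) = ∑' i, fK (fun a => P k a * Q i a) := by
      intro σ _
      exact Ex_perm hs (fun v => fK (fun a => P k a * v a)) σ
    rw [Finset.sum_congr rfl this, Finset.sum_const, nsmul_eq_mul, Finset.card_univ]
  have e4 : ((Fintype.card (Equiv.Perm (Fin q)) : ℕ) : ℝ) *
      (Al Q * fK (P k) + fal (P k) * KK Q) =
      ∑' i, ((Fintype.card (Equiv.Perm (Fin q)) : ℕ) : ℝ) *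
        (fal (Q i) * fK (P k) + fal (P k) * fK (Q i)) := by
    rw [tsum_mul_left, (hAQ.mul_right (fK (P k))).tsum_add (hKQ.mul_left (fal (P k))),
      tsum_mul_left, tsum_mul_right]
    rfl
  refine le_of_mul_le_mul_left ?_ hcard
  rw [e3, e4]
  refine Summable.tsum_le_tsum (fun i => horb (P k) (Q i) (hP.nonneg k) (hQ.nonneg i))
    (((hAQ.mul_right (fK (P k))).add (hKQ.mul_left (fal (P k)))).mul_left _)
    (summable_sum fun σ _ => hsσ σ)

/-- (piece R163_KMUL) -/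
theorem KK_mul_ge (hq : q = 3 ∨ q = 4) {P : κ → Fin q → ℝ} (hP : IsExp P) {Q : ι → Fin q → ℝ}
    (hQ : IsExp Q) (hs : IsSymm Q) :
    Al Q * KK P + Al P * KK Q ≤ KK (mul P Q) := by
  rcases hq with rfl | rfl
  · refine KK_mul_ge_aux (by norm_num) ?_ hP hQ hs
    intro p r hp hr
    have h := orbit3 p r hp hr
    have e : ((Fintype.card (Equiv.Perm (Fin 3)) : ℕ) : ℝ) = 6 := by
      rw [Fintype.card_perm, Fintype.card_fin]; norm_num [Nat.factorial]
    rw [e]; exact h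
  · refine KK_mul_ge_aux (by norm_num) ?_ hP hQ hs
    intro p r hp hr
    have h := orbit4 p r hp hr
    have e : ((Fintype.card (Equiv.Perm (Fin 4)) : ℕ) : ℝ) = 24 := by
      rw [Fintype.card_perm, Fintype.card_fin]; norm_num [Nat.factorial]
    rw [e]; exact h

theorem Al_nonneg {w : ι → Fin q → ℝ} (hw : IsExp w) : 0 ≤ Al w := by
  unfold Al Ex
  refine tsum_nonneg fun i => ?_
  unfold fal
  by_cases h : mass (w i) = 0
  · rw [h, zero_mul]
  · exact mul_nonneg (mass_nonneg _ (hw.nonneg i)) (alf_nonneg _ (hw.nonneg i) h)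

theorem KK_mul_nonneg (hq : q = 3 ∨ q = 4) {P : κ → Fin q → ℝ} (hP : IsExp P) {Q : ι → Fin q → ℝ}
    (hQ : IsExp Q) (hs : IsSymm Q) (h1 : 0 ≤ KK P) (h2 : 0 ≤ KK Q) : 0 ≤ KK (mul P Q) :=
  le_trans (add_nonneg (mul_nonneg (Al_nonneg hQ) h1) (mul_nonneg (Al_nonneg hP) h2))
    (KK_mul_ge hq hP hQ hs)

end Crest.Agent.R163
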