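import Crest.Agent.R163.Conv

/-!
# Row 163: symmetrised functionals; continuous multiplicative functionals

`symF F v` = average of `F (v ∘ σ)` over all permutations `σ`. It has the same expectations as `F`
under symmetric experiments.

`MFc F` : multiplicative and continuous on the simplex; `mfc_symM`, `mfc_symR`.
-/

set_option autoImplicit false

namespace Crest.Agent.R163

open Finset Filter

variable {q : ℕ}

/-- symmetrised functional -/
noncomputable def symF (F : (Fin q → ℝ) → ℝ) (v : Fin q → ℝ) : ℝ :=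
  (1 / (Fintype.card (Equiv.Perm (Fin q)) : ℝ)) * ∑ σ : Equiv.Perm (Fin q), F (fun a => v (σ a))

theorem mass_perm (v : Fin q → ℝ) (σ : Equiv.Perm (Fin q)) : mass (fun a => v (σ a)) = mass v := by
  unfold mass
  rw [Equiv.sum_comp σ v]

theorem homog_symF {F : (Fin q → ℝ) → ℝ} (hF : Homog F) : Homog (symF F) := by
  intro t v ht hv
  unfold symF
  rw [mul_left_comm t]
  congr 1
  rw [Finset.mul_sum]
  exact Finset.sum_congr rfl fun (σ : Equiv.Perm (Fin q)) _ =>
    hF t (fun a => v (σ a)) ht fun a => hv _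

theorem mbdd_symF {F : (Fin q → ℝ) → ℝ} (hF : MBdd F) : MBdd (symF F) := by
  obtain ⟨C, hC, h⟩ := hF
  refine ⟨C, hC, fun v hv => ?_⟩
  unfold symF
  have hN : (0 : ℝ) < Fintype.card (Equiv.Perm (Fin q)) := by
    exact_mod_cast Fintype.card_pos
  rw [abs_mul, abs_of_pos (by positivity)]
  rw [one_div, inv_mul_le_iff₀ hN]
  refine (Finset.abs_sum_le_sum_abs _ _).trans ?_
  calc ∑ σ : Equiv.Perm (Fin q), |F (fun a => v (σ a))|
      ≤ ∑ _σ : Equiv.Perm (Fin q), C * mass v := Finset.sum_le_sum fun σ _ => by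
        rw [← mass_perm v σ]; exact h _ fun a => hv _
    _ = (Fintype.card (Equiv.Perm (Fin q)) : ℝ) * (C * mass v) := by
        rw [Finset.sum_const, nsmul_eq_mul, Finset.card_univ]

theorem symF_perm (F : (Fin q → ℝ) → ℝ) (v : Fin q → ℝ) (σ : Equiv.Perm (Fin q)) :
    symF F (fun a => v (σ a)) = symF F v := by
  unfold symF
  congr 1
  exact Fintype.sum_equiv (Equiv.mulLeft σ) _ _ fun τ => rfl

theorem Ex_symF (hq : 0 < q) {κ : Type*} {w : κ → Fin q → ℝ} (hw : IsExp w) (hs : IsSymm w)
    {F : (Fin q → ℝ) → ℝ} (hF : MBdd F) : Ex (symF F) w = Ex F w := by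
  have hN : (0 : ℝ) < Fintype.card (Equiv.Perm (Fin q)) := by
    exact_mod_cast Fintype.card_pos
  have hsum : ∀ σ : Equiv.Perm (Fin q), HasSum (fun i => F (fun a => w i (σ a))) (Ex F w) := by
    intro σ
    obtain ⟨C, hC, h⟩ := hF
    have hm : MBdd (fun v : Fin q → ℝ => F (fun a => v (σ a))) :=
      ⟨C, hC, fun v hv => by rw [← mass_perm v σ]; exact h _ fun a => hv _⟩
    have h1 := (hw.summable hq hm).hasSum
    have h2 : (∑' i, F (fun a => w i (σ a))) = Ex F w := Ex_permB hs F σ
    rwa [h2] at h1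
  have h3 := (hasSum_sum fun σ (_ : σ ∈ (Finset.univ : Finset (Equiv.Perm (Fin q)))) =>
    hsum σ).mul_left (1 / (Fintype.card (Equiv.Perm (Fin q)) : ℝ))
  have h4 : Ex (symF F) w = _ := h3.tsum_eq
  rw [h4, Finset.sum_const, nsmul_eq_mul, Finset.card_univ]
  field_simp

/-- multiplicative and continuous -/
structure MFc (F : (Fin q → ℝ) → ℝ) : Prop extends MF F where
  cont : ContinuousOn F (simpK q)

theorem mf_symF (hq : 0 < q) {F : (Fin q → ℝ) → ℝ} (hF : MF F) : MF (symF F) where
  homog := homog_symF hF.homog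
  mbdd := mbdd_symF hF.mbdd
  abs_le_one := by
    intro κ w hw
    have hN : (0 : ℝ) < Fintype.card (Equiv.Perm (Fin q)) := by
      exact_mod_cast Fintype.card_pos
    -- the permuted experiments are experiments
    have hp : ∀ σ : Equiv.Perm (Fin q), IsExp (fun i a => w i (σ a)) := fun σ =>
      ⟨fun i a => hw.nonneg i _, fun a => hw.hasSum (σ a)⟩
    have h1 : Ex (symF F) w = (1 / (Fintype.card (Equiv.Perm (Fin q)) : ℝ)) *
        ∑ σ : Equiv.Perm (Fin q), Ex F (fun i a => w i (σ a)) :=
      ((hasSum_sum fun σ (_ : σ ∈ (Finset.univ : Finset (Equiv.Perm (Fin q)))) =>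
        ((hp σ).summable hq hF.mbdd).hasSum).mul_left _).tsum_eq
    rw [h1, abs_mul, abs_of_pos (by positivity), one_div, inv_mul_le_iff₀ hN, mul_one]
    refine (Finset.abs_sum_le_sum_abs _ _).trans ?_
    refine (Finset.sum_le_sum fun σ _ => hF.abs_le_one κ _ (hp σ)).trans ?_
    rw [Finset.sum_const, nsmul_eq_mul, Finset.card_univ, mul_one]
  pow := by
    intro κ w hw hs c
    rw [Ex_symF hq (isExp_pw hw c) (isSymm_pw hs c) hF.mbdd, Ex_symF hq hw hs hF.mbdd,
      hF.pow κ w hw hs c]

theorem cont_symF {F : (Fin q → ℝ) → ℝ} (hF : ContinuousOn F (simpK q)) :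
    ContinuousOn (symF F) (simpK q) := by
  unfold symF
  refine ContinuousOn.mul continuousOn_const (continuousOn_finsetSum _ fun σ _ => ?_)
  refine hF.comp (t := simpK q) (Continuous.continuousOn ?_) fun v hv => ?_
  · exact continuous_pi fun a => continuous_apply (σ a)
  · exact ⟨fun a => hv.1 _, by rw [mass_perm]; exact hv.2⟩

theorem MFc.symF (hq : 0 < q) {F : (Fin q → ℝ) → ℝ} (hF : MFc F) : MFc (symF F) where
  toMF := mf_symF hq hF.toMF
  cont := cont_symF hF.cont

theorem cont_fM (al : Fin q → ℝ) (h0 : ∀ a, 0 ≤ al a) : ContinuousOn (fM al) (simpK q) := by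
  unfold fM
  refine continuousOn_finsetProd _ fun a _ => ?_
  rcases (h0 a).eq_or_lt with h | h
  · simp only [← h, Real.rpow_zero]
    exact continuousOn_const
  · exact ((continuous_apply a).rpow_const fun _ => Or.inr h.le).continuousOn

theorem cont_fR (a th : Fin q → ℝ) (h0 : ∀ i, 0 ≤ a i) (hth : ∀ i, th i ≠ 0 → 0 < a i) :
    ContinuousOn (fR a th) (simpK q) := by
  intro v hv
  by_cases h : ∀ i, th i ≠ 0 → v i ≠ 0
  · -- near `v` the formula is continuous
    have hev : ∀ᶠ w in nhdsWithin v (simpK q), ∀ i, th i ≠ 0 → w i ≠ 0 := by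
      rw [Filter.eventually_all]
      intro i
      by_cases hi : th i = 0
      · exact Filter.Eventually.of_forall fun w hw => absurd hi hw
      · have : ∀ᶠ w in nhdsWithin v (simpK q), w i ≠ 0 :=
          ((continuous_apply i).continuousWithinAt (s := simpK q) (x := v)).eventually_ne (h i hi)
        exact this.mono fun w hw _ => hw
    have hform : ∀ w : Fin q → ℝ, (∀ i, th i ≠ 0 → w i ≠ 0) →
        fR a th w = fM a w * Real.cos (∑ i, th i * Real.log (w i)) := by
      intro w hw
      unfold fR fC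
      rw [if_pos hw, Complex.re_ofReal_mul, Complex.exp_ofReal_mul_I_re]
    have hc : ContinuousWithinAt
        (fun w : Fin q → ℝ => fM a w * Real.cos (∑ i, th i * Real.log (w i))) (simpK q) v := by
      refine ((cont_fM a h0) v hv).mul (Real.continuous_cos.continuousAt.comp_continuousWithinAt ?_)
      refine tendsto_finsetSum _ fun i _ => ?_
      by_cases hi : th i = 0
      · simp only [hi, zero_mul]
        exact tendsto_const_nhds
      · exact (((continuous_apply i).continuousWithinAt (s := simpK q) (x := v)).log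
          (h i hi)).const_mul (th i) |>.tendsto
    refine (hc.congr_of_eventuallyEq ?_ (hform v h))
    exact hev.mono fun w hw => hform w hw
  · push Not at h
    obtain ⟨i, hi, hvi⟩ := h
    have hM : fM a v = 0 := by
      unfold fM
      refine Finset.prod_eq_zero (Finset.mem_univ i) ?_
      rw [hvi, Real.zero_rpow (hth i hi).ne']
    have h0' : fR a th v = 0 := by
      have := abs_fR_le a th v hv.1
      rw [hM] at this
      exact abs_eq_zero.1 (le_antisymm this (abs_nonneg _))
    unfold ContinuousWithinAt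
    rw [h0']
    have hMt : Tendsto (fM a) (nhdsWithin v (simpK q)) (nhds 0) := by
      have := (cont_fM a h0) v hv
      unfold ContinuousWithinAt at this
      rwa [hM] at this
    refine squeeze_zero_norm' ?_ hMt
    filter_upwards [self_mem_nhdsWithin] with w hw
    exact abs_fR_le a th w hw.1

theorem mfc_symM (hq : 0 < q) (al : Fin q → ℝ) (h0 : ∀ a, 0 ≤ al a) (h1 : ∑ a, al a = 1) :
    MFc (symF (fM al)) := MFc.symF hq ⟨mf_fM hq al h0 h1, cont_fM al h0⟩

theorem mfc_symR (hq : 0 < q) (a th : Fin q → ℝ) (h0 : ∀ i, 0 ≤ a i) (h1 : ∑ i, a i = 1)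
    (h2 : ∑ i, th i = 0) (h3 : ∀ i, th i ≠ 0 → 0 < a i) (σ : Equiv.Perm (Fin q))
    (ha : ∀ i, a (σ i) = a i) (hth : ∀ i, th (σ i) = -th i) : MFc (symF (fR a th)) :=
  MFc.symF hq ⟨mf_fR hq a th h0 h1 h2 σ ha hth, cont_fR a th h0 h3⟩

end Crest.Agent.R163
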