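import Crest.Agent.R163.Scan
import Crest.Agent.R163.Sym

/-!
# Row 163: the two-term universal potential

`gA = c[1/2; 31/100]`, `gB = c[7/20; 47/100]` (symmetrised complex Mellin functionals) and the
potential `Φ = g1 (1 - gA) - g0 (1 - gB)`, `g1 = 43123/8000`, `g0 = 3461/1600`.

* `KN s x nu K` : the knot inequality (pointwise on the simplex);
* `P1 s .. P4 s` : the four pointwise inequalities of the small-parameter regime;
* `Q1 s` : `Y0 ≤ 2.168 m`.
-/

set_option autoImplicit false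

namespace Crest.Agent.R163.Kn

open Finset Filter

/-- `c[1/2; 31/100]` -/
noncomputable def gA : (Fin 3 → ℝ) → ℝ := symF (fR ![0, 1 / 2, 1 / 2] ![0, 31 / 100, -(31 / 100)])

/-- `c[7/20; 47/100]` -/
noncomputable def gB : (Fin 3 → ℝ) → ℝ :=
  symF (fR ![3 / 10, 7 / 20, 7 / 20] ![0, 47 / 100, -(47 / 100)])

theorem mf_gA : MF gA := by
  refine mf_symF (by norm_num) (mf_fR (by norm_num) _ _ ?_ ?_ ?_ (Equiv.swap 1 2) ?_ ?_)
  · intro i; fin_cases i <;> norm_num
  · simp [Fin.sum_univ_three]; norm_num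
  · simp [Fin.sum_univ_three]
  · intro i; fin_cases i <;> simp [Equiv.swap_apply_def]
  · intro i; fin_cases i <;> simp [Equiv.swap_apply_def]

theorem mf_gB : MF gB := by
  refine mf_symF (by norm_num) (mf_fR (by norm_num) _ _ ?_ ?_ ?_ (Equiv.swap 1 2) ?_ ?_)
  · intro i; fin_cases i <;> norm_num
  · simp [Fin.sum_univ_three]; norm_num
  · simp [Fin.sum_univ_three]
  · intro i; fin_cases i <;> simp [Equiv.swap_apply_def]
  · intro i; fin_cases i <;> simp [Equiv.swap_apply_def]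

/-- weight of `gA` -/
noncomputable def g1 : ℝ := 43123 / 8000
/-- weight of `gB` -/
noncomputable def g0 : ℝ := 3461 / 1600
/-- the gain -/
noncomputable def del : ℝ := 1 / 2000
/-- slope constants of the small regime -/
noncomputable def kT : ℝ := 3 / 5
/-- slope constants of the small regime -/
noncomputable def k0 : ℝ := 1051 / 500
/-- slope constants of the small regime -/
noncomputable def kap : ℝ := 1 / 20

/-- second moment of a vector -/
noncomputable def mm (v : Fin 3 → ℝ) : ℝ := m2 (uv v)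

/-- `Y1 = (1 - gA (T v)) / s²` -/
noncomputable def Y1 (s : ℝ) (v : Fin 3 → ℝ) : ℝ := (1 - gA (chv (-s) v)) / s ^ 2

/-- `Y0 = (1 - gB (T v)) / s²` -/
noncomputable def Y0 (s : ℝ) (v : Fin 3 → ℝ) : ℝ := (1 - gB (chv (-s) v)) / s ^ 2

/-- the potential -/
noncomputable def Phi (v : Fin 3 → ℝ) : ℝ := g1 * (1 - gA v) - g0 * (1 - gB v)

/-- linear part at the trivial law -/
noncomputable def hh (s : ℝ) (v : Fin 3 → ℝ) : ℝ := Phi v - g1 * Y1 s v + g0 * Y0 s v

/-- derivative part -/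
noncomputable def ll (s : ℝ) (v : Fin 3 → ℝ) : ℝ := g1 * kT * Y1 s v - k0 * Y0 s v

/-- knot inequality -/
def KN (s x nu K : ℝ) : Prop := ∀ v ∈ simpK 3,
  del * mm v ^ 2 + K ≤ Phi v - g1 * x * Y1 s v + nu * Y0 s v

/-- centre: all coordinates of `u` are at least `-1/2`, i.e. `v a ≥ 1/2` (mass one) -/
def Cen (v : Fin 3 → ℝ) : Prop := ∀ a, 1 / 2 ≤ v a

/-- tangent point -/
noncomputable def eta (v : Fin 3 → ℝ) : ℝ := 6 / 5 * (mm v - mm v ^ 2)

def P1 (s : ℝ) : Prop := ∀ v ∈ simpK 3, Cen v → del * mm v ^ 2 ≤ hh s v - kap * eta v ^ 2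

def P2 (s : ℝ) : Prop := ∀ v ∈ simpK 3, Cen v →
  del * mm v ^ 2 ≤ hh s v - kap * eta v ^ 2 + 3 / 20 * (ll s v + 2 * kap * eta v)

def P3 (s : ℝ) : Prop := ∀ v ∈ simpK 3, ¬ Cen v → del * mm v ^ 2 ≤ hh s v

def P4 (s : ℝ) : Prop := ∀ v ∈ simpK 3, ¬ Cen v → del * mm v ^ 2 ≤ hh s v + 3 / 20 * ll s v

def Q1 (s : ℝ) : Prop := ∀ v ∈ simpK 3, Y0 s v ≤ 271 / 125 * mm v

/-- the small regime -/
theorem small {s : ℝ} (h1 : P1 s) (h2 : P2 s) (h3 : P3 s) (h4 : P4 s) {θ : ℝ} (t0 : 0 ≤ θ)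
    (t1 : θ ≤ 3 / 20) : KN s (1 - kT * θ) (g0 - k0 * θ) (-(kap * θ ^ 2)) := by
  intro v hv
  have e : Phi v - g1 * (1 - kT * θ) * Y1 s v + (g0 - k0 * θ) * Y0 s v =
      hh s v + θ * ll s v := by
    unfold hh ll; ring
  rw [e]
  have hk : 0 ≤ kap := by unfold kap; norm_num
  by_cases hc : Cen v
  · have a1 := h1 v hv hc
    have a2 := h2 v hv hc
    have a3 : 0 ≤ kap * (θ - eta v) ^ 2 := mul_nonneg hk (sq_nonneg _)
    set w : ℝ := θ / (3 / 20) with hw
    have w0 : 0 ≤ w := by positivity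
    have w1 : w ≤ 1 := by rw [hw, div_le_one (by norm_num)]; exact t1
    have ew : θ = 3 / 20 * w := by rw [hw]; ring
    have b1 := mul_le_mul_of_nonneg_left a1 (by linarith : 0 ≤ 1 - w)
    have b2 := mul_le_mul_of_nonneg_left a2 w0
    have key : (1 - w) * (hh s v - kap * eta v ^ 2) +
        w * (hh s v - kap * eta v ^ 2 + 3 / 20 * (ll s v + 2 * kap * eta v)) =
        hh s v - kap * eta v ^ 2 + θ * (ll s v + 2 * kap * eta v) := by
      rw [ew]; ring
    nlinarith [a3, b1, b2, key]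
  · have a1 := h3 v hv hc
    have a2 := h4 v hv hc
    set w : ℝ := θ / (3 / 20) with hw
    have w0 : 0 ≤ w := by positivity
    have w1 : w ≤ 1 := by rw [hw, div_le_one (by norm_num)]; exact t1
    have ew : θ = 3 / 20 * w := by rw [hw]; ring
    have b1 := mul_le_mul_of_nonneg_left a1 (by linarith : 0 ≤ 1 - w)
    have b2 := mul_le_mul_of_nonneg_left a2 w0
    have a3 : 0 ≤ kap * θ ^ 2 := mul_nonneg hk (sq_nonneg _)
    have key : (1 - w) * hh s v + w * (hh s v + 3 / 20 * ll s v) = hh s v + θ * ll s v := by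
      rw [ew]; ring
    nlinarith [a3, b1, b2, key]

end Crest.Agent.R163.Kn
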