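import Crest.Agent.R163.Knot3

/-!
# Row 163: the two-term universal potential, final data

`c1 = cfun (1/2) (31/100)`, `c0 = cfun (7/20) (47/100)`,
`Φ = g1 (1 - c1) - g0 (1 - c0)`, `g1 = 43123/8000`, `g0 = 3461/1600`, `del = 1/2000`.

* `KO s x nu K` : knot, `LO s x nu g0 K` : level;
* `P1 s .. P4 s` : the four pointwise inequalities of the small regime, scaled by `s²`;
* `Q1 s` : the bound of the scanned value by the second moment;
* `small_KO` : `P1, .., P4` give the knots `x = 1 - 3/5 θ`, `nu = g0 - 1051/500 θ`,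
  `K = -θ²/20` for `θ ∈ [0, 3/20]`.
-/

set_option autoImplicit false

namespace Crest.Agent.R163.KnP

open Finset Filter

/-- knot with the universal potential -/
abbrev KO (s x nu K : ℝ) : Prop :=
  KnotOK (43123 / 8000) (3461 / 1600) (7 / 20) (47 / 100) (31 / 100) (1 / 2000) s x nu K

/-- level with one functional -/
abbrev LO (s x nu g0 K : ℝ) : Prop :=
  LevelOK (k := 1) (fun _ => 1) (fun _ => 1 / 2) (fun _ => 31 / 100) (fun _ => x) g0 (7 / 20)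
    (47 / 100) s nu K

/-- the level inequality, explicitly -/
theorem LO_of {s x nu g0 K : ℝ} (h : ∀ v ∈ simpK 3,
    x * (1 - cfun (1 / 2) (31 / 100) (chv (-s) v)) -
      nu * (1 - cfun (7 / 20) (47 / 100) (chv (-s) v)) + s ^ 2 * K ≤
    s ^ 2 * ((1 - cfun (1 / 2) (31 / 100) v) - g0 * (1 - cfun (7 / 20) (47 / 100) v))) :
    LO s x nu g0 K := by
  intro v hv
  have := h v hv
  simp only [Fin.sum_univ_one, one_mul]
  exact this

/-- `s²` times the linear part `Φ - g1 Y1 + g0 Y0` at the trivial law -/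
noncomputable def hs2 (s : ℝ) (v : Fin 3 → ℝ) : ℝ :=
  s ^ 2 * (43123 / 8000 * (1 - cfun (1 / 2) (31 / 100) v) -
      3461 / 1600 * (1 - cfun (7 / 20) (47 / 100) v)) -
    43123 / 8000 * (1 - cfun (1 / 2) (31 / 100) (chv (-s) v)) +
    3461 / 1600 * (1 - cfun (7 / 20) (47 / 100) (chv (-s) v))

/-- `s²` times the derivative part `g1 (3/5) Y1 - (1051/500) Y0` -/
noncomputable def ls2 (s : ℝ) (v : Fin 3 → ℝ) : ℝ :=
  43123 / 8000 * (3 / 5) * (1 - cfun (1 / 2) (31 / 100) (chv (-s) v)) -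
    1051 / 500 * (1 - cfun (7 / 20) (47 / 100) (chv (-s) v))

/-- centre: `v a ≥ 1/2` (the mass, i.e. the mean of the coordinates, is one) -/
def Cen (v : Fin 3 → ℝ) : Prop := ∀ a, 1 / 2 ≤ v a

/-- tangent point -/
noncomputable def eta (v : Fin 3 → ℝ) : ℝ := 6 / 5 * (m2 (uv v) - m2 (uv v) ^ 2)

def P1 (s : ℝ) : Prop := ∀ v ∈ simpK 3, Cen v →
  s ^ 2 * (1 / 2000 * m2 (uv v) ^ 2 + 1 / 20 * eta v ^ 2) ≤ hs2 s v

def P2 (s : ℝ) : Prop := ∀ v ∈ simpK 3, Cen v →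
  s ^ 2 * (1 / 2000 * m2 (uv v) ^ 2 + 1 / 20 * eta v ^ 2 - 3 / 200 * eta v) ≤
    hs2 s v + 3 / 20 * ls2 s v

def P3 (s : ℝ) : Prop := ∀ v ∈ simpK 3, ¬ Cen v → s ^ 2 * (1 / 2000 * m2 (uv v) ^ 2) ≤ hs2 s v

def P4 (s : ℝ) : Prop := ∀ v ∈ simpK 3, ¬ Cen v →
  s ^ 2 * (1 / 2000 * m2 (uv v) ^ 2) ≤ hs2 s v + 3 / 20 * ls2 s v

def Q1 (s : ℝ) : Prop := ∀ v ∈ simpK 3,
  1 - cfun (7 / 20) (47 / 100) (chv (-s) v) ≤ s ^ 2 * (271 / 125 * m2 (uv v))

/-- the small regime -/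
theorem small_KO {s : ℝ} (h1 : P1 s) (h2 : P2 s) (h3 : P3 s) (h4 : P4 s) {θ : ℝ} (t0 : 0 ≤ θ)
    (t1 : θ ≤ 3 / 20) :
    KO s (1 - 3 / 5 * θ) (3461 / 1600 - 1051 / 500 * θ) (-(1 / 20 * θ ^ 2)) := by
  intro v hv
  have hs : (0 : ℝ) ≤ s ^ 2 := sq_nonneg s
  have e : s ^ 2 * (43123 / 8000 * (1 - cfun (1 / 2) (31 / 100) v) -
      3461 / 1600 * (1 - cfun (7 / 20) (47 / 100) v)) -
      (43123 / 8000 * (1 - 3 / 5 * θ) * (1 - cfun (1 / 2) (31 / 100) (chv (-s) v)) -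
      (3461 / 1600 - 1051 / 500 * θ) * (1 - cfun (7 / 20) (47 / 100) (chv (-s) v))) =
      hs2 s v + θ * ls2 s v := by
    unfold hs2 ls2; ring
  suffices h : s ^ 2 * (1 / 2000 * m2 (uv v) ^ 2) - s ^ 2 * (1 / 20 * θ ^ 2) ≤
      hs2 s v + θ * ls2 s v by
    rw [← e] at h
    linarith
  set w : ℝ := θ / (3 / 20) with hw
  have w0 : 0 ≤ w := by positivity
  have w1 : w ≤ 1 := by rw [hw, div_le_one (by norm_num)]; exact t1
  have ew : θ = 3 / 20 * w := by rw [hw]; ring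
  have key : (1 - w) * hs2 s v + w * (hs2 s v + 3 / 20 * ls2 s v) = hs2 s v + θ * ls2 s v := by
    rw [ew]; ring
  by_cases hc : Cen v
  · have b1 := mul_le_mul_of_nonneg_left (h1 v hv hc) (by linarith : 0 ≤ 1 - w)
    have b2 := mul_le_mul_of_nonneg_left (h2 v hv hc) w0
    have a3 : 0 ≤ s ^ 2 * (1 / 20 * (θ - eta v) ^ 2) := by positivity
    have key2 : (1 - w) * (s ^ 2 * (1 / 2000 * m2 (uv v) ^ 2 + 1 / 20 * eta v ^ 2)) +
        w * (s ^ 2 * (1 / 2000 * m2 (uv v) ^ 2 + 1 / 20 * eta v ^ 2 - 3 / 200 * eta v)) =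
        s ^ 2 * (1 / 2000 * m2 (uv v) ^ 2) - s ^ 2 * (1 / 20 * θ ^ 2) +
          s ^ 2 * (1 / 20 * (θ - eta v) ^ 2) := by
      rw [ew]; ring
    linarith
  · have b1 := mul_le_mul_of_nonneg_left (h3 v hv hc) (by linarith : 0 ≤ 1 - w)
    have b2 := mul_le_mul_of_nonneg_left (h4 v hv hc) w0
    have a3 : 0 ≤ s ^ 2 * (1 / 20 * θ ^ 2) := by positivity
    have key2 : (1 - w) * (s ^ 2 * (1 / 2000 * m2 (uv v) ^ 2)) +
        w * (s ^ 2 * (1 / 2000 * m2 (uv v) ^ 2)) = s ^ 2 * (1 / 2000 * m2 (uv v) ^ 2) := by ring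
    linarith

end Crest.Agent.R163.KnP
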