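import Crest.Agent.R163.Scan

/-!
# Row 163: two-term potentials `g1 (1 - c[1/2;th1]) - g0 (1 - c[a;th0])` and knots

`cfun a th v = (1/3) ∑_i v_i^(1-2a) (v_j v_k)^a cos (th (log v_j - log v_k))`.
-/

set_option autoImplicit false

namespace Crest.Agent.R163

open Finset Filter

/-- average over a family of permutations -/
noncomputable def avgF {q m : ℕ} (P : Fin m → Equiv.Perm (Fin q)) (F : (Fin q → ℝ) → ℝ)
    (v : Fin q → ℝ) : ℝ := (1 / (m : ℝ)) * ∑ r, F (fun a => v (P r a))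

theorem homog_avgF {q m : ℕ} (P : Fin m → Equiv.Perm (Fin q)) {F : (Fin q → ℝ) → ℝ}
    (hF : Homog F) : Homog (avgF P F) := by
  intro t v ht hv
  unfold avgF
  rw [mul_left_comm t]
  congr 1
  rw [Finset.mul_sum]
  exact Finset.sum_congr rfl fun r _ => hF t (fun a => v (P r a)) ht fun a => hv _

theorem mbdd_avgF {q m : ℕ} (hm : 0 < m) (P : Fin m → Equiv.Perm (Fin q)) {F : (Fin q → ℝ) → ℝ}
    (hF : MBdd F) : MBdd (avgF P F) := by
  obtain ⟨C, hC, h⟩ := hF
  refine ⟨C, hC, fun v hv => ?_⟩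
  unfold avgF
  have hN : (0 : ℝ) < m := by exact_mod_cast hm
  rw [abs_mul, abs_of_pos (by positivity), one_div, inv_mul_le_iff₀ hN]
  refine (Finset.abs_sum_le_sum_abs _ _).trans ?_
  calc ∑ r : Fin m, |F (fun a => v (P r a))| ≤ ∑ _r : Fin m, C * mass v :=
        Finset.sum_le_sum fun r _ => by rw [← mass_perm v (P r)]; exact h _ fun a => hv _
    _ = (m : ℝ) * (C * mass v) := by
        rw [Finset.sum_const, nsmul_eq_mul, Finset.card_univ, Fintype.card_fin]

theorem Ex_avgF {q m : ℕ} (hq : 0 < q) (hm : 0 < m) (P : Fin m → Equiv.Perm (Fin q))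
    {κ : Type*} {w : κ → Fin q → ℝ} (hw : IsExp w) (hs : IsSymm w)
    {F : (Fin q → ℝ) → ℝ} (hF : MBdd F) : Ex (avgF P F) w = Ex F w := by
  have hN : (0 : ℝ) < m := by exact_mod_cast hm
  have hsum : ∀ r : Fin m, HasSum (fun i => F (fun a => w i (P r a))) (Ex F w) := by
    intro r
    obtain ⟨C, hC, h⟩ := hF
    have hmb : MBdd (fun v : Fin q → ℝ => F (fun a => v (P r a))) :=
      ⟨C, hC, fun v hv => by rw [← mass_perm v (P r)]; exact h _ fun a => hv _⟩
    have h1 := (hw.summable hq hmb).hasSum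
    have h2 : (∑' i, F (fun a => w i (P r a))) = Ex F w := Ex_permB hs F (P r)
    rwa [h2] at h1
  have h3 := (hasSum_sum fun r (_ : r ∈ (Finset.univ : Finset (Fin m))) => hsum r).mul_left
    (1 / (m : ℝ))
  have h4 : Ex (avgF P F) w = _ := h3.tsum_eq
  rw [h4, Finset.sum_const, nsmul_eq_mul, Finset.card_univ, Fintype.card_fin]
  field_simp

theorem mfc_avgF {q m : ℕ} (hq : 0 < q) (hm : 0 < m) (P : Fin m → Equiv.Perm (Fin q))
    {F : (Fin q → ℝ) → ℝ} (hF : MFc F) : MFc (avgF P F) where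
  homog := homog_avgF P hF.homog
  mbdd := mbdd_avgF hm P hF.mbdd
  abs_le_one := by
    intro κ w hw
    have hN : (0 : ℝ) < m := by exact_mod_cast hm
    have hp : ∀ σ : Equiv.Perm (Fin q), IsExp (fun i a => w i (σ a)) := fun σ =>
      ⟨fun i a => hw.nonneg i _, fun a => hw.hasSum (σ a)⟩
    have h1 : Ex (avgF P F) w = (1 / (m : ℝ)) * ∑ r : Fin m, Ex F (fun i a => w i (P r a)) :=
      ((hasSum_sum fun r (_ : r ∈ (Finset.univ : Finset (Fin m))) =>
        ((hp (P r)).summable hq hF.mbdd).hasSum).mul_left _).tsum_eq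
    rw [h1, abs_mul, abs_of_pos (by positivity), one_div, inv_mul_le_iff₀ hN, mul_one]
    refine (Finset.abs_sum_le_sum_abs _ _).trans ?_
    refine (Finset.sum_le_sum fun r _ => hF.abs_le_one κ _ (hp (P r))).trans ?_
    rw [Finset.sum_const, nsmul_eq_mul, Finset.card_univ, Fintype.card_fin, mul_one]
  pow := by
    intro κ w hw hs c
    rw [Ex_avgF hq hm P (isExp_pw hw c) (isSymm_pw hs c) hF.mbdd, Ex_avgF hq hm P hw hs hF.mbdd,
      hF.pow κ w hw hs c]
  cont := by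
    unfold avgF
    refine ContinuousOn.mul continuousOn_const (continuousOn_finsetSum _ fun r _ => ?_)
    refine hF.cont.comp (t := simpK q) (Continuous.continuousOn ?_) fun v hv => ?_
    · exact continuous_pi fun a => continuous_apply ((P r) a)
    · exact ⟨fun a => hv.1 _, by rw [mass_perm]; exact hv.2⟩

/-- one summand -/
noncomputable def cterm (a th : ℝ) (v : Fin 3 → ℝ) (i j k : Fin 3) : ℝ :=
  v i ^ (1 - 2 * a) * (v j ^ a * v k ^ a) * Real.cos (th * (Real.log (v j) - Real.log (v k)))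

/-- the functional `c[a;th]` -/
noncomputable def cfun (a th : ℝ) (v : Fin 3 → ℝ) : ℝ :=
  (1 / 3) * (cterm a th v 0 1 2 + cterm a th v 1 2 0 + cterm a th v 2 0 1)

/-- the three cyclic permutations -/
def cyc3 : Fin 3 → Equiv.Perm (Fin 3) := fun r => finRotate 3 ^ (r : ℕ)

theorem fR_eq_cterm {a th : ℝ} (ha : 0 < a) (v : Fin 3 → ℝ) (_hv : ∀ i, 0 ≤ v i) :
    fR ![1 - 2 * a, a, a] ![0, th, -th] v = cterm a th v 0 1 2 := by
  unfold fR fC cterm
  by_cases h : ∀ i, (![0, th, -th] : Fin 3 → ℝ) i ≠ 0 → v i ≠ 0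
  · rw [if_pos h, Complex.re_ofReal_mul, Complex.exp_ofReal_mul_I_re]
    unfold fM
    rw [Fin.prod_univ_three, Fin.sum_univ_three]
    simp only [Matrix.cons_val_zero, Matrix.cons_val_one, Matrix.cons_val]
    congr 1
    · ring
    · congr 1; ring
  · rw [if_neg h, Complex.zero_re]
    push Not at h
    obtain ⟨i, hi, hvi⟩ := h
    have ha' : a ≠ 0 := ha.ne'
    fin_cases i
    · exact absurd rfl hi
    · have h1 : v 1 = 0 := hvi
      rw [h1, Real.zero_rpow ha']; ring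
    · have h1 : v 2 = 0 := hvi
      rw [h1, Real.zero_rpow ha']; ring

theorem cfun_eq {a th : ℝ} (ha : 0 < a) (v : Fin 3 → ℝ) (hv : ∀ i, 0 ≤ v i) :
    avgF cyc3 (fR ![1 - 2 * a, a, a] ![0, th, -th]) v = cfun a th v := by
  unfold avgF cfun
  rw [Fin.sum_univ_three]
  rw [fR_eq_cterm ha _ fun i => hv _, fR_eq_cterm ha _ fun i => hv _, fR_eq_cterm ha _ fun i => hv _]
  unfold cterm cyc3
  have e : ∀ a : Fin 3, (finRotate 3 ^ ((0 : Fin 3) : ℕ)) a = a := by decide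
  have e10 : (finRotate 3 ^ ((1 : Fin 3) : ℕ)) 0 = 1 := by decide
  have e11 : (finRotate 3 ^ ((1 : Fin 3) : ℕ)) 1 = 2 := by decide
  have e12 : (finRotate 3 ^ ((1 : Fin 3) : ℕ)) 2 = 0 := by decide
  have e20 : (finRotate 3 ^ ((2 : Fin 3) : ℕ)) 0 = 2 := by decide
  have e21 : (finRotate 3 ^ ((2 : Fin 3) : ℕ)) 1 = 0 := by decide
  have e22 : (finRotate 3 ^ ((2 : Fin 3) : ℕ)) 2 = 1 := by decide
  simp only [e, e10, e11, e12, e20, e21, e22]
  norm_num

theorem mfc_avg_fR {a th : ℝ} (ha : 0 < a) (ha2 : a ≤ 1 / 2) :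
    MFc (avgF cyc3 (fR ![1 - 2 * a, a, a] ![0, th, -th])) := by
  refine mfc_avgF (by norm_num) (by norm_num) cyc3 ⟨mf_fR (by norm_num) _ _ ?_ ?_ ?_
    (Equiv.swap 1 2) ?_ ?_, cont_fR _ _ ?_ ?_⟩
  · intro i; fin_cases i <;> simp <;> linarith
  · rw [Fin.sum_univ_three]
    simp only [Matrix.cons_val_zero, Matrix.cons_val_one, Matrix.cons_val]
    ring
  · rw [Fin.sum_univ_three]
    simp only [Matrix.cons_val_zero, Matrix.cons_val_one, Matrix.cons_val]
    ring
  · intro i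
    have h0 : (Equiv.swap (1 : Fin 3) 2) 0 = 0 := by decide
    have h1 : (Equiv.swap (1 : Fin 3) 2) 1 = 2 := by decide
    have h2 : (Equiv.swap (1 : Fin 3) 2) 2 = 1 := by decide
    fin_cases i
    · show (![1 - 2 * a, a, a] : Fin 3 → ℝ) ((Equiv.swap (1 : Fin 3) 2) 0) = _
      rw [h0]; rfl
    · show (![1 - 2 * a, a, a] : Fin 3 → ℝ) ((Equiv.swap (1 : Fin 3) 2) 1) = _
      rw [h1]; rfl
    · show (![1 - 2 * a, a, a] : Fin 3 → ℝ) ((Equiv.swap (1 : Fin 3) 2) 2) = _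
      rw [h2]; rfl
  · intro i
    have h0 : (Equiv.swap (1 : Fin 3) 2) 0 = 0 := by decide
    have h1 : (Equiv.swap (1 : Fin 3) 2) 1 = 2 := by decide
    have h2 : (Equiv.swap (1 : Fin 3) 2) 2 = 1 := by decide
    fin_cases i
    · show (![0, th, -th] : Fin 3 → ℝ) ((Equiv.swap (1 : Fin 3) 2) 0) = -(0 : ℝ)
      rw [h0]; simp
    · show (![0, th, -th] : Fin 3 → ℝ) ((Equiv.swap (1 : Fin 3) 2) 1) = -th
      rw [h1]; rfl
    · show (![0, th, -th] : Fin 3 → ℝ) ((Equiv.swap (1 : Fin 3) 2) 2) = - -th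
      rw [h2, neg_neg]; rfl
  · intro i; fin_cases i <;> simp <;> linarith
  · intro i hi
    fin_cases i
    · exact absurd rfl hi
    · exact ha
    · exact ha

/-- the functional `cfun`, as a functional on all vectors, agrees with a continuous multiplicative
functional on nonnegative vectors; we use the latter. -/
noncomputable def cF (a th : ℝ) : (Fin 3 → ℝ) → ℝ :=
  avgF cyc3 (fR ![1 - 2 * a, a, a] ![0, th, -th])

theorem cF_eq {a th : ℝ} (ha : 0 < a) (v : Fin 3 → ℝ) (hv : ∀ i, 0 ≤ v i) :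
    cF a th v = cfun a th v := cfun_eq ha v hv

theorem mfc_cF {a th : ℝ} (ha : 0 < a) (ha2 : a ≤ 1 / 2) : MFc (cF a th) := mfc_avg_fR ha ha2

/-- the knot inequality -/
def KnotOK (g1 g0 a th0 th1 del s x nu K : ℝ) : Prop :=
  ∀ v ∈ simpK 3, g1 * x * (1 - cfun (1 / 2) th1 (chv (-s) v)) - nu * (1 - cfun a th0 (chv (-s) v)) +
    s ^ 2 * K ≤ s ^ 2 * (g1 * (1 - cfun (1 / 2) th1 v) - g0 * (1 - cfun a th0 v) -
      del * m2 (uv v) ^ 2)

theorem KnotOK.interp {g1 g0 a th0 th1 del s x nu K x' nu' K' : ℝ}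
    (h : KnotOK g1 g0 a th0 th1 del s x nu K) (h' : KnotOK g1 g0 a th0 th1 del s x' nu' K')
    {t : ℝ} (ht0 : 0 ≤ t) (ht1 : t ≤ 1) :
    KnotOK g1 g0 a th0 th1 del s ((1 - t) * x + t * x') ((1 - t) * nu + t * nu')
      ((1 - t) * K + t * K') := by
  intro v hv
  have h1 := mul_le_mul_of_nonneg_left (h v hv) (by linarith : 0 ≤ 1 - t)
  have h2 := mul_le_mul_of_nonneg_left (h' v hv) ht0
  linarith

end Crest.Agent.R163
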