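import Crest.Agent.R163.Knot

/-!
# Row 163: from knots to the critical antiferromagnetic statements

`antiPoi_of_knots`, `antiReg_of_knots`: if for every `tau ∈ [0, taumax]` there is a knot
`(x, nu, K)` with `KnotOK` and the scalar inequality
`g1 F*(x) - g0 F(tau) + nu tau ≤ K`, then the magnetisation tends to `0`.
-/

set_option autoImplicit false

namespace Crest.Agent.R163

open Finset Filter

theorem supLine_const (c : ℝ) : SupLine (fun _ => c) := fun _ => ⟨0, fun t => by simp⟩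

/-- knots for an abstract process -/
theorem knots_tendsto {s d : ℝ} (hs0 : 0 ≤ s) (hs1 : s ≤ 1 / 2) (hds : d * s ^ 2 = 1)
    {G : ℝ → ℝ} (hG : ∀ t, |t| ≤ 1 → G t ≤ 1) {ι : ℕ → Type} {w : ∀ n, ι n → Fin 3 → ℝ}
    (hw : GProc 3 (-s) G ι w) {g1 g0 a th0 th1 del : ℝ} (hg1 : 0 ≤ g1) (hdel : 0 < del)
    (ha : 0 < a) (ha2 : a ≤ 1 / 2) (n0 : ℕ)
    (hcert : ∀ n, n0 ≤ n → ∃ x nu K A : ℝ, KnotOK g1 g0 a th0 th1 del s x nu K ∧
      A + x * d * Ex (cF (1 / 2) th1) (ch (-s) (w n)) ≤ G (Ex (cF (1 / 2) th1) (ch (-s) (w n))) ∧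
      g0 * G (Ex (cF a th0) (ch (-s) (w n))) + nu * d * (1 - Ex (cF a th0) (ch (-s) (w n))) ≤
        K + g1 * (x * d + A - 1) + g0) :
    Tendsto (fun n => X (w n)) atTop (nhds 0) := by
  have hl0 : -(1 / (((3 : ℕ) : ℝ) - 1)) ≤ -s := by push_cast; norm_num; linarith
  have hl1 : -s ≤ 1 := by linarith
  have hF1 : MFc (cF (1 / 2) th1) := mfc_cF (by norm_num) le_rfl
  have hF0 : MFc (cF a th0) := mfc_cF ha ha2
  refine pot_tendsto (by norm_num) hl0 hl1 hw (k := 1) (l := 0) (fun _ => g1) (fun _ => hg1)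
    (fun _ => cF (1 / 2) th1) (fun _ => hF1.toMF) (fun _ => 0) (fun _ => le_rfl) (fun _ => 1)
    (supLine_const 1) (fun C => ⟨1, fun t _ => by norm_num⟩) hG (fun _ => cF (1 / 2) th1)
    (fun _ => hF1.toMF) (cF a th0) hF0.toMF g0 del hdel n0 fun n hn => ?_
  obtain ⟨x, nu, K, A, hk, h1, h2⟩ := hcert n hn
  refine ⟨fun _ => A, fun _ => x * d, -(nu * d), K + g1 * (x * d + A - 1) - nu * d + g0,
    fun _ => h1, by linarith, fun v hv => ?_⟩
  have hcv : ∀ i, 0 ≤ chv (-s) v i := chv_nonneg (by norm_num) hl0 hl1 v hv.1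
  have h3 := hk v hv
  have hd0 : 0 ≤ d := by
    by_contra hneg
    push Not at hneg
    nlinarith [sq_nonneg s]
  have h4 := mul_le_mul_of_nonneg_left h3 hd0
  have e1 : d * (g1 * x * (1 - cfun (1 / 2) th1 (chv (-s) v)) -
      nu * (1 - cfun a th0 (chv (-s) v)) + s ^ 2 * K) =
      g1 * (x * d) * (1 - cfun (1 / 2) th1 (chv (-s) v)) -
      nu * d * (1 - cfun a th0 (chv (-s) v)) + (d * s ^ 2) * K := by ring
  have e2 : d * (s ^ 2 * (g1 * (1 - cfun (1 / 2) th1 v) - g0 * (1 - cfun a th0 v) -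
      del * m2 (uv v) ^ 2)) = (d * s ^ 2) * (g1 * (1 - cfun (1 / 2) th1 v) -
      g0 * (1 - cfun a th0 v) - del * m2 (uv v) ^ 2) := by ring
  rw [e1, e2, hds, one_mul, one_mul] at h4
  unfold ptf
  rw [Fin.sum_univ_one, Fin.sum_univ_zero]
  show del * m2 (uv v) ^ 2 + (K + g1 * (x * d + A - 1) - nu * d + g0) ≤
    g1 * (A + x * d * cF (1 / 2) th1 (chv (-s) v) - cF (1 / 2) th1 v) + 0 + g0 * cF a th0 v +
      -(nu * d) * cF a th0 (chv (-s) v)
  rw [cF_eq (by norm_num : (0 : ℝ) < 1 / 2) v hv.1, cF_eq ha v hv.1,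
    cF_eq (by norm_num : (0 : ℝ) < 1 / 2) _ hcv, cF_eq ha _ hcv]
  linarith

/-- the scanned value is at most `taumax` if it is pointwise -/
theorem tau_le {s d : ℝ} (hs0 : 0 ≤ s) (hs1 : s ≤ 1 / 2) (hds : d * s ^ 2 = 1) {κ : Type}
    {Q : κ → Fin 3 → ℝ} (hQ : IsExp Q) {F : (Fin 3 → ℝ) → ℝ} (hF : MF F) {taumax : ℝ}
    (hmax : ∀ v ∈ simpK 3, 1 - F (chv (-s) v) ≤ s ^ 2 * taumax) :
    d * (1 - Ex F (ch (-s) Q)) ≤ taumax := by
  have hl0 : -(1 / (((3 : ℕ) : ℝ) - 1)) ≤ -s := by push_cast; norm_num; linarith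
  have hl1 : -s ≤ 1 := by linarith
  have hd0 : 0 ≤ d := by
    by_contra hneg
    push Not at hneg
    nlinarith [sq_nonneg s]
  have hch : IsExp (ch (-s) Q) := isExp_ch (by norm_num) hl0 hl1 hQ
  have hmass := hQ.hasSum_mass (by norm_num : 0 < 3)
  have hS := (hch.summable (by norm_num) hF.mbdd).hasSum
  have hpt : ∀ i, mass (Q i) - F (ch (-s) Q i) ≤ s ^ 2 * taumax * mass (Q i) := by
    intro i
    by_cases hm : mass (Q i) = 0
    · have h0 : Q i = fun _ => (0 : ℝ) := by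
        funext a; exact eq_zero_of_mass_eq_zero (by norm_num) _ (hQ.nonneg i) hm a
      have hz : F (fun _ => (0 : ℝ)) = 0 := by
        have := hF.homog 0 (fun _ => 0) le_rfl (fun _ => le_rfl)
        simpa using this
      have hc0 : ch (-s) Q i = fun _ => (0 : ℝ) := by
        funext a
        unfold ch
        rw [hm, h0]; ring
      rw [hc0, hm, hz]; simp
    · have hm' : 0 < mass (Q i) := lt_of_le_of_ne (mass_nonneg _ (hQ.nonneg i)) (Ne.symm hm)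
      have ht : 0 < (mass (Q i))⁻¹ := inv_pos.2 hm'
      set v : Fin 3 → ℝ := fun a => (mass (Q i))⁻¹ * Q i a with hv
      have hvn : ∀ a, 0 ≤ v a := fun a => mul_nonneg ht.le (hQ.nonneg i a)
      have h1 := hmax v ⟨hvn, by rw [hv, mass_smul]; exact inv_mul_cancel₀ hm⟩
      have hR2 : F (chv (-s) v) = (mass (Q i))⁻¹ * F (ch (-s) Q i) := by
        rw [hv, chv_smul, hF.homog _ _ ht.le (chv_nonneg (by norm_num) hl0 hl1 _ (hQ.nonneg i)),
          ch_eq_chv]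
      rw [hR2] at h1
      have h2 := mul_le_mul_of_nonneg_left h1 hm'.le
      have e : mass (Q i) * (1 - (mass (Q i))⁻¹ * F (ch (-s) Q i)) =
          mass (Q i) - F (ch (-s) Q i) := by
        field_simp
      rw [e] at h2
      linarith
  have hle := hasSum_le hpt (hmass.sub hS) (hmass.mul_left (s ^ 2 * taumax))
  have h4 := mul_le_mul_of_nonneg_left hle hd0
  calc d * (1 - Ex F (ch (-s) Q)) ≤ d * (s ^ 2 * taumax * 1) := h4
    _ = (d * s ^ 2) * taumax := by ring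
    _ = taumax := by rw [hds, one_mul]

theorem tau_nonneg {s d : ℝ} (hs0 : 0 ≤ s) (hs1 : s ≤ 1 / 2) (hds : d * s ^ 2 = 1) {κ : Type}
    {Q : κ → Fin 3 → ℝ} (hQ : IsExp Q) {F : (Fin 3 → ℝ) → ℝ} (hF : MF F) :
    0 ≤ d * (1 - Ex F (ch (-s) Q)) := by
  have hl0 : -(1 / (((3 : ℕ) : ℝ) - 1)) ≤ -s := by push_cast; norm_num; linarith
  have hl1 : -s ≤ 1 := by linarith
  have hd0 : 0 ≤ d := by
    by_contra hneg
    push Not at hneg
    nlinarith [sq_nonneg s]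
  have hch : IsExp (ch (-s) Q) := isExp_ch (by norm_num) hl0 hl1 hQ
  have := (abs_le.1 (hF.abs_le_one _ _ hch)).2
  exact mul_nonneg hd0 (by linarith)

/-- tangent line of `exp (d (t - 1))` with slope `x d` -/
theorem exp_line {d x : ℝ} (hx : 0 < x) (t : ℝ) :
    (x - x * d - x * Real.log x) + x * d * t ≤ Real.exp (d * (t - 1)) := by
  have h := Real.add_one_le_exp (d * (t - 1) - Real.log x)
  rw [Real.exp_sub, Real.exp_log hx, le_div_iff₀ hx] at h
  nlinarith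

/-- Poisson knots for an abstract Poisson process, from time `n0` -/
theorem poi_knots_tendsto {s d : ℝ} (hs0 : 0 ≤ s) (hs1 : s ≤ 1 / 2) (hds : d * s ^ 2 = 1)
    {ι : ℕ → Type} {w : ∀ n, ι n → Fin 3 → ℝ}
    (hw : GProc 3 (-s) (fun t => Real.exp (d * (t - 1))) ι w) {g1 g0 a th0 th1 del taumax : ℝ}
    (hg1 : 0 ≤ g1) (hdel : 0 < del) (ha : 0 < a) (ha2 : a ≤ 1 / 2) (n0 : ℕ)
    (hmax : ∀ n, n0 ≤ n → d * (1 - Ex (cF a th0) (ch (-s) (w n))) ≤ taumax)
    (hk : ∀ tau, 0 ≤ tau → tau ≤ taumax → ∃ x nu K : ℝ, 0 < x ∧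
      KnotOK g1 g0 a th0 th1 del s x nu K ∧
      g1 * (1 - x + x * Real.log x) - g0 * (1 - Real.exp (-tau)) + nu * tau ≤ K) :
    Tendsto (fun n => X (w n)) atTop (nhds 0) := by
  have hd0 : 0 ≤ d := by
    by_contra hneg
    push Not at hneg
    nlinarith [sq_nonneg s]
  refine knots_tendsto hs0 hs1 hds (fun t ht => ?_) hw hg1 hdel ha ha2 n0 (th0 := th0)
    (th1 := th1) (g0 := g0) fun n hn => ?_
  · exact Real.exp_le_one_iff.2 (mul_nonpos_of_nonneg_of_nonpos hd0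
      (by linarith [(abs_le.1 ht).2]))
  · set P0 := Ex (cF a th0) (ch (-s) (w n)) with hP0
    obtain ⟨x, nu, K, hx, hK, hsc⟩ := hk (d * (1 - P0))
      (tau_nonneg hs0 hs1 hds (hw.isExp n) (mfc_cF ha ha2).toMF) (hmax n hn)
    refine ⟨x, nu, K, x - x * d - x * Real.log x, hK, exp_line hx _, ?_⟩
    have e : -(d * (1 - P0)) = d * (P0 - 1) := by ring
    rw [e] at hsc
    show g0 * Real.exp (d * (P0 - 1)) + nu * d * (1 - P0) ≤ _
    linarith

/-- **Poisson case from knots** -/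
theorem antiPoi_of_knots {d s : ℝ} (hd : 4 ≤ d) (hs : s = 1 / Real.sqrt d)
    {g1 g0 a th0 th1 del taumax : ℝ} (hg1 : 0 ≤ g1) (hdel : 0 < del) (ha : 0 < a)
    (ha2 : a ≤ 1 / 2)
    (hmax : ∀ v ∈ simpK 3, 1 - cfun a th0 (chv (-s) v) ≤ s ^ 2 * taumax)
    (hk : ∀ tau, 0 ≤ tau → tau ≤ taumax → ∃ x nu K : ℝ, 0 < x ∧
      KnotOK g1 g0 a th0 th1 del s x nu K ∧
      g1 * (1 - x + x * Real.log x) - g0 * (1 - Real.exp (-tau)) + nu * tau ≤ K) :
    AntiPoi d := by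
  have hlb := lam_bounds hd
  have hd0 : 0 < d := by linarith
  have hsq : 0 < Real.sqrt d := Real.sqrt_pos.2 hd0
  have hs0 : 0 ≤ s := by rw [hs]; positivity
  have hs1 : s ≤ 1 / 2 := by
    have := hlb.1
    rw [hs]
    push_cast at this
    norm_num at this ⊢
    linarith
  have hds : d * s ^ 2 = 1 := by
    rw [hs, div_pow, one_pow, Real.sq_sqrt hd0.le]
    field_simp
  have hproc := gproc_poi (by norm_num) hlb.1 hlb.2 hd0.le
    (isProcess_GW 3 (by norm_num) _ d hd0.le hlb.1 hlb.2)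
  rw [← hs] at hproc
  have hl0 : -(1 / (((3 : ℕ) : ℝ) - 1)) ≤ -s := by push_cast; norm_num; linarith
  have hl1 : -s ≤ 1 := by linarith
  have := poi_knots_tendsto hs0 hs1 hds hproc hg1 hdel ha ha2 0 (th0 := th0) (th1 := th1)
    (g0 := g0) (taumax := taumax) (fun n _ => tau_le hs0 hs1 hds (hproc.isExp n)
      (mfc_cF ha ha2).toMF fun v hv => by
        rw [cF_eq ha _ (chv_nonneg (by norm_num) hl0 hl1 v hv.1)]; exact hmax v hv) hk
  unfold AntiPoi
  rw [← hs]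
  exact this

/-- tangent line of `t ^ b` on `[0, ∞)` -/
theorem pow_line {b : ℕ} (hb : 1 ≤ b) {w : ℝ} (hw : 0 ≤ w) {t : ℝ} (ht : 0 ≤ t) :
    -((b : ℝ) - 1) * w ^ b + w ^ (b - 1) * b * t ≤ t ^ b := by
  obtain ⟨c, hc⟩ := supLine_posPow hb w
  rcases hw.eq_or_lt with h0 | h0
  · rw [← h0]
    rcases Nat.lt_or_ge 1 b with h1 | h1
    · rw [zero_pow (by omega : b ≠ 0), zero_pow (by omega : b - 1 ≠ 0)]
      have := pow_nonneg ht b
      linarith
    · have : b = 1 := by omega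
      subst this
      simp
  · have h2 := one_add_mul_le_pow (a := t / w - 1) (by
      have : 0 ≤ t / w := div_nonneg ht h0.le
      linarith) b
    have e1 : 1 + (t / w - 1) = t / w := by ring
    rw [e1, div_pow, le_div_iff₀ (pow_pos h0 b)] at h2
    have e2 : w ^ b = w ^ (b - 1) * w := by
      rw [← pow_succ]; congr 1; omega
    calc -((b : ℝ) - 1) * w ^ b + w ^ (b - 1) * b * t = (1 + b * (t / w - 1)) * w ^ b := by
          rw [e2]; field_simp; ring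
      _ ≤ t ^ b := h2

/-- tangent line of `t ^ b`, `b` even -/
theorem pow_line_even {b : ℕ} (hb : Even b) (hb1 : 1 ≤ b) {w : ℝ} (hw : 0 ≤ w) (t : ℝ) :
    -((b : ℝ) - 1) * w ^ b + w ^ (b - 1) * b * t ≤ t ^ b := by
  have h := pow_line hb1 hw (abs_nonneg t)
  rw [hb.pow_abs] at h
  have h1 : w ^ (b - 1) * b * t ≤ w ^ (b - 1) * b * |t| :=
    mul_le_mul_of_nonneg_left (le_abs_self t) (by positivity)
  linarith

theorem Ex_nonneg_of_pt {s : ℝ} (hs0 : 0 ≤ s) (hs1 : s ≤ 1 / 2) {κ : Type}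
    {Q : κ → Fin 3 → ℝ} (hQ : IsExp Q) {F : (Fin 3 → ℝ) → ℝ} (hF : Homog F)
    (hp : ∀ v ∈ simpK 3, 0 ≤ F (chv (-s) v)) : 0 ≤ Ex F (ch (-s) Q) := by
  have hl0 : -(1 / (((3 : ℕ) : ℝ) - 1)) ≤ -s := by push_cast; norm_num; linarith
  have hl1 : -s ≤ 1 := by linarith
  refine tsum_nonneg fun i => ?_
  by_cases hm : mass (Q i) = 0
  · have h0 : Q i = fun _ => (0 : ℝ) := by
      funext a; exact eq_zero_of_mass_eq_zero (by norm_num) _ (hQ.nonneg i) hm a
    have hz : F (fun _ => (0 : ℝ)) = 0 := by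
      have := hF 0 (fun _ => 0) le_rfl (fun _ => le_rfl)
      simpa using this
    have hc0 : ch (-s) Q i = fun _ => (0 : ℝ) := by
      funext a
      unfold ch
      rw [hm, h0]; ring
    rw [hc0, hz]
  · have hm' : 0 < mass (Q i) := lt_of_le_of_ne (mass_nonneg _ (hQ.nonneg i)) (Ne.symm hm)
    have ht : 0 < (mass (Q i))⁻¹ := inv_pos.2 hm'
    set v : Fin 3 → ℝ := fun a => (mass (Q i))⁻¹ * Q i a with hv
    have hvn : ∀ a, 0 ≤ v a := fun a => mul_nonneg ht.le (hQ.nonneg i a)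
    have h1 := hp v ⟨hvn, by rw [hv, mass_smul]; exact inv_mul_cancel₀ hm⟩
    have hR2 : F (chv (-s) v) = (mass (Q i))⁻¹ * F (ch (-s) Q i) := by
      rw [hv, chv_smul, hF _ _ ht.le (chv_nonneg (by norm_num) hl0 hl1 _ (hQ.nonneg i)),
        ch_eq_chv]
    rw [hR2] at h1
    exact nonneg_of_mul_nonneg_right h1 ht

/-- `b`-ary knots for an abstract process, from time `n0` -/
theorem reg_knots_tendsto {s : ℝ} {b : ℕ} (hb : 1 ≤ b) (hs0 : 0 ≤ s) (hs1 : s ≤ 1 / 2)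
    (hds : (b : ℝ) * s ^ 2 = 1) {ι : ℕ → Type} {w : ∀ n, ι n → Fin 3 → ℝ}
    (hw : GProc 3 (-s) (fun t => t ^ b) ι w) {g1 g0 a th0 th1 del taumax : ℝ}
    (hg1 : 0 ≤ g1) (hdel : 0 < del) (ha : 0 < a) (ha2 : a ≤ 1 / 2) (n0 : ℕ)
    (hpos : Even b ∨ ∀ v ∈ simpK 3, 0 ≤ cfun (1 / 2) th1 (chv (-s) v))
    (hmax : ∀ n, n0 ≤ n → (b : ℝ) * (1 - Ex (cF a th0) (ch (-s) (w n))) ≤ taumax)
    (hk : ∀ tau, 0 ≤ tau → tau ≤ taumax → ∃ z nu K : ℝ, 0 ≤ z ∧
      KnotOK g1 g0 a th0 th1 del s (z ^ (b - 1)) nu K ∧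
      g1 * (1 - b * z ^ (b - 1) + (b - 1) * z ^ b) - g0 * (1 - (1 - tau / b) ^ b) + nu * tau ≤ K) :
    Tendsto (fun n => X (w n)) atTop (nhds 0) := by
  have hl0 : -(1 / (((3 : ℕ) : ℝ) - 1)) ≤ -s := by push_cast; norm_num; linarith
  have hl1 : -s ≤ 1 := by linarith
  have hb0 : (0 : ℝ) < b := by exact_mod_cast hb
  refine knots_tendsto hs0 hs1 hds (fun t ht => ?_) hw hg1 hdel ha ha2 n0 (th0 := th0)
    (th1 := th1) (g0 := g0) fun n hn => ?_
  · calc t ^ b ≤ |t ^ b| := le_abs_self _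
      _ = |t| ^ b := abs_pow _ _
      _ ≤ 1 := pow_le_one₀ (abs_nonneg _) ht
  · set P0 := Ex (cF a th0) (ch (-s) (w n)) with hP0
    obtain ⟨z, nu, K, hz, hK, hsc⟩ := hk (b * (1 - P0))
      (tau_nonneg hs0 hs1 hds (hw.isExp n) (mfc_cF ha ha2).toMF) (hmax n hn)
    refine ⟨z ^ (b - 1), nu, K, -((b : ℝ) - 1) * z ^ b, hK, ?_, ?_⟩
    · rcases hpos with he | hp
      · exact pow_line_even he hb hz _
      · refine pow_line hb hz (Ex_nonneg_of_pt hs0 hs1 (hw.isExp n)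
          (mfc_cF (by norm_num) le_rfl).homog fun v hv => ?_)
        rw [cF_eq (by norm_num) _ (chv_nonneg (by norm_num) hl0 hl1 v hv.1)]
        exact hp v hv
    · have e : 1 - b * (1 - P0) / b = P0 := by
        field_simp; ring
      rw [e] at hsc
      show g0 * P0 ^ b + nu * b * (1 - P0) ≤ _
      linarith

/-- **`b`-ary case from knots** -/
theorem antiReg_of_knots {b : ℕ} {s : ℝ} (hb : 4 ≤ b) (hs : s = 1 / Real.sqrt b)
    {g1 g0 a th0 th1 del taumax : ℝ} (hg1 : 0 ≤ g1) (hdel : 0 < del) (ha : 0 < a)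
    (ha2 : a ≤ 1 / 2)
    (hpos : Even b ∨ ∀ v ∈ simpK 3, 0 ≤ cfun (1 / 2) th1 (chv (-s) v))
    (hmax : ∀ v ∈ simpK 3, 1 - cfun a th0 (chv (-s) v) ≤ s ^ 2 * taumax)
    (hk : ∀ tau, 0 ≤ tau → tau ≤ taumax → ∃ z nu K : ℝ, 0 ≤ z ∧
      KnotOK g1 g0 a th0 th1 del s (z ^ (b - 1)) nu K ∧
      g1 * (1 - b * z ^ (b - 1) + (b - 1) * z ^ b) - g0 * (1 - (1 - tau / b) ^ b) + nu * tau ≤ K) :
    AntiReg b := by
  have hb4 : (4 : ℝ) ≤ (b : ℝ) := by exact_mod_cast hb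
  have hlb := lam_bounds hb4
  have hd0 : (0 : ℝ) < b := by linarith
  have hsq : 0 < Real.sqrt b := Real.sqrt_pos.2 hd0
  have hs0 : 0 ≤ s := by rw [hs]; positivity
  have hs1 : s ≤ 1 / 2 := by
    have := hlb.1
    rw [hs]
    push_cast at this
    norm_num at this ⊢
    linarith
  have hds : (b : ℝ) * s ^ 2 = 1 := by
    rw [hs, div_pow, one_pow, Real.sq_sqrt hd0.le]
    field_simp
  have hproc := gproc_reg (by norm_num) hlb.1 hlb.2
    (isProcess_reg 3 b (by norm_num) _ hlb.1 hlb.2)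
  rw [← hs] at hproc
  have hl0 : -(1 / (((3 : ℕ) : ℝ) - 1)) ≤ -s := by push_cast; norm_num; linarith
  have hl1 : -s ≤ 1 := by linarith
  have := reg_knots_tendsto (by omega) hs0 hs1 hds hproc hg1 hdel ha ha2 0 (th0 := th0)
    (th1 := th1) (g0 := g0) (taumax := taumax) hpos
    (fun n _ => tau_le hs0 hs1 hds (hproc.isExp n)
      (mfc_cF ha ha2).toMF fun v hv => by
        rw [cF_eq ha _ (chv_nonneg (by norm_num) hl0 hl1 v hv.1)]; exact hmax v hv) hk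
  unfold AntiReg
  rw [← hs]
  exact this

/-- `b`-ary case from knots, after time `n0`, with a bound on the scanned value -/
theorem antiReg_of_knots_from {b : ℕ} {s : ℝ} (hb : 4 ≤ b) (hs : s = 1 / Real.sqrt b)
    {g1 g0 a th0 th1 del taumax : ℝ} (hg1 : 0 ≤ g1) (hdel : 0 < del) (ha : 0 < a)
    (ha2 : a ≤ 1 / 2) (n0 : ℕ)
    (hpos : Even b ∨ ∀ v ∈ simpK 3, 0 ≤ cfun (1 / 2) th1 (chv (-s) v))
    (hmax : ∀ n, n0 ≤ n → (b : ℝ) * (1 - Ex (cF a th0) (ch (-s) (wReg 3 b (-s) n))) ≤ taumax)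
    (hk : ∀ tau, 0 ≤ tau → tau ≤ taumax → ∃ z nu K : ℝ, 0 ≤ z ∧
      KnotOK g1 g0 a th0 th1 del s (z ^ (b - 1)) nu K ∧
      g1 * (1 - b * z ^ (b - 1) + (b - 1) * z ^ b) - g0 * (1 - (1 - tau / b) ^ b) + nu * tau ≤ K) :
    AntiReg b := by
  have hb4 : (4 : ℝ) ≤ (b : ℝ) := by exact_mod_cast hb
  have hlb := lam_bounds hb4
  have hd0 : (0 : ℝ) < b := by linarith
  have hsq : 0 < Real.sqrt b := Real.sqrt_pos.2 hd0
  have hs0 : 0 ≤ s := by rw [hs]; positivity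
  have hs1 : s ≤ 1 / 2 := by
    have := hlb.1
    rw [hs]
    push_cast at this
    norm_num at this ⊢
    linarith
  have hds : (b : ℝ) * s ^ 2 = 1 := by
    rw [hs, div_pow, one_pow, Real.sq_sqrt hd0.le]
    field_simp
  have hproc := gproc_reg (by norm_num) hlb.1 hlb.2
    (isProcess_reg 3 b (by norm_num) _ hlb.1 hlb.2)
  rw [← hs] at hproc
  have := reg_knots_tendsto (by omega) hs0 hs1 hds hproc hg1 hdel ha ha2 n0 (th0 := th0)
    (th1 := th1) (g0 := g0) (taumax := taumax) hpos hmax hk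
  unfold AntiReg
  rw [← hs]
  exact this

/-- a bound of the scanned value by the magnetisation -/
theorem tau_le_X {s d : ℝ} (hs0 : 0 ≤ s) (hs1 : s ≤ 1 / 2) {κ : Type}
    {Q : κ → Fin 3 → ℝ} (hQ : IsExp Q) {F : (Fin 3 → ℝ) → ℝ} (hF : MF F) {C : ℝ}
    (hC : ∀ v ∈ simpK 3, d * (1 - F (chv (-s) v)) ≤ C * m2 (uv v)) :
    d * (1 - Ex F (ch (-s) Q)) ≤ C * X Q := by
  have hl0 : -(1 / (((3 : ℕ) : ℝ) - 1)) ≤ -s := by push_cast; norm_num; linarith
  have hl1 : -s ≤ 1 := by linarith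
  have hch : IsExp (ch (-s) Q) := isExp_ch (by norm_num) hl0 hl1 hQ
  have hmass := hQ.hasSum_mass (by norm_num : 0 < 3)
  have hS := (hch.summable (by norm_num) hF.mbdd).hasSum
  have hXs := (hQ.summable (by norm_num) (mbdd_fX (q := 3) (by norm_num))).hasSum
  have hpt : ∀ i, d * (mass (Q i) - F (ch (-s) Q i)) ≤ C * fX (Q i) := by
    intro i
    by_cases hm : mass (Q i) = 0
    · have h0 : Q i = fun _ => (0 : ℝ) := by
        funext a; exact eq_zero_of_mass_eq_zero (by norm_num) _ (hQ.nonneg i) hm a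
      have hz : F (fun _ => (0 : ℝ)) = 0 := by
        have := hF.homog 0 (fun _ => 0) le_rfl (fun _ => le_rfl)
        simpa using this
      have hc0 : ch (-s) Q i = fun _ => (0 : ℝ) := by
        funext a
        unfold ch
        rw [hm, h0]; ring
      unfold fX
      rw [hc0, hm, hz]; simp
    · have hm' : 0 < mass (Q i) := lt_of_le_of_ne (mass_nonneg _ (hQ.nonneg i)) (Ne.symm hm)
      have ht : 0 < (mass (Q i))⁻¹ := inv_pos.2 hm'
      set v : Fin 3 → ℝ := fun a => (mass (Q i))⁻¹ * Q i a with hv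
      have hvn : ∀ a, 0 ≤ v a := fun a => mul_nonneg ht.le (hQ.nonneg i a)
      have hv1 : mass v = 1 := by rw [hv, mass_smul]; exact inv_mul_cancel₀ hm
      have h1 := hC v ⟨hvn, hv1⟩
      have hR2 : F (chv (-s) v) = (mass (Q i))⁻¹ * F (ch (-s) Q i) := by
        rw [hv, chv_smul, hF.homog _ _ ht.le (chv_nonneg (by norm_num) hl0 hl1 _ (hQ.nonneg i)),
          ch_eq_chv]
      have hX1 : fX v = (mass (Q i))⁻¹ * fX (Q i) := homog_fX _ _ ht.le (hQ.nonneg i)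
      have hX2 : m2 (uv v) = (mass (Q i))⁻¹ * fX (Q i) := by
        rw [← hX1]; unfold fX; rw [hv1, one_mul]
      rw [hR2, hX2] at h1
      have h2 := mul_le_mul_of_nonneg_left h1 hm'.le
      have e : mass (Q i) * (d * (1 - (mass (Q i))⁻¹ * F (ch (-s) Q i))) =
          d * (mass (Q i) - F (ch (-s) Q i)) := by
        field_simp
      have e' : mass (Q i) * (C * ((mass (Q i))⁻¹ * fX (Q i))) = C * fX (Q i) := by
        field_simp
      rw [e, e'] at h2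
      exact h2
  exact hasSum_le hpt ((hmass.sub hS).mul_left d) (hXs.mul_left C)

end Crest.Agent.R163
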