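import Crest.Agent.R163.Knot2

/-!
# Row 163: fixed-point levels

`LevelOK` : the pointwise inequality of a level with `k` functionals `c[a_j; th_j]` and the scanned
functional `c[a0; th0]`. Levels exclude limits of the scanned value; the potential has to work only
below `tau1`.
-/

set_option autoImplicit false

namespace Crest.Agent.R163

open Finset Filter

/-- pointwise inequality of a level -/
def LevelOK {k : ℕ} (g a th x : Fin k → ℝ) (g0 a0 th0 s nu K : ℝ) : Prop :=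
  ∀ v ∈ simpK 3, ∑ j, g j * x j * (1 - cfun (a j) (th j) (chv (-s) v)) -
    nu * (1 - cfun a0 th0 (chv (-s) v)) + s ^ 2 * K ≤
    s ^ 2 * (∑ j, g j * (1 - cfun (a j) (th j) v) - g0 * (1 - cfun a0 th0 v))

theorem level_lim {s d : ℝ} (hs0 : 0 ≤ s) (hs1 : s ≤ 1 / 2) (hds : d * s ^ 2 = 1)
    {G : ℝ → ℝ} (hGc : Continuous G) (hG : ∀ t, |t| ≤ 1 → G t ≤ 1) {ι : ℕ → Type}
    {w : ∀ n, ι n → Fin 3 → ℝ} (hw : GProc 3 (-s) G ι w) {k : ℕ} {g a th x A : Fin k → ℝ}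
    (hg : ∀ j, 0 ≤ g j) (ha : ∀ j, 0 < a j) (ha' : ∀ j, a j ≤ 1 / 2) {g0 a0 th0 nu K : ℝ}
    (ha0 : 0 < a0) (ha0' : a0 ≤ 1 / 2) (hL : LevelOK g a th x g0 a0 th0 s nu K)
    (hline : ∀ j, ∀ n, A j + x j * d * Ex (cF (a j) (th j)) (ch (-s) (w n)) ≤
      G (Ex (cF (a j) (th j)) (ch (-s) (w n)))) (T0 : ℝ)
    (hT0 : Tendsto (fun n => Ex (cF a0 th0) (ch (-s) (w n))) atTop (nhds T0)) :
    K + ∑ j, g j * (x j * d + A j - 1) + g0 ≤ g0 * G T0 + nu * d * (1 - T0) := by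
  have hl0 : -(1 / (((3 : ℕ) : ℝ) - 1)) ≤ -s := by push_cast; norm_num; linarith
  have hl1 : -s ≤ 1 := by linarith
  have hd0 : 0 ≤ d := by
    by_contra hneg
    push Not at hneg
    nlinarith [sq_nonneg s]
  have hF : ∀ j, MFc (cF (a j) (th j)) := fun j => mfc_cF (ha j) (ha' j)
  have hF0 : MFc (cF a0 th0) := mfc_cF ha0 ha0'
  set K' := K + ∑ j, g j * (x j * d + A j - 1) - nu * d + g0 with hK'
  have hRb : MBdd (fun v : Fin 3 → ℝ => K' * mass v) := by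
    refine ⟨|K'|, abs_nonneg _, fun v hv => ?_⟩
    rw [abs_mul, abs_of_nonneg (mass_nonneg v hv)]
  have hmassn : ∀ n, Ex (fun v : Fin 3 → ℝ => K' * mass v) (w n) = K' := by
    intro n
    have := ((hw.isExp n).hasSum_mass (by norm_num : 0 < 3)).mul_left K'
    have h2 : Ex (fun v : Fin 3 → ℝ => K' * mass v) (w n) = K' * 1 := this.tsum_eq
    rw [h2, mul_one]
  have h := fix_cert (by norm_num) hl0 hl1 hGc hw (k := k) (l := 0) g A (fun j => x j * d) hg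
    (fun j => cF (a j) (th j)) hF hline (fun _ => 0) (fun _ => le_rfl) (fun _ => 1)
    (supLine_const 1) (fun C => ⟨1, fun t _ => by norm_num⟩) hG (fun _ => cF a0 th0)
    (fun _ => hF0) (cF a0 th0) hF0 g0 (-(nu * d)) (fun v => K' * mass v)
    (fun t v ht hv => by
      show K' * mass (fun a => t * v a) = t * (K' * mass v)
      rw [mass_smul]; ring) hRb ?_ T0 K' hT0
    (tendsto_const_nhds.congr fun n => (hmassn n).symm)
  · linarith
  · intro v hv
    have hcv : ∀ i, 0 ≤ chv (-s) v i := chv_nonneg (by norm_num) hl0 hl1 v hv.1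
    have h3 := hL v hv
    have h4 := mul_le_mul_of_nonneg_left h3 hd0
    have e1 : d * (∑ j, g j * x j * (1 - cfun (a j) (th j) (chv (-s) v)) -
        nu * (1 - cfun a0 th0 (chv (-s) v)) + s ^ 2 * K) =
        ∑ j, g j * (x j * d) * (1 - cfun (a j) (th j) (chv (-s) v)) -
        nu * d * (1 - cfun a0 th0 (chv (-s) v)) + (d * s ^ 2) * K := by
      have : ∑ j, g j * (x j * d) * (1 - cfun (a j) (th j) (chv (-s) v)) =
          d * ∑ j, g j * x j * (1 - cfun (a j) (th j) (chv (-s) v)) := by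
        rw [Finset.mul_sum]
        exact Finset.sum_congr rfl fun j _ => by ring
      rw [this]; ring
    have e2 : d * (s ^ 2 * (∑ j, g j * (1 - cfun (a j) (th j) v) - g0 * (1 - cfun a0 th0 v))) =
        (d * s ^ 2) * (∑ j, g j * (1 - cfun (a j) (th j) v) - g0 * (1 - cfun a0 th0 v)) := by
      ring
    rw [e1, e2, hds, one_mul, one_mul] at h4
    unfold ptf
    rw [Fin.sum_univ_zero]
    show K' * mass v ≤ ∑ j, g j * (A j + x j * d * cF (a j) (th j) (chv (-s) v) -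
      cF (a j) (th j) v) + 0 + g0 * cF a0 th0 v + -(nu * d) * cF a0 th0 (chv (-s) v)
    rw [hv.2, mul_one, cF_eq ha0 v hv.1, cF_eq ha0 _ hcv]
    have e3 : ∑ j, g j * (A j + x j * d * cF (a j) (th j) (chv (-s) v) - cF (a j) (th j) v) =
        ∑ j, g j * (x j * d + A j - 1) -
        ∑ j, g j * (x j * d) * (1 - cfun (a j) (th j) (chv (-s) v)) +
        ∑ j, g j * (1 - cfun (a j) (th j) v) := by
      rw [← Finset.sum_sub_distrib, ← Finset.sum_add_distrib]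
      refine Finset.sum_congr rfl fun j _ => ?_
      rw [cF_eq (ha j) v hv.1, cF_eq (ha j) _ hcv]
      ring
    rw [e3]
    linarith

/-- if the limit of the scanned value cannot be in `[tau1, taumax]` then it is eventually below
`tau1` -/
theorem tau_eventually {s d : ℝ} (hs0 : 0 ≤ s) (hs1 : s ≤ 1 / 2) (hds : d * s ^ 2 = 1)
    {G : ℝ → ℝ} {ι : ℕ → Type}
    {w : ∀ n, ι n → Fin 3 → ℝ} (hw : GProc 3 (-s) G ι w) {a0 th0 tau1 taumax : ℝ}
    (ha0 : 0 < a0) (ha0' : a0 ≤ 1 / 2)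
    (hmax : ∀ v ∈ simpK 3, 1 - cfun a0 th0 (chv (-s) v) ≤ s ^ 2 * taumax)
    (hex : ∀ T0, Tendsto (fun n => Ex (cF a0 th0) (ch (-s) (w n))) atTop (nhds T0) →
      ¬ (tau1 ≤ d * (1 - T0) ∧ d * (1 - T0) ≤ taumax)) :
    ∃ n0, ∀ n, n0 ≤ n → d * (1 - Ex (cF a0 th0) (ch (-s) (w n))) ≤ tau1 := by
  have hl0 : -(1 / (((3 : ℕ) : ℝ) - 1)) ≤ -s := by push_cast; norm_num; linarith
  have hl1 : -s ≤ 1 := by linarith
  have hF0 : MFc (cF a0 th0) := mfc_cF ha0 ha0'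
  obtain ⟨T0, hT0⟩ := hw.limT (by norm_num) hl0 hl1 hF0.homog hF0.cont
  have h1 : Tendsto (fun n => d * (1 - Ex (cF a0 th0) (ch (-s) (w n)))) atTop
      (nhds (d * (1 - T0))) := (tendsto_const_nhds.sub hT0).const_mul d
  have h2 : d * (1 - T0) ≤ taumax := le_of_tendsto' h1 fun n =>
    tau_le hs0 hs1 hds (hw.isExp n) hF0.toMF fun v hv => by
      rw [cF_eq ha0 _ (chv_nonneg (by norm_num) hl0 hl1 v hv.1)]; exact hmax v hv
  have h3 : d * (1 - T0) < tau1 := by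
    by_contra h
    exact hex T0 hT0 ⟨le_of_not_gt h, h2⟩
  obtain ⟨n0, hn0⟩ := (eventually_atTop.1 (h1.eventually_lt_const h3))
  exact ⟨n0, fun n hn => (hn0 n hn).le⟩

/-- **Poisson case from knots below `tau1` and levels above** -/
theorem antiPoi_of_levels {d s : ℝ} (hd : 4 ≤ d) (hs : s = 1 / Real.sqrt d)
    {g1 g0 a th0 th1 del tau1 taumax : ℝ} (hg1 : 0 ≤ g1) (hdel : 0 < del) (ha : 0 < a)
    (ha2 : a ≤ 1 / 2)
    (hmax : ∀ v ∈ simpK 3, 1 - cfun a th0 (chv (-s) v) ≤ s ^ 2 * taumax)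
    (hlev : ∀ tau, tau1 ≤ tau → tau ≤ taumax → ∃ (k : ℕ) (g a' th x : Fin k → ℝ) (g0 nu K : ℝ),
      (∀ j, 0 ≤ g j) ∧ (∀ j, 0 < a' j) ∧ (∀ j, a' j ≤ 1 / 2) ∧ (∀ j, 0 < x j) ∧
      LevelOK g a' th x g0 a th0 s nu K ∧
      ∑ j, g j * (1 - x j + x j * Real.log (x j)) - g0 * (1 - Real.exp (-tau)) + nu * tau < K)
    (hk : ∀ tau, 0 ≤ tau → tau ≤ tau1 → ∃ x nu K : ℝ, 0 < x ∧
      KnotOK g1 g0 a th0 th1 del s x nu K ∧
      g1 * (1 - x + x * Real.log x) - g0 * (1 - Real.exp (-tau)) + nu * tau ≤ K) :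
    AntiPoi d := by
  have hlb := lam_bounds hd
  have hd0 : 0 < d := by linarith
  have hsq : 0 < Real.sqrt d := Real.sqrt_pos.2 hd0
  have hs0 : 0 ≤ s := by rw [hs]; positivity
  have hs1 : s ≤ 1 / 2 := by
    have := hlb.1
    rw [hs]
    push_cast at this
    norm_num at this ⊢
    linarith
  have hds : d * s ^ 2 = 1 := by
    rw [hs, div_pow, one_pow, Real.sq_sqrt hd0.le]
    field_simp
  have hproc := gproc_poi (by norm_num) hlb.1 hlb.2 hd0.le
    (isProcess_GW 3 (by norm_num) _ d hd0.le hlb.1 hlb.2)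
  rw [← hs] at hproc
  have hG1 : ∀ t : ℝ, |t| ≤ 1 → Real.exp (d * (t - 1)) ≤ 1 := fun t ht =>
    Real.exp_le_one_iff.2 (mul_nonpos_of_nonneg_of_nonpos hd0.le (by linarith [(abs_le.1 ht).2]))
  have hGc : Continuous (fun t : ℝ => Real.exp (d * (t - 1))) := by fun_prop
  obtain ⟨n0, hn0⟩ := tau_eventually (tau1 := tau1) hs0 hs1 hds hproc ha ha2 hmax (by
    rintro T0 hT0 ⟨h1, h2⟩
    obtain ⟨k, g, a', th, x, g0, nu, K, hg, ha', ha'2, hx, hL, hlt⟩ := hlev _ h1 h2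
    have h := level_lim hs0 hs1 hds hGc hG1 hproc hg ha' ha'2 ha ha2 hL
      (A := fun j => x j - x j * d - x j * Real.log (x j)) (fun j n => exp_line (hx j) _) T0 hT0
    have e : ∑ j, g j * (x j * d + (x j - x j * d - x j * Real.log (x j)) - 1) =
        -∑ j, g j * (1 - x j + x j * Real.log (x j)) := by
      rw [← Finset.sum_neg_distrib]
      exact Finset.sum_congr rfl fun j _ => by ring
    rw [e] at h
    have e' : -(d * (1 - T0)) = d * (T0 - 1) := by ring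
    rw [e'] at hlt
    have e'' : nu * d * (1 - T0) = nu * (d * (1 - T0)) := by ring
    rw [e''] at h
    linarith)
  have := poi_knots_tendsto hs0 hs1 hds hproc hg1 hdel ha ha2 n0 (th0 := th0) (th1 := th1)
    (g0 := g0) (taumax := tau1) hn0 hk
  unfold AntiPoi
  rw [← hs]
  exact this

/-- **`b`-ary case from knots below `tau1` and levels above** -/
theorem antiReg_of_levels {b : ℕ} {s : ℝ} (hb : 4 ≤ b) (hs : s = 1 / Real.sqrt b)
    {g1 g0 a th0 th1 del tau1 taumax : ℝ} (hg1 : 0 ≤ g1) (hdel : 0 < del) (ha : 0 < a)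
    (ha2 : a ≤ 1 / 2)
    (hpos : Even b ∨ ∀ v ∈ simpK 3, 0 ≤ cfun (1 / 2) th1 (chv (-s) v))
    (hmax : ∀ v ∈ simpK 3, 1 - cfun a th0 (chv (-s) v) ≤ s ^ 2 * taumax)
    (hlev : ∀ tau, tau1 ≤ tau → tau ≤ taumax → ∃ (k : ℕ) (g a' th z : Fin k → ℝ) (g0 nu K : ℝ),
      (∀ j, 0 ≤ g j) ∧ (∀ j, 0 < a' j) ∧ (∀ j, a' j ≤ 1 / 2) ∧ (∀ j, 0 ≤ z j) ∧
      (Even b ∨ ∀ j, ∀ v ∈ simpK 3, 0 ≤ cfun (a' j) (th j) (chv (-s) v)) ∧
      LevelOK g a' th (fun j => z j ^ (b - 1)) g0 a th0 s nu K ∧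
      ∑ j, g j * (1 - b * z j ^ (b - 1) + (b - 1) * z j ^ b) -
        g0 * (1 - (1 - tau / b) ^ b) + nu * tau < K)
    (hk : ∀ tau, 0 ≤ tau → tau ≤ tau1 → ∃ z nu K : ℝ, 0 ≤ z ∧
      KnotOK g1 g0 a th0 th1 del s (z ^ (b - 1)) nu K ∧
      g1 * (1 - b * z ^ (b - 1) + (b - 1) * z ^ b) - g0 * (1 - (1 - tau / b) ^ b) + nu * tau ≤ K) :
    AntiReg b := by
  have hb4 : (4 : ℝ) ≤ (b : ℝ) := by exact_mod_cast hb
  have hlb := lam_bounds hb4
  have hd0 : (0 : ℝ) < b := by linarith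
  have hsq : 0 < Real.sqrt b := Real.sqrt_pos.2 hd0
  have hs0 : 0 ≤ s := by rw [hs]; positivity
  have hs1 : s ≤ 1 / 2 := by
    have := hlb.1
    rw [hs]
    push_cast at this
    norm_num at this ⊢
    linarith
  have hds : (b : ℝ) * s ^ 2 = 1 := by
    rw [hs, div_pow, one_pow, Real.sq_sqrt hd0.le]
    field_simp
  have hl0 : -(1 / (((3 : ℕ) : ℝ) - 1)) ≤ -s := by push_cast; norm_num; linarith
  have hl1 : -s ≤ 1 := by linarith
  have hproc := gproc_reg (by norm_num) hlb.1 hlb.2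
    (isProcess_reg 3 b (by norm_num) _ hlb.1 hlb.2)
  rw [← hs] at hproc
  have hG1 : ∀ t : ℝ, |t| ≤ 1 → t ^ b ≤ 1 := fun t ht => by
    calc t ^ b ≤ |t ^ b| := le_abs_self _
      _ = |t| ^ b := abs_pow _ _
      _ ≤ 1 := pow_le_one₀ (abs_nonneg _) ht
  have hGc : Continuous (fun t : ℝ => t ^ b) := by fun_prop
  obtain ⟨n0, hn0⟩ := tau_eventually (tau1 := tau1) hs0 hs1 hds hproc ha ha2 hmax (by
    rintro T0 hT0 ⟨h1, h2⟩
    obtain ⟨k, g, a', th, z, g0, nu, K, hg, ha', ha'2, hz, hp, hL, hlt⟩ := hlev _ h1 h2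
    have h := level_lim hs0 hs1 hds hGc hG1 hproc hg ha' ha'2 ha ha2 hL
      (A := fun j => -((b : ℝ) - 1) * z j ^ b) (fun j n => by
        rcases hp with he | hp
        · exact pow_line_even he (by omega) (hz j) _
        · refine pow_line (by omega) (hz j) (Ex_nonneg_of_pt hs0 hs1 (hproc.isExp n)
            (mfc_cF (ha' j) (ha'2 j)).homog fun v hv => ?_)
          rw [cF_eq (ha' j) _ (chv_nonneg (by norm_num) hl0 hl1 v hv.1)]
          exact hp j v hv) T0 hT0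
    have e : ∑ j, g j * (z j ^ (b - 1) * b + -((b : ℝ) - 1) * z j ^ b - 1) =
        -∑ j, g j * (1 - b * z j ^ (b - 1) + (b - 1) * z j ^ b) := by
      rw [← Finset.sum_neg_distrib]
      exact Finset.sum_congr rfl fun j _ => by ring
    rw [e] at h
    have e' : 1 - b * (1 - T0) / b = T0 := by
      field_simp; ring
    rw [e'] at hlt
    have e'' : nu * b * (1 - T0) = nu * (b * (1 - T0)) := by ring
    rw [e''] at h
    linarith)
  have := reg_knots_tendsto (by omega) hs0 hs1 hds hproc hg1 hdel ha ha2 n0 (th0 := th0)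
    (th1 := th1) (g0 := g0) (taumax := tau1) hpos hn0 hk
  unfold AntiReg
  rw [← hs]
  exact this

end Crest.Agent.R163
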