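import Mathlib

/-!
# Kernel-checked polynomial inequalities by Kronecker substitution

`E3` : polynomial expressions in three variables with integer constants.  `kr e I J K k m₁ m₂ = true` (a computation with
a few hundred operations on big integers, run by the kernel) implies `0 ≤ e.ev x y z` on the box.

Method: on the box substitute `x = (A + C / (1 + w)) / D`, clear denominators; the numerator is a polynomial `p` in
`w₁, w₂, w₃`; its value at `w₁ = X`, `w₂ = X ^ m₁`, `w₃ = X ^ (m₁ m₂)`, `X = 2 ^ k`, is a big integer whose base `X` digits are the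
coefficients of `p` if these are `≥ 0` and small; smallness follows from the value of the expression with absolute values at
`w = 1`; all digits are `< X / 2` is one bitwise `and`.
-/

set_option autoImplicit false

namespace Crest.Agent.R163.Kr

/-- expressions -/
inductive E3 : Type
  | c (n : ℤ)
  | x
  | y
  | z
  | add (a b : E3)
  | mul (a b : E3)
  | pow (a : E3) (n : ℕ)

/-- value -/
noncomputable def E3.ev (x y z : ℝ) : E3 → ℝ
  | .c n => n
  | .x => x
  | .y => y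
  | .z => z
  | .add a b => a.ev x y z + b.ev x y z
  | .mul a b => a.ev x y z * b.ev x y z
  | .pow a n => a.ev x y z ^ n

/-- operations -/
structure Ops (R : Type*) where
  add : R → R → R
  mul : R → R → R
  pow : R → ℕ → R
  ci : ℤ → R

/-- numerators and denominators of the variables -/
structure Pt (R : Type*) where
  nx : R
  dx : R
  ny : R
  dy : R
  nz : R
  dz : R

section
variable {R : Type*}

/-- multiply by powers of the denominators -/
def Ops.lift (o : Ops R) (p : Pt R) (v : R) (a b c : ℕ) : R :=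
  o.mul (o.mul (o.mul v (o.pow p.dx a)) (o.pow p.dy b)) (o.pow p.dz c)

/-- sum of two fractions -/
def Ops.hadd (o : Ops R) (p : Pt R) (u v : R × ℕ × ℕ × ℕ) : R × ℕ × ℕ × ℕ :=
  (o.add (o.lift p u.1 (v.2.1 - u.2.1) (v.2.2.1 - u.2.2.1) (v.2.2.2 - u.2.2.2))
    (o.lift p v.1 (u.2.1 - v.2.1) (u.2.2.1 - v.2.2.1) (u.2.2.2 - v.2.2.2)),
   max u.2.1 v.2.1, max u.2.2.1 v.2.2.1, max u.2.2.2 v.2.2.2)

/-- numerator and exponents of the denominators -/
def hv (o : Ops R) (p : Pt R) : E3 → R × ℕ × ℕ × ℕ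
  | .c n => (o.ci n, 0, 0, 0)
  | .x => (p.nx, 1, 0, 0)
  | .y => (p.ny, 0, 1, 0)
  | .z => (p.nz, 0, 0, 1)
  | .add a b => o.hadd p (hv o p a) (hv o p b)
  | .mul a b => (o.mul (hv o p a).1 (hv o p b).1, (hv o p a).2.1 + (hv o p b).2.1,
      (hv o p a).2.2.1 + (hv o p b).2.2.1, (hv o p a).2.2.2 + (hv o p b).2.2.2)
  | .pow a n => (o.pow (hv o p a).1 n, n * (hv o p a).2.1, n * (hv o p a).2.2.1, n * (hv o p a).2.2.2)

end

/-- power of integers, fast -/
def ipow : ℤ → ℕ → ℤ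
  | Int.ofNat m, n => Int.ofNat (m ^ n)
  | Int.negSucc m, n => bif n % 2 == 0 then Int.ofNat ((m + 1) ^ n) else Int.negOfNat ((m + 1) ^ n)

/-- integers -/
def intOps : Ops ℤ := ⟨Int.add, Int.mul, ipow, fun n => n⟩

/-- absolute values -/
def natOps : Ops ℕ := ⟨Nat.add, Nat.mul, Nat.pow, Int.natAbs⟩

/-- interval `[A/D, (A+C)/D]` -/
structure Iv where
  A : ℤ
  C : ℤ
  D : ℕ

/-- membership -/
def Iv.mem (I : Iv) (x : ℝ) : Prop := (I.A : ℝ) / I.D ≤ x ∧ x ≤ ((I.A : ℝ) + I.C) / I.D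

/-- degree bounds (independent of the values) -/
def dg (e : E3) : ℕ × ℕ × ℕ := (hv (R := Unit) ⟨fun _ _ => (), fun _ _ => (), fun _ _ => (), fun _ => ()⟩
  ⟨(), (), (), (), (), ()⟩ e).2

/-- integer point -/
def kpt (I J K : Iv) (W₁ W₂ W₃ : ℕ) : Pt ℤ :=
  ⟨I.A + I.C + I.A * W₁, I.D + I.D * W₁, J.A + J.C + J.A * W₂, J.D + J.D * W₂,
    K.A + K.C + K.A * W₃, K.D + K.D * W₃⟩

/-- absolute values at `w = 1` -/
def apt (I J K : Iv) : Pt ℕ :=
  ⟨(I.A + I.C).natAbs + I.A.natAbs, I.D + I.D, (J.A + J.C).natAbs + J.A.natAbs, J.D + J.D,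
    (K.A + K.C).natAbs + K.A.natAbs, K.D + K.D⟩

/-- all `M` digits base `2 ^ k` have top bit zero -/
def topFree (N k M : ℕ) : Bool :=
  Nat.land N (2 ^ (k - 1) * ((2 ^ (k * M) - 1) / (2 ^ k - 1))) == 0 && Nat.ble (N + 1) (2 ^ (k * M))

/-- nonnegative integer with digits `< 2 ^ (k - 1)` -/
def chk (N : ℤ) (k M : ℕ) : Bool :=
  match N with
  | Int.ofNat n => topFree n k M
  | Int.negSucc _ => false

/-- the test -/
def kr (e : E3) (I J K : Iv) (k : ℕ) : Bool :=
  let m₁ := (dg e).1 + 1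
  let m₂ := (dg e).2.1 + 1
  let m₃ := (dg e).2.2 + 1
  Nat.ble 1 I.D && Nat.ble 1 J.D && Nat.ble 1 K.D && Nat.ble 2 k &&
  decide (0 < I.C) && decide (0 < J.C) && decide (0 < K.C) &&
  Nat.ble ((hv natOps (apt I J K) e).1 + 1) (2 ^ (k - 1)) &&
  chk (hv intOps (kpt I J K (2 ^ k) (2 ^ (k * m₁)) (2 ^ (k * (m₁ * m₂)))) e).1 k (m₁ * m₂ * m₃)

end Crest.Agent.R163.Kr
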