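import Crest.Agent.R163.Kr

set_option autoImplicit false

namespace Crest.Agent.R163.Kr

open Finset

theorem ipow_eq (a : ℤ) (n : ℕ) : ipow a n = a ^ n := by
  rcases a with m | m
  · simp [ipow]
  · simp only [ipow]
    rcases Nat.mod_two_eq_zero_or_one n with h | h
    · rw [h]
      have he : Even n := Nat.even_iff.2 h
      rw [show Int.negSucc m = -((m + 1 : ℕ) : ℤ) from Int.negSucc_eq m, he.neg_pow]
      simp
    · rw [h]
      have ho : Odd n := Nat.odd_iff.2 h
      rw [show Int.negSucc m = -((m + 1 : ℕ) : ℤ) from Int.negSucc_eq m, ho.neg_pow]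
      simp [Int.negOfNat_eq]

/-! ### digits -/

/-- uniqueness of digits -/
theorem digits_zero {X : ℤ} (hX : 0 < X) (M : ℕ) (e : ℕ → ℤ) (he : ∀ t < M, |e t| < X)
    (h : ∑ t ∈ range M, e t * X ^ t = 0) : ∀ t < M, e t = 0 := by
  induction M generalizing e with
  | zero => intro t ht; omega
  | succ M ih =>
    rw [sum_range_succ'] at h
    have h1 : ∑ t ∈ range M, e (t + 1) * X ^ (t + 1) = X * ∑ t ∈ range M, e (t + 1) * X ^ t := by
      rw [mul_sum]; exact sum_congr rfl fun t _ => by ring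
    rw [h1, pow_zero, mul_one] at h
    have h0 : e 0 = 0 := by
      have hd : X ∣ e 0 := ⟨-∑ t ∈ range M, e (t + 1) * X ^ t, by linarith⟩
      exact Int.eq_zero_of_abs_lt_dvd hd (he 0 (by omega))
    rw [h0, add_zero] at h
    have h2 : ∑ t ∈ range M, e (t + 1) * X ^ t = 0 := by
      rcases mul_eq_zero.1 h with h | h
      · omega
      · exact h
    have h3 := ih (fun t => e (t + 1)) (fun t ht => he (t + 1) (by omega)) h2
    intro t ht
    rcases t with _ | t
    · exact h0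
    · exact h3 t (by omega)

theorem sum_digits (n X : ℕ) (M : ℕ) (hn : n < X ^ M) :
    ∑ t ∈ range M, (n / X ^ t % X) * X ^ t = n := by
  induction M generalizing n with
  | zero => simp at hn; simp [hn]
  | succ M ih =>
    rw [sum_range_succ']
    have h1 : n / X < X ^ M := by
      apply Nat.div_lt_of_lt_mul
      rw [← pow_succ']
      exact hn
    have h2 := ih (n / X) h1
    have h3 : ∑ t ∈ range M, (n / X ^ (t + 1) % X) * X ^ (t + 1) = X * (n / X) := by
      rw [← h2, mul_sum]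
      refine sum_congr rfl fun t _ => ?_
      rw [Nat.div_div_eq_div_mul, ← pow_succ']
      ring
    rw [h3]
    simp
    exact Nat.div_add_mod n X

/-- the mask -/
def mask (k : ℕ) : ℕ → ℕ
  | 0 => 0
  | M + 1 => 2 ^ (k - 1) + 2 ^ k * mask k M

theorem mask_eq (k M : ℕ) (hk : 1 ≤ k) :
    2 ^ (k - 1) * ((2 ^ (k * M) - 1) / (2 ^ k - 1)) = mask k M := by
  have h1 : 2 ≤ 2 ^ k := by
    calc 2 = 2 ^ 1 := rfl
      _ ≤ 2 ^ k := Nat.pow_le_pow_right (by norm_num) hk
  have key : ∀ M, (2 ^ (k * M) - 1) / (2 ^ k - 1) = ∑ t ∈ range M, (2 ^ k) ^ t := by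
    intro M
    rw [pow_mul]
    have := Nat.geomSum_eq h1 M
    rw [this]
  rw [key]
  induction M with
  | zero => simp [mask]
  | succ M ih =>
    rw [mask, ← ih, sum_range_succ', mul_add]
    simp only [pow_zero, mul_one]
    rw [add_comm]
    congr 1
    rw [Finset.mul_sum, Finset.mul_sum, Finset.mul_sum]
    refine sum_congr rfl fun t _ => ?_
    ring

theorem mask_testBit (k M t : ℕ) (hk : 1 ≤ k) (ht : t < M) : (mask k M).testBit (k * t + (k - 1)) = true := by
  induction M generalizing t with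
  | zero => omega
  | succ M ih =>
    rw [Nat.testBit_eq_decide_div_mod_eq, decide_eq_true_eq]
    rw [mask]
    have hk2 : 2 ^ k = 2 ^ (k - 1) * 2 := by rw [← pow_succ]; congr 1; omega
    rcases t with _ | t
    · rw [mul_zero, zero_add, hk2, mul_assoc, ← mul_one_add, Nat.mul_div_cancel_left _ (by positivity)]
      omega
    · have h1 : 2 ^ (k * (t + 1) + (k - 1)) = 2 ^ k * 2 ^ (k * t + (k - 1)) := by
        rw [← pow_add]; congr 1; ring
      rw [h1, ← Nat.div_div_eq_div_mul]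
      have h2 : (2 ^ (k - 1) + 2 ^ k * mask k M) / 2 ^ k = mask k M := by
        rw [Nat.add_mul_div_left _ _ (by positivity), Nat.div_eq_of_lt, zero_add]
        exact Nat.pow_lt_pow_right (by norm_num) (by omega)
      rw [h2]
      have := ih t (by omega)
      rw [Nat.testBit_eq_decide_div_mod_eq, decide_eq_true_eq] at this
      exact this

theorem topFree_sound {n k M : ℕ} (hk : 1 ≤ k) (h : topFree n k M = true) :
    n < (2 ^ k) ^ M ∧ ∀ t < M, n / (2 ^ k) ^ t % 2 ^ k < 2 ^ (k - 1) := by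
  simp only [topFree, Bool.and_eq_true, beq_iff_eq, Nat.ble_eq] at h
  rw [mask_eq k M hk] at h
  refine ⟨by rw [← pow_mul]; omega, fun t ht => ?_⟩
  have h1 : (n &&& mask k M).testBit (k * t + (k - 1)) = false := by
    have : n &&& mask k M = 0 := h.1
    rw [this, Nat.zero_testBit]
  rw [Nat.testBit_and, mask_testBit k M t hk ht, Bool.and_true, Nat.testBit_eq_decide_div_mod_eq,
    decide_eq_false_iff_not] at h1
  rw [pow_add, pow_mul, ← Nat.div_div_eq_div_mul] at h1
  set m := n / (2 ^ k) ^ t with hm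
  have hk2 : 2 ^ k = 2 ^ (k - 1) * 2 := by rw [← pow_succ]; congr 1; omega
  have h2 : m % 2 ^ k / 2 ^ (k - 1) = m / 2 ^ (k - 1) % 2 := by
    rw [hk2, Nat.mod_mul_right_div_self]
  have h3 : m / 2 ^ (k - 1) % 2 = 0 := by omega
  rw [h3] at h2
  rcases Nat.div_eq_zero_iff.1 h2 with h4 | h4
  · exact absurd h4 (by positivity)
  · exact h4

/-- the coefficients are nonnegative -/
theorem coeff_nonneg {n k M : ℕ} (hk : 1 ≤ k) (h : topFree n k M = true) (c : ℕ → ℤ)
    (hc : ∀ t < M, |c t| < 2 ^ (k - 1)) (hn : (n : ℤ) = ∑ t ∈ range M, c t * (2 ^ k) ^ t) :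
    ∀ t < M, 0 ≤ c t := by
  obtain ⟨h1, h2⟩ := topFree_sound hk h
  have h3 := sum_digits n (2 ^ k) M h1
  have hk2 : (2 : ℤ) ^ k = 2 ^ (k - 1) * 2 := by rw [← pow_succ]; congr 1; omega
  have h4 : ∑ t ∈ range M, (c t - ((n / (2 ^ k) ^ t % 2 ^ k : ℕ) : ℤ)) * ((2 : ℤ) ^ k) ^ t = 0 := by
    simp only [sub_mul, sum_sub_distrib]
    rw [← hn, sub_eq_zero]
    have h5 := congrArg (fun a : ℕ => (a : ℤ)) h3
    simp only [Nat.cast_sum, Nat.cast_mul, Nat.cast_pow, Nat.cast_ofNat] at h5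
    rw [← h5]
  have h5 := digits_zero (X := 2 ^ k) (by positivity) M _ (fun t ht => ?_) h4
  · intro t ht
    have := h5 t ht
    have h6 : (0 : ℤ) ≤ ((n / (2 ^ k) ^ t % 2 ^ k : ℕ) : ℤ) := Int.natCast_nonneg _
    linarith
  · have h6 := hc t ht
    have h7 : (((n / (2 ^ k) ^ t % 2 ^ k : ℕ)) : ℤ) < 2 ^ (k - 1) := by exact_mod_cast h2 t ht
    have h8 : (0 : ℤ) ≤ ((n / (2 ^ k) ^ t % 2 ^ k : ℕ) : ℤ) := Int.natCast_nonneg _
    rw [abs_lt] at h6 ⊢
    constructor <;> rw [hk2] <;> linarith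

end Crest.Agent.R163.Kr
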