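import Crest.Agent.R163.KrDig

/-!
# Kronecker test: semantics
-/

set_option autoImplicit false

namespace Crest.Agent.R163.Kr

open Finset MvPolynomial

/-- ring operations -/
def ringOps (R : Type*) [CommRing R] : Ops R := ⟨(· + ·), (· * ·), (· ^ ·), fun n => (n : R)⟩

theorem intOps_eq : intOps = ringOps ℤ := by
  unfold intOps ringOps
  congr
  funext a n
  exact ipow_eq a n

/-- image of a point -/
def Pt.map {R S : Type*} (φ : R → S) (p : Pt R) : Pt S :=
  ⟨φ p.nx, φ p.dx, φ p.ny, φ p.dy, φ p.nz, φ p.dz⟩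

theorem hv_map {R S : Type*} [CommRing R] [CommRing S] (φ : R →+* S) (p : Pt R) (e : E3) :
    hv (ringOps S) (p.map φ) e = (φ (hv (ringOps R) p e).1, (hv (ringOps R) p e).2) := by
  induction e with
  | c n => simp [hv, ringOps]
  | x => rfl
  | y => rfl
  | z => rfl
  | add a b iha ihb =>
    simp only [hv, iha, ihb, Ops.hadd, Ops.lift]
    simp [ringOps, Pt.map]
  | mul a b iha ihb =>
    simp only [hv, iha, ihb]
    simp [ringOps]
  | pow a n iha =>
    simp only [hv, iha]
    simp [ringOps]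

/-- degrees do not depend on the operations -/
theorem hv_deg {R : Type*} (o : Ops R) (p : Pt R) (e : E3) : (hv o p e).2 = dg e := by
  unfold dg
  induction e with
  | c n => rfl
  | x => rfl
  | y => rfl
  | z => rfl
  | add a b iha ihb => simp only [hv, Ops.hadd, iha, ihb]
  | mul a b iha ihb => simp only [hv, iha, ihb]
  | pow a n iha => simp only [hv, iha]

/-- value in the reals: numerator = value times powers of the denominators -/
theorem hv_real (p : Pt ℝ) (hx : p.dx ≠ 0) (hy : p.dy ≠ 0) (hz : p.dz ≠ 0) (e : E3) :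
    (hv (ringOps ℝ) p e).1 = e.ev (p.nx / p.dx) (p.ny / p.dy) (p.nz / p.dz) *
      p.dx ^ (dg e).1 * p.dy ^ (dg e).2.1 * p.dz ^ (dg e).2.2 := by
  induction e with
  | c n => simp [hv, ringOps, E3.ev, dg]
  | x => simp [hv, E3.ev, dg, hx]
  | y => simp [hv, E3.ev, dg, hy]
  | z => simp [hv, E3.ev, dg, hz]
  | add a b iha ihb =>
    have h1 : ∀ (q : ℝ) (m n : ℕ), q ^ max m n = q ^ m * q ^ (n - m) := by
      intro q m n; rw [← pow_add]; congr 1; omega
    have h2 : ∀ (q : ℝ) (m n : ℕ), q ^ max m n = q ^ n * q ^ (m - n) := by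
      intro q m n; rw [← pow_add]; congr 1; omega
    have e1 : (dg (E3.add a b)).1 = max (dg a).1 (dg b).1 := rfl
    have e2 : (dg (E3.add a b)).2.1 = max (dg a).2.1 (dg b).2.1 := rfl
    have e3 : (dg (E3.add a b)).2.2 = max (dg a).2.2 (dg b).2.2 := rfl
    simp only [hv, Ops.hadd, Ops.lift, hv_deg, iha, ihb, E3.ev, e1, e2, e3, add_mul]
    simp only [ringOps]
    congr 1
    · rw [h1 p.dx, h1 p.dy, h1 p.dz]; ring
    · rw [h2 p.dx, h2 p.dy, h2 p.dz]; ring
  | mul a b iha ihb =>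
    have e1 : (dg (E3.mul a b)).1 = (dg a).1 + (dg b).1 := rfl
    have e2 : (dg (E3.mul a b)).2.1 = (dg a).2.1 + (dg b).2.1 := rfl
    have e3 : (dg (E3.mul a b)).2.2 = (dg a).2.2 + (dg b).2.2 := rfl
    simp only [hv, iha, ihb, E3.ev, e1, e2, e3, pow_add]
    simp only [ringOps]
    ring
  | pow a n iha =>
    have e1 : (dg (E3.pow a n)).1 = n * (dg a).1 := rfl
    have e2 : (dg (E3.pow a n)).2.1 = n * (dg a).2.1 := rfl
    have e3 : (dg (E3.pow a n)).2.2 = n * (dg a).2.2 := rfl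
    simp only [hv, iha, E3.ev, e1, e2, e3]
    simp only [ringOps]
    rw [mul_pow, mul_pow, mul_pow, ← pow_mul, ← pow_mul, ← pow_mul, mul_comm (dg a).1,
      mul_comm (dg a).2.1, mul_comm (dg a).2.2]

/-! ### majorisation -/

/-- operations on polynomials with natural coefficients, absolute values of the constants -/
noncomputable def hatOps : Ops (MvPolynomial (Fin 3) ℕ) := ⟨(· + ·), (· * ·), (· ^ ·), fun n => C n.natAbs⟩

/-- coefficientwise bound -/
def Maj (p : MvPolynomial (Fin 3) ℤ) (q : MvPolynomial (Fin 3) ℕ) : Prop :=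
  ∀ n : Fin 3 →₀ ℕ, |MvPolynomial.coeff n p| ≤ ((MvPolynomial.coeff n q : ℕ) : ℤ)

theorem Maj.add {p p' : MvPolynomial (Fin 3) ℤ} {q q' : MvPolynomial (Fin 3) ℕ} (h : Maj p q)
    (h' : Maj p' q') : Maj (p + p') (q + q') := by
  intro n
  rw [coeff_add, coeff_add, Nat.cast_add]
  exact (abs_add_le _ _).trans (add_le_add (h n) (h' n))

theorem Maj.mul {p p' : MvPolynomial (Fin 3) ℤ} {q q' : MvPolynomial (Fin 3) ℕ} (h : Maj p q)
    (h' : Maj p' q') : Maj (p * p') (q * q') := by
  intro n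
  rw [coeff_mul, coeff_mul, Nat.cast_sum]
  refine (abs_sum_le_sum_abs _ _).trans (sum_le_sum fun x _ => ?_)
  rw [abs_mul, Nat.cast_mul]
  exact mul_le_mul (h _) (h' _) (abs_nonneg _) (Int.natCast_nonneg _)

theorem Maj.C (n : ℤ) : Maj (MvPolynomial.C n) (MvPolynomial.C n.natAbs) := by
  intro m
  rw [coeff_C, coeff_C]
  split_ifs <;> simp

theorem Maj.X (i : Fin 3) : Maj (MvPolynomial.X i) (MvPolynomial.X i) := by
  intro m
  rw [coeff_X, coeff_X]
  split_ifs <;> simp

theorem Maj.pow {p : MvPolynomial (Fin 3) ℤ} {q : MvPolynomial (Fin 3) ℕ} (h : Maj p q) (n : ℕ) :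
    Maj (p ^ n) (q ^ n) := by
  induction n with
  | zero =>
    simp only [pow_zero]
    have := Maj.C 1
    simpa using this
  | succ n ih => rw [pow_succ, pow_succ]; exact ih.mul h

/-- majorisation of points -/
structure Pt.MajP (p : Pt (MvPolynomial (Fin 3) ℤ)) (q : Pt (MvPolynomial (Fin 3) ℕ)) : Prop where
  nx : Maj p.nx q.nx
  dx : Maj p.dx q.dx
  ny : Maj p.ny q.ny
  dy : Maj p.dy q.dy
  nz : Maj p.nz q.nz
  dz : Maj p.dz q.dz

theorem hv_maj {p : Pt (MvPolynomial (Fin 3) ℤ)} {q : Pt (MvPolynomial (Fin 3) ℕ)} (h : p.MajP q)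
    (e : E3) : Maj (hv (ringOps _) p e).1 (hv hatOps q e).1 := by
  induction e with
  | c n =>
    show Maj ((n : ℤ) : MvPolynomial (Fin 3) ℤ) (MvPolynomial.C n.natAbs)
    have : ((n : ℤ) : MvPolynomial (Fin 3) ℤ) = MvPolynomial.C n := by simp
    rw [this]; exact Maj.C n
  | x => exact h.nx
  | y => exact h.ny
  | z => exact h.nz
  | add a b iha ihb =>
    simp only [hv, Ops.hadd, Ops.lift, hv_deg]
    exact Maj.add (((iha.mul (h.dx.pow _)).mul (h.dy.pow _)).mul (h.dz.pow _))
      (((ihb.mul (h.dx.pow _)).mul (h.dy.pow _)).mul (h.dz.pow _))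
  | mul a b iha ihb => exact iha.mul ihb
  | pow a n iha => exact iha.pow n

/-- value at `(1, 1, 1)` -/
theorem hv_nat (q : Pt (MvPolynomial (Fin 3) ℕ)) (e : E3) :
    (hv natOps (q.map (MvPolynomial.eval fun _ => 1)) e).1 =
      MvPolynomial.eval (fun _ => 1) (hv hatOps q e).1 := by
  induction e with
  | c n => simp [hv, natOps, hatOps]
  | x => rfl
  | y => rfl
  | z => rfl
  | add a b iha ihb =>
    simp only [hv, Ops.hadd, Ops.lift, hv_deg, iha, ihb]
    simp only [natOps, hatOps, Pt.map, map_add, map_mul, map_pow]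
    rfl
  | mul a b iha ihb =>
    simp only [hv, iha, ihb]
    simp only [natOps, hatOps, map_mul]
    rfl
  | pow a n iha =>
    simp only [hv, iha]
    simp only [natOps, hatOps, map_pow]
    rfl

theorem coeff_le_eval_one (q : MvPolynomial (Fin 3) ℕ) (n : Fin 3 →₀ ℕ) :
    q.coeff n ≤ MvPolynomial.eval (fun _ => 1) q := by
  rw [MvPolynomial.eval_eq]
  simp only [one_pow, prod_const_one, mul_one]
  by_cases h : n ∈ q.support
  · exact single_le_sum (f := fun d => q.coeff d) (fun _ _ => Nat.zero_le _) h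
  · rw [notMem_support_iff.1 h]; exact Nat.zero_le _

end Crest.Agent.R163.Kr
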