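import Mathlib

/-!
# Row 163: scalar inequalities of the five levels A1..A5 (Poisson, `tau >= 0.885`)
-/

set_option autoImplicit false

namespace Crest.Agent.R163.Lev95

/-- scalar function of a level -/
noncomputable def sc (x nu g0 tau : ℝ) : ℝ :=
  1 - x + x * Real.log x - g0 * (1 - Real.exp (-tau)) + nu * tau

/-- upper bound of `exp (-t)` from a Taylor sum -/
theorem exp_neg_le {t r : ℝ} (ht : 0 ≤ t) (n : ℕ) (hr : 0 < r)
    (h : 1 ≤ r * ∑ i ∈ Finset.range n, t ^ i / (i.factorial : ℝ)) : Real.exp (-t) ≤ r := by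
  have h1 := Real.sum_le_exp_of_nonneg ht n
  rw [Real.exp_neg]
  have h2 : 0 < Real.exp t := Real.exp_pos t
  rw [inv_le_comm₀ h2 hr]
  have h3 : r⁻¹ ≤ ∑ i ∈ Finset.range n, t ^ i / (i.factorial : ℝ) := by
    rw [inv_le_iff_one_le_mul₀' hr]; exact h
  exact h3.trans h1

/-- upper bound of `log x`, `x < 1` -/
theorem log_le {x r : ℝ} (hx : 0 < x) (hr : 0 ≤ r) (hr1 : r ≤ 1) (n : ℕ) (hn : 0 < n)
    (h : x * (∑ m ∈ Finset.range n, r ^ m / (m.factorial : ℝ) +
      r ^ n * (n + 1) / (n.factorial * n)) ≤ 1) : Real.log x ≤ -r := by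
  rw [Real.log_le_iff_le_exp hx, Real.exp_neg]
  have h1 := Real.exp_bound' hr hr1 hn
  rw [le_inv_comm₀ hx (Real.exp_pos r)]
  have h2 : Real.exp r * x ≤ 1 := by
    have := mul_le_mul_of_nonneg_left h1 hx.le
    nlinarith
  rw [← one_div, le_div_iff₀ hx]
  exact h2

/-- convexity in `tau` -/
theorem sc_interval {x nu g0 K a b tau : ℝ} (hg : 0 ≤ g0) (ha : a ≤ tau) (hb : tau ≤ b)
    (h1 : sc x nu g0 a < K) (h2 : sc x nu g0 b < K) : sc x nu g0 tau < K := by
  rcases eq_or_lt_of_le (ha.trans hb) with hab | hab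
  · have : tau = a := le_antisymm (by rw [hab]; exact hb) ha
    rw [this]; exact h1
  · have hba : b - a ≠ 0 := (sub_pos.2 hab).ne'
    have hc := convexOn_exp.2 (Set.mem_univ (-a)) (Set.mem_univ (-b))
      (show 0 ≤ (b - tau) / (b - a) from div_nonneg (by linarith) (by linarith))
      (show 0 ≤ (tau - a) / (b - a) from div_nonneg (by linarith) (by linarith))
      (by field_simp; ring)
    have e1 : ((b - tau) / (b - a)) • (-a) + ((tau - a) / (b - a)) • (-b) = -tau := by
      simp only [smul_eq_mul]; field_simp; ring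
    rw [e1] at hc
    simp only [smul_eq_mul] at hc
    set w1 := (b - tau) / (b - a) with hw1
    set w2 := (tau - a) / (b - a) with hw2
    have w1n : 0 ≤ w1 := div_nonneg (by linarith) (by linarith)
    have w2n : 0 ≤ w2 := div_nonneg (by linarith) (by linarith)
    have w12 : w1 + w2 = 1 := by rw [hw1, hw2]; field_simp; ring
    have hτ : tau = w1 * a + w2 * b := by rw [hw1, hw2]; field_simp; ring
    unfold sc at h1 h2 ⊢
    have h3 := mul_le_mul_of_nonneg_left hc hg
    have h4 : w1 * (1 - x + x * Real.log x - g0 * (1 - Real.exp (-a)) + nu * a) +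
        w2 * (1 - x + x * Real.log x - g0 * (1 - Real.exp (-b)) + nu * b) < K := by
      have p1 := mul_le_mul_of_nonneg_left h1.le w1n
      have p2 := mul_le_mul_of_nonneg_left h2.le w2n
      rcases eq_or_lt_of_le w1n with hz | hz
      · have : w2 = 1 := by linarith
        rw [← hz, this]; linarith
      · have p1' := mul_lt_mul_of_pos_left h1 hz
        have : w1 * K + w2 * K = K := by rw [← add_mul, w12, one_mul]
        linarith
    have h5 : 1 - x + x * Real.log x - g0 * (1 - Real.exp (-tau)) + nu * tau ≤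
        w1 * (1 - x + x * Real.log x - g0 * (1 - Real.exp (-a)) + nu * a) +
        w2 * (1 - x + x * Real.log x - g0 * (1 - Real.exp (-b)) + nu * b) := by
      have e2 : w1 * (1 - x + x * Real.log x - g0 * (1 - Real.exp (-a)) + nu * a) +
        w2 * (1 - x + x * Real.log x - g0 * (1 - Real.exp (-b)) + nu * b) =
        (w1 + w2) * (1 - x + x * Real.log x - g0) + nu * (w1 * a + w2 * b) +
        g0 * (w1 * Real.exp (-a) + w2 * Real.exp (-b)) := by ring
      rw [e2, w12, ← hτ]
      linarith
    linarith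

theorem exp_885 : Real.exp (-(885 / 1000 : ℝ)) ≤ 41272 / 100000 :=
  exp_neg_le (by norm_num) 12 (by norm_num) (by norm_num [Finset.sum_range_succ, Nat.factorial])

theorem exp_1150 : Real.exp (-(1150 / 1000 : ℝ)) ≤ 31664 / 100000 :=
  exp_neg_le (by norm_num) 12 (by norm_num) (by norm_num [Finset.sum_range_succ, Nat.factorial])

theorem exp_1450 : Real.exp (-(1450 / 1000 : ℝ)) ≤ 23458 / 100000 :=
  exp_neg_le (by norm_num) 14 (by norm_num) (by norm_num [Finset.sum_range_succ, Nat.factorial])

theorem exp_1900 : Real.exp (-(1900 / 1000 : ℝ)) ≤ 14958 / 100000 :=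
  exp_neg_le (by norm_num) 14 (by norm_num) (by norm_num [Finset.sum_range_succ, Nat.factorial])

theorem exp_2800 : Real.exp (-(2800 / 1000 : ℝ)) ≤ 6082 / 100000 :=
  exp_neg_le (by norm_num) 16 (by norm_num) (by norm_num [Finset.sum_range_succ, Nat.factorial])

theorem log_A1 : Real.log (5719 / 10000) ≤ -(5587 / 10000) :=
  log_le (by norm_num) (by norm_num) (by norm_num) 8 (by norm_num)
    (by norm_num [Finset.sum_range_succ, Nat.factorial])

theorem log_A2 : Real.log (4987 / 10000) ≤ -(6956 / 10000) :=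
  log_le (by norm_num) (by norm_num) (by norm_num) 9 (by norm_num)
    (by norm_num [Finset.sum_range_succ, Nat.factorial])

theorem log_A3 : Real.log (4315 / 10000) ≤ -(8403 / 10000) :=
  log_le (by norm_num) (by norm_num) (by norm_num) 9 (by norm_num)
    (by norm_num [Finset.sum_range_succ, Nat.factorial])

theorem log_A4 : Real.log (3576 / 10000) ≤ -(1028 / 1000) := by
  have h1 : Real.log (598 / 1000) ≤ -(514 / 1000) :=
    log_le (by norm_num) (by norm_num) (by norm_num) 9 (by norm_num)
      (by norm_num [Finset.sum_range_succ, Nat.factorial])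
  have h2 : Real.log (3576 / 10000) ≤ Real.log ((598 / 1000) * (598 / 1000)) :=
    Real.log_le_log (by norm_num) (by norm_num)
  rw [Real.log_mul (by norm_num) (by norm_num)] at h2
  linarith

theorem log_A5 : Real.log (2201 / 10000) ≤ -(15 / 10) := by
  have h1 : Real.log (4692 / 10000) ≤ -(3 / 4) :=
    log_le (by norm_num) (by norm_num) (by norm_num) 9 (by norm_num)
      (by norm_num [Finset.sum_range_succ, Nat.factorial])
  have h2 : Real.log (2201 / 10000) ≤ Real.log ((4692 / 10000) * (4692 / 10000)) :=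
    Real.log_le_log (by norm_num) (by norm_num)
  rw [Real.log_mul (by norm_num) (by norm_num)] at h2
  linarith

theorem A1 {tau : ℝ} (h1 : 885 / 1000 ≤ tau) (h2 : tau ≤ 1150 / 1000) :
    sc (5719 / 10000) (1471 / 10000) (4158 / 10000) tau < -(510 / 100000) := by
  refine sc_interval (by norm_num) h1 h2 ?_ ?_
  · have := exp_885
    have := log_A1
    unfold sc; linarith
  · have := exp_1150
    have := log_A1
    unfold sc; linarith

theorem A2 {tau : ℝ} (h1 : 1150 / 1000 ≤ tau) (h2 : tau ≤ 1450 / 1000) :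
    sc (4987 / 10000) (1104 / 10000) (4161 / 10000) tau < -(195 / 100000) := by
  refine sc_interval (by norm_num) h1 h2 ?_ ?_
  · have := exp_1150
    have := log_A2
    unfold sc; linarith
  · have := exp_1450
    have := log_A2
    unfold sc; linarith

theorem A3 {tau : ℝ} (h1 : 1450 / 1000 ≤ tau) (h2 : tau ≤ 1900 / 1000) :
    sc (4315 / 10000) (770 / 10000) (4200 / 10000) tau < -(247 / 100000) := by
  refine sc_interval (by norm_num) h1 h2 ?_ ?_
  · have := exp_1450
    have := log_A3
    unfold sc; linarith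
  · have := exp_1900
    have := log_A3
    unfold sc; linarith

theorem A4 {tau : ℝ} (h1 : 1900 / 1000 ≤ tau) (h2 : tau ≤ 2800 / 1000) :
    sc (3576 / 10000) (406 / 10000) (4244 / 10000) tau < -(444 / 100000) := by
  refine sc_interval (by norm_num) h1 h2 ?_ ?_
  · have := exp_1900
    have := log_A4
    unfold sc; linarith
  · have := exp_2800
    have := log_A4
    unfold sc; linarith

theorem A5 {tau : ℝ} (h1 : 2800 / 1000 ≤ tau) :
    sc (2201 / 10000) (-(264 / 10000)) (4329 / 10000) tau < -(1753 / 100000) := by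
  have := exp_2800
  have := log_A5
  have h3 : Real.exp (-tau) ≤ Real.exp (-(2800 / 1000 : ℝ)) := Real.exp_le_exp.2 (by linarith)
  unfold sc; linarith

end Crest.Agent.R163.Lev95
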