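import Crest.Agent.R163.Anti

/-!
# Row 163: log-likelihood moments (large degree antiferromagnetic case)

Under the root spin `0`: `la = log v0 - (log v1 + log v2)/2` is additive, `lr = log v1 - log v2` is
additive and symmetric, so `E cos (θ lr)` is multiplicative.
-/

set_option autoImplicit false

namespace Crest.Agent.R163.Lg

open Finset Filter

/-- log ratio `log (v 1) - log (v 2)` -/
noncomputable def lr (v : Fin 3 → ℝ) : ℝ := Real.log (v 1) - Real.log (v 2)

/-- `log v0 - (log v1 + log v2)/2` -/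
noncomputable def la (v : Fin 3 → ℝ) : ℝ :=
  Real.log (v 0) - (Real.log (v 1) + Real.log (v 2)) / 2

/-- entries all positive or all zero -/
def PosZ (v : Fin 3 → ℝ) : Prop := (∀ a, 0 < v a) ∨ (∀ a, v a = 0)

/-- log-likelihood moments under the root spin `0` -/
structure Mo {ι : Type*} (w : ι → Fin 3 → ℝ) (θ L C : ℝ) : Prop where
  pos : ∀ i, PosZ (w i)
  h0 : HasSum (fun i => w i 0) 1
  hL : HasSum (fun i => w i 0 * la (w i)) L
  hC : HasSum (fun i => w i 0 * Real.cos (θ * lr (w i))) C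
  hS : HasSum (fun i => w i 0 * Real.sin (θ * lr (w i))) 0

theorem PosZ.nonneg {v : Fin 3 → ℝ} (h : PosZ v) (a : Fin 3) : 0 ≤ v a := by
  rcases h with h | h
  · exact (h a).le
  · rw [h a]

theorem hasSum_mul' {ι κ : Type*} {f : ι → ℝ} {g : κ → ℝ} {a b : ℝ} (hf : HasSum f a)
    (hg : HasSum g b) : HasSum (fun x : ι × κ => f x.1 * g x.2) (a * b) :=
  hf.mul hg (summable_mul_of_summable_norm hf.summable.norm hg.summable.norm)

theorem Mo.mul {ι κ : Type*} {w : ι → Fin 3 → ℝ} {v : κ → Fin 3 → ℝ} {θ L L' C C' : ℝ}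
    (hw : Mo w θ L C) (hv : Mo v θ L' C') : Mo (mul w v) θ (L + L') (C * C') := by
  refine ⟨fun i => ?_, ?_, ?_, ?_, ?_⟩
  · rcases hw.pos i.1 with h | h
    · rcases hv.pos i.2 with h' | h'
      · exact Or.inl fun a => mul_pos (h a) (h' a)
      · exact Or.inr fun a => by show w i.1 a * v i.2 a = 0; rw [h' a, mul_zero]
    · exact Or.inr fun a => by show w i.1 a * v i.2 a = 0; rw [h a, zero_mul]
  · have := hasSum_mul' hw.h0 hv.h0
    rw [mul_one] at this
    exact this
  · have h1 := (hasSum_mul' hw.hL hv.h0).add (hasSum_mul' hw.h0 hv.hL)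
    rw [mul_one, one_mul] at h1
    refine h1.congr_fun ?_
    intro x
    show w x.1 0 * v x.2 0 * la (fun a => w x.1 a * v x.2 a) =
      w x.1 0 * la (w x.1) * v x.2 0 + w x.1 0 * (v x.2 0 * la (v x.2))
    rcases hw.pos x.1 with h | h
    · rcases hv.pos x.2 with h' | h'
      · unfold la
        rw [Real.log_mul (h 0).ne' (h' 0).ne', Real.log_mul (h 1).ne' (h' 1).ne',
          Real.log_mul (h 2).ne' (h' 2).ne']
        ring
      · rw [h' 0]; ring
    · rw [h 0]; ring
  · have h1 := (hasSum_mul' hw.hC hv.hC).sub (hasSum_mul' hw.hS hv.hS)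
    rw [mul_zero, sub_zero] at h1
    refine h1.congr_fun ?_
    intro x
    show w x.1 0 * v x.2 0 * Real.cos (θ * lr (fun a => w x.1 a * v x.2 a)) =
      w x.1 0 * Real.cos (θ * lr (w x.1)) * (v x.2 0 * Real.cos (θ * lr (v x.2))) -
      w x.1 0 * Real.sin (θ * lr (w x.1)) * (v x.2 0 * Real.sin (θ * lr (v x.2)))
    rcases hw.pos x.1 with h | h
    · rcases hv.pos x.2 with h' | h'
      · have e : θ * lr (fun a => w x.1 a * v x.2 a) = θ * lr (w x.1) + θ * lr (v x.2) := by
          unfold lr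
          rw [Real.log_mul (h 1).ne' (h' 1).ne', Real.log_mul (h 2).ne' (h' 2).ne']
          ring
        rw [e, Real.cos_add]
        ring
      · rw [h' 0]; ring
    · rw [h 0]; ring
  · have h1 := (hasSum_mul' hw.hS hv.hC).add (hasSum_mul' hw.hC hv.hS)
    rw [zero_mul, mul_zero, add_zero] at h1
    refine h1.congr_fun ?_
    intro x
    show w x.1 0 * v x.2 0 * Real.sin (θ * lr (fun a => w x.1 a * v x.2 a)) =
      w x.1 0 * Real.sin (θ * lr (w x.1)) * (v x.2 0 * Real.cos (θ * lr (v x.2))) +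
      w x.1 0 * Real.cos (θ * lr (w x.1)) * (v x.2 0 * Real.sin (θ * lr (v x.2)))
    rcases hw.pos x.1 with h | h
    · rcases hv.pos x.2 with h' | h'
      · have e : θ * lr (fun a => w x.1 a * v x.2 a) = θ * lr (w x.1) + θ * lr (v x.2) := by
          unfold lr
          rw [Real.log_mul (h 1).ne' (h' 1).ne', Real.log_mul (h 2).ne' (h' 2).ne']
          ring
        rw [e, Real.sin_add]
        ring
      · rw [h' 0]; ring
    · rw [h 0]; ring

theorem Mo.reindex {ι κ : Type*} {w : ι → Fin 3 → ℝ} {v : κ → Fin 3 → ℝ} (e : κ ≃ ι)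
    (h : ∀ k, v k = w (e k)) {θ L C : ℝ} (hw : Mo w θ L C) : Mo v θ L C := by
  refine ⟨fun k => by rw [h]; exact hw.pos _, ?_, ?_, ?_, ?_⟩
  · refine (e.hasSum_iff.2 hw.h0).congr_fun ?_
    intro k; simp [h]
  · refine (e.hasSum_iff.2 hw.hL).congr_fun ?_
    intro k; simp [h]
  · refine (e.hasSum_iff.2 hw.hC).congr_fun ?_
    intro k; simp [h]
  · refine (e.hasSum_iff.2 hw.hS).congr_fun ?_
    intro k; simp [h]

theorem Mo.pw {ι : Type*} {w : ι → Fin 3 → ℝ} {θ L C : ℝ} (hw : Mo w θ L C) (c : ℕ) :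
    Mo (pw w c) θ (c * L) (C ^ c) := by
  induction c with
  | zero =>
    have e : ∀ f : Fin 0 → ι, R163.pw w 0 f = fun _ => (1 : ℝ) := by
      intro f; funext a; simp [R163.pw]
    refine ⟨fun i => Or.inl fun a => by rw [e]; norm_num, ?_, ?_, ?_, ?_⟩
    · have h := hasSum_unique (f := fun f : Fin 0 → ι => R163.pw w 0 f 0)
      simp only [e] at h ⊢
      exact h
    · have h := hasSum_unique (f := fun f : Fin 0 → ι => R163.pw w 0 f 0 * la (R163.pw w 0 f))
      simp only [e] at h ⊢
      simpa [la] using h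
    · have h := hasSum_unique
        (f := fun f : Fin 0 → ι => R163.pw w 0 f 0 * Real.cos (θ * lr (R163.pw w 0 f)))
      simp only [e] at h ⊢
      simpa [lr] using h
    · have h := hasSum_unique
        (f := fun f : Fin 0 → ι => R163.pw w 0 f 0 * Real.sin (θ * lr (R163.pw w 0 f)))
      simp only [e] at h ⊢
      simpa [lr] using h
  | succ c ih =>
    have h1 := ih.mul hw
    have e1 : ((c + 1 : ℕ) : ℝ) * L = (c : ℝ) * L + L := by push_cast; ring
    rw [e1, pow_succ]
    refine h1.reindex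
      (((Equiv.prodComm _ _).trans (Fin.snocEquiv (fun _ : Fin (c + 1) => ι))).symm) ?_
    intro k
    obtain ⟨p, rfl⟩ := ((Equiv.prodComm _ _).trans (Fin.snocEquiv (fun _ : Fin (c + 1) => ι))).surjective k
    rw [Equiv.symm_apply_apply]
    funext a
    simp [R163.pw, R163.mul, Fin.prod_univ_castSucc, Fin.snocEquiv]

end Crest.Agent.R163.Lg
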