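import Crest.Agent.R163.LgA

/-!
# Row 163: log-likelihood moments of one child; the potential inequality
-/

set_option autoImplicit false

namespace Crest.Agent.R163.Lg

open Finset Filter

/-- rotation of the coordinates -/
def rt (k : Fin 3) (v : Fin 3 → ℝ) : Fin 3 → ℝ := fun a => v (a + k)

/-- symmetrisation over the rotations -/
noncomputable def sy (F : (Fin 3 → ℝ) → ℝ) (v : Fin 3 → ℝ) : ℝ := (1 / 3) * ∑ k : Fin 3, F (rt k v)

theorem mass_rt (k : Fin 3) (v : Fin 3 → ℝ) : mass (rt k v) = mass v := by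
  unfold mass rt
  congr 1
  exact Equiv.sum_comp (Equiv.addRight k) v

/-- sums of a functional and of its symmetrisation agree on symmetric experiments -/
theorem hasSum_sy {ι : Type*} {w : ι → Fin 3 → ℝ} (hs : IsSymm w) {F : (Fin 3 → ℝ) → ℝ} {T : ℝ}
    (h : HasSum (fun i => F (w i)) T) : HasSum (fun i => sy F (w i)) T := by
  have h1 : ∀ k : Fin 3, HasSum (fun i => F (rt k (w i))) T := by
    intro k
    obtain ⟨e, he⟩ := hs (Equiv.addRight k)
    refine (e.hasSum_iff.2 h).congr_fun ?_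
    intro i
    show F (rt k (w i)) = F (w (e i))
    congr 1
    funext a
    rw [he]
    rfl
  have h2 := (hasSum_sum fun k (_ : k ∈ (Finset.univ : Finset (Fin 3))) => h1 k).mul_left (1 / 3 : ℝ)
  have e : (1 / 3 : ℝ) * ∑ _k : Fin 3, T = T := by
    simp
  rw [e] at h2
  exact h2

/-- `q = 1 - l u` : likelihood vector of one child -/
def qv (l : ℝ) (u : Fin 3 → ℝ) : Fin 3 → ℝ := fun a => 1 - l * u a

/-- one child: drift functional -/
noncomputable def JL (l : ℝ) (u : Fin 3 → ℝ) : ℝ := sy (fun v => v 0 * la v) (qv l u)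

/-- one child: `E cos` -/
noncomputable def CC (θ l : ℝ) (u : Fin 3 → ℝ) : ℝ :=
  sy (fun v => v 0 * Real.cos (θ * lr v)) (qv l u)

theorem ch_eq_qv {ι : Type*} (l : ℝ) {w : ι → Fin 3 → ℝ} (hw : IsExp w) (i : ι) :
    ch (-l) w i = fun a => mass (w i) * qv l (uv (w i)) a := by
  funext a
  show -l * w i a + (1 - -l) * mass (w i) = mass (w i) * (1 - l * uv (w i) a)
  rw [eq_mass_mul (by norm_num : 0 < 3) (w i) (hw.nonneg i) a]
  have : mass (fun a => mass (w i) * (1 + uv (w i) a)) = mass (w i) := by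
    congr 1
    funext a
    exact (eq_mass_mul (by norm_num : 0 < 3) (w i) (hw.nonneg i) a).symm
  ring

theorem la_smul {t : ℝ} (ht : 0 < t) {v : Fin 3 → ℝ} (hv : ∀ a, 0 < v a) :
    la (fun a => t * v a) = la v := by
  unfold la
  rw [Real.log_mul ht.ne' (hv 0).ne', Real.log_mul ht.ne' (hv 1).ne', Real.log_mul ht.ne' (hv 2).ne']
  ring

theorem lr_smul {t : ℝ} (ht : 0 < t) {v : Fin 3 → ℝ} (hv : ∀ a, 0 < v a) :
    lr (fun a => t * v a) = lr v := by
  unfold lr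
  rw [Real.log_mul ht.ne' (hv 1).ne', Real.log_mul ht.ne' (hv 2).ne']
  ring

theorem uv_le_two {v : Fin 3 → ℝ} (hv : ∀ a, 0 ≤ v a) (a : Fin 3) : uv v a ≤ 2 := by
  have := uv_le (by norm_num : 0 < 3) v hv a
  norm_num at this
  exact this

theorem qv_pos {l : ℝ} (h0 : 0 < l) (h1 : l < 1 / 2) {v : Fin 3 → ℝ} (hv : ∀ a, 0 ≤ v a)
    (a : Fin 3) : 0 < qv l (uv v) a := by
  unfold qv
  nlinarith [uv_le_two hv a]

theorem qv_le {l : ℝ} (h0 : 0 < l) (h1 : l < 1 / 2) {v : Fin 3 → ℝ} (hv : ∀ a, 0 ≤ v a)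
    (a : Fin 3) : qv l (uv v) a ≤ 3 / 2 := by
  unfold qv
  nlinarith [neg_one_le_uv v hv a]

theorem qv_ge {l : ℝ} (h0 : 0 < l) {v : Fin 3 → ℝ} (hv : ∀ a, 0 ≤ v a)
    (a : Fin 3) : 1 - 2 * l ≤ qv l (uv v) a := by
  unfold qv
  nlinarith [uv_le_two hv a]

theorem abs_log_le {x c : ℝ} (hc : 0 < c) (h : c ≤ x) (h2 : x ≤ 3 / 2) :
    |Real.log x| ≤ |Real.log c| + 1 := by
  have h3 : Real.log c ≤ Real.log x := Real.log_le_log hc h
  have h4 : Real.log x ≤ 1 := by
    have := Real.log_le_sub_one_of_pos (lt_of_lt_of_le hc h)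
    linarith
  rw [abs_le]
  constructor
  · have := neg_abs_le (Real.log c); linarith
  · have := abs_nonneg (Real.log c); linarith

private theorem ch_zero_of {ι : Type*} (l : ℝ) {w : ι → Fin 3 → ℝ} (hw : IsExp w) (i : ι)
    (hm : mass (w i) = 0) : ch (-l) w i = fun _ => (0 : ℝ) := by
  rw [ch_eq_qv l hw i, hm]
  funext a
  rw [zero_mul]

private theorem sy_ch {ι : Type*} {w : ι → Fin 3 → ℝ} (hw : IsExp w) {l : ℝ} (h0 : 0 < l)
    (h1 : l < 1 / 2) {g : (Fin 3 → ℝ) → ℝ}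
    (hg : ∀ t : ℝ, 0 < t → ∀ v : Fin 3 → ℝ, (∀ a, 0 < v a) → g (fun a => t * v a) = g v) (i : ι) :
    sy (fun v => v 0 * g v) (ch (-l) w i) =
      mass (w i) * sy (fun v => v 0 * g v) (qv l (uv (w i))) := by
  rcases (mass_nonneg (w i) (hw.nonneg i)).eq_or_lt with hm | hm
  · rw [ch_zero_of l hw i hm.symm, ← hm, zero_mul]
    unfold sy rt
    simp
  · rw [ch_eq_qv l hw i]
    unfold sy
    rw [mul_left_comm]
    congr 1
    rw [Finset.mul_sum]
    refine Finset.sum_congr rfl fun k _ => ?_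
    have e : rt k (fun a => mass (w i) * qv l (uv (w i)) a) =
        fun a => mass (w i) * rt k (qv l (uv (w i))) a := by
      funext a; rfl
    rw [e]
    show mass (w i) * rt k (qv l (uv (w i))) 0 * g (fun a => mass (w i) * rt k (qv l (uv (w i))) a) = _
    rw [hg _ hm (rt k (qv l (uv (w i)))) fun a => qv_pos h0 h1 (hw.nonneg i) _]
    ring

private theorem summable_ch {ι : Type*} {w : ι → Fin 3 → ℝ} (hw : IsExp w) {l : ℝ} (h0 : 0 < l)
    (h1 : l < 1 / 2) {g : (Fin 3 → ℝ) → ℝ}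
    (hg : ∀ t : ℝ, 0 < t → ∀ v : Fin 3 → ℝ, (∀ a, 0 < v a) → g (fun a => t * v a) = g v)
    {B : ℝ} (hB0 : 0 ≤ B)
    (hB : ∀ v : Fin 3 → ℝ, (∀ a, 1 - 2 * l ≤ v a) → (∀ a, v a ≤ 3 / 2) → |g v| ≤ B) :
    Summable (fun i => ch (-l) w i 0 * g (ch (-l) w i)) := by
  refine Summable.of_norm_bounded (g := fun i => (3 / 2 * B) * mass (w i))
    ((hw.hasSum_mass (by norm_num : 0 < 3)).summable.mul_left _) fun i => ?_
  rw [Real.norm_eq_abs]
  rcases (mass_nonneg (w i) (hw.nonneg i)).eq_or_lt with hm | hm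
  · rw [ch_zero_of l hw i hm.symm, ← hm]
    simp
  · rw [ch_eq_qv l hw i]
    show |mass (w i) * qv l (uv (w i)) 0 * g (fun a => mass (w i) * qv l (uv (w i)) a)| ≤ _
    rw [hg _ hm _ fun a => qv_pos h0 h1 (hw.nonneg i) a, abs_mul, abs_mul, abs_of_pos hm,
      abs_of_pos (qv_pos h0 h1 (hw.nonneg i) 0)]
    have h2 := hB (qv l (uv (w i))) (fun a => qv_ge h0 (hw.nonneg i) a)
      (fun a => qv_le h0 h1 (hw.nonneg i) a)
    have h3 := qv_le h0 h1 (hw.nonneg i) 0
    have h4 := qv_pos h0 h1 (hw.nonneg i) 0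
    calc mass (w i) * qv l (uv (w i)) 0 * |g (qv l (uv (w i)))|
        ≤ mass (w i) * (3 / 2) * B :=
          mul_le_mul (mul_le_mul_of_nonneg_left h3 hm.le) h2 (abs_nonneg _) (by positivity)
      _ = 3 / 2 * B * mass (w i) := by ring

private theorem hasSum_ch {ι : Type*} {w : ι → Fin 3 → ℝ} (hw : IsExp w) (hs : IsSymm w) {l : ℝ}
    (h0 : 0 < l) (h1 : l < 1 / 2) {g : (Fin 3 → ℝ) → ℝ}
    (hg : ∀ t : ℝ, 0 < t → ∀ v : Fin 3 → ℝ, (∀ a, 0 < v a) → g (fun a => t * v a) = g v)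
    {B : ℝ} (hB0 : 0 ≤ B)
    (hB : ∀ v : Fin 3 → ℝ, (∀ a, 1 - 2 * l ≤ v a) → (∀ a, v a ≤ 3 / 2) → |g v| ≤ B) :
    HasSum (fun i => ch (-l) w i 0 * g (ch (-l) w i))
      (Ex (fun v => mass v * sy (fun v => v 0 * g v) (qv l (uv v))) w) := by
  have hsum := (summable_ch hw h0 h1 hg hB0 hB).hasSum
  have h2 := hasSum_sy (F := fun v => v 0 * g v) (isSymm_ch (-l) hs) hsum
  have e : Ex (fun v => mass v * sy (fun v => v 0 * g v) (qv l (uv v))) w =
      ∑' i, ch (-l) w i 0 * g (ch (-l) w i) := by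
    rw [← h2.tsum_eq]
    unfold Ex
    exact tsum_congr fun i => (sy_ch hw h0 h1 hg i).symm
  rw [e]
  exact hsum

private theorem abs_la_le {l : ℝ} (h1 : l < 1 / 2) (v : Fin 3 → ℝ)
    (hv : ∀ a, 1 - 2 * l ≤ v a) (hv2 : ∀ a, v a ≤ 3 / 2) :
    |la v| ≤ 2 * (|Real.log (1 - 2 * l)| + 1) := by
  have hc : 0 < 1 - 2 * l := by linarith
  have b0 := abs_le.1 (abs_log_le hc (hv 0) (hv2 0))
  have b1 := abs_le.1 (abs_log_le hc (hv 1) (hv2 1))
  have b2 := abs_le.1 (abs_log_le hc (hv 2) (hv2 2))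
  unfold la
  rw [abs_le]
  constructor <;> linarith [b0.1, b0.2, b1.1, b1.2, b2.1, b2.2]

/-- moments of one child -/
theorem mo_ch {ι : Type*} {w : ι → Fin 3 → ℝ} (hw : IsExp w) (hs : IsSymm w) {l : ℝ} (h0 : 0 < l)
    (h1 : l < 1 / 2) (θ : ℝ) :
    Mo (ch (-l) w) θ (Ex (fun v => mass v * JL l (uv v)) w) (Ex (fun v => mass v * CC θ l (uv v)) w) := by
  have hE : IsExp (ch (-l) w) :=
    isExp_ch (by norm_num : 1 < 3) (by norm_num; linarith) (by linarith) hw
  refine ⟨fun i => ?_, hE.hasSum 0, ?_, ?_, ?_⟩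
  · rcases (mass_nonneg (w i) (hw.nonneg i)).eq_or_lt with hm | hm
    · right
      intro a
      rw [ch_zero_of l hw i hm.symm]
    · left
      intro a
      rw [ch_eq_qv l hw i]
      exact mul_pos hm (qv_pos h0 h1 (hw.nonneg i) a)
  · exact hasSum_ch hw hs h0 h1 (g := la) (fun t ht v hv => la_smul ht hv)
      (B := 2 * (|Real.log (1 - 2 * l)| + 1)) (by positivity) (fun v hv hv2 => abs_la_le h1 v hv hv2)
  · exact hasSum_ch hw hs h0 h1 (g := fun v => Real.cos (θ * lr v))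
      (fun t ht v hv => by
        show Real.cos (θ * lr (fun a => t * v a)) = Real.cos (θ * lr v)
        rw [lr_smul ht hv]) (B := 1) zero_le_one
      (fun v _ _ => Real.abs_cos_le_one _)
  · have hsum := summable_ch hw h0 h1 (g := fun v => Real.sin (θ * lr v))
      (fun t ht v hv => by
        show Real.sin (θ * lr (fun a => t * v a)) = Real.sin (θ * lr v)
        rw [lr_smul ht hv]) (B := 1) zero_le_one
      (fun v _ _ => Real.abs_sin_le_one _)
    obtain ⟨e, he⟩ := isSymm_ch (-l) hs (Equiv.swap 1 2)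
    have h2 : ∑' i, ch (-l) w i 0 * Real.sin (θ * lr (ch (-l) w i)) =
        ∑' i, -(ch (-l) w i 0 * Real.sin (θ * lr (ch (-l) w i))) := by
      rw [← e.tsum_eq (fun i => ch (-l) w i 0 * Real.sin (θ * lr (ch (-l) w i)))]
      refine tsum_congr fun i => ?_
      have e0 : ch (-l) w (e i) 0 = ch (-l) w i 0 := by
        rw [he]
        congr 1
      have e1 : ch (-l) w (e i) 1 = ch (-l) w i 2 := by
        rw [he, Equiv.swap_apply_left]
      have e2 : ch (-l) w (e i) 2 = ch (-l) w i 1 := by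
        rw [he, Equiv.swap_apply_right]
      have e3 : lr (ch (-l) w (e i)) = -lr (ch (-l) w i) := by
        unfold lr
        rw [e1, e2]
        ring
      rw [e0, e3, mul_neg, Real.sin_neg, mul_neg]
    rw [tsum_neg] at h2
    have h3 : ∑' i, ch (-l) w i 0 * Real.sin (θ * lr (ch (-l) w i)) = 0 := by linarith
    have h4 := hsum.hasSum
    rw [h3] at h4
    exact h4

/-- the potential functional under the root spin `0` -/
noncomputable def gf {k : ℕ} (wt θ : Fin k → ℝ) (v : Fin 3 → ℝ) : ℝ :=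
  v 0 * ((8 / 9) * la v - ∑ j, wt j * (1 - Real.cos (θ j * lr v)))

/-- the potential is below the moments -/
theorem Ex_le_of_mo {ι : Type*} {w : ι → Fin 3 → ℝ} (hw : IsExp w) (hs : IsSymm w) {k : ℕ}
    (wt θ : Fin k → ℝ) {L : ℝ} {C : Fin k → ℝ} (hM : ∀ j, Mo w (θ j) L (C j))
    (hL : HasSum (fun i => w i 0 * la (w i)) L) (hp : ∀ i, PosZ (w i))
    {P : (Fin 3 → ℝ) → ℝ} (hP : MBdd P) (hP0 : P (fun _ => 0) = 0)
    (hV : ∀ v, (∀ a, 0 < v a) → P v ≤ sy (gf wt θ) v) :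
    Ex P w ≤ (8 / 9) * L - ∑ j, wt j * (1 - C j) := by
  have h1 : HasSum (fun i => gf wt θ (w i)) ((8 / 9) * L - ∑ j, wt j * (1 - C j)) := by
    have h2 := (hL.mul_left (8 / 9)).sub (hasSum_sum fun j (_ : j ∈ (Finset.univ : Finset (Fin k))) =>
      ((hw.hasSum 0).sub (hM j).hC).mul_left (wt j))
    refine h2.congr_fun ?_
    intro i
    unfold gf
    rw [mul_sub, Finset.mul_sum]
    congr 1
    · ring
    · exact Finset.sum_congr rfl fun j _ => by ring
  have h2 := hasSum_sy hs h1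
  refine hasSum_le (fun i => ?_) (hw.summable (by norm_num) hP).hasSum h2
  rcases hp i with h | h
  · exact hV _ h
  · have e : w i = fun _ => (0 : ℝ) := funext h
    rw [e, hP0]
    have : sy (gf wt θ) (fun _ => 0) = 0 := by
      unfold sy rt gf
      simp
    rw [this]

end Crest.Agent.R163.Lg
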