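import Crest.Agent.R163.LgB

/-!
# Row 163: large degree antiferromagnetic case from pointwise inequalities
-/

set_option autoImplicit false

namespace Crest.Agent.R163.Lg

open Finset Filter

/-- the moment side of the certificate, one child, divided by `l ^ 2 = 1 / d` -/
noncomputable def Gl {k : ℕ} (wt θ : Fin k → ℝ) (l : ℝ) (u : Fin 3 → ℝ) : ℝ :=
  8 / 9 * (JL l u / l ^ 2) - ∑ j, wt j * (1 - Real.exp (-((1 - CC (θ j) l u) / l ^ 2)))

/-- points of the simplex, `u = 3 π - 1` -/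
def Simp (u : Fin 3 → ℝ) : Prop := ∑ a, u a = 0 ∧ ∀ a, -1 ≤ u a

/-- a pointwise certificate for all `0 < l ≤ l0` -/
structure CertL {k : ℕ} (wt θ : Fin k → ℝ) (l0 : ℝ) (pi : (Fin 3 → ℝ) → ℝ) (δ : ℝ) : Prop where
  wt_nonneg : ∀ j, 0 ≤ wt j
  l0_pos : 0 < l0
  l0_lt : l0 < 1 / 2
  bdd : ∃ B : ℝ, ∀ u, Simp u → |pi u| ≤ B
  hV : ∀ v : Fin 3 → ℝ, (∀ a, 0 < v a) → mass v * pi (uv v) ≤ sy (gf wt θ) v
  hC : ∀ j l, 0 < l → l ≤ l0 → ∀ u, Simp u → -(1 / 4) ≤ CC (θ j) l u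
  hG : ∀ l, 0 < l → l ≤ l0 → ∀ u, Simp u → Gl wt θ l u + δ * m2 u ^ 2 ≤ pi u

theorem simp_uv {v : Fin 3 → ℝ} (hv : ∀ a, 0 ≤ v a) (h : mass v ≠ 0) : Simp (uv v) :=
  ⟨sum_uv (by norm_num) v h, fun a => neg_one_le_uv v hv a⟩

theorem Simp.le_two {u : Fin 3 → ℝ} (h : Simp u) (a : Fin 3) : u a ≤ 2 := by
  obtain ⟨h1, h2⟩ := h
  rw [Fin.sum_univ_three] at h1
  have := h2 0; have := h2 1; have := h2 2
  fin_cases a
  · show u 0 ≤ 2; linarith
  · show u 1 ≤ 2; linarith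
  · show u 2 ≤ 2; linarith

private theorem lgc_sy_bdd {F : (Fin 3 → ℝ) → ℝ} {B l : ℝ}
    (hF : ∀ v : Fin 3 → ℝ, (∀ a, 1 - 2 * l ≤ v a) → (∀ a, v a ≤ 3 / 2) → |F v| ≤ B)
    {v : Fin 3 → ℝ} (h1 : ∀ a, 1 - 2 * l ≤ v a) (h2 : ∀ a, v a ≤ 3 / 2) : |sy F v| ≤ B := by
  unfold sy
  rw [abs_mul, abs_of_pos (by norm_num : (0 : ℝ) < 1 / 3), Fin.sum_univ_three]
  have e : ∀ k : Fin 3, |F (rt k v)| ≤ B := fun k => hF _ (fun a => h1 _) (fun a => h2 _)
  have := abs_add_three (F (rt 0 v)) (F (rt 1 v)) (F (rt 2 v))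
  have := e 0; have := e 1; have := e 2
  linarith

private theorem lgc_JL {l : ℝ} (h0 : 0 < l) (h1 : l < 1 / 2) {v : Fin 3 → ℝ} (hv : ∀ a, 0 ≤ v a) :
    |JL l (uv v)| ≤ 3 / 2 * (2 * (|Real.log (1 - 2 * l)| + 1)) := by
  unfold JL
  refine lgc_sy_bdd (l := l) ?_ (fun a => qv_ge h0 hv a) (fun a => qv_le h0 h1 hv a)
  intro x hx1 hx2
  have hc : 0 < 1 - 2 * l := by linarith
  have hb : ∀ a, |Real.log (x a)| ≤ |Real.log (1 - 2 * l)| + 1 := fun a =>
    abs_log_le hc (hx1 a) (hx2 a)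
  have hx0 : |x 0| ≤ 3 / 2 := by
    rw [abs_of_nonneg (le_trans hc.le (hx1 0))]; exact hx2 0
  have hla : |la x| ≤ 2 * (|Real.log (1 - 2 * l)| + 1) := by
    unfold la
    have b0 := abs_le.1 (hb 0); have b1 := abs_le.1 (hb 1); have b2 := abs_le.1 (hb 2)
    rw [abs_le]
    constructor <;> linarith [b0.1, b0.2, b1.1, b1.2, b2.1, b2.2]
  rw [abs_mul]
  exact mul_le_mul hx0 hla (abs_nonneg _) (by norm_num)

private theorem lgc_CC {θ l : ℝ} (h0 : 0 < l) (h1 : l < 1 / 2) {v : Fin 3 → ℝ}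
    (hv : ∀ a, 0 ≤ v a) : |CC θ l (uv v)| ≤ 3 / 2 := by
  unfold CC
  refine lgc_sy_bdd (l := l) ?_ (fun a => qv_ge h0 hv a) (fun a => qv_le h0 h1 hv a)
  intro x hx1 hx2
  have hc : 0 < 1 - 2 * l := by linarith
  have hx0 : |x 0| ≤ 3 / 2 := by
    rw [abs_of_nonneg (le_trans hc.le (hx1 0))]; exact hx2 0
  rw [abs_mul]
  calc |x 0| * |Real.cos (θ * lr x)| ≤ 3 / 2 * 1 :=
        mul_le_mul hx0 (Real.abs_cos_le_one _) (abs_nonneg _) (by norm_num)
    _ = 3 / 2 := by norm_num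

private theorem lgc_exp_bdd {θ l : ℝ} (h0 : 0 < l) (h1 : l < 1 / 2) {v : Fin 3 → ℝ}
    (hv : ∀ a, 0 ≤ v a) : |Real.exp (-((1 - CC θ l (uv v)) / l ^ 2))| ≤ Real.exp (1 / 2 / l ^ 2) := by
  rw [abs_of_pos (Real.exp_pos _)]
  refine Real.exp_le_exp.2 ?_
  have h2 := (abs_le.1 (lgc_CC (θ := θ) h0 h1 hv)).2
  rw [← neg_div]
  exact div_le_div_of_nonneg_right (by linarith) (by positivity)

/-- Jensen -/
private theorem lgc_jensen {θ l : ℝ} (h0 : 0 < l) (h1 : l < 1 / 2) {ι : Type}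
    {w : ι → Fin 3 → ℝ} (hw : IsExp w) :
    Real.exp ((Ex (fun v => mass v * CC θ l (uv v)) w - 1) / l ^ 2) ≤
      ∑' i, mass (w i) * Real.exp (-((1 - CC θ l (uv (w i))) / l ^ 2)) := by
  have hq : 0 < 3 := by norm_num
  have hl : (0 : ℝ) < l ^ 2 := by positivity
  have hCs : HasSum (fun i => mass (w i) * CC θ l (uv (w i)))
      (Ex (fun v => mass v * CC θ l (uv v)) w) :=
    (hw.summable hq (mbdd_of (fun u => CC θ l u) (3 / 2) (by norm_num)
      fun v hv _ => lgc_CC h0 h1 hv)).hasSum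
  have hEs : Summable (fun i => mass (w i) * Real.exp (-((1 - CC θ l (uv (w i))) / l ^ 2))) :=
    hw.summable hq (mbdd_of (fun u => Real.exp (-((1 - CC θ l u) / l ^ 2)))
      (Real.exp (1 / 2 / l ^ 2)) (Real.exp_pos _).le fun v hv _ => lgc_exp_bdd h0 h1 hv)
  have hmass := hw.hasSum_mass hq
  set M := Ex (fun v => mass v * CC θ l (uv v)) w with hM
  have h2 : HasSum (fun i => Real.exp ((M - 1) / l ^ 2) *
      (mass (w i) + (1 / l ^ 2) * (mass (w i) * CC θ l (uv (w i)) - M * mass (w i))))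
      (Real.exp ((M - 1) / l ^ 2) * (1 + (1 / l ^ 2) * (M - M * 1))) :=
    (hmass.add ((hCs.sub (hmass.mul_left M)).mul_left (1 / l ^ 2))).mul_left _
  have h3 : Real.exp ((M - 1) / l ^ 2) * (1 + (1 / l ^ 2) * (M - M * 1)) =
      Real.exp ((M - 1) / l ^ 2) := by ring
  rw [h3] at h2
  refine hasSum_le (fun i => ?_) h2 hEs.hasSum
  have hm := mass_nonneg (w i) (hw.nonneg i)
  have e1 : Real.exp (-((1 - CC θ l (uv (w i))) / l ^ 2)) =
      Real.exp ((M - 1) / l ^ 2) * Real.exp ((CC θ l (uv (w i)) - M) / l ^ 2) := by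
    rw [← Real.exp_add]; congr 1; ring
  have e2 := Real.add_one_le_exp ((CC θ l (uv (w i)) - M) / l ^ 2)
  have e3 := Real.exp_pos ((M - 1) / l ^ 2)
  rw [e1]
  calc Real.exp ((M - 1) / l ^ 2) *
        (mass (w i) + (1 / l ^ 2) * (mass (w i) * CC θ l (uv (w i)) - M * mass (w i)))
      = mass (w i) * (Real.exp ((M - 1) / l ^ 2) * ((CC θ l (uv (w i)) - M) / l ^ 2 + 1)) := by
        ring
    _ ≤ _ := mul_le_mul_of_nonneg_left (mul_le_mul_of_nonneg_left e2 e3.le) hm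

/-- the key inequality for symmetric experiments -/
theorem step_ineq {k : ℕ} {wt θ : Fin k → ℝ} {l0 : ℝ} {pi : (Fin 3 → ℝ) → ℝ} {δ : ℝ}
    (hc : CertL wt θ l0 pi δ) {l : ℝ} (h0 : 0 < l) (h1 : l ≤ l0) {ι : Type} {w : ι → Fin 3 → ℝ}
    (hw : IsExp w) :
    8 / 9 * (Ex (fun v => mass v * JL l (uv v)) w / l ^ 2) -
      ∑ j, wt j * (1 - Real.exp ((Ex (fun v => mass v * CC (θ j) l (uv v)) w - 1) / l ^ 2)) ≤
    Ex (fun v => mass v * pi (uv v)) w - δ * Ex fX2 w := by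
  have hq : 0 < 3 := by norm_num
  have h2 : l < 1 / 2 := lt_of_le_of_lt h1 hc.l0_lt
  have hmass := hw.hasSum_mass hq
  have hJs : HasSum (fun i => mass (w i) * JL l (uv (w i)))
      (Ex (fun v => mass v * JL l (uv v)) w) :=
    (hw.summable hq (mbdd_of (fun u => JL l u) _ (by positivity)
      fun v hv _ => lgc_JL h0 h2 hv)).hasSum
  have hEs : ∀ j, HasSum (fun i => mass (w i) * Real.exp (-((1 - CC (θ j) l (uv (w i))) / l ^ 2)))
      (∑' i, mass (w i) * Real.exp (-((1 - CC (θ j) l (uv (w i))) / l ^ 2))) := fun j =>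
    (hw.summable hq (mbdd_of (fun u => Real.exp (-((1 - CC (θ j) l u) / l ^ 2)))
      (Real.exp (1 / 2 / l ^ 2)) (Real.exp_pos _).le fun v hv _ => lgc_exp_bdd h0 h2 hv)).hasSum
  obtain ⟨B, hB⟩ := hc.bdd
  have hPs : HasSum (fun i => mass (w i) * pi (uv (w i)))
      (Ex (fun v => mass v * pi (uv v)) w) :=
    (hw.summable hq (mbdd_of pi (max B 0) (le_max_right _ _)
      fun v hv hm => (hB _ (simp_uv hv hm)).trans (le_max_left _ _))).hasSum
  have hXs : HasSum (fun i => fX2 (w i)) (Ex fX2 w) := (hw.summable hq (mbdd_fX2 hq)).hasSum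
  have hG : HasSum (fun i => 8 / 9 * (mass (w i) * JL l (uv (w i)) / l ^ 2) -
      ∑ j, wt j * (mass (w i) - mass (w i) * Real.exp (-((1 - CC (θ j) l (uv (w i))) / l ^ 2))))
      (8 / 9 * (Ex (fun v => mass v * JL l (uv v)) w / l ^ 2) -
        ∑ j, wt j * (1 - ∑' i, mass (w i) * Real.exp (-((1 - CC (θ j) l (uv (w i))) / l ^ 2)))) :=
    ((hJs.div_const (l ^ 2)).mul_left (8 / 9)).sub
      (hasSum_sum fun j (_ : j ∈ (Finset.univ : Finset (Fin k))) =>
        (hmass.sub (hEs j)).mul_left (wt j))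
  calc 8 / 9 * (Ex (fun v => mass v * JL l (uv v)) w / l ^ 2) -
      ∑ j, wt j * (1 - Real.exp ((Ex (fun v => mass v * CC (θ j) l (uv v)) w - 1) / l ^ 2))
      ≤ 8 / 9 * (Ex (fun v => mass v * JL l (uv v)) w / l ^ 2) -
        ∑ j, wt j * (1 - ∑' i, mass (w i) * Real.exp (-((1 - CC (θ j) l (uv (w i))) / l ^ 2))) := by
        refine sub_le_sub_left (Finset.sum_le_sum fun j _ => ?_) _
        refine mul_le_mul_of_nonneg_left ?_ (hc.wt_nonneg j)
        have := lgc_jensen (θ := θ j) h0 h2 hw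
        linarith
    _ ≤ Ex (fun v => mass v * pi (uv v)) w - δ * Ex fX2 w := by
        refine hasSum_le (fun i => ?_) hG (hPs.sub (hXs.mul_left δ))
        have hm := mass_nonneg (w i) (hw.nonneg i)
        have e : 8 / 9 * (mass (w i) * JL l (uv (w i)) / l ^ 2) -
            ∑ j, wt j * (mass (w i) - mass (w i) *
              Real.exp (-((1 - CC (θ j) l (uv (w i))) / l ^ 2))) =
            mass (w i) * Gl wt θ l (uv (w i)) := by
          unfold Gl
          rw [mul_sub, Finset.mul_sum]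
          congr 1
          · ring
          · exact Finset.sum_congr rfl fun j _ => by ring
        rw [e]
        unfold fX2
        by_cases hz : mass (w i) = 0
        · rw [hz]; simp
        · have h3 := hc.hG l h0 h1 (uv (w i)) (simp_uv (hw.nonneg i) hz)
          have h4 := mul_le_mul_of_nonneg_left h3 hm
          linarith

/-- `C ^ c ≤ exp (c (C - 1))` -/
theorem pow_le_exp {C : ℝ} (h : -(1 / 4) ≤ C) (h1 : C ≤ 1) (c : ℕ) :
    C ^ c ≤ Real.exp (c * (C - 1)) := by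
  have h2 : |C| ≤ Real.exp (C - 1) := by
    rw [abs_le]
    constructor
    · rcases le_total 0 C with hC | hC
      · have := Real.exp_pos (C - 1); linarith
      · have h3 : Real.exp (-(5/4)) ≤ Real.exp (C - 1) := Real.exp_le_exp.2 (by linarith)
        have h4 : (1 / 4 : ℝ) ≤ Real.exp (-(5/4)) := by
          rw [Real.exp_neg, one_div]
          refine inv_anti₀ (Real.exp_pos _) ?_
          have h5 : Real.exp (5/4) = Real.exp 1 ^ (5/4 : ℝ) := by
            rw [← Real.exp_mul]; norm_num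
          have h6 : Real.exp (5/4) ^ 4 ≤ (4:ℝ) ^ 4 := by
            rw [← Real.exp_nat_mul]
            have h7 : ((4 : ℕ) : ℝ) * (5 / 4) = ((5 : ℕ) : ℝ) * 1 := by norm_num
            rw [h7, Real.exp_nat_mul]
            have h8 := Real.exp_one_lt_d9
            have h9 := Real.exp_pos 1
            calc Real.exp 1 ^ 5 ≤ (2.7182818286 : ℝ) ^ 5 := by gcongr
              _ ≤ 4 ^ 4 := by norm_num
          exact le_of_pow_le_pow_left₀ (by norm_num) (by norm_num) h6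
        linarith
    · have := Real.add_one_le_exp (C - 1); linarith
  calc C ^ c ≤ |C ^ c| := le_abs_self _
    _ = |C| ^ c := abs_pow _ _
    _ ≤ Real.exp (C - 1) ^ c := pow_le_pow_left₀ (abs_nonneg _) h2 c
    _ = Real.exp (c * (C - 1)) := by rw [← Real.exp_nat_mul]

end Crest.Agent.R163.Lg
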