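import Mathlib

/-!
# Row 163, large degrees: the numerical inequalities of the certificate (statements)

`θ = 5/9`, `w = 18/25`, `a = 13/250`, `l ≤ 1/3`.
All are one-dimensional (except `t4_le`, two-dimensional) and have slack; see the hints.
-/

set_option autoImplicit false

namespace Crest.Agent.R163.Lg

/-- the polynomial `Q` -/
noncomputable def Qp (x : ℝ) : ℝ :=
  (402 * x ^ 4 - 81 * x ^ 5 + 149 * x ^ 6 - 85 * x ^ 7 + 43 * x ^ 8) / 10000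

/-- the polynomial `U(m, κ)` -/
noncomputable def Up (m k : ℝ) : ℝ :=
  (1288 * m ^ 2 - 3825 * m * k + 1657 * m ^ 3 + 40 * k ^ 2) / 1000

/-- `t^2`-part of one child: lower bound of `w (1 - cos)` -/
noncomputable def cl (s : ℝ) : ℝ := 4 / 9 * s + s ^ 2 / 4 + s ^ 3 / 6

/-- upper bound of `(log-part) / l^2` for `y = - l u` in terms of `u` -/
noncomputable def sl (l u : ℝ) : ℝ :=
  u ^ 2 + l * u ^ 3 / 2 + l ^ 2 * u ^ 4 / 3 + l ^ 3 * u ^ 5 / 4 + l ^ 4 * u ^ 6 / 5 +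
    l ^ 5 * u ^ 7 / 6 + 3 * l ^ 6 * u ^ 8 / 7

/-- one term of the lower bound `Z` -/
noncomputable def zt (m l u : ℝ) : ℝ :=
  4 / 9 * (2 * m - u ^ 2) * (1 / 4 - l * u / 2 + 7 * (l * u) ^ 2 / 16 - 5 * (l * u) ^ 3 / 16 +
    (l * u) ^ 4 * (1 / 5 - 3 * (l * u) / 20)) +
  3 / 4 * l ^ 2 * (2 * m - u ^ 2) ^ 2 * ((1 - 3 * (l * u) + 62 / 25 * (l * u) ^ 2) / 16) +
  3 / 2 * l ^ 4 * (2 * m - u ^ 2) ^ 3 * ((1 - 4 * (l * u)) / 64)

/-- lower bound of `w (1 - exp (-Z/w))` -/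
noncomputable def Pz (Z : ℝ) : ℝ := Z - 25 / 36 * Z ^ 2 + 73 / 250 * Z ^ 3 - 17 / 250 * Z ^ 4

end Crest.Agent.R163.Lg
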