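import Crest.Agent.R163.LgC

/-!
# Row 163: large degrees, limit argument (helper39)
-/

set_option autoImplicit false

namespace Crest.Agent.R163.Lg

open Finset Filter

theorem sum_qv {l : ℝ} {u : Fin 3 → ℝ} (hu : Simp u) : qv l u 0 + qv l u 1 + qv l u 2 = 3 := by
  have h := hu.1
  rw [Fin.sum_univ_three] at h
  unfold qv
  linear_combination -l * h

theorem qv_pos' {l : ℝ} (h0 : 0 < l) (h1 : l < 1 / 2) {u : Fin 3 → ℝ} (hu : Simp u) (a : Fin 3) :
    0 < qv l u a := by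
  unfold qv
  nlinarith [hu.le_two a]

theorem abs_CC_le {l : ℝ} (h0 : 0 < l) (h1 : l < 1 / 2) (θ : ℝ) {u : Fin 3 → ℝ} (hu : Simp u) :
    |CC θ l u| ≤ 1 := by
  have hq := qv_pos' h0 h1 hu
  have hs := sum_qv (l := l) hu
  unfold CC sy
  rw [abs_mul, abs_of_pos (by norm_num : (0 : ℝ) < 1 / 3)]
  have h2 : |∑ k : Fin 3, rt k (qv l u) 0 * Real.cos (θ * lr (rt k (qv l u)))| ≤
      ∑ k : Fin 3, rt k (qv l u) 0 := by
    refine (Finset.abs_sum_le_sum_abs _ _).trans (Finset.sum_le_sum fun k _ => ?_)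
    rw [abs_mul]
    have h3 : 0 ≤ rt k (qv l u) 0 := (hq _).le
    rw [abs_of_nonneg h3]
    have h4 := Real.abs_cos_le_one (θ * lr (rt k (qv l u)))
    nlinarith
  have h5 : ∑ k : Fin 3, rt k (qv l u) 0 = 3 := by
    rw [← hs]
    unfold rt
    simp [Fin.sum_univ_three]
  rw [h5] at h2
  linarith

theorem homog_pi (pi : (Fin 3 → ℝ) → ℝ) : Homog (fun v : Fin 3 → ℝ => mass v * pi (uv v)) :=
  homog_of pi

theorem mbdd_pi {pi : (Fin 3 → ℝ) → ℝ} (h : ∃ B : ℝ, ∀ u, Simp u → |pi u| ≤ B) :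
    MBdd (fun v : Fin 3 → ℝ => mass v * pi (uv v)) := by
  obtain ⟨B, hB⟩ := h
  refine mbdd_of pi (max B 0) (le_max_right _ _) fun v hv hm => ?_
  exact (hB _ (simp_uv hv hm)).trans (le_max_left _ _)

/-- one step: `c` children -/
theorem child_le {k : ℕ} {wt θ : Fin k → ℝ} {l0 : ℝ} {pi : (Fin 3 → ℝ) → ℝ} {δ : ℝ}
    (hc : CertL wt θ l0 pi δ) {l : ℝ} (h0 : 0 < l) (h1 : l ≤ l0) {ι : Type} {w : ι → Fin 3 → ℝ}
    (hw : IsExp w) (hs : IsSymm w) (c : ℕ) :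
    Ex (fun v => mass v * pi (uv v)) (pw (ch (-l) w) c) ≤
      8 / 9 * (c * Ex (fun v => mass v * JL l (uv v)) w) -
      ∑ j, wt j * (1 - Ex (fun v => mass v * CC (θ j) l (uv v)) w ^ c) := by
  have hl : l < 1 / 2 := lt_of_le_of_lt h1 hc.l0_lt
  have hE : IsExp (ch (-l) w) := isExp_ch (by norm_num) (by push_cast; linarith) (by linarith) hw
  have h2 := (mo_ch hw hs h0 hl 0).pw c
  exact Ex_le_of_mo (isExp_pw hE c) (isSymm_pw (isSymm_ch _ hs) c) wt θ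
    (fun j => (mo_ch hw hs h0 hl (θ j)).pw c) h2.hL h2.pos (mbdd_pi hc.bdd)
    (by simp [mass]) hc.hV

theorem Ex_CC_bounds {k : ℕ} {wt θ : Fin k → ℝ} {l0 : ℝ} {pi : (Fin 3 → ℝ) → ℝ} {δ : ℝ}
    (hc : CertL wt θ l0 pi δ) {l : ℝ} (h0 : 0 < l) (h1 : l ≤ l0) {ι : Type} {w : ι → Fin 3 → ℝ}
    (hw : IsExp w) (j : Fin k) :
    -(1 / 4) ≤ Ex (fun v => mass v * CC (θ j) l (uv v)) w ∧
      Ex (fun v => mass v * CC (θ j) l (uv v)) w ≤ 1 := by
  have hl : l < 1 / 2 := lt_of_le_of_lt h1 hc.l0_lt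
  have hb : MBdd (fun v : Fin 3 → ℝ => mass v * CC (θ j) l (uv v)) :=
    mbdd_of _ 1 zero_le_one fun v hv hm => abs_CC_le h0 hl _ (simp_uv hv hm)
  have hsum := (hw.summable (by norm_num) hb).hasSum
  have hm := hw.hasSum_mass (by norm_num : 0 < 3)
  constructor
  · have h2 := hm.mul_left (-(1 / 4) : ℝ)
    rw [mul_one] at h2
    refine hasSum_le (fun i => ?_) h2 hsum
    by_cases h : mass (w i) = 0
    · simp [h]
    · have h3 := hc.hC j l h0 h1 _ (simp_uv (hw.nonneg i) h)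
      have h4 := mass_nonneg _ (hw.nonneg i)
      nlinarith
  · refine hasSum_le (fun i => ?_) hsum hm
    by_cases h : mass (w i) = 0
    · simp [h]
    · have h3 := (abs_le.1 (abs_CC_le h0 hl (θ j) (simp_uv (hw.nonneg i) h))).2
      have h4 := mass_nonneg _ (hw.nonneg i)
      nlinarith

theorem inv_sqrt_facts {l0 d : ℝ} (h0 : 0 < l0) (h1 : l0 < 1 / 2) (hd : 1 / l0 ^ 2 ≤ d) :
    0 < 1 / Real.sqrt d ∧ 1 / Real.sqrt d ≤ l0 ∧ (1 / Real.sqrt d) ^ 2 = 1 / d ∧ 4 ≤ d := by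
  have h2 : 0 < l0 ^ 2 := by positivity
  have hd4 : 4 ≤ d := by
    refine le_trans ?_ hd
    rw [le_div_iff₀ h2]
    nlinarith
  have hd0 : 0 < d := by linarith
  have hs : 0 < Real.sqrt d := Real.sqrt_pos.2 hd0
  refine ⟨by positivity, ?_, ?_, hd4⟩
  · rw [div_le_iff₀ hs]
    have h3 : 1 ≤ (l0 * Real.sqrt d) ^ 2 := by
      rw [mul_pow, Real.sq_sqrt hd0.le]
      rw [div_le_iff₀ h2] at hd
      linarith
    have h4 : 0 ≤ l0 * Real.sqrt d := by positivity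
    nlinarith
  · rw [div_pow, Real.sq_sqrt hd0.le, one_pow]

theorem antiPoi_of_certL {k : ℕ} {wt θ : Fin k → ℝ} {l0 : ℝ} {pi : (Fin 3 → ℝ) → ℝ} {δ : ℝ}
    (hδ : 0 < δ) (hc : CertL wt θ l0 pi δ) (d : ℝ) (hd : 1 / l0 ^ 2 ≤ d) : AntiPoi d := by
  obtain ⟨hl0, hl1, hl2, hd4⟩ := inv_sqrt_facts hc.l0_pos hc.l0_lt hd
  have hd0 : 0 ≤ d := by linarith
  set l := 1 / Real.sqrt d with hl
  have hlb := lam_bounds hd4
  have hproc := isProcess_GW 3 (by norm_num) (-l) d hd0 hlb.1 hlb.2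
  have hP := mbdd_pi hc.bdd
  obtain ⟨B, hB0, hB⟩ := hP
  unfold AntiPoi
  refine tendsto_X_of_potential (by norm_num) hproc.isExp
    (fun n => Ex (fun v => mass v * pi (uv v)) (wGW 3 (-l) d n)) (-B) δ hδ
    (fun n => (abs_le.1 (abs_Ex_le (by norm_num) (hproc.isExp n) hB0 hB)).1) fun n => ?_
  have hw := hproc.isExp n
  have hsy := hproc.isSymm n
  have hE := isExp_ch (by norm_num) hlb.1 hlb.2 hw
  rw [hproc.succ n _ (homog_pi pi) ⟨B, hB0, hB⟩]
  have hp0 := pPoi_nonneg d hd0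
  have hsL : Summable fun c => pPoi d c *
      Ex (fun v => mass v * pi (uv v)) (pw (ch (-l) (wGW 3 (-l) d n)) c) := by
    refine Summable.of_norm_bounded (g := fun c => pPoi d c * B)
      ((hasSum_pPoi d).summable.mul_right B) fun c => ?_
    rw [Real.norm_eq_abs, abs_mul, abs_of_nonneg (hp0 c)]
    exact mul_le_mul_of_nonneg_left (abs_Ex_le (by norm_num) (isExp_pw hE c) hB0 hB) (hp0 c)
  set L := Ex (fun v => mass v * JL l (uv v)) (wGW 3 (-l) d n) with hL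
  set C : Fin k → ℝ := fun j => Ex (fun v => mass v * CC (θ j) l (uv v)) (wGW 3 (-l) d n) with hC
  have hexp : ∀ j, HasSum (fun c => pPoi d c * C j ^ c) (Real.exp (d * (C j - 1))) := by
    intro j
    have h : HasSum (fun c : ℕ => (d * C j) ^ c / (Nat.factorial c)) (Real.exp (d * C j)) := by
      rw [Real.exp_eq_exp_ℝ]
      exact NormedSpace.expSeries_div_hasSum_exp (𝔸 := ℝ) (d * C j)
    have h2 := h.mul_left (Real.exp (-d))
    rw [← Real.exp_add] at h2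
    have e : -d + d * C j = d * (C j - 1) := by ring
    rw [e] at h2
    refine h2.congr_fun ?_
    intro c
    unfold pPoi
    rw [mul_pow]; ring
  have hR : HasSum (fun c : ℕ => pPoi d c * (8 / 9 * (c * L) - ∑ j, wt j * (1 - C j ^ c)))
      (8 / 9 * (d * L) - ∑ j, wt j * (1 - Real.exp (d * (C j - 1)))) := by
    have h1 := ((hasSum_mul_pPoi d).mul_right L).mul_left (8 / 9)
    have h2 := hasSum_sum fun j (_ : j ∈ (Finset.univ : Finset (Fin k))) =>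
      ((hasSum_pPoi d).sub (hexp j)).mul_left (wt j)
    refine (h1.sub h2).congr_fun ?_
    intro c
    rw [mul_sub, Finset.mul_sum]
    congr 1
    · ring
    · exact Finset.sum_congr rfl fun j _ => by ring
  have h3 := hasSum_le (fun c => mul_le_mul_of_nonneg_left (child_le hc hl0 hl1 hw hsy c) (hp0 c))
    hsL.hasSum hR
  have h4 := step_ineq hc hl0 hl1 hw
  have e1 : ∀ x : ℝ, x / l ^ 2 = d * x := by
    intro x
    rw [hl2]
    field_simp
  simp only [e1] at h4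
  exact h3.trans h4

theorem antiReg_of_certL {k : ℕ} {wt θ : Fin k → ℝ} {l0 : ℝ} {pi : (Fin 3 → ℝ) → ℝ} {δ : ℝ}
    (hδ : 0 < δ) (hc : CertL wt θ l0 pi δ) (b : ℕ) (hb : 1 / l0 ^ 2 ≤ (b : ℝ)) : AntiReg b := by
  obtain ⟨hl0, hl1, hl2, hd4⟩ := inv_sqrt_facts hc.l0_pos hc.l0_lt hb
  set l := 1 / Real.sqrt b with hl
  have hlb := lam_bounds hd4
  have hproc := isProcess_reg 3 b (by norm_num) (-l) hlb.1 hlb.2
  have hP := mbdd_pi hc.bdd
  obtain ⟨B, hB0, hB⟩ := hP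
  unfold AntiReg
  refine tendsto_X_of_potential (by norm_num) hproc.isExp
    (fun n => Ex (fun v => mass v * pi (uv v)) (wReg 3 b (-l) n)) (-B) δ hδ
    (fun n => (abs_le.1 (abs_Ex_le (by norm_num) (hproc.isExp n) hB0 hB)).1) fun n => ?_
  have hw := hproc.isExp n
  have hsy := hproc.isSymm n
  have hE := isExp_ch (by norm_num) hlb.1 hlb.2 hw
  rw [hproc.succ n _ (homog_pi pi) ⟨B, hB0, hB⟩, tsum_eq_single b]
  swap
  · intro c hcb
    unfold pReg; simp [hcb]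
  have e0 : pReg b b = 1 := by unfold pReg; simp
  rw [e0, one_mul]
  have h3 := child_le hc hl0 hl1 hw hsy b
  have h4 := step_ineq hc hl0 hl1 hw
  have e1 : ∀ x : ℝ, x / l ^ 2 = b * x := by
    intro x
    rw [hl2]
    field_simp
  simp only [e1] at h4
  refine le_trans (h3.trans ?_) h4
  have h5 : ∑ j, wt j * (1 - Real.exp (b * (Ex (fun v => mass v * CC (θ j) l (uv v))
      (wReg 3 b (-l) n) - 1))) ≤
      ∑ j, wt j * (1 - Ex (fun v => mass v * CC (θ j) l (uv v)) (wReg 3 b (-l) n) ^ b) := by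
    refine Finset.sum_le_sum fun j _ => mul_le_mul_of_nonneg_left ?_ (hc.wt_nonneg j)
    obtain ⟨h6, h7⟩ := Ex_CC_bounds hc hl0 hl1 hw j
    linarith [pow_le_exp h6 h7 b]
  linarith

end Crest.Agent.R163.Lg
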