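import Crest.Agent.R163.Basic

/-!
# Row 163 (Main1, piece R163_MAIN1): the main argument in the ferromagnetic case (`0 ≤ lam < 1`)

Let `x n = X (w n)`, `C 0 = q - 1`, `C (n+1) = d lam² ((1-lam) x n + lam C n)`.

(a) `gain P (w n) ≤ C n` for all `P` with `0 ≤ KK P` (induction on `n`; P_{n+1} is a mixture of
    powers of `T_lam P_n`, `gain P (Q^(c+1)) = gain P (Q^c) + gain (P*Q^c) Q`, and `gain_ch_le`).
(b) `x n = gain triv (w n) ≤ C n`, so `C` is nonincreasing when `d lam² ≤ 1`; limit `L`.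
(c) `x n ≥ (C (n+1) - lam C n)/(1-lam) → L` (if `d lam² ≤ 1`), so `x n → L`.
(d) `x (n+1) ≤ C (n+1) - (∑_{c ≥ 2} p c) lam² (1-lam) x n KK(T_lam w_n)/(q-1)` and
    `KK (T_lam w_n) ≥ lam³ (1-lam) (x n)²`, so `L ≤ L - δ L³`, `L = 0` (for `lam = 0` trivially 0).
-/

set_option autoImplicit false

namespace Crest.Agent.R163

open Finset Filter

variable {q : ℕ}

/-- `KK perfect ≥ 0` (it equals `(q-1)`) (piece R163_MAIN1) -/
theorem KK_perfect (hq : q = 3 ∨ q = 4) : 0 ≤ KK (perfect q) := by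
  rcases hq with rfl | rfl
  · have h : KK (perfect 3) = 2 := by
      unfold KK Ex
      rw [tsum_fintype]
      simp [fK, kf, m2, m3, uv, mass, perfect, Fin.sum_univ_three]
      norm_num
    rw [h]; norm_num
  · have h : KK (perfect 4) = 3 := by
      unfold KK Ex
      rw [tsum_fintype]
      simp [fK, kf, m2, m3, uv, mass, perfect, Fin.sum_univ_four]
      norm_num
    rw [h]; norm_num

theorem X_nonneg {κ : Type*} {P : κ → Fin q → ℝ} (hP : IsExp P) : 0 ≤ X P :=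
  tsum_nonneg fun i => fX_nonneg _ (hP.nonneg i)

theorem X_le (hq : 1 < q) {κ : Type*} {P : κ → Fin q → ℝ} (hP : IsExp P) : X P ≤ q - 1 := by
  have hq0 : 0 < q := by omega
  have h1 := (hP.hasSum_mass hq0).mul_left ((q : ℝ) - 1)
  have h2 : X P ≤ ∑' i, ((q : ℝ) - 1) * mass (P i) := by
    unfold X Ex
    exact (hP.summable hq0 (mbdd_fX hq0)).tsum_le_tsum
      (fun i => fX_le hq0 _ (hP.nonneg i)) h1.summable
  rw [h1.tsum_eq, mul_one] at h2
  exact h2

/-- `gain P Q ≤ q - 1` (piece R163_MAIN1) -/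
theorem gain_le (hq : 1 < q) {κ ι : Type*} {P : κ → Fin q → ℝ} (hP : IsExp P)
    {Q : ι → Fin q → ℝ} (hQ : IsExp Q) : gain P Q ≤ q - 1 := by
  unfold gain
  have h1 := X_le hq (isExp_mul hP hQ)
  have h2 := X_nonneg hP
  linarith

end Crest.Agent.R163
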