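import Crest.Agent.R163.Gain
import Crest.Agent.R163.KMul
import Crest.Agent.R163.Main1

/-!
# Row 163 (Main2, piece R163_MAIN2): the main argument in the ferromagnetic case (`0 ≤ lam < 1`)

Let `x n = X (w n)`, `C 0 = q - 1`, `C (n+1) = d lam² ((1-lam) x n + lam C n)`.

(a) `gain P (w n) ≤ C n` for all `P` with `0 ≤ KK P` (induction on `n`; P_{n+1} is a mixture of
    powers of `T_lam P_n`, `gain P (Q^(c+1)) = gain P (Q^c) + gain (P*Q^c) Q`, and `gain_ch_le`).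
(b) `x n = gain triv (w n) ≤ C n`, so `C` is nonincreasing when `d lam² ≤ 1`; limit `L`.
(c) `x n ≥ (C (n+1) - lam C n)/(1-lam) → L` (if `d lam² ≤ 1`), so `x n → L`.
(d) `x (n+1) ≤ C (n+1) - (∑_{c ≥ 2} p c) lam² (1-lam) x n KK(T_lam w_n)/(q-1)` and
    `KK (T_lam w_n) ≥ lam³ (1-lam) (x n)²`, so `L ≤ L - δ L³`, `L = 0` (for `lam = 0` trivially 0).

`gain P (pw Q (c+1)) = gain P (pw Q c) + gain (mul P (pw Q c)) Q` (`Ex_pw_succ` inside `mul`,
`Ex_mul_assoc`), `KK (pw Q c) ≥ 0` by induction (`KK_mul_nonneg`), for `c = 0` the trivial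
experiment: `KK = 0`, `gain P triv = 0`.
-/

set_option autoImplicit false

namespace Crest.Agent.R163

open Finset Filter

variable {q : ℕ}

theorem fK_one (hq : 0 < q) : fK (fun _ : Fin q => (1 : ℝ)) = 0 := by
  have hq' : (q : ℝ) ≠ 0 := by exact_mod_cast hq.ne'
  have hm : mass (fun _ : Fin q => (1 : ℝ)) = 1 := by
    unfold mass
    simp only [Finset.sum_const, Finset.card_univ, Fintype.card_fin, nsmul_eq_mul, mul_one]
    field_simp
  have hu : uv (fun _ : Fin q => (1 : ℝ)) = fun _ => 0 := by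
    funext a
    unfold uv
    rw [hm]; norm_num
  unfold fK kf m2 m3
  rw [hu]
  simp

theorem KK_pw_nonneg (hq : q = 3 ∨ q = 4) {ι : Type} {Q : ι → Fin q → ℝ} (hQ : IsExp Q)
    (hs : IsSymm Q) (hKQ : 0 ≤ KK Q) (c : ℕ) : 0 ≤ KK (pw Q c) := by
  have hq0 : 0 < q := by rcases hq with h | h <;> omega
  induction c with
  | zero =>
    unfold KK
    rw [Ex_pw_zero, fK_one hq0]
  | succ c ih =>
    have h1 : KK (pw Q (c + 1)) = KK (mul (pw Q c) Q) := Ex_pw_succ Q fK c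
    rw [h1]
    exact KK_mul_nonneg hq (isExp_pw hQ c) hQ hs ih hKQ

theorem Ex_mul_pw_zero {κ ι : Type} (P : κ → Fin q → ℝ) (Q : ι → Fin q → ℝ)
    (F : (Fin q → ℝ) → ℝ) : Ex F (mul P (pw Q 0)) = Ex F P := by
  unfold Ex
  rw [← (Equiv.prodUnique κ (Fin 0 → ι)).tsum_eq (fun k => F (P k))]
  refine tsum_congr fun p => ?_
  congr 1
  funext a
  simp [mul, pw]

theorem Ex_mul_pw_succ {κ ι : Type} (P : κ → Fin q → ℝ) (Q : ι → Fin q → ℝ)
    (F : (Fin q → ℝ) → ℝ) (c : ℕ) :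
    Ex F (mul P (pw Q (c + 1))) = Ex F (mul (mul P (pw Q c)) Q) := by
  rw [Ex_mul_assoc]
  unfold Ex
  rw [← (Equiv.prodCongr (Equiv.refl κ) ((Equiv.prodComm (Fin c → ι) ι).trans
    (Fin.snocEquiv (fun _ : Fin (c + 1) => ι)))).tsum_eq
    (fun f => F (mul P (pw Q (c + 1)) f))]
  refine tsum_congr fun p => ?_
  congr 1
  funext a
  simp [pw, mul, Fin.prod_univ_castSucc, Fin.snocEquiv]

/-- gain of a power (piece R163_MAIN2), induction on `c` -/
theorem gain_pw_le (hq : q = 3 ∨ q = 4) {κ ι : Type} {P : κ → Fin q → ℝ} (hP : IsExp P)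
    (hK : 0 ≤ KK P) {Q : ι → Fin q → ℝ} (hQ : IsExp Q) (hs : IsSymm Q) (hKQ : 0 ≤ KK Q) (B : ℝ)
    (h : ∀ (κ' : Type) (P' : κ' → Fin q → ℝ), IsExp P' → 0 ≤ KK P' → gain P' Q ≤ B) (c : ℕ) :
    gain P (pw Q c) ≤ c * B := by
  induction c with
  | zero =>
    unfold gain X
    rw [Ex_mul_pw_zero]
    simp
  | succ c ih =>
    have h1 : X (mul P (pw Q (c + 1))) = X (mul (mul P (pw Q c)) Q) := Ex_mul_pw_succ P Q fX c
    have h2 : gain P (pw Q (c + 1)) = gain P (pw Q c) + gain (mul P (pw Q c)) Q := by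
      unfold gain
      rw [h1]; ring
    have h3 := h _ (mul P (pw Q c)) (isExp_mul hP (isExp_pw hQ c))
      (KK_mul_nonneg hq hP (isExp_pw hQ c) (isSymm_pw hs c) hK (KK_pw_nonneg hq hQ hs hKQ c))
    rw [h2]
    push_cast
    linarith

end Crest.Agent.R163
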