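import Crest.Agent.R163.Gain
import Crest.Agent.R163.KMul
import Crest.Agent.R163.KCh
import Crest.Agent.R163.Main1

/-!
# Row 163 (Main3, piece R163_MAIN3): the main argument in the ferromagnetic case (`0 ≤ lam < 1`)

Let `x n = X (w n)`, `C 0 = q - 1`, `C (n+1) = d lam² ((1-lam) x n + lam C n)`.

(a) `gain P (w n) ≤ C n` for all `P` with `0 ≤ KK P` (induction on `n`; P_{n+1} is a mixture of
    powers of `T_lam P_n`, `gain P (Q^(c+1)) = gain P (Q^c) + gain (P*Q^c) Q`, and `gain_ch_le`).
(b) `x n = gain triv (w n) ≤ C n`, so `C` is nonincreasing when `d lam² ≤ 1`; limit `L`.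
(c) `x n ≥ (C (n+1) - lam C n)/(1-lam) → L` (if `d lam² ≤ 1`), so `x n → L`.
(d) `x (n+1) ≤ C (n+1) - (∑_{c ≥ 2} p c) lam² (1-lam) x n KK(T_lam w_n)/(q-1)` and
    `KK (T_lam w_n) ≥ lam³ (1-lam) (x n)²`, so `L ≤ L - δ L³`, `L = 0` (for `lam = 0` trivially 0).

`gain_functional`: `F v = (∑' i, fX (fun a => P i a * v a)) - X P * mass v`; bound
`|F v| ≤ 2 (q-1) mass v`-like, using `∑' i, mass (P i · v) = mass v`. `KK_process`: induction on `n`
with `hw.zero`, `hw.succ` for `F = fK`, `KK_ch_ge` and powers via `KK_mul_nonneg`.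
-/

set_option autoImplicit false

namespace Crest.Agent.R163

open Finset Filter

variable {q : ℕ}

/-- the gain as a functional of the second argument (piece R163_MAIN3) -/
theorem gain_functional (hq : 1 < q) {κ : Type} {P : κ → Fin q → ℝ} (hP : IsExp P) :
    ∃ F : (Fin q → ℝ) → ℝ, Homog F ∧ MBdd F ∧
      ∀ (ι : Type) (Q : ι → Fin q → ℝ), IsExp Q → gain P Q = Ex F Q := by
  have hq0 : 0 < q := by omega
  have hq1 : (1 : ℝ) < q := by exact_mod_cast hq
  have hnn : ∀ (v : Fin q → ℝ), (∀ a, 0 ≤ v a) → ∀ i a, 0 ≤ P i a * v a :=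
    fun v hv i a => mul_nonneg (hP.nonneg i a) (hv a)
  have hmass : ∀ v : Fin q → ℝ, HasSum (fun i => mass (fun a => P i a * v a)) (mass v) := by
    intro v
    have h : HasSum (fun i => (1 / (q : ℝ)) * ∑ a, P i a * v a)
        ((1 / (q : ℝ)) * ∑ a : Fin q, 1 * v a) :=
      (hasSum_sum fun a _ => (hP.hasSum a).mul_right (v a)).mul_left _
    simp only [one_mul] at h
    exact h
  have hsum : ∀ v : Fin q → ℝ, (∀ a, 0 ≤ v a) → Summable (fun i => fX (fun a => P i a * v a)) := by
    intro v hv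
    refine Summable.of_nonneg_of_le (fun i => fX_nonneg _ (hnn v hv i))
      (fun i => fX_le hq0 _ (hnn v hv i)) ((hmass v).summable.mul_left _)
  have hb : MBdd (fun v : Fin q → ℝ => ∑' i, fX (fun a => P i a * v a)) := by
    refine ⟨q - 1, by linarith, fun v hv => ?_⟩
    rw [abs_of_nonneg (tsum_nonneg fun i => fX_nonneg _ (hnn v hv i))]
    have := hasSum_le (fun i => fX_le hq0 _ (hnn v hv i)) (hsum v hv).hasSum
      ((hmass v).mul_left ((q : ℝ) - 1))
    exact this
  obtain ⟨C, hC, hb'⟩ := hb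
  refine ⟨fun v => (∑' i, fX (fun a => P i a * v a)) - X P * mass v, ?_, ?_, ?_⟩
  · intro t v ht hv
    have h1 : ∀ i, fX (fun a => P i a * (t * v a)) = t * fX (fun a => P i a * v a) := by
      intro i
      rw [← homog_fX t _ ht (hnn v hv i)]
      congr 1
      funext a; ring
    simp only [h1, tsum_mul_left, mass_smul]
    ring
  · refine ⟨C + |X P|, by positivity, fun v hv => ?_⟩
    have h1 := hb' v hv
    have h2 := mass_nonneg v hv
    calc |(∑' i, fX (fun a => P i a * v a)) - X P * mass v|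
        ≤ |∑' i, fX (fun a => P i a * v a)| + |X P * mass v| := abs_sub _ _
      _ ≤ C * mass v + |X P| * mass v := by
          rw [abs_mul, abs_of_nonneg h2]
          exact add_le_add h1 le_rfl
      _ = (C + |X P|) * mass v := by ring
  · intro ι Q hQ
    unfold gain
    have h1 : X (mul P Q) = ∑' k, ∑' i, fX (fun a => P i a * Q k a) :=
      Ex_mul hq0 hP hQ (mbdd_fX hq0)
    have h2 : Summable (fun k => ∑' i, fX (fun a => P i a * Q k a)) :=
      hQ.summable hq0 (F := fun v => ∑' i, fX (fun a => P i a * v a)) ⟨C, hC, hb'⟩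
    have h3 : HasSum (fun k => X P * mass (Q k)) (X P * 1) := (hQ.hasSum_mass hq0).mul_left _
    rw [h1]
    unfold Ex
    rw [(h2.hasSum.sub h3).tsum_eq, mul_one]

/-- `KK` of a broadcast process is nonnegative (piece R163_MAIN3) -/
theorem KK_process (hq : q = 3 ∨ q = 4) {lam : ℝ} (h0 : 0 ≤ lam) (h1 : lam ≤ 1) {p : ℕ → ℝ}
    (hp : ∀ c, 0 ≤ p c) (hp1 : HasSum p 1) {ι : ℕ → Type} {w : ∀ n, ι n → Fin q → ℝ}
    (hw : IsProcess q lam p ι w) (n : ℕ) : 0 ≤ KK (w n) := by
  have hq0 : 0 < q := by omega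
  have hq1 : 1 < q := by omega
  have hq4 : q ≤ 4 := by omega
  have hq1' : (1 : ℝ) < q := by exact_mod_cast hq1
  have hneg : -(1 / ((q : ℝ) - 1)) ≤ lam := by
    have : 0 ≤ 1 / ((q : ℝ) - 1) := by
      apply div_nonneg zero_le_one; linarith
    linarith
  induction n with
  | zero =>
    unfold KK
    rw [hw.zero fK homog_fK (mbdd_fK hq0)]
    exact KK_perfect hq
  | succ n ih =>
    have hE : IsExp (ch lam (w n)) := isExp_ch hq1 hneg h1 (hw.isExp n)
    have hS : IsSymm (ch lam (w n)) := isSymm_ch lam (hw.isSymm n)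
    have hKQ : 0 ≤ KK (ch lam (w n)) := by
      refine le_trans ?_ (KK_ch_ge hq1 hq4 (hw.isExp n) ih lam h0 h1)
      exact mul_nonneg (mul_nonneg (pow_nonneg h0 3) (by linarith)) (sq_nonneg _)
    have hpow : ∀ c, 0 ≤ KK (pw (ch lam (w n)) c) := by
      intro c
      induction c with
      | zero =>
        unfold KK
        rw [Ex_pw_zero]
        have hm : mass (fun _ : Fin q => (1 : ℝ)) = 1 := by
          unfold mass
          simp
          field_simp
        have hu : uv (fun _ : Fin q => (1 : ℝ)) = fun _ => 0 := by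
          funext a
          unfold uv
          rw [hm]; simp
        unfold fK kf
        rw [hu]
        simp [m2, m3]
      | succ c ihc =>
        have e : KK (pw (ch lam (w n)) (c + 1)) = KK (mul (pw (ch lam (w n)) c) (ch lam (w n))) :=
          Ex_pw_succ _ _ _
        rw [e]
        exact KK_mul_nonneg hq (isExp_pw hE c) hE hS ihc hKQ
    unfold KK
    rw [hw.succ n fK homog_fK (mbdd_fK hq0)]
    exact tsum_nonneg fun c => mul_nonneg (hp c) (hpow c)

end Crest.Agent.R163
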