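import Crest.Agent.R163.Main2
import Crest.Agent.R163.Main3

/-!
# Row 163 (Main4, piece R163_MAIN4): the main argument in the ferromagnetic case (`0 ≤ lam < 1`)

Let `x n = X (w n)`, `C 0 = q - 1`, `C (n+1) = d lam² ((1-lam) x n + lam C n)`.

(a) `gain P (w n) ≤ C n` for all `P` with `0 ≤ KK P` (induction on `n`; P_{n+1} is a mixture of
    powers of `T_lam P_n`, `gain P (Q^(c+1)) = gain P (Q^c) + gain (P*Q^c) Q`, and `gain_ch_le`).
(b) `x n = gain triv (w n) ≤ C n`, so `C` is nonincreasing when `d lam² ≤ 1`; limit `L`.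
(c) `x n ≥ (C (n+1) - lam C n)/(1-lam) → L` (if `d lam² ≤ 1`), so `x n → L`.
(d) `x (n+1) ≤ C (n+1) - (∑_{c ≥ 2} p c) lam² (1-lam) x n KK(T_lam w_n)/(q-1)` and
    `KK (T_lam w_n) ≥ lam³ (1-lam) (x n)²`, so `L ≤ L - δ L³`, `L = 0` (for `lam = 0` trivially 0).

Induction on `n` (universal over `κ`, `P`): `gain_functional` turns `gain P (w (n+1))` into
`∑' c, p c * gain P (pw (ch lam (w n)) c)`, bounded by `∑' c, p c * (c * B)` with
`B = lam^2 ((1-lam) x n + lam C n)` from `gain_ch_le` (and `KK P' ≥ 0`, `X ≥ 0`), `gain_pw_le`.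
-/

set_option autoImplicit false

namespace Crest.Agent.R163

open Finset Filter

variable {q : ℕ}

/-- the bounding sequence -/
noncomputable def CC (q : ℕ) (lam d : ℝ) (x : ℕ → ℝ) : ℕ → ℝ
  | 0 => q - 1
  | n + 1 => d * lam ^ 2 * ((1 - lam) * x n + lam * CC q lam d x n)

/-- `|Ex F w| ≤ C` -/
private theorem main4_abs_Ex_le (hq : 0 < q) {ι : Type} {w : ι → Fin q → ℝ} (hw : IsExp w)
    {F : (Fin q → ℝ) → ℝ} {C : ℝ} (h : ∀ v : Fin q → ℝ, (∀ a, 0 ≤ v a) → |F v| ≤ C * mass v) :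
    |Ex F w| ≤ C := by
  have h1 : HasSum (fun i => C * mass (w i)) (C * 1) := (hw.hasSum_mass hq).mul_left C
  rw [mul_one] at h1
  exact tsum_of_norm_bounded h1 fun i => by
    rw [Real.norm_eq_abs]; exact h _ (hw.nonneg i)

/-- (a) (piece R163_MAIN4) -/
theorem gain_process_le (hq : q = 3 ∨ q = 4) {lam : ℝ} (h0 : 0 ≤ lam) (h1 : lam ≤ 1) {p : ℕ → ℝ}
    (hp : ∀ c, 0 ≤ p c) (hp1 : HasSum p 1) {d : ℝ} (hd : HasSum (fun c : ℕ => (c : ℝ) * p c) d)
    {ι : ℕ → Type} {w : ∀ n, ι n → Fin q → ℝ} (hw : IsProcess q lam p ι w) (n : ℕ)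
    (κ : Type) (P : κ → Fin q → ℝ) (hP : IsExp P) (hK : 0 ≤ KK P) :
    gain P (w n) ≤ CC q lam d (fun n => X (w n)) n := by
  have hq1 : 1 < q := by omega
  have hq4 : q ≤ 4 := by omega
  have hq0 : 0 < q := by omega
  have hqr : (0 : ℝ) < (q : ℝ) - 1 := by
    have : (1 : ℝ) < q := by exact_mod_cast hq1
    linarith
  induction n generalizing κ P with
  | zero => exact gain_le hq1 hP (hw.isExp 0)
  | succ n ih =>
    obtain ⟨F, hF1, hF2, hF3⟩ := gain_functional hq1 hP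
    have hch : IsExp (ch lam (w n)) := isExp_ch hq1
      (le_trans (neg_nonpos.2 (by positivity)) h0) h1 (hw.isExp n)
    have hsy : IsSymm (ch lam (w n)) := isSymm_ch lam (hw.isSymm n)
    have hKn : 0 ≤ KK (w n) := KK_process hq h0 h1 hp hp1 hw n
    have hKQ : 0 ≤ KK (ch lam (w n)) :=
      le_trans (mul_nonneg (mul_nonneg (pow_nonneg h0 3) (by linarith)) (sq_nonneg _))
        (KK_ch_ge hq1 hq4 (hw.isExp n) hKn lam h0 h1)
    have hX : 0 ≤ X (w n) := X_nonneg (hw.isExp n)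
    set B : ℝ := lam ^ 2 * ((1 - lam) * X (w n) + lam * CC q lam d (fun n => X (w n)) n) with hB
    have hle : ∀ (κ' : Type) (P' : κ' → Fin q → ℝ), IsExp P' → 0 ≤ KK P' →
        gain P' (ch lam (w n)) ≤ B := by
      intro κ' P' hP' hK'
      refine (gain_ch_le hq1 hP' (hw.isExp n) (hw.isSymm n) lam h0 h1).trans ?_
      rw [hB]
      refine mul_le_mul_of_nonneg_left ?_ (sq_nonneg lam)
      refine add_le_add ?_ (mul_le_mul_of_nonneg_left (ih κ' P' hP' hK') h0)
      refine mul_le_mul_of_nonneg_left ?_ (by linarith)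
      have : 0 ≤ KK P' / ((q : ℝ) - 1) := div_nonneg hK' hqr.le
      nlinarith
    have hpw : ∀ c : ℕ, Ex F (pw (ch lam (w n)) c) ≤ c * B := by
      intro c
      rw [← hF3 _ _ (isExp_pw hch c)]
      exact gain_pw_le hq hP hK hch hsy hKQ B hle c
    rw [hF3 _ _ (hw.isExp (n + 1)), hw.succ n F hF1 hF2]
    obtain ⟨C, hC0, hC⟩ := hF2
    have hsum : Summable (fun c : ℕ => p c * Ex F (pw (ch lam (w n)) c)) := by
      refine Summable.of_norm_bounded (g := fun c => C * p c) (hp1.summable.mul_left C) fun c => ?_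
      rw [Real.norm_eq_abs, abs_mul, abs_of_nonneg (hp c), mul_comm]
      exact mul_le_mul_of_nonneg_right (main4_abs_Ex_le hq0 (isExp_pw hch c) hC) (hp c)
    have hright : HasSum (fun c : ℕ => (c : ℝ) * p c * B) (d * B) := hd.mul_right B
    have hfin : ∑' c : ℕ, p c * Ex F (pw (ch lam (w n)) c) ≤ d * B := by
      refine hasSum_le (fun c => ?_) hsum.hasSum hright
      have := mul_le_mul_of_nonneg_left (hpw c) (hp c)
      calc p c * Ex F (pw (ch lam (w n)) c) ≤ p c * (c * B) := this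
        _ = (c : ℝ) * p c * B := by ring
    refine hfin.trans (le_of_eq ?_)
    rw [hB, CC]
    ring

end Crest.Agent.R163
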