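import Crest.Agent.R163.Main4

/-!
# Row 163 (Main5, piece R163_MAIN5): the main argument in the ferromagnetic case (`0 ≤ lam < 1`)

Let `x n = X (w n)`, `C 0 = q - 1`, `C (n+1) = d lam² ((1-lam) x n + lam C n)`.

(a) `gain P (w n) ≤ C n` for all `P` with `0 ≤ KK P` (induction on `n`; P_{n+1} is a mixture of
    powers of `T_lam P_n`, `gain P (Q^(c+1)) = gain P (Q^c) + gain (P*Q^c) Q`, and `gain_ch_le`).
(b) `x n = gain triv (w n) ≤ C n`, so `C` is nonincreasing when `d lam² ≤ 1`; limit `L`.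
(c) `x n ≥ (C (n+1) - lam C n)/(1-lam) → L` (if `d lam² ≤ 1`), so `x n → L`.
(d) `x (n+1) ≤ C (n+1) - (∑_{c ≥ 2} p c) lam² (1-lam) x n KK(T_lam w_n)/(q-1)` and
    `KK (T_lam w_n) ≥ lam³ (1-lam) (x n)²`, so `L ≤ L - δ L³`, `L = 0` (for `lam = 0` trivially 0).

`X (w (n+1)) = ∑' c, p c * X (pw v c)`, `v = ch lam (w n)`; `X (pw v c) ≤ c B` for all `c` and
`X (pw v c₀) ≤ c₀ B - lam² (1-lam) x n KK(v)/(q-1)` because the increment from `c = 1` to `c = 2` is
`gain (pw v 1) v` and `gain_ch_le` has the term `KK (pw v 1) = KK v ≥ lam³ (1-lam) (x n)²`.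
-/

set_option autoImplicit false

namespace Crest.Agent.R163

open Finset Filter

variable {q : ℕ}

private theorem mass_one' (hq : 0 < q) : mass (fun _ : Fin q => (1 : ℝ)) = 1 := by
  have hq' : (q : ℝ) ≠ 0 := by exact_mod_cast hq.ne'
  unfold mass
  simp
  field_simp

private theorem uv_one' (hq : 0 < q) : uv (fun _ : Fin q => (1 : ℝ)) = fun _ => 0 := by
  funext a
  unfold uv
  rw [mass_one' hq]
  norm_num

private theorem m2_zero' : m2 (fun _ : Fin q => (0 : ℝ)) = 0 := by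
  unfold m2
  simp

private theorem m3_zero' : m3 (fun _ : Fin q => (0 : ℝ)) = 0 := by
  unfold m3
  simp

private theorem X_pw_zero' (hq : 0 < q) {ι : Type} (v : ι → Fin q → ℝ) : X (pw v 0) = 0 := by
  unfold X
  rw [Ex_pw_zero]
  unfold fX
  rw [uv_one' hq, m2_zero', mul_zero]

private theorem KK_pw_zero' (hq : 0 < q) {ι : Type} (v : ι → Fin q → ℝ) : KK (pw v 0) = 0 := by
  unfold KK
  rw [Ex_pw_zero]
  unfold fK kf
  rw [uv_one' hq, m2_zero', m3_zero']
  ring

private theorem Al_pw_zero' (hq : 0 < q) {ι : Type} (v : ι → Fin q → ℝ) : Al (pw v 0) = 1 := by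
  unfold Al
  rw [Ex_pw_zero]
  unfold fal alf alf4
  rw [uv_one' hq, m2_zero', m3_zero', mass_one' hq]
  simp only [add_zero, Finset.prod_const_one]
  split_ifs <;> norm_num

private theorem X_pw_succ' {ι : Type} (v : ι → Fin q → ℝ) (c : ℕ) :
    X (pw v (c + 1)) = X (pw v c) + gain (pw v c) v := by
  unfold gain
  have h : X (pw v (c + 1)) = X (mul (pw v c) v) := Ex_pw_succ v fX c
  rw [h]
  ring

private theorem KK_pw_succ' {ι : Type} (v : ι → Fin q → ℝ) (c : ℕ) :
    KK (pw v (c + 1)) = KK (mul (pw v c) v) := Ex_pw_succ v fK c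

private theorem KK_pw_nonneg' (hq : q = 3 ∨ q = 4) (hq0 : 0 < q) {ι : Type} {v : ι → Fin q → ℝ}
    (hv : IsExp v) (hs : IsSymm v) (hK : 0 ≤ KK v) (c : ℕ) : 0 ≤ KK (pw v c) := by
  induction c with
  | zero => rw [KK_pw_zero' hq0]
  | succ c ih =>
    rw [KK_pw_succ']
    exact KK_mul_nonneg hq (isExp_pw hv c) hv hs ih hK

private theorem KK_pw_one' (hq : q = 3 ∨ q = 4) (hq0 : 0 < q) {ι : Type} {v : ι → Fin q → ℝ}
    (hv : IsExp v) (hs : IsSymm v) : KK v ≤ KK (pw v 1) := by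
  rw [show (1 : ℕ) = 0 + 1 from rfl, KK_pw_succ']
  have h := KK_mul_ge hq (isExp_pw hv 0) hv hs
  rw [KK_pw_zero' hq0, Al_pw_zero' hq0] at h
  linarith

/-- (d) the improved recursion (piece R163_MAIN5) -/
theorem X_process_le (hq : q = 3 ∨ q = 4) {lam : ℝ} (h0 : 0 ≤ lam) (h1 : lam ≤ 1) {p : ℕ → ℝ}
    (hp : ∀ c, 0 ≤ p c) (hp1 : HasSum p 1) {d : ℝ} (hd : HasSum (fun c : ℕ => (c : ℝ) * p c) d)
    {ι : ℕ → Type} {w : ∀ n, ι n → Fin q → ℝ} (hw : IsProcess q lam p ι w) (n : ℕ) (c₀ : ℕ)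
    (hc₀ : 2 ≤ c₀) :
    X (w (n + 1)) ≤ CC q lam d (fun n => X (w n)) (n + 1)
      - p c₀ * (lam ^ 2 * (1 - lam) * X (w n) * (lam ^ 3 * (1 - lam) * X (w n) ^ 2 / (q - 1))) := by
  have hq1 : 1 < q := by omega
  have hq0 : 0 < q := by omega
  have hq4 : q ≤ 4 := by omega
  have hqR : (0 : ℝ) < (q : ℝ) - 1 := by
    have : (1 : ℝ) < q := by exact_mod_cast hq1
    linarith
  have hExp := hw.isExp n
  have hSymm := hw.isSymm n
  have hlam : -(1 / ((q : ℝ) - 1)) ≤ lam := by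
    have : 0 < 1 / ((q : ℝ) - 1) := by positivity
    linarith
  set x : ℝ := X (w n) with hx
  have hx0 : 0 ≤ x := X_nonneg hExp
  set v := ch lam (w n) with hv
  have hvE : IsExp v := isExp_ch hq1 hlam h1 hExp
  have hvS : IsSymm v := isSymm_ch lam hSymm
  have hKw : 0 ≤ KK (w n) := KK_process hq h0 h1 hp hp1 hw n
  have hKv : lam ^ 3 * (1 - lam) * x ^ 2 ≤ KK v := KK_ch_ge hq1 hq4 hExp hKw lam h0 h1
  have hl1 : 0 ≤ 1 - lam := by linarith
  have hKv0 : 0 ≤ KK v := le_trans (by positivity) hKv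
  set Cn : ℝ := CC q lam d (fun n => X (w n)) n with hCn
  set B : ℝ := lam ^ 2 * ((1 - lam) * x + lam * Cn) with hB
  have hgain : ∀ c : ℕ, gain (pw v c) v ≤ B - lam ^ 2 * (1 - lam) * x * (KK (pw v c) / (q - 1)) := by
    intro c
    have hP := isExp_pw hvE c
    have hKP := KK_pw_nonneg' hq hq0 hvE hvS hKv0 c
    have e1 := gain_ch_le hq1 hP hExp hSymm lam h0 h1
    have e2 := gain_process_le hq h0 h1 hp hp1 hd hw n _ (pw v c) hP hKP
    have e3 : lam * gain (pw v c) (w n) ≤ lam * Cn := mul_le_mul_of_nonneg_left e2 h0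
    have e4 : lam ^ 2 * ((1 - lam) * (X (w n) * (1 - KK (pw v c) / (q - 1))) +
        lam * gain (pw v c) (w n)) ≤
        lam ^ 2 * ((1 - lam) * (x * (1 - KK (pw v c) / (q - 1))) + lam * Cn) := by
      apply mul_le_mul_of_nonneg_left _ (by positivity)
      rw [← hx]
      linarith
    refine le_trans e1 (le_trans e4 (le_of_eq ?_))
    rw [hB]
    ring
  set D : ℝ := lam ^ 2 * (1 - lam) * x * (lam ^ 3 * (1 - lam) * x ^ 2 / (q - 1)) with hD
  have hcoef : 0 ≤ lam ^ 2 * (1 - lam) * x := by positivity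
  have hgain0 : ∀ c : ℕ, gain (pw v c) v ≤ B := by
    intro c
    have hKP := KK_pw_nonneg' hq hq0 hvE hvS hKv0 c
    have := hgain c
    have h2 : 0 ≤ lam ^ 2 * (1 - lam) * x * (KK (pw v c) / (q - 1)) :=
      mul_nonneg hcoef (div_nonneg hKP hqR.le)
    linarith
  have hXc : ∀ c : ℕ, X (pw v c) ≤ c * B := by
    intro c
    induction c with
    | zero => rw [X_pw_zero' hq0]; simp
    | succ c ih =>
      rw [X_pw_succ']
      push_cast
      have := hgain0 c
      linarith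
  have hX2 : X (pw v 2) ≤ 2 * B - D := by
    rw [show (2 : ℕ) = 1 + 1 from rfl, X_pw_succ']
    have e1 := hXc 1
    have e2 := hgain 1
    have e3 : KK v ≤ KK (pw v 1) := KK_pw_one' hq hq0 hvE hvS
    have e4 : D ≤ lam ^ 2 * (1 - lam) * x * (KK (pw v 1) / (q - 1)) := by
      rw [hD]
      apply mul_le_mul_of_nonneg_left _ hcoef
      exact div_le_div_of_nonneg_right (le_trans hKv e3) hqR.le
    push_cast at e1
    linarith
  have hXc2 : ∀ c : ℕ, X (pw v (c + 2)) ≤ ((c + 2 : ℕ) : ℝ) * B - D := by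
    intro c
    induction c with
    | zero => simpa using hX2
    | succ c ih =>
      rw [show c + 1 + 2 = (c + 2) + 1 from by ring, X_pw_succ']
      have := hgain0 (c + 2)
      push_cast at ih ⊢
      linarith
  have hXc₀ : X (pw v c₀) ≤ c₀ * B - D := by
    obtain ⟨c, rfl⟩ : ∃ c, c₀ = c + 2 := ⟨c₀ - 2, by omega⟩
    exact hXc2 c
  have hsucc : X (w (n + 1)) = ∑' c : ℕ, p c * X (pw v c) :=
    hw.succ n fX homog_fX (mbdd_fX hq0)
  have hsumL : Summable (fun c : ℕ => p c * X (pw v c)) := by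
    refine Summable.of_nonneg_of_le (f := fun c => p c * ((q : ℝ) - 1))
      (fun c => mul_nonneg (hp c) (X_nonneg (isExp_pw hvE c))) (fun c => ?_)
      (hp1.summable.mul_right _)
    exact mul_le_mul_of_nonneg_left (X_le hq1 (isExp_pw hvE c)) (hp c)
  have hsumR : HasSum (fun c : ℕ => (c : ℝ) * p c * B - if c = c₀ then p c₀ * D else 0)
      (d * B - p c₀ * D) := by
    apply (hd.mul_right B).sub
    exact hasSum_ite_eq c₀ (p c₀ * D)
  have hle : X (w (n + 1)) ≤ d * B - p c₀ * D := by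
    rw [hsucc]
    refine hasSum_le (fun c => ?_) hsumL.hasSum hsumR
    by_cases hc : c = c₀
    · subst hc
      simp only [if_true]
      have := mul_le_mul_of_nonneg_left hXc₀ (hp c)
      linarith
    · simp only [if_neg hc, sub_zero]
      have := mul_le_mul_of_nonneg_left (hXc c) (hp c)
      linarith
  have hCC : CC q lam d (fun n => X (w n)) (n + 1) = d * B := by
    rw [hB, hCn, hx]
    simp only [CC]
    ring
  rw [hCC]
  exact hle

end Crest.Agent.R163
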