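import Crest.Agent.R163.Defs

/-!
# Row 163 (Main6, piece R163_MAIN6): the main argument in the ferromagnetic case (`0 ≤ lam < 1`)

Let `x n = X (w n)`, `C 0 = q - 1`, `C (n+1) = d lam² ((1-lam) x n + lam C n)`.

(a) `gain P (w n) ≤ C n` for all `P` with `0 ≤ KK P` (induction on `n`; P_{n+1} is a mixture of
    powers of `T_lam P_n`, `gain P (Q^(c+1)) = gain P (Q^c) + gain (P*Q^c) Q`, and `gain_ch_le`).
(b) `x n = gain triv (w n) ≤ C n`, so `C` is nonincreasing when `d lam² ≤ 1`; limit `L`.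
(c) `x n ≥ (C (n+1) - lam C n)/(1-lam) → L` (if `d lam² ≤ 1`), so `x n → L`.
(d) `x (n+1) ≤ C (n+1) - (∑_{c ≥ 2} p c) lam² (1-lam) x n KK(T_lam w_n)/(q-1)` and
    `KK (T_lam w_n) ≥ lam³ (1-lam) (x n)²`, so `L ≤ L - δ L³`, `L = 0` (for `lam = 0` trivially 0).
-/

set_option autoImplicit false

namespace Crest.Agent.R163

open Finset Filter

variable {q : ℕ}

/-- real analysis (piece R163_MAIN6) -/
theorem real_limit (lam d : ℝ) (h0 : 0 < lam) (h1 : lam < 1) (hd : d * lam ^ 2 ≤ 1) (hd0 : 0 ≤ d)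
    (δ : ℝ) (hδ : 0 < δ) (x C : ℕ → ℝ) (hx : ∀ n, 0 ≤ x n) (hxC : ∀ n, x n ≤ C n)
    (hC : ∀ n, C (n + 1) = d * lam ^ 2 * ((1 - lam) * x n + lam * C n))
    (himp : ∀ n, x (n + 1) ≤ C (n + 1) - δ * x n ^ 3) :
    Tendsto x atTop (nhds 0) := by
  have hb : ∀ n, 0 ≤ (1 - lam) * x n + lam * C n := fun n => by
    have := (hx n).trans (hxC n)
    have h3 := hx n
    have h4 : 0 ≤ 1 - lam := by linarith
    positivity
  have hC1 : ∀ n, C (n + 1) ≤ (1 - lam) * x n + lam * C n := fun n => by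
    rw [hC]
    exact mul_le_of_le_one_left (hb n) hd
  have hanti : Antitone C := antitone_nat_of_succ_le fun n => by
    have h3 := hC1 n
    have h4 := mul_le_mul_of_nonneg_left (hxC n) (by linarith : 0 ≤ 1 - lam)
    nlinarith
  have hCnn : ∀ n, 0 ≤ C n := fun n => (hx n).trans (hxC n)
  have hbdd : BddBelow (Set.range C) := ⟨0, by rintro _ ⟨n, rfl⟩; exact hCnn n⟩
  have hlim := tendsto_atTop_ciInf hanti hbdd
  set L := ⨅ n, C n with hL
  have hL0 : 0 ≤ L := ge_of_tendsto' hlim hCnn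
  have hlim1 : Tendsto (fun n => C (n + 1)) atTop (nhds L) := (tendsto_add_atTop_iff_nat 1).2 hlim
  have h1l : 0 < 1 - lam := by linarith
  have hlow : Tendsto (fun n => (C (n + 1) - lam * C n) / (1 - lam)) atTop (nhds L) := by
    have h3 := (hlim1.sub (hlim.const_mul lam)).div_const (1 - lam)
    have h4 : (L - lam * L) / (1 - lam) = L := by
      field_simp
    rwa [h4] at h3
  have hxL : Tendsto x atTop (nhds L) := by
    refine tendsto_of_tendsto_of_tendsto_of_le_of_le hlow hlim (fun n => ?_) hxC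
    have h3 := hC1 n
    simp only
    rw [div_le_iff₀ h1l]
    linarith
  have hxL1 : Tendsto (fun n => x (n + 1)) atTop (nhds L) := (tendsto_add_atTop_iff_nat 1).2 hxL
  have h5 : L ≤ L - δ * L ^ 3 :=
    le_of_tendsto_of_tendsto' hxL1 (hlim1.sub ((hxL.pow 3).const_mul δ)) himp
  have h6 : L = 0 := by
    by_contra h7
    have h8 : 0 < L := lt_of_le_of_ne hL0 (Ne.symm h7)
    have h9 : 0 < δ * L ^ 3 := by positivity
    linarith
  rwa [h6] at hxL

end Crest.Agent.R163
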