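import Crest.Agent.R163.Basic

/-!
# Row 163: from `X → 0` to total variation (piece R163_TV)

`fTV v = (1/2) mass v <|u|>` and `|u| ≤ (ε + u²/ε)/2`.
-/

set_option autoImplicit false

namespace Crest.Agent.R163

open Finset Filter

variable {ι κ : Type*} {q : ℕ}

theorem fTV_le_aux (hq : 0 < q) (v : Fin q → ℝ) (hv : ∀ a, 0 ≤ v a) (ε : ℝ) (hε : 0 < ε) :
    fTV v ≤ (ε * mass v + fX v / ε) / 4 := by
  have hq' : (0 : ℝ) < q := by exact_mod_cast hq
  have hm := mass_nonneg v hv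
  have key : ∀ a : Fin q, |v a - mass v| ≤ mass v * ((ε + uv v a ^ 2 / ε) / 2) := by
    intro a
    have e : v a - mass v = mass v * uv v a := by
      have := eq_mass_mul hq v hv a
      linarith
    rw [e, abs_mul, abs_of_nonneg hm]
    refine mul_le_mul_of_nonneg_left ?_ hm
    have h1 : 0 ≤ (|uv v a| - ε) ^ 2 := sq_nonneg _
    have h2 : |uv v a| ^ 2 = uv v a ^ 2 := sq_abs _
    rw [le_div_iff₀ (by norm_num : (0 : ℝ) < 2)]
    have h3 : ε * (|uv v a| * 2) ≤ ε * (ε + uv v a ^ 2 / ε) := by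
      have h4 : ε * (ε + uv v a ^ 2 / ε) = ε ^ 2 + uv v a ^ 2 := by
        field_simp
      rw [h4]
      nlinarith
    exact le_of_mul_le_mul_left h3 hε
  have hsum : ∑ a, |v a - mass v| ≤ ∑ a, mass v * ((ε + uv v a ^ 2 / ε) / 2) :=
    Finset.sum_le_sum fun a _ => key a
  have hval : ∑ a : Fin q, mass v * ((ε + uv v a ^ 2 / ε) / 2)
      = mass v * ((q * ε + (∑ a, uv v a ^ 2) / ε) / 2) := by
    rw [← Finset.mul_sum, ← Finset.sum_div, Finset.sum_add_distrib, ← Finset.sum_div]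
    simp
  rw [hval] at hsum
  unfold fTV
  calc (1 / (2 * (q : ℝ))) * ∑ a, |v a - mass v|
      ≤ (1 / (2 * (q : ℝ))) * (mass v * ((q * ε + (∑ a, uv v a ^ 2) / ε) / 2)) :=
        mul_le_mul_of_nonneg_left hsum (by positivity)
    _ = (ε * mass v + fX v / ε) / 4 := by
        unfold fX m2
        field_simp
        ring

theorem TV_le (hq : 0 < q) {w : ι → Fin q → ℝ} (hw : IsExp w) (ε : ℝ) (hε : 0 < ε) :
    Ex fTV w ≤ (ε + X w / ε) / 4 := by
  have hs1 : Summable (fun i => fTV (w i)) := hw.summable hq (mbdd_fTV hq)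
  have hs2 : Summable (fun i => fX (w i)) := hw.summable hq (mbdd_fX hq)
  have hm := hw.hasSum_mass hq
  have h1 : HasSum (fun i => (ε * mass (w i) + fX (w i) / ε) / 4) ((ε * 1 + X w / ε) / 4) := by
    have := ((hm.mul_left ε).add (hs2.hasSum.div_const ε)).div_const 4
    exact this
  have h2 := hs1.tsum_le_tsum (fun i => fTV_le_aux hq (w i) (hw.nonneg i) ε hε) h1.summable
  rw [h1.tsum_eq, mul_one] at h2
  exact h2

theorem TV_nonneg {w : ι → Fin q → ℝ} (hw : IsExp w) : 0 ≤ Ex fTV w := by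
  unfold Ex
  refine tsum_nonneg fun i => ?_
  unfold fTV
  positivity

/-- piece R163_TV -/
theorem tendsto_TV (hq : 0 < q) (ι : ℕ → Type) (w : ∀ n, ι n → Fin q → ℝ)
    (hw : ∀ n, IsExp (w n)) (h : Tendsto (fun n => X (w n)) atTop (nhds 0)) :
    Tendsto (fun n => Ex fTV (w n)) atTop (nhds 0) := by
  rw [Metric.tendsto_atTop] at h ⊢
  intro δ hδ
  obtain ⟨N, hN⟩ := h (δ ^ 2) (by positivity)
  refine ⟨N, fun n hn => ?_⟩
  have h1 := hN n hn
  rw [Real.dist_eq, sub_zero] at h1 ⊢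
  rw [abs_of_nonneg (TV_nonneg (hw n))]
  have h2 := TV_le hq (hw n) δ hδ
  have h3 : X (w n) / δ < δ := by
    rw [div_lt_iff₀ hδ]
    have := le_abs_self (X (w n))
    nlinarith
  linarith

end Crest.Agent.R163
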