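import Crest.Agent.R163.Main5
import Crest.Agent.R163.Main6
import Crest.Agent.R163.TV

/-!
# Row 163 (Main7, piece R163_MAIN7): the main argument in the ferromagnetic case (`0 ≤ lam < 1`)

Let `x n = X (w n)`, `C 0 = q - 1`, `C (n+1) = d lam² ((1-lam) x n + lam C n)`.

(a) `gain P (w n) ≤ C n` for all `P` with `0 ≤ KK P` (induction on `n`; P_{n+1} is a mixture of
    powers of `T_lam P_n`, `gain P (Q^(c+1)) = gain P (Q^c) + gain (P*Q^c) Q`, and `gain_ch_le`).
(b) `x n = gain triv (w n) ≤ C n`, so `C` is nonincreasing when `d lam² ≤ 1`; limit `L`.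
(c) `x n ≥ (C (n+1) - lam C n)/(1-lam) → L` (if `d lam² ≤ 1`), so `x n → L`.
(d) `x (n+1) ≤ C (n+1) - (∑_{c ≥ 2} p c) lam² (1-lam) x n KK(T_lam w_n)/(q-1)` and
    `KK (T_lam w_n) ≥ lam³ (1-lam) (x n)²`, so `L ≤ L - δ L³`, `L = 0` (for `lam = 0` trivially 0).
-/

set_option autoImplicit false

namespace Crest.Agent.R163

open Finset Filter

variable {q : ℕ}

private theorem uv_trivE (hq : 0 < q) (i : Unit) : uv (trivE q i) = fun _ => 0 := by
  have hq' : (q : ℝ) ≠ 0 := by exact_mod_cast hq.ne'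
  funext a
  have hm : mass (trivE q i) = 1 := by
    unfold mass trivE
    simp
    field_simp
  unfold uv
  rw [hm]
  simp [trivE]

private theorem X_trivE (hq : 0 < q) : X (trivE q) = 0 := by
  unfold X Ex
  simp only [tsum_fintype, Finset.univ_unique, Finset.sum_singleton]
  unfold fX m2
  rw [uv_trivE hq]
  simp

private theorem KK_trivE (hq : 0 < q) : KK (trivE q) = 0 := by
  unfold KK Ex
  simp only [tsum_fintype, Finset.univ_unique, Finset.sum_singleton]
  unfold fK kf m2 m3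
  rw [uv_trivE hq]
  simp

private theorem X_mul_trivE {ι : Type} (Q : ι → Fin q → ℝ) : X (mul (trivE q) Q) = X Q := by
  unfold X Ex
  rw [← (Equiv.punitProd ι).symm.tsum_eq (fun p : Unit × ι => fX (mul (trivE q) Q p))]
  refine tsum_congr fun i => ?_
  congr 1
  funext a
  simp [mul, trivE]

/-- **ferromagnetic non-reconstruction** for broadcast processes with `lam < 1`
(piece R163_MAIN7) -/
theorem ferro (hq : q = 3 ∨ q = 4) {lam : ℝ} (h0 : 0 ≤ lam) (h1 : lam < 1) {p : ℕ → ℝ}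
    (hp : ∀ c, 0 ≤ p c) (hp1 : HasSum p 1) {d : ℝ} (hd : HasSum (fun c : ℕ => (c : ℝ) * p c) d)
    (hdl : d * lam ^ 2 ≤ 1) (c₀ : ℕ) (hc₀ : 2 ≤ c₀) (hpc : 0 < p c₀)
    {ι : ℕ → Type} {w : ∀ n, ι n → Fin q → ℝ} (hw : IsProcess q lam p ι w) :
    Tendsto (fun n => Ex fTV (w n)) atTop (nhds 0) := by
  have hq0 : 0 < q := by omega
  have hq1 : 1 < q := by omega
  have hqR : (0 : ℝ) < (q : ℝ) - 1 := by
    have : (1 : ℝ) < q := by exact_mod_cast hq1
    linarith
  refine tendsto_TV hq0 ι w hw.isExp ?_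
  have himp := X_process_le hq h0 h1.le hp hp1 hd hw
  rcases h0.eq_or_lt with hl | hl
  · -- lam = 0
    subst hl
    rw [← tendsto_add_atTop_iff_nat 1]
    have hz : ∀ n, X (w (n + 1)) = 0 := by
      intro n
      refine le_antisymm ?_ (X_nonneg (hw.isExp (n + 1)))
      have h := himp n c₀ hc₀
      simp only [CC] at h
      have e : d * (0 : ℝ) ^ 2 * ((1 - 0) * X (w n) + 0 * CC q 0 d (fun n => X (w n)) n)
          - p c₀ * ((0 : ℝ) ^ 2 * (1 - 0) * X (w n) *
            ((0 : ℝ) ^ 3 * (1 - 0) * X (w n) ^ 2 / (q - 1))) = 0 := by ring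
      linarith
    simp only [hz]
    exact tendsto_const_nhds
  · have hd0 : 0 ≤ d := hd.nonneg fun c => mul_nonneg (Nat.cast_nonneg c) (hp c)
    have hl1 : 0 < 1 - lam := by linarith
    have hKt : 0 ≤ KK (trivE q) := by rw [KK_trivE hq0]
    refine real_limit lam d hl h1 hdl hd0 (p c₀ * lam ^ 5 * (1 - lam) ^ 2 / (q - 1))
      (by positivity) (fun n => X (w n)) (CC q lam d (fun n => X (w n)))
      (fun n => X_nonneg (hw.isExp n)) (fun n => ?_) (fun n => rfl) (fun n => ?_)
    · have h := gain_process_le hq h0 h1.le hp hp1 hd hw n _ (trivE q) (isExp_trivE q) hKt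
      unfold gain at h
      rw [X_mul_trivE, X_trivE hq0, sub_zero] at h
      exact h
    · refine le_trans (himp n c₀ hc₀) (le_of_eq ?_)
      congr 1
      field_simp

end Crest.Agent.R163
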