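import Crest.Agent.R163.Basic
import Crest.Agent.R163.Reg
import Crest.Agent.R163.GW

/-!
# Row 163: Mellin functionals

`fM al v = ∏ a, v a ^ al a` (`al ≥ 0`, `∑ al = 1`) is homogeneous of degree one, bounded by the
mass and MULTIPLICATIVE; hence `M_al(P*Q) = M_al(P) M_al(Q)` with `M_al(P) = Ex (fM al) P`, and
along a broadcast process `M_al(w (n+1)) = ∑ p c * M_al(ch lam (w n))^c`.
-/

set_option autoImplicit false

namespace Crest.Agent.R163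

open Finset Filter

variable {ι κ : Type*} {q : ℕ}

/-- Mellin functional -/
noncomputable def fM (al : Fin q → ℝ) (v : Fin q → ℝ) : ℝ := ∏ a, v a ^ al a

theorem fM_nonneg (al : Fin q → ℝ) (v : Fin q → ℝ) (hv : ∀ a, 0 ≤ v a) : 0 ≤ fM al v :=
  Finset.prod_nonneg fun a _ => Real.rpow_nonneg (hv a) _

theorem fM_mul (al : Fin q → ℝ) (v r : Fin q → ℝ) (hv : ∀ a, 0 ≤ v a) (hr : ∀ a, 0 ≤ r a) :
    fM al (fun a => v a * r a) = fM al v * fM al r := by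
  unfold fM
  rw [← Finset.prod_mul_distrib]
  exact Finset.prod_congr rfl fun a _ => Real.mul_rpow (hv a) (hr a)

theorem homog_fM (al : Fin q → ℝ) (h1 : ∑ a, al a = 1) : Homog (fM al) := by
  intro t v ht hv
  rcases ht.eq_or_lt with rfl | ht
  · have : ∃ a, al a ≠ 0 := by
      by_contra hc
      push Not at hc
      rw [Finset.sum_eq_zero fun a _ => hc a] at h1
      norm_num at h1
    obtain ⟨a, ha⟩ := this
    rw [zero_mul]
    unfold fM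
    refine Finset.prod_eq_zero (Finset.mem_univ a) ?_
    show (0 * v a) ^ al a = 0
    rw [zero_mul, Real.zero_rpow ha]
  · unfold fM
    have : ∀ a, (t * v a) ^ al a = t ^ al a * v a ^ al a := fun a => Real.mul_rpow ht.le (hv a)
    simp_rw [this]
    rw [Finset.prod_mul_distrib, ← Real.rpow_sum_of_pos ht, h1, Real.rpow_one]

theorem fM_le (al : Fin q → ℝ) (h0 : ∀ a, 0 ≤ al a) (h1 : ∑ a, al a = 1) (v : Fin q → ℝ)
    (hv : ∀ a, 0 ≤ v a) : fM al v ≤ ∑ a, al a * v a :=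
  Real.geom_mean_le_arith_mean_weighted Finset.univ al v (fun a _ => h0 a) h1 (fun a _ => hv a)

theorem mbdd_fM (hq : 0 < q) (al : Fin q → ℝ) (h0 : ∀ a, 0 ≤ al a) (h1 : ∑ a, al a = 1) :
    MBdd (fM al) := by
  refine ⟨q, by positivity, fun v hv => ?_⟩
  rw [abs_of_nonneg (fM_nonneg al v hv)]
  have hq' : (0 : ℝ) < q := by exact_mod_cast hq
  have h2 : (q : ℝ) * mass v = ∑ a, v a := by
    unfold mass; field_simp
  rw [h2]
  refine (fM_le al h0 h1 v hv).trans (Finset.sum_le_sum fun a _ => ?_)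
  have : al a ≤ 1 := h1 ▸ Finset.single_le_sum (fun b _ => h0 b) (Finset.mem_univ a)
  nlinarith [hv a]

/-- `0 ≤ M_al(P) ≤ 1` -/
theorem Ex_fM_nonneg (al : Fin q → ℝ) {w : ι → Fin q → ℝ} (hw : IsExp w) : 0 ≤ Ex (fM al) w :=
  tsum_nonneg fun i => fM_nonneg al _ (hw.nonneg i)

theorem Ex_fM_le_one (hq : 0 < q) (al : Fin q → ℝ) (h0 : ∀ a, 0 ≤ al a) (h1 : ∑ a, al a = 1)
    {w : ι → Fin q → ℝ} (hw : IsExp w) : Ex (fM al) w ≤ 1 := by
  have hs : HasSum (fun i => ∑ a, al a * w i a) (∑ a, al a * 1) :=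
    hasSum_sum fun a _ => (hw.hasSum a).mul_left _
  simp only [mul_one, h1] at hs
  refine (Summable.tsum_le_tsum (fun i => fM_le al h0 h1 _ (hw.nonneg i))
    (hw.summable hq (mbdd_fM hq al h0 h1)) hs.summable).trans ?_
  rw [hs.tsum_eq]

/-- multiplicativity -/
theorem Ex_fM_mul (hq : 0 < q) (al : Fin q → ℝ) (h0 : ∀ a, 0 ≤ al a) (h1 : ∑ a, al a = 1)
    {P : κ → Fin q → ℝ} (hP : IsExp P) {Q : ι → Fin q → ℝ} (hQ : IsExp Q) :
    Ex (fM al) (mul P Q) = Ex (fM al) P * Ex (fM al) Q := by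
  rw [Ex_mul hq hP hQ (mbdd_fM hq al h0 h1)]
  have : ∀ k, ∑' i, fM al (fun a => P i a * Q k a) = Ex (fM al) P * fM al (Q k) := by
    intro k
    unfold Ex
    rw [← tsum_mul_right]
    exact tsum_congr fun i => fM_mul al _ _ (hP.nonneg i) (hQ.nonneg k)
  simp_rw [this]
  rw [tsum_mul_left]
  rfl

theorem Ex_fM_pw (hq : 0 < q) (al : Fin q → ℝ) (h0 : ∀ a, 0 ≤ al a) (h1 : ∑ a, al a = 1)
    {w : ι → Fin q → ℝ} (hw : IsExp w) (c : ℕ) :
    Ex (fM al) (pw w c) = Ex (fM al) w ^ c := by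
  induction c with
  | zero =>
    rw [Ex_pw_zero, pow_zero]
    unfold fM
    simp
  | succ c ih =>
    rw [Ex_pw_succ, Ex_fM_mul hq al h0 h1 (isExp_pw hw c) hw, ih, pow_succ]

/-- Mellin functionals along a broadcast process -/
theorem Ex_fM_process (hq : 1 < q) (al : Fin q → ℝ) (h0 : ∀ a, 0 ≤ al a) (h1 : ∑ a, al a = 1)
    {lam : ℝ} (hl0 : -(1 / ((q : ℝ) - 1)) ≤ lam) (hl1 : lam ≤ 1) {p : ℕ → ℝ} {ι : ℕ → Type}
    {w : ∀ n, ι n → Fin q → ℝ} (hw : IsProcess q lam p ι w) (n : ℕ) :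
    Ex (fM al) (w (n + 1)) = ∑' c : ℕ, p c * Ex (fM al) (ch lam (w n)) ^ c := by
  have hq0 : 0 < q := by omega
  rw [hw.succ n _ (homog_fM al h1) (mbdd_fM hq0 al h0 h1)]
  exact tsum_congr fun c => by
    rw [Ex_fM_pw hq0 al h0 h1 (isExp_ch hq hl0 hl1 (hw.isExp n))]

theorem Ex_fM_reg (hq : 1 < q) (al : Fin q → ℝ) (h0 : ∀ a, 0 ≤ al a) (h1 : ∑ a, al a = 1)
    {lam : ℝ} (hl0 : -(1 / ((q : ℝ) - 1)) ≤ lam) (hl1 : lam ≤ 1) {b : ℕ} {ι : ℕ → Type}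
    {w : ∀ n, ι n → Fin q → ℝ} (hw : IsProcess q lam (pReg b) ι w) (n : ℕ) :
    Ex (fM al) (w (n + 1)) = Ex (fM al) (ch lam (w n)) ^ b := by
  rw [Ex_fM_process hq al h0 h1 hl0 hl1 hw n, tsum_eq_single b]
  · unfold pReg; simp
  · intro c hc
    unfold pReg; simp [hc]

theorem Ex_fM_poi (hq : 1 < q) (al : Fin q → ℝ) (h0 : ∀ a, 0 ≤ al a) (h1 : ∑ a, al a = 1)
    {lam : ℝ} (hl0 : -(1 / ((q : ℝ) - 1)) ≤ lam) (hl1 : lam ≤ 1) {d : ℝ} {ι : ℕ → Type}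
    {w : ∀ n, ι n → Fin q → ℝ} (hw : IsProcess q lam (pPoi d) ι w) (n : ℕ) :
    Ex (fM al) (w (n + 1)) = Real.exp (d * (Ex (fM al) (ch lam (w n)) - 1)) := by
  rw [Ex_fM_process hq al h0 h1 hl0 hl1 hw n]
  set M := Ex (fM al) (ch lam (w n))
  have h : HasSum (fun c : ℕ => (d * M) ^ c / (Nat.factorial c)) (Real.exp (d * M)) := by
    rw [Real.exp_eq_exp_ℝ]
    exact NormedSpace.expSeries_div_hasSum_exp (𝔸 := ℝ) (d * M)
  have h2 := (h.mul_left (Real.exp (-d))).tsum_eq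
  rw [mul_sub, mul_one, sub_eq_add_neg, add_comm, Real.exp_add, ← h2]
  refine tsum_congr fun c => ?_
  unfold pPoi
  rw [mul_pow]; ring

end Crest.Agent.R163
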