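import Crest.Agent.R163.Mel

/-!
# Row 163: Mellin functionals with complex exponents

`fC a th v = ∏ v_i^(a_i) * exp (I ∑ th_i log v_i)` (`0` if `v_i = 0` for some `i` with `th_i ≠ 0`),
`a ≥ 0`, `∑ a = 1`, `∑ th = 0`. It is multiplicative. If some permutation `σ` of the spin values
satisfies `a ∘ σ = a`, `th ∘ σ = -th`, then its expectation under a symmetric experiment is real,
so the real functional `fR a th v = re (fC a th v)` is multiplicative on symmetric experiments.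
-/

set_option autoImplicit false

namespace Crest.Agent.R163

open Finset Filter

variable {ι κ : Type*} {q : ℕ}

/-- complex Mellin functional -/
noncomputable def fC (a th : Fin q → ℝ) (v : Fin q → ℝ) : ℂ :=
  open Classical in
  if (∀ i, th i ≠ 0 → v i ≠ 0) then
    ((fM a v : ℝ) : ℂ) * Complex.exp (((∑ i, th i * Real.log (v i) : ℝ) : ℂ) * Complex.I)
  else 0

/-- its real part -/
noncomputable def fR (a th : Fin q → ℝ) (v : Fin q → ℝ) : ℝ := (fC a th v).re

/-- its imaginary part -/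
noncomputable def fI (a th : Fin q → ℝ) (v : Fin q → ℝ) : ℝ := (fC a th v).im

theorem fC_mul (a th : Fin q → ℝ) (v r : Fin q → ℝ) (hv : ∀ i, 0 ≤ v i) (hr : ∀ i, 0 ≤ r i) :
    fC a th (fun i => v i * r i) = fC a th v * fC a th r := by
  unfold fC
  by_cases h1 : ∀ i, th i ≠ 0 → v i ≠ 0
  · by_cases h2 : ∀ i, th i ≠ 0 → r i ≠ 0
    · have h3 : ∀ i, th i ≠ 0 → v i * r i ≠ 0 := fun i hi => mul_ne_zero (h1 i hi) (h2 i hi)
      rw [if_pos h1, if_pos h2, if_pos h3, fM_mul a v r hv hr]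
      have : (∑ i, th i * Real.log (v i * r i)) =
          (∑ i, th i * Real.log (v i)) + ∑ i, th i * Real.log (r i) := by
        rw [← Finset.sum_add_distrib]
        refine Finset.sum_congr rfl fun i _ => ?_
        by_cases hi : th i = 0
        · rw [hi]; ring
        · rw [Real.log_mul (h1 i hi) (h2 i hi)]; ring
      rw [this]
      push_cast
      rw [add_mul, Complex.exp_add]
      ring
    · rw [if_pos h1, if_neg h2, mul_zero, if_neg]
      intro h3
      exact h2 fun i hi => right_ne_zero_of_mul (h3 i hi)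
  · rw [if_neg h1, zero_mul, if_neg]
    intro h3
    exact h1 fun i hi => left_ne_zero_of_mul (h3 i hi)

theorem norm_fC_le (a th : Fin q → ℝ) (v : Fin q → ℝ) (hv : ∀ i, 0 ≤ v i) :
    ‖fC a th v‖ ≤ fM a v := by
  unfold fC
  split_ifs
  · rw [norm_mul, Complex.norm_exp_ofReal_mul_I, mul_one, Complex.norm_real, Real.norm_eq_abs,
      abs_of_nonneg (fM_nonneg a v hv)]
  · rw [norm_zero]; exact fM_nonneg a v hv

theorem abs_fR_le (a th : Fin q → ℝ) (v : Fin q → ℝ) (hv : ∀ i, 0 ≤ v i) :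
    |fR a th v| ≤ fM a v := (Complex.abs_re_le_norm _).trans (norm_fC_le a th v hv)

theorem abs_fI_le (a th : Fin q → ℝ) (v : Fin q → ℝ) (hv : ∀ i, 0 ≤ v i) :
    |fI a th v| ≤ fM a v := (Complex.abs_im_le_norm _).trans (norm_fC_le a th v hv)

theorem homog_fC (a th : Fin q → ℝ) (h1 : ∑ i, a i = 1) (h2 : ∑ i, th i = 0) (t : ℝ)
    (v : Fin q → ℝ) (ht : 0 ≤ t) (hv : ∀ i, 0 ≤ v i) :
    fC a th (fun i => t * v i) = t * fC a th v := by
  have hM := homog_fM a h1 t v ht hv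
  rcases ht.eq_or_lt with rfl | ht
  · have h0 : fM a (fun i => 0 * v i) = 0 := by rw [hM, zero_mul]
    unfold fC
    split_ifs
    · rw [h0]; simp
    · rw [h0]; simp
    · simp
    · simp
  · unfold fC
    by_cases h : ∀ i, th i ≠ 0 → v i ≠ 0
    · have h' : ∀ i, th i ≠ 0 → t * v i ≠ 0 := fun i hi => mul_ne_zero ht.ne' (h i hi)
      rw [if_pos h, if_pos h', hM]
      have : (∑ i, th i * Real.log (t * v i)) = ∑ i, th i * Real.log (v i) := by
        have : ∀ i, th i * Real.log (t * v i) = th i * Real.log t + th i * Real.log (v i) := by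
          intro i
          by_cases hi : th i = 0
          · rw [hi]; ring
          · rw [Real.log_mul ht.ne' (h i hi)]; ring
        simp_rw [this]
        rw [Finset.sum_add_distrib, ← Finset.sum_mul, h2, zero_mul, zero_add]
      rw [this]
      push_cast
      ring
    · rw [if_neg h, mul_zero, if_neg]
      intro h3
      exact h fun i hi => right_ne_zero_of_mul (h3 i hi)

theorem homog_fR (a th : Fin q → ℝ) (h1 : ∑ i, a i = 1) (h2 : ∑ i, th i = 0) :
    Homog (fR a th) := by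
  intro t v ht hv
  unfold fR
  rw [homog_fC a th h1 h2 t v ht hv, Complex.re_ofReal_mul]

theorem homog_fI (a th : Fin q → ℝ) (h1 : ∑ i, a i = 1) (h2 : ∑ i, th i = 0) :
    Homog (fI a th) := by
  intro t v ht hv
  unfold fI
  rw [homog_fC a th h1 h2 t v ht hv, Complex.im_ofReal_mul]

theorem mbdd_fR (hq : 0 < q) (a th : Fin q → ℝ) (h0 : ∀ i, 0 ≤ a i) (h1 : ∑ i, a i = 1) :
    MBdd (fR a th) := by
  obtain ⟨C, hC, h⟩ := mbdd_fM hq a h0 h1
  exact ⟨C, hC, fun v hv => (abs_fR_le a th v hv).trans ((le_abs_self _).trans (h v hv))⟩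

theorem mbdd_fI (hq : 0 < q) (a th : Fin q → ℝ) (h0 : ∀ i, 0 ≤ a i) (h1 : ∑ i, a i = 1) :
    MBdd (fI a th) := by
  obtain ⟨C, hC, h⟩ := mbdd_fM hq a h0 h1
  exact ⟨C, hC, fun v hv => (abs_fI_le a th v hv).trans ((le_abs_self _).trans (h v hv))⟩

/-- complex expectation -/
noncomputable def EC (a th : Fin q → ℝ) (w : ι → Fin q → ℝ) : ℂ := ∑' i, fC a th (w i)

theorem summable_norm_fC (hq : 0 < q) (a th : Fin q → ℝ) (h0 : ∀ i, 0 ≤ a i)
    (h1 : ∑ i, a i = 1) {w : ι → Fin q → ℝ} (hw : IsExp w) :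
    Summable (fun i => ‖fC a th (w i)‖) :=
  Summable.of_nonneg_of_le (fun _ => norm_nonneg _) (fun i => norm_fC_le a th _ (hw.nonneg i))
    (hw.summable hq (mbdd_fM hq a h0 h1))

theorem EC_re (hq : 0 < q) (a th : Fin q → ℝ) (h0 : ∀ i, 0 ≤ a i)
    (h1 : ∑ i, a i = 1) {w : ι → Fin q → ℝ} (hw : IsExp w) :
    (EC a th w).re = Ex (fR a th) w := by
  unfold EC Ex fR
  exact Complex.re_tsum (summable_norm_fC hq a th h0 h1 hw).of_norm

theorem EC_im (hq : 0 < q) (a th : Fin q → ℝ) (h0 : ∀ i, 0 ≤ a i)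
    (h1 : ∑ i, a i = 1) {w : ι → Fin q → ℝ} (hw : IsExp w) :
    (EC a th w).im = Ex (fI a th) w := by
  unfold EC Ex fI
  exact Complex.im_tsum (summable_norm_fC hq a th h0 h1 hw).of_norm

theorem EC_mul (hq : 0 < q) (a th : Fin q → ℝ) (h0 : ∀ i, 0 ≤ a i)
    (h1 : ∑ i, a i = 1) {P : κ → Fin q → ℝ} (hP : IsExp P) {Q : ι → Fin q → ℝ} (hQ : IsExp Q) :
    EC a th (mul P Q) = EC a th P * EC a th Q := by
  unfold EC
  rw [tsum_mul_tsum_of_summable_norm (summable_norm_fC hq a th h0 h1 hP)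
    (summable_norm_fC hq a th h0 h1 hQ)]
  exact tsum_congr fun p => fC_mul a th _ _ (hP.nonneg p.1) (hQ.nonneg p.2)

theorem EC_pw (hq : 0 < q) (a th : Fin q → ℝ) (h0 : ∀ i, 0 ≤ a i)
    (h1 : ∑ i, a i = 1) {w : ι → Fin q → ℝ} (hw : IsExp w) (c : ℕ) :
    EC a th (pw w c) = EC a th w ^ c := by
  induction c with
  | zero =>
    rw [pow_zero]
    apply Complex.ext
    · rw [EC_re hq a th h0 h1 (isExp_pw hw 0), Ex_pw_zero]
      simp [fR, fC, fM]
    · rw [EC_im hq a th h0 h1 (isExp_pw hw 0), Ex_pw_zero]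
      simp [fI, fC, fM]
  | succ c ih =>
    have : EC a th (pw w (c + 1)) = EC a th (mul (pw w c) w) := by
      apply Complex.ext
      · rw [EC_re hq a th h0 h1 (isExp_pw hw _), EC_re hq a th h0 h1 (isExp_mul (isExp_pw hw c) hw),
          Ex_pw_succ]
      · rw [EC_im hq a th h0 h1 (isExp_pw hw _), EC_im hq a th h0 h1 (isExp_mul (isExp_pw hw c) hw),
          Ex_pw_succ]
    rw [this, EC_mul hq a th h0 h1 (isExp_pw hw c) hw, ih, pow_succ]

/-- conjugation by a permutation -/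
theorem fC_perm (a th : Fin q → ℝ) (σ : Equiv.Perm (Fin q)) (ha : ∀ i, a (σ i) = a i)
    (hth : ∀ i, th (σ i) = -th i) (v : Fin q → ℝ) :
    fC a th (fun i => v (σ i)) = (starRingEnd ℂ) (fC a th v) := by
  have hM : fM a (fun i => v (σ i)) = fM a v := by
    unfold fM
    rw [← Equiv.prod_comp σ (fun i => v i ^ a i)]
    exact Finset.prod_congr rfl fun i _ => by rw [ha i]
  have hS : (∑ i, th i * Real.log (v (σ i))) = -∑ i, th i * Real.log (v i) := by
    rw [← Equiv.sum_comp σ (fun i => th i * Real.log (v i)), ← Finset.sum_neg_distrib]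
    exact Finset.sum_congr rfl fun i _ => by rw [hth i]; ring
  have hc : (∀ i, th i ≠ 0 → v (σ i) ≠ 0) ↔ (∀ i, th i ≠ 0 → v i ≠ 0) := by
    constructor
    · intro h i hi
      obtain ⟨j, rfl⟩ := σ.surjective i
      exact h j fun hj => hi (by rw [hth j, hj, neg_zero])
    · intro h i hi
      exact h (σ i) (by rw [hth i]; exact neg_ne_zero.2 hi)
  unfold fC
  by_cases h : ∀ i, th i ≠ 0 → v i ≠ 0
  · rw [if_pos h, if_pos (hc.2 h), hM, hS, map_mul, ← Complex.exp_conj, map_mul, Complex.conj_I,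
      Complex.conj_ofReal, Complex.conj_ofReal]
    congr 2
    push_cast
    ring
  · rw [if_neg h, if_neg (fun h' => h (hc.1 h')), map_zero]

theorem EC_real (a th : Fin q → ℝ) (σ : Equiv.Perm (Fin q)) (ha : ∀ i, a (σ i) = a i)
    (hth : ∀ i, th (σ i) = -th i) {w : ι → Fin q → ℝ} (hs : IsSymm w) :
    (starRingEnd ℂ) (EC a th w) = EC a th w := by
  obtain ⟨e, he⟩ := hs σ
  unfold EC
  rw [Complex.conj_tsum]
  have h1 : ∀ i, (starRingEnd ℂ) (fC a th (w i)) = fC a th (w (e i)) := by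
    intro i
    rw [← fC_perm a th σ ha hth]
    congr 1
    funext b
    exact (he i b).symm
  rw [tsum_congr h1]
  exact e.tsum_eq (fun i => fC a th (w i))

theorem EC_eq_ofReal (hq : 0 < q) (a th : Fin q → ℝ) (h0 : ∀ i, 0 ≤ a i)
    (h1 : ∑ i, a i = 1) (σ : Equiv.Perm (Fin q)) (ha : ∀ i, a (σ i) = a i)
    (hth : ∀ i, th (σ i) = -th i) {w : ι → Fin q → ℝ} (hw : IsExp w) (hs : IsSymm w) :
    EC a th w = ((Ex (fR a th) w : ℝ) : ℂ) := by
  have h := Complex.conj_eq_iff_re.1 (EC_real a th σ ha hth hs)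
  rw [← h, EC_re hq a th h0 h1 hw]

/-- the real functional `fR a th` is multiplicative on powers of symmetric experiments -/
theorem Ex_fR_pw (hq : 0 < q) (a th : Fin q → ℝ) (h0 : ∀ i, 0 ≤ a i)
    (h1 : ∑ i, a i = 1) (σ : Equiv.Perm (Fin q)) (ha : ∀ i, a (σ i) = a i)
    (hth : ∀ i, th (σ i) = -th i) {w : ι → Fin q → ℝ} (hw : IsExp w) (hs : IsSymm w) (c : ℕ) :
    Ex (fR a th) (pw w c) = Ex (fR a th) w ^ c := by
  have h2 := EC_pw hq a th h0 h1 hw c
  rw [EC_eq_ofReal hq a th h0 h1 σ ha hth hw hs,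
    EC_eq_ofReal hq a th h0 h1 σ ha hth (isExp_pw hw c) (isSymm_pw hs c)] at h2
  exact_mod_cast h2

theorem abs_Ex_fR_le_one (hq : 0 < q) (a th : Fin q → ℝ) (h0 : ∀ i, 0 ≤ a i)
    (h1 : ∑ i, a i = 1) {w : ι → Fin q → ℝ} (hw : IsExp w) : |Ex (fR a th) w| ≤ 1 := by
  have hs := hw.summable hq (mbdd_fR hq a th h0 h1)
  have hM := hw.summable hq (mbdd_fM hq a h0 h1)
  have h2 : |Ex (fR a th) w| ≤ Ex (fM a) w := by
    unfold Ex
    rw [← Real.norm_eq_abs]
    refine (norm_tsum_le_tsum_norm hs.norm).trans ?_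
    exact Summable.tsum_le_tsum (fun i => abs_fR_le a th _ (hw.nonneg i)) hs.norm hM
  exact h2.trans (Ex_fM_le_one hq a h0 h1 hw)

end Crest.Agent.R163
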