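import Crest.Agent.R163.O4Sym

/-!
# Row 163, orbit inequality for `q = 3`: the cone of symmetric functions of degree 7
-/

set_option autoImplicit false
set_option linter.unusedVariables false
set_option linter.unusedSimpArgs false

namespace Crest.Agent.R163.O3

open Finset
open O4 (dotR dotRR SS SS_nonneg dotZ lin toR dotR_toR dotRR_toR dotR_lin)

/-- the generators of the cone -/
def E : List (List ℤ) := [
  [1, 0, 0, 0, 0, 0, 0, 0],
  [21, 2, 0, 0, 0, 0, 0, 0],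
  [64, 16, 4, 1, 0, 0, 0, 0],
  [84, 11, 1, 0, 0, 0, 0, 0],
  [112, 24, 5, 1, 0, 0, 0, 0],
  [189, 33, 4, 0, 1, 0, 0, 0],
  [280, 50, 8, 1, 0, 0, 0, 0],
  [729, 243, 81, 27, 27, 9, 3, 1],
  [945, 225, 48, 8, 13, 2, 0, 0],
  [1344, 368, 100, 27, 16, 4, 1, 0],
  [2835, 810, 225, 60, 66, 17, 4, 1],
  [3024, 888, 259, 75, 64, 18, 5, 1],
  [3360, 800, 182, 39, 32, 6, 1, 0],
  [11340, 3645, 1170, 375, 372, 119, 38, 12],
  [15120, 4680, 1443, 443, 424, 129, 39, 11]]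

noncomputable def mu (e1 e2 e3 : ℝ) : List ℝ := [
  e1^7, e1^5*e2, e1^3*e2^2, e1*e2^3, e1^4*e3, e1^2*e2*e3, e2^2*e3, e1*e3^2]

noncomputable def w0 (a b c : ℝ) : ℝ := (7/2)*a^6*b + a^7
noncomputable def w1 (a b c : ℝ) : ℝ := (5/3)*a^4*b^2*c + 3*a^5*b*c + a^6*c + (1/2)*a^6*b
noncomputable def w2 (a b c : ℝ) : ℝ := 2*b^7 + 7*a*b^6 + 7*a^2*b^5
noncomputable def w3 (a b c : ℝ) : ℝ := a^5*b^2
noncomputable def w4 (a b c : ℝ) : ℝ := 2*a^2*b^5 + 5*a^3*b^4 + (5/3)*a^4*b^2*c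
noncomputable def w5 (a b c : ℝ) : ℝ := a^2*b^2*c^3 + a^2*b^3*c^2 + (3/2)*a^3*b^2*c^2 + (5/2)*a^4*b*c^2 + (5/2)*a^4*b^2*c + a^5*c^2 + a^5*b*c
noncomputable def w6 (a b c : ℝ) : ℝ := (1/3)*a^4*b^2*c + a^4*b^3
noncomputable def w7 (a b c : ℝ) : ℝ := 3*c^7 + 14*b*c^6 + 21*b^2*c^5 + 7*a*c^6 + 21*a*b*c^5 + 7*a^2*b^2*c^3
noncomputable def w8 (a b c : ℝ) : ℝ := 3*a^2*b^3*c^2 + 2*a^3*b*c^3 + (9/2)*a^3*b^2*c^2 + a^4*c^3 + (3/2)*a^4*b*c^2 + (1/2)*a^4*b^2*c
noncomputable def w9 (a b c : ℝ) : ℝ := b^6*c + 3*a*b^5*c + (5/2)*a^2*b^4*c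
noncomputable def w10 (a b c : ℝ) : ℝ := (1/5)*b^2*c^5 + (1/5)*a*b*c^5 + (1/5)*a^2*c^5 + 2*a^2*b*c^4 + 4*a^2*b^2*c^3 + a^3*c^4 + 2*a^3*b*c^3
noncomputable def w11 (a b c : ℝ) : ℝ := 2*b^5*c^2 + 5*a*b^4*c^2 + 2*a^2*b^2*c^3 + 4*a^2*b^3*c^2 + a^3*b^2*c^2
noncomputable def w12 (a b c : ℝ) : ℝ := (1/2)*a^2*b^4*c + a^3*b^3*c
noncomputable def w13 (a b c : ℝ) : ℝ := (2/5)*b^2*c^5 + 2*b^3*c^4 + (2/5)*a*b*c^5 + 3*a*b^2*c^4 + (2/5)*a^2*c^5 + a^2*b*c^4
noncomputable def w14 (a b c : ℝ) : ℝ := b^4*c^3 + 2*a*b^3*c^3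

noncomputable def f1 (a b c : ℝ) : ℝ := ((a+b+c)+(b+c)+c)
noncomputable def f2 (a b c : ℝ) : ℝ := ((a+b+c)*(b+c)+(a+b+c)*c+(b+c)*c)
noncomputable def f3 (a b c : ℝ) : ℝ := ((a+b+c)*(b+c)*c)

section
variable (a b c : ℝ)

theorem id0 : (f1 a b c)^7 = 1*w0 a b c + 21*w1 a b c + 64*w2 a b c + 84*w3 a b c + 112*w4 a b c + 189*w5 a b c + 280*w6 a b c + 729*w7 a b c + 945*w8 a b c + 1344*w9 a b c + 2835*w10 a b c + 3024*w11 a b c + 3360*w12 a b c + 11340*w13 a b c + 15120*w14 a b c := by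
  simp only [f1, f2, f3, w0, w1, w2, w3, w4, w5, w6, w7, w8, w9, w10, w11, w12, w13, w14]
  ring

theorem id1 : (f1 a b c)^5*(f2 a b c) = 2*w1 a b c + 16*w2 a b c + 11*w3 a b c + 24*w4 a b c + 33*w5 a b c + 50*w6 a b c + 243*w7 a b c + 225*w8 a b c + 368*w9 a b c + 810*w10 a b c + 888*w11 a b c + 800*w12 a b c + 3645*w13 a b c + 4680*w14 a b c := by
  simp only [f1, f2, f3, w0, w1, w2, w3, w4, w5, w6, w7, w8, w9, w10, w11, w12, w13, w14]
  ring

theorem id2 : (f1 a b c)^3*(f2 a b c)^2 = 4*w2 a b c + 1*w3 a b c + 5*w4 a b c + 4*w5 a b c + 8*w6 a b c + 81*w7 a b c + 48*w8 a b c + 100*w9 a b c + 225*w10 a b c + 259*w11 a b c + 182*w12 a b c + 1170*w13 a b c + 1443*w14 a b c := by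
  simp only [f1, f2, f3, w0, w1, w2, w3, w4, w5, w6, w7, w8, w9, w10, w11, w12, w13, w14]
  ring

theorem id3 : (f1 a b c)*(f2 a b c)^3 = 1*w2 a b c + 1*w4 a b c + 1*w6 a b c + 27*w7 a b c + 8*w8 a b c + 27*w9 a b c + 60*w10 a b c + 75*w11 a b c + 39*w12 a b c + 375*w13 a b c + 443*w14 a b c := by
  simp only [f1, f2, f3, w0, w1, w2, w3, w4, w5, w6, w7, w8, w9, w10, w11, w12, w13, w14]
  ring

theorem id4 : (f1 a b c)^4*(f3 a b c) = 1*w5 a b c + 27*w7 a b c + 13*w8 a b c + 16*w9 a b c + 66*w10 a b c + 64*w11 a b c + 32*w12 a b c + 372*w13 a b c + 424*w14 a b c := by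
  simp only [f1, f2, f3, w0, w1, w2, w3, w4, w5, w6, w7, w8, w9, w10, w11, w12, w13, w14]
  ring

theorem id5 : (f1 a b c)^2*(f2 a b c)*(f3 a b c) = 9*w7 a b c + 2*w8 a b c + 4*w9 a b c + 17*w10 a b c + 18*w11 a b c + 6*w12 a b c + 119*w13 a b c + 129*w14 a b c := by
  simp only [f1, f2, f3, w0, w1, w2, w3, w4, w5, w6, w7, w8, w9, w10, w11, w12, w13, w14]
  ring

theorem id6 : (f2 a b c)^2*(f3 a b c) = 3*w7 a b c + 1*w9 a b c + 4*w10 a b c + 5*w11 a b c + 1*w12 a b c + 38*w13 a b c + 39*w14 a b c := by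
  simp only [f1, f2, f3, w0, w1, w2, w3, w4, w5, w6, w7, w8, w9, w10, w11, w12, w13, w14]
  ring

theorem id7 : (f1 a b c)*(f3 a b c)^2 = 1*w7 a b c + 1*w10 a b c + 1*w11 a b c + 12*w13 a b c + 11*w14 a b c := by
  simp only [f1, f2, f3, w0, w1, w2, w3, w4, w5, w6, w7, w8, w9, w10, w11, w12, w13, w14]
  ring

end

theorem w0_nonneg {a b c : ℝ} (ha : 0 ≤ a) (hb : 0 ≤ b) (hc : 0 ≤ c) :
    0 ≤ w0 a b c := by
  unfold w0; positivity

theorem w1_nonneg {a b c : ℝ} (ha : 0 ≤ a) (hb : 0 ≤ b) (hc : 0 ≤ c) :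
    0 ≤ w1 a b c := by
  unfold w1; positivity

theorem w2_nonneg {a b c : ℝ} (ha : 0 ≤ a) (hb : 0 ≤ b) (hc : 0 ≤ c) :
    0 ≤ w2 a b c := by
  unfold w2; positivity

theorem w3_nonneg {a b c : ℝ} (ha : 0 ≤ a) (hb : 0 ≤ b) (hc : 0 ≤ c) :
    0 ≤ w3 a b c := by
  unfold w3; positivity

theorem w4_nonneg {a b c : ℝ} (ha : 0 ≤ a) (hb : 0 ≤ b) (hc : 0 ≤ c) :
    0 ≤ w4 a b c := by
  unfold w4; positivity

theorem w5_nonneg {a b c : ℝ} (ha : 0 ≤ a) (hb : 0 ≤ b) (hc : 0 ≤ c) :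
    0 ≤ w5 a b c := by
  unfold w5; positivity

theorem w6_nonneg {a b c : ℝ} (ha : 0 ≤ a) (hb : 0 ≤ b) (hc : 0 ≤ c) :
    0 ≤ w6 a b c := by
  unfold w6; positivity

theorem w7_nonneg {a b c : ℝ} (ha : 0 ≤ a) (hb : 0 ≤ b) (hc : 0 ≤ c) :
    0 ≤ w7 a b c := by
  unfold w7; positivity

theorem w8_nonneg {a b c : ℝ} (ha : 0 ≤ a) (hb : 0 ≤ b) (hc : 0 ≤ c) :
    0 ≤ w8 a b c := by
  unfold w8; positivity

theorem w9_nonneg {a b c : ℝ} (ha : 0 ≤ a) (hb : 0 ≤ b) (hc : 0 ≤ c) :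
    0 ≤ w9 a b c := by
  unfold w9; positivity

theorem w10_nonneg {a b c : ℝ} (ha : 0 ≤ a) (hb : 0 ≤ b) (hc : 0 ≤ c) :
    0 ≤ w10 a b c := by
  unfold w10; positivity

theorem w11_nonneg {a b c : ℝ} (ha : 0 ≤ a) (hb : 0 ≤ b) (hc : 0 ≤ c) :
    0 ≤ w11 a b c := by
  unfold w11; positivity

theorem w12_nonneg {a b c : ℝ} (ha : 0 ≤ a) (hb : 0 ≤ b) (hc : 0 ≤ c) :
    0 ≤ w12 a b c := by
  unfold w12; positivity

theorem w13_nonneg {a b c : ℝ} (ha : 0 ≤ a) (hb : 0 ≤ b) (hc : 0 ≤ c) :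
    0 ≤ w13 a b c := by
  unfold w13; positivity

theorem w14_nonneg {a b c : ℝ} (ha : 0 ≤ a) (hb : 0 ≤ b) (hc : 0 ≤ c) :
    0 ≤ w14 a b c := by
  unfold w14; positivity

theorem ws_nonneg {a b c : ℝ} (ha : 0 ≤ a) (hb : 0 ≤ b) (hc : 0 ≤ c) :
    ∀ w ∈ ([w0 a b c, w1 a b c, w2 a b c, w3 a b c, w4 a b c, w5 a b c, w6 a b c, w7 a b c, w8 a b c, w9 a b c, w10 a b c, w11 a b c, w12 a b c, w13 a b c, w14 a b c] : List ℝ), 0 ≤ w := by
  refine List.forall_mem_cons.2 ⟨w0_nonneg ha hb hc, ?_⟩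
  refine List.forall_mem_cons.2 ⟨w1_nonneg ha hb hc, ?_⟩
  refine List.forall_mem_cons.2 ⟨w2_nonneg ha hb hc, ?_⟩
  refine List.forall_mem_cons.2 ⟨w3_nonneg ha hb hc, ?_⟩
  refine List.forall_mem_cons.2 ⟨w4_nonneg ha hb hc, ?_⟩
  refine List.forall_mem_cons.2 ⟨w5_nonneg ha hb hc, ?_⟩
  refine List.forall_mem_cons.2 ⟨w6_nonneg ha hb hc, ?_⟩
  refine List.forall_mem_cons.2 ⟨w7_nonneg ha hb hc, ?_⟩
  refine List.forall_mem_cons.2 ⟨w8_nonneg ha hb hc, ?_⟩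
  refine List.forall_mem_cons.2 ⟨w9_nonneg ha hb hc, ?_⟩
  refine List.forall_mem_cons.2 ⟨w10_nonneg ha hb hc, ?_⟩
  refine List.forall_mem_cons.2 ⟨w11_nonneg ha hb hc, ?_⟩
  refine List.forall_mem_cons.2 ⟨w12_nonneg ha hb hc, ?_⟩
  refine List.forall_mem_cons.2 ⟨w13_nonneg ha hb hc, ?_⟩
  refine List.forall_mem_cons.2 ⟨w14_nonneg ha hb hc, ?_⟩
  intro w hw
  exact absurd hw (List.not_mem_nil)

theorem cone_id (a b c : ℝ) (x0 x1 x2 x3 x4 x5 x6 x7 : ℝ) :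
    dotRR (mu (f1 a b c) (f2 a b c) (f3 a b c)) [x0, x1, x2, x3, x4, x5, x6, x7] =
    SS [w0 a b c, w1 a b c, w2 a b c, w3 a b c, w4 a b c, w5 a b c, w6 a b c, w7 a b c, w8 a b c, w9 a b c, w10 a b c, w11 a b c, w12 a b c, w13 a b c, w14 a b c] E [x0, x1, x2, x3, x4, x5, x6, x7] := by
  simp only [mu, dotRR, SS, E, dotR]
  rw [id0, id1, id2, id3, id4, id5, id6, id7]
  push_cast
  ring

theorem cone_sorted {a b c : ℝ} (ha : 0 ≤ a) (hb : 0 ≤ b) (hc : 0 ≤ c)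
    (x0 x1 x2 x3 x4 x5 x6 x7 : ℝ) (h : ∀ r ∈ E, 0 ≤ dotR r [x0, x1, x2, x3, x4, x5, x6, x7]) :
    0 ≤ dotRR (mu (f1 a b c) (f2 a b c) (f3 a b c)) [x0, x1, x2, x3, x4, x5, x6, x7] := by
  rw [cone_id]
  exact SS_nonneg _ _ _ (ws_nonneg ha hb hc) h

def ok (c : List ℤ) : Bool := c.length == 8 && E.all fun r => decide (0 ≤ dotZ r c)

/-- the Gram matrix (times `1224440064`) -/
def G : List (List ℤ) := [
  [192, -1264, 13248, -28836, -3888, -28080, 74844, 5832],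
  [-1264, 9504, 1404, -91368, -240192, 1266192, -1632960, 953532],
  [13248, 1404, -1564920, 5192181, 3645972, -18091593, 14197275, -1638063],
  [-28836, -91368, 5192181, -17452746, -10431018, 56059371, -35731206, -21821886],
  [-3888, -240192, 3645972, -10431018, -5274072, 28388718, -17351658, -13528782],
  [-28080, 1266192, -18091593, 56059371, 28388718, -165763665, 85837563, 132466590],
  [74844, -1632960, 14197275, -35731206, -17351658, 85837563, -29642598, -58104216],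
  [5832, 953532, -1638063, -21821886, -13528782, 132466590, -58104216, -166695327]]

/-- `E * G` -/
def GE : List (List ℤ) := [
  [192, -1264, 13248, -28836, -3888, -28080, 74844, 5832],
  [1504, -7536, 281016, -788292, -562032, 1942704, -1694196, 2029536],
  [16220, -14584, -197163, 8586, 60966, 2154951, -279450, -12744378],
  [15472, -228, -436644, 1764909, 677268, -6522201, 2521611, 9340677],
  [28572, 2180, -1114947, 3085695, 1598778, -7154946, 4446657, -6474249],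
  [43680, -159840, -63504, 1872558, 648648, -7500438, -304722, 12487770],
  [67708, 41144, -3547539, 11442222, 5638518, -33226173, 17155314, 14383170],
  [0, 0, 0, 0, 0, 0, 0, 0],
  [195552, -309744, -9529002, 38310408, 22055652, -124037892, 45034704, 55912842],
  [239440, -939144, 2185326, -2775060, 1161648, 9665244, -9272880, -138957606],
  [342360, -957096, -13652712, 65133234, 40488660, -229547520, 77354190, 70937532],
  [352488, -1663848, 2449845, 8489691, 10101834, -47018799, 1766367, -135187218],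
  [702400, -1673616, -14365080, 61168932, 35750268, -188055108, 65624580, -62985600],
  [382860, -1596672, -5296914, 41113413, 29160000, -161903610, 44385165, -35468766],
  [1042272, -4782240, -3411234, 72497592, 57718332, -312557292, 67866984, -227837286]]

def c_0_0 : List ℤ := [0, 0, 0, 0, 0, 0, 0, 0]
def c_0_1 : List ℤ := [6912, 0, -110592, 0, 165888, 0, 0, 0]
def c_0_2 : List ℤ := [12128, 51648, -276480, 0, 414720, 0, 0, 0]
def c_0_3 : List ℤ := [15648, 125472, -539136, 0, 846936, 0, 0, 0]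
def c_0_4 : List ℤ := [17668, 202272, -864432, 0, 1341900, 0, 0, 0]
def c_0_5 : List ℤ := [18470, 270630, -1180035, 0, 1684125, 170910, 0, 0]
def c_1_0 : List ℤ := [18470, 270630, -1180035, 0, 1684125, 170910, 0, 0]
def c_1_1 : List ℤ := [19272, 338988, -1495638, 0, 2026350, 341820, 0, 0]
def c_1_2 : List ℤ := [18856, 398904, -1801548, 0, 2215836, 683640, 0, 0]
def c_1_3 : List ℤ := [17504, 438960, -2025432, 0, 2037096, 1367280, 0, 0]
def c_1_4 : List ℤ := [15584, 455520, -2056752, 0, 1179792, 2734560, 0, 0]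
def c_1_5 : List ℤ := [13440, 450240, -1784160, 0, -635040, 5469120, 0, 0]
def c_2_0 : List ℤ := [13440, 450240, -1784160, 0, -635040, 5469120, 0, 0]
def c_2_1 : List ℤ := [11296, 444960, -1511568, 0, -2449872, 8203680, 0, 0]
def c_2_2 : List ℤ := [8928, 417840, -935064, 0, -5222232, 12305520, 0, 0]
def c_2_3 : List ℤ := [6680, 370536, 56700, 0, -9231084, 18458280, 0, 0]
def c_2_4 : List ℤ := [4872, 309996, 1575882, 0, -14724018, 27687420, 0, 0]
def c_2_5 : List ℤ := [3690, 245970, 3698055, 0, -21791025, 41531130, 0, 0]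
def c_3_0 : List ℤ := [3690, 245970, 3698055, 0, -21791025, 41531130, 0, 0]
def c_3_1 : List ℤ := [2508, 181944, 5820228, 0, -28858032, 55374840, 0, 0]
def c_3_2 : List ℤ := [1952, 114432, 8545392, 0, -37499112, 73833120, 0, 0]
def c_3_3 : List ℤ := [2208, 53184, 11949120, 0, -47804256, 98444160, 0, 0]
def c_3_4 : List ℤ := [3328, 10752, 16070400, 0, -59705856, 131258880, 0, 0]
def c_3_5 : List ℤ := [5120, 0, 20874240, 0, -72852480, 175011840, 0, 0]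
def c_4_0 : List ℤ := [5120, 0, 20874240, 0, -72852480, 175011840, 0, 0]
def c_4_1 : List ℤ := [8704, -21504, 30481920, 0, -99145728, 262517760, 0, 0]
def c_4_2 : List ℤ := [14976, 83712, 42819840, 0, -130419072, 393776640, 0, 0]
def c_4_3 : List ℤ := [22400, 418560, 57608064, 0, -163861056, 590664960, 0, 0]
def c_4_4 : List ℤ := [25536, 1090944, 73382976, 0, -192119040, 885997440, 0, 0]
def c_4_5 : List ℤ := [11520, 2134080, 86300640, 0, -199260000, 1328996160, 0, 0]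

theorem GE_eq : E.map (fun r => lin r G) = GE := by decide +kernel

theorem GE_ok : GE.all ok = true := by decide +kernel

theorem c_0_0_ok : ok c_0_0 = true := by decide +kernel
theorem c_0_1_ok : ok c_0_1 = true := by decide +kernel
theorem c_0_2_ok : ok c_0_2 = true := by decide +kernel
theorem c_0_3_ok : ok c_0_3 = true := by decide +kernel
theorem c_0_4_ok : ok c_0_4 = true := by decide +kernel
theorem c_0_5_ok : ok c_0_5 = true := by decide +kernel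
theorem c_1_0_ok : ok c_1_0 = true := by decide +kernel
theorem c_1_1_ok : ok c_1_1 = true := by decide +kernel
theorem c_1_2_ok : ok c_1_2 = true := by decide +kernel
theorem c_1_3_ok : ok c_1_3 = true := by decide +kernel
theorem c_1_4_ok : ok c_1_4 = true := by decide +kernel
theorem c_1_5_ok : ok c_1_5 = true := by decide +kernel
theorem c_2_0_ok : ok c_2_0 = true := by decide +kernel
theorem c_2_1_ok : ok c_2_1 = true := by decide +kernel
theorem c_2_2_ok : ok c_2_2 = true := by decide +kernel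
theorem c_2_3_ok : ok c_2_3 = true := by decide +kernel
theorem c_2_4_ok : ok c_2_4 = true := by decide +kernel
theorem c_2_5_ok : ok c_2_5 = true := by decide +kernel
theorem c_3_0_ok : ok c_3_0 = true := by decide +kernel
theorem c_3_1_ok : ok c_3_1 = true := by decide +kernel
theorem c_3_2_ok : ok c_3_2 = true := by decide +kernel
theorem c_3_3_ok : ok c_3_3 = true := by decide +kernel
theorem c_3_4_ok : ok c_3_4 = true := by decide +kernel
theorem c_3_5_ok : ok c_3_5 = true := by decide +kernel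
theorem c_4_0_ok : ok c_4_0 = true := by decide +kernel
theorem c_4_1_ok : ok c_4_1 = true := by decide +kernel
theorem c_4_2_ok : ok c_4_2 = true := by decide +kernel
theorem c_4_3_ok : ok c_4_3 = true := by decide +kernel
theorem c_4_4_ok : ok c_4_4 = true := by decide +kernel
theorem c_4_5_ok : ok c_4_5 = true := by decide +kernel

/-! ### symmetric functions -/

noncomputable def s1 (y : Fin 3 → ℝ) : ℝ := ∑ i, y i
noncomputable def s2 (y : Fin 3 → ℝ) : ℝ := ((∑ i, y i) ^ 2 - ∑ i, y i ^ 2) / 2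
noncomputable def s3 (y : Fin 3 → ℝ) : ℝ := ∏ i, y i

theorem s1_eq (y : Fin 3 → ℝ) : s1 y = y 0 + y 1 + y 2 := by
  simp [s1, Fin.sum_univ_three]

theorem s2_eq (y : Fin 3 → ℝ) : s2 y = y 0 * y 1 + y 0 * y 2 + y 1 * y 2 := by
  simp [s2, Fin.sum_univ_three]; ring

theorem s3_eq (y : Fin 3 → ℝ) : s3 y = y 0 * y 1 * y 2 := by
  simp [s3, Fin.prod_univ_three]

theorem s1_perm (y : Fin 3 → ℝ) (σ : Equiv.Perm (Fin 3)) : s1 (y ∘ σ) = s1 y := by
  unfold s1; exact Equiv.sum_comp σ y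

theorem s2_perm (y : Fin 3 → ℝ) (σ : Equiv.Perm (Fin 3)) : s2 (y ∘ σ) = s2 y := by
  unfold s2
  have h1 : ∑ i, (y ∘ σ) i = ∑ i, y i := Equiv.sum_comp σ y
  have h2 : ∑ i, (y ∘ σ) i ^ 2 = ∑ i, y i ^ 2 := Equiv.sum_comp σ (fun i => y i ^ 2)
  rw [h1, h2]

theorem s3_perm (y : Fin 3 → ℝ) (σ : Equiv.Perm (Fin 3)) : s3 (y ∘ σ) = s3 y := by
  unfold s3; exact Equiv.prod_comp σ y

noncomputable def muy (y : Fin 3 → ℝ) : List ℝ := mu (s1 y) (s2 y) (s3 y)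

theorem cone_list (y : Fin 3 → ℝ) (hy : ∀ i, 0 ≤ y i) (X : List ℝ) (hX : X.length = 8)
    (h : ∀ r ∈ E, 0 ≤ dotR r X) : 0 ≤ dotRR (muy y) X := by
  obtain ⟨σ, hσ⟩ : ∃ σ : Equiv.Perm (Fin 3), Monotone (y ∘ σ) :=
    ⟨Tuple.sort y, Tuple.monotone_sort y⟩
  have hm : muy y = muy (y ∘ σ) := by
    unfold muy; rw [s1_perm, s2_perm, s3_perm]
  rw [hm]
  set v : Fin 3 → ℝ := y ∘ σ with hv
  have h0 : 0 ≤ v 0 := hy _
  have h1 : 0 ≤ v 1 - v 0 := sub_nonneg.2 (hσ (by decide))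
  have h2 : 0 ≤ v 2 - v 1 := sub_nonneg.2 (hσ (by decide))
  have e : muy v = mu (f1 (v 2 - v 1) (v 1 - v 0) (v 0))
      (f2 (v 2 - v 1) (v 1 - v 0) (v 0))
      (f3 (v 2 - v 1) (v 1 - v 0) (v 0)) := by
    unfold muy
    rw [s1_eq, s2_eq, s3_eq]
    congr 1 <;> simp only [f1, f2, f3] <;> ring
  rw [e]
  match X, hX with
  | [x0, x1, x2, x3, x4, x5, x6, x7], _ =>
    exact cone_sorted h2 h1 h0 x0 x1 x2 x3 x4 x5 x6 x7 h

theorem cone_int (y : Fin 3 → ℝ) (hy : ∀ i, 0 ≤ y i) (c : List ℤ) (h : ok c = true) :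
    0 ≤ dotR c (muy y) := by
  unfold ok at h
  rw [Bool.and_eq_true, List.all_eq_true] at h
  rw [← dotRR_toR]
  refine cone_list y hy (toR c) ?_ ?_
  · simpa [toR] using h.1
  · intro r hr
    rw [dotR_toR]
    have := of_decide_eq_true (h.2 r hr)
    exact_mod_cast this

/-- the bilinear form is nonnegative -/
theorem bil_nonneg (y z : Fin 3 → ℝ) (hy : ∀ i, 0 ≤ y i) (hz : ∀ i, 0 ≤ z i) :
    0 ≤ dotRR (muy y) (G.map fun g => dotR g (muy z)) := by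
  refine cone_list y hy _ (by rw [List.length_map]; rfl) ?_
  intro r hr
  rw [← dotR_lin]
  refine cone_int z hz _ ?_
  have h1 : lin r G ∈ GE := by
    rw [← GE_eq]
    exact List.mem_map.2 ⟨r, hr, rfl⟩
  exact List.all_eq_true.1 GE_ok _ h1

end Crest.Agent.R163.O3
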