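import Mathlib

/-!
# Row 163, orbit inequality for `q = 4`: the cone of symmetric functions of degree 8

For `y = (a+b+c+d, b+c+d, c+d, d)` with `a b c d ≥ 0` the vector of the 15 products
`e1^m e2^i e3^j e4^k` (`m+2i+3j+4k = 8`) lies in the cone generated by the 48 rows of `E`.
-/

set_option autoImplicit false
set_option linter.unusedVariables false
set_option linter.unusedSimpArgs false

namespace Crest.Agent.R163.O4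

/-- the 48 generators of the cone -/
def E : List (List ℤ) := [
  [1, 0, 0, 0, 0, 0, 0, 0, 0, 0, 0, 0, 0, 0, 0],
  [32, 3, 0, 0, 0, 0, 0, 0, 0, 0, 0, 0, 0, 0, 0],
  [112, 13, 1, 0, 0, 0, 0, 0, 0, 0, 0, 0, 0, 0, 0],
  [252, 39, 4, 0, 0, 1, 0, 0, 0, 0, 0, 0, 0, 0, 0],
  [256, 64, 16, 4, 1, 0, 0, 0, 0, 0, 0, 0, 0, 0, 0],
  [448, 72, 10, 1, 0, 0, 0, 0, 0, 0, 0, 0, 0, 0, 0],
  [448, 78, 9, 0, 0, 3, 0, 0, 0, 0, 0, 0, 0, 0, 0],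
  [756, 162, 30, 4, 0, 8, 1, 0, 0, 0, 0, 0, 0, 0, 0],
  [1024, 288, 80, 22, 6, 16, 4, 1, 0, 0, 0, 0, 0, 0, 0],
  [1120, 220, 41, 7, 1, 0, 0, 0, 0, 0, 0, 0, 0, 0, 0],
  [1792, 400, 88, 19, 4, 0, 0, 0, 0, 0, 0, 0, 0, 0, 0],
  [2187, 729, 243, 81, 27, 81, 27, 9, 3, 1, 0, 0, 0, 0, 0],
  [2688, 516, 82, 9, 0, 22, 2, 0, 0, 0, 0, 0, 0, 0, 0],
  [3584, 864, 180, 27, 0, 64, 9, 0, 0, 0, 1, 0, 0, 0, 0],
  [3584, 912, 224, 53, 12, 48, 10, 2, 0, 0, 0, 0, 0, 0, 0],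
  [4480, 1020, 214, 40, 6, 50, 8, 1, 0, 0, 0, 0, 0, 0, 0],
  [5670, 1485, 369, 84, 16, 105, 23, 4, 1, 0, 0, 0, 0, 0, 0],
  [6048, 1359, 262, 36, 0, 86, 11, 0, 0, 0, 1, 0, 0, 0, 0],
  [6804, 2025, 594, 171, 48, 180, 51, 14, 4, 1, 0, 0, 0, 0, 0],
  [16128, 4656, 1336, 381, 108, 304, 84, 23, 4, 1, 0, 0, 0, 0, 0],
  [17920, 5280, 1476, 378, 81, 560, 138, 27, 9, 0, 17, 3, 0, 0, 0],
  [23328, 8019, 2754, 945, 324, 1026, 351, 120, 44, 15, 27, 9, 3, 1, 0],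
  [24192, 7344, 2220, 668, 200, 616, 183, 54, 14, 4, 0, 0, 0, 0, 0],
  [26880, 6840, 1608, 333, 54, 540, 105, 15, 4, 0, 9, 1, 0, 0, 0],
  [28672, 8832, 2688, 808, 240, 832, 240, 68, 16, 4, 16, 4, 1, 0, 0],
  [30240, 8235, 2118, 496, 96, 710, 159, 28, 8, 0, 13, 2, 0, 0, 0],
  [40320, 10560, 2692, 663, 156, 640, 150, 33, 6, 1, 0, 0, 0, 0, 0],
  [54432, 17658, 5724, 1854, 600, 1845, 597, 193, 62, 20, 0, 0, 0, 0, 0],
  [57344, 18944, 6208, 2016, 648, 2304, 736, 232, 80, 24, 80, 24, 7, 2, 0],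
  [57344, 19200, 6336, 2052, 648, 2560, 816, 252, 96, 27, 112, 33, 9, 3, 0],
  [60480, 17010, 4515, 1089, 216, 1645, 381, 69, 22, 0, 43, 7, 0, 0, 0],
  [65536, 24576, 9216, 3456, 1296, 4096, 1536, 576, 256, 96, 256, 96, 36, 16, 1],
  [71680, 20160, 5472, 1420, 348, 1760, 432, 98, 24, 4, 32, 6, 1, 0, 0],
  [90720, 27945, 8460, 2505, 720, 2940, 852, 238, 76, 19, 66, 17, 4, 1, 0],
  [90720, 28620, 9009, 2829, 886, 2760, 863, 269, 81, 25, 0, 0, 0, 0, 0],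
  [96768, 30384, 9472, 2931, 900, 3056, 926, 278, 80, 23, 64, 18, 5, 1, 0],
  [114688, 41472, 14976, 5400, 1944, 6400, 2304, 828, 352, 126, 352, 126, 45, 19, 1],
  [120960, 38340, 11934, 3628, 1068, 4490, 1338, 383, 134, 34, 152, 41, 10, 3, 0],
  [286720, 99840, 34624, 11952, 4104, 14080, 4832, 1648, 656, 220, 656, 220, 73, 28, 1],
  [290304, 104544, 37620, 13527, 4860, 15744, 5653, 2028, 844, 302, 801, 286, 102, 42, 2],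
  [326592, 115182, 40581, 14283, 5022, 16227, 5697, 1998, 790, 276, 675, 234, 81, 31, 1],
  [362880, 121500, 40590, 13530, 4500, 14730, 4884, 1616, 572, 188, 372, 119, 38, 12, 0],
  [483840, 157680, 51168, 16531, 5316, 17840, 5706, 1816, 604, 189, 424, 129, 39, 11, 0],
  [483840, 177120, 64812, 23706, 8667, 27920, 10206, 3729, 1603, 585, 1579, 576, 210, 90, 5],
  [645120, 226560, 79376, 27738, 9666, 32480, 11310, 3926, 1586, 546, 1548, 532, 182, 72, 3],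
  [967680, 324000, 107952, 35778, 11790, 40720, 13368, 4359, 1580, 504, 1480, 469, 147, 49, 1],
  [967680, 332640, 114048, 38996, 13296, 44560, 15162, 5143, 1970, 662, 1756, 585, 194, 71, 2],
  [1548288, 573696, 212544, 78732, 29160, 93184, 34512, 12780, 5600, 2073, 5584, 2067, 765, 335, 20]]


/-- the vector of symmetric functions -/
noncomputable def mu (e1 e2 e3 e4 : ℝ) : List ℝ := [
  e1^8, e1^6*e2, e1^4*e2^2, e1^2*e2^3, e2^4, e1^5*e3, e1^3*e2*e3, e1*e2^2*e3, e1^2*e3^2, e2*e3^2, e1^4*e4, e1^2*e2*e4, e2^2*e4, e1*e3*e4, e4^2]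


def dotR : List ℤ → List ℝ → ℝ
  | x :: xs, y :: ys => (x : ℝ) * y + dotR xs ys
  | [], _ => 0
  | _ :: _, [] => 0

def dotRR : List ℝ → List ℝ → ℝ
  | x :: xs, y :: ys => x * y + dotRR xs ys
  | [], _ => 0
  | _ :: _, [] => 0

def SS : List ℝ → List (List ℤ) → List ℝ → ℝ
  | w :: ws, r :: rs, X => w * dotR r X + SS ws rs X
  | [], _, _ => 0
  | _ :: _, [], _ => 0

theorem SS_nonneg : ∀ (ws : List ℝ) (rs : List (List ℤ)) (X : List ℝ), (∀ w ∈ ws, 0 ≤ w) →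
    (∀ r ∈ rs, 0 ≤ dotR r X) → 0 ≤ SS ws rs X
  | [], _, _, _, _ => by simp [SS]
  | _ :: _, [], _, _, _ => by simp [SS]
  | w :: ws, r :: rs, X, hw, hr => by
    rw [SS]
    exact add_nonneg (mul_nonneg (hw w (by simp)) (hr r (by simp)))
      (SS_nonneg ws rs X (fun w h => hw w (by simp [h])) (fun r h => hr r (by simp [h])))


section
variable (a b c d : ℝ)

noncomputable def w0 (a b c d : ℝ) : ℝ := (28/3)*a^6*b*c + (8/3)*a^7*c + (16/3)*a^7*b + a^8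

noncomputable def w1 (a b c d : ℝ) : ℝ := (23/13)*a^2*b^2*c^2*d^2 + (11/9)*a^2*b^2*c^3*d + (7/9)*a^2*b^3*c^2*d + (2/17)*a^2*b^4*c*d + 2*a^3*b^2*c^2*d + (4/17)*a^3*b^3*c*d + (35/18)*a^4*b^2*c^2 + (7/3)*a^6*c*d + (14/3)*a^6*b*d + (7/3)*a^6*b*c + a^7*d + (2/3)*a^7*c + (1/3)*a^7*b

noncomputable def w2 (a b c d : ℝ) : ℝ := a^6*b^2

noncomputable def w3 (a b c d : ℝ) : ℝ := (1/6)*a^4*b^2*c^2 + 3*a^5*b*c^2 + a^6*c^2 + a^6*b*c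

noncomputable def w4 (a b c d : ℝ) : ℝ := 4*b^7*c + b^8 + 14*a*b^6*c + 4*a*b^7 + 14*a^2*b^5*c + (14/3)*a^2*b^6 + (7/6)*a^4*b^2*c^2

noncomputable def w5 (a b c d : ℝ) : ℝ := (3/2)*a^5*b^2*c + a^5*b^3

noncomputable def w6 (a b c d : ℝ) : ℝ := (32/9)*a^2*b^2*c^3*d + (64/9)*a^2*b^3*c^2*d + 4*a^3*b^2*c^2*d + (11/18)*a^4*b^2*c^2 + 2*a^5*c*d^2 + 4*a^5*b*d^2 + 4*a^5*b*c*d + a^6*d^2 + (4/3)*a^6*c*d + (2/3)*a^6*b*d

noncomputable def w7 (a b c d : ℝ) : ℝ := (3/2)*a^2*b^2*c^4 + 2*a^2*b^3*c^3 + 3*a^3*b^2*c^3 + 5*a^4*b*c^3 + 8*a^4*b^2*c^2 + 2*a^5*c^3 + 3*a^5*b*c^2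

noncomputable def w8 (a b c d : ℝ) : ℝ := 14*b^6*c*d + 4*b^7*d + 2*b^7*c + 42*a*b^5*c*d + 14*a*b^6*d + 7*a*b^6*c + (174/13)*a^2*b^2*c^2*d^2 + (38/3)*a^2*b^2*c^3*d + 42*a^2*b^3*c^2*d + (619/17)*a^2*b^4*c*d + 14*a^2*b^5*d + 7*a^2*b^5*c + 8*a^3*b^2*c^2*d + (48/17)*a^3*b^3*c*d

noncomputable def w9 (a b c d : ℝ) : ℝ := (5/6)*a^4*b^2*c^2 + 2*a^4*b^3*c + a^4*b^4

noncomputable def w10 (a b c d : ℝ) : ℝ := a^2*b^5*c + (1/3)*a^2*b^6 + (5/2)*a^3*b^4*c + a^3*b^5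

noncomputable def w11 (a b c d : ℝ) : ℝ := 3*c^8 + 16*b*c^7 + 28*b^2*c^6 + 8*a*c^7 + 28*a*b*c^6 + 14*a^2*b^2*c^4

noncomputable def w12 (a b c d : ℝ) : ℝ := a^5*b*c*d + a^5*b^2*d + (1/2)*a^5*b^2*c

noncomputable def w13 (a b c d : ℝ) : ℝ := (1/2)*b^2*c^2*d^4 + (1/2)*a*b*c^2*d^4 + 4*a^2*b^2*c*d^3 + (157/26)*a^2*b^2*c^2*d^2 + (8/3)*a^2*b^3*d^3 + 2*a^2*b^3*c*d^2 + (13/17)*a^2*b^4*c*d + (2/3)*a^3*c^2*d^3 + 4*a^3*b*c*d^3 + (113/17)*a^3*b*c^2*d^2 + 4*a^3*b^2*d^3 + 3*a^3*b^2*c*d^2 + (26/17)*a^3*b^3*c*d + (5/3)*a^4*c*d^3 + (10/3)*a^4*b*d^3 + 5*a^4*b*c*d^2 + a^5*d^3 + 2*a^5*c*d^2 + a^5*b*d^2 + a^5*b*c*d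

noncomputable def w14 (a b c d : ℝ) : ℝ := (3/13)*a^2*b^2*c^2*d^2 + (79/17)*a^2*b^4*c*d + 2*a^2*b^5*d + a^2*b^5*c + (158/17)*a^3*b^3*c*d + 5*a^3*b^4*d + (5/2)*a^3*b^4*c + (1/2)*a^4*b^2*c^2

noncomputable def w15 (a b c d : ℝ) : ℝ := 3*a^4*b^2*c*d + 2*a^4*b^3*d + a^4*b^3*c

noncomputable def w16 (a b c d : ℝ) : ℝ := 4*a^2*b^3*c^3 + 2*a^3*b*c^4 + 6*a^3*b^2*c^3 + a^4*c^4 + 2*a^4*b*c^3 + a^4*b^2*c^2

noncomputable def w17 (a b c d : ℝ) : ℝ := (5/2)*a^4*b*c^2*d + a^5*c^2*d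

noncomputable def w18 (a b c d : ℝ) : ℝ := (1/3)*b^2*c^6 + (1/3)*a*b*c^6 + (1/3)*a^2*c^6 + 4*a^2*b*c^5 + 10*a^2*b^2*c^4 + 2*a^3*c^5 + 5*a^3*b*c^4

noncomputable def w19 (a b c d : ℝ) : ℝ := b^6*c^2 + 3*a*b^5*c^2 + (5/2)*a^2*b^4*c^2

noncomputable def w20 (a b c d : ℝ) : ℝ := (4/3)*b^2*c^3*d^3 + (4/3)*a*b*c^3*d^3 + (2/3)*a^2*c^2*d^4 + (4/3)*a^2*c^3*d^3 + (8/3)*a^2*b*c*d^4 + 12*a^2*b*c^2*d^3 + (8/3)*a^2*b^2*d^4 + (28/3)*a^2*b^2*c*d^3 + (8/3)*a^2*b^3*d^3 + (4/5)*a^2*b^3*c*d^2 + (4/3)*a^3*c*d^4 + 4*a^3*c^2*d^3 + (8/3)*a^3*b*d^4 + (28/3)*a^3*b*c*d^3 + (454/51)*a^3*b*c^2*d^2 + 4*a^3*b^2*d^3 + (6/5)*a^3*b^2*c*d^2 + a^4*d^4 + (8/3)*a^4*c*d^3 + (4/3)*a^4*b*d^3 + 2*a^4*b*c*d^2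

noncomputable def w21 (a b c d : ℝ) : ℝ := 3*c^7*d + 14*b*c^6*d + 21*b^2*c^5*d + 7*a*c^6*d + 21*a*b*c^5*d + (72/13)*a^2*b^2*c^2*d^2 + 8*a^2*b^2*c^3*d + (7/3)*a^2*b^3*c^2*d + a^3*b^2*c^2*d

noncomputable def w22 (a b c d : ℝ) : ℝ := 2*b^5*c^3 + 5*a*b^4*c^3 + (3/2)*a^2*b^2*c^4 + 4*a^2*b^3*c^3 + a^3*b^2*c^3

noncomputable def w23 (a b c d : ℝ) : ℝ := (2/5)*a^2*b^3*c*d^2 + (5/17)*a^2*b^4*c*d + (1/17)*a^3*b*c^2*d^2 + (3/5)*a^3*b^2*c*d^2 + (10/17)*a^3*b^3*c*d + a^4*b*c*d^2 + a^4*b^2*d^2 + a^4*b^2*c*d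

noncomputable def w24 (a b c d : ℝ) : ℝ := 3*b^5*c*d^2 + b^6*d^2 + b^6*c*d + (15/2)*a*b^4*c*d^2 + 3*a*b^5*d^2 + 3*a*b^5*c*d + (12/13)*a^2*b^2*c^2*d^2 + (7/3)*a^2*b^2*c^3*d + 6*a^2*b^3*c*d^2 + (19/3)*a^2*b^3*c^2*d + (5/2)*a^2*b^4*d^2 + 3*a^2*b^4*c*d + (5/34)*a^3*b*c^2*d^2 + (3/2)*a^3*b^2*c*d^2 + 2*a^3*b^2*c^2*d + a^3*b^3*c*d

noncomputable def w25 (a b c d : ℝ) : ℝ := (5/3)*a^2*b^3*c^2*d + (6/17)*a^2*b^4*c*d + (14/17)*a^3*b*c^2*d^2 + 2*a^3*b*c^3*d + 5*a^3*b^2*c^2*d + (12/17)*a^3*b^3*c*d + a^4*c^3*d + (3/2)*a^4*b*c^2*d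

noncomputable def w26 (a b c d : ℝ) : ℝ := (1/2)*a^2*b^4*c^2 + a^3*b^3*c^2

noncomputable def w27 (a b c d : ℝ) : ℝ := (1/3)*b^2*c^6 + 2*b^3*c^5 + (1/3)*a*b*c^6 + 3*a*b^2*c^5 + (1/3)*a^2*c^6 + a^2*b*c^5

noncomputable def w28 (a b c d : ℝ) : ℝ := b^2*c^2*d^4 + 3*b^2*c^3*d^3 + 5*b^4*c*d^3 + 2*b^5*d^3 + 3*b^5*c*d^2 + a*b*c^2*d^4 + 3*a*b*c^3*d^3 + 10*a*b^3*c*d^3 + 5*a*b^4*d^3 + (15/2)*a*b^4*c*d^2 + 3*a^2*c^3*d^3 + 6*a^2*b^2*c*d^3 + (114/13)*a^2*b^2*c^2*d^2 + 4*a^2*b^3*d^3 + 6*a^2*b^3*c*d^2 + a^3*c^2*d^3 + a^3*b*c*d^3 + (69/34)*a^3*b*c^2*d^2 + a^3*b^2*d^3 + (3/2)*a^3*b^2*c*d^2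

noncomputable def w29 (a b c d : ℝ) : ℝ := (10/3)*b^2*c^3*d^3 + (10/3)*a*b*c^3*d^3 + a^2*c*d^5 + (5/3)*a^2*c^2*d^4 + (10/3)*a^2*c^3*d^3 + 2*a^2*b*d^5 + (20/3)*a^2*b*c*d^4 + (5/3)*a^2*b^2*d^4 + (10/3)*a^2*b^2*c*d^3 + a^3*d^5 + (10/3)*a^3*c*d^4 + (10/3)*a^3*c^2*d^3 + (5/3)*a^3*b*d^4 + (10/3)*a^3*b*c*d^3 + (70/51)*a^3*b*c^2*d^2

noncomputable def w30 (a b c d : ℝ) : ℝ := (8/5)*a^2*b^3*c*d^2 + (12/5)*a^3*b^2*c*d^2 + a^4*c^2*d^2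

noncomputable def w31 (a b c d : ℝ) : ℝ := d^8 + 6*c*d^7 + 14*c^2*d^6 + 4*b*d^7 + (56/3)*b*c*d^6 + (14/3)*b^2*d^6 + 14*b^2*c*d^5 + (14/3)*b^2*c^2*d^4 + 2*a*d^7 + (28/3)*a*c*d^6 + (14/3)*a*b*d^6 + 14*a*b*c*d^5 + (14/3)*a*b*c^2*d^4

noncomputable def w32 (a b c d : ℝ) : ℝ := (1/2)*a^2*b^4*d^2 + a^3*b^3*d^2

noncomputable def w33 (a b c d : ℝ) : ℝ := (1/5)*b^2*c^5*d + (1/5)*a*b*c^5*d + (1/5)*a^2*c^5*d + 2*a^2*b*c^4*d + (3/13)*a^2*b^2*c^2*d^2 + (13/3)*a^2*b^2*c^3*d + (5/3)*a^2*b^3*c^2*d + a^3*c^4*d + (14/17)*a^3*b*c^2*d^2 + 2*a^3*b*c^3*d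

noncomputable def w34 (a b c d : ℝ) : ℝ := b^4*c^4 + 2*a*b^3*c^4

noncomputable def w35 (a b c d : ℝ) : ℝ := 2*b^5*c^2*d + 5*a*b^4*c^2*d + (2/3)*a^2*b^2*c^3*d

noncomputable def w36 (a b c d : ℝ) : ℝ := c^2*d^6 + (4/3)*b*c*d^6 + (4/3)*b^2*d^6 + 10*b^2*c*d^5 + (55/3)*b^2*c^2*d^4 + 4*b^3*d^5 + 10*b^3*c*d^4 + (2/3)*a*c*d^6 + (4/3)*a*b*d^6 + 10*a*b*c*d^5 + (55/3)*a*b*c^2*d^4 + 6*a*b^2*d^5 + 15*a*b^2*c*d^4 + a^2*d^6 + 4*a^2*c*d^5 + 5*a^2*c^2*d^4 + 2*a^2*b*d^5 + 5*a^2*b*c*d^4 + (10/13)*a^2*b^2*c^2*d^2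

noncomputable def w37 (a b c d : ℝ) : ℝ := (1/2)*b^2*c^4*d^2 + (1/2)*a*b*c^4*d^2 + (1/2)*a^2*c^4*d^2 + 4*a^2*b*c^3*d^2 + (66/13)*a^2*b^2*c^2*d^2 + 2*a^3*c^3*d^2

noncomputable def w38 (a b c d : ℝ) : ℝ := 2*b^3*c*d^4 + b^4*d^4 + 2*b^4*c*d^3 + 3*a*b^2*c*d^4 + 2*a*b^3*d^4 + 4*a*b^3*c*d^3 + a^2*c^2*d^4 + a^2*b*c*d^4 + 6*a^2*b*c^2*d^3 + a^2*b^2*d^4 + 2*a^2*b^2*c*d^3

noncomputable def w39 (a b c d : ℝ) : ℝ := 3*c^5*d^3 + 10*b*c^4*d^3 + (3/2)*b^2*c^2*d^4 + 12*b^2*c^3*d^3 + 5*a*c^4*d^3 + (3/2)*a*b*c^2*d^4 + 12*a*b*c^3*d^3 + 2*a^2*c^3*d^3 + (3/26)*a^2*b^2*c^2*d^2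

noncomputable def w40 (a b c d : ℝ) : ℝ := c^6*d^2 + 4*b*c^5*d^2 + 5*b^2*c^4*d^2 + 2*a*c^5*d^2 + 5*a*b*c^4*d^2

noncomputable def w41 (a b c d : ℝ) : ℝ := (2/5)*b^2*c^5*d + 2*b^3*c^4*d + (2/5)*a*b*c^5*d + 3*a*b^2*c^4*d + (2/5)*a^2*c^5*d + a^2*b*c^4*d

noncomputable def w42 (a b c d : ℝ) : ℝ := b^4*c^3*d + 2*a*b^3*c^3*d

noncomputable def w43 (a b c d : ℝ) : ℝ := 3*c^4*d^4 + 8*b*c^3*d^4 + 2*b^2*c^2*d^4 + 4*a*c^3*d^4 + 2*a*b*c^2*d^4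

noncomputable def w44 (a b c d : ℝ) : ℝ := 4*b^3*c^2*d^3 + 6*a*b^2*c^2*d^3

noncomputable def w45 (a b c d : ℝ) : ℝ := b^4*c^2*d^2 + 2*a*b^3*c^2*d^2

noncomputable def w46 (a b c d : ℝ) : ℝ := (1/2)*b^2*c^4*d^2 + 2*b^3*c^3*d^2 + (1/2)*a*b*c^4*d^2 + 3*a*b^2*c^3*d^2 + (1/2)*a^2*c^4*d^2 + a^2*b*c^3*d^2

noncomputable def w47 (a b c d : ℝ) : ℝ := c^3*d^5 + 2*b*c^2*d^5 + a*c^2*d^5


noncomputable def f1 (a b c d : ℝ) : ℝ := ((a+b+c+d)+(b+c+d)+(c+d)+d)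
noncomputable def f2 (a b c d : ℝ) : ℝ := ((a+b+c+d)*(b+c+d)+(a+b+c+d)*(c+d)+(a+b+c+d)*d+(b+c+d)*(c+d)+(b+c+d)*d+(c+d)*d)
noncomputable def f3 (a b c d : ℝ) : ℝ := ((a+b+c+d)*(b+c+d)*(c+d)+(a+b+c+d)*(b+c+d)*d+(a+b+c+d)*(c+d)*d+(b+c+d)*(c+d)*d)
noncomputable def f4 (a b c d : ℝ) : ℝ := ((a+b+c+d)*(b+c+d)*(c+d)*d)

theorem id0 : (f1 a b c d)^8 = 1*w0 a b c d + 32*w1 a b c d + 112*w2 a b c d + 252*w3 a b c d + 256*w4 a b c d + 448*w5 a b c d + 448*w6 a b c d + 756*w7 a b c d + 1024*w8 a b c d + 1120*w9 a b c d + 1792*w10 a b c d + 2187*w11 a b c d + 2688*w12 a b c d + 3584*w13 a b c d + 3584*w14 a b c d + 4480*w15 a b c d + 5670*w16 a b c d + 6048*w17 a b c d + 6804*w18 a b c d + 16128*w19 a b c d + 17920*w20 a b c d + 23328*w21 a b c d + 24192*w22 a b c d + 26880*w23 a b c d + 28672*w24 a b c d + 30240*w25 a b c d + 40320*w26 a b c d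 + 54432*w27 a b c d + 57344*w28 a b c d + 57344*w29 a b c d + 60480*w30 a b c d + 65536*w31 a b c d + 71680*w32 a b c d + 90720*w33 a b c d + 90720*w34 a b c d + 96768*w35 a b c d + 114688*w36 a b c d + 120960*w37 a b c d + 286720*w38 a b c d + 290304*w39 a b c d + 326592*w40 a b c d + 362880*w41 a b c d + 483840*w42 a b c d + 483840*w43 a b c d + 645120*w44 a b c d + 967680*w45 a b c d + 967680*w46 a b c d + 1548288*w47 a b c d := by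
  simp only [f1, f2, f3, f4, w0, w1, w2, w3, w4, w5, w6, w7, w8, w9, w10, w11, w12, w13, w14, w15, w16, w17, w18, w19, w20, w21, w22, w23, w24, w25, w26, w27, w28, w29, w30, w31, w32, w33, w34, w35, w36, w37, w38, w39, w40, w41, w42, w43, w44, w45, w46, w47]
  ring

theorem id1 : (f1 a b c d)^6*(f2 a b c d) = 3*w1 a b c d + 13*w2 a b c d + 39*w3 a b c d + 64*w4 a b c d + 72*w5 a b c d + 78*w6 a b c d + 162*w7 a b c d + 288*w8 a b c d + 220*w9 a b c d + 400*w10 a b c d + 729*w11 a b c d + 516*w12 a b c d + 864*w13 a b c d + 912*w14 a b c d + 1020*w15 a b c d + 1485*w16 a b c d + 1359*w17 a b c d + 2025*w18 a b c d + 4656*w19 a b c d + 5280*w20 a b c d + 8019*w21 a b c d + 7344*w22 a b c d + 6840*w23 a b c d + 8832*w24 a b c d + 8235*w25 a b c d + 10560*w26 a b c d + 17658*w27 a b c d + 18944*w28 a b c d + 19200*w29 a b c d + 17010*w30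 a b c d + 24576*w31 a b c d + 20160*w32 a b c d + 27945*w33 a b c d + 28620*w34 a b c d + 30384*w35 a b c d + 41472*w36 a b c d + 38340*w37 a b c d + 99840*w38 a b c d + 104544*w39 a b c d + 115182*w40 a b c d + 121500*w41 a b c d + 157680*w42 a b c d + 177120*w43 a b c d + 226560*w44 a b c d + 324000*w45 a b c d + 332640*w46 a b c d + 573696*w47 a b c d := by
  simp only [f1, f2, f3, f4, w1, w2, w3, w4, w5, w6, w7, w8, w9, w10, w11, w12, w13, w14, w15, w16, w17, w18, w19, w20, w21, w22, w23, w24, w25, w26, w27, w28, w29, w30, w31, w32, w33, w34, w35, w36, w37, w38, w39, w40, w41, w42, w43, w44, w45, w46, w47]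
  ring

theorem id2 : (f1 a b c d)^4*(f2 a b c d)^2 = 1*w2 a b c d + 4*w3 a b c d + 16*w4 a b c d + 10*w5 a b c d + 9*w6 a b c d + 30*w7 a b c d + 80*w8 a b c d + 41*w9 a b c d + 88*w10 a b c d + 243*w11 a b c d + 82*w12 a b c d + 180*w13 a b c d + 224*w14 a b c d + 214*w15 a b c d + 369*w16 a b c d + 262*w17 a b c d + 594*w18 a b c d + 1336*w19 a b c d + 1476*w20 a b c d + 2754*w21 a b c d + 2220*w22 a b c d + 1608*w23 a b c d + 2688*w24 a b c d + 2118*w25 a b c d + 2692*w26 a b c d + 5724*w27 a b c d + 6208*w28 a b c d + 6336*w29 a b c d + 4515*w30 a b c d + 9216*w31 a b c d + 5472*w32 a b c d + 8460*w33 a b c d + 9009*w34 a b c d + 9472*w35 a b c d + 14976*w36 a b c d + 11934*w37 a b c d + 34624*w38 a b c d + 37620*w39 a b c d + 40581*w40 a b c d + 40590*w41 a b c d + 51168*w42 a b c d + 64812*w43 a b c d + 79376*w44 a b c d + 107952*w45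 a b c d + 114048*w46 a b c d + 212544*w47 a b c d := by
  simp only [f1, f2, f3, f4, w2, w3, w4, w5, w6, w7, w8, w9, w10, w11, w12, w13, w14, w15, w16, w17, w18, w19, w20, w21, w22, w23, w24, w25, w26, w27, w28, w29, w30, w31, w32, w33, w34, w35, w36, w37, w38, w39, w40, w41, w42, w43, w44, w45, w46, w47]
  ring

theorem id3 : (f1 a b c d)^2*(f2 a b c d)^3 = 4*w4 a b c d + 1*w5 a b c d + 4*w7 a b c d + 22*w8 a b c d + 7*w9 a b c d + 19*w10 a b c d + 81*w11 a b c d + 9*w12 a b c d + 27*w13 a b c d + 53*w14 a b c d + 40*w15 a b c d + 84*w16 a b c d + 36*w17 a b c d + 171*w18 a b c d + 381*w19 a b c d + 378*w20 a b c d + 945*w21 a b c d + 668*w22 a b c d + 333*w23 a b c d + 808*w24 a b c d + 496*w25 a b c d + 663*w26 a b c d + 1854*w27 a b c d + 2016*w28 a b c d + 2052*w29 a b c d + 1089*w30 a b c d + 3456*w31 a b c d + 1420*w32 a b c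 d + 2505*w33 a b c d + 2829*w34 a b c d + 2931*w35 a b c d + 5400*w36 a b c d + 3628*w37 a b c d + 11952*w38 a b c d + 13527*w39 a b c d + 14283*w40 a b c d + 13530*w41 a b c d + 16531*w42 a b c d + 23706*w43 a b c d + 27738*w44 a b c d + 35778*w45 a b c d + 38996*w46 a b c d + 78732*w47 a b c d := by
  simp only [f1, f2, f3, f4, w4, w5, w7, w8, w9, w10, w11, w12, w13, w14, w15, w16, w17, w18, w19, w20, w21, w22, w23, w24, w25, w26, w27, w28, w29, w30, w31, w32, w33, w34, w35, w36, w37, w38, w39, w40, w41, w42, w43, w44, w45, w46, w47]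
  ring

theorem id4 : (f2 a b c d)^4 = 1*w4 a b c d + 6*w8 a b c d + 1*w9 a b c d + 4*w10 a b c d + 27*w11 a b c d + 12*w14 a b c d + 6*w15 a b c d + 16*w16 a b c d + 48*w18 a b c d + 108*w19 a b c d + 81*w20 a b c d + 324*w21 a b c d + 200*w22 a b c d + 54*w23 a b c d + 240*w24 a b c d + 96*w25 a b c d + 156*w26 a b c d + 600*w27 a b c d + 648*w28 a b c d + 648*w29 a b c d + 216*w30 a b c d + 1296*w31 a b c d + 348*w32 a b c d + 720*w33 a b c d + 886*w34 a b c d + 900*w35 a b c d + 1944*w36 a b c d + 1068*w37 a b c d + 4104*w38 a b c d + 4860*w39 a b c d + 5022*w40 a b c d + 4500*w41 a b c d + 5316*w42 a b c d + 8667*w43 a b c d + 9666*w44 a b c d + 11790*w45 a b c d + 13296*w46 a b c d + 29160*w47 a b c d := by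
  simp only [f1, f2, f3, f4, w4, w8, w9, w10, w11, w14, w15, w16, w18, w19, w20, w21, w22, w23, w24, w25, w26, w27, w28, w29, w30, w31, w32, w33, w34, w35, w36, w37, w38, w39, w40, w41, w42, w43, w44, w45, w46, w47]
  ring

theorem id5 : (f1 a b c d)^5*(f3 a b c d) = 1*w3 a b c d + 3*w6 a b c d + 8*w7 a b c d + 16*w8 a b c d + 81*w11 a b c d + 22*w12 a b c d + 64*w13 a b c d + 48*w14 a b c d + 50*w15 a b c d + 105*w16 a b c d + 86*w17 a b c d + 180*w18 a b c d + 304*w19 a b c d + 560*w20 a b c d + 1026*w21 a b c d + 616*w22 a b c d + 540*w23 a b c d + 832*w24 a b c d + 710*w25 a b c d + 640*w26 a b c d + 1845*w27 a b c d + 2304*w28 a b c d + 2560*w29 a b c d + 1645*w30 a b c d + 4096*w31 a b c d + 1760*w32 a b c d + 2940*w33 a b c d + 2760*w34 a b c d + 3056*w35 a b c d + 6400*w36 a b c d + 4490*w37 a b c d + 14080*w38 a b c d + 15744*w39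 a b c d + 16227*w40 a b c d + 14730*w41 a b c d + 17840*w42 a b c d + 27920*w43 a b c d + 32480*w44 a b c d + 40720*w45 a b c d + 44560*w46 a b c d + 93184*w47 a b c d := by
  simp only [f1, f2, f3, f4, w3, w6, w7, w8, w11, w12, w13, w14, w15, w16, w17, w18, w19, w20, w21, w22, w23, w24, w25, w26, w27, w28, w29, w30, w31, w32, w33, w34, w35, w36, w37, w38, w39, w40, w41, w42, w43, w44, w45, w46, w47]
  ring

theorem id6 : (f1 a b c d)^3*(f2 a b c d)*(f3 a b c d) = 1*w7 a b c d + 4*w8 a b c d + 27*w11 a b c d + 2*w12 a b c d + 9*w13 a b c d + 10*w14 a b c d + 8*w15 a b c d + 23*w16 a b c d + 11*w17 a b c d + 51*w18 a b c d + 84*w19 a b c d + 138*w20 a b c d + 351*w21 a b c d + 183*w22 a b c d + 105*w23 a b c d + 240*w24 a b c d + 159*w25 a b c d + 150*w26 a b c d + 597*w27 a b c d + 736*w28 a b c d + 816*w29 a b c d + 381*w30 a b c d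 + 1536*w31 a b c d + 432*w32 a b c d + 852*w33 a b c d + 863*w34 a b c d + 926*w35 a b c d + 2304*w36 a b c d + 1338*w37 a b c d + 4832*w38 a b c d + 5653*w39 a b c d + 5697*w40 a b c d + 4884*w41 a b c d + 5706*w42 a b c d + 10206*w43 a b c d + 11310*w44 a b c d + 13368*w45 a b c d + 15162*w46 a b c d + 34512*w47 a b c d := by
  simp only [f1, f2, f3, f4, w7, w8, w11, w12, w13, w14, w15, w16, w17, w18, w19, w20, w21, w22, w23, w24, w25, w26, w27, w28, w29, w30, w31, w32, w33, w34, w35, w36, w37, w38, w39, w40, w41, w42, w43, w44, w45, w46, w47]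
  ring

theorem id7 : (f1 a b c d)*(f2 a b c d)^2*(f3 a b c d) = 1*w8 a b c d + 9*w11 a b c d + 2*w14 a b c d + 1*w15 a b c d + 4*w16 a b c d + 14*w18 a b c d + 23*w19 a b c d + 27*w20 a b c d + 120*w21 a b c d + 54*w22 a b c d + 15*w23 a b c d + 68*w24 a b c d + 28*w25 a b c d + 33*w26 a b c d + 193*w27 a b c d + 232*w28 a b c d + 252*w29 a b c d + 69*w30 a b c d + 576*w31 a b c d + 98*w32 a b c d + 238*w33 a b c d + 269*w34 a b c d + 278*w35 a b c d + 828*w36 a b c d + 383*w37 a b c d + 1648*w38 a b c d + 2028*w39 a b c d + 1998*w40 a b c d + 1616*w41 a b c d + 1816*w42 a b c d + 3729*w43 a b c d + 3926*w44 a b c d + 4359*w45 a b c d + 5143*w46 a b c d + 12780*w47 a b c d := by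
  simp only [f1, f2, f3, f4, w8, w11, w14, w15, w16, w18, w19, w20, w21, w22, w23, w24, w25, w26, w27, w28, w29, w30, w31, w32, w33, w34, w35, w36, w37, w38, w39, w40, w41, w42, w43, w44, w45, w46, w47]
  ring

theorem id8 : (f1 a b c d)^2*(f3 a b c d)^2 = 3*w11 a b c d + 1*w16 a b c d + 4*w18 a b c d + 4*w19 a b c d + 9*w20 a b c d + 44*w21 a b c d + 14*w22 a b c d + 4*w23 a b c d + 16*w24 a b c d + 8*w25 a b c d + 6*w26 a b c d + 62*w27 a b c d + 80*w28 a b c d + 96*w29 a b c d + 22*w30 a b c d + 256*w31 a b c d + 24*w32 a b c d + 76*w33 a b c d + 81*w34 a b c d + 80*w35 a b c d + 352*w36 a b c d + 134*w37 a b c d + 656*w38 a b c d + 844*w39 a b c d + 790*w40 a b c d + 572*w41 a b c d + 604*w42 a b c d + 1603*w43 a b c d + 1586*w44 a b c d + 1580*w45 a b c d + 1970*w46 a b c d + 5600*w47 a b c d := by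
  simp only [f1, f2, f3, f4, w11, w16, w18, w19, w20, w21, w22, w23, w24, w25, w26, w27, w28, w29, w30, w31, w32, w33, w34, w35, w36, w37, w38, w39, w40, w41, w42, w43, w44, w45, w46, w47]
  ring

theorem id9 : (f2 a b c d)*(f3 a b c d)^2 = 1*w11 a b c d + 1*w18 a b c d + 1*w19 a b c d + 15*w21 a b c d + 4*w22 a b c d + 4*w24 a b c d + 1*w26 a b c d + 20*w27 a b c d + 24*w28 a b c d + 27*w29 a b c d + 96*w31 a b c d + 4*w32 a b c d + 19*w33 a b c d + 25*w34 a b c d + 23*w35 a b c d + 126*w36 a b c d + 34*w37 a b c d + 220*w38 a b c d + 302*w39 a b c d + 276*w40 a b c d + 188*w41 a b c d + 189*w42 a b c d + 585*w43 a b c d + 546*w44 a b c d + 504*w45 a b c d + 662*w46 a b c d + 2073*w47 a b c d := by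
  simp only [f1, f2, f3, f4, w11, w18, w19, w21, w22, w24, w26, w27, w28, w29, w31, w32, w33, w34, w35, w36, w37, w38, w39, w40, w41, w42, w43, w44, w45, w46, w47]
  ring

theorem id10 : (f1 a b c d)^4*(f4 a b c d) = 1*w13 a b c d + 1*w17 a b c d + 17*w20 a b c d + 27*w21 a b c d + 9*w23 a b c d + 16*w24 a b c d + 13*w25 a b c d + 80*w28 a b c d + 112*w29 a b c d + 43*w30 a b c d + 256*w31 a b c d + 32*w32 a b c d + 66*w33 a b c d + 64*w35 a b c d + 352*w36 a b c d + 152*w37 a b c d + 656*w38 a b c d + 801*w39 a b c d + 675*w40 a b c d + 372*w41 a b c d + 424*w42 a b c d + 1579*w43 a b c d + 1548*w44 a b c d + 1480*w45 a b c d + 1756*w46 a b c d + 5584*w47 a b c d := by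
  simp only [f1, f2, f3, f4, w13, w17, w20, w21, w23, w24, w25, w28, w29, w30, w31, w32, w33, w35, w36, w37, w38, w39, w40, w41, w42, w43, w44, w45, w46, w47]
  ring

theorem id11 : (f1 a b c d)^2*(f2 a b c d)*(f4 a b c d) = 3*w20 a b c d + 9*w21 a b c d + 1*w23 a b c d + 4*w24 a b c d + 2*w25 a b c d + 24*w28 a b c d + 33*w29 a b c d + 7*w30 a b c d + 96*w31 a b c d + 6*w32 a b c d + 17*w33 a b c d + 18*w35 a b c d + 126*w36 a b c d + 41*w37 a b c d + 220*w38 a b c d + 286*w39 a b c d + 234*w40 a b c d + 119*w41 a b c d + 129*w42 a b c d + 576*w43 a b c d + 532*w44 a b c d + 469*w45 a b c d + 585*w46 a b c d + 2067*w47 a b c d := by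
  simp only [f1, f2, f3, f4, w20, w21, w23, w24, w25, w28, w29, w30, w31, w32, w33, w35, w36, w37, w38, w39, w40, w41, w42, w43, w44, w45, w46, w47]
  ring

theorem id12 : (f2 a b c d)^2*(f4 a b c d) = 3*w21 a b c d + 1*w24 a b c d + 7*w28 a b c d + 9*w29 a b c d + 36*w31 a b c d + 1*w32 a b c d + 4*w33 a b c d + 5*w35 a b c d + 45*w36 a b c d + 10*w37 a b c d + 73*w38 a b c d + 102*w39 a b c d + 81*w40 a b c d + 38*w41 a b c d + 39*w42 a b c d + 210*w43 a b c d + 182*w44 a b c d + 147*w45 a b c d + 194*w46 a b c d + 765*w47 a b c d := by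
  simp only [f1, f2, f3, f4, w21, w24, w28, w29, w31, w32, w33, w35, w36, w37, w38, w39, w40, w41, w42, w43, w44, w45, w46, w47]
  ring

theorem id13 : (f1 a b c d)*(f3 a b c d)*(f4 a b c d) = 1*w21 a b c d + 2*w28 a b c d + 3*w29 a b c d + 16*w31 a b c d + 1*w33 a b c d + 1*w35 a b c d + 19*w36 a b c d + 3*w37 a b c d + 28*w38 a b c d + 42*w39 a b c d + 31*w40 a b c d + 12*w41 a b c d + 11*w42 a b c d + 90*w43 a b c d + 72*w44 a b c d + 49*w45 a b c d + 71*w46 a b c d + 335*w47 a b c d := by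
  simp only [f1, f2, f3, f4, w21, w28, w29, w31, w33, w35, w36, w37, w38, w39, w40, w41, w42, w43, w44, w45, w46, w47]
  ring

theorem id14 : (f4 a b c d)^2 = 1*w31 a b c d + 1*w36 a b c d + 1*w38 a b c d + 2*w39 a b c d + 1*w40 a b c d + 5*w43 a b c d + 3*w44 a b c d + 1*w45 a b c d + 2*w46 a b c d + 20*w47 a b c d := by
  simp only [f1, f2, f3, f4, w31, w36, w38, w39, w40, w43, w44, w45, w46, w47]
  ring

end

theorem w0_nonneg {a b c d : ℝ} (ha : 0 ≤ a) (hb : 0 ≤ b) (hc : 0 ≤ c) (hd : 0 ≤ d) :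
    0 ≤ w0 a b c d := by
  unfold w0; positivity

theorem w1_nonneg {a b c d : ℝ} (ha : 0 ≤ a) (hb : 0 ≤ b) (hc : 0 ≤ c) (hd : 0 ≤ d) :
    0 ≤ w1 a b c d := by
  unfold w1; positivity

theorem w2_nonneg {a b c d : ℝ} (ha : 0 ≤ a) (hb : 0 ≤ b) (hc : 0 ≤ c) (hd : 0 ≤ d) :
    0 ≤ w2 a b c d := by
  unfold w2; positivity

theorem w3_nonneg {a b c d : ℝ} (ha : 0 ≤ a) (hb : 0 ≤ b) (hc : 0 ≤ c) (hd : 0 ≤ d) :
    0 ≤ w3 a b c d := by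
  unfold w3; positivity

theorem w4_nonneg {a b c d : ℝ} (ha : 0 ≤ a) (hb : 0 ≤ b) (hc : 0 ≤ c) (hd : 0 ≤ d) :
    0 ≤ w4 a b c d := by
  unfold w4; positivity

theorem w5_nonneg {a b c d : ℝ} (ha : 0 ≤ a) (hb : 0 ≤ b) (hc : 0 ≤ c) (hd : 0 ≤ d) :
    0 ≤ w5 a b c d := by
  unfold w5; positivity

theorem w6_nonneg {a b c d : ℝ} (ha : 0 ≤ a) (hb : 0 ≤ b) (hc : 0 ≤ c) (hd : 0 ≤ d) :
    0 ≤ w6 a b c d := by
  unfold w6; positivity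

theorem w7_nonneg {a b c d : ℝ} (ha : 0 ≤ a) (hb : 0 ≤ b) (hc : 0 ≤ c) (hd : 0 ≤ d) :
    0 ≤ w7 a b c d := by
  unfold w7; positivity

theorem w8_nonneg {a b c d : ℝ} (ha : 0 ≤ a) (hb : 0 ≤ b) (hc : 0 ≤ c) (hd : 0 ≤ d) :
    0 ≤ w8 a b c d := by
  unfold w8; positivity

theorem w9_nonneg {a b c d : ℝ} (ha : 0 ≤ a) (hb : 0 ≤ b) (hc : 0 ≤ c) (hd : 0 ≤ d) :
    0 ≤ w9 a b c d := by
  unfold w9; positivity

theorem w10_nonneg {a b c d : ℝ} (ha : 0 ≤ a) (hb : 0 ≤ b) (hc : 0 ≤ c) (hd : 0 ≤ d) :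
    0 ≤ w10 a b c d := by
  unfold w10; positivity

theorem w11_nonneg {a b c d : ℝ} (ha : 0 ≤ a) (hb : 0 ≤ b) (hc : 0 ≤ c) (hd : 0 ≤ d) :
    0 ≤ w11 a b c d := by
  unfold w11; positivity

theorem w12_nonneg {a b c d : ℝ} (ha : 0 ≤ a) (hb : 0 ≤ b) (hc : 0 ≤ c) (hd : 0 ≤ d) :
    0 ≤ w12 a b c d := by
  unfold w12; positivity

theorem w13_nonneg {a b c d : ℝ} (ha : 0 ≤ a) (hb : 0 ≤ b) (hc : 0 ≤ c) (hd : 0 ≤ d) :
    0 ≤ w13 a b c d := by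
  unfold w13; positivity

theorem w14_nonneg {a b c d : ℝ} (ha : 0 ≤ a) (hb : 0 ≤ b) (hc : 0 ≤ c) (hd : 0 ≤ d) :
    0 ≤ w14 a b c d := by
  unfold w14; positivity

theorem w15_nonneg {a b c d : ℝ} (ha : 0 ≤ a) (hb : 0 ≤ b) (hc : 0 ≤ c) (hd : 0 ≤ d) :
    0 ≤ w15 a b c d := by
  unfold w15; positivity

theorem w16_nonneg {a b c d : ℝ} (ha : 0 ≤ a) (hb : 0 ≤ b) (hc : 0 ≤ c) (hd : 0 ≤ d) :
    0 ≤ w16 a b c d := by
  unfold w16; positivity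

theorem w17_nonneg {a b c d : ℝ} (ha : 0 ≤ a) (hb : 0 ≤ b) (hc : 0 ≤ c) (hd : 0 ≤ d) :
    0 ≤ w17 a b c d := by
  unfold w17; positivity

theorem w18_nonneg {a b c d : ℝ} (ha : 0 ≤ a) (hb : 0 ≤ b) (hc : 0 ≤ c) (hd : 0 ≤ d) :
    0 ≤ w18 a b c d := by
  unfold w18; positivity

theorem w19_nonneg {a b c d : ℝ} (ha : 0 ≤ a) (hb : 0 ≤ b) (hc : 0 ≤ c) (hd : 0 ≤ d) :
    0 ≤ w19 a b c d := by
  unfold w19; positivity

theorem w20_nonneg {a b c d : ℝ} (ha : 0 ≤ a) (hb : 0 ≤ b) (hc : 0 ≤ c) (hd : 0 ≤ d) :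
    0 ≤ w20 a b c d := by
  unfold w20; positivity

theorem w21_nonneg {a b c d : ℝ} (ha : 0 ≤ a) (hb : 0 ≤ b) (hc : 0 ≤ c) (hd : 0 ≤ d) :
    0 ≤ w21 a b c d := by
  unfold w21; positivity

theorem w22_nonneg {a b c d : ℝ} (ha : 0 ≤ a) (hb : 0 ≤ b) (hc : 0 ≤ c) (hd : 0 ≤ d) :
    0 ≤ w22 a b c d := by
  unfold w22; positivity

theorem w23_nonneg {a b c d : ℝ} (ha : 0 ≤ a) (hb : 0 ≤ b) (hc : 0 ≤ c) (hd : 0 ≤ d) :
    0 ≤ w23 a b c d := by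
  unfold w23; positivity

theorem w24_nonneg {a b c d : ℝ} (ha : 0 ≤ a) (hb : 0 ≤ b) (hc : 0 ≤ c) (hd : 0 ≤ d) :
    0 ≤ w24 a b c d := by
  unfold w24; positivity

theorem w25_nonneg {a b c d : ℝ} (ha : 0 ≤ a) (hb : 0 ≤ b) (hc : 0 ≤ c) (hd : 0 ≤ d) :
    0 ≤ w25 a b c d := by
  unfold w25; positivity

theorem w26_nonneg {a b c d : ℝ} (ha : 0 ≤ a) (hb : 0 ≤ b) (hc : 0 ≤ c) (hd : 0 ≤ d) :
    0 ≤ w26 a b c d := by
  unfold w26; positivity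

theorem w27_nonneg {a b c d : ℝ} (ha : 0 ≤ a) (hb : 0 ≤ b) (hc : 0 ≤ c) (hd : 0 ≤ d) :
    0 ≤ w27 a b c d := by
  unfold w27; positivity

theorem w28_nonneg {a b c d : ℝ} (ha : 0 ≤ a) (hb : 0 ≤ b) (hc : 0 ≤ c) (hd : 0 ≤ d) :
    0 ≤ w28 a b c d := by
  unfold w28; positivity

theorem w29_nonneg {a b c d : ℝ} (ha : 0 ≤ a) (hb : 0 ≤ b) (hc : 0 ≤ c) (hd : 0 ≤ d) :
    0 ≤ w29 a b c d := by
  unfold w29; positivity

theorem w30_nonneg {a b c d : ℝ} (ha : 0 ≤ a) (hb : 0 ≤ b) (hc : 0 ≤ c) (hd : 0 ≤ d) :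
    0 ≤ w30 a b c d := by
  unfold w30; positivity

theorem w31_nonneg {a b c d : ℝ} (ha : 0 ≤ a) (hb : 0 ≤ b) (hc : 0 ≤ c) (hd : 0 ≤ d) :
    0 ≤ w31 a b c d := by
  unfold w31; positivity

theorem w32_nonneg {a b c d : ℝ} (ha : 0 ≤ a) (hb : 0 ≤ b) (hc : 0 ≤ c) (hd : 0 ≤ d) :
    0 ≤ w32 a b c d := by
  unfold w32; positivity

theorem w33_nonneg {a b c d : ℝ} (ha : 0 ≤ a) (hb : 0 ≤ b) (hc : 0 ≤ c) (hd : 0 ≤ d) :
    0 ≤ w33 a b c d := by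
  unfold w33; positivity

theorem w34_nonneg {a b c d : ℝ} (ha : 0 ≤ a) (hb : 0 ≤ b) (hc : 0 ≤ c) (hd : 0 ≤ d) :
    0 ≤ w34 a b c d := by
  unfold w34; positivity

theorem w35_nonneg {a b c d : ℝ} (ha : 0 ≤ a) (hb : 0 ≤ b) (hc : 0 ≤ c) (hd : 0 ≤ d) :
    0 ≤ w35 a b c d := by
  unfold w35; positivity

theorem w36_nonneg {a b c d : ℝ} (ha : 0 ≤ a) (hb : 0 ≤ b) (hc : 0 ≤ c) (hd : 0 ≤ d) :
    0 ≤ w36 a b c d := by
  unfold w36; positivity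

theorem w37_nonneg {a b c d : ℝ} (ha : 0 ≤ a) (hb : 0 ≤ b) (hc : 0 ≤ c) (hd : 0 ≤ d) :
    0 ≤ w37 a b c d := by
  unfold w37; positivity

theorem w38_nonneg {a b c d : ℝ} (ha : 0 ≤ a) (hb : 0 ≤ b) (hc : 0 ≤ c) (hd : 0 ≤ d) :
    0 ≤ w38 a b c d := by
  unfold w38; positivity

theorem w39_nonneg {a b c d : ℝ} (ha : 0 ≤ a) (hb : 0 ≤ b) (hc : 0 ≤ c) (hd : 0 ≤ d) :
    0 ≤ w39 a b c d := by
  unfold w39; positivity

theorem w40_nonneg {a b c d : ℝ} (ha : 0 ≤ a) (hb : 0 ≤ b) (hc : 0 ≤ c) (hd : 0 ≤ d) :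
    0 ≤ w40 a b c d := by
  unfold w40; positivity

theorem w41_nonneg {a b c d : ℝ} (ha : 0 ≤ a) (hb : 0 ≤ b) (hc : 0 ≤ c) (hd : 0 ≤ d) :
    0 ≤ w41 a b c d := by
  unfold w41; positivity

theorem w42_nonneg {a b c d : ℝ} (ha : 0 ≤ a) (hb : 0 ≤ b) (hc : 0 ≤ c) (hd : 0 ≤ d) :
    0 ≤ w42 a b c d := by
  unfold w42; positivity

theorem w43_nonneg {a b c d : ℝ} (ha : 0 ≤ a) (hb : 0 ≤ b) (hc : 0 ≤ c) (hd : 0 ≤ d) :
    0 ≤ w43 a b c d := by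
  unfold w43; positivity

theorem w44_nonneg {a b c d : ℝ} (ha : 0 ≤ a) (hb : 0 ≤ b) (hc : 0 ≤ c) (hd : 0 ≤ d) :
    0 ≤ w44 a b c d := by
  unfold w44; positivity

theorem w45_nonneg {a b c d : ℝ} (ha : 0 ≤ a) (hb : 0 ≤ b) (hc : 0 ≤ c) (hd : 0 ≤ d) :
    0 ≤ w45 a b c d := by
  unfold w45; positivity

theorem w46_nonneg {a b c d : ℝ} (ha : 0 ≤ a) (hb : 0 ≤ b) (hc : 0 ≤ c) (hd : 0 ≤ d) :
    0 ≤ w46 a b c d := by
  unfold w46; positivity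

theorem w47_nonneg {a b c d : ℝ} (ha : 0 ≤ a) (hb : 0 ≤ b) (hc : 0 ≤ c) (hd : 0 ≤ d) :
    0 ≤ w47 a b c d := by
  unfold w47; positivity

theorem ws_nonneg {a b c d : ℝ} (ha : 0 ≤ a) (hb : 0 ≤ b) (hc : 0 ≤ c) (hd : 0 ≤ d) :
    ∀ w ∈ ([w0 a b c d, w1 a b c d, w2 a b c d, w3 a b c d, w4 a b c d, w5 a b c d, w6 a b c d, w7 a b c d, w8 a b c d, w9 a b c d, w10 a b c d, w11 a b c d, w12 a b c d, w13 a b c d, w14 a b c d, w15 a b c d, w16 a b c d, w17 a b c d, w18 a b c d, w19 a b c d, w20 a b c d, w21 a b c d, w22 a b c d, w23 a b c d, w24 a b c d, w25 a b c d, w26 a b c d, w27 a b c d, w28 a b c d, w29 a b c d, w30 a b c d, w31 a b c d, w32 a b c d, w33 a b c d, w34 a b c d, w35 a b c d, w36 a b c d, w37 a b c d, w38 a b c d, w39 a b c d, w40 a b c d, w41 a b c d, w42 a b c d, w43 a b c d, w44 a b c d, w45 a b c d, w46 a b c d, w47 a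 b c d] : List ℝ), 0 ≤ w := by
  refine List.forall_mem_cons.2 ⟨w0_nonneg ha hb hc hd, ?_⟩
  refine List.forall_mem_cons.2 ⟨w1_nonneg ha hb hc hd, ?_⟩
  refine List.forall_mem_cons.2 ⟨w2_nonneg ha hb hc hd, ?_⟩
  refine List.forall_mem_cons.2 ⟨w3_nonneg ha hb hc hd, ?_⟩
  refine List.forall_mem_cons.2 ⟨w4_nonneg ha hb hc hd, ?_⟩
  refine List.forall_mem_cons.2 ⟨w5_nonneg ha hb hc hd, ?_⟩
  refine List.forall_mem_cons.2 ⟨w6_nonneg ha hb hc hd, ?_⟩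
  refine List.forall_mem_cons.2 ⟨w7_nonneg ha hb hc hd, ?_⟩
  refine List.forall_mem_cons.2 ⟨w8_nonneg ha hb hc hd, ?_⟩
  refine List.forall_mem_cons.2 ⟨w9_nonneg ha hb hc hd, ?_⟩
  refine List.forall_mem_cons.2 ⟨w10_nonneg ha hb hc hd, ?_⟩
  refine List.forall_mem_cons.2 ⟨w11_nonneg ha hb hc hd, ?_⟩
  refine List.forall_mem_cons.2 ⟨w12_nonneg ha hb hc hd, ?_⟩
  refine List.forall_mem_cons.2 ⟨w13_nonneg ha hb hc hd, ?_⟩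
  refine List.forall_mem_cons.2 ⟨w14_nonneg ha hb hc hd, ?_⟩
  refine List.forall_mem_cons.2 ⟨w15_nonneg ha hb hc hd, ?_⟩
  refine List.forall_mem_cons.2 ⟨w16_nonneg ha hb hc hd, ?_⟩
  refine List.forall_mem_cons.2 ⟨w17_nonneg ha hb hc hd, ?_⟩
  refine List.forall_mem_cons.2 ⟨w18_nonneg ha hb hc hd, ?_⟩
  refine List.forall_mem_cons.2 ⟨w19_nonneg ha hb hc hd, ?_⟩
  refine List.forall_mem_cons.2 ⟨w20_nonneg ha hb hc hd, ?_⟩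
  refine List.forall_mem_cons.2 ⟨w21_nonneg ha hb hc hd, ?_⟩
  refine List.forall_mem_cons.2 ⟨w22_nonneg ha hb hc hd, ?_⟩
  refine List.forall_mem_cons.2 ⟨w23_nonneg ha hb hc hd, ?_⟩
  refine List.forall_mem_cons.2 ⟨w24_nonneg ha hb hc hd, ?_⟩
  refine List.forall_mem_cons.2 ⟨w25_nonneg ha hb hc hd, ?_⟩
  refine List.forall_mem_cons.2 ⟨w26_nonneg ha hb hc hd, ?_⟩
  refine List.forall_mem_cons.2 ⟨w27_nonneg ha hb hc hd, ?_⟩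
  refine List.forall_mem_cons.2 ⟨w28_nonneg ha hb hc hd, ?_⟩
  refine List.forall_mem_cons.2 ⟨w29_nonneg ha hb hc hd, ?_⟩
  refine List.forall_mem_cons.2 ⟨w30_nonneg ha hb hc hd, ?_⟩
  refine List.forall_mem_cons.2 ⟨w31_nonneg ha hb hc hd, ?_⟩
  refine List.forall_mem_cons.2 ⟨w32_nonneg ha hb hc hd, ?_⟩
  refine List.forall_mem_cons.2 ⟨w33_nonneg ha hb hc hd, ?_⟩
  refine List.forall_mem_cons.2 ⟨w34_nonneg ha hb hc hd, ?_⟩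
  refine List.forall_mem_cons.2 ⟨w35_nonneg ha hb hc hd, ?_⟩
  refine List.forall_mem_cons.2 ⟨w36_nonneg ha hb hc hd, ?_⟩
  refine List.forall_mem_cons.2 ⟨w37_nonneg ha hb hc hd, ?_⟩
  refine List.forall_mem_cons.2 ⟨w38_nonneg ha hb hc hd, ?_⟩
  refine List.forall_mem_cons.2 ⟨w39_nonneg ha hb hc hd, ?_⟩
  refine List.forall_mem_cons.2 ⟨w40_nonneg ha hb hc hd, ?_⟩
  refine List.forall_mem_cons.2 ⟨w41_nonneg ha hb hc hd, ?_⟩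
  refine List.forall_mem_cons.2 ⟨w42_nonneg ha hb hc hd, ?_⟩
  refine List.forall_mem_cons.2 ⟨w43_nonneg ha hb hc hd, ?_⟩
  refine List.forall_mem_cons.2 ⟨w44_nonneg ha hb hc hd, ?_⟩
  refine List.forall_mem_cons.2 ⟨w45_nonneg ha hb hc hd, ?_⟩
  refine List.forall_mem_cons.2 ⟨w46_nonneg ha hb hc hd, ?_⟩
  refine List.forall_mem_cons.2 ⟨w47_nonneg ha hb hc hd, ?_⟩
  intro w hw
  exact absurd hw (List.not_mem_nil)

theorem cone_id (a b c d : ℝ) (x0 x1 x2 x3 x4 x5 x6 x7 x8 x9 x10 x11 x12 x13 x14 : ℝ) :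
    dotRR (mu (f1 a b c d) (f2 a b c d) (f3 a b c d) (f4 a b c d)) [x0, x1, x2, x3, x4, x5, x6, x7, x8, x9, x10, x11, x12, x13, x14] =
    SS [w0 a b c d, w1 a b c d, w2 a b c d, w3 a b c d, w4 a b c d, w5 a b c d, w6 a b c d, w7 a b c d, w8 a b c d, w9 a b c d, w10 a b c d, w11 a b c d, w12 a b c d, w13 a b c d, w14 a b c d, w15 a b c d, w16 a b c d, w17 a b c d, w18 a b c d, w19 a b c d, w20 a b c d, w21 a b c d, w22 a b c d, w23 a b c d, w24 a b c d, w25 a b c d, w26 a b c d, w27 a b c d, w28 a b c d, w29 a b c d, w30 a b c d, w31 a b c d, w32 a b c d, w33 a b c d, w34 a b c d, w35 a b c d, w36 a b c d, w37 a b c d, w38 a b c d, w39 a b c d, w40 a b c d, w41 a b c d, w42 a b c d, w43 a b c d, w44 a b c d, w45 a b c d, w46 a b c d, w47 a b c d] E [x0, x1, x2, x3, x4, x5, x6, x7, x8, x9, x10, x11, x12, x13, x14] := by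
  simp only [mu, dotRR, SS, E, dotR]
  rw [id0, id1, id2, id3, id4, id5, id6, id7, id8, id9, id10, id11, id12, id13, id14]
  push_cast
  ring

theorem cone_sorted {a b c d : ℝ} (ha : 0 ≤ a) (hb : 0 ≤ b) (hc : 0 ≤ c) (hd : 0 ≤ d)
    (x0 x1 x2 x3 x4 x5 x6 x7 x8 x9 x10 x11 x12 x13 x14 : ℝ) (h : ∀ r ∈ E, 0 ≤ dotR r [x0, x1, x2, x3, x4, x5, x6, x7, x8, x9, x10, x11, x12, x13, x14]) :
    0 ≤ dotRR (mu (f1 a b c d) (f2 a b c d) (f3 a b c d) (f4 a b c d)) [x0, x1, x2, x3, x4, x5, x6, x7, x8, x9, x10, x11, x12, x13, x14] := by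
  rw [cone_id]
  exact SS_nonneg _ _ _ (ws_nonneg ha hb hc hd) h

end Crest.Agent.R163.O4
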