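import Crest.Agent.R163.O4Sym
import Crest.Agent.R163.Basic

/-!
# Row 163, orbit inequality for `q = 4`: the pointwise majorant
-/

set_option autoImplicit false

namespace Crest.Agent.R163.O4

open Finset

/-- the polynomial `R` of the certificate -/
noncomputable def RR (W T S : ℝ) : ℝ :=
  (1/12) + (4685/256)*S + (-37/6144)*S^2 + (121/8)*T + (2711/3072)*T*S + (32885/1536)*T^2 + (7/3072)*T^3 + (25/64)*W + (-15121/384)*W*S + (-3199/192)*W*T + (-301/2048)*W*T*S + (-11113/1024)*W*T^2 + (-39/32)*W^2 + (64307/3072)*W^2*S + (4817/768)*W^2*T + (10301/6144)*W^2*T^2 + (59/48)*W^3 + (-2525/768)*W^3*S + (-2851/3072)*W^3*T + (-887/1536)*W^4 + (25/512)*W^4*T + (199/1536)*W^5 + (-17/1536)*W^6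

/-- the polynomial majorant of `W * N` -/
noncomputable def PP (W T S : ℝ) : ℝ :=
  3 * T^2 * (4 - 3 * W) - 2 * S * (3 - 2 * W) + (W - 1)^2 * RR W T S

noncomputable def Ehat (W e2 e3 : ℝ) : ℝ :=
  RR W (W^2 * (e2 / 6)) (W^3 * (e3 / 4)) - 3 * (e2 / 6)^2 * W * (1 + 2 * W + 3 * W^2)
    + 2 * (e3 / 4) * W * (1 + 2 * W)

theorem Ehat_id0 (W e2 e3 e4 : ℝ) : 869730877440 * (1/64) * Ehat W e2 e3 =
    1 * (W - 0)^0 * (1/2 - W)^6 * dotR c_0_0 (mu 4 e2 e3 e4) + 6 * (W - 0)^1 * (1/2 - W)^5 * dotR c_0_1 (mu 4 e2 e3 e4) + 15 * (W - 0)^2 * (1/2 - W)^4 * dotR c_0_2 (mu 4 e2 e3 e4) + 20 * (W - 0)^3 * (1/2 - W)^3 * dotR c_0_3 (mu 4 e2 e3 e4) + 15 * (W - 0)^4 * (1/2 - W)^2 * dotR c_0_4 (mu 4 e2 e3 e4) + 6 * (W - 0)^5 * (1/2 - W)^1 * dotR c_0_5 (mu 4 e2 e3 e4) + 1 * (W - 0)^6 * (1/2 - W)^0 * dotR c_0_6 (mu 4 e2 e3 e4) := by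
  simp only [Ehat, RR, dotR, mu, c_0_0, c_0_1, c_0_2, c_0_3, c_0_4, c_0_5, c_0_6]
  push_cast
  ring

theorem Ehat_nonneg0 (x : Fin 4 → ℝ) (hx : ∀ i, 0 ≤ x i) (h4 : s1 x = 4) (W : ℝ)
    (h0 : 0 ≤ W) (h1 : W ≤ 1/2) : 0 ≤ Ehat W (s2 x) (s3 x) := by
  have e := Ehat_id0 W (s2 x) (s3 x) (s4 x)
  have hm : mu 4 (s2 x) (s3 x) (s4 x) = muy x := by unfold muy; rw [h4]
  rw [hm] at e
  have a0 : 0 ≤ W - 0 := by linarith
  have a1 : 0 ≤ 1/2 - W := by linarith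
  have n0 := cone_int x hx _ c_0_0_ok
  have n1 := cone_int x hx _ c_0_1_ok
  have n2 := cone_int x hx _ c_0_2_ok
  have n3 := cone_int x hx _ c_0_3_ok
  have n4 := cone_int x hx _ c_0_4_ok
  have n5 := cone_int x hx _ c_0_5_ok
  have n6 := cone_int x hx _ c_0_6_ok
  have : 0 ≤ 869730877440 * (1/64) * Ehat W (s2 x) (s3 x) := by
    rw [e]; positivity
  exact nonneg_of_mul_nonneg_right this (by norm_num)

theorem Ehat_id1 (W e2 e3 e4 : ℝ) : 869730877440 * (1/64) * Ehat W e2 e3 =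
    1 * (W - 1/2)^0 * (1 - W)^6 * dotR c_1_0 (mu 4 e2 e3 e4) + 6 * (W - 1/2)^1 * (1 - W)^5 * dotR c_1_1 (mu 4 e2 e3 e4) + 15 * (W - 1/2)^2 * (1 - W)^4 * dotR c_1_2 (mu 4 e2 e3 e4) + 20 * (W - 1/2)^3 * (1 - W)^3 * dotR c_1_3 (mu 4 e2 e3 e4) + 15 * (W - 1/2)^4 * (1 - W)^2 * dotR c_1_4 (mu 4 e2 e3 e4) + 6 * (W - 1/2)^5 * (1 - W)^1 * dotR c_1_5 (mu 4 e2 e3 e4) + 1 * (W - 1/2)^6 * (1 - W)^0 * dotR c_1_6 (mu 4 e2 e3 e4) := by
  simp only [Ehat, RR, dotR, mu, c_1_0, c_1_1, c_1_2, c_1_3, c_1_4, c_1_5, c_1_6]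
  push_cast
  ring

theorem Ehat_nonneg1 (x : Fin 4 → ℝ) (hx : ∀ i, 0 ≤ x i) (h4 : s1 x = 4) (W : ℝ)
    (h0 : 1/2 ≤ W) (h1 : W ≤ 1) : 0 ≤ Ehat W (s2 x) (s3 x) := by
  have e := Ehat_id1 W (s2 x) (s3 x) (s4 x)
  have hm : mu 4 (s2 x) (s3 x) (s4 x) = muy x := by unfold muy; rw [h4]
  rw [hm] at e
  have a0 : 0 ≤ W - 1/2 := by linarith
  have a1 : 0 ≤ 1 - W := by linarith
  have n0 := cone_int x hx _ c_1_0_ok
  have n1 := cone_int x hx _ c_1_1_ok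
  have n2 := cone_int x hx _ c_1_2_ok
  have n3 := cone_int x hx _ c_1_3_ok
  have n4 := cone_int x hx _ c_1_4_ok
  have n5 := cone_int x hx _ c_1_5_ok
  have n6 := cone_int x hx _ c_1_6_ok
  have : 0 ≤ 869730877440 * (1/64) * Ehat W (s2 x) (s3 x) := by
    rw [e]; positivity
  exact nonneg_of_mul_nonneg_right this (by norm_num)

theorem Ehat_id2 (W e2 e3 e4 : ℝ) : 869730877440 * (1/64) * Ehat W e2 e3 =
    1 * (W - 1)^0 * (3/2 - W)^6 * dotR c_2_0 (mu 4 e2 e3 e4) + 6 * (W - 1)^1 * (3/2 - W)^5 * dotR c_2_1 (mu 4 e2 e3 e4) + 15 * (W - 1)^2 * (3/2 - W)^4 * dotR c_2_2 (mu 4 e2 e3 e4) + 20 * (W - 1)^3 * (3/2 - W)^3 * dotR c_2_3 (mu 4 e2 e3 e4) + 15 * (W - 1)^4 * (3/2 - W)^2 * dotR c_2_4 (mu 4 e2 e3 e4) + 6 * (W - 1)^5 * (3/2 - W)^1 * dotR c_2_5 (mu 4 e2 e3 e4) + 1 * (W - 1)^6 * (3/2 - W)^0 * dotR c_2_6 (mu 4 e2 e3 e4) := by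
  simp only [Ehat, RR, dotR, mu, c_2_0, c_2_1, c_2_2, c_2_3, c_2_4, c_2_5, c_2_6]
  push_cast
  ring

theorem Ehat_nonneg2 (x : Fin 4 → ℝ) (hx : ∀ i, 0 ≤ x i) (h4 : s1 x = 4) (W : ℝ)
    (h0 : 1 ≤ W) (h1 : W ≤ 3/2) : 0 ≤ Ehat W (s2 x) (s3 x) := by
  have e := Ehat_id2 W (s2 x) (s3 x) (s4 x)
  have hm : mu 4 (s2 x) (s3 x) (s4 x) = muy x := by unfold muy; rw [h4]
  rw [hm] at e
  have a0 : 0 ≤ W - 1 := by linarith
  have a1 : 0 ≤ 3/2 - W := by linarith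
  have n0 := cone_int x hx _ c_2_0_ok
  have n1 := cone_int x hx _ c_2_1_ok
  have n2 := cone_int x hx _ c_2_2_ok
  have n3 := cone_int x hx _ c_2_3_ok
  have n4 := cone_int x hx _ c_2_4_ok
  have n5 := cone_int x hx _ c_2_5_ok
  have n6 := cone_int x hx _ c_2_6_ok
  have : 0 ≤ 869730877440 * (1/64) * Ehat W (s2 x) (s3 x) := by
    rw [e]; positivity
  exact nonneg_of_mul_nonneg_right this (by norm_num)

theorem Ehat_id3 (W e2 e3 e4 : ℝ) : 869730877440 * (1/64) * Ehat W e2 e3 =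
    1 * (W - 3/2)^0 * (2 - W)^6 * dotR c_3_0 (mu 4 e2 e3 e4) + 6 * (W - 3/2)^1 * (2 - W)^5 * dotR c_3_1 (mu 4 e2 e3 e4) + 15 * (W - 3/2)^2 * (2 - W)^4 * dotR c_3_2 (mu 4 e2 e3 e4) + 20 * (W - 3/2)^3 * (2 - W)^3 * dotR c_3_3 (mu 4 e2 e3 e4) + 15 * (W - 3/2)^4 * (2 - W)^2 * dotR c_3_4 (mu 4 e2 e3 e4) + 6 * (W - 3/2)^5 * (2 - W)^1 * dotR c_3_5 (mu 4 e2 e3 e4) + 1 * (W - 3/2)^6 * (2 - W)^0 * dotR c_3_6 (mu 4 e2 e3 e4) := by
  simp only [Ehat, RR, dotR, mu, c_3_0, c_3_1, c_3_2, c_3_3, c_3_4, c_3_5, c_3_6]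
  push_cast
  ring

theorem Ehat_nonneg3 (x : Fin 4 → ℝ) (hx : ∀ i, 0 ≤ x i) (h4 : s1 x = 4) (W : ℝ)
    (h0 : 3/2 ≤ W) (h1 : W ≤ 2) : 0 ≤ Ehat W (s2 x) (s3 x) := by
  have e := Ehat_id3 W (s2 x) (s3 x) (s4 x)
  have hm : mu 4 (s2 x) (s3 x) (s4 x) = muy x := by unfold muy; rw [h4]
  rw [hm] at e
  have a0 : 0 ≤ W - 3/2 := by linarith
  have a1 : 0 ≤ 2 - W := by linarith
  have n0 := cone_int x hx _ c_3_0_ok
  have n1 := cone_int x hx _ c_3_1_ok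
  have n2 := cone_int x hx _ c_3_2_ok
  have n3 := cone_int x hx _ c_3_3_ok
  have n4 := cone_int x hx _ c_3_4_ok
  have n5 := cone_int x hx _ c_3_5_ok
  have n6 := cone_int x hx _ c_3_6_ok
  have : 0 ≤ 869730877440 * (1/64) * Ehat W (s2 x) (s3 x) := by
    rw [e]; positivity
  exact nonneg_of_mul_nonneg_right this (by norm_num)

theorem Ehat_id4 (W e2 e3 e4 : ℝ) : 869730877440 * (1) * Ehat W e2 e3 =
    1 * (W - 2)^0 * (3 - W)^6 * dotR c_4_0 (mu 4 e2 e3 e4) + 6 * (W - 2)^1 * (3 - W)^5 * dotR c_4_1 (mu 4 e2 e3 e4) + 15 * (W - 2)^2 * (3 - W)^4 * dotR c_4_2 (mu 4 e2 e3 e4) + 20 * (W - 2)^3 * (3 - W)^3 * dotR c_4_3 (mu 4 e2 e3 e4) + 15 * (W - 2)^4 * (3 - W)^2 * dotR c_4_4 (mu 4 e2 e3 e4) + 6 * (W - 2)^5 * (3 - W)^1 * dotR c_4_5 (mu 4 e2 e3 e4) + 1 * (W - 2)^6 * (3 - W)^0 * dotR c_4_6 (mu 4 e2 e3 e4) := by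
  simp only [Ehat, RR, dotR, mu, c_4_0, c_4_1, c_4_2, c_4_3, c_4_4, c_4_5, c_4_6]
  push_cast
  ring

theorem Ehat_nonneg4 (x : Fin 4 → ℝ) (hx : ∀ i, 0 ≤ x i) (h4 : s1 x = 4) (W : ℝ)
    (h0 : 2 ≤ W) (h1 : W ≤ 3) : 0 ≤ Ehat W (s2 x) (s3 x) := by
  have e := Ehat_id4 W (s2 x) (s3 x) (s4 x)
  have hm : mu 4 (s2 x) (s3 x) (s4 x) = muy x := by unfold muy; rw [h4]
  rw [hm] at e
  have a0 : 0 ≤ W - 2 := by linarith
  have a1 : 0 ≤ 3 - W := by linarith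
  have n0 := cone_int x hx _ c_4_0_ok
  have n1 := cone_int x hx _ c_4_1_ok
  have n2 := cone_int x hx _ c_4_2_ok
  have n3 := cone_int x hx _ c_4_3_ok
  have n4 := cone_int x hx _ c_4_4_ok
  have n5 := cone_int x hx _ c_4_5_ok
  have n6 := cone_int x hx _ c_4_6_ok
  have : 0 ≤ 869730877440 * (1) * Ehat W (s2 x) (s3 x) := by
    rw [e]; positivity
  exact nonneg_of_mul_nonneg_right this (by norm_num)

theorem Ehat_id5 (W e2 e3 e4 : ℝ) : 869730877440 * (1) * Ehat W e2 e3 =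
    1 * (W - 3)^0 * (4 - W)^6 * dotR c_5_0 (mu 4 e2 e3 e4) + 6 * (W - 3)^1 * (4 - W)^5 * dotR c_5_1 (mu 4 e2 e3 e4) + 15 * (W - 3)^2 * (4 - W)^4 * dotR c_5_2 (mu 4 e2 e3 e4) + 20 * (W - 3)^3 * (4 - W)^3 * dotR c_5_3 (mu 4 e2 e3 e4) + 15 * (W - 3)^4 * (4 - W)^2 * dotR c_5_4 (mu 4 e2 e3 e4) + 6 * (W - 3)^5 * (4 - W)^1 * dotR c_5_5 (mu 4 e2 e3 e4) + 1 * (W - 3)^6 * (4 - W)^0 * dotR c_5_6 (mu 4 e2 e3 e4) := by
  simp only [Ehat, RR, dotR, mu, c_5_0, c_5_1, c_5_2, c_5_3, c_5_4, c_5_5, c_5_6]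
  push_cast
  ring

theorem Ehat_nonneg5 (x : Fin 4 → ℝ) (hx : ∀ i, 0 ≤ x i) (h4 : s1 x = 4) (W : ℝ)
    (h0 : 3 ≤ W) (h1 : W ≤ 4) : 0 ≤ Ehat W (s2 x) (s3 x) := by
  have e := Ehat_id5 W (s2 x) (s3 x) (s4 x)
  have hm : mu 4 (s2 x) (s3 x) (s4 x) = muy x := by unfold muy; rw [h4]
  rw [hm] at e
  have a0 : 0 ≤ W - 3 := by linarith
  have a1 : 0 ≤ 4 - W := by linarith
  have n0 := cone_int x hx _ c_5_0_ok
  have n1 := cone_int x hx _ c_5_1_ok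
  have n2 := cone_int x hx _ c_5_2_ok
  have n3 := cone_int x hx _ c_5_3_ok
  have n4 := cone_int x hx _ c_5_4_ok
  have n5 := cone_int x hx _ c_5_5_ok
  have n6 := cone_int x hx _ c_5_6_ok
  have : 0 ≤ 869730877440 * (1) * Ehat W (s2 x) (s3 x) := by
    rw [e]; positivity
  exact nonneg_of_mul_nonneg_right this (by norm_num)

theorem Ehat_nonneg (x : Fin 4 → ℝ) (hx : ∀ i, 0 ≤ x i) (h4 : s1 x = 4) (W : ℝ)
    (h0 : 0 ≤ W) (h1 : W ≤ 4) : 0 ≤ Ehat W (s2 x) (s3 x) := by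
  rcases le_total W (1/2) with h | h
  · exact Ehat_nonneg0 x hx h4 W h0 h
  clear h0; rename' h => h0
  rcases le_total W (1) with h | h
  · exact Ehat_nonneg1 x hx h4 W h0 h
  clear h0; rename' h => h0
  rcases le_total W (3/2) with h | h
  · exact Ehat_nonneg2 x hx h4 W h0 h
  clear h0; rename' h => h0
  rcases le_total W (2) with h | h
  · exact Ehat_nonneg3 x hx h4 W h0 h
  clear h0; rename' h => h0
  rcases le_total W (3) with h | h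
  · exact Ehat_nonneg4 x hx h4 W h0 h
  clear h0; rename' h => h0
  exact Ehat_nonneg5 x hx h4 W h0 h1

theorem fK_eq (w : Fin 4 → ℝ) (h : s1 w ≠ 0) : fK w =
    3 * (s1 w / 4 - (3 * (s2 w / 6)^2 / (s1 w / 4)^3 - 2 * (s3 w / 4) / (s1 w / 4)^2)) := by
  have hm : mass w = s1 w / 4 := by unfold mass s1; push_cast; ring
  unfold fK kf m2 m3 uv
  rw [hm]
  rw [s1_eq] at h ⊢
  rw [s2_eq, s3_eq]
  simp only [Fin.sum_univ_four]
  push_cast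
  field_simp
  ring

theorem fK_ge (w : Fin 4 → ℝ) (hw : ∀ i, 0 ≤ w i) (h16 : s1 w ≤ 16) :
    3 * (s1 w / 4 - PP (s1 w / 4) (s2 w / 6) (s3 w / 4)) ≤ fK w := by
  have hs : 0 ≤ s1 w := by unfold s1; exact Finset.sum_nonneg fun i _ => hw i
  rcases hs.eq_or_lt with h0 | hpos
  · have hz : ∀ i, w i = 0 := by
      intro i
      have : w i ≤ s1 w := Finset.single_le_sum (fun j _ => hw j) (Finset.mem_univ i)
      have := hw i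
      linarith
    have hw0 : w = fun _ => 0 := funext hz
    subst hw0
    have e1 : s1 (fun _ : Fin 4 => (0 : ℝ)) = 0 := by simp [s1_eq]
    have e2 : s2 (fun _ : Fin 4 => (0 : ℝ)) = 0 := by simp [s2_eq]
    have e3 : s3 (fun _ : Fin 4 => (0 : ℝ)) = 0 := by simp [s3_eq]
    rw [e1, e2, e3]
    have : fK (fun _ : Fin 4 => (0 : ℝ)) = 0 := by unfold fK mass; simp
    rw [this]
    unfold PP RR
    norm_num
  · rw [fK_eq w hpos.ne']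
    set W := s1 w / 4 with hW
    have hWpos : 0 < W := by positivity
    have hx : ∀ i, 0 ≤ (fun i => w i / W) i := fun i => div_nonneg (hw i) hWpos.le
    have x1 : s1 (fun i => w i / W) = 4 := by
      rw [s1_eq]; rw [s1_eq] at hW; field_simp; linarith
    have x2 : s2 (fun i => w i / W) = s2 w / W^2 := by
      rw [s2_eq, s2_eq]; field_simp
    have x3 : s3 (fun i => w i / W) = s3 w / W^3 := by
      rw [s3_eq, s3_eq]; field_simp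
    have key := Ehat_nonneg _ hx x1 W hWpos.le (by rw [hW]; linarith)
    rw [x2, x3] at key
    have e : PP W (s2 w / 6) (s3 w / 4) - (3 * (s2 w / 6)^2 / W^3 - 2 * (s3 w / 4) / W^2) =
        (W - 1)^2 * Ehat W (s2 w / W^2) (s3 w / W^3) := by
      unfold PP Ehat
      have t1 : W^2 * (s2 w / W^2 / 6) = s2 w / 6 := by field_simp
      have t2 : W^3 * (s3 w / W^3 / 4) = s3 w / 4 := by field_simp
      rw [t1, t2]
      generalize RR W (s2 w / 6) (s3 w / 4) = R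
      field_simp
      ring
    have := mul_nonneg (sq_nonneg (W - 1)) key
    rw [← e] at this
    linarith

end Crest.Agent.R163.O4
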