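import Crest.Agent.R163.O4Perm
import Crest.Agent.R163.O4Maj

/-!
# Row 163, orbit inequality for `q = 4`: assembly for normalised vectors
-/

set_option autoImplicit false

namespace Crest.Agent.R163.O4

open Finset

theorem PP_eq (w : Fin 4 → ℝ) : PP (s1 w / 4) (s2 w / 6) (s3 w / 4) =
    (1/288) * M 0 0 0 0 w + (43/4608) * M 1 0 0 0 w + (73/128) * M 1 1 0 0 w + (-23/1152) * M 2 0 0 0 w + (-14797/36864) * M 1 1 1 0 w + (-65045/73728) * M 2 1 0 0 w + (779/73728) * M 3 0 0 0 w + (-882583/3538944) * M 1 1 1 1 w + (7039/1769472) * M 2 1 1 0 w + (3482899/7077888) * M 2 2 0 0 w + (148495/589824) * M 3 1 0 0 w + (-6535/2359296) * M 4 0 0 0 w + (3433519/3538944) * M 2 1 1 1 w + (4811555/14155776) * M 2 2 1 0 w + (209207/884736) * M 3 1 1 0 w + (-4572965/14155776) * M 3 2 0 0 w + (-104123/3145728) * M 4 1 0 0 w + (429/1048576) * M 5 0 0 0 w + (-7270541/9437184) * M 2 2 1 1 w + (-9934747/84934656)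 * M 2 2 2 0 w + (-6126931/21233664) * M 3 1 1 1 w + (-223103/786432) * M 3 2 1 0 w + (3892943/84934656) * M 3 3 0 0 w + (-1882345/28311552) * M 4 1 1 0 w + (2716571/56623104) * M 4 2 0 0 w + (19261/9437184) * M 5 1 0 0 w + (-217/6291456) * M 6 0 0 0 w + (105883183/679477248) * M 2 2 2 1 w + (28859683/113246208) * M 3 2 1 1 w + (567339/8388608) * M 3 2 2 0 w + (8364583/339738624) * M 3 3 1 0 w + (22630999/679477248) * M 4 1 1 1 w + (8563805/226492416) * M 4 2 1 0 w + (-13486079/1358954496) * M 4 3 0 0 w + (1481843/226492416) * M 5 1 1 0 w + (-1541503/452984832) * M 5 2 0 0 w + (-7711/150994944) * M 6 1 0 0 w + (233/150994944) * M 7 0 0 0 w + (-13209107/2717908992) * M 2 2 2 2 w + (-462727/14155776) * M 3 2 2 1 w + (-2986151/339738624) * M 3 3 1 1 w + (-881509/169869312) * M 3 3 2 0 w + (-1396763/113246208) * M 4 2 1 1 w + (-1555097/452984832) * M 4 2 2 0 w + (-49763/21233664) * M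 4 3 1 0 w + (1523071/5435817984) * M 4 4 0 0 w + (-425263/339738624) * M 5 1 1 1 w + (-84211/56623104) * M 5 2 1 0 w + (31795/84934656) * M 5 3 0 0 w + (-23921/113246208) * M 6 1 1 0 w + (42833/452984832) * M 6 2 0 0 w + (1/3145728) * M 7 1 0 0 w + (-17/603979776) * M 8 0 0 0 w := by
  rw [M0000, M1000, M1100, M2000, M1110, M2100, M3000, M1111, M2110, M2200, M3100, M4000, M2111, M2210, M3110, M3200, M4100, M5000, M2211, M2220, M3111, M3210, M3300, M4110, M4200, M5100, M6000, M2221, M3211, M3220, M3310, M4111, M4210, M4300, M5110, M5200, M6100, M7000, M2222, M3221, M3311, M3320, M4211, M4220, M4310, M4400, M5111, M5210, M5300, M6110, M6200, M7100, M8000]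
  unfold PP RR
  ring

theorem sum_PP (y z : Fin 4 → ℝ) :
    ∑ σ : Equiv.Perm (Fin 4), PP (s1 (fun a => y a * z (σ a)) / 4)
      (s2 (fun a => y a * z (σ a)) / 6) (s3 (fun a => y a * z (σ a)) / 4) =
    (1/288) * (M 0 0 0 0 y * M 0 0 0 0 z) + (43/4608) * (M 1 0 0 0 y * M 1 0 0 0 z) + (73/128) * (M 1 1 0 0 y * M 1 1 0 0 z) + (-23/1152) * (M 2 0 0 0 y * M 2 0 0 0 z) + (-14797/36864) * (M 1 1 1 0 y * M 1 1 1 0 z) + (-65045/73728) * (M 2 1 0 0 y * M 2 1 0 0 z) + (779/73728) * (M 3 0 0 0 y * M 3 0 0 0 z) + (-882583/3538944) * (M 1 1 1 1 y * M 1 1 1 1 z) + (7039/1769472) * (M 2 1 1 0 y * M 2 1 1 0 z) + (3482899/7077888) * (M 2 2 0 0 y * M 2 2 0 0 z) + (148495/589824) * (M 3 1 0 0 y * M 3 1 0 0 z) + (-6535/2359296) * (M 4 0 0 0 y * M 4 0 0 0 z) + (3433519/3538944) * (M 2 1 1 1 y * M 2 1 1 1 z) + (4811555/14155776) * (M 2 2 1 0 y * M 2 2 1 0 z) + (209207/884736) * (M 3 1 1 0 y * M 3 1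 1 0 z) + (-4572965/14155776) * (M 3 2 0 0 y * M 3 2 0 0 z) + (-104123/3145728) * (M 4 1 0 0 y * M 4 1 0 0 z) + (429/1048576) * (M 5 0 0 0 y * M 5 0 0 0 z) + (-7270541/9437184) * (M 2 2 1 1 y * M 2 2 1 1 z) + (-9934747/84934656) * (M 2 2 2 0 y * M 2 2 2 0 z) + (-6126931/21233664) * (M 3 1 1 1 y * M 3 1 1 1 z) + (-223103/786432) * (M 3 2 1 0 y * M 3 2 1 0 z) + (3892943/84934656) * (M 3 3 0 0 y * M 3 3 0 0 z) + (-1882345/28311552) * (M 4 1 1 0 y * M 4 1 1 0 z) + (2716571/56623104) * (M 4 2 0 0 y * M 4 2 0 0 z) + (19261/9437184) * (M 5 1 0 0 y * M 5 1 0 0 z) + (-217/6291456) * (M 6 0 0 0 y * M 6 0 0 0 z) + (105883183/679477248) * (M 2 2 2 1 y * M 2 2 2 1 z) + (28859683/113246208) * (M 3 2 1 1 y * M 3 2 1 1 z) + (567339/8388608) * (M 3 2 2 0 y * M 3 2 2 0 z) + (8364583/339738624) * (M 3 3 1 0 y * M 3 3 1 0 z) + (22630999/679477248) * (M 4 1 1 1 y * M 4 1 1 1 z) + (8563805/226492416)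 * (M 4 2 1 0 y * M 4 2 1 0 z) + (-13486079/1358954496) * (M 4 3 0 0 y * M 4 3 0 0 z) + (1481843/226492416) * (M 5 1 1 0 y * M 5 1 1 0 z) + (-1541503/452984832) * (M 5 2 0 0 y * M 5 2 0 0 z) + (-7711/150994944) * (M 6 1 0 0 y * M 6 1 0 0 z) + (233/150994944) * (M 7 0 0 0 y * M 7 0 0 0 z) + (-13209107/2717908992) * (M 2 2 2 2 y * M 2 2 2 2 z) + (-462727/14155776) * (M 3 2 2 1 y * M 3 2 2 1 z) + (-2986151/339738624) * (M 3 3 1 1 y * M 3 3 1 1 z) + (-881509/169869312) * (M 3 3 2 0 y * M 3 3 2 0 z) + (-1396763/113246208) * (M 4 2 1 1 y * M 4 2 1 1 z) + (-1555097/452984832) * (M 4 2 2 0 y * M 4 2 2 0 z) + (-49763/21233664) * (M 4 3 1 0 y * M 4 3 1 0 z) + (1523071/5435817984) * (M 4 4 0 0 y * M 4 4 0 0 z) + (-425263/339738624) * (M 5 1 1 1 y * M 5 1 1 1 z) + (-84211/56623104) * (M 5 2 1 0 y * M 5 2 1 0 z) + (31795/84934656) * (M 5 3 0 0 y * M 5 3 0 0 z) + (-23921/113246208) * (M 6 1 1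 0 y * M 6 1 1 0 z) + (42833/452984832) * (M 6 2 0 0 y * M 6 2 0 0 z) + (1/3145728) * (M 7 1 0 0 y * M 7 1 0 0 z) + (-17/603979776) * (M 8 0 0 0 y * M 8 0 0 0 z) := by
  simp only [PP_eq, Finset.sum_add_distrib, ← Finset.mul_sum, M_mul]

/-- the weight in terms of the elementary symmetric functions of a vector with sum `4` -/
noncomputable def Aw (e2 e3 e4 : ℝ) : ℝ :=
  1/96 - (1/96) * (e2/6) + (5/32) * (e2/6)^2 + (3/4) * (e3/4) - (157/96) * (e2/6) * (e3/4)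
    + (293/96) * (e3/4)^2 - (127/96) * e4

/-- `K` in terms of the elementary symmetric functions of a vector with sum `4` -/
noncomputable def Kw (e2 e3 : ℝ) : ℝ := 3 * (1 - 3 * (e2/6)^2 + 2 * (e3/4))

theorem final_id (y z : Fin 4 → ℝ) (hy : s1 y = 4) (hz : s1 z = 4) :
    66795331387392 * (72 - 3 * ((1/288) * (M 0 0 0 0 y * M 0 0 0 0 z) + (43/4608) * (M 1 0 0 0 y * M 1 0 0 0 z) + (73/128) * (M 1 1 0 0 y * M 1 1 0 0 z) + (-23/1152) * (M 2 0 0 0 y * M 2 0 0 0 z) + (-14797/36864) * (M 1 1 1 0 y * M 1 1 1 0 z) + (-65045/73728) * (M 2 1 0 0 y * M 2 1 0 0 z) + (779/73728) * (M 3 0 0 0 y * M 3 0 0 0 z) + (-882583/3538944) * (M 1 1 1 1 y * M 1 1 1 1 z) + (7039/1769472) * (M 2 1 1 0 y * M 2 1 1 0 z) + (3482899/7077888) * (M 2 2 0 0 y * M 2 2 0 0 z) + (148495/589824) * (M 3 1 0 0 y * M 3 1 0 0 z) + (-6535/2359296) * (M 4 0 0 0 y * M 4 0 0 0 z) + (3433519/3538944) * (M 2 1 1 1 y * M 2 1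 1 1 z) + (4811555/14155776) * (M 2 2 1 0 y * M 2 2 1 0 z) + (209207/884736) * (M 3 1 1 0 y * M 3 1 1 0 z) + (-4572965/14155776) * (M 3 2 0 0 y * M 3 2 0 0 z) + (-104123/3145728) * (M 4 1 0 0 y * M 4 1 0 0 z) + (429/1048576) * (M 5 0 0 0 y * M 5 0 0 0 z) + (-7270541/9437184) * (M 2 2 1 1 y * M 2 2 1 1 z) + (-9934747/84934656) * (M 2 2 2 0 y * M 2 2 2 0 z) + (-6126931/21233664) * (M 3 1 1 1 y * M 3 1 1 1 z) + (-223103/786432) * (M 3 2 1 0 y * M 3 2 1 0 z) + (3892943/84934656) * (M 3 3 0 0 y * M 3 3 0 0 z) + (-1882345/28311552) * (M 4 1 1 0 y * M 4 1 1 0 z) + (2716571/56623104) * (M 4 2 0 0 y * M 4 2 0 0 z) + (19261/9437184) * (M 5 1 0 0 y * M 5 1 0 0 z) + (-217/6291456) * (M 6 0 0 0 y * M 6 0 0 0 z) + (105883183/679477248) * (M 2 2 2 1 y * M 2 2 2 1 z) + (28859683/113246208) * (M 3 2 1 1 y * M 3 2 1 1 z) + (567339/8388608) * (M 3 2 2 0 y * M 3 2 2 0 z) + (8364583/339738624) * (M 3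 3 1 0 y * M 3 3 1 0 z) + (22630999/679477248) * (M 4 1 1 1 y * M 4 1 1 1 z) + (8563805/226492416) * (M 4 2 1 0 y * M 4 2 1 0 z) + (-13486079/1358954496) * (M 4 3 0 0 y * M 4 3 0 0 z) + (1481843/226492416) * (M 5 1 1 0 y * M 5 1 1 0 z) + (-1541503/452984832) * (M 5 2 0 0 y * M 5 2 0 0 z) + (-7711/150994944) * (M 6 1 0 0 y * M 6 1 0 0 z) + (233/150994944) * (M 7 0 0 0 y * M 7 0 0 0 z) + (-13209107/2717908992) * (M 2 2 2 2 y * M 2 2 2 2 z) + (-462727/14155776) * (M 3 2 2 1 y * M 3 2 2 1 z) + (-2986151/339738624) * (M 3 3 1 1 y * M 3 3 1 1 z) + (-881509/169869312) * (M 3 3 2 0 y * M 3 3 2 0 z) + (-1396763/113246208) * (M 4 2 1 1 y * M 4 2 1 1 z) + (-1555097/452984832) * (M 4 2 2 0 y * M 4 2 2 0 z) + (-49763/21233664) * (M 4 3 1 0 y * M 4 3 1 0 z) + (1523071/5435817984) * (M 4 4 0 0 y * M 4 4 0 0 z) + (-425263/339738624) * (M 5 1 1 1 y * M 5 1 1 1 z) + (-84211/56623104) * (M 5 2 1 0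 y * M 5 2 1 0 z) + (31795/84934656) * (M 5 3 0 0 y * M 5 3 0 0 z) + (-23921/113246208) * (M 6 1 1 0 y * M 6 1 1 0 z) + (42833/452984832) * (M 6 2 0 0 y * M 6 2 0 0 z) + (1/3145728) * (M 7 1 0 0 y * M 7 1 0 0 z) + (-17/603979776) * (M 8 0 0 0 y * M 8 0 0 0 z)) -
      24 * (Aw (s2 z) (s3 z) (s4 z) * Kw (s2 y) (s3 y) +
        Aw (s2 y) (s3 y) (s4 y) * Kw (s2 z) (s3 z))) =
    72 * dotRR (muy y) (G.map fun g => dotR g (muy z)) := by
  simp only [M0000, M1000, M1100, M2000, M1110, M2100, M3000, M1111, M2110, M2200, M3100, M4000, M2111, M2210, M3110, M3200, M4100, M5000, M2211, M2220, M3111, M3210, M3300, M4110, M4200, M5100, M6000, M2221, M3211, M3220, M3310, M4111, M4210, M4300, M5110, M5200, M6100, M7000, M2222, M3221, M3311, M3320, M4211, M4220, M4310, M4400, M5111, M5210, M5300, M6110, M6200, M7100, M8000]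
  simp only [muy, mu, G, List.map_cons, List.map_nil, dotRR, dotR, hy, hz, Aw, Kw]
  push_cast
  ring

theorem orbit_norm (y z : Fin 4 → ℝ) (hy : ∀ i, 0 ≤ y i) (hz : ∀ i, 0 ≤ z i)
    (hy4 : s1 y = 4) (hz4 : s1 z = 4) :
    24 * (Aw (s2 z) (s3 z) (s4 z) * Kw (s2 y) (s3 y) +
        Aw (s2 y) (s3 y) (s4 y) * Kw (s2 z) (s3 z)) ≤
      ∑ σ : Equiv.Perm (Fin 4), fK (fun a => y a * z (σ a)) := by
  have hnn : ∀ (σ : Equiv.Perm (Fin 4)) (i : Fin 4), 0 ≤ y i * z (σ i) :=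
    fun σ i => mul_nonneg (hy i) (hz _)
  have h16 : ∀ σ : Equiv.Perm (Fin 4), s1 (fun a => y a * z (σ a)) ≤ 16 := by
    intro σ
    have h1 : ∀ i, y i ≤ 4 := by
      intro i
      rw [← hy4]
      exact Finset.single_le_sum (fun j _ => hy j) (Finset.mem_univ i)
    have h2 : s1 (fun a => y a * z (σ a)) ≤ ∑ i, 4 * z (σ i) :=
      Finset.sum_le_sum fun i _ => mul_le_mul_of_nonneg_right (h1 i) (hz _)
    rw [← Finset.mul_sum] at h2
    have h3 : ∑ i, z (σ i) = 4 := by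
      rw [← hz4]; exact Equiv.sum_comp σ z
    rw [h3] at h2
    linarith
  have hle : ∑ σ : Equiv.Perm (Fin 4), 3 * (s1 (fun a => y a * z (σ a)) / 4 -
      PP (s1 (fun a => y a * z (σ a)) / 4) (s2 (fun a => y a * z (σ a)) / 6)
        (s3 (fun a => y a * z (σ a)) / 4)) ≤
      ∑ σ : Equiv.Perm (Fin 4), fK (fun a => y a * z (σ a)) :=
    Finset.sum_le_sum fun σ _ => fK_ge _ (hnn σ) (h16 σ)
  refine le_trans ?_ hle
  rw [← Finset.mul_sum, Finset.sum_sub_distrib, sum_PP]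
  have hs : ∑ σ : Equiv.Perm (Fin 4), s1 (fun a => y a * z (σ a)) / 4 = 24 := by
    have e : ∀ w : Fin 4 → ℝ, s1 w / 4 = (1/24) * M 1 0 0 0 w := by
      intro w; rw [M1000]; ring
    simp only [e, ← Finset.mul_sum, M_mul]
    rw [M1000, M1000, hy4, hz4]
    norm_num
  rw [hs]
  have hb := bil_nonneg y z hy hz
  have hf := final_id y z hy4 hz4
  linarith

/-- the weight is nonnegative -/
theorem Aw_ge (y : Fin 4 → ℝ) (hy : ∀ i, 0 ≤ y i) (hy4 : s1 y = 4) :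
    (1/256) * (s2 y / 6)^2 ≤ Aw (s2 y) (s3 y) (s4 y) := by
  have h := cone_int y hy A3 A3_ok
  have e : 18874368 * (Aw (s2 y) (s3 y) (s4 y) - (1/256) * (s2 y / 6)^2) = dotR A3 (muy y) := by
    simp only [muy, mu, A3, dotR, hy4, Aw]
    push_cast
    ring
  rw [← e] at h
  linarith

end Crest.Agent.R163.O4
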