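import Crest.Agent.R163.O4Data

/-!
# Row 163, orbit inequality for `q = 4`: positivity of (bi)linear forms in symmetric functions
-/

set_option autoImplicit false

namespace Crest.Agent.R163.O4

open Finset

/-! ### lists -/

def toR (c : List ℤ) : List ℝ := c.map (fun z : ℤ => (z : ℝ))

theorem dotR_toR : ∀ r c : List ℤ, dotR r (toR c) = (dotZ r c : ℝ)
  | [], _ => by simp [dotR, dotZ]
  | _ :: _, [] => by simp [dotR, dotZ, toR]
  | x :: xs, y :: ys => by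
    have h := dotR_toR xs ys
    simp only [toR, List.map_cons, dotR, dotZ] at h ⊢
    rw [h]; push_cast; ring

theorem dotRR_toR : ∀ (m : List ℝ) (c : List ℤ), dotRR m (toR c) = dotR c m
  | [], [] => by simp [dotR, dotRR, toR]
  | [], _ :: _ => by simp [dotR, dotRR]
  | _ :: _, [] => by simp [dotR, dotRR, toR]
  | x :: xs, y :: ys => by
    have h := dotRR_toR xs ys
    simp only [toR, List.map_cons, dotR, dotRR] at h ⊢
    rw [h]; ring

theorem dotR_nil (r : List ℤ) : dotR r [] = 0 := by cases r <;> simp [dotR]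

theorem dotR_addL : ∀ (u v : List ℤ) (m : List ℝ), dotR (addL u v) m = dotR u m + dotR v m
  | [], v, m => by simp [addL, dotR]
  | x :: xs, [], m => by simp [addL, dotR]
  | x :: xs, y :: ys, [] => by simp [addL, dotR]
  | x :: xs, y :: ys, z :: zs => by
    have h := dotR_addL xs ys zs
    simp only [addL, dotR] at h ⊢
    rw [h]; push_cast; ring

theorem dotR_smulL (a : ℤ) : ∀ (u : List ℤ) (m : List ℝ), dotR (smulL a u) m = a * dotR u m
  | [], m => by simp [smulL, dotR]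
  | x :: xs, [] => by simp [smulL, dotR]
  | x :: xs, z :: zs => by
    have h := dotR_smulL a xs zs
    simp only [smulL, dotR] at h ⊢
    rw [h]; push_cast; ring

theorem dotR_lin (m : List ℝ) : ∀ (r : List ℤ) (G : List (List ℤ)),
    dotR (lin r G) m = dotR r (G.map fun g => dotR g m)
  | [], G => by simp [lin, dotR]
  | x :: xs, [] => by simp [lin, dotR]
  | x :: xs, g :: gs => by
    have h := dotR_lin m xs gs
    simp only [lin, dotR, List.map_cons] at h ⊢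
    rw [dotR_addL, dotR_smulL, h]

/-! ### symmetric functions -/

noncomputable def s1 (y : Fin 4 → ℝ) : ℝ := ∑ i, y i
noncomputable def s2 (y : Fin 4 → ℝ) : ℝ := ((∑ i, y i) ^ 2 - ∑ i, y i ^ 2) / 2
noncomputable def s3 (y : Fin 4 → ℝ) : ℝ :=
  ((∑ i, y i) ^ 3 - 3 * (∑ i, y i) * (∑ i, y i ^ 2) + 2 * ∑ i, y i ^ 3) / 6
noncomputable def s4 (y : Fin 4 → ℝ) : ℝ := ∏ i, y i

theorem s1_eq (y : Fin 4 → ℝ) : s1 y = y 0 + y 1 + y 2 + y 3 := by
  simp [s1, Fin.sum_univ_four]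

theorem s2_eq (y : Fin 4 → ℝ) : s2 y =
    y 0 * y 1 + y 0 * y 2 + y 0 * y 3 + y 1 * y 2 + y 1 * y 3 + y 2 * y 3 := by
  simp [s2, Fin.sum_univ_four]; ring

theorem s3_eq (y : Fin 4 → ℝ) : s3 y =
    y 0 * y 1 * y 2 + y 0 * y 1 * y 3 + y 0 * y 2 * y 3 + y 1 * y 2 * y 3 := by
  simp [s3, Fin.sum_univ_four]; ring

theorem s4_eq (y : Fin 4 → ℝ) : s4 y = y 0 * y 1 * y 2 * y 3 := by
  simp [s4, Fin.prod_univ_four]

theorem s1_perm (y : Fin 4 → ℝ) (σ : Equiv.Perm (Fin 4)) : s1 (y ∘ σ) = s1 y := by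
  unfold s1; exact Equiv.sum_comp σ y

theorem s2_perm (y : Fin 4 → ℝ) (σ : Equiv.Perm (Fin 4)) : s2 (y ∘ σ) = s2 y := by
  unfold s2
  have h1 : ∑ i, (y ∘ σ) i = ∑ i, y i := Equiv.sum_comp σ y
  have h2 : ∑ i, (y ∘ σ) i ^ 2 = ∑ i, y i ^ 2 := Equiv.sum_comp σ (fun i => y i ^ 2)
  rw [h1, h2]

theorem s3_perm (y : Fin 4 → ℝ) (σ : Equiv.Perm (Fin 4)) : s3 (y ∘ σ) = s3 y := by
  unfold s3
  have h1 : ∑ i, (y ∘ σ) i = ∑ i, y i := Equiv.sum_comp σ y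
  have h2 : ∑ i, (y ∘ σ) i ^ 2 = ∑ i, y i ^ 2 := Equiv.sum_comp σ (fun i => y i ^ 2)
  have h3 : ∑ i, (y ∘ σ) i ^ 3 = ∑ i, y i ^ 3 := Equiv.sum_comp σ (fun i => y i ^ 3)
  rw [h1, h2, h3]

theorem s4_perm (y : Fin 4 → ℝ) (σ : Equiv.Perm (Fin 4)) : s4 (y ∘ σ) = s4 y := by
  unfold s4; exact Equiv.prod_comp σ y

noncomputable def muy (y : Fin 4 → ℝ) : List ℝ := mu (s1 y) (s2 y) (s3 y) (s4 y)

theorem cone_list (y : Fin 4 → ℝ) (hy : ∀ i, 0 ≤ y i) (X : List ℝ) (hX : X.length = 15)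
    (h : ∀ r ∈ E, 0 ≤ dotR r X) : 0 ≤ dotRR (muy y) X := by
  obtain ⟨σ, hσ⟩ : ∃ σ : Equiv.Perm (Fin 4), Monotone (y ∘ σ) :=
    ⟨Tuple.sort y, Tuple.monotone_sort y⟩
  have hm : muy y = muy (y ∘ σ) := by
    unfold muy; rw [s1_perm, s2_perm, s3_perm, s4_perm]
  rw [hm]
  set v : Fin 4 → ℝ := y ∘ σ with hv
  have h0 : 0 ≤ v 0 := hy _
  have h1 : 0 ≤ v 1 - v 0 := sub_nonneg.2 (hσ (by decide))
  have h2 : 0 ≤ v 2 - v 1 := sub_nonneg.2 (hσ (by decide))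
  have h3 : 0 ≤ v 3 - v 2 := sub_nonneg.2 (hσ (by decide))
  have e : muy v = mu (f1 (v 3 - v 2) (v 2 - v 1) (v 1 - v 0) (v 0))
      (f2 (v 3 - v 2) (v 2 - v 1) (v 1 - v 0) (v 0))
      (f3 (v 3 - v 2) (v 2 - v 1) (v 1 - v 0) (v 0))
      (f4 (v 3 - v 2) (v 2 - v 1) (v 1 - v 0) (v 0)) := by
    unfold muy
    rw [s1_eq, s2_eq, s3_eq, s4_eq]
    congr 1 <;> simp only [f1, f2, f3, f4] <;> ring
  rw [e]
  match X, hX with
  | [x0, x1, x2, x3, x4, x5, x6, x7, x8, x9, x10, x11, x12, x13, x14], _ =>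
    exact cone_sorted h3 h2 h1 h0 x0 x1 x2 x3 x4 x5 x6 x7 x8 x9 x10 x11 x12 x13 x14 h

theorem cone_int (y : Fin 4 → ℝ) (hy : ∀ i, 0 ≤ y i) (c : List ℤ) (h : ok c = true) :
    0 ≤ dotR c (muy y) := by
  unfold ok at h
  rw [Bool.and_eq_true, List.all_eq_true] at h
  rw [← dotRR_toR]
  refine cone_list y hy (toR c) ?_ ?_
  · simpa [toR] using h.1
  · intro r hr
    rw [dotR_toR]
    have := of_decide_eq_true (h.2 r hr)
    exact_mod_cast this

/-- the bilinear form is nonnegative -/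
theorem bil_nonneg (y z : Fin 4 → ℝ) (hy : ∀ i, 0 ≤ y i) (hz : ∀ i, 0 ≤ z i) :
    0 ≤ dotRR (muy y) (G.map fun g => dotR g (muy z)) := by
  refine cone_list y hy _ (by rw [List.length_map]; rfl) ?_
  intro r hr
  rw [← dotR_lin]
  refine cone_int z hz _ ?_
  have h1 : lin r G ∈ GE := by
    rw [← GE_eq]
    exact List.mem_map.2 ⟨r, hr, rfl⟩
  exact List.all_eq_true.1 GE_ok _ h1

end Crest.Agent.R163.O4
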