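import Crest.Agent.R163.O4Fin

/-!
# Row 163: the orbit inequality for `q = 4`
-/

set_option autoImplicit false

namespace Crest.Agent.R163

open Finset O4

theorem alf4_eq (y : Fin 4 → ℝ) (h : s1 y = 4) :
    alf4 (fun a => y a - 1) = Aw (s2 y) (s3 y) (s4 y) := by
  rw [s1_eq] at h
  obtain ⟨c, hc⟩ : ∃ c, c = y 3 := ⟨_, rfl⟩
  have h3 : y 3 = 4 - y 0 - y 1 - y 2 := by linarith
  rw [s2_eq, s3_eq, s4_eq]
  unfold alf4 Aw m2 m3
  simp only [Fin.sum_univ_four, Fin.prod_univ_four]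
  push_cast
  rw [h3]
  ring

theorem kf_eq (y : Fin 4 → ℝ) (h : s1 y = 4) :
    kf (fun a => y a - 1) = Kw (s2 y) (s3 y) := by
  rw [s1_eq] at h
  have h3 : y 3 = 4 - y 0 - y 1 - y 2 := by linarith
  rw [s2_eq, s3_eq]
  unfold kf Kw m2 m3
  simp only [Fin.sum_univ_four]
  push_cast
  rw [h3]
  ring

theorem s1_div_mass (p : Fin 4 → ℝ) (h : mass p ≠ 0) : s1 (fun a => p a / mass p) = 4 := by
  have e : mass p = s1 p / 4 := by unfold mass s1; push_cast; ring
  unfold s1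
  rw [← Finset.sum_div]
  have e2 : ∑ i, p i = 4 * mass p := by rw [e]; unfold s1; ring
  rw [e2]
  field_simp

theorem alf4_ge (v : Fin 4 → ℝ) (hv : ∀ a, 0 ≤ v a) (h : mass v ≠ 0) :
    (1/256) * (1 - m2 (uv v) / 3) ^ 2 ≤ alf4 (uv v) := by
  have hm : 0 < mass v := lt_of_le_of_ne (mass_nonneg v hv) (Ne.symm h)
  have hy : ∀ a, 0 ≤ (fun a => v a / mass v) a := fun a => div_nonneg (hv a) hm.le
  have h4 := s1_div_mass v h
  have e1 : uv v = fun a => (fun a => v a / mass v) a - 1 := rfl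
  have e2 : 1 - m2 (uv v) / 3 = s2 (fun a => v a / mass v) / 6 := by
    rw [e1]
    generalize (fun a => v a / mass v) = y at *
    rw [s1_eq] at h4
    have h3 : y 3 = 4 - y 0 - y 1 - y 2 := by linarith
    rw [s2_eq]
    unfold m2
    simp only [Fin.sum_univ_four]
    push_cast
    rw [h3]
    ring
  rw [e2, e1, alf4_eq _ h4]
  exact Aw_ge _ hy h4

theorem orbit4 (p r : Fin 4 → ℝ) (hp : ∀ a, 0 ≤ p a) (hr : ∀ a, 0 ≤ r a) :
    24 * (fal r * fK p + fal p * fK r) ≤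
      ∑ σ : Equiv.Perm (Fin 4), fK (fun a => p a * r (σ a)) := by
  by_cases hmp : mass p = 0
  · have hz : p = fun _ => 0 := funext fun a => eq_zero_of_mass_eq_zero (by norm_num) p hp hmp a
    subst hz
    have e : ∀ σ : Equiv.Perm (Fin 4), fK (fun a => (fun _ => (0 : ℝ)) a * r (σ a)) = 0 := by
      intro σ
      simp [fK, mass]
    rw [Finset.sum_congr rfl fun σ _ => e σ]
    simp [fK, fal, mass]
  by_cases hmr : mass r = 0
  · have hz : r = fun _ => 0 := funext fun a => eq_zero_of_mass_eq_zero (by norm_num) r hr hmr a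
    subst hz
    have e : ∀ σ : Equiv.Perm (Fin 4), fK (fun a => p a * (fun _ => (0 : ℝ)) (σ a)) = 0 := by
      intro σ
      simp [fK, mass]
    rw [Finset.sum_congr rfl fun σ _ => e σ]
    simp [fK, fal, mass]
  have hP : 0 < mass p := lt_of_le_of_ne (mass_nonneg p hp) (Ne.symm hmp)
  have hR : 0 < mass r := lt_of_le_of_ne (mass_nonneg r hr) (Ne.symm hmr)
  obtain ⟨y, hy⟩ : ∃ y : Fin 4 → ℝ, y = fun a => p a / mass p := ⟨_, rfl⟩
  obtain ⟨z, hz⟩ : ∃ z : Fin 4 → ℝ, z = fun a => r a / mass r := ⟨_, rfl⟩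
  have hy0 : ∀ a, 0 ≤ y a := fun a => by rw [hy]; exact div_nonneg (hp a) hP.le
  have hz0 : ∀ a, 0 ≤ z a := fun a => by rw [hz]; exact div_nonneg (hr a) hR.le
  have hy4 : s1 y = 4 := by rw [hy]; exact s1_div_mass p hmp
  have hz4 : s1 z = 4 := by rw [hz]; exact s1_div_mass r hmr
  have key := orbit_norm y z hy0 hz0 hy4 hz4
  have e1 : fK p = mass p * Kw (s2 y) (s3 y) := by
    rw [← kf_eq y hy4, hy]; rfl
  have e2 : fK r = mass r * Kw (s2 z) (s3 z) := by
    rw [← kf_eq z hz4, hz]; rfl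
  have e3 : fal p = mass p * Aw (s2 y) (s3 y) (s4 y) := by
    rw [← alf4_eq y hy4, hy]
    unfold fal alf
    rw [if_pos rfl]; rfl
  have e4 : fal r = mass r * Aw (s2 z) (s3 z) (s4 z) := by
    rw [← alf4_eq z hz4, hz]
    unfold fal alf
    rw [if_pos rfl]; rfl
  have e5 : ∀ σ : Equiv.Perm (Fin 4), fK (fun a => p a * r (σ a)) =
      mass p * mass r * fK (fun a => y a * z (σ a)) := by
    intro σ
    rw [← homog_fK (mass p * mass r) (fun a => y a * z (σ a)) (by positivity)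
      (fun a => mul_nonneg (hy0 a) (hz0 _))]
    congr 1
    funext a
    rw [hy, hz]
    field_simp
  rw [Finset.sum_congr rfl fun σ _ => e5 σ, ← Finset.mul_sum, e1, e2, e3, e4]
  have := mul_le_mul_of_nonneg_left key (mul_nonneg hP.le hR.le)
  linarith

end Crest.Agent.R163
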