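import Mathlib

/-!
# Kernel-checked polynomial inequalities

Polynomials in several variables with integer coefficients as nested lists: `ℤ`, `List ℤ`, `List (List ℤ)`, ...
`evl e x p = ∑ x^i e(p_i)`; a polynomial in `x, y` is `P : List (List ℤ)` with value `evl (evl (↑) y) x P`.
All operations are structurally recursive (fast in the kernel).  Positivity on `[A/D, (A+C)/D]`: substitution
`x = (A + C s)/D`, `s = 1/(1+w)`, all coefficients nonnegative (Bernstein coefficients).
-/

set_option autoImplicit false

namespace Crest.Agent.R163.PC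

/-- operations on coefficients -/
class PR (R : Type) where
  add : R → R → R
  sm : ℤ → R → R
  zero : R
  mul : R → R → R
  one : R

instance instPRInt : PR ℤ := ⟨Int.add, Int.mul, 0, Int.mul, 1⟩

section
variable {R : Type} [PR R]

/-- sum -/
def ladd : List R → List R → List R
  | [], q => q
  | a :: p, [] => a :: p
  | a :: p, b :: q => PR.add a b :: ladd p q

/-- multiple by an integer -/
def lsm (c : ℤ) : List R → List R
  | [] => []
  | a :: p => PR.sm c a :: lsm c p

/-- multiple by a coefficient -/
def lcm' (c : R) : List R → List R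
  | [] => []
  | a :: p => PR.mul c a :: lcm' c p

/-- product -/
def lmul : List R → List R → List R
  | [], _ => []
  | a :: p, q => ladd (lcm' a q) (PR.zero :: lmul p q)

instance instPRList : PR (List R) := ⟨ladd, lsm, [], lmul, [PR.one]⟩

/-- multiplication by `A + C x` -/
def mulLin (A C : ℤ) (p : List R) : List R := ladd (lsm A p) (PR.zero :: lsm C p)

/-- `D^(len p - 1) * p ((A + C s) / D)` -/
def sub1 (A C D : ℤ) : List R → List R
  | [] => []
  | a :: l => ladd [PR.sm (D ^ l.length) a] (mulLin A C (sub1 A C D l))

/-- `p (1 + w)` -/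
def shift1 : List R → List R
  | [] => []
  | a :: l => ladd [a] (mulLin 1 1 (shift1 l))

/-- coefficients (in `w`) of `(1 + w)^n p1 (1 / (1 + w))`, `p1 s = D^n p ((A + C s) / D)` -/
def bern (A C D : ℤ) (p : List R) : List R := shift1 (sub1 A C D p).reverse

/-- power -/
def ppow (a : R) : ℕ → R
  | 0 => PR.one
  | n + 1 => PR.mul a (ppow a n)

end

/-- value of a polynomial whose coefficients have the values `e` -/
noncomputable def evl {R : Type} (e : R → ℝ) (x : ℝ) : List R → ℝ
  | [] => 0
  | a :: l => e a + x * evl e x l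

/-- `e` is compatible with the operations -/
structure Lin {R : Type} [PR R] (e : R → ℝ) : Prop where
  add : ∀ a b, e (PR.add a b) = e a + e b
  sm : ∀ (c : ℤ) a, e (PR.sm c a) = c * e a
  zero : e PR.zero = 0
  mul : ∀ a b, e (PR.mul a b) = e a * e b
  one : e PR.one = 1

theorem lin_int : Lin (fun a : ℤ => (a : ℝ)) :=
  ⟨fun a b => Int.cast_add a b, fun c a => Int.cast_mul c a, Int.cast_zero,
    fun a b => Int.cast_mul a b, Int.cast_one⟩

section
variable {R : Type} [PR R] {e : R → ℝ}

theorem evl_ladd (h : Lin e) (x : ℝ) (p q : List R) :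
    evl e x (ladd p q) = evl e x p + evl e x q := by
  induction p generalizing q with
  | nil => simp [ladd, evl]
  | cons a p ih =>
    cases q with
    | nil => simp [ladd, evl]
    | cons b q => simp only [ladd, evl, ih, h.add]; ring

theorem evl_lsm (h : Lin e) (x : ℝ) (c : ℤ) (p : List R) :
    evl e x (lsm c p) = c * evl e x p := by
  induction p with
  | nil => simp [lsm, evl]
  | cons a p ih => simp only [lsm, evl, ih, h.sm]; ring

theorem evl_lcm' (h : Lin e) (x : ℝ) (c : R) (p : List R) :
    evl e x (lcm' c p) = e c * evl e x p := by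
  induction p with
  | nil => simp [lcm', evl]
  | cons a p ih => simp only [lcm', evl, ih, h.mul]; ring

theorem evl_lmul (h : Lin e) (x : ℝ) (p q : List R) :
    evl e x (lmul p q) = evl e x p * evl e x q := by
  induction p with
  | nil => simp [lmul, evl]
  | cons a p ih => simp only [lmul, evl, ih, evl_ladd h, evl_lcm' h, h.zero]; ring

theorem Lin.list (h : Lin e) (x : ℝ) : Lin (evl e x) :=
  ⟨evl_ladd h x, evl_lsm h x, rfl, evl_lmul h x, by
    show evl e x [PR.one] = 1
    simp [evl, h.one]⟩

theorem evl_mulLin (h : Lin e) (x : ℝ) (A C : ℤ) (p : List R) :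
    evl e x (mulLin A C p) = (A + C * x) * evl e x p := by
  simp only [mulLin, evl_ladd h, evl, evl_lsm h, h.zero]; ring

theorem e_ppow (h : Lin e) (a : R) (n : ℕ) : e (ppow a n) = e a ^ n := by
  induction n with
  | zero => simp [ppow, h.one]
  | succ n ih => simp only [ppow, h.mul, ih, pow_succ]; ring

theorem evl_sub1 (h : Lin e) (s : ℝ) (A C D : ℤ) (hD : D ≠ 0) (p : List R) :
    (D : ℝ) * evl e s (sub1 A C D p) = (D : ℝ) ^ p.length * evl e ((A + C * s) / D) p := by
  have hD' : (D : ℝ) ≠ 0 := by exact_mod_cast hD
  induction p with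
  | nil => simp [sub1, evl]
  | cons a l ih =>
    simp only [sub1, evl_ladd h, evl_mulLin h, evl, h.sm, List.length_cons, Int.cast_pow, mul_zero,
      add_zero]
    have : (D : ℝ) * ((D : ℝ) ^ l.length * e a + (A + C * s) * evl e s (sub1 A C D l)) =
        (D : ℝ) ^ (l.length + 1) * e a + (A + C * s) * (D * evl e s (sub1 A C D l)) := by ring
    rw [this, ih]
    field_simp
    ring

theorem evl_shift1 (h : Lin e) (w : ℝ) (p : List R) :
    evl e w (shift1 p) = evl e (1 + w) p := by
  induction p with
  | nil => simp [shift1, evl]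
  | cons a l ih =>
    simp only [shift1, evl_ladd h, evl_mulLin h, evl, ih, Int.cast_one]; ring

omit [PR R] in
theorem evl_append (x : ℝ) (p q : List R) :
    evl e x (p ++ q) = evl e x p + x ^ p.length * evl e x q := by
  induction p with
  | nil => simp [evl]
  | cons a p ih => simp only [List.cons_append, evl, ih, List.length_cons, pow_succ]; ring

omit [PR R] in
/-- reversal -/
theorem evl_reverse (x : ℝ) (hx : x ≠ 0) (p : List R) :
    x * evl e x p.reverse = x ^ p.length * evl e (1 / x) p := by
  induction p with
  | nil => simp [evl]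
  | cons a p ih =>
    simp only [List.reverse_cons, evl_append, List.length_reverse, evl, List.length_cons, mul_add, ih]
    field_simp
    ring

theorem evl_bern (h : Lin e) (w : ℝ) (hw : 0 ≤ w) (A C D : ℤ) (hD : 0 < D) (p : List R) :
    (D : ℝ) * ((1 + w) * evl e w (bern A C D p)) =
      ((D : ℝ) * (1 + w)) ^ p.length * evl e ((A + C * (1 / (1 + w))) / D) p := by
  have hlen : ∀ l : List R, (sub1 A C D l).length = l.length := by
    intro l
    induction l with
    | nil => rfl
    | cons a l ih =>
      have h1 : ∀ q : List R, (lsm A q).length = q.length := by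
        intro q; induction q with
        | nil => rfl
        | cons b q ih => simp [lsm, ih]
      have h1' : ∀ (c : ℤ) (q : List R), (lsm c q).length = q.length := by
        intro c q; induction q with
        | nil => rfl
        | cons b q ih => simp [lsm, ih]
      have h2 : ∀ p q : List R, (ladd p q).length = max p.length q.length := by
        intro p
        induction p with
        | nil => intro q; simp [ladd]
        | cons b p ih =>
          intro q
          cases q with
          | nil => simp [ladd]
          | cons c q => simp [ladd, ih]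
      simp only [sub1, mulLin, h2, h1', List.length_cons, List.length_nil, ih]
      omega
  have hw' : (1 + w) ≠ 0 := by positivity
  unfold bern
  rw [evl_shift1 h, evl_reverse (1 + w) hw', hlen]
  have := evl_sub1 h (1 / (1 + w)) A C D hD.ne' p
  calc (D : ℝ) * ((1 + w) ^ p.length * evl e (1 / (1 + w)) (sub1 A C D p))
      = (1 + w) ^ p.length * ((D : ℝ) * evl e (1 / (1 + w)) (sub1 A C D p)) := by ring
    _ = _ := by rw [this, mul_pow]; ring

omit [PR R] in
theorem evl_nonneg {x : ℝ} (hx : 0 ≤ x) {p : List R} (hp : ∀ a ∈ p, 0 ≤ e a) : 0 ≤ evl e x p := by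
  induction p with
  | nil => simp [evl]
  | cons a p ih =>
    exact add_nonneg (hp a (by simp)) (mul_nonneg hx (ih fun b hb => hp b (by simp [hb])))

omit [PR R] in
theorem continuous_evl (p : List R) : Continuous fun x => evl e x p := by
  induction p with
  | nil => simpa [evl] using continuous_const
  | cons a p ih => exact (continuous_const).add (continuous_id.mul ih)

/-- **positivity on an interval**: if all Bernstein coefficients have nonnegative value -/
theorem evl_nonneg_of_bern (h : Lin e) {A C D : ℤ} (hD : 0 < D) (hC : 0 < C) {p : List R}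
    (hp : ∀ a ∈ bern A C D p, 0 ≤ e a) {x : ℝ} (hx0 : (A : ℝ) / D ≤ x) (hx1 : x ≤ ((A : ℝ) + C) / D) :
    0 ≤ evl e x p := by
  have hD' : (0 : ℝ) < D := by exact_mod_cast hD
  have hC' : (0 : ℝ) < C := by exact_mod_cast hC
  -- first for `x > A / D`
  have key : ∀ x : ℝ, (A : ℝ) / D < x → x ≤ ((A : ℝ) + C) / D → 0 ≤ evl e x p := by
    intro x hx0 hx1
    rw [div_lt_iff₀ hD'] at hx0
    rw [le_div_iff₀ hD'] at hx1
    set s : ℝ := (x * D - A) / C with hs
    have hs0 : 0 < s := div_pos (by linarith) hC'
    have hs1 : s ≤ 1 := by rw [hs, div_le_one hC']; linarith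
    set w : ℝ := 1 / s - 1 with hw
    have hw0 : 0 ≤ w := by
      rw [hw, sub_nonneg, le_div_iff₀ hs0]; linarith
    have hws : 1 / (1 + w) = s := by rw [hw]; field_simp; ring
    have h1 := evl_bern h w hw0 A C D hD p
    rw [hws] at h1
    have hx : ((A : ℝ) + C * s) / D = x := by rw [hs]; field_simp; ring
    rw [hx] at h1
    have h2 : 0 ≤ (D : ℝ) * ((1 + w) * evl e w (bern A C D p)) :=
      mul_nonneg hD'.le (mul_nonneg (by linarith) (evl_nonneg hw0 hp))
    rw [h1] at h2
    have h3 : 0 < ((D : ℝ) * (1 + w)) ^ p.length := pow_pos (mul_pos hD' (by linarith)) _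
    exact nonneg_of_mul_nonneg_right h2 h3
  rcases hx0.lt_or_eq with hlt | rfl
  · exact key x hlt hx1
  · -- by continuity
    have hcont := (continuous_evl (e := e) p).continuousAt (x := (A : ℝ) / D)
    have hlim : Filter.Tendsto (fun x => evl e x p) (nhdsWithin ((A : ℝ) / D) (Set.Ioi ((A : ℝ) / D)))
        (nhds (evl e ((A : ℝ) / D) p)) := hcont.mono_left nhdsWithin_le_nhds
    refine ge_of_tendsto hlim ?_
    have h4 : (A : ℝ) / D < ((A : ℝ) + C) / D := by
      apply div_lt_div_of_pos_right _ hD'; linarith
    filter_upwards [Ioc_mem_nhdsGT h4] with y hy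
    exact key y hy.1 hy.2

end

/-! ### tests -/

/-- interval `[A/D, (A+C)/D]` -/
structure Iv where
  A : ℤ
  C : ℤ
  D : ℤ

/-- membership -/
def Iv.mem (I : Iv) (x : ℝ) : Prop := (I.A : ℝ) / I.D ≤ x ∧ x ≤ ((I.A : ℝ) + I.C) / I.D

/-- all entries nonnegative -/
def allNN : List ℤ → Bool
  | [] => true
  | a :: l => match a with
    | Int.ofNat _ => allNN l
    | Int.negSucc _ => false

theorem allNN_sound {l : List ℤ} (h : allNN l = true) : ∀ a ∈ l, 0 ≤ a := by
  induction l with
  | nil => simp
  | cons b l ih =>
    intro a ha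
    cases b with
    | ofNat n =>
      rcases List.mem_cons.1 ha with rfl | ha
      · exact Int.natCast_nonneg n
      · exact ih h a ha
    | negSucc n => simp [allNN] at h

/-- positivity of an integer -/
def posI : ℤ → Bool
  | Int.ofNat 0 => false
  | Int.ofNat (_ + 1) => true
  | Int.negSucc _ => false

theorem posI_sound {a : ℤ} (h : posI a = true) : 0 < a := by
  rcases a with (_ | n) | n
  · simp [posI] at h
  · exact Int.natCast_pos.2 (Nat.succ_pos n)
  · simp [posI] at h

/-- univariate test -/
def test1 (I : Iv) (p : List ℤ) : Bool := posI I.C && posI I.D && allNN (bern I.A I.C I.D p)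

/-- all elements pass -/
def allB {R : Type} (f : R → Bool) : List R → Bool
  | [] => true
  | a :: l => f a && allB f l

theorem allB_sound {R : Type} {f : R → Bool} {l : List R} (h : allB f l = true) :
    ∀ a ∈ l, f a = true := by
  induction l with
  | nil => simp
  | cons b l ih =>
    intro a ha
    simp only [allB, Bool.and_eq_true] at h
    rcases List.mem_cons.1 ha with rfl | ha
    · exact h.1
    · exact ih h.2 a ha

/-- bivariate test: `x` in `I`, `y` in `J` -/
def test2 (I J : Iv) (p : List (List ℤ)) : Bool :=
  posI I.C && posI I.D && allB (test1 J) (bern I.A I.C I.D p)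

/-- trivariate test -/
def test3 (I J K : Iv) (p : List (List (List ℤ))) : Bool :=
  posI I.C && posI I.D && allB (test2 J K) (bern I.A I.C I.D p)

/-- value in one variable -/
noncomputable def ev1 (y : ℝ) (p : List ℤ) : ℝ := evl (fun a : ℤ => (a : ℝ)) y p
/-- value in two variables -/
noncomputable def ev2 (x y : ℝ) (p : List (List ℤ)) : ℝ := evl (ev1 y) x p
/-- value in three variables -/
noncomputable def ev3 (x y z : ℝ) (p : List (List (List ℤ))) : ℝ := evl (ev2 y z) x p

theorem lin1 (y : ℝ) : Lin (ev1 y) := lin_int.list y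
theorem lin2 (x y : ℝ) : Lin (ev2 x y) := (lin1 y).list x
theorem lin3 (x y z : ℝ) : Lin (ev3 x y z) := (lin2 y z).list x

theorem test1_sound {I : Iv} {p : List ℤ} (h : test1 I p = true) {x : ℝ} (hx : I.mem x) :
    0 ≤ ev1 x p := by
  simp only [test1, Bool.and_eq_true] at h
  refine evl_nonneg_of_bern lin_int (posI_sound h.1.2) (posI_sound h.1.1) (fun a ha => ?_) hx.1 hx.2
  exact_mod_cast allNN_sound h.2 a ha

theorem test2_sound {I J : Iv} {p : List (List ℤ)} (h : test2 I J p = true) {x y : ℝ}
    (hx : I.mem x) (hy : J.mem y) : 0 ≤ ev2 x y p := by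
  simp only [test2, Bool.and_eq_true] at h
  exact evl_nonneg_of_bern (lin1 y) (posI_sound h.1.2) (posI_sound h.1.1)
    (fun a ha => test1_sound (allB_sound h.2 a ha) hy) hx.1 hx.2

theorem test3_sound {I J K : Iv} {p : List (List (List ℤ))} (h : test3 I J K p = true) {x y z : ℝ}
    (hx : I.mem x) (hy : J.mem y) (hz : K.mem z) : 0 ≤ ev3 x y z p := by
  simp only [test3, Bool.and_eq_true] at h
  exact evl_nonneg_of_bern (lin2 y z) (posI_sound h.1.2) (posI_sound h.1.1)
    (fun a ha => test2_sound (allB_sound h.2 a ha) hy hz) hx.1 hx.2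

end Crest.Agent.R163.PC
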