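import Crest.Agent.R163.MelC
import Crest.Agent.R163.KCh
import Crest.Agent.R163.Main1
import Crest.Agent.R163.TV

/-!
# Row 163: potentials

* `MF F` : `F` is a multiplicative functional (real Mellin `fM`, complex Mellin `fR`).
* `PhiM g F w = ∑ g j (1 - Ex (F j) w)` signed potential; `CertM q lam G g F δ` = the potential
  inequality for all symmetric experiments; it implies `X (w n) → 0` for the `b`-ary tree
  (`G t = t^b`) and the Poisson tree (`G t = exp (d (t-1))`).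
* `cert_of_pointwise` : tangent (for `g ≥ 0`) + Jensen (for `-g ≥ 0`) reduce the certificate to a
  pointwise inequality on the simplex.
-/

set_option autoImplicit false

namespace Crest.Agent.R163

open Finset Filter

variable {q : ℕ}

/-- real analysis: a bounded-below sequence with decrements `δ y n`, `y ≥ 0`: `y → 0`. -/
theorem tendsto_of_decrement (F y : ℕ → ℝ) (B δ : ℝ) (hδ : 0 < δ) (hB : ∀ n, B ≤ F n)
    (hy : ∀ n, 0 ≤ y n) (h : ∀ n, F (n + 1) ≤ F n - δ * y n) : Tendsto y atTop (nhds 0) := by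
  have hs : Summable y := by
    refine summable_of_sum_range_le (c := (F 0 - B) / δ) hy fun n => ?_
    have key : ∀ m, δ * ∑ i ∈ Finset.range m, y i ≤ F 0 - F m := by
      intro m
      induction m with
      | zero => simp
      | succ m ih => rw [Finset.sum_range_succ, mul_add]; linarith [h m]
    rw [le_div_iff₀ hδ]
    have := key n
    have h2 := hB n
    nlinarith
  exact hs.tendsto_atTop_zero

/-- potential argument -/
theorem tendsto_X_of_potential (hq : 1 < q) {ι : ℕ → Type} {w : ∀ n, ι n → Fin q → ℝ}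
    (hw : ∀ n, IsExp (w n)) (F : ℕ → ℝ) (B δ : ℝ) (hδ : 0 < δ) (hB : ∀ n, B ≤ F n)
    (h : ∀ n, F (n + 1) ≤ F n - δ * Ex fX2 (w n)) : Tendsto (fun n => X (w n)) atTop (nhds 0) := by
  have hq0 : 0 < q := by omega
  have hy : ∀ n, 0 ≤ Ex fX2 (w n) := fun n => (sq_nonneg _).trans (sq_X_le hq0 (hw n))
  have h1 := tendsto_of_decrement F (fun n => Ex fX2 (w n)) B δ hδ hB hy h
  have h2 : Tendsto (fun n => Real.sqrt (Ex fX2 (w n))) atTop (nhds 0) := by
    have := (Real.continuous_sqrt.tendsto 0).comp h1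
    rw [Real.sqrt_zero] at this
    exact this
  refine squeeze_zero (fun n => X_nonneg (hw n)) (fun n => ?_) h2
  exact Real.le_sqrt_of_sq_le (sq_X_le hq0 (hw n))

/-- multiplicative functional -/
structure MF (F : (Fin q → ℝ) → ℝ) : Prop where
  homog : Homog F
  mbdd : MBdd F
  abs_le_one : ∀ (κ : Type) (w : κ → Fin q → ℝ), IsExp w → |Ex F w| ≤ 1
  pow : ∀ (κ : Type) (w : κ → Fin q → ℝ), IsExp w → IsSymm w → ∀ c : ℕ,
    Ex F (pw w c) = Ex F w ^ c

theorem mf_fM (hq : 0 < q) (al : Fin q → ℝ) (h0 : ∀ a, 0 ≤ al a) (h1 : ∑ a, al a = 1) :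
    MF (fM al) where
  homog := homog_fM al h1
  mbdd := mbdd_fM hq al h0 h1
  abs_le_one := fun κ w hw => by
    rw [abs_of_nonneg (Ex_fM_nonneg al hw)]; exact Ex_fM_le_one hq al h0 h1 hw
  pow := fun κ w hw _ c => Ex_fM_pw hq al h0 h1 hw c

theorem mf_fR (hq : 0 < q) (a th : Fin q → ℝ) (h0 : ∀ i, 0 ≤ a i) (h1 : ∑ i, a i = 1)
    (h2 : ∑ i, th i = 0) (σ : Equiv.Perm (Fin q)) (ha : ∀ i, a (σ i) = a i)
    (hth : ∀ i, th (σ i) = -th i) : MF (fR a th) where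
  homog := homog_fR a th h1 h2
  mbdd := mbdd_fR hq a th h0 h1
  abs_le_one := fun κ w hw => abs_Ex_fR_le_one hq a th h0 h1 hw
  pow := fun κ w hw hs c => Ex_fR_pw hq a th h0 h1 σ ha hth hw hs c

/-- multiplicative functionals along a process -/
theorem MF.process (hq : 1 < q) {F : (Fin q → ℝ) → ℝ} (hF : MF F)
    {lam : ℝ} (hl0 : -(1 / ((q : ℝ) - 1)) ≤ lam) (hl1 : lam ≤ 1) {p : ℕ → ℝ} {ι : ℕ → Type}
    {w : ∀ n, ι n → Fin q → ℝ} (hw : IsProcess q lam p ι w) (n : ℕ) :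
    Ex F (w (n + 1)) = ∑' c : ℕ, p c * Ex F (ch lam (w n)) ^ c := by
  rw [hw.succ n _ hF.homog hF.mbdd]
  exact tsum_congr fun c => by
    rw [hF.pow _ _ (isExp_ch hq hl0 hl1 (hw.isExp n)) (isSymm_ch lam (hw.isSymm n))]

theorem MF.reg (hq : 1 < q) {F : (Fin q → ℝ) → ℝ} (hF : MF F)
    {lam : ℝ} (hl0 : -(1 / ((q : ℝ) - 1)) ≤ lam) (hl1 : lam ≤ 1) {b : ℕ} {ι : ℕ → Type}
    {w : ∀ n, ι n → Fin q → ℝ} (hw : IsProcess q lam (pReg b) ι w) (n : ℕ) :
    Ex F (w (n + 1)) = Ex F (ch lam (w n)) ^ b := by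
  rw [hF.process hq hl0 hl1 hw n, tsum_eq_single b]
  · unfold pReg; simp
  · intro c hc
    unfold pReg; simp [hc]

theorem MF.poi (hq : 1 < q) {F : (Fin q → ℝ) → ℝ} (hF : MF F)
    {lam : ℝ} (hl0 : -(1 / ((q : ℝ) - 1)) ≤ lam) (hl1 : lam ≤ 1) {d : ℝ} {ι : ℕ → Type}
    {w : ∀ n, ι n → Fin q → ℝ} (hw : IsProcess q lam (pPoi d) ι w) (n : ℕ) :
    Ex F (w (n + 1)) = Real.exp (d * (Ex F (ch lam (w n)) - 1)) := by
  rw [hF.process hq hl0 hl1 hw n]
  set M := Ex F (ch lam (w n))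
  have h : HasSum (fun c : ℕ => (d * M) ^ c / (Nat.factorial c)) (Real.exp (d * M)) := by
    rw [Real.exp_eq_exp_ℝ]
    exact NormedSpace.expSeries_div_hasSum_exp (𝔸 := ℝ) (d * M)
  have h2 := (h.mul_left (Real.exp (-d))).tsum_eq
  rw [mul_sub, mul_one, sub_eq_add_neg, add_comm, Real.exp_add, ← h2]
  refine tsum_congr fun c => ?_
  unfold pPoi
  rw [mul_pow]; ring

/-- the signed potential `∑ g j (1 - M_j)` -/
noncomputable def PhiM {k : ℕ} (g : Fin k → ℝ) (F : Fin k → (Fin q → ℝ) → ℝ) {κ : Type*}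
    (w : κ → Fin q → ℝ) : ℝ := ∑ j, g j * (1 - Ex (F j) w)

theorem PhiM_ge {k : ℕ} (g : Fin k → ℝ) (F : Fin k → (Fin q → ℝ) → ℝ) (hF : ∀ j, MF (F j))
    {κ : Type} {w : κ → Fin q → ℝ} (hw : IsExp w) : -(∑ j, 2 * |g j|) ≤ PhiM g F w := by
  unfold PhiM
  rw [← Finset.sum_neg_distrib]
  refine Finset.sum_le_sum fun j _ => ?_
  have ha := abs_le.1 ((hF j).abs_le_one κ w hw)
  have : |g j * (1 - Ex (F j) w)| ≤ 2 * |g j| := by
    rw [abs_mul, mul_comm]
    refine mul_le_mul_of_nonneg_right ?_ (abs_nonneg _)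
    rw [abs_le]; constructor <;> linarith [ha.1, ha.2]
  linarith [neg_abs_le (g j * (1 - Ex (F j) w))]

/-- a certificate for an offspring generating function `G` and channel `lam`: the potential
inequality for ALL symmetric experiments -/
def CertM (q : ℕ) (lam : ℝ) (G : ℝ → ℝ) {k : ℕ} (g : Fin k → ℝ)
    (F : Fin k → (Fin q → ℝ) → ℝ) (δ : ℝ) : Prop :=
  ∀ (κ : Type) (Q : κ → Fin q → ℝ), IsExp Q → IsSymm Q →
    ∑ j, g j * (1 - G (Ex (F j) (ch lam Q))) ≤ PhiM g F Q - δ * Ex fX2 Q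

theorem tendsto_X_reg (hq : 1 < q) {lam : ℝ} (hl0 : -(1 / ((q : ℝ) - 1)) ≤ lam) (hl1 : lam ≤ 1)
    {b : ℕ} {ι : ℕ → Type} {w : ∀ n, ι n → Fin q → ℝ} (hw : IsProcess q lam (pReg b) ι w)
    {k : ℕ} (g : Fin k → ℝ) (F : Fin k → (Fin q → ℝ) → ℝ) (hF : ∀ j, MF (F j)) (δ : ℝ)
    (hδ : 0 < δ) (hC : CertM q lam (fun t => t ^ b) g F δ) :
    Tendsto (fun n => X (w n)) atTop (nhds 0) := by
  refine tendsto_X_of_potential hq hw.isExp (fun n => PhiM g F (w n)) _ δ hδ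
    (fun n => PhiM_ge g F hF (hw.isExp n)) fun n => ?_
  refine le_trans (le_of_eq ?_) (hC _ (w n) (hw.isExp n) (hw.isSymm n))
  show PhiM g F (w (n + 1)) = _
  unfold PhiM
  exact Finset.sum_congr rfl fun j _ => by rw [(hF j).reg hq hl0 hl1 hw n]

theorem tendsto_X_poi (hq : 1 < q) {lam : ℝ} (hl0 : -(1 / ((q : ℝ) - 1)) ≤ lam) (hl1 : lam ≤ 1)
    {d : ℝ} {ι : ℕ → Type} {w : ∀ n, ι n → Fin q → ℝ} (hw : IsProcess q lam (pPoi d) ι w)
    {k : ℕ} (g : Fin k → ℝ) (F : Fin k → (Fin q → ℝ) → ℝ) (hF : ∀ j, MF (F j)) (δ : ℝ)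
    (hδ : 0 < δ) (hC : CertM q lam (fun t => Real.exp (d * (t - 1))) g F δ) :
    Tendsto (fun n => X (w n)) atTop (nhds 0) := by
  refine tendsto_X_of_potential hq hw.isExp (fun n => PhiM g F (w n)) _ δ hδ
    (fun n => PhiM_ge g F hF (hw.isExp n)) fun n => ?_
  refine le_trans (le_of_eq ?_) (hC _ (w n) (hw.isExp n) (hw.isSymm n))
  show PhiM g F (w (n + 1)) = _
  unfold PhiM
  exact Finset.sum_congr rfl fun j _ => by rw [(hF j).poi hq hl0 hl1 hw n]

end Crest.Agent.R163
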