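import Crest.Agent.R163.KnD

/-!
# Row 163: scalar tools for knots: enclosures of `exp`, chords
-/

set_option autoImplicit false

namespace Crest.Agent.R163.KnP

open Finset Filter

/-- Taylor polynomial of `exp` -/
noncomputable def T8 (y : ℝ) : ℝ :=
  1 + y + y ^ 2 / 2 + y ^ 3 / 6 + y ^ 4 / 24 + y ^ 5 / 120 + y ^ 6 / 720 + y ^ 7 / 5040

theorem exp_T8 {y : ℝ} (h : |y| ≤ 7 / 20) : |Real.exp y - T8 y| ≤ 1 / 100000000 := by
  have h1 := Real.exp_bound (x := y) (by linarith) (n := 8) (by norm_num)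
  have e : ∑ m ∈ range 8, y ^ m / (m.factorial : ℝ) = T8 y := by
    unfold T8
    simp [Finset.sum_range_succ, Nat.factorial]
  rw [e] at h1
  refine h1.trans ?_
  have h2 : |y| ^ 8 ≤ (7 / 20) ^ 8 := pow_le_pow_left₀ (abs_nonneg _) h 8
  have h3 : (0 : ℝ) ≤ ((8 : ℕ).succ : ℝ) / ((Nat.factorial 8 : ℕ) * (8 : ℕ)) := by positivity
  refine (mul_le_mul_of_nonneg_right h2 h3).trans ?_
  norm_num [Nat.factorial]

/-- upper bound of `exp (8 y)` -/
theorem exp_up {y U E : ℝ} (h : |y| ≤ 7 / 20) (hU : T8 y + 1 / 100000000 ≤ U) (hE : U ^ 8 ≤ E) :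
    Real.exp (8 * y) ≤ E := by
  have h1 := (abs_le.1 (exp_T8 h)).2
  have h2 : Real.exp y ≤ U := by linarith
  have e : Real.exp (8 * y) = Real.exp y ^ 8 := by
    rw [← Real.exp_nat_mul]; norm_num
  rw [e]
  exact (pow_le_pow_left₀ (Real.exp_pos y).le h2 8).trans hE

/-- lower bound of `exp (8 y)` -/
theorem exp_dn {y L E : ℝ} (h : |y| ≤ 7 / 20) (hL0 : 0 ≤ L) (hL : L ≤ T8 y - 1 / 100000000)
    (hE : E ≤ L ^ 8) : E ≤ Real.exp (8 * y) := by
  have h1 := (abs_le.1 (exp_T8 h)).1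
  have h2 : L ≤ Real.exp y := by linarith
  have e : Real.exp (8 * y) = Real.exp y ^ 8 := by
    rw [← Real.exp_nat_mul]; norm_num
  rw [e]
  exact hE.trans (pow_le_pow_left₀ hL0 h2 8)

/-- chord of `exp (-·)` -/
theorem exp_chord {c g0 nu K a b Ea Eb tau : ℝ} (hab : a < b) (hg0 : 0 ≤ g0) (ha : a ≤ tau)
    (hb : tau ≤ b) (hEa : Real.exp (-a) ≤ Ea) (hEb : Real.exp (-b) ≤ Eb)
    (h1 : c + g0 * Ea + nu * a ≤ K) (h2 : c + g0 * Eb + nu * b ≤ K) :
    c + g0 * Real.exp (-tau) + nu * tau ≤ K := by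
  have hd : 0 < b - a := by linarith
  set w : ℝ := (tau - a) / (b - a) with hw
  have w0 : 0 ≤ w := div_nonneg (by linarith) hd.le
  have w1 : w ≤ 1 := by rw [hw, div_le_one hd]; linarith
  have et : tau = (1 - w) * a + w * b := by
    rw [hw]; field_simp; ring
  have hc := convexOn_exp.2 (Set.mem_univ (-a)) (Set.mem_univ (-b)) (by linarith : 0 ≤ 1 - w) w0
    (by ring)
  simp only [smul_eq_mul] at hc
  have e2 : (1 - w) * -a + w * -b = -tau := by rw [et]; ring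
  rw [e2] at hc
  have h3 : Real.exp (-tau) ≤ (1 - w) * Ea + w * Eb :=
    hc.trans (add_le_add (mul_le_mul_of_nonneg_left hEa (by linarith))
      (mul_le_mul_of_nonneg_left hEb w0))
  have h4 := mul_le_mul_of_nonneg_left h3 hg0
  have h5 := mul_le_mul_of_nonneg_left h1 (by linarith : 0 ≤ 1 - w)
  have h6 := mul_le_mul_of_nonneg_left h2 w0
  have e3 : (1 - w) * (c + g0 * Ea + nu * a) + w * (c + g0 * Eb + nu * b) =
      c + g0 * ((1 - w) * Ea + w * Eb) + nu * tau := by rw [et]; ring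
  have e4 : (1 - w) * K + w * K = K := by ring
  linarith

/-- a Poisson scalar inequality on an interval -/
theorem poi_scal {g1 g0 x q nu K a b Ea Eb tau : ℝ} (hg1 : 0 ≤ g1) (hg0 : 0 ≤ g0) (hx : 0 < x)
    (hq : x ≤ Real.exp q) (hab : a < b) (ha : a ≤ tau) (hb : tau ≤ b)
    (hEa : Real.exp (-a) ≤ Ea) (hEb : Real.exp (-b) ≤ Eb)
    (h1 : g1 * (1 - x + x * q) - g0 + g0 * Ea + nu * a ≤ K)
    (h2 : g1 * (1 - x + x * q) - g0 + g0 * Eb + nu * b ≤ K) :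
    g1 * (1 - x + x * Real.log x) - g0 * (1 - Real.exp (-tau)) + nu * tau ≤ K := by
  have h3 := exp_chord hab hg0 ha hb hEa hEb h1 h2
  have h4 : Real.log x ≤ q := (Real.log_le_iff_le_exp hx).2 hq
  have h5 := mul_le_mul_of_nonneg_left (mul_le_mul_of_nonneg_left h4 hx.le) hg1
  linarith

/-- a scalar inequality beyond a point, `nu ≤ 0` -/
theorem poi_scal_tail {g1 g0 x q nu K a Ea tau : ℝ} (hg1 : 0 ≤ g1) (hg0 : 0 ≤ g0) (hx : 0 < x)
    (hq : x ≤ Real.exp q) (hnu : nu ≤ 0) (ha : a ≤ tau)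
    (hEa : Real.exp (-a) ≤ Ea)
    (h1 : g1 * (1 - x + x * q) - g0 + g0 * Ea + nu * a ≤ K) :
    g1 * (1 - x + x * Real.log x) - g0 * (1 - Real.exp (-tau)) + nu * tau ≤ K := by
  have h4 : Real.log x ≤ q := (Real.log_le_iff_le_exp hx).2 hq
  have h5 := mul_le_mul_of_nonneg_left (mul_le_mul_of_nonneg_left h4 hx.le) hg1
  have h6 : Real.exp (-tau) ≤ Ea := (Real.exp_le_exp.2 (by linarith)).trans hEa
  have h7 := mul_le_mul_of_nonneg_left h6 hg0
  have h8 := mul_le_mul_of_nonpos_left ha hnu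
  linarith

/-- roots -/
theorem exists_root {x zh : ℝ} (hx : 0 ≤ x) (hzh : 0 ≤ zh) {m : ℕ} (hm : m ≠ 0)
    (h : x ≤ zh ^ m) : ∃ z : ℝ, 0 ≤ z ∧ z ^ m = x ∧ z ≤ zh := by
  refine ⟨x ^ ((m : ℝ)⁻¹), Real.rpow_nonneg hx _, Real.rpow_inv_natCast_pow hx hm, ?_⟩
  refine le_of_pow_le_pow_left₀ hm hzh ?_
  rw [Real.rpow_inv_natCast_pow hx hm]
  exact h

/-- chord of a power -/
theorem pow_chord {c g0 nu K a a' tau : ℝ} {b : ℕ} (hb : 1 ≤ b) (hab : a < a') (hg0 : 0 ≤ g0)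
    (ha : a ≤ tau) (ha' : tau ≤ a') (hb' : a' ≤ b)
    (h1 : c + g0 * (1 - a / b) ^ b + nu * a ≤ K) (h2 : c + g0 * (1 - a' / b) ^ b + nu * a' ≤ K) :
    c + g0 * (1 - tau / b) ^ b + nu * tau ≤ K := by
  have hbp : (0 : ℝ) < b := by exact_mod_cast hb
  have hd : 0 < a' - a := by linarith
  set w : ℝ := (tau - a) / (a' - a) with hw
  have w0 : 0 ≤ w := div_nonneg (by linarith) hd.le
  have w1 : w ≤ 1 := by rw [hw, div_le_one hd]; linarith
  have et : tau = (1 - w) * a + w * a' := by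
    rw [hw]; field_simp; ring
  have m1 : (0 : ℝ) ≤ 1 - a / b := by
    rw [sub_nonneg, div_le_one hbp]; linarith
  have m2' : (0 : ℝ) ≤ 1 - a' / b := by
    rw [sub_nonneg, div_le_one hbp]; linarith
  have hc := (convexOn_pow b).2 (Set.mem_Ici.2 m1) (Set.mem_Ici.2 m2')
    (by linarith : 0 ≤ 1 - w) w0 (by ring)
  simp only [smul_eq_mul] at hc
  have e2 : (1 - w) * (1 - a / b) + w * (1 - a' / b) = 1 - tau / b := by
    rw [et]; field_simp; ring
  rw [e2] at hc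
  have h4 := mul_le_mul_of_nonneg_left hc hg0
  have h5 := mul_le_mul_of_nonneg_left h1 (by linarith : 0 ≤ 1 - w)
  have h6 := mul_le_mul_of_nonneg_left h2 w0
  have e3 : (1 - w) * (c + g0 * (1 - a / b) ^ b + nu * a) +
      w * (c + g0 * (1 - a' / b) ^ b + nu * a') =
      c + g0 * ((1 - w) * (1 - a / b) ^ b + w * (1 - a' / b) ^ b) + nu * tau := by rw [et]; ring
  have e4 : (1 - w) * K + w * K = K := by ring
  linarith

/-- a `b`-ary scalar inequality on an interval, with the exact root -/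
theorem reg_scal {g1 g0 x zh nu K a a' tau : ℝ} {b : ℕ} (hb : 2 ≤ b) (hg1 : 0 ≤ g1)
    (hg0 : 0 ≤ g0) (hx : 0 ≤ x) (hzh : 0 ≤ zh) (hr : x ≤ zh ^ (b - 1)) (hab : a < a')
    (ha : a ≤ tau) (ha' : tau ≤ a') (hb' : a' ≤ b)
    (h1 : g1 * (1 - b * x + (b - 1) * (x * zh)) - g0 + g0 * (1 - a / b) ^ b + nu * a ≤ K)
    (h2 : g1 * (1 - b * x + (b - 1) * (x * zh)) - g0 + g0 * (1 - a' / b) ^ b + nu * a' ≤ K) :
    ∃ z : ℝ, 0 ≤ z ∧ z ^ (b - 1) = x ∧
      g1 * (1 - b * z ^ (b - 1) + (b - 1) * z ^ b) - g0 * (1 - (1 - tau / b) ^ b) + nu * tau ≤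
        K := by
  obtain ⟨z, hz, hzx, hzz⟩ := exists_root hx hzh (m := b - 1) (by omega) hr
  refine ⟨z, hz, hzx, ?_⟩
  have h3 := pow_chord (by omega) hab hg0 ha ha' hb' h1 h2
  have e : z ^ b = x * z := by
    rw [← hzx, ← pow_succ]; congr 1; omega
  rw [hzx, e]
  have hb1 : (0 : ℝ) ≤ (b : ℝ) - 1 := by
    have : (2 : ℝ) ≤ b := by exact_mod_cast hb
    linarith
  have h5 := mul_le_mul_of_nonneg_left (mul_le_mul_of_nonneg_left
    (mul_le_mul_of_nonneg_left hzz hx) hb1) hg1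
  linarith

end Crest.Agent.R163.KnP
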