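import Crest.Agent.R163.Sc

/-!
# Row 163: scalar inequalities, Poisson case
-/

set_option autoImplicit false

namespace Crest.Agent.R163.KnP

open Finset Filter

theorem ex_150 : Real.exp (-(150 / 1000)) ≤ 860708047 / 1000000000 := by
  have h := exp_up (y := -(150 / 8000)) (U := 9814246978 / 10000000000) (E := 860708047 / 1000000000)
    (by rw [abs_le]; constructor <;> norm_num) (by unfold T8; norm_num) (by norm_num)
  have e : (8 : ℝ) * -(150 / 8000) = -(150 / 1000) := by norm_num
  rwa [e] at h

theorem ex_208 : Real.exp (-(208 / 1000)) ≤ 812207105 / 1000000000 := by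
  have h := exp_up (y := -(208 / 8000)) (U := 9743350997 / 10000000000) (E := 812207105 / 1000000000)
    (by rw [abs_le]; constructor <;> norm_num) (by unfold T8; norm_num) (by norm_num)
  have e : (8 : ℝ) * -(208 / 8000) = -(208 / 1000) := by norm_num
  rwa [e] at h

theorem ex_276 : Real.exp (-(276 / 1000)) ≤ 758812994 / 1000000000 := by
  have h := exp_up (y := -(276 / 8000)) (U := 9660883497 / 10000000000) (E := 758812994 / 1000000000)
    (by rw [abs_le]; constructor <;> norm_num) (by unfold T8; norm_num) (by norm_num)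
  have e : (8 : ℝ) * -(276 / 8000) = -(276 / 1000) := by norm_num
  rwa [e] at h

theorem ex_350 : Real.exp (-(350 / 1000)) ≤ 704688149 / 1000000000 := by
  have h := exp_up (y := -(350 / 8000)) (U := 9571932359 / 10000000000) (E := 704688149 / 1000000000)
    (by rw [abs_le]; constructor <;> norm_num) (by unfold T8; norm_num) (by norm_num)
  have e : (8 : ℝ) * -(350 / 8000) = -(350 / 1000) := by norm_num
  rwa [e] at h

theorem ex_428 : Real.exp (-(428 / 1000)) ≤ 651811471 / 1000000000 := by
  have h := exp_up (y := -(428 / 8000)) (U := 9479059511 / 10000000000) (E := 651811471 / 1000000000)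
    (by rw [abs_le]; constructor <;> norm_num) (by unfold T8; norm_num) (by norm_num)
  have e : (8 : ℝ) * -(428 / 8000) = -(428 / 1000) := by norm_num
  rwa [e] at h

theorem ex_508 : Real.exp (-(508 / 1000)) ≤ 601697824 / 1000000000 := by
  have h := exp_up (y := -(508 / 8000)) (U := 9384741294 / 10000000000) (E := 601697824 / 1000000000)
    (by rw [abs_le]; constructor <;> norm_num) (by unfold T8; norm_num) (by norm_num)
  have e : (8 : ℝ) * -(508 / 8000) = -(508 / 1000) := by norm_num
  rwa [e] at h

theorem ex_592 : Real.exp (-(592 / 1000)) ≤ 553219787 / 1000000000 := by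
  have h := exp_up (y := -(592 / 8000)) (U := 9286717039 / 10000000000) (E := 553219787 / 1000000000)
    (by rw [abs_le]; constructor <;> norm_num) (by unfold T8; norm_num) (by norm_num)
  have e : (8 : ℝ) * -(592 / 8000) = -(592 / 1000) := by norm_num
  rwa [e] at h

theorem ex_687 : Real.exp (-(687 / 1000)) ≤ 503083101 / 1000000000 := by
  have h := exp_up (y := -(687 / 8000)) (U := 9177089477 / 10000000000) (E := 503083101 / 1000000000)
    (by rw [abs_le]; constructor <;> norm_num) (by unfold T8; norm_num) (by norm_num)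
  have e : (8 : ℝ) * -(687 / 8000) = -(687 / 1000) := by norm_num
  rwa [e] at h

theorem ex_811 : Real.exp (-(811 / 1000)) ≤ 444413471 / 1000000000 := by
  have h := exp_up (y := -(811 / 8000)) (U := 9035941316 / 10000000000) (E := 444413471 / 1000000000)
    (by rw [abs_le]; constructor <;> norm_num) (by unfold T8; norm_num) (by norm_num)
  have e : (8 : ℝ) * -(811 / 8000) = -(811 / 1000) := by norm_num
  rwa [e] at h

theorem ex_885 : Real.exp (-(885 / 1000)) ≤ 412714211 / 1000000000 := by
  have h := exp_up (y := -(885 / 8000)) (U := 8952744239 / 10000000000) (E := 412714211 / 1000000000)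
    (by rw [abs_le]; constructor <;> norm_num) (by unfold T8; norm_num) (by norm_num)
  have e : (8 : ℝ) * -(885 / 8000) = -(885 / 1000) := by norm_num
  rwa [e] at h

theorem ex_1150 : Real.exp (-(1150 / 1000)) ≤ 316636799 / 1000000000 := by
  have h := exp_up (y := -(1150 / 8000)) (U := 8661042571 / 10000000000) (E := 316636799 / 1000000000)
    (by rw [abs_le]; constructor <;> norm_num) (by unfold T8; norm_num) (by norm_num)
  have e : (8 : ℝ) * -(1150 / 8000) = -(1150 / 1000) := by norm_num
  rwa [e] at h

theorem ex_1450 : Real.exp (-(1450 / 1000)) ≤ 234570311 / 1000000000 := by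
  have h := exp_up (y := -(1450 / 8000)) (U := 8342267860 / 10000000000) (E := 234570311 / 1000000000)
    (by rw [abs_le]; constructor <;> norm_num) (by unfold T8; norm_num) (by norm_num)
  have e : (8 : ℝ) * -(1450 / 8000) = -(1450 / 1000) := by norm_num
  rwa [e] at h

theorem ex_1900 : Real.exp (-(1900 / 1000)) ≤ 149568635 / 1000000000 := by
  have h := exp_up (y := -(1900 / 8000)) (U := 7885969008 / 10000000000) (E := 149568635 / 1000000000)
    (by rw [abs_le]; constructor <;> norm_num) (by unfold T8; norm_num) (by norm_num)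
  have e : (8 : ℝ) * -(1900 / 8000) = -(1900 / 1000) := by norm_num
  rwa [e] at h

theorem ex_2800 : Real.exp (-(2800 / 1000)) ≤ 60810066 / 1000000000 := by
  have h := exp_up (y := -(2800 / 8000)) (U := 7046880944 / 10000000000) (E := 60810066 / 1000000000)
    (by rw [abs_le]; constructor <;> norm_num) (by unfold T8; norm_num) (by norm_num)
  have e : (8 : ℝ) * -(2800 / 8000) = -(2800 / 1000) := by norm_num
  rwa [e] at h

theorem qk_1 : (8997 / 10000) ≤ Real.exp (-(1056937 / 10000000)) := by
  have h := exp_dn (y := -(1056937 / 80000000)) (L := 9868751690 / 10000000000) (E := (8997 / 10000))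
    (by rw [abs_le]; constructor <;> norm_num) (by norm_num) (by unfold T8; norm_num)
    (by norm_num)
  have e : (8 : ℝ) * -(1056937 / 80000000) = -(1056937 / 10000000) := by norm_num
  rwa [e] at h

theorem qk_2 : (8671 / 10000) ≤ Real.exp (-(1426007 / 10000000)) := by
  have h := exp_dn (y := -(1426007 / 80000000)) (L := 9823328296 / 10000000000) (E := (8671 / 10000))
    (by rw [abs_le]; constructor <;> norm_num) (by norm_num) (by unfold T8; norm_num)
    (by norm_num)
  have e : (8 : ℝ) * -(1426007 / 80000000) = -(1426007 / 10000000) := by norm_num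
  rwa [e] at h

theorem qk_3 : (8319 / 10000) ≤ Real.exp (-(1840428 / 10000000)) := by
  have h := exp_dn (y := -(1840428 / 80000000)) (L := 9772572454 / 10000000000) (E := (8319 / 10000))
    (by rw [abs_le]; constructor <;> norm_num) (by norm_num) (by unfold T8; norm_num)
    (by norm_num)
  have e : (8 : ℝ) * -(1840428 / 80000000) = -(1840428 / 10000000) := by norm_num
  rwa [e] at h

theorem qk_4 : (7970 / 10000) ≤ Real.exp (-(2269004 / 10000000)) := by
  have h := exp_dn (y := -(2269004 / 80000000)) (L := 9720358812 / 10000000000) (E := (7970 / 10000))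
    (by rw [abs_le]; constructor <;> norm_num) (by norm_num) (by unfold T8; norm_num)
    (by norm_num)
  have e : (8 : ℝ) * -(2269004 / 80000000) = -(2269004 / 10000000) := by norm_num
  rwa [e] at h

theorem qk_5 : (7623 / 10000) ≤ Real.exp (-(2714148 / 10000000)) := by
  have h := exp_dn (y := -(2714148 / 80000000)) (L := 9666422019 / 10000000000) (E := (7623 / 10000))
    (by rw [abs_le]; constructor <;> norm_num) (by norm_num) (by unfold T8; norm_num)
    (by norm_num)
  have e : (8 : ℝ) * -(2714148 / 80000000) = -(2714148 / 10000000) := by norm_num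
  rwa [e] at h

theorem qk_6 : (7284 / 10000) ≤ Real.exp (-(3169047 / 10000000)) := by
  have h := exp_dn (y := -(3169047 / 80000000)) (L := 9611612425 / 10000000000) (E := (7284 / 10000))
    (by rw [abs_le]; constructor <;> norm_num) (by norm_num) (by unfold T8; norm_num)
    (by norm_num)
  have e : (8 : ℝ) * -(3169047 / 80000000) = -(3169047 / 10000000) := by norm_num
  rwa [e] at h

theorem qk_7 : (6944 / 10000) ≤ Real.exp (-(3647069 / 10000000)) := by
  have h := exp_dn (y := -(3647069 / 80000000)) (L := 9554351642 / 10000000000) (E := (6944 / 10000))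
    (by rw [abs_le]; constructor <;> norm_num) (by norm_num) (by unfold T8; norm_num)
    (by norm_num)
  have e : (8 : ℝ) * -(3647069 / 80000000) = -(3647069 / 10000000) := by norm_num
  rwa [e] at h

theorem qk_8 : (6562 / 10000) ≤ Real.exp (-(4212894 / 10000000)) := by
  have h := exp_dn (y := -(4212894 / 80000000)) (L := 9487013917 / 10000000000) (E := (6562 / 10000))
    (by rw [abs_le]; constructor <;> norm_num) (by norm_num) (by unfold T8; norm_num)
    (by norm_num)
  have e : (8 : ℝ) * -(4212894 / 80000000) = -(4212894 / 10000000) := by norm_num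
  rwa [e] at h

theorem qk_9 : (6227 / 10000) ≤ Real.exp (-(4736902 / 10000000)) := by
  have h := exp_dn (y := -(4736902 / 80000000)) (L := 9425076098 / 10000000000) (E := (6227 / 10000))
    (by rw [abs_le]; constructor <;> norm_num) (by norm_num) (by unfold T8; norm_num)
    (by norm_num)
  have e : (8 : ℝ) * -(4736902 / 80000000) = -(4736902 / 10000000) := by norm_num
  rwa [e] at h

theorem qa_1 : (5719 / 10000) ≤ Real.exp (-(5587909 / 10000000)) := by
  have h := exp_dn (y := -(5587909 / 80000000)) (L := 9325347402 / 10000000000) (E := (5719 / 10000))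
    (by rw [abs_le]; constructor <;> norm_num) (by norm_num) (by unfold T8; norm_num)
    (by norm_num)
  have e : (8 : ℝ) * -(5587909 / 80000000) = -(5587909 / 10000000) := by norm_num
  rwa [e] at h

theorem qa_2 : (4987 / 10000) ≤ Real.exp (-(6957503 / 10000000)) := by
  have h := exp_dn (y := -(6957503 / 80000000)) (L := 9167056978 / 10000000000) (E := (4987 / 10000))
    (by rw [abs_le]; constructor <;> norm_num) (by norm_num) (by unfold T8; norm_num)
    (by norm_num)
  have e : (8 : ℝ) * -(6957503 / 80000000) = -(6957503 / 10000000) := by norm_num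
  rwa [e] at h

theorem qa_3 : (4315 / 10000) ≤ Real.exp (-(8404875 / 10000000)) := by
  have h := exp_dn (y := -(8404875 / 80000000)) (L := 9002696507 / 10000000000) (E := (4315 / 10000))
    (by rw [abs_le]; constructor <;> norm_num) (by norm_num) (by unfold T8; norm_num)
    (by norm_num)
  have e : (8 : ℝ) * -(8404875 / 80000000) = -(8404875 / 10000000) := by norm_num
  rwa [e] at h

theorem qa_4 : (3576 / 10000) ≤ Real.exp (-(10283400 / 10000000)) := by
  have h := exp_dn (y := -(10283400 / 80000000)) (L := 8793761781 / 10000000000) (E := (3576 / 10000))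
    (by rw [abs_le]; constructor <;> norm_num) (by norm_num) (by unfold T8; norm_num)
    (by norm_num)
  have e : (8 : ℝ) * -(10283400 / 80000000) = -(10283400 / 10000000) := by norm_num
  rwa [e] at h

theorem qa_5 : (2201 / 10000) ≤ Real.exp (-(15136730 / 10000000)) := by
  have h := exp_dn (y := -(15136730 / 80000000)) (L := 8276134039 / 10000000000) (E := (2201 / 10000))
    (by rw [abs_le]; constructor <;> norm_num) (by norm_num) (by unfold T8; norm_num)
    (by norm_num)
  have e : (8 : ℝ) * -(15136730 / 80000000) = -(15136730 / 10000000) := by norm_num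
  rwa [e] at h

/-- small regime -/
theorem small_scal {tau : ℝ} (h0 : 0 ≤ tau) (h1 : tau ≤ 3 / 20) :
    43123 / 8000 * (1 - (1 - 3 / 5 * tau) + (1 - 3 / 5 * tau) * Real.log (1 - 3 / 5 * tau)) -
      3461 / 1600 * (1 - Real.exp (-tau)) + (3461 / 1600 - 1051 / 500 * tau) * tau ≤
      -(1 / 20 * tau ^ 2) := by
  set z : ℝ := 3 / 5 * tau with hz
  have z0 : 0 ≤ z := by positivity
  have z1 : z ≤ 9 / 100 := by rw [hz]; linarith
  have hl : Real.log (1 - z) ≤ -z - z ^ 2 / 2 - z ^ 3 / 3 := by
    have h := Real.abs_log_sub_add_sum_range_le (x := z) (by rw [abs_of_nonneg z0]; linarith) 4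
    rw [abs_of_nonneg z0] at h
    have h2 := (abs_le.1 h).2
    simp only [Finset.sum_range_succ, Finset.sum_range_zero] at h2
    norm_num at h2
    have h3 : z ^ 5 / (1 - z) ≤ z ^ 4 / 4 := by
      rw [div_le_iff₀ (by linarith)]
      have : 0 ≤ z ^ 4 := by positivity
      nlinarith
    linarith
  have he : Real.exp (-tau) ≤ 1 - tau + tau ^ 2 / 2 - tau ^ 3 / 6 + tau ^ 4 / 24 + tau ^ 5 / 100 := by
    have h := Real.exp_bound (x := -tau) (by rw [abs_neg, abs_of_nonneg h0]; linarith) (n := 5)
      (by norm_num)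
    have h2 := (abs_le.1 h).2
    rw [abs_neg, abs_of_nonneg h0] at h2
    simp only [Finset.sum_range_succ, Finset.sum_range_zero, Nat.factorial] at h2
    norm_num at h2
    nlinarith
  have h3 : (1 - z) * Real.log (1 - z) ≤ (1 - z) * (-z - z ^ 2 / 2 - z ^ 3 / 3) :=
    mul_le_mul_of_nonneg_left hl (by linarith)
  have h4 : 43123 / 8000 * (1 - (1 - z) + (1 - z) * (-z - z ^ 2 / 2 - z ^ 3 / 3)) -
      3461 / 1600 * (1 - (1 - tau + tau ^ 2 / 2 - tau ^ 3 / 6 + tau ^ 4 / 24 + tau ^ 5 / 100)) +
      (3461 / 1600 - 1051 / 500 * tau) * tau ≤ -(1 / 20 * tau ^ 2) := by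
    have t3 : 0 ≤ tau ^ 3 := by positivity
    have t4 : tau ^ 4 ≤ 3 / 20 * tau ^ 3 := by nlinarith
    have t5 : tau ^ 5 ≤ 9 / 400 * tau ^ 3 := by nlinarith
    have t2 : 0 ≤ tau ^ 2 := by positivity
    rw [hz]
    nlinarith
  linarith

theorem poi_hk {s : ℝ} (h : PoiData s) : ∀ tau : ℝ, 0 ≤ tau → tau ≤ 885 / 1000 →
    ∃ x nu K : ℝ, 0 < x ∧
      KnotOK (43123 / 8000) (3461 / 1600) (7 / 20) (47 / 100) (31 / 100) (1 / 2000) s x nu K ∧
      43123 / 8000 * (1 - x + x * Real.log x) - 3461 / 1600 * (1 - Real.exp (-tau)) + nu * tau ≤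
        K := by
  intro tau h0 hT
  rcases le_total tau (150 / 1000) with c0 | c0
  · have c1 : tau ≤ 3 / 20 := by linarith
    exact ⟨1 - 3 / 5 * tau, 3461 / 1600 - 1051 / 500 * tau, -(1 / 20 * tau ^ 2), by linarith,
      h.small tau h0 c1, small_scal h0 c1⟩
  rcases le_total tau (208 / 1000) with c1 | c1
  · exact ⟨_, _, _, by norm_num, h.k1, poi_scal (q := -(1056937 / 10000000)) (by norm_num)
      (by norm_num) (by norm_num) qk_1 (by norm_num) c0 c1 ex_150 ex_208 (by norm_num)
      (by norm_num)⟩
  rcases le_total tau (276 / 1000) with c2 | c2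
  · exact ⟨_, _, _, by norm_num, h.k2, poi_scal (q := -(1426007 / 10000000)) (by norm_num)
      (by norm_num) (by norm_num) qk_2 (by norm_num) c1 c2 ex_208 ex_276 (by norm_num)
      (by norm_num)⟩
  rcases le_total tau (350 / 1000) with c3 | c3
  · exact ⟨_, _, _, by norm_num, h.k3, poi_scal (q := -(1840428 / 10000000)) (by norm_num)
      (by norm_num) (by norm_num) qk_3 (by norm_num) c2 c3 ex_276 ex_350 (by norm_num)
      (by norm_num)⟩
  rcases le_total tau (428 / 1000) with c4 | c4
  · exact ⟨_, _, _, by norm_num, h.k4, poi_scal (q := -(2269004 / 10000000)) (by norm_num)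
      (by norm_num) (by norm_num) qk_4 (by norm_num) c3 c4 ex_350 ex_428 (by norm_num)
      (by norm_num)⟩
  rcases le_total tau (508 / 1000) with c5 | c5
  · exact ⟨_, _, _, by norm_num, h.k5, poi_scal (q := -(2714148 / 10000000)) (by norm_num)
      (by norm_num) (by norm_num) qk_5 (by norm_num) c4 c5 ex_428 ex_508 (by norm_num)
      (by norm_num)⟩
  rcases le_total tau (592 / 1000) with c6 | c6
  · exact ⟨_, _, _, by norm_num, h.k6, poi_scal (q := -(3169047 / 10000000)) (by norm_num)
      (by norm_num) (by norm_num) qk_6 (by norm_num) c5 c6 ex_508 ex_592 (by norm_num)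
      (by norm_num)⟩
  rcases le_total tau (687 / 1000) with c7 | c7
  · exact ⟨_, _, _, by norm_num, h.k7, poi_scal (q := -(3647069 / 10000000)) (by norm_num)
      (by norm_num) (by norm_num) qk_7 (by norm_num) c6 c7 ex_592 ex_687 (by norm_num)
      (by norm_num)⟩
  rcases le_total tau (811 / 1000) with c8 | c8
  · exact ⟨_, _, _, by norm_num, h.k8, poi_scal (q := -(4212894 / 10000000)) (by norm_num)
      (by norm_num) (by norm_num) qk_8 (by norm_num) c7 c8 ex_687 ex_811 (by norm_num)
      (by norm_num)⟩
  · exact ⟨_, _, _, by norm_num, h.k9, poi_scal (q := -(4736902 / 10000000)) (by norm_num)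
      (by norm_num) (by norm_num) qk_9 (by norm_num) c8 hT ex_811 ex_885 (by norm_num)
      (by norm_num)⟩

/-- a level from a scalar inequality -/
theorem lev_of {s x nu g0 K tau : ℝ} (hx : 0 < x) (h : LO s x nu g0 K)
    (hs : 1 * (1 - x + x * Real.log x) - g0 * (1 - Real.exp (-tau)) + nu * tau < K) :
    ∃ (k : ℕ) (g a' th x : Fin k → ℝ) (g0 nu K : ℝ),
      (∀ j, 0 ≤ g j) ∧ (∀ j, 0 < a' j) ∧ (∀ j, a' j ≤ 1 / 2) ∧ (∀ j, 0 < x j) ∧
      LevelOK g a' th x g0 (7 / 20) (47 / 100) s nu K ∧
      ∑ j, g j * (1 - x j + x j * Real.log (x j)) - g0 * (1 - Real.exp (-tau)) + nu * tau < K := by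
  refine ⟨1, fun _ => 1, fun _ => 1 / 2, fun _ => 31 / 100, fun _ => x, g0, nu, K,
    fun _ => zero_le_one, fun _ => by norm_num, fun _ => le_rfl, fun _ => hx, h, ?_⟩
  rw [Fin.sum_univ_one]
  exact hs

theorem poi_hlev {s : ℝ} (h : PoiData s) {tau : ℝ} (h0 : 885 / 1000 ≤ tau) :
    ∃ (k : ℕ) (g a' th x : Fin k → ℝ) (g0 nu K : ℝ),
      (∀ j, 0 ≤ g j) ∧ (∀ j, 0 < a' j) ∧ (∀ j, a' j ≤ 1 / 2) ∧ (∀ j, 0 < x j) ∧
      LevelOK g a' th x g0 (7 / 20) (47 / 100) s nu K ∧
      ∑ j, g j * (1 - x j + x j * Real.log (x j)) - g0 * (1 - Real.exp (-tau)) + nu * tau < K := by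
  rcases le_total tau (1150 / 1000) with c1 | c1
  · refine lev_of (by norm_num) h.a1 (lt_of_le_of_lt (b := (-(51 / 10000)) - 1 / 10000) ?_ (by norm_num))
    exact poi_scal (q := -(5587909 / 10000000)) (by norm_num) (by norm_num) (by norm_num)
      qa_1 (by norm_num) h0 c1 ex_885 ex_1150 (by norm_num) (by norm_num)
  rcases le_total tau (1450 / 1000) with c2 | c2
  · refine lev_of (by norm_num) h.a2 (lt_of_le_of_lt (b := (-(195 / 100000)) - 1 / 10000) ?_ (by norm_num))
    exact poi_scal (q := -(6957503 / 10000000)) (by norm_num) (by norm_num) (by norm_num)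
      qa_2 (by norm_num) c1 c2 ex_1150 ex_1450 (by norm_num) (by norm_num)
  rcases le_total tau (1900 / 1000) with c3 | c3
  · refine lev_of (by norm_num) h.a3 (lt_of_le_of_lt (b := (-(247 / 100000)) - 1 / 10000) ?_ (by norm_num))
    exact poi_scal (q := -(8404875 / 10000000)) (by norm_num) (by norm_num) (by norm_num)
      qa_3 (by norm_num) c2 c3 ex_1450 ex_1900 (by norm_num) (by norm_num)
  rcases le_total tau (2800 / 1000) with c4 | c4
  · refine lev_of (by norm_num) h.a4 (lt_of_le_of_lt (b := (-(444 / 100000)) - 1 / 10000) ?_ (by norm_num))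
    exact poi_scal (q := -(10283400 / 10000000)) (by norm_num) (by norm_num) (by norm_num)
      qa_4 (by norm_num) c3 c4 ex_1900 ex_2800 (by norm_num) (by norm_num)
  · refine lev_of (by norm_num) h.a5 (lt_of_le_of_lt (b := (-(1753 / 100000)) - 1 / 10000) ?_ (by norm_num))
    exact poi_scal_tail (q := -(15136730 / 10000000)) (by norm_num) (by norm_num)
      (by norm_num) qa_5 (by norm_num) c4 ex_2800 (by norm_num)

end Crest.Agent.R163.KnP
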