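import Crest.Agent.R163.Fix
import Crest.Agent.R163.Anti

/-!
# Row 163: potentials with one scanned functional

Fixed weights `g_j ≥ 0` (functionals `F_j`, tangent lines depending on the scanned value),
`y_j ≥ 0` (functionals `E_j`, Jensen), `c` (scanned functional `F0`). `Φ = ∑ g_j (1 - F_j) -
∑ y_j (1 - E_j) - c (1 - F0)`. If for every value `t0` of `E F0(T π)` there are lines
`a_j + s_j t ≤ G t`, a multiplier `nu` and a constant `K` with
`c G(t0) + nu t0 ≤ K` and pointwise `δ m2² + K ≤ ∑ g_j (a_j + s_j F_j(Tv) - F_j v) +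
∑ y_j (E_j v - H(E_j(Tv))) + c F0 v + nu F0(Tv)`, then `Φ` decreases by `δ E m2²` and `X → 0`.
-/

set_option autoImplicit false

namespace Crest.Agent.R163

open Finset Filter

variable {q : ℕ}

/-- the abstract process only for `n ≥ n0` -/
theorem GProc.shift {lam : ℝ} {G : ℝ → ℝ} {ι : ℕ → Type} {w : ∀ n, ι n → Fin q → ℝ}
    (hw : GProc q lam G ι w) (n0 : ℕ) :
    GProc q lam G (fun n => ι (n0 + n)) (fun n => w (n0 + n)) where
  isExp := fun n => hw.isExp _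
  isSymm := fun n => hw.isSymm _
  dom := fun n => hw.dom (n0 + n)
  mf := fun F hF n => hw.mf F hF (n0 + n)

theorem GProc.X_anti (hq : 0 < q) {lam : ℝ} {G : ℝ → ℝ} {ι : ℕ → Type} {w : ∀ n, ι n → Fin q → ℝ}
    (hw : GProc q lam G ι w) {m n : ℕ} (h : m ≤ n) : X (w n) ≤ X (w m) := by
  induction n, h using Nat.le_induction with
  | base => exact le_rfl
  | succ n _ ih => exact (hw.dom n _ (subL_fX hq)).trans ih

theorem pot_tendsto (hq : 1 < q) {lam : ℝ} (hl0 : -(1 / ((q : ℝ) - 1)) ≤ lam) (hl1 : lam ≤ 1)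
    {G : ℝ → ℝ} {ι : ℕ → Type} {w : ∀ n, ι n → Fin q → ℝ} (hw : GProc q lam G ι w)
    {k l : ℕ} (g : Fin k → ℝ) (hg : ∀ j, 0 ≤ g j) (F : Fin k → (Fin q → ℝ) → ℝ)
    (hF : ∀ j, MF (F j))
    (y : Fin l → ℝ) (hy : ∀ j, 0 ≤ y j) (H : ℝ → ℝ) (hH : SupLine H)
    (hHb : ∀ C : ℝ, ∃ D : ℝ, ∀ t, |t| ≤ C → |H t| ≤ D) (hHG : ∀ t, |t| ≤ 1 → G t ≤ H t)
    (E : Fin l → (Fin q → ℝ) → ℝ) (hE : ∀ j, MF (E j)) (F0 : (Fin q → ℝ) → ℝ) (hF0 : MF F0)
    (c δ : ℝ) (hδ : 0 < δ) (n0 : ℕ)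
    (hcert : ∀ n, n0 ≤ n → ∃ (a s : Fin k → ℝ) (nu K : ℝ),
      (∀ j, a j + s j * Ex (F j) (ch lam (w n)) ≤ G (Ex (F j) (ch lam (w n)))) ∧
      c * G (Ex F0 (ch lam (w n))) + nu * Ex F0 (ch lam (w n)) ≤ K ∧
      ∀ v ∈ simpK q, δ * m2 (uv v) ^ 2 + K ≤ ptf lam g a s F y H E F0 c nu v) :
    Tendsto (fun n => X (w n)) atTop (nhds 0) := by
  have hq0 : 0 < q := by omega
  set Φ : ℕ → ℝ := fun n => ∑ j, g j * (1 - Ex (F j) (w n)) - ∑ j, y j * (1 - Ex (E j) (w n)) -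
    c * (1 - Ex F0 (w n)) with hΦ
  -- the decrement
  have hdec : ∀ n, n0 ≤ n → Φ (n + 1) ≤ Φ n - δ * Ex fX2 (w n) := by
    intro n hn
    obtain ⟨a, s, nu, K, h1, h2, h3⟩ := hcert n hn
    -- use the one-step process `w n, w (n+1)`
    have hQ : IsExp (w n) := hw.isExp n
    have hch : IsExp (ch lam (w n)) := isExp_ch hq hl0 hl1 hQ
    have hstep := step_ineq hq hl0 hl1 (G := G) hQ g a s hg F hF h1 y hy H hH hHb hHG E hE F0 hF0
      c nu (fun v => δ * fX2 v + K * mass v)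
      (fun t v ht hv => by
        show δ * fX2 (fun a => t * v a) + K * mass (fun a => t * v a) = _
        rw [homog_fX2 t v ht hv, mass_smul]; ring) ?_ ?_
    · have hR : Ex (fun v => δ * fX2 v + K * mass v) (w n) = δ * Ex fX2 (w n) + K * 1 :=
        (((hQ.summable hq0 (mbdd_fX2 hq0)).hasSum.mul_left δ).add
          ((hQ.hasSum_mass hq0).mul_left K)).tsum_eq
      rw [hR] at hstep
      have e1 : ∀ F : (Fin q → ℝ) → ℝ, MF F → G (Ex F (ch lam (w n))) = Ex F (w (n + 1)) :=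
        fun F hF => (hw.mf F hF n).symm
      rw [e1 _ hF0] at h2
      have e2 : ∑ j, g j * (G (Ex (F j) (ch lam (w n))) - Ex (F j) (w n)) =
          ∑ j, g j * (1 - Ex (F j) (w n)) - ∑ j, g j * (1 - Ex (F j) (w (n + 1))) := by
        rw [← Finset.sum_sub_distrib]
        exact Finset.sum_congr rfl fun j _ => by rw [e1 _ (hF j)]; ring
      have e3 : ∑ j, y j * (Ex (E j) (w n) - G (Ex (E j) (ch lam (w n)))) =
          ∑ j, y j * (1 - Ex (E j) (w (n + 1))) - ∑ j, y j * (1 - Ex (E j) (w n)) := by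
        rw [← Finset.sum_sub_distrib]
        exact Finset.sum_congr rfl fun j _ => by rw [e1 _ (hE j)]; ring
      rw [e2, e3] at hstep
      simp only [hΦ]
      linarith
    · obtain ⟨C, hC, hb⟩ := mbdd_fX2 (q := q) hq0
      refine ⟨|δ| * C + |K|, by positivity, fun v hv => ?_⟩
      have hm := mass_nonneg v hv
      calc |δ * fX2 v + K * mass v| ≤ |δ * fX2 v| + |K * mass v| := abs_add_le _ _
        _ = |δ| * |fX2 v| + |K| * mass v := by rw [abs_mul, abs_mul, abs_of_nonneg hm]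
        _ ≤ |δ| * (C * mass v) + |K| * mass v := by
          have := mul_le_mul_of_nonneg_left (hb v hv) (abs_nonneg δ)
          linarith
        _ = (|δ| * C + |K|) * mass v := by ring
    · intro v hv
      have h4 := h3 v hv
      show δ * (mass v * m2 (uv v) ^ 2) + K * mass v ≤ _
      rw [hv.2]
      linarith
  -- lower bound
  have hlow : ∀ n, -(∑ j, 2 * |g j|) - (∑ j, 2 * |y j|) - 2 * |c| ≤ Φ n := by
    intro n
    have hQ : IsExp (w n) := hw.isExp n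
    have hb : ∀ (F : (Fin q → ℝ) → ℝ), MF F → ∀ x : ℝ, |x * (1 - Ex F (w n))| ≤ 2 * |x| := by
      intro F hF x
      have ha := abs_le.1 (hF.abs_le_one _ (w n) hQ)
      rw [abs_mul, mul_comm]
      refine mul_le_mul_of_nonneg_right ?_ (abs_nonneg _)
      rw [abs_le]; constructor <;> linarith [ha.1, ha.2]
    have h1 : -(∑ j, 2 * |g j|) ≤ ∑ j, g j * (1 - Ex (F j) (w n)) := by
      rw [← Finset.sum_neg_distrib]
      exact Finset.sum_le_sum fun j _ => (abs_le.1 (hb _ (hF j) (g j))).1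
    have h2 : ∑ j, y j * (1 - Ex (E j) (w n)) ≤ ∑ j, 2 * |y j| :=
      Finset.sum_le_sum fun j _ => (abs_le.1 (hb _ (hE j) (y j))).2
    have h3 := (abs_le.1 (hb _ hF0 c)).2
    simp only [hΦ]
    linarith
  -- conclusion for the shifted sequence
  have hlim := tendsto_X_of_potential hq (w := fun n => w (n0 + n)) (fun n => hw.isExp _)
    (fun n => Φ (n0 + n)) _ δ hδ (fun n => hlow (n0 + n))
    (fun n => hdec (n0 + n) (Nat.le_add_right _ _))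
  have := (tendsto_add_atTop_iff_nat (f := fun n => X (w n)) n0).1
    (hlim.congr fun n => by rw [add_comm])
  exact this

/-- `b`-ary version -/
theorem antiReg_of_scan {b : ℕ} (hb : 4 ≤ b) {k l : ℕ} (g : Fin k → ℝ) (hg : ∀ j, 0 ≤ g j)
    (F : Fin k → (Fin 3 → ℝ) → ℝ) (hF : ∀ j, MF (F j))
    (y : Fin l → ℝ) (hy : ∀ j, 0 ≤ y j) (H : ℝ → ℝ) (hH : SupLine H)
    (hHb : ∀ C : ℝ, ∃ D : ℝ, ∀ t, |t| ≤ C → |H t| ≤ D) (hHG : ∀ t, |t| ≤ 1 → t ^ b ≤ H t)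
    (E : Fin l → (Fin 3 → ℝ) → ℝ) (hE : ∀ j, MF (E j)) (F0 : (Fin 3 → ℝ) → ℝ) (hF0 : MF F0)
    (c δ : ℝ) (hδ : 0 < δ)
    (hcert : ∀ (κ : Type) (Q : κ → Fin 3 → ℝ), IsExp Q → IsSymm Q →
      ∃ (a s : Fin k → ℝ) (nu K : ℝ),
      (∀ j, a j + s j * Ex (F j) (ch (-(1 / Real.sqrt b)) Q) ≤
        (Ex (F j) (ch (-(1 / Real.sqrt b)) Q)) ^ b) ∧
      c * (Ex F0 (ch (-(1 / Real.sqrt b)) Q)) ^ b + nu * Ex F0 (ch (-(1 / Real.sqrt b)) Q) ≤ K ∧
      ∀ v ∈ simpK 3, δ * m2 (uv v) ^ 2 + K ≤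
        ptf (-(1 / Real.sqrt b)) g a s F y H E F0 c nu v) : AntiReg b := by
  have hlb := lam_bounds (by exact_mod_cast hb : (4 : ℝ) ≤ (b : ℝ))
  have hproc := gproc_reg (by norm_num) hlb.1 hlb.2
    (isProcess_reg 3 b (by norm_num) _ hlb.1 hlb.2)
  exact pot_tendsto (by norm_num) hlb.1 hlb.2 hproc g hg F hF y hy H hH hHb hHG E hE F0 hF0 c δ hδ
    0 fun n _ => hcert _ _ (hproc.isExp n) (hproc.isSymm n)

/-- Poisson version -/
theorem antiPoi_of_scan {d : ℝ} (hd : 4 ≤ d) {k l : ℕ} (g : Fin k → ℝ) (hg : ∀ j, 0 ≤ g j)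
    (F : Fin k → (Fin 3 → ℝ) → ℝ) (hF : ∀ j, MF (F j))
    (y : Fin l → ℝ) (hy : ∀ j, 0 ≤ y j)
    (E : Fin l → (Fin 3 → ℝ) → ℝ) (hE : ∀ j, MF (E j)) (F0 : (Fin 3 → ℝ) → ℝ) (hF0 : MF F0)
    (c δ : ℝ) (hδ : 0 < δ)
    (hcert : ∀ (κ : Type) (Q : κ → Fin 3 → ℝ), IsExp Q → IsSymm Q →
      ∃ (a s : Fin k → ℝ) (nu K : ℝ),
      (∀ j, a j + s j * Ex (F j) (ch (-(1 / Real.sqrt d)) Q) ≤
        Real.exp (d * (Ex (F j) (ch (-(1 / Real.sqrt d)) Q) - 1))) ∧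
      c * Real.exp (d * (Ex F0 (ch (-(1 / Real.sqrt d)) Q) - 1)) +
        nu * Ex F0 (ch (-(1 / Real.sqrt d)) Q) ≤ K ∧
      ∀ v ∈ simpK 3, δ * m2 (uv v) ^ 2 + K ≤
        ptf (-(1 / Real.sqrt d)) g a s F y (fun t => Real.exp (d * (t - 1))) E F0 c nu v) :
    AntiPoi d := by
  have hlb := lam_bounds hd
  have hproc := gproc_poi (by norm_num) hlb.1 hlb.2 (by linarith)
    (isProcess_GW 3 (by norm_num) _ d (by linarith) hlb.1 hlb.2)
  refine pot_tendsto (by norm_num) hlb.1 hlb.2 hproc g hg F hF y hy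
    (fun t => Real.exp (d * (t - 1))) (supLine_exp d) (fun C => ?_) (fun t _ => le_rfl) E hE F0 hF0
    c δ hδ 0 fun n _ => hcert _ _ (hproc.isExp n) (hproc.isSymm n)
  refine ⟨Real.exp (d * C), fun t ht => ?_⟩
  rw [abs_of_pos (Real.exp_pos _)]
  refine Real.exp_le_exp.2 ?_
  have := (abs_le.1 ht).2
  nlinarith

end Crest.Agent.R163
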