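import Crest.Agent.R163.Main7
import Crest.Agent.R163.TV
import Crest.Agent.R163.Reg
import Crest.Prelude.Def_TreeBroadcast

/-!
# Row 163, S0246 (general trees, q = 4): definitions

* `Xp` : finite experiment about a spin in `Fin 4` (bundled index type + likelihood vectors);
* `Xp.ch β`, `Xp.mul`, `Xp.prod`, `Xp.er β` (erasure: with probability `1 - β` nothing is seen);
* `Xp.X, Xp.kap, Xp.KK, Xp.tv` : `E<u^2>`, `E<u^3>`, `E[2<u^3> - <u^2>^2]`, advantage;
* `Xp.Ok` : symmetric experiment;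
* `Garb E F` : `F` is a garbling of `E`;
* `xp T lam k v` : experiment "spins `k` levels below `v`".
-/

set_option autoImplicit false

namespace Crest.Agent.R163.Tr

open Finset Crest.ProbabilityR.TreeBroadcast Crest.ProbabilityR.Broadcast

/-- finite experiment -/
structure Xp where
  /-- observations -/
  ι : Type
  /-- finitely many observations -/
  [fin : Fintype ι]
  /-- likelihood vectors -/
  w : ι → Fin 4 → ℝ

attribute [instance] Xp.fin

namespace Xp

/-- nothing is seen -/
def triv : Xp := ⟨Unit, trivE 4⟩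

/-- the spin is seen -/
noncomputable def perf : Xp := ⟨Fin 4, perfect 4⟩

/-- the spin is seen through the channel first -/
noncomputable def ch (β : ℝ) (E : Xp) : Xp := ⟨E.ι, R163.ch β E.w⟩

/-- two independent experiments -/
def mul (E F : Xp) : Xp := ⟨E.ι × F.ι, R163.mul E.w F.w⟩

/-- likelihood vectors of the erasure -/
noncomputable def erW {ι : Type} (β : ℝ) (w : ι → Fin 4 → ℝ) : Option ι → Fin 4 → ℝ
  | none => fun _ => 1 - β
  | some i => fun a => β * w i a

/-- with probability `1 - β` nothing is seen -/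
noncomputable def er (β : ℝ) (E : Xp) : Xp := ⟨Option E.ι, erW β E.w⟩

/-- independent experiments -/
def prod : List Xp → Xp
  | [] => triv
  | E :: l => mul E (prod l)

/-- `E<u^2>` -/
noncomputable def X (E : Xp) : ℝ := R163.X E.w

/-- `E<u^3>` -/
noncomputable def kap (E : Xp) : ℝ := Ex fk E.w

/-- `E[2<u^3> - <u^2>^2]` -/
noncomputable def KK (E : Xp) : ℝ := R163.KK E.w

/-- advantage -/
noncomputable def tv (E : Xp) : ℝ := Ex fTV E.w

/-- symmetric experiment -/
structure Ok (E : Xp) : Prop where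
  isExp : IsExp E.w
  isSymm : IsSymm E.w

end Xp

/-- `F` is a garbling of `E` -/
def Garb (E F : Xp) : Prop :=
  ∃ M : E.ι → F.ι → ℝ, (∀ i j, 0 ≤ M i j) ∧ (∀ i, ∑ j, M i j = 1) ∧
    ∀ j a, F.w j a = ∑ i, M i j * E.w i a

variable {V : Type*} [DecidableEq V]

/-- experiment "spins `k` levels below `v`" -/
noncomputable def xp (T : LocFinTree V) (lam : ℝ) : ℕ → V → Xp
  | 0, _ => Xp.perf
  | k + 1, v => Xp.prod ((T.children v).toList.map fun c => (xp T lam k c).ch lam)

/-- likelihood of a configuration `k` levels below `v` -/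
noncomputable def lk (T : LocFinTree V) (lam : ℝ) : ℕ → V → (V → Fin 4) → Fin 4 → ℝ
  | 0, v, τ, a => if τ v = a then 1 else 0
  | k + 1, v, τ, a => ∏ c ∈ T.children v, ∑ b, channel 4 lam a b * lk T lam k c τ b

/-- vertices `k` levels below `v` -/
def desc (T : LocFinTree V) : ℕ → V → Finset V
  | 0, v => {v}
  | k + 1, v => (T.children v).biUnion fun c => desc T k c

/-! ### basic facts on experiments -/

theorem Xp.ok_triv : Xp.triv.Ok := by
  refine ⟨isExp_trivE 4, fun σ => ⟨Equiv.refl _, fun i a => rfl⟩⟩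

theorem Xp.ok_perf : Xp.perf.Ok := ⟨isExp_perfect 4, isSymm_perfect 4⟩

theorem Xp.Ok.ch {E : Xp} (h : E.Ok) {β : ℝ} (h0 : 0 ≤ β) (h1 : β ≤ 1) : (E.ch β).Ok := by
  refine ⟨isExp_ch (by norm_num) ?_ h1 h.isExp, isSymm_ch β h.isSymm⟩
  have : (0 : ℝ) ≤ 1 / (((4 : ℕ) : ℝ) - 1) := by norm_num
  linarith

theorem Xp.Ok.mul {E F : Xp} (hE : E.Ok) (hF : F.Ok) : (E.mul F).Ok :=
  ⟨isExp_mul hE.isExp hF.isExp, isSymm_mul hE.isSymm hF.isSymm⟩

theorem Xp.Ok.prod {l : List Xp} (h : ∀ E ∈ l, E.Ok) : (Xp.prod l).Ok := by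
  induction l with
  | nil => exact Xp.ok_triv
  | cons E l ih =>
    exact (h E (by simp)).mul (ih fun F hF => h F (by simp [hF]))

theorem xp_ok (T : LocFinTree V) {lam : ℝ} (h0 : 0 ≤ lam) (h1 : lam ≤ 1) (k : ℕ) (v : V) :
    (xp T lam k v).Ok := by
  induction k generalizing v with
  | zero => exact Xp.ok_perf
  | succ k ih =>
    refine Xp.Ok.prod fun E hE => ?_
    obtain ⟨c, -, rfl⟩ := List.mem_map.1 hE
    exact (ih c).ch h0 h1

end Crest.Agent.R163.Tr
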