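import Crest.Agent.R163.T0

/-!
# Row 163, S0246: garbling order and data processing
-/

set_option autoImplicit false

namespace Crest.Agent.R163.Tr

open Finset

theorem Garb.refl (E : Xp) : Garb E E := by
  classical
  refine ⟨fun i j => if i = j then 1 else 0, ?_, ?_, ?_⟩
  · intro i j
    dsimp only
    split_ifs <;> norm_num
  · intro i
    simp
  · intro j a
    simp

/-- composition of the kernels -/
theorem Garb.trans {E F G : Xp} (h : Garb E F) (h' : Garb F G) : Garb E G := by
  obtain ⟨M, hM0, hM1, hM⟩ := h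
  obtain ⟨N, hN0, hN1, hN⟩ := h'
  refine ⟨fun i k => ∑ j, M i j * N j k, ?_, ?_, ?_⟩
  · intro i k
    exact Finset.sum_nonneg fun j _ => mul_nonneg (hM0 i j) (hN0 j k)
  · intro i
    dsimp only
    rw [Finset.sum_comm]
    simp only [← Finset.mul_sum, hN1, mul_one]
    exact hM1 i
  · intro k a
    rw [hN k a]
    simp only [hM, Finset.mul_sum, Finset.sum_mul]
    rw [Finset.sum_comm]
    refine Finset.sum_congr rfl fun i _ => Finset.sum_congr rfl fun j _ => ?_
    ring

/-- same kernel (`R163.ch` is linear in the likelihood vector) -/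
theorem Garb.ch {E F : Xp} (h : Garb E F) (β : ℝ) : Garb (E.ch β) (F.ch β) := by
  obtain ⟨M, hM0, hM1, hM⟩ := h
  refine ⟨M, hM0, hM1, ?_⟩
  intro j a
  have hmass : mass (F.w j) = ∑ i, M i j * mass (E.w i) := by
    unfold mass
    simp only [hM]
    rw [Finset.sum_comm]
    simp only [Finset.mul_sum]
    refine Finset.sum_congr rfl fun i _ => ?_
    refine Finset.sum_congr rfl fun b _ => ?_
    ring
  change β * F.w j a + (1 - β) * mass (F.w j) =
    ∑ i, M i j * (β * E.w i a + (1 - β) * mass (E.w i))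
  rw [hmass, hM, Finset.mul_sum, Finset.mul_sum, ← Finset.sum_add_distrib]
  refine Finset.sum_congr rfl fun i _ => ?_
  ring

/-- product of the kernels -/
theorem Garb.mul {E F E' F' : Xp} (h : Garb E F) (h' : Garb E' F') : Garb (E.mul E') (F.mul F') := by
  obtain ⟨M, hM0, hM1, hM⟩ := h
  obtain ⟨N, hN0, hN1, hN⟩ := h'
  refine ⟨fun p s => M p.1 s.1 * N p.2 s.2, ?_, ?_, ?_⟩
  · intro p s
    exact mul_nonneg (hM0 _ _) (hN0 _ _)
  · intro p
    change ∑ s : F.ι × F'.ι, M p.1 s.1 * N p.2 s.2 = 1
    rw [Fintype.sum_prod_type]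
    simp only [← Finset.mul_sum, hN1, mul_one]
    exact hM1 _
  · intro s a
    change F.w s.1 a * F'.w s.2 a =
      ∑ p : E.ι × E'.ι, M p.1 s.1 * N p.2 s.2 * (E.w p.1 a * E'.w p.2 a)
    rw [Fintype.sum_prod_type, hM, hN, Finset.sum_mul_sum]
    refine Finset.sum_congr rfl fun i _ => Finset.sum_congr rfl fun j _ => ?_
    ring

theorem Garb.prod {α : Type*} (l : List α) (E F : α → Xp) (h : ∀ a ∈ l, Garb (E a) (F a)) :
    Garb (Xp.prod (l.map E)) (Xp.prod (l.map F)) := by
  induction l with
  | nil => exact Garb.refl _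
  | cons a l ih =>
    simp only [List.map_cons, Xp.prod]
    exact (h a (by simp)).mul (ih fun b hb => h b (by simp [hb]))

/-- kernel `M i (some j) = if i = j then β else 0`, `M i none = 1 - β`; `∑ i, E.w i a = 1` -/
theorem Garb.er {E : Xp} (h : E.Ok) {β : ℝ} (h0 : 0 ≤ β) (h1 : β ≤ 1) : Garb E (E.er β) := by
  classical
  refine ⟨fun i s => Option.elim s (1 - β) fun j => if i = j then β else 0, ?_, ?_, ?_⟩
  · rintro i (_ | j)
    · change 0 ≤ 1 - β
      linarith
    · change 0 ≤ if i = j then β else 0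
      split_ifs
      · exact h0
      · exact le_rfl
  · intro i
    change ∑ s : Option E.ι, Option.elim s (1 - β) (fun j => if i = j then β else 0) = 1
    rw [Fintype.sum_option]
    simp
  · rintro (_ | j) a
    · change 1 - β = ∑ i, (1 - β) * E.w i a
      rw [← Finset.mul_sum]
      have hs : ∑ i, E.w i a = 1 := by
        have := (h.isExp.hasSum a).tsum_eq
        rwa [tsum_fintype] at this
      rw [hs, mul_one]
    · change β * E.w j a = ∑ i, (if i = j then β else 0) * E.w i a
      simp

end Crest.Agent.R163.Tr
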