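import Crest.Agent.R163.T0

/-!
# Row 163, S0246: data processing for `X`
-/

set_option autoImplicit false

namespace Crest.Agent.R163.Tr

open Finset

private theorem fX_form (v : Fin 4 → ℝ) : fX v = (1 / 4) * ∑ a, v a ^ 2 / mass v - mass v := by
  by_cases hm : mass v = 0
  · simp [fX, hm]
  · have h4 : ∑ a, v a = 4 * mass v := by
      unfold mass
      push_cast
      ring
    unfold fX m2 uv
    rw [Finset.mul_sum, Finset.mul_sum, Finset.mul_sum]
    have e1 : ∀ a, mass v * (1 / ((4 : ℕ) : ℝ) * (v a / mass v - 1) ^ 2) =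
        1 / 4 * (v a ^ 2 / mass v) - (1 / 2) * v a + (1 / 4) * mass v := by
      intro a
      push_cast
      field_simp
      ring
    rw [Finset.sum_congr rfl fun a _ => e1 a, Finset.sum_add_distrib, Finset.sum_sub_distrib,
      ← Finset.mul_sum (f := fun a => v a), h4]
    simp
    ring

/-- data processing for `X`: `fX v = (1/4) ∑ a, v a ^ 2 / mass v - mass v` is homogeneous and subadditive
(`(∑ s_i)^2 / ∑ t_i ≤ ∑ s_i^2 / t_i`, `Finset.sum_div_..`/`div_add_div_same, inner_mul_le_norm_mul_norm`; Mathlib: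
`Finset.sum_sq_le_sum_mul_sum_of_sq_eq_mul` or `Finset.sum_div_le...`; treat mass `0` separately). -/
theorem Garb.X_le {E F : Xp} (hE : E.Ok) (h : Garb E F) : F.X ≤ E.X := by
  obtain ⟨M, hM0, hM1, hM⟩ := h
  have hn := hE.isExp.nonneg
  have hmn : ∀ i, 0 ≤ mass (E.w i) := fun i =>
    mul_nonneg (by norm_num) (Finset.sum_nonneg fun a _ => hn i a)
  have hz : ∀ i, mass (E.w i) = 0 → ∀ a, E.w i a = 0 := by
    intro i hi a
    have h1 : ∑ a, E.w i a = 0 := by
      unfold mass at hi
      rcases mul_eq_zero.1 hi with h | h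
      · norm_num at h
      · exact h
    exact (Finset.sum_eq_zero_iff_of_nonneg fun a _ => hn i a).1 h1 a (Finset.mem_univ a)
  have hmF : ∀ j, mass (F.w j) = ∑ i, M i j * mass (E.w i) := by
    intro j
    unfold mass
    simp_rw [hM, Finset.mul_sum]
    rw [Finset.sum_comm]
    refine Finset.sum_congr rfl fun i _ => Finset.sum_congr rfl fun a _ => ?_
    ring
  have hmFn : ∀ j, 0 ≤ mass (F.w j) := fun j => by
    rw [hmF]
    exact Finset.sum_nonneg fun i _ => mul_nonneg (hM0 i j) (hmn i)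
  have key : ∀ j, fX (F.w j) ≤ ∑ i, M i j * fX (E.w i) := by
    intro j
    have h1 : ∀ a, F.w j a ^ 2 / mass (F.w j) ≤ ∑ i, M i j * (E.w i a ^ 2 / mass (E.w i)) := by
      intro a
      have hnn : ∀ i, 0 ≤ M i j * (E.w i a ^ 2 / mass (E.w i)) := fun i =>
        mul_nonneg (hM0 i j) (div_nonneg (sq_nonneg _) (hmn i))
      rcases (hmFn j).eq_or_lt with h0 | h0
      · rw [← h0, div_zero]
        exact Finset.sum_nonneg fun i _ => hnn i
      · rw [div_le_iff₀ h0, hmF, mul_comm, hM]
        refine Finset.sum_sq_le_sum_mul_sum_of_sq_eq_mul _ (fun i _ => mul_nonneg (hM0 i j) (hmn i))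
          (fun i _ => hnn i) (fun i _ => ?_)
        by_cases hi : mass (E.w i) = 0
        · rw [hz i hi a]
          simp
        · field_simp
    rw [fX_form, hmF j]
    have h2 : (1 / 4) * ∑ a, F.w j a ^ 2 / ∑ i, M i j * mass (E.w i) ≤
        (1 / 4) * ∑ a, ∑ i, M i j * (E.w i a ^ 2 / mass (E.w i)) := by
      rw [← hmF j]
      exact mul_le_mul_of_nonneg_left (Finset.sum_le_sum fun a _ => h1 a) (by norm_num)
    refine (sub_le_sub_right h2 _).trans (le_of_eq ?_)
    rw [Finset.sum_comm, Finset.mul_sum, ← Finset.sum_sub_distrib]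
    refine Finset.sum_congr rfl fun i _ => ?_
    rw [fX_form, ← Finset.mul_sum]
    ring
  have hX : ∀ G : Xp, G.X = ∑ i, fX (G.w i) := fun G => by
    unfold Xp.X R163.X Ex
    exact tsum_fintype _
  rw [hX, hX]
  calc ∑ j, fX (F.w j) ≤ ∑ j, ∑ i, M i j * fX (E.w i) := Finset.sum_le_sum fun j _ => key j
    _ = ∑ i, (∑ j, M i j) * fX (E.w i) := by
      rw [Finset.sum_comm]
      exact Finset.sum_congr rfl fun i _ => (Finset.sum_mul ..).symm
    _ = ∑ i, fX (E.w i) := by simp [hM1]

end Crest.Agent.R163.Tr
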