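import Crest.Agent.R163.T0
import Crest.Agent.R163.KMul

/-!
# Row 163, S0246: local inequalities for the product of two experiments (q = 4)

Notation: for a pair of likelihood vectors `v, w` with masses `m, m'` and `a = uv v`, `b = uv w`
(`∑ a = ∑ b = 0`, `-1 ≤ a, b ≤ 3`), `<f> = (1/4) ∑ f`, `s = <a b>`, `1 + s ≥ 0`; expectation over the product law
of `(a, b)`, weights `m m'` (`Ex_mul` of BasicC.lean; everything is a finite sum, `tsum_fintype`).
`E m a_i = 0` (`IsExp.hasSum_mass_uv`).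
-/

set_option autoImplicit false

namespace Crest.Agent.R163.Tr

open Finset

/-- coefficients of the linear terms -/
noncomputable def kal (a : Fin 4 → ℝ) (j : Fin 4) : ℝ :=
  (1 / 4) * (3 * a j ^ 2 + 3 * a j ^ 3 - (3 * m2 a + 2 * m3 a) * a j)

/-- remainder terms -/
def krm (a b e s : ℝ) : ℝ :=
  e ^ 3 + 3 * a * e ^ 2 + 3 * b * e ^ 2 + 6 * a * b * e
    - 2 * s * (3 * a ^ 2 * b + 3 * a * b ^ 2 + 3 * a ^ 2 * e + 3 * b ^ 2 * e + e ^ 3
      + 3 * a * e ^ 2 + 3 * b * e ^ 2 + 6 * a * b * e)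

theorem abs_mul_le_sq (x y c : ℝ) (_hc : 0 ≤ c) (z : ℝ) (hz : |z| ≤ c) :
    |x * y * z| ≤ c / 2 * (x ^ 2 + y ^ 2) := by
  rw [abs_mul]
  have h1 : |x * y| ≤ (x ^ 2 + y ^ 2) / 2 := by
    rw [abs_le]; constructor <;> nlinarith [sq_nonneg (x + y), sq_nonneg (x - y)]
  calc |x * y| * |z| ≤ (x ^ 2 + y ^ 2) / 2 * c := mul_le_mul h1 hz (abs_nonneg _) (by positivity)
    _ = _ := by ring

theorem krm_le {a b e s p : ℝ} (ha : |a| ≤ 3) (hb : |b| ≤ 3) (he : |e| ≤ 12)
    (hx : (a * b) ^ 2 ≤ 16 * p) (he2 : e ^ 2 ≤ 34 * p) (hs2 : s ^ 2 ≤ p) :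
    |krm a b e s| ≤ 20000 * p := by
  have hp : 0 ≤ p := le_trans (sq_nonneg s) hs2
  have a2 : |a ^ 2| ≤ 9 := by rw [abs_pow]; nlinarith [abs_nonneg a]
  have b2 : |b ^ 2| ≤ 9 := by rw [abs_pow]; nlinarith [abs_nonneg b]
  have e2 : |e ^ 2| ≤ 144 := by rw [abs_pow]; nlinarith [abs_nonneg e]
  have ab : |a * b| ≤ 9 := by rw [abs_mul]; nlinarith [abs_nonneg a, abs_nonneg b]
  have ae : |a * e| ≤ 36 := by rw [abs_mul]; nlinarith [abs_nonneg a, abs_nonneg e]
  have be : |b * e| ≤ 36 := by rw [abs_mul]; nlinarith [abs_nonneg b, abs_nonneg e]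
  have z1 : |e + 3 * a + 3 * b| ≤ 30 := by
    rw [abs_le] at *; constructor <;> linarith [ha.1, ha.2, hb.1, hb.2, he.1, he.2]
  have z2 : |3 * a + 3 * b| ≤ 18 := by
    rw [abs_le] at *; constructor <;> linarith [ha.1, ha.2, hb.1, hb.2]
  have z3 : |3 * a ^ 2 + 3 * b ^ 2 + e ^ 2 + 3 * (a * e) + 3 * (b * e) + 6 * (a * b)| ≤ 468 := by
    rw [abs_le] at *
    constructor <;> linarith [a2.1, a2.2, b2.1, b2.2, e2.1, e2.2, ab.1, ab.2, ae.1, ae.2, be.1, be.2]
  have t1 := abs_mul_le_sq e e 30 (by norm_num) _ z1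
  have t2 := abs_mul_le_sq (a * b) e 6 (by norm_num) 6 (by norm_num)
  have t3 := abs_mul_le_sq s (a * b) 18 (by norm_num) _ z2
  have t4 := abs_mul_le_sq s e 468 (by norm_num) _ z3
  have key : krm a b e s = e * e * (e + 3 * a + 3 * b) + (a * b) * e * 6
      - 2 * (s * (a * b) * (3 * a + 3 * b)) - 2 * (s * e *
        (3 * a ^ 2 + 3 * b ^ 2 + e ^ 2 + 3 * (a * e) + 3 * (b * e) + 6 * (a * b))) := by
    unfold krm; ring
  rw [key]
  rw [abs_le] at t1 t2 t3 t4 ⊢
  constructor <;> nlinarith [t1.1, t1.2, t2.1, t2.2, t3.1, t3.2, t4.1, t4.2]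

theorem kap_alg (a b : Fin 4 → ℝ) (s : ℝ) (hs : s = (1 / 4) * ∑ j, a j * b j) :
    (1 / 4 * ∑ j, (a j + b j + (a j * b j - s)) ^ 3) * (1 - 2 * s) =
      m3 a + m3 b + (∑ j, kal a j * b j) + (∑ j, kal b j * a j) +
        1 / 4 * ∑ j, krm (a j) (b j) (a j * b j - s) s := by
  have h1 : (1 / 4 * ∑ j, (a j + b j + (a j * b j - s)) ^ 3) * (1 - 2 * s) =
      m3 a + m3 b + (1 / 4 * (∑ j, (3 * a j ^ 2 * b j + 3 * a j * b j ^ 2
        + 3 * a j ^ 2 * (a j * b j - s) + 3 * b j ^ 2 * (a j * b j - s))) -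
        2 * s * (m3 a + m3 b)) +
        1 / 4 * ∑ j, krm (a j) (b j) (a j * b j - s) s := by
    simp only [m3, krm, Fin.sum_univ_four, Nat.cast_ofNat]
    generalize a 0 * b 0 - s = e0
    generalize a 1 * b 1 - s = e1
    generalize a 2 * b 2 - s = e2
    generalize a 3 * b 3 - s = e3
    ring
  have h2 : 1 / 4 * (∑ j, (3 * a j ^ 2 * b j + 3 * a j * b j ^ 2
        + 3 * a j ^ 2 * (a j * b j - s) + 3 * b j ^ 2 * (a j * b j - s))) -
        2 * s * (m3 a + m3 b) = (∑ j, kal a j * b j) + (∑ j, kal b j * a j) := by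
    have e1 : (∑ j, kal a j * b j) = 1 / 4 * ∑ j, (3 * a j ^ 2 * b j + 3 * a j ^ 3 * b j) -
        (3 * m2 a + 2 * m3 a) * s := by
      rw [hs]
      unfold kal
      generalize 3 * m2 a + 2 * m3 a = c
      simp only [Fin.sum_univ_four]
      ring
    have e2 : (∑ j, kal b j * a j) = 1 / 4 * ∑ j, (3 * b j ^ 2 * a j + 3 * b j ^ 3 * a j) -
        (3 * m2 b + 2 * m3 b) * s := by
      rw [hs]
      unfold kal
      generalize 3 * m2 b + 2 * m3 b = c
      simp only [Fin.sum_univ_four]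
      ring
    rw [e1, e2]
    simp only [m2, m3, Fin.sum_univ_four, Nat.cast_ofNat]
    ring
  rw [h1, h2]
  ring

theorem sq_le_m2 (a : Fin 4 → ℝ) (j : Fin 4) : a j ^ 2 ≤ 4 * m2 a := by
  have : a j ^ 2 ≤ ∑ i, a i ^ 2 :=
    Finset.single_le_sum (f := fun i => a i ^ 2) (fun i _ => sq_nonneg _) (Finset.mem_univ j)
  unfold m2
  push_cast
  linarith

theorem s_sq_le (a b : Fin 4 → ℝ) : ((1 / 4) * ∑ j, a j * b j) ^ 2 ≤ m2 a * m2 b := by
  have := Finset.sum_mul_sq_le_sq_mul_sq Finset.univ a b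
  unfold m2
  push_cast
  nlinarith [this]

set_option maxHeartbeats 2000000 in
/-- pointwise form -/
theorem fk_mul_point (v w : Fin 4 → ℝ) (hv : ∀ a, 0 ≤ v a) (hw : ∀ a, 0 ≤ w a) :
    |fk (fun j => v j * w j) - mass v * mass w * (m3 (uv v) + m3 (uv w) +
      (∑ j, kal (uv v) j * uv w j) + (∑ j, kal (uv w) j * uv v j))| ≤ 23000 * (fX v * fX w) := by
  by_cases hmv : mass v = 0
  · have h0 : ∀ j, v j = 0 := eq_zero_of_mass_eq_zero (by norm_num) v hv hmv
    have h1 : (fun j => v j * w j) = fun _ => 0 := by funext j; rw [h0 j, zero_mul]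
    have h2 : fk (fun _ : Fin 4 => (0 : ℝ)) = 0 := by simp [fk, mass]
    rw [h1, h2]
    simp [fX, hmv]
  by_cases hmw : mass w = 0
  · have h0 : ∀ j, w j = 0 := eq_zero_of_mass_eq_zero (by norm_num) w hw hmw
    have h1 : (fun j => v j * w j) = fun _ => 0 := by funext j; rw [h0 j, mul_zero]
    have h2 : fk (fun _ : Fin 4 => (0 : ℝ)) = 0 := by simp [fk, mass]
    rw [h1, h2]
    simp [fX, hmw]
  have hav := eq_mass_mul (by norm_num) v hv
  have hbw := eq_mass_mul (by norm_num) w hw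
  have hsa := sum_uv (by norm_num) v hmv
  have hsb := sum_uv (by norm_num) w hmw
  have ha1 := fun j => neg_one_le_uv v hv j
  have ha3 := fun j => uv_le (by norm_num) v hv j
  have hb1 := fun j => neg_one_le_uv w hw j
  have hb3 := fun j => uv_le (by norm_num) w hw j
  have hA := m2_uv_le (by norm_num) v hv hmv
  have hB := m2_uv_le (by norm_num) w hw hmw
  have hm : 0 ≤ mass v := mass_nonneg v hv
  have hm' : 0 ≤ mass w := mass_nonneg w hw
  have hvw : ∀ a, 0 ≤ v a * w a := fun a => mul_nonneg (hv a) (hw a)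
  have huvw := eq_mass_mul (by norm_num) (fun j => v j * w j) hvw
  have habs := abs_m3_le (by norm_num) (fun j => v j * w j) hvw
  have hA0 := m2_nonneg (uv v)
  have hB0 := m2_nonneg (uv w)
  have hs2 := s_sq_le (uv v) (uv w)
  have hqa := sq_le_m2 (uv v)
  have hqb := sq_le_m2 (uv w)
  unfold fk fX
  set a := uv v with ha
  set b := uv w with hb
  set u := uv (fun j => v j * w j) with hu
  set m := mass v
  set m' := mass w
  set s := (1 / 4) * ∑ j, a j * b j with hs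
  have hmass : mass (fun j => v j * w j) = m * m' * (1 + s) := by
    have e1 : ∀ j, v j * w j = m * m' * ((1 + a j) * (1 + b j)) := by
      intro j; rw [hav j, hbw j]; ring
    have e2 : mass (fun j => v j * w j) = 1 / 4 * ∑ j, m * m' * ((1 + a j) * (1 + b j)) := by
      unfold mass
      simp only [e1]
      norm_num
    rw [e2, hs]
    simp only [Fin.sum_univ_four] at hsa hsb ⊢
    linear_combination (1 / 4) * m * m' * hsa + (1 / 4) * m * m' * hsb
  have hmm : m * m' ≠ 0 := mul_ne_zero hmv hmw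
  have hcu : ∀ j, (1 + s) * u j = a j + b j + (a j * b j - s) := by
    intro j
    have e1 : v j * w j = mass (fun j => v j * w j) * (1 + u j) := huvw j
    rw [hmass, hav j, hbw j] at e1
    have e2 : m * m' * ((1 + a j) * (1 + b j)) = m * m' * ((1 + s) * (1 + u j)) := by
      linear_combination e1
    have e3 := mul_left_cancel₀ hmm e2
    linear_combination -e3
  set T := (1 + s) * m3 u with hT
  have hN : (1 + s) ^ 2 * T = 1 / 4 * ∑ j, (a j + b j + (a j * b j - s)) ^ 3 := by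
    rw [hT]
    simp only [← hcu]
    simp only [m3, Fin.sum_univ_four, Nat.cast_ofNat]
    ring
  have hT2 : T = (1 / 4 * ∑ j, (a j + b j + (a j * b j - s)) ^ 3) * (1 - 2 * s) +
      s ^ 2 * (3 + 2 * s) * T := by
    rw [← hN]; ring
  rw [kap_alg a b s hs] at hT2
  have hdiff : mass (fun j => v j * w j) * m3 u - m * m' * (m3 a + m3 b +
      (∑ j, kal a j * b j) + (∑ j, kal b j * a j)) =
      m * m' * (1 / 4 * (∑ j, krm (a j) (b j) (a j * b j - s) s) + s ^ 2 * (3 + 2 * s) * T) := by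
    rw [hmass]
    have : m * m' * (1 + s) * m3 u = m * m' * T := by rw [hT]; ring
    rw [this]
    linear_combination m * m' * hT2
  rw [hdiff]
  have hp0 : 0 ≤ m2 a * m2 b := mul_nonneg hA0 hB0
  have hA3 : m2 a ≤ 3 := by push_cast at hA; linarith
  have hB3 : m2 b ≤ 3 := by push_cast at hB; linarith
  have hs9 : s ^ 2 ≤ 9 := by nlinarith
  have hs3 : |s| ≤ 3 := by
    rw [abs_le]; constructor <;> nlinarith
  have haj : ∀ j, |a j| ≤ 3 := by
    intro j
    rw [abs_le]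
    have h1 := ha1 j
    have h2 := ha3 j
    push_cast at h2
    constructor <;> linarith
  have hbj : ∀ j, |b j| ≤ 3 := by
    intro j
    rw [abs_le]
    have h1 := hb1 j
    have h2 := hb3 j
    push_cast at h2
    constructor <;> linarith
  have hx : ∀ j, (a j * b j) ^ 2 ≤ 16 * (m2 a * m2 b) := by
    intro j
    rw [mul_pow]
    have := mul_le_mul (hqa j) (hqb j) (sq_nonneg _) (by linarith)
    linarith
  have hab9 : ∀ j, |a j * b j| ≤ 9 := by
    intro j
    rw [abs_mul]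
    have := mul_le_mul (haj j) (hbj j) (abs_nonneg _) (by norm_num)
    linarith
  have hkr : ∀ j, |krm (a j) (b j) (a j * b j - s) s| ≤ 20000 * (m2 a * m2 b) := by
    intro j
    refine krm_le (haj j) (hbj j) ?_ (hx j) ?_ hs2
    · have h1 := abs_le.1 (hab9 j)
      have h2 := abs_le.1 hs3
      rw [abs_le]; constructor <;> linarith
    · nlinarith [hx j, sq_nonneg (a j * b j + s)]
  have h1s : 0 ≤ 1 + s := by
    have hpos : 0 ≤ mass (fun j => v j * w j) := mass_nonneg _ hvw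
    rw [hmass] at hpos
    have hmpos : 0 < m * m' := lt_of_le_of_ne (mul_nonneg hm hm') (Ne.symm hmm)
    exact nonneg_of_mul_nonneg_right hpos hmpos
  have hTb : |T| ≤ 256 := by
    rw [hT, abs_mul, abs_of_nonneg h1s]
    have h2 := (abs_le.1 hs3).2
    have h3 : |m3 u| ≤ 64 := by push_cast at habs; linarith
    nlinarith [abs_nonneg (m3 u)]
  have hS : |s ^ 2 * (3 + 2 * s) * T| ≤ 2304 * (m2 a * m2 b) := by
    rw [abs_mul, abs_mul, abs_of_nonneg (sq_nonneg s)]
    have h3 : |3 + 2 * s| ≤ 9 := by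
      have := abs_le.1 hs3
      rw [abs_le]; constructor <;> linarith
    have h4 : |3 + 2 * s| * |T| ≤ 2304 := by
      have := mul_le_mul h3 hTb (abs_nonneg _) (by norm_num)
      linarith
    have h5 : 0 ≤ |3 + 2 * s| * |T| := by positivity
    calc s ^ 2 * |3 + 2 * s| * |T| = s ^ 2 * (|3 + 2 * s| * |T|) := by ring
      _ ≤ (m2 a * m2 b) * 2304 := mul_le_mul hs2 h4 h5 hp0
      _ = _ := by ring
  have hsum : |1 / 4 * ∑ j, krm (a j) (b j) (a j * b j - s) s| ≤ 20000 * (m2 a * m2 b) := by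
    rw [Fin.sum_univ_four]
    have k0 := abs_le.1 (hkr 0)
    have k1 := abs_le.1 (hkr 1)
    have k2 := abs_le.1 (hkr 2)
    have k3 := abs_le.1 (hkr 3)
    rw [abs_le]
    constructor <;> linarith [k0.1, k0.2, k1.1, k1.2, k2.1, k2.2, k3.1, k3.2]
  rw [abs_mul, abs_of_nonneg (mul_nonneg hm hm')]
  have htot : |1 / 4 * (∑ j, krm (a j) (b j) (a j * b j - s) s) + s ^ 2 * (3 + 2 * s) * T| ≤
      23000 * (m2 a * m2 b) := by
    have := abs_add_le (1 / 4 * (∑ j, krm (a j) (b j) (a j * b j - s) s)) (s ^ 2 * (3 + 2 * s) * T)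
    linarith
  calc m * m' * |1 / 4 * (∑ j, krm (a j) (b j) (a j * b j - s) s) + s ^ 2 * (3 + 2 * s) * T| ≤
      m * m' * (23000 * (m2 a * m2 b)) := mul_le_mul_of_nonneg_left htot (mul_nonneg hm hm')
    _ = _ := by ring

/-- **(L2)**. `fk (v w) = m m' (1 + s) <u³>`, `u_i = ((1 + a_i)(1 + b_i)) / (1 + s) - 1`, `N := (1 + s)³ <u³> =
<(a + b + ab - s)³>`, `fk (v w) = m m' N / (1 + s)² = m m' (N (1 - 2 s) + s² (3 + 2 s) (1 + s) <u³>)`.  Second summand:
`≤ C s² ≤ C <a²><b²>` (Cauchy-Schwarz) as `|u| ≤ 3`, `|s| ≤ 3`.  First one: a polynomial; put `e = a b - s`; its terms are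
`<a³>`, `<b³>`, terms linear in `b` or linear in `a` (`3<a²b>`, `3<ab²>`, `3<a²e>`, `3<b²e>`, `-2s<a³>`, `-2s<b³>`; they
vanish in expectation) and terms bounded by `C <a²><b²>` pointwise (`|e_i| ≤ C (<a²><b²>)^(1/2)`, `|a_i| ≤ 3`, `a_i² ≤ 4<a²>`). -/
theorem loc_kap : ∃ C : ℝ, 0 ≤ C ∧ ∀ P Q : Xp, P.Ok → Q.Ok →
    |(P.mul Q).kap| ≤ |P.kap| + |Q.kap| + C * (P.X * Q.X) := by
  refine ⟨23000, by norm_num, fun P Q hP hQ => ?_⟩
  have hPe := hP.isExp
  have hQe := hQ.isExp
  have mP : ∑ i, mass (P.w i) = 1 := by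
    have := hPe.hasSum_mass (by norm_num)
    exact (hasSum_fintype _).unique this
  have mQ : ∑ i, mass (Q.w i) = 1 := by
    have := hQe.hasSum_mass (by norm_num)
    exact (hasSum_fintype _).unique this
  have uP : ∀ j, ∑ i, mass (P.w i) * uv (P.w i) j = 0 := by
    intro j
    have := hPe.hasSum_mass_uv (by norm_num) j
    exact (hasSum_fintype _).unique this
  have uQ : ∀ j, ∑ i, mass (Q.w i) * uv (Q.w i) j = 0 := by
    intro j
    have := hQe.hasSum_mass_uv (by norm_num) j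
    exact (hasSum_fintype _).unique this
  have kP : P.kap = ∑ i, fk (P.w i) := tsum_fintype _
  have kQ : Q.kap = ∑ i, fk (Q.w i) := tsum_fintype _
  have xP : P.X = ∑ i, fX (P.w i) := tsum_fintype _
  have xQ : Q.X = ∑ i, fX (Q.w i) := tsum_fintype _
  have kPQ : (P.mul Q).kap = ∑ i, ∑ k, fk (fun j => P.w i j * Q.w k j) := by
    have : (P.mul Q).kap = ∑ p : P.ι × Q.ι, fk (fun j => P.w p.1 j * Q.w p.2 j) := tsum_fintype _
    rw [this, Fintype.sum_prod_type]
  have hlin : ∑ i, ∑ k, mass (P.w i) * mass (Q.w k) * (m3 (uv (P.w i)) + m3 (uv (Q.w k)) +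
      (∑ j, kal (uv (P.w i)) j * uv (Q.w k) j) + (∑ j, kal (uv (Q.w k)) j * uv (P.w i) j)) =
      P.kap + Q.kap := by
    have s1 : ∑ i, ∑ k, mass (P.w i) * mass (Q.w k) * m3 (uv (P.w i)) = P.kap := by
      rw [kP]
      refine Finset.sum_congr rfl fun i _ => ?_
      have : ∀ k, mass (P.w i) * mass (Q.w k) * m3 (uv (P.w i)) =
          (mass (P.w i) * m3 (uv (P.w i))) * mass (Q.w k) := fun k => by ring
      simp only [this]
      rw [← Finset.mul_sum, mQ, mul_one]
      rfl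
    have s2 : ∑ i, ∑ k, mass (P.w i) * mass (Q.w k) * m3 (uv (Q.w k)) = Q.kap := by
      rw [Finset.sum_comm, kQ]
      refine Finset.sum_congr rfl fun k _ => ?_
      have : ∀ i, mass (P.w i) * mass (Q.w k) * m3 (uv (Q.w k)) =
          (mass (Q.w k) * m3 (uv (Q.w k))) * mass (P.w i) := fun i => by ring
      simp only [this]
      rw [← Finset.mul_sum, mP, mul_one]
      rfl
    have s3 : ∑ i, ∑ k, mass (P.w i) * mass (Q.w k) *
        (∑ j, kal (uv (P.w i)) j * uv (Q.w k) j) = 0 := by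
      refine Finset.sum_eq_zero fun i _ => ?_
      have : ∀ k, mass (P.w i) * mass (Q.w k) * (∑ j, kal (uv (P.w i)) j * uv (Q.w k) j) =
          ∑ j, (mass (P.w i) * kal (uv (P.w i)) j) * (mass (Q.w k) * uv (Q.w k) j) := by
        intro k
        rw [Finset.mul_sum]
        exact Finset.sum_congr rfl fun j _ => by ring
      simp only [this]
      rw [Finset.sum_comm]
      refine Finset.sum_eq_zero fun j _ => ?_
      rw [← Finset.mul_sum, uQ, mul_zero]
    have s4 : ∑ i, ∑ k, mass (P.w i) * mass (Q.w k) *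
        (∑ j, kal (uv (Q.w k)) j * uv (P.w i) j) = 0 := by
      rw [Finset.sum_comm]
      refine Finset.sum_eq_zero fun k _ => ?_
      have : ∀ i, mass (P.w i) * mass (Q.w k) * (∑ j, kal (uv (Q.w k)) j * uv (P.w i) j) =
          ∑ j, (mass (Q.w k) * kal (uv (Q.w k)) j) * (mass (P.w i) * uv (P.w i) j) := by
        intro i
        rw [Finset.mul_sum]
        exact Finset.sum_congr rfl fun j _ => by ring
      simp only [this]
      rw [Finset.sum_comm]
      refine Finset.sum_eq_zero fun j _ => ?_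
      rw [← Finset.mul_sum, uP, mul_zero]
    simp only [mul_add, Finset.sum_add_distrib]
    rw [s1, s2, s3, s4]
    ring
  have hbound : |(P.mul Q).kap - (P.kap + Q.kap)| ≤ 23000 * (P.X * Q.X) := by
    rw [kPQ, ← hlin, ← Finset.sum_sub_distrib]
    simp only [← Finset.sum_sub_distrib]
    calc |∑ i, ∑ k, (fk (fun j => P.w i j * Q.w k j) - mass (P.w i) * mass (Q.w k) *
          (m3 (uv (P.w i)) + m3 (uv (Q.w k)) + (∑ j, kal (uv (P.w i)) j * uv (Q.w k) j) +
            (∑ j, kal (uv (Q.w k)) j * uv (P.w i) j)))| ≤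
        ∑ i, ∑ k, 23000 * (fX (P.w i) * fX (Q.w k)) := by
          refine (Finset.abs_sum_le_sum_abs _ _).trans (Finset.sum_le_sum fun i _ => ?_)
          refine (Finset.abs_sum_le_sum_abs _ _).trans (Finset.sum_le_sum fun k _ => ?_)
          exact fk_mul_point _ _ (hPe.nonneg i) (hQe.nonneg k)
      _ = 23000 * (P.X * Q.X) := by
          rw [xP, xQ, Finset.sum_mul_sum]
          simp only [Finset.mul_sum]
  have h1 := abs_le.1 hbound
  have h2 := abs_add_le P.kap Q.kap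
  have h3 := abs_le.1 (le_refl |P.kap + Q.kap|)
  rw [abs_le]
  constructor <;> linarith [h1.1, h1.2, h3.1, h3.2]

end Crest.Agent.R163.Tr
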