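import Crest.Agent.R163.T0

/-!
# Row 163, S0246: local inequalities for the product of two experiments (q = 4)

Notation: for a pair of likelihood vectors `v, w` with masses `m, m'` and `a = uv v`, `b = uv w`
(`∑ a = ∑ b = 0`, `-1 ≤ a, b ≤ 3`), `<f> = (1/4) ∑ f`, `s = <a b>`, `1 + s ≥ 0`; expectation over the product law
of `(a, b)`, weights `m m'` (`Ex_mul` of BasicC.lean; everything is a finite sum, `tsum_fintype`).
`E m a_i = 0` (`IsExp.hasSum_mass_uv`).  By symmetry (`Ex_perm` of KMul.lean) `E a_i a_j = x (4 δ_ij - 1) / 3`,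
`E a_i a_j^2 = κ (4 δ_ij - 1) / 3`, `E a_i a_j a_k = κ / 3` for different `i, j, k`  (`x = E<a^2>`, `κ = E<a^3>`).
-/

set_option autoImplicit false

namespace Crest.Agent.R163.Tr

open Finset

private theorem abs_ip_le (a b : Fin 4 → ℝ) (ha : ∀ i, |a i| ≤ 4) (hb : ∀ i, |b i| ≤ 4) :
    |ip a b| ≤ 16 := by
  unfold ip
  refine abs_avg_le (by norm_num) _ _ fun i => ?_
  rw [abs_mul]
  have := mul_le_mul (ha i) (hb i) (abs_nonneg _) (by norm_num)
  linarith

/-- crude bound of the kernel -/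
private theorem gq_le_const (p v : Fin 4 → ℝ) (hp : ∀ a, 0 ≤ p a) (hv : ∀ a, 0 ≤ v a)
    (hp0 : mass p ≠ 0) (hv0 : mass v ≠ 0) : gq (uv p) (uv v) 1 ≤ 851 := by
  have ha : ∀ i, |uv p i| ≤ 4 := fun i => by
    have := abs_uv_le (by norm_num) p hp i
    exact_mod_cast this
  have hb : ∀ i, |uv v i| ≤ 4 := fun i => by
    have := abs_uv_le (by norm_num) v hv i
    exact_mod_cast this
  have hs := abs_ip_le _ _ ha hb
  have hpp : 0 < mass p := lt_of_le_of_ne (mass_nonneg p hp) (Ne.symm hp0)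
  have hvp : 0 < mass v := lt_of_le_of_ne (mass_nonneg v hv) (Ne.symm hv0)
  have h1 := fX_prod (by norm_num) p v hp hv
  have h2 := fX_le (by norm_num) (fun a => p a * v a) (fun a => mul_nonneg (hp a) (hv a))
  rw [mass_mul_eq (by norm_num) p v hp hv hp0 hv0] at h2
  have h3 := one_add_ip_nonneg (by norm_num) p v hp hv hp0 hv0
  have hlin : |(1 / ((4 : ℕ) : ℝ)) * ∑ a, uv p a * (1 + uv p a) * (uv v a - ip (uv p) (uv v))| ≤
      400 := by
    refine abs_avg_le (by norm_num) _ _ fun i => ?_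
    rw [abs_mul, abs_mul]
    have e1 : |1 + uv p i| ≤ 5 := (abs_add_le _ _).trans (by rw [abs_one]; linarith [ha i])
    have e2 : |uv v i - ip (uv p) (uv v)| ≤ 20 := (abs_sub _ _).trans (by linarith [hb i])
    have e3 := mul_le_mul (ha i) e1 (abs_nonneg _) (by norm_num)
    have e4 := mul_le_mul e3 e2 (abs_nonneg _) (by norm_num)
    linarith
  rw [h1] at h2
  set s := ip (uv p) (uv v) with hsdef
  set g := gq (uv p) (uv v) 1 with hgdef
  set l := (1 / ((4 : ℕ) : ℝ)) * ∑ a, uv p a * (1 + uv p a) * (uv v a - s) with hldef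
  have h4 : g + (1 + s) * m2 (uv p) + 2 * l ≤ 3 * (1 + s) := by
    have hpos : 0 < mass p * mass v := mul_pos hpp hvp
    refine le_of_mul_le_mul_left ?_ hpos
    refine h2.trans (le_of_eq ?_)
    push_cast
    ring
  have h5 : 0 ≤ (1 + s) * m2 (uv p) := mul_nonneg h3 (m2_nonneg _)
  have h6 := abs_le.1 hlin
  have h7 := abs_le.1 hs
  linarith [h6.1, h7.2]

/-- pointwise bound -/
private theorem gq_le_m2 (p v : Fin 4 → ℝ) (hp : ∀ a, 0 ≤ p a) (hv : ∀ a, 0 ≤ v a)
    (hp0 : mass p ≠ 0) (hv0 : mass v ≠ 0) : gq (uv p) (uv v) 1 ≤ 20000 * m2 (uv v) := by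
  by_cases hbig : ∃ i, 1 / 2 < |uv v i|
  · obtain ⟨i, hi⟩ := hbig
    have h1 := gq_le_const p v hp hv hp0 hv0
    have h2 : 1 / 16 ≤ m2 (uv v) := by
      unfold m2
      have h3 : uv v i ^ 2 ≤ ∑ a, uv v a ^ 2 :=
        Finset.single_le_sum (f := fun a => uv v a ^ 2) (fun a _ => sq_nonneg _) (mem_univ i)
      have h4 : 1 / 4 ≤ uv v i ^ 2 := by
        rw [← sq_abs]
        nlinarith [abs_nonneg (uv v i)]
      push_cast
      linarith
    linarith
  · push Not at hbig
    have hq : (0 : ℕ) < 4 := by norm_num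
    have hA := sum_uv hq p hp0
    have hB := sum_uv hq v hv0
    have ha1 : ∀ i, -1 ≤ uv p i := neg_one_le_uv p hp
    have ha2 : ∀ i, uv p i ≤ 3 := fun i => by
      have := uv_le hq p hp i
      push_cast at this
      linarith
    unfold gq m2
    rw [one_mul]
    set a := uv p with hadef
    set b := uv v with hbdef
    have hs : ip a b = (1 / 4) * ∑ i, (1 + a i) * b i := by
      unfold ip
      rw [Fin.sum_univ_four] at hB
      simp only [Fin.sum_univ_four]
      push_cast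
      linarith
    have hs1 : |ip a b| ≤ 1 / 2 := by
      rw [hs, abs_mul, abs_of_nonneg (by norm_num : (0 : ℝ) ≤ 1 / 4)]
      have h1 : |∑ i, (1 + a i) * b i| ≤ ∑ i, (1 + a i) * (1 / 2) := by
        refine (Finset.abs_sum_le_sum_abs _ _).trans (Finset.sum_le_sum fun i _ => ?_)
        rw [abs_mul, abs_of_nonneg (by linarith [ha1 i] : 0 ≤ 1 + a i)]
        exact mul_le_mul_of_nonneg_left (hbig i) (by linarith [ha1 i])
      have h2 : ∑ i, (1 + a i) * (1 / 2 : ℝ) = 2 := by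
        rw [← Finset.sum_mul, Finset.sum_add_distrib, hA]
        simp
        norm_num
      rw [h2] at h1
      linarith
    set s := ip a b with hsdef
    have hs2 : s ^ 2 ≤ (9 / 4) * ∑ i, b i ^ 2 := by
      have h1 : s = (1 / 4) * ∑ i, a i * b i := by
        rw [hsdef]
        unfold ip
        push_cast
        rfl
      have h2 : (∑ i, a i * b i) ^ 2 ≤ 4 * ∑ i, (a i * b i) ^ 2 := by
        have := sq_sum_le_card_mul_sum_sq (s := (univ : Finset (Fin 4))) (f := fun i => a i * b i)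
        rw [Finset.card_univ, Fintype.card_fin] at this
        exact_mod_cast this
      have h3 : ∑ i, (a i * b i) ^ 2 ≤ 9 * ∑ i, b i ^ 2 := by
        rw [Finset.mul_sum]
        refine Finset.sum_le_sum fun i _ => ?_
        rw [mul_pow]
        have : a i ^ 2 ≤ 9 := by nlinarith [ha1 i, ha2 i]
        exact mul_le_mul_of_nonneg_right this (sq_nonneg _)
      rw [h1, mul_pow]
      linarith
    have hn : (1 / ((4 : ℕ) : ℝ)) * ∑ i, (1 + a i) ^ 2 * (b i - s) ^ 2 ≤ 80 * ∑ i, b i ^ 2 := by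
      have h1 : ∑ i, (1 + a i) ^ 2 * (b i - s) ^ 2 ≤ ∑ i, (32 * b i ^ 2 + 32 * s ^ 2) := by
        refine Finset.sum_le_sum fun i _ => ?_
        have e1 : (1 + a i) ^ 2 ≤ 16 := by nlinarith [ha1 i, ha2 i]
        have e2 : (b i - s) ^ 2 ≤ 2 * b i ^ 2 + 2 * s ^ 2 := by nlinarith [sq_nonneg (b i + s)]
        have e3 := mul_le_mul e1 e2 (sq_nonneg _) (by norm_num)
        linarith
      have h2 : ∑ i, (32 * b i ^ 2 + 32 * s ^ 2) = 32 * ∑ i, b i ^ 2 + 128 * s ^ 2 := by
        rw [Finset.sum_add_distrib, ← Finset.mul_sum]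
        simp
        ring
      rw [h2] at h1
      push_cast
      linarith
    have hd : 1 / 2 ≤ 1 + s := by
      have := (abs_le.1 hs1).1
      linarith
    rw [div_le_iff₀ (by linarith)]
    have hb0 : 0 ≤ ∑ i, b i ^ 2 := Finset.sum_nonneg fun i _ => sq_nonneg _
    push_cast at hn ⊢
    nlinarith

/-- **(L3)**. `gain_eq` (Gain2.lean): `X (P * Q) - X P = E [(1/4) ∑ (1 + a_i)² (b_i - s)² / (1 + s)]` (see `gq`); pointwise
`≤ C <b²>`: if all `|b_i| ≤ 1/2` then `1 + s ≥ 1/2`; otherwise `<b²> ≥ 1/16` and the term is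
`(1 + s) <(u - a)²> ≤ 4 * 36`. -/
theorem loc_up : ∃ C : ℝ, 0 ≤ C ∧ ∀ P Q : Xp, P.Ok → Q.Ok →
    (P.mul Q).X ≤ P.X + C * Q.X := by
  refine ⟨20000, by norm_num, fun P Q hP hQ => ?_⟩
  have h1 := gain_eq (q := 4) (by norm_num) hP.isExp hQ.isExp
  have h2 : gain P.w Q.w = (P.mul Q).X - P.X := rfl
  rw [h2] at h1
  have h3 : ∑' k, ∑' i, mass (P.w i) * mass (Q.w k) * gq (uv (P.w i)) (uv (Q.w k)) 1 ≤
      20000 * Q.X := by
    rw [tsum_fintype]
    simp only [tsum_fintype]
    have hm : ∑ i, mass (P.w i) = 1 := by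
      have := (hP.isExp.hasSum_mass (by norm_num)).tsum_eq
      rwa [tsum_fintype] at this
    have h4 : Q.X = ∑ k, mass (Q.w k) * m2 (uv (Q.w k)) := by
      unfold Xp.X X Ex fX
      rw [tsum_fintype]
    rw [h4, Finset.mul_sum]
    refine Finset.sum_le_sum fun k _ => ?_
    have hmk := mass_nonneg (Q.w k) (hQ.isExp.nonneg k)
    calc ∑ i, mass (P.w i) * mass (Q.w k) * gq (uv (P.w i)) (uv (Q.w k)) 1
        ≤ ∑ i, mass (P.w i) * (mass (Q.w k) * (20000 * m2 (uv (Q.w k)))) := by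
          refine Finset.sum_le_sum fun i _ => ?_
          have hmi := mass_nonneg (P.w i) (hP.isExp.nonneg i)
          by_cases hi : mass (P.w i) = 0
          · rw [hi]; simp
          by_cases hk : mass (Q.w k) = 0
          · rw [hk]; simp
          rw [mul_assoc]
          refine mul_le_mul_of_nonneg_left (mul_le_mul_of_nonneg_left ?_ hmk) hmi
          exact gq_le_m2 _ _ (hP.isExp.nonneg i) (hQ.isExp.nonneg k) hi hk
      _ = 20000 * (mass (Q.w k) * m2 (uv (Q.w k))) := by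
          rw [← Finset.sum_mul, hm]
          ring
  linarith

/-- `|<u³>| ≤ 3 <u²>` -/
theorem kap_le_X {P : Xp} (h : P.Ok) : |P.kap| ≤ 3 * P.X := by
  unfold Xp.kap Xp.X X Ex fX fk
  rw [tsum_fintype, tsum_fintype, Finset.mul_sum]
  refine (Finset.abs_sum_le_sum_abs _ _).trans (Finset.sum_le_sum fun i _ => ?_)
  have hm := mass_nonneg (P.w i) (h.isExp.nonneg i)
  rw [abs_mul, abs_of_nonneg hm, mul_left_comm]
  refine mul_le_mul_of_nonneg_left ?_ hm
  have hu : ∀ a, |uv (P.w i) a| ≤ 3 := by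
    intro a
    rw [abs_le]
    have h1 := neg_one_le_uv (P.w i) (h.isExp.nonneg i) a
    have h2 := uv_le (by norm_num) (P.w i) (h.isExp.nonneg i) a
    push_cast at h2
    constructor <;> linarith
  unfold m3 m2
  rw [abs_mul, abs_of_nonneg (by positivity), mul_left_comm]
  refine mul_le_mul_of_nonneg_left ?_ (by positivity)
  rw [Finset.mul_sum]
  refine (Finset.abs_sum_le_sum_abs _ _).trans (Finset.sum_le_sum fun a _ => ?_)
  rw [pow_succ, abs_mul, abs_of_nonneg (sq_nonneg _), mul_comm]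
  exact mul_le_mul_of_nonneg_right (hu a) (sq_nonneg _)

/-- symmetric group on the spins: `X (P * Q) = X (Q * P)`, same for `kap` (`Fintype.sum_prod_type`, `Finset.sum_comm`) -/
theorem Ex_mul_comm' (P Q : Xp) (F : (Fin 4 → ℝ) → ℝ) :
    Ex F (P.mul Q).w = Ex F (Q.mul P).w := by
  unfold Ex
  refine ((Equiv.prodComm P.ι Q.ι).tsum_eq (fun x => F ((Q.mul P).w x))).symm.trans ?_ |>.symm
  refine tsum_congr fun x => ?_
  congr 1
  funext a
  exact mul_comm _ _

end Crest.Agent.R163.Tr
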