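import Crest.Agent.R163.TLocX
import Crest.Agent.R163.TLocK
import Crest.Agent.R163.TLocU

/-!
# Row 163, S0246: local inequalities for lists
-/

set_option autoImplicit false

namespace Crest.Agent.R163.Tr

open Finset

private theorem uv_triv : uv (trivE 4 ()) = fun _ => (0 : ℝ) := by
  funext a
  simp [uv, mass, trivE]

private theorem X_triv' : Xp.triv.X = 0 := by
  show ∑' i : Unit, fX (trivE 4 i) = 0
  rw [tsum_fintype]
  simp [fX, uv_triv, m2]

private theorem kap_triv' : Xp.triv.kap = 0 := by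
  show ∑' i : Unit, fk (trivE 4 i) = 0
  rw [tsum_fintype]
  simp [fk, uv_triv, m3]

private theorem loc_alg {C C1 C2 C3 x k S' k' Xp' K' XP KP : ℝ} (hC : 0 ≤ C) (hC1 : 0 ≤ C1)
    (hC2 : 0 ≤ C2) (hC3 : 0 ≤ C3) (hx : 0 ≤ x) (hk : 0 ≤ k) (hS : 0 ≤ S') (hk' : 0 ≤ k')
    (h1 : S' - C * S' * (k' + S' ^ 2) ≤ Xp') (h2 : K' ≤ k' + C * S' ^ 2) (h3 : Xp' ≤ C * S')
    (hX' : 0 ≤ Xp') (a1 : x + Xp' - C1 * (k * Xp' + K' * x) ≤ XP)
    (a2 : KP ≤ k + K' + C2 * (x * Xp')) (a3 : XP ≤ x + C3 * Xp') :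
    (x + S') - (C + C1 * C + C1 + C1 * C + (C + C2 * C) + (1 + C3 * C)) * (x + S') *
        ((k + k') + (x + S') ^ 2) ≤ XP ∧
      KP ≤ (k + k') + (C + C1 * C + C1 + C1 * C + (C + C2 * C) + (1 + C3 * C)) * (x + S') ^ 2 ∧
      XP ≤ (C + C1 * C + C1 + C1 * C + (C + C2 * C) + (1 + C3 * C)) * (x + S') := by
  have p1 : 0 ≤ C1 * C := mul_nonneg hC1 hC
  have p2 : 0 ≤ C2 * C := mul_nonneg hC2 hC
  have p3 : 0 ≤ C3 * C := mul_nonneg hC3 hC
  set D := C + C1 * C + C1 + C1 * C + (C + C2 * C) + (1 + C3 * C) with hD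
  have hSS : 0 ≤ x + S' := by positivity
  set Z := (x + S') * ((k + k') + (x + S') ^ 2) with hZ
  have z1 : S' * (k' + S' ^ 2) ≤ Z := by
    rw [hZ]
    have : S' ^ 2 ≤ (x + S') ^ 2 := by nlinarith
    exact mul_le_mul (by linarith) (by linarith) (by positivity) hSS
  have z2 : k * S' + k' * x ≤ Z := by
    rw [hZ]
    have : 0 ≤ (x + S') * (x + S') ^ 2 := by positivity
    have h4 : 0 ≤ k * x := mul_nonneg hk hx
    have h5 : 0 ≤ k' * S' := mul_nonneg hk' hS
    nlinarith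
  have z3 : S' ^ 2 * x ≤ Z := by
    rw [hZ]
    have h6 : S' ^ 2 * x ≤ (x + S') ^ 2 * (x + S') :=
      mul_le_mul (by nlinarith) (by linarith) hx (by positivity)
    have : 0 ≤ (x + S') * (k + k') := by positivity
    nlinarith
  have hZ0 : 0 ≤ Z := by rw [hZ]; positivity
  refine ⟨?_, ?_, ?_⟩
  · have b1 : k * Xp' ≤ C * (k * S') := by
      have := mul_le_mul_of_nonneg_left h3 hk
      linarith
    have b2 : K' * x ≤ k' * x + C * (S' ^ 2 * x) := by
      have := mul_le_mul_of_nonneg_right h2 hx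
      linarith
    have e1 : 0 ≤ k' * x := mul_nonneg hk' hx
    have e0 : 0 ≤ k * S' := mul_nonneg hk hS
    have b3 : k * Xp' + K' * x ≤ C * Z + Z + C * Z := by
      have e2 : k * S' ≤ Z := by linarith
      have e3 : k' * x ≤ Z := by linarith
      have e4 := mul_le_mul_of_nonneg_left e2 hC
      have e5 := mul_le_mul_of_nonneg_left z3 hC
      linarith
    have b4 := mul_le_mul_of_nonneg_left b3 hC1
    have b5 := mul_le_mul_of_nonneg_left z1 hC
    have e6 : (C + C1 * C + C1 + C1 * C) * Z ≤ D * Z := by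
      refine mul_le_mul_of_nonneg_right ?_ hZ0
      rw [hD]; linarith
    have e7 : D * (x + S') * ((k + k') + (x + S') ^ 2) = D * Z := by rw [hZ]; ring
    rw [e7]
    have e8 : (C + C1 * C + C1 + C1 * C) * Z = C * Z + C1 * (C * Z + Z + C * Z) := by ring
    have e9 : C * S' * (k' + S' ^ 2) = C * (S' * (k' + S' ^ 2)) := by ring
    rw [e9] at h1
    rw [e8] at e6
    linarith
  · have b1 : x * Xp' ≤ C * (x * S') := by
      have := mul_le_mul_of_nonneg_left h3 hx
      linarith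
    have b2 : x * S' ≤ (x + S') ^ 2 := by nlinarith [mul_nonneg hx hS, sq_nonneg x, sq_nonneg S']
    have b3 : S' ^ 2 ≤ (x + S') ^ 2 := by nlinarith [mul_nonneg hx hS]
    have b4 := mul_le_mul_of_nonneg_left b1 hC2
    have b5 := mul_le_mul_of_nonneg_left b2 p2
    have b6 := mul_le_mul_of_nonneg_left b3 hC
    have e6 : (C + C2 * C) * (x + S') ^ 2 ≤ D * (x + S') ^ 2 := by
      refine mul_le_mul_of_nonneg_right ?_ (by positivity)
      rw [hD]; linarith
    have e8 : (C + C2 * C) * (x + S') ^ 2 = C * (x + S') ^ 2 + C2 * C * (x + S') ^ 2 := by ring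
    have e9 : C2 * (C * (x * S')) = C2 * C * (x * S') := by ring
    rw [e9] at b4
    rw [e8] at e6
    linarith
  · have b1 := mul_le_mul_of_nonneg_left h3 hC3
    have e6 : (1 + C3 * C) * (x + S') ≤ D * (x + S') := by
      refine mul_le_mul_of_nonneg_right ?_ hSS
      rw [hD]; linarith
    have h7 : 0 ≤ C3 * C * x := mul_nonneg p3 hx
    have e8 : (1 + C3 * C) * (x + S') = x + S' + C3 * C * x + C3 * (C * S') := by ring
    rw [e8] at e6
    linarith

/-- **lists**.  Induction on the list (length `≤ B`), constants depending on `B`: for the tail `P` (sums `S`, `k`)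
`X P ≤ C S` (`loc_up`), `|kap P| ≤ k + C S²`; then `loc_X`, `loc_kap`. -/
theorem loc_list (B : ℕ) : ∃ C : ℝ, 0 ≤ C ∧ ∀ l : List Xp, l.length ≤ B → (∀ E ∈ l, E.Ok) →
    (l.map Xp.X).sum - C * (l.map Xp.X).sum * ((l.map fun E => |E.kap|).sum + (l.map Xp.X).sum ^ 2) ≤
        (Xp.prod l).X ∧
      |(Xp.prod l).kap| ≤ (l.map fun E => |E.kap|).sum + C * (l.map Xp.X).sum ^ 2 := by
  suffices H : ∃ C : ℝ, 0 ≤ C ∧ ∀ l : List Xp, l.length ≤ B → (∀ E ∈ l, E.Ok) →
      (l.map Xp.X).sum - C * (l.map Xp.X).sum * ((l.map fun E => |E.kap|).sum +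
          (l.map Xp.X).sum ^ 2) ≤ (Xp.prod l).X ∧
        |(Xp.prod l).kap| ≤ (l.map fun E => |E.kap|).sum + C * (l.map Xp.X).sum ^ 2 ∧
        (Xp.prod l).X ≤ C * (l.map Xp.X).sum by
    obtain ⟨C, h0, h⟩ := H
    exact ⟨C, h0, fun l hl hok => ⟨(h l hl hok).1, (h l hl hok).2.1⟩⟩
  induction B with
  | zero =>
    refine ⟨0, le_refl _, fun l hl _ => ?_⟩
    have : l = [] := List.length_eq_zero_iff.1 (Nat.le_zero.1 hl)
    subst this
    have e1 : (Xp.prod []).X = 0 := X_triv'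
    have e2 : (Xp.prod []).kap = 0 := kap_triv'
    rw [e1, e2]
    simp
  | succ B ih =>
    obtain ⟨C, hC, ih⟩ := ih
    obtain ⟨C1, hC1, h1⟩ := loc_X
    obtain ⟨C2, hC2, h2⟩ := loc_kap
    obtain ⟨C3, hC3, h3⟩ := loc_up
    have p1 : 0 ≤ C1 * C := mul_nonneg hC1 hC
    have p2 : 0 ≤ C2 * C := mul_nonneg hC2 hC
    have p3 : 0 ≤ C3 * C := mul_nonneg hC3 hC
    refine ⟨C + C1 * C + C1 + C1 * C + (C + C2 * C) + (1 + C3 * C), by positivity, ?_⟩
    intro l hl hok
    cases l with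
    | nil =>
      have e1 : (Xp.prod []).X = 0 := X_triv'
      have e2 : (Xp.prod []).kap = 0 := kap_triv'
      rw [e1, e2]
      simp
    | cons E l =>
      have hE : E.Ok := hok E List.mem_cons_self
      have hl' : ∀ F ∈ l, F.Ok := fun F hF => hok F (List.mem_cons_of_mem _ hF)
      have hP : (Xp.prod l).Ok := Xp.Ok.prod hl'
      obtain ⟨i1, i2, i3⟩ := ih l (by simpa using hl) hl'
      have hS : 0 ≤ (l.map Xp.X).sum := by
        refine List.sum_nonneg fun y hy => ?_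
        obtain ⟨F, hF, rfl⟩ := List.mem_map.1 hy
        exact X_nonneg (hl' F hF).isExp
      have hk : 0 ≤ (l.map fun E => |E.kap|).sum := by
        refine List.sum_nonneg fun y hy => ?_
        obtain ⟨F, hF, rfl⟩ := List.mem_map.1 hy
        exact abs_nonneg _
      have a1 := h1 E (Xp.prod l) hE hP
      have a2 := h2 E (Xp.prod l) hE hP
      have a3 := h3 E (Xp.prod l) hE hP
      simp only [List.map_cons, List.sum_cons]
      exact loc_alg hC hC1 hC2 hC3 (X_nonneg hE.isExp) (abs_nonneg _) hS hk i1 i2 i3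
        (X_nonneg hP.isExp) a1 a2 a3

end Crest.Agent.R163.Tr
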