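import Crest.Agent.R163.TFun
import Crest.Agent.R163.TGarb
import Crest.Agent.R163.TGarbX
import Crest.Agent.R163.TLoc

/-!
# Row 163, S0246: degraded experiments with prescribed `X` and small `kap`
-/

set_option autoImplicit false

namespace Crest.Agent.R163.Tr

open Finset Crest.ProbabilityR.TreeBroadcast

variable {V : Type*} [DecidableEq V]

/-- upper bound of `|kap|` -/
noncomputable def Kd (T : LocFinTree V) (lam C : ℝ) (t : V → ℝ) : ℕ → V → ℝ
  | 0, v => 2 * t v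
  | k + 1, v => ∑ c ∈ T.children v, lam ^ 3 * Kd T lam C t k c + C * t v ^ 2

/-- value of `X` -/
noncomputable def yd (T : LocFinTree V) (lam C : ℝ) (t : V → ℝ) : ℕ → V → ℝ
  | 0, v => t v
  | k + 1, v => (∑ c ∈ T.children v, lam ^ 2 * yd T lam C t k c) * (1 - C * Kd T lam C t (k + 1) v)

theorem Kd_nonneg (T : LocFinTree V) {lam C : ℝ} (h0 : 0 ≤ lam) (hC : 0 ≤ C) {t : V → ℝ}
    (ht : ∀ v, 0 ≤ t v) (k : ℕ) (v : V) : 0 ≤ Kd T lam C t k v := by
  induction k generalizing v with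
  | zero =>
    have := ht v
    simp only [Kd]
    linarith
  | succ k ih =>
    simp only [Kd]
    exact add_nonneg (Finset.sum_nonneg fun c _ => mul_nonneg (pow_nonneg h0 3) (ih c))
      (mul_nonneg hC (sq_nonneg _))

theorem yd_bounds (T : LocFinTree V) {lam C : ℝ} (h0 : 0 ≤ lam) (hC : 0 ≤ C) {t : V → ℝ}
    (ht : ∀ v, 0 ≤ t v) (hf : ∀ v, t v = ∑ c ∈ T.children v, lam ^ 2 * t c)
    (hK : ∀ k v, C * Kd T lam C t k v ≤ 1) (k : ℕ) (v : V) :
    0 ≤ yd T lam C t k v ∧ yd T lam C t k v ≤ t v := by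
  induction k generalizing v with
  | zero =>
    simp only [yd]
    exact ⟨ht v, le_rfl⟩
  | succ k ih =>
    have h1 : 0 ≤ ∑ c ∈ T.children v, lam ^ 2 * yd T lam C t k c :=
      Finset.sum_nonneg fun c _ => mul_nonneg (pow_nonneg h0 2) (ih c).1
    have h2 : ∑ c ∈ T.children v, lam ^ 2 * yd T lam C t k c ≤ t v := by
      rw [hf v]
      exact Finset.sum_le_sum fun c _ => mul_le_mul_of_nonneg_left (ih c).2 (pow_nonneg h0 2)
    have h3 := hK (k + 1) v
    have h4 : 0 ≤ C * Kd T lam C t (k + 1) v := mul_nonneg hC (Kd_nonneg T h0 hC ht (k + 1) v)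
    rw [yd]
    refine ⟨mul_nonneg h1 (by linarith), ?_⟩
    calc _ ≤ (∑ c ∈ T.children v, lam ^ 2 * yd T lam C t k c) * 1 :=
          mul_le_mul_of_nonneg_left (by linarith) h1
      _ ≤ t v := by rw [mul_one]; exact h2

/-- Induction on `k`, `C = max C₀ 1`, `C₀` from `loc_list B`.  `k = 0`: `F = er (t v / 3) perf`.  `k + 1`: choose `F c`
for the children, `P = prod (children.toList.map fun c => (F c).ch lam)`; `S = ∑ λ² y_c ≤ t v`, so
`P.X ≥ S - C₀ S (∑ λ³ K_c + S²) ≥ yd (k+1) v ≥ 0` and `|P.kap| ≤ ∑ λ³ K_c + C₀ S² ≤ Kd (k+1) v`;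
`F = er (yd (k+1) v / P.X) P` (if `P.X = 0` then `yd (k+1) v = 0`, `F = er 0 P`). -/
theorem exists_deg (T : LocFinTree V) {B : ℕ} (hB : ∀ v, (T.children v).card ≤ B) {lam : ℝ}
    (h0 : 0 ≤ lam) (h1 : lam ≤ 1) : ∃ C : ℝ, 0 ≤ C ∧ ∀ t : V → ℝ, (∀ v, 0 ≤ t v) → (∀ v, t v ≤ 3) →
      (∀ v, t v = ∑ c ∈ T.children v, lam ^ 2 * t c) → (∀ k v, C * Kd T lam C t k v ≤ 1) →
      ∀ k v, ∃ F : Xp, F.Ok ∧ Garb (xp T lam k v) F ∧ F.X = yd T lam C t k v ∧
        |F.kap| ≤ Kd T lam C t k v := by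
  obtain ⟨C₀, hC₀, hloc⟩ := loc_list B
  refine ⟨max C₀ 1, le_max_of_le_left hC₀, ?_⟩
  obtain ⟨C, hCdef⟩ : ∃ C, C = max C₀ 1 := ⟨_, rfl⟩
  rw [← hCdef]
  have hCC : C₀ ≤ C := hCdef ▸ le_max_left _ _
  have hC1 : 1 ≤ C := hCdef ▸ le_max_right _ _
  have hC0 : 0 ≤ C := by linarith
  intro t ht0 ht3 hf hK k
  induction k with
  | zero =>
    intro v
    have hb0 : 0 ≤ t v / 3 := by have := ht0 v; positivity
    have hb1 : t v / 3 ≤ 1 := by have := ht3 v; linarith
    refine ⟨Xp.perf.er (t v / 3), Xp.ok_perf.er hb0 hb1, Garb.er Xp.ok_perf hb0 hb1, ?_, ?_⟩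
    · rw [X_er Xp.ok_perf hb0 hb1, X_perf, yd]
      ring
    · rw [kap_er Xp.ok_perf hb0 hb1, kap_perf, Kd, abs_of_nonneg (by positivity)]
      linarith
  | succ k ih =>
    choose F hFok hFg hFX hFk using ih
    intro v
    obtain ⟨l, hl⟩ : ∃ l : List Xp, l = (T.children v).toList.map fun c => (F c).ch lam := ⟨_, rfl⟩
    obtain ⟨P, hP⟩ : ∃ P : Xp, P = Xp.prod l := ⟨_, rfl⟩
    have hlok : ∀ E ∈ l, E.Ok := by
      intro E hE
      rw [hl] at hE
      obtain ⟨c, -, rfl⟩ := List.mem_map.1 hE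
      exact (hFok c).ch h0 h1
    have hPok : P.Ok := hP ▸ Xp.Ok.prod hlok
    have hlen : l.length ≤ B := by
      rw [hl, List.length_map, Finset.length_toList]
      exact hB v
    have hXsum : (l.map Xp.X).sum = ∑ c ∈ T.children v, lam ^ 2 * yd T lam C t k c := by
      rw [hl, List.map_map, ← Finset.sum_map_toList (T.children v)]
      congr 1
      refine List.map_congr_left fun c _ => ?_
      simp only [Function.comp_apply]
      rw [X_ch (hFok c), hFX c]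
    have hKsum : (l.map fun E => |E.kap|).sum ≤ ∑ c ∈ T.children v, lam ^ 3 * Kd T lam C t k c := by
      rw [hl, List.map_map]
      have : ((T.children v).toList.map ((fun E : Xp => |E.kap|) ∘ fun c => (F c).ch lam)).sum =
          ∑ c ∈ T.children v, |((F c).ch lam).kap| := by
        rw [← Finset.sum_map_toList (T.children v)]
        rfl
      rw [this]
      refine Finset.sum_le_sum fun c _ => ?_
      rw [kap_ch (hFok c), abs_mul, abs_of_nonneg (pow_nonneg h0 3)]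
      exact mul_le_mul_of_nonneg_left (hFk c) (pow_nonneg h0 3)
    obtain ⟨hl1, hl2⟩ := hloc l hlen hlok
    rw [← hP, hXsum] at hl1 hl2
    obtain ⟨S, hS⟩ : ∃ S, S = ∑ c ∈ T.children v, lam ^ 2 * yd T lam C t k c := ⟨_, rfl⟩
    obtain ⟨K, hKd⟩ : ∃ K, K = (l.map fun E => |E.kap|).sum := ⟨_, rfl⟩
    obtain ⟨K', hK'⟩ : ∃ K', K' = ∑ c ∈ T.children v, lam ^ 3 * Kd T lam C t k c := ⟨_, rfl⟩
    rw [← hS, ← hKd] at hl1 hl2
    rw [← hKd, ← hK'] at hKsum
    have hS0 : 0 ≤ S := by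
      rw [hS]
      exact Finset.sum_nonneg fun c _ => mul_nonneg (pow_nonneg h0 2)
        (yd_bounds T h0 hC0 ht0 hf hK k c).1
    have hSt : S ≤ t v := by
      rw [hS, hf v]
      exact Finset.sum_le_sum fun c _ => mul_le_mul_of_nonneg_left
        (yd_bounds T h0 hC0 ht0 hf hK k c).2 (pow_nonneg h0 2)
    have hK0 : 0 ≤ K := by
      rw [hKd]
      refine List.sum_nonneg fun x hx => ?_
      obtain ⟨E, -, rfl⟩ := List.mem_map.1 hx
      exact abs_nonneg _
    have hKd1 : Kd T lam C t (k + 1) v = K' + C * t v ^ 2 := by rw [hK', Kd]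
    have hyd1 : yd T lam C t (k + 1) v = S * (1 - C * Kd T lam C t (k + 1) v) := by rw [hS, yd]
    have hSS : S ^ 2 ≤ t v ^ 2 := pow_le_pow_left₀ hS0 hSt 2
    have htt : t v ^ 2 ≤ C * t v ^ 2 := by nlinarith [sq_nonneg (t v)]
    have hy0 := (yd_bounds T h0 hC0 ht0 hf hK (k + 1) v).1
    have hyP : yd T lam C t (k + 1) v ≤ P.X := by
      refine le_trans ?_ hl1
      rw [hyd1, hKd1]
      have h5 : C₀ * S * (K + S ^ 2) ≤ C * S * (K' + C * t v ^ 2) := by
        have a1 : K + S ^ 2 ≤ K' + C * t v ^ 2 := by linarith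
        have a2 : C₀ * S ≤ C * S := mul_le_mul_of_nonneg_right hCC hS0
        exact mul_le_mul a2 a1 (by positivity) (by positivity)
      linarith
    have hkP : |P.kap| ≤ Kd T lam C t (k + 1) v := by
      refine le_trans hl2 ?_
      rw [hKd1]
      have h6 : C₀ * S ^ 2 ≤ C * t v ^ 2 := mul_le_mul hCC hSS (sq_nonneg _) hC0
      linarith
    have hPX : 0 ≤ P.X := le_trans hy0 hyP
    have hb0 : 0 ≤ yd T lam C t (k + 1) v / P.X := div_nonneg hy0 hPX
    have hb1 : yd T lam C t (k + 1) v / P.X ≤ 1 := div_le_one_of_le₀ hyP hPX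
    refine ⟨P.er (yd T lam C t (k + 1) v / P.X), hPok.er hb0 hb1, ?_, ?_, ?_⟩
    · refine Garb.trans ?_ (Garb.er hPok hb0 hb1)
      rw [hP, hl, xp]
      exact Garb.prod _ _ _ fun c _ => (hFg c).ch lam
    · rw [X_er hPok hb0 hb1]
      rcases eq_or_lt_of_le hPX with h | h
      · rw [← h] at hyP ⊢
        rw [mul_zero]
        exact le_antisymm hy0 hyP
      · rw [div_mul_cancel₀ _ h.ne']
    · rw [kap_er hPok hb0 hb1, abs_mul, abs_of_nonneg hb0]
      calc _ ≤ 1 * |P.kap| := mul_le_mul_of_nonneg_right hb1 (abs_nonneg _)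
        _ ≤ _ := by rw [one_mul]; exact hkP

end Crest.Agent.R163.Tr
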