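import Crest.Agent.R163.TFlowUpB

/-!
# Row 163, S0246: limit of the approximating flows
-/

set_option autoImplicit false

namespace Crest.Agent.R163.Tr

open Finset Crest.ProbabilityR.TreeBroadcast

variable {V : Type*} [DecidableEq V]

variable {T : LocFinTree V} {lam : ℝ} {Z : ℕ → V → ℝ}

/-- Limit `n → ∞` along an ultrafilter (`Filter.hyperfilter ℕ`; `th .. (depth v) v ∈ [0, 1]` eventually: compactness of
`[0,1]`, `IsCompact.ultrafilter_le_nhds`); the flow equations (finite sums) and the finite parts of the path potentials pass to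
the limit; multiply by a small constant. -/
theorem flow_up (h0 : 0 < lam) (hZ : ∀ k v, 0 ≤ Z k v) {κ : ℝ} (hκ : 0 < κ)
    (hrec : ∀ k v, Z (k + 1) v ≤ SS T lam Z k v - κ * SS T lam Z k v ^ 3)
    {z₀ : ℝ} (hz₀ : 0 < z₀) (hroot : ∀ n, z₀ ≤ Z n T.root) :
    ∃ θ : V → ℝ, IsFlow T θ ∧ 0 < flowMass T θ ∧
      ∀ ξ : ℕ → V, T.IsRay ξ → rayPotential lam θ ξ ≤ 1 := by
  classical
  have hroot' : ∀ n, 0 < Z n T.root := fun n => lt_of_lt_of_le hz₀ (hroot n)
  -- the ultrafilter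
  set U : Ultrafilter ℕ := Filter.hyperfilter ℕ with hU
  have hUle : (U : Filter ℕ) ≤ Filter.atTop := by
    rw [← Nat.cofinite_eq_atTop]
    exact Filter.hyperfilter_le_cofinite
  have hev : ∀ N : ℕ, ∀ᶠ n in (U : Filter ℕ), N < n :=
    fun N => hUle (Filter.eventually_gt_atTop N)
  -- limits
  have hlim : ∀ v : V, ∃ y : ℝ, 0 ≤ y ∧
      Filter.Tendsto (fun n => th T lam Z n (T.depth v) v) (U : Filter ℕ) (nhds y) := by
    intro v
    have hmem : ∀ᶠ n in (U : Filter ℕ), th T lam Z n (T.depth v) v ∈ Set.Icc (0 : ℝ) 1 := by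
      filter_upwards [hev (T.depth v)] with n hn
      exact ⟨th_nonneg h0 hZ n _ v,
        th_le_one h0 hZ hκ hrec n (hroot' n) (T.depth v) hn.le v rfl⟩
    have hc := isCompact_Icc (a := (0 : ℝ)) (b := 1)
    obtain ⟨y, hy, hle⟩ := hc.ultrafilter_le_nhds
      (U.map (fun n => th T lam Z n (T.depth v) v)) (by
        rw [Filter.le_principal_iff]
        exact hmem)
    exact ⟨y, hy.1, hle⟩
  choose θ₀ hθ0 hθ using hlim
  have hchild : ∀ v c, c ∈ T.children v → T.depth c = T.depth v + 1 :=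
    fun v c hc => ((mem_children_iff T v c).1 hc).1
  -- flow equation
  have hflow : ∀ v, ∑ c ∈ T.children v, θ₀ c = θ₀ v := by
    intro v
    have h1 : Filter.Tendsto (fun n => ∑ c ∈ T.children v, th T lam Z n (T.depth c) c)
        (U : Filter ℕ) (nhds (∑ c ∈ T.children v, θ₀ c)) :=
      tendsto_finsetSum _ fun c _ => hθ c
    refine tendsto_nhds_unique_of_eventuallyEq h1 (hθ v) ?_
    filter_upwards [hev (T.depth v)] with n hn
    rw [← th_flow h0 hZ hκ hrec n (hroot' n) (T.depth v) hn v rfl]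
    exact Finset.sum_congr rfl fun c hc => by rw [hchild v c hc]
  have hroot1 : θ₀ T.root = 1 := by
    have h2 := hθ T.root
    have h3 : T.depth T.root = 0 := (T.depth_eq_zero_iff T.root).2 rfl
    rw [h3] at h2
    have h4 : (fun n => th T lam Z n 0 T.root) = fun _ => (1 : ℝ) := by
      funext n; simp [th]
    rw [h4] at h2
    exact tendsto_nhds_unique h2 tendsto_const_nhds
  -- depth along rays
  have hdep : ∀ ξ : ℕ → V, T.IsRay ξ → ∀ j, T.depth (ξ j) = j := by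
    intro ξ hξ j
    induction j with
    | zero => rw [hξ.1]; exact (T.depth_eq_zero_iff T.root).2 rfl
    | succ j ih => rw [hchild _ _ (hξ.2 j), ih]
  -- path potentials
  have hpath : ∀ ξ : ℕ → V, T.IsRay ξ → ∀ N : ℕ,
      2 * κ * ∑ j ∈ range N, (θ₀ (ξ j) / lam ^ (2 * j)) ^ 2 ≤ 1 / z₀ ^ 2 := by
    intro ξ hξ N
    have h1 : Filter.Tendsto (fun n => 2 * κ * ∑ j ∈ range N,
        (th T lam Z n j (ξ j) / lam ^ (2 * j)) ^ 2) (U : Filter ℕ)
        (nhds (2 * κ * ∑ j ∈ range N, (θ₀ (ξ j) / lam ^ (2 * j)) ^ 2)) := by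
      refine Filter.Tendsto.const_mul _ (tendsto_finsetSum _ fun j _ => ?_)
      have h2 := hθ (ξ j)
      rw [hdep ξ hξ j] at h2
      exact (h2.div_const _).pow 2
    refine le_of_tendsto h1 ?_
    filter_upwards [hev N] with n hn
    refine (th_path h0 hZ hκ hrec n (hroot' n) ξ hξ N hn.le).trans ?_
    have := hroot n
    gcongr
  -- the flow
  obtain ⟨ε, hε⟩ : ∃ ε : ℝ, ε = Real.sqrt (2 * κ) * z₀ := ⟨_, rfl⟩
  have hε0 : 0 < ε := by rw [hε]; positivity
  have hε2 : ε ^ 2 = 2 * κ * z₀ ^ 2 := by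
    rw [hε, mul_pow, Real.sq_sqrt (by positivity)]
  refine ⟨fun v => ε * θ₀ v, ⟨fun v => mul_nonneg hε0.le (hθ0 v), fun v _ => ?_⟩, ?_, ?_⟩
  · show ε * θ₀ v = ∑ c ∈ T.children v, ε * θ₀ c
    rw [← Finset.mul_sum, hflow v]
  · unfold flowMass
    show 0 < ∑ c ∈ T.children T.root, ε * θ₀ c
    rw [← Finset.mul_sum, hflow, hroot1, mul_one]
    exact hε0
  · intro ξ hξ
    unfold rayPotential
    refine ENNReal.tsum_le_of_sum_range_le fun N => ?_
    rw [← ENNReal.ofReal_sum_of_nonneg (fun i _ => sq_nonneg _)]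
    rw [← ENNReal.ofReal_one]
    refine ENNReal.ofReal_le_ofReal ?_
    have h1 := hpath ξ hξ (N + 1)
    rw [Finset.sum_range_succ'] at h1
    have h2 : ∑ i ∈ range N, (ε * θ₀ (ξ (i + 1)) / lam ^ (2 * (i + 1))) ^ 2 =
        ε ^ 2 * ∑ i ∈ range N, (θ₀ (ξ (i + 1)) / lam ^ (2 * (i + 1))) ^ 2 := by
      rw [Finset.mul_sum]
      exact Finset.sum_congr rfl fun i _ => by ring
    rw [h2, hε2]
    have h3 : 0 ≤ (θ₀ (ξ 0) / lam ^ (2 * 0)) ^ 2 := sq_nonneg _
    have h4 : 2 * κ * ∑ i ∈ range N, (θ₀ (ξ (i + 1)) / lam ^ (2 * (i + 1))) ^ 2 ≤ 1 / z₀ ^ 2 := by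
      have : 0 ≤ 2 * κ * (θ₀ (ξ 0) / lam ^ (2 * 0)) ^ 2 := by positivity
      nlinarith [h1, this]
    have h5 : 0 < z₀ ^ 2 := by positivity
    rw [le_div_iff₀ h5] at h4
    calc 2 * κ * z₀ ^ 2 * ∑ i ∈ range N, (θ₀ (ξ (i + 1)) / lam ^ (2 * (i + 1))) ^ 2
        = (2 * κ * ∑ i ∈ range N, (θ₀ (ξ (i + 1)) / lam ^ (2 * (i + 1))) ^ 2) * z₀ ^ 2 := by ring
      _ ≤ 1 := h4

end Crest.Agent.R163.Tr
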