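import Crest.Agent.R163.TLowB

/-!
# Row 163, S0246: flow ⟹ reconstruction, part 2C (assembly)
-/

set_option autoImplicit false

namespace Crest.Agent.R163.Tr

open Finset Crest.ProbabilityR.TreeBroadcast

variable {V : Type*} [DecidableEq V]

variable {T : LocFinTree V} {θ : V → ℝ} {lam : ℝ}

/-- `t = e * rt`, `e` small (depending on `C, λ`, mass `m`): `t ≤ e (1 + m) ≤ 1`, `Kd_le`; `sum_t_Kd` and
`λ^(2j) t v = e * full v` give the loss `C * (2 e m U_max + C e ∑ full U²)`, with `U_max ≤ e (1+m)/(1-λ)`,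
`∑ full U² ≤ e² m (1 + m²) / (1-λ)²` (`sum_Ud_sq_le`, `sum_rt_sq_le`); so `yd n root ≥ e m / 2`. -/
theorem flow_low (h : IsFlow T θ) (hm : 0 < flowMass T θ) (h0 : 0 < lam) (h1 : lam < 1)
    (hr : ∀ ξ : ℕ → V, T.IsRay ξ → rayPotential lam θ ξ ≤ 1) {C : ℝ} (hC : 0 ≤ C) :
    ∃ t : V → ℝ, (∀ v, 0 ≤ t v) ∧ (∀ v, t v ≤ 3) ∧
      (∀ v, t v = ∑ c ∈ T.children v, lam ^ 2 * t c) ∧ (∀ k v, C * Kd T lam C t k v ≤ 1) ∧
      ∃ δ : ℝ, 0 < δ ∧ ∀ n, δ ≤ yd T lam C t n T.root := by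
  obtain ⟨m, hmd⟩ : ∃ m, m = flowMass T θ := ⟨_, rfl⟩
  obtain ⟨s, hsd⟩ : ∃ s, s = 1 / (1 - lam) := ⟨_, rfl⟩
  have hl : 0 < 1 - lam := by linarith
  have hs0 : 0 < s := by rw [hsd]; positivity
  have hm0 : 0 < m := by rw [hmd]; exact hm
  have hCs : C / (1 - lam) = C * s := by rw [hsd]; ring
  obtain ⟨K, hK⟩ : ∃ K, K = 1 + (1 + m) + C * (2 + C * s) * (1 + m) +
      2 * C * (2 * (1 + m) * s + C * (1 + m ^ 2) * s ^ 2) := ⟨_, rfl⟩
  have hp1 : 0 ≤ C * (2 + C * s) * (1 + m) := by positivity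
  have hp2 : 0 ≤ 2 * C * (2 * (1 + m) * s + C * (1 + m ^ 2) * s ^ 2) := by positivity
  have hK1 : 1 ≤ K := by rw [hK]; linarith
  have hK0 : 0 < K := by linarith
  obtain ⟨e, he⟩ : ∃ e, e = 1 / K := ⟨_, rfl⟩
  have he0 : 0 < e := by rw [he]; positivity
  have heK : e * K = 1 := by rw [he]; field_simp
  have hle : ∀ x, x ≤ K → e * x ≤ 1 := fun x hx => by
    rw [← heK]; exact mul_le_mul_of_nonneg_left hx he0.le
  have he1 : e ≤ 1 := by simpa using hle 1 hK1
  have ha : e * (1 + m) ≤ 1 := hle _ (by rw [hK]; linarith)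
  have hb : e * (C * (2 + C * s) * (1 + m)) ≤ 1 := hle _ (by rw [hK]; linarith)
  have hc : e * (2 * C * (2 * (1 + m) * s + C * (1 + m ^ 2) * s ^ 2)) ≤ 1 :=
    hle _ (by rw [hK]; linarith)
  have hrt0 : ∀ v, 0 ≤ rt T lam θ v := fun v => div_nonneg (full_nonneg h v) (by positivity)
  have hrt1 : ∀ v, rt T lam θ v ≤ 1 + m := fun v => by rw [hmd]; exact rt_le h h0 hr v
  obtain ⟨t, ht⟩ : ∃ t : V → ℝ, ∀ v, t v = e * rt T lam θ v := ⟨fun v => e * rt T lam θ v, fun _ => rfl⟩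
  have ht0 : ∀ v, 0 ≤ t v := fun v => by rw [ht]; exact mul_nonneg he0.le (hrt0 v)
  have hta : ∀ v, t v ≤ e * (1 + m) := fun v => by
    rw [ht]; exact mul_le_mul_of_nonneg_left (hrt1 v) he0.le
  have ht1 : ∀ v, t v ≤ 1 := fun v => (hta v).trans ha
  have hf : ∀ v, t v = ∑ c ∈ T.children v, lam ^ 2 * t c := fun v => by
    rw [ht, rt_eq h h0, mul_sum]
    exact sum_congr rfl fun c _ => by rw [ht]; ring
  have hKd0 : ∀ k v, 0 ≤ Kd T lam C t k v := fun k v => Kd_nonneg T h0.le hC ht0 k v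
  have hKd : ∀ k v, C * Kd T lam C t k v ≤ 1 := fun k v => by
    have h2 := Kd_le h0 h1 hC ht0 ht1 hf k v
    rw [hCs] at h2
    calc C * Kd T lam C t k v ≤ C * ((2 + C * s) * t v) := mul_le_mul_of_nonneg_left h2 hC
      _ ≤ C * ((2 + C * s) * (e * (1 + m))) :=
        mul_le_mul_of_nonneg_left (mul_le_mul_of_nonneg_left (hta v) (by positivity)) hC
      _ = e * (C * (2 + C * s) * (1 + m)) := by ring
      _ ≤ 1 := hb
  refine ⟨t, ht0, fun v => (ht1 v).trans (by norm_num), hf, hKd, e * m / 2, by positivity, ?_⟩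
  intro n
  have hfull : ∀ j, ∀ v ∈ T.level j, lam ^ (2 * j) * t v = e * full T θ v := by
    intro j v hv
    have hd := (T.mem_level_iff j v).1 hv
    rw [ht, rt, hd]
    have : lam ^ (2 * j) ≠ 0 := by positivity
    field_simp
  have A1 := yd_root_ge h0 hC ht0 hf hKd n
  have A2 := sum_t_Kd (T := T) h0 C t n
  have A3 : ∑ v ∈ T.level n, lam ^ (2 * n) * t v = e * m := by
    rw [sum_congr rfl (hfull n), ← mul_sum, sum_full h, hmd]
  have A4 : ∑ j ∈ range n, ∑ v ∈ T.level j, t v * (lam ^ (2 * j) * Kd T lam C t (n - j) v) ≤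
      ∑ j ∈ range (n + 1), ∑ v ∈ T.level j, t v * (lam ^ (2 * j) * Kd T lam C t (n - j) v) := by
    rw [sum_range_succ]
    refine le_add_of_nonneg_right (sum_nonneg fun v _ => ?_)
    exact mul_nonneg (ht0 v) (mul_nonneg (by positivity) (hKd0 _ v))
  have hU := fun j v => Ud_bounds (T := T) h0.le h1 ht0 hta j v
  have hU0 : ∀ j v, 0 ≤ Ud T lam t j v := fun j v => (ht0 v).trans (hU j v).1
  have hUs : ∀ j v, Ud T lam t j v ≤ e * (1 + m) * s := fun j v => by
    have := (hU j v).2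
    rw [hsd, mul_one_div]
    exact this
  have A5 : ∑ v ∈ T.level n, Ud T lam t n v * (lam ^ (2 * n) * (2 * t v)) ≤
      e * (1 + m) * s * (2 * (e * m)) := by
    calc ∑ v ∈ T.level n, Ud T lam t n v * (lam ^ (2 * n) * (2 * t v))
        ≤ ∑ v ∈ T.level n, e * (1 + m) * s * (2 * (e * full T θ v)) := by
          refine sum_le_sum fun v hv => ?_
          have : lam ^ (2 * n) * (2 * t v) = 2 * (e * full T θ v) := by
            rw [← hfull n v hv]; ring
          rw [this]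
          exact mul_le_mul_of_nonneg_right (hUs n v)
            (mul_nonneg (by norm_num) (mul_nonneg he0.le (full_nonneg h v)))
      _ = e * (1 + m) * s * (2 * (e * m)) := by
          rw [← mul_sum, ← mul_sum, ← mul_sum, sum_full h, hmd]
  have A6 : ∑ j ∈ range n, ∑ v ∈ T.level j, lam ^ (2 * j) * t v ^ 2 * Ud T lam t j v ≤
      e * (s ^ 2 * (e ^ 2 * (m * (1 + m ^ 2)))) := by
    calc ∑ j ∈ range n, ∑ v ∈ T.level j, lam ^ (2 * j) * t v ^ 2 * Ud T lam t j v
        ≤ ∑ j ∈ range n, ∑ v ∈ T.level j, e * (full T θ v * Ud T lam t j v ^ 2) := by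
          refine sum_le_sum fun j _ => sum_le_sum fun v hv => ?_
          have h2 : lam ^ (2 * j) * t v ^ 2 * Ud T lam t j v =
              e * full T θ v * (t v * Ud T lam t j v) := by
            rw [← hfull j v hv]; ring
          have h3 : e * (full T θ v * Ud T lam t j v ^ 2) =
              e * full T θ v * (Ud T lam t j v * Ud T lam t j v) := by ring
          rw [h2, h3]
          exact mul_le_mul_of_nonneg_left
            (mul_le_mul_of_nonneg_right (hU j v).1 (hU0 j v))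
            (mul_nonneg he0.le (full_nonneg h v))
      _ = e * ∑ j ∈ range n, ∑ v ∈ T.level j, full T θ v * Ud T lam t j v ^ 2 := by
          simp only [mul_sum]
      _ ≤ e * ∑ j ∈ range (n + 1), ∑ v ∈ T.level j, full T θ v * Ud T lam t j v ^ 2 := by
          refine mul_le_mul_of_nonneg_left ?_ he0.le
          rw [sum_range_succ _ n]
          exact le_add_of_nonneg_right (sum_nonneg fun v _ =>
            mul_nonneg (full_nonneg h v) (sq_nonneg _))
      _ ≤ e * ((1 / (1 - lam)) ^ 2 *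
            ∑ j ∈ range (n + 1), ∑ v ∈ T.level j, full T θ v * t v ^ 2) :=
          mul_le_mul_of_nonneg_left (sum_Ud_sq_le h h0 h1 ht0 n) he0.le
      _ = e * (s ^ 2 * (e ^ 2 *
            ∑ j ∈ range (n + 1), ∑ v ∈ T.level j, full T θ v * rt T lam θ v ^ 2)) := by
          rw [← hsd]
          congr 2
          rw [mul_sum]
          refine sum_congr rfl fun j _ => ?_
          rw [mul_sum]
          refine sum_congr rfl fun v _ => ?_
          rw [ht]; ring
      _ ≤ e * (s ^ 2 * (e ^ 2 * (m * (1 + m ^ 2)))) := by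
          have := sum_rt_sq_le h h0 hr n
          rw [← hmd] at this
          gcongr
  rw [A3] at A1
  rw [A2] at A4
  have A7 : ∑ j ∈ range n, ∑ v ∈ T.level j, t v * (lam ^ (2 * j) * Kd T lam C t (n - j) v) ≤
      e * (1 + m) * s * (2 * (e * m)) + C * (e * (s ^ 2 * (e ^ 2 * (m * (1 + m ^ 2))))) :=
    A4.trans (add_le_add A5 (mul_le_mul_of_nonneg_left A6 hC))
  have A8 := mul_le_mul_of_nonneg_left A7 hC
  have he2 : e ^ 2 ≤ e := by nlinarith
  have A9 : C * (e * (1 + m) * s * (2 * (e * m)) + C * (e * (s ^ 2 * (e ^ 2 * (m * (1 + m ^ 2)))))) ≤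
      e * m * (1 / 2) := by
    have h2 : C * (e * (1 + m) * s * (2 * (e * m)) +
        C * (e * (s ^ 2 * (e ^ 2 * (m * (1 + m ^ 2)))))) =
        e * m * (e * (C * (2 * (1 + m) * s)) + e ^ 2 * (C * (C * (1 + m ^ 2) * s ^ 2))) := by ring
    rw [h2]
    refine mul_le_mul_of_nonneg_left ?_ (by positivity)
    have h3 : e ^ 2 * (C * (C * (1 + m ^ 2) * s ^ 2)) ≤ e * (C * (C * (1 + m ^ 2) * s ^ 2)) :=
      mul_le_mul_of_nonneg_right he2 (by positivity)
    linarith
  linarith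

end Crest.Agent.R163.Tr
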