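import Crest.Agent.R163.TZ

/-!
# Row 163, S0246: the real inequality for `Z`, part B
-/

set_option autoImplicit false

namespace Crest.Agent.R163.Tr

open Finset

universe u

/-- Take `α = (1 + λ) / 2`.  `Y := X + α (c - X) = (1-α) X + α c ≤ sY - λ²(α-λ) ∑ D - (1-α) k₁ Cr`, `sY = ∑ λ² Y_i`,
`Cr = ∑_{i≠j} x_i² x_j`; `η Y³ ≤ η sY³`; `S = sY + η λ² ∑ Y_i³ ≤ 37 ∑ Y_i` (`η ≤ 1`, `Y_i ≤ 6`).  Needed:
`η λ⁶ (∑ Y)³ + k (37 ∑ Y)³ ≤ η λ² ∑ Y³ + λ²(α-λ) ∑ D + (1-α) k₁ Cr`: `sum_cube_le`, `cross_le`; choose first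
`η`, then `k` small. -/
theorem z_ineq {lam : ℝ} (h0 : 0 < lam) (h1 : lam < 1) (B : ℕ) {k₁ : ℝ} (hk : 0 < k₁) :
    ∃ α η k : ℝ, 0 < α ∧ α < 1 ∧ 0 < η ∧ 0 < k ∧
      ∀ {ι : Type u} [DecidableEq ι] (s : Finset ι) (x D : ι → ℝ), s.card ≤ B →
        (∀ i ∈ s, 0 ≤ x i ∧ x i ≤ 3) → (∀ i ∈ s, 0 ≤ D i ∧ D i ≤ 3) → ∀ X c : ℝ, 0 ≤ X → X ≤ c →
        c ≤ ∑ i ∈ s, lam ^ 2 * (x i + lam * D i) →
        X ≤ ∑ i ∈ s, lam ^ 2 * (x i + lam * D i) - k₁ * ∑ i ∈ s, ∑ j ∈ s.erase i, x i ^ 2 * x j →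
        zf α η X (c - X) ≤ ∑ i ∈ s, lam ^ 2 * zf α η (x i) (D i) -
          k * (∑ i ∈ s, lam ^ 2 * zf α η (x i) (D i)) ^ 3 := by
  obtain ⟨C, hC, hcube⟩ := sum_cube_le.{u} B
  set α : ℝ := (1 + lam) / 2 with hα
  have hα0 : 0 < α := by rw [hα]; linarith
  have hα1 : α < 1 := by rw [hα]; linarith
  have hαl : 0 < α - lam := by rw [hα]; linarith
  have hBC : (0 : ℝ) < 108 * B * C + 1 := by positivity
  set η : ℝ := min 1 (min ((1 - α) * k₁ / C) (lam ^ 2 * (α - lam) / (108 * B * C + 1))) with hη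
  have hη0 : 0 < η := by
    rw [hη]
    refine lt_min one_pos (lt_min ?_ ?_)
    · exact div_pos (mul_pos (by linarith) hk) hC
    · exact div_pos (by positivity) hBC
  have hη1 : η ≤ 1 := min_le_left _ _
  have hη2 : η * C ≤ (1 - α) * k₁ := by
    have : η ≤ (1 - α) * k₁ / C := (min_le_right _ _).trans (min_le_left _ _)
    rwa [le_div_iff₀ hC] at this
  have hη3 : η * (108 * B * C) ≤ lam ^ 2 * (α - lam) := by
    have : η ≤ lam ^ 2 * (α - lam) / (108 * B * C + 1) :=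
      (min_le_right _ _).trans (min_le_right _ _)
    rw [le_div_iff₀ hBC] at this
    linarith
  have hl2 : lam ^ 2 ≤ 1 := pow_le_one₀ h0.le h1.le
  have hl4 : lam ^ 4 < 1 := pow_lt_one₀ h0.le h1 (by norm_num)
  have hl26 : 0 < lam ^ 2 - lam ^ 6 := by
    have : lam ^ 2 - lam ^ 6 = lam ^ 2 * (1 - lam ^ 4) := by ring
    rw [this]
    exact mul_pos (by positivity) (by linarith)
  set k : ℝ := η * (lam ^ 2 - lam ^ 6) / 37 ^ 3 with hkd
  have hk0 : 0 < k := by rw [hkd]; positivity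
  have hk37 : 37 ^ 3 * k = η * (lam ^ 2 - lam ^ 6) := by rw [hkd]; field_simp
  refine ⟨α, η, k, hα0, hα1, hη0, hk0, ?_⟩
  intro ι _ s x D hs hx hD X c hX0 hXc hc hX
  -- abbreviations
  set Y : ι → ℝ := fun i => x i + α * D i with hY
  have hY0 : ∀ i ∈ s, 0 ≤ Y i := fun i hi =>
    add_nonneg (hx i hi).1 (mul_nonneg hα0.le (hD i hi).1)
  have hY6 : ∀ i ∈ s, Y i ≤ 6 := fun i hi => by
    have h3 := (hD i hi).2
    have h4 := (hD i hi).1
    have h5 := (hx i hi).2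
    have : α * D i ≤ 1 * 3 := mul_le_mul hα1.le h3 h4 (by norm_num)
    simp only [hY]
    linarith
  set P : ℝ := ∑ i ∈ s, Y i with hP
  set T3 : ℝ := ∑ i ∈ s, Y i ^ 3 with hT3
  set SD : ℝ := ∑ i ∈ s, D i with hSD
  set Cx : ℝ := ∑ i ∈ s, ∑ j ∈ s.erase i, x i ^ 2 * x j with hCx
  have hP0 : 0 ≤ P := sum_nonneg hY0
  have hT0 : 0 ≤ T3 := sum_nonneg fun i hi => pow_nonneg (hY0 i hi) 3
  have hSD0 : 0 ≤ SD := sum_nonneg fun i hi => (hD i hi).1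
  have hCx0 : 0 ≤ Cx := sum_nonneg fun i hi => sum_nonneg fun j hj =>
    mul_nonneg (sq_nonneg _) (hx j (mem_of_mem_erase hj)).1
  have e1 : ∑ i ∈ s, lam ^ 2 * (x i + lam * D i) = lam ^ 2 * P - lam ^ 2 * (α - lam) * SD := by
    rw [hP, hSD, mul_sum, mul_sum, ← sum_sub_distrib]
    refine sum_congr rfl fun i _ => ?_
    simp only [hY]
    ring
  rw [e1] at hc hX
  have e2 : ∑ i ∈ s, lam ^ 2 * zf α η (x i) (D i) = lam ^ 2 * P + η * lam ^ 2 * T3 := by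
    rw [hP, hT3, mul_sum, mul_sum, ← sum_add_distrib]
    refine sum_congr rfl fun i _ => ?_
    simp only [hY, zf]
    ring
  rw [e2]
  set S : ℝ := lam ^ 2 * P + η * lam ^ 2 * T3 with hS
  have hS0 : 0 ≤ S := by positivity
  have hT36 : T3 ≤ 36 * P := by
    rw [hT3, hP, mul_sum]
    refine sum_le_sum fun i hi => ?_
    have h3 := hY0 i hi
    have h4 := hY6 i hi
    have h5 : Y i ^ 2 ≤ 36 := by nlinarith
    calc Y i ^ 3 = Y i ^ 2 * Y i := by ring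
      _ ≤ 36 * Y i := mul_le_mul_of_nonneg_right h5 h3
  have hS37 : S ≤ 37 * P := by
    have h3 : lam ^ 2 * P ≤ 1 * P := mul_le_mul_of_nonneg_right hl2 hP0
    have h4 : η * lam ^ 2 ≤ 1 := by
      calc η * lam ^ 2 ≤ 1 * 1 := mul_le_mul hη1 hl2 (by positivity) (by norm_num)
        _ = 1 := by norm_num
    have h5 : η * lam ^ 2 * T3 ≤ 1 * T3 := mul_le_mul_of_nonneg_right h4 hT0
    linarith
  have hS3 : S ^ 3 ≤ 37 ^ 3 * P ^ 3 := by
    calc S ^ 3 ≤ (37 * P) ^ 3 := pow_le_pow_left₀ hS0 hS37 3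
      _ = 37 ^ 3 * P ^ 3 := by ring
  -- the new value
  have hYY : zf α η X (c - X) = (X + α * (c - X)) + η * (X + α * (c - X)) ^ 3 := rfl
  set W : ℝ := X + α * (c - X) with hW
  have hW0 : 0 ≤ W := add_nonneg hX0 (mul_nonneg hα0.le (by linarith))
  have hW1 : W ≤ lam ^ 2 * P - lam ^ 2 * (α - lam) * SD - (1 - α) * k₁ * Cx := by
    have h3 : W = (1 - α) * X + α * c := by rw [hW]; ring
    have h4 : (1 - α) * X ≤ (1 - α) * (lam ^ 2 * P - lam ^ 2 * (α - lam) * SD - k₁ * Cx) :=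
      mul_le_mul_of_nonneg_left hX (by linarith)
    have h5 : α * c ≤ α * (lam ^ 2 * P - lam ^ 2 * (α - lam) * SD) :=
      mul_le_mul_of_nonneg_left hc hα0.le
    rw [h3]
    calc (1 - α) * X + α * c ≤ (1 - α) * (lam ^ 2 * P - lam ^ 2 * (α - lam) * SD - k₁ * Cx) +
          α * (lam ^ 2 * P - lam ^ 2 * (α - lam) * SD) := add_le_add h4 h5
      _ = _ := by ring
  have hq1 : 0 ≤ lam ^ 2 * (α - lam) * SD := by positivity
  have hq2 : 0 ≤ (1 - α) * k₁ * Cx := mul_nonneg (mul_nonneg (by linarith) hk.le) hCx0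
  have hW2 : W ^ 3 ≤ lam ^ 6 * P ^ 3 := by
    calc W ^ 3 ≤ (lam ^ 2 * P) ^ 3 := pow_le_pow_left₀ hW0 (by linarith) 3
      _ = lam ^ 6 * P ^ 3 := by ring
  have hP3 : P ^ 3 ≤ T3 + C * (Cx + 108 * B * SD) := by
    have h3 := hcube s Y hs hY0
    have h4 := cross_le B s x D hs hx hD α hα0.le hα1.le
    refine h3.trans ?_
    have h5 : C * ∑ i ∈ s, ∑ j ∈ s.erase i, Y i ^ 2 * Y j ≤ C * (Cx + 108 * B * SD) :=
      mul_le_mul_of_nonneg_left h4 hC.le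
    linarith
  rw [hYY]
  -- combine
  have hco : η * lam ^ 6 + 37 ^ 3 * k = η * lam ^ 2 := by rw [hk37]; ring
  have hfin : (η * lam ^ 2) * P ^ 3 ≤ η * lam ^ 2 * T3 + lam ^ 2 * (α - lam) * SD +
      (1 - α) * k₁ * Cx := by
    have h3 : (η * lam ^ 2) * P ^ 3 ≤ (η * lam ^ 2) * (T3 + C * (Cx + 108 * B * SD)) :=
      mul_le_mul_of_nonneg_left hP3 (by positivity)
    have h4 : (η * lam ^ 2) * (C * Cx) ≤ (1 - α) * k₁ * Cx := by
      calc (η * lam ^ 2) * (C * Cx) = (η * C * Cx) * lam ^ 2 := by ring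
        _ ≤ (η * C * Cx) * 1 := mul_le_mul_of_nonneg_left hl2 (by positivity)
        _ = η * C * Cx := by ring
        _ ≤ (1 - α) * k₁ * Cx := mul_le_mul_of_nonneg_right hη2 hCx0
    have h5 : (η * lam ^ 2) * (C * (108 * B * SD)) ≤ lam ^ 2 * (α - lam) * SD := by
      calc (η * lam ^ 2) * (C * (108 * B * SD)) = (η * (108 * B * C) * SD) * lam ^ 2 := by ring
        _ ≤ (η * (108 * B * C) * SD) * 1 := mul_le_mul_of_nonneg_left hl2 (by positivity)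
        _ = η * (108 * B * C) * SD := by ring
        _ ≤ lam ^ 2 * (α - lam) * SD := mul_le_mul_of_nonneg_right hη3 hSD0
    calc (η * lam ^ 2) * P ^ 3 ≤ (η * lam ^ 2) * (T3 + C * (Cx + 108 * B * SD)) := h3
      _ = η * lam ^ 2 * T3 + (η * lam ^ 2) * (C * Cx) + (η * lam ^ 2) * (C * (108 * B * SD)) := by
          ring
      _ ≤ η * lam ^ 2 * T3 + (1 - α) * k₁ * Cx + lam ^ 2 * (α - lam) * SD := by linarith
      _ = _ := by ring
  have h6 : η * W ^ 3 ≤ η * (lam ^ 6 * P ^ 3) := mul_le_mul_of_nonneg_left hW2 hη0.le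
  have h7 : k * S ^ 3 ≤ k * (37 ^ 3 * P ^ 3) := mul_le_mul_of_nonneg_left hS3 hk0.le
  have h8 : η * (lam ^ 6 * P ^ 3) + k * (37 ^ 3 * P ^ 3) = (η * lam ^ 2) * P ^ 3 := by
    rw [← hco]; ring
  rw [hS]
  rw [hS] at h7
  linarith

end Crest.Agent.R163.Tr
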