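import Crest.Agent.R163.TUpD
import Crest.Agent.R163.TZB

/-!
# Row 163, S0246: the recursion of `Z` on the tree
-/

set_option autoImplicit false

namespace Crest.Agent.R163.Tr

open Finset Crest.ProbabilityR.TreeBroadcast

variable {V : Type*} [DecidableEq V]

/-- bound of the gains -/
noncomputable def cc (T : LocFinTree V) (lam : ℝ) : ℕ → V → ℝ
  | 0, _ => 3
  | k + 1, v => min 3 (∑ c ∈ T.children v, lam ^ 2 * ((1 - lam) * (xp T lam k c).X + lam * cc T lam k c))

/-- `X` -/
noncomputable def xx (T : LocFinTree V) (lam : ℝ) (k : ℕ) (v : V) : ℝ := (xp T lam k v).X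

/-- `Z` -/
noncomputable def zz (T : LocFinTree V) (lam α η : ℝ) (k : ℕ) (v : V) : ℝ :=
  zf α η (xx T lam k v) (cc T lam k v - xx T lam k v)

/-- `KK_perfect` (Main1), `KK_prod_nonneg` -/
theorem KK_xp (T : LocFinTree V) {lam : ℝ} (h0 : 0 ≤ lam) (h1 : lam ≤ 1) (k : ℕ) (v : V) :
    0 ≤ (xp T lam k v).KK := by
  induction k generalizing v with
  | zero => exact KK_perfect (q := 4) (Or.inr rfl)
  | succ k ih =>
    exact KK_prod_nonneg (T.children v).toList (fun c => xp T lam k c) h0 h1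
      (fun c _ => xp_ok T h0 h1 k c) (fun c _ => ih c)

/-- `gain_le` (Main1) and `GB.prod` -/
theorem GB_xp (T : LocFinTree V) {lam : ℝ} (h0 : 0 ≤ lam) (h1 : lam ≤ 1) (k : ℕ) (v : V) :
    GB (xp T lam k v) (cc T lam k v) := by
  induction k generalizing v with
  | zero =>
    intro κ P hP _
    have h := gain_le (q := 4) (by norm_num) hP (xp_ok T h0 h1 0 v).isExp
    refine h.trans ?_
    show ((4 : ℕ) : ℝ) - 1 ≤ 3
    norm_num
  | succ k ih =>
    intro κ P hP hK
    refine le_min ?_ ?_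
    · have h := gain_le (q := 4) (by norm_num) hP (xp_ok T h0 h1 (k + 1) v).isExp
      refine h.trans ?_
      norm_num
    · have h := GB.prod (T.children v).toList (fun c => xp T lam k c) (cc T lam k) h0 h1
        (fun c _ => xp_ok T h0 h1 k c) (fun c _ => KK_xp T h0 h1 k c) (fun c _ => ih c) κ P hP hK
      rw [Finset.sum_map_toList] at h
      exact h

private theorem uv_trivE' (i : Unit) : uv (trivE 4 i) = fun _ => 0 := by
  funext a
  have hm : mass (trivE 4 i) = 1 := by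
    unfold mass trivE
    simp
  unfold uv
  rw [hm]
  simp [trivE]

private theorem X_trivE' : R163.X (trivE 4) = 0 := by
  unfold R163.X Ex
  simp only [tsum_fintype, Finset.univ_unique, Finset.sum_singleton]
  unfold fX m2
  rw [uv_trivE']
  simp

private theorem KK_trivE' : R163.KK (trivE 4) = 0 := by
  unfold R163.KK Ex
  simp only [tsum_fintype, Finset.univ_unique, Finset.sum_singleton]
  unfold fK kf m2 m3
  rw [uv_trivE']
  simp

private theorem X_mul_trivE' {ι : Type} (Q : ι → Fin 4 → ℝ) :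
    R163.X (R163.mul (trivE 4) Q) = R163.X Q := by
  unfold R163.X Ex
  rw [← (Equiv.punitProd ι).symm.tsum_eq (fun p : Unit × ι => fX (R163.mul (trivE 4) Q p))]
  refine tsum_congr fun i => ?_
  congr 1
  funext a
  simp [R163.mul, trivE]

/-- trivial side information: `X ≤ cc` (`GB_xp` with `trivE`) -/
theorem xx_bounds (T : LocFinTree V) {lam : ℝ} (h0 : 0 ≤ lam) (h1 : lam ≤ 1) (k : ℕ) (v : V) :
    0 ≤ xx T lam k v ∧ xx T lam k v ≤ cc T lam k v ∧ cc T lam k v ≤ 3 := by
  refine ⟨X_nonneg (xp_ok T h0 h1 k v).isExp, ?_, ?_⟩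
  · have h := GB_xp T h0 h1 k v Unit (trivE 4) (isExp_trivE 4) (by rw [KK_trivE'])
    unfold R163.gain at h
    rw [X_mul_trivE', X_trivE', sub_zero] at h
    exact h
  · cases k with
    | zero => exact le_rfl
    | succ k => exact min_le_left _ _

/-- `X_prod_le` and `z_ineq` (with `x i + λ D i = (1-λ) x i + λ c i`, `D = cc - X`) -/
theorem zz_rec (T : LocFinTree V) {B : ℕ} (hB : ∀ v, (T.children v).card ≤ B) {lam : ℝ}
    (h0 : 0 < lam) (h1 : lam < 1) : ∃ α η k₂ : ℝ, 0 < α ∧ α < 1 ∧ 0 < η ∧ 0 < k₂ ∧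
      ∀ k v, zz T lam α η (k + 1) v ≤ ∑ c ∈ T.children v, lam ^ 2 * zz T lam α η k c -
        k₂ * (∑ c ∈ T.children v, lam ^ 2 * zz T lam α η k c) ^ 3 := by
  obtain ⟨k₁, hk₁, hX⟩ := X_prod_le h0 h1 B
  obtain ⟨α, η, k₂, hα0, hα1, hη, hk₂, hz⟩ := z_ineq h0 h1 B hk₁
  refine ⟨α, η, k₂, hα0, hα1, hη, hk₂, fun k v => ?_⟩
  have hb := fun c => xx_bounds T h0.le h1.le k c
  have hb' := xx_bounds T h0.le h1.le (k + 1) v
  have e : ∀ c, lam ^ 2 * (xx T lam k c + lam * (cc T lam k c - xx T lam k c)) =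
      lam ^ 2 * ((1 - lam) * (xp T lam k c).X + lam * cc T lam k c) := fun c => by
    unfold xx
    ring
  refine hz (T.children v) (xx T lam k) (fun c => cc T lam k c - xx T lam k c) (hB v)
    (fun c _ => ⟨(hb c).1, (hb c).2.1.trans (hb c).2.2⟩)
    (fun c _ => ⟨by linarith [(hb c).2.1], by linarith [(hb c).1, (hb c).2.2]⟩)
    (xx T lam (k + 1) v) (cc T lam (k + 1) v) hb'.1 hb'.2.1 ?_ ?_
  · simp only [e]
    exact min_le_right _ _
  · simp only [e]
    exact hX (T.children v) (fun c => xp T lam k c) (cc T lam k) (hB v)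
      (fun c _ => xp_ok T h0.le h1.le k c) (fun c _ => KK_xp T h0.le h1.le k c)
      (fun c _ => GB_xp T h0.le h1.le k c)

end Crest.Agent.R163.Tr
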