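import Crest.Agent.R163.TTree
import Crest.Agent.R163.TLowC
import Crest.Agent.R163.TUpT
import Crest.Agent.R163.TFlowUpC

/-!
# Row 163, S0246: assembly
-/

set_option autoImplicit false

namespace Crest.Agent.R163.Tr

open Finset Crest.ProbabilityR.TreeBroadcast

variable {V : Type*} [DecidableEq V]

/-- reconstruction ⟹ flow -/
theorem up (T : LocFinTree V) {B : ℕ} (hB : ∀ v, (T.children v).card ≤ B) {lam : ℝ}
    (h0 : 0 < lam) (h1 : lam < 1) {ε : ℝ} (hε : 0 < ε) (h : ∀ n, ε ≤ treeAdvantage 4 T lam n) :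
    ∃ θ : V → ℝ, IsFlow T θ ∧ 0 < flowMass T θ ∧
      ∀ ξ : ℕ → V, T.IsRay ξ → rayPotential lam θ ξ ≤ 1 := by
  obtain ⟨α, η, k₂, hα, -, hη, hk₂, hz⟩ := zz_rec T hB h0 h1
  have hb : ∀ k v, 0 ≤ xx T lam k v ∧ xx T lam k v ≤ cc T lam k v ∧ cc T lam k v ≤ 3 :=
    fun k v => xx_bounds T h0.le h1.le k v
  have hzx : ∀ k v, xx T lam k v ≤ zz T lam α η k v := by
    intro k v
    have h3 : 0 ≤ xx T lam k v + α * (cc T lam k v - xx T lam k v) :=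
      add_nonneg (hb k v).1 (mul_nonneg hα.le (sub_nonneg.2 (hb k v).2.1))
    have h4 : 0 ≤ α * (cc T lam k v - xx T lam k v) :=
      mul_nonneg hα.le (sub_nonneg.2 (hb k v).2.1)
    have h5 : 0 ≤ η * (xx T lam k v + α * (cc T lam k v - xx T lam k v)) ^ 3 := by positivity
    unfold zz zf
    linarith
  refine flow_up (Z := zz T lam α η) h0 (fun k v => (hb k v).1.trans (hzx k v)) hk₂ hz
    (z₀ := 3 * ε ^ 2) (by positivity) (fun n => ?_)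
  refine le_trans ?_ (hzx n T.root)
  -- `ε ≤ tv ≤ (δ + X / δ) / 4` with `δ = ε`
  have h6 := h n
  rw [treeAdvantage_eq] at h6
  have h7 := TV_le (q := 4) (by norm_num) (xp_ok T h0.le h1.le n T.root).isExp ε hε
  have h8 : ε ≤ (ε + xx T lam n T.root / ε) / 4 := h6.trans h7
  have h9 : 3 * ε ≤ xx T lam n T.root / ε := by linarith
  rw [le_div_iff₀ hε] at h9
  nlinarith

/-- flow ⟹ reconstruction -/
theorem low (T : LocFinTree V) {B : ℕ} (hB : ∀ v, (T.children v).card ≤ B) {lam : ℝ}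
    (h0 : 0 < lam) (h1 : lam < 1) {θ : V → ℝ} (hθ : IsFlow T θ) (hm : 0 < flowMass T θ)
    (hr : ∀ ξ : ℕ → V, T.IsRay ξ → rayPotential lam θ ξ ≤ 1) :
    ∃ ε : ℝ, 0 < ε ∧ ∀ n, ε ≤ treeAdvantage 4 T lam n := by
  obtain ⟨C, hC, hdeg⟩ := exists_deg T hB h0.le h1.le
  obtain ⟨t, ht0, ht3, htf, hK, δ, hδ, hy⟩ := flow_low hθ hm h0 h1 hr hC
  refine ⟨δ / 6, by positivity, fun n => ?_⟩
  rw [treeAdvantage_eq]
  obtain ⟨F, hF, hG, hFX, -⟩ := hdeg t ht0 ht3 htf hK n T.root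
  have h2 := hG.X_le (xp_ok T h0.le h1.le n T.root)
  have h3 := X_le_tv (xp_ok T h0.le h1.le n T.root)
  have h4 := hy n
  rw [← hFX] at h4
  linarith

/-- **S0246** -/
theorem main (T : LocFinTree V) {B : ℕ} (hB : ∀ v, (T.children v).card ≤ B) {lam : ℝ}
    (h0 : 0 < lam) (h1 : lam < 1) :
    (∃ ε : ℝ, 0 < ε ∧ ∀ n, ε ≤ treeAdvantage 4 T lam n) ↔
    (∃ θ : V → ℝ, IsFlow T θ ∧ 0 < flowMass T θ ∧
      ∀ ξ : ℕ → V, T.IsRay ξ → rayPotential lam θ ξ ≤ 1) :=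
  ⟨fun ⟨_, hε, h⟩ => up T hB h0 h1 hε h, fun ⟨_, hθ, hm, hr⟩ => low T hB h0 h1 hθ hm hr⟩

end Crest.Agent.R163.Tr
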