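import Crest.Agent.R163.TLevel

/-!
# Row 163, S0246: from the recursion `Z ≤ S - κ S³` to a flow (reconstruction ⟹ flow, last part)

`Z k v ≥ 0` (`k` = number of levels below `v`), `S k v = ∑_{c child of v} λ² Z k c`, `Z (k+1) v ≤ S k v - κ (S k v)³`.
For the horizon `n` the flow is split proportionally to `λ² Z` from the root.
-/

set_option autoImplicit false

namespace Crest.Agent.R163.Tr

open Finset Crest.ProbabilityR.TreeBroadcast

variable {V : Type*} [DecidableEq V]

/-- sum over the children -/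
noncomputable def SS (T : LocFinTree V) (lam : ℝ) (Z : ℕ → V → ℝ) (k : ℕ) (v : V) : ℝ :=
  ∑ c ∈ T.children v, lam ^ 2 * Z k c

/-- flow with horizon `n` (`j` = depth of `v`, total mass one) -/
noncomputable def th (T : LocFinTree V) (lam : ℝ) (Z : ℕ → V → ℝ) (n : ℕ) : ℕ → V → ℝ
  | 0, _ => 1
  | j + 1, v => th T lam Z n j (T.parent v) *
      (lam ^ 2 * Z (n - (j + 1)) v / SS T lam Z (n - (j + 1)) (T.parent v))

variable {T : LocFinTree V} {lam : ℝ} {Z : ℕ → V → ℝ}

theorem SS_nonneg (hZ : ∀ k v, 0 ≤ Z k v) (k : ℕ) (v : V) : 0 ≤ SS T lam Z k v :=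
  Finset.sum_nonneg fun c _ => mul_nonneg (sq_nonneg _) (hZ k c)

theorem th_nonneg (h0 : 0 < lam) (hZ : ∀ k v, 0 ≤ Z k v) (n j : ℕ) (v : V) :
    0 ≤ th T lam Z n j v := by
  induction j generalizing v with
  | zero => exact zero_le_one
  | succ j ih =>
    rw [th]
    exact mul_nonneg (ih _) (div_nonneg (mul_nonneg (sq_nonneg _) (hZ _ _)) (SS_nonneg hZ _ _))

/-- `Z = 0` at `v` (remaining depth `n - j`) implies `th = 0`, for `1 ≤ j` -/
theorem th_eq_zero (n j : ℕ) (hj : 1 ≤ j) (v : V) (h : Z (n - j) v = 0) : th T lam Z n j v = 0 := by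
  obtain ⟨j, rfl⟩ : ∃ i, j = i + 1 := ⟨j - 1, by omega⟩
  rw [th, h, mul_zero, zero_div, mul_zero]

/-- flow equation below the horizon: if `SS = 0` then `Z (n - j) v ≤ 0` by the recursion, so `Z (n-j) v = 0` and (for
`1 ≤ j`) `th v = 0`; for `j = 0`, `v = root`, the assumption `0 < Z n root` is used. -/
theorem th_flow (h0 : 0 < lam) (hZ : ∀ k v, 0 ≤ Z k v) {κ : ℝ} (hκ : 0 < κ)
    (hrec : ∀ k v, Z (k + 1) v ≤ SS T lam Z k v - κ * SS T lam Z k v ^ 3) (n : ℕ)
    (hroot : 0 < Z n T.root) (j : ℕ) (hj : j < n) (v : V) (hv : T.depth v = j) :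
    ∑ c ∈ T.children v, th T lam Z n (j + 1) c = th T lam Z n j v := by
  have h1 : ∑ c ∈ T.children v, th T lam Z n (j + 1) c =
      th T lam Z n j v * (SS T lam Z (n - (j + 1)) v / SS T lam Z (n - (j + 1)) v) := by
    conv_rhs => rw [SS, Finset.sum_div, Finset.mul_sum]
    refine Finset.sum_congr rfl fun c hc => ?_
    rw [th, ((mem_children_iff T v c).1 hc).2, SS]
  rw [h1]
  by_cases hS : SS T lam Z (n - (j + 1)) v = 0
  · have hk : n - j = (n - (j + 1)) + 1 := by omega
    have h2 := hrec (n - (j + 1)) v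
    rw [hS, ← hk] at h2
    have h3 : Z (n - j) v = 0 := le_antisymm (by simpa using h2) (hZ _ _)
    rw [hS, div_zero, mul_zero]
    rcases Nat.eq_zero_or_pos j with hj0 | hj0
    · subst hj0
      have hvr : v = T.root := (T.depth_eq_zero_iff v).1 hv
      subst hvr
      rw [Nat.sub_zero] at h3
      exact absurd h3 hroot.ne'
    · exact (th_eq_zero n j hj0 v h3).symm
  · rw [div_self hS, mul_one]

/-- `th ≤ 1` up to the horizon (flow equation, nonnegativity) -/
theorem th_le_one (h0 : 0 < lam) (hZ : ∀ k v, 0 ≤ Z k v) {κ : ℝ} (hκ : 0 < κ)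
    (hrec : ∀ k v, Z (k + 1) v ≤ SS T lam Z k v - κ * SS T lam Z k v ^ 3) (n : ℕ)
    (hroot : 0 < Z n T.root) (j : ℕ) (hj : j ≤ n) (v : V) (hv : T.depth v = j) :
    th T lam Z n j v ≤ 1 := by
  induction j generalizing v with
  | zero => exact le_refl 1
  | succ j ih =>
    have hne : v ≠ T.root := fun h => by
      have := (T.depth_eq_zero_iff v).2 h
      omega
    have hp := T.depth_parent v hne
    have hmem : v ∈ T.children (T.parent v) := by
      rw [mem_children_iff]
      exact ⟨by omega, rfl⟩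
    have h1 := th_flow h0 hZ hκ hrec n hroot j (by omega) (T.parent v) (by omega)
    have h2 := ih (by omega) (T.parent v) (by omega)
    have h3 : th T lam Z n (j + 1) v ≤ ∑ c ∈ T.children (T.parent v), th T lam Z n (j + 1) c :=
      Finset.single_le_sum (f := fun c => th T lam Z n (j + 1) c)
        (fun c _ => th_nonneg h0 hZ n (j + 1) c) hmem
    linarith

end Crest.Agent.R163.Tr
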