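import Crest.Agent.R163.TFlowUp

/-!
# Row 163, S0246: path potentials of the approximating flows
-/

set_option autoImplicit false

namespace Crest.Agent.R163.Tr

open Finset Crest.ProbabilityR.TreeBroadcast

variable {V : Type*} [DecidableEq V]

variable {T : LocFinTree V} {lam : ℝ} {Z : ℕ → V → ℝ}

private theorem pathB_aux {κ z S : ℝ} (hκ : 0 < κ) (hz : 0 < z) (hS : 0 < S)
    (h : z ≤ S - κ * S ^ 3) : 2 * κ + 1 / S ^ 2 ≤ 1 / z ^ 2 := by
  have hx : 0 < 1 - κ * S ^ 2 := by
    by_contra hc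
    push Not at hc
    have h1 : S - κ * S ^ 3 = S * (1 - κ * S ^ 2) := by ring
    have h2 : S * (1 - κ * S ^ 2) ≤ 0 := mul_nonpos_of_nonneg_of_nonpos hS.le hc
    linarith
  have h1 : z ≤ S * (1 - κ * S ^ 2) := by
    calc z ≤ S - κ * S ^ 3 := h
      _ = S * (1 - κ * S ^ 2) := by ring
  have h2 : z ^ 2 ≤ (S * (1 - κ * S ^ 2)) ^ 2 := by
    apply pow_le_pow_left₀ hz.le h1
  have hS2 : 0 < S ^ 2 := by positivity
  have hz2 : 0 < z ^ 2 := by positivity
  rw [le_div_iff₀ hz2]
  have h3 : (2 * κ + 1 / S ^ 2) = (2 * κ * S ^ 2 + 1) / S ^ 2 := by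
    field_simp
  rw [h3, div_mul_eq_mul_div, div_le_one hS2]
  have h4 : 0 ≤ 2 * κ * S ^ 2 + 1 := by positivity
  calc (2 * κ * S ^ 2 + 1) * z ^ 2 ≤ (2 * κ * S ^ 2 + 1) * (S * (1 - κ * S ^ 2)) ^ 2 :=
        mul_le_mul_of_nonneg_left h2 h4
    _ = S ^ 2 * (1 - (κ * S ^ 2) ^ 2 * (3 - 2 * (κ * S ^ 2))) := by ring
    _ ≤ S ^ 2 * 1 := by
        apply mul_le_mul_of_nonneg_left _ hS2.le
        have h5 : 0 ≤ (κ * S ^ 2) ^ 2 * (3 - 2 * (κ * S ^ 2)) := by
          apply mul_nonneg (sq_nonneg _)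
          linarith
        linarith
    _ = S ^ 2 := mul_one _

/-- Along a path: with `r_j = th(v_j) / (λ^(2j) Z (n-j) v_j)` one has `r_(j+1) = th(v_j) / (λ^(2j) SS)` and
`1/Z² ≥ 1/S² + 2κ` (from `0 < Z ≤ S (1 - κ S²)`), so `r_(j+1)² ≤ r_j² - 2 κ (th(v_j)/λ^(2j))²`; once `th` vanishes it
vanishes further down.  Sum for `j ≤ N < n`. -/
theorem th_path (h0 : 0 < lam) (hZ : ∀ k v, 0 ≤ Z k v) {κ : ℝ} (hκ : 0 < κ)
    (hrec : ∀ k v, Z (k + 1) v ≤ SS T lam Z k v - κ * SS T lam Z k v ^ 3) (n : ℕ)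
    (hroot : 0 < Z n T.root) (ξ : ℕ → V) (hξ : T.IsRay ξ) (N : ℕ) (hN : N ≤ n) :
    2 * κ * ∑ j ∈ range N, (th T lam Z n j (ξ j) / lam ^ (2 * j)) ^ 2 ≤ 1 / Z n T.root ^ 2 := by
  have key : ∀ N : ℕ, N ≤ n →
      2 * κ * ∑ j ∈ range N, (th T lam Z n j (ξ j) / lam ^ (2 * j)) ^ 2 +
        ((th T lam Z n N (ξ N) / lam ^ (2 * N)) / Z (n - N) (ξ N)) ^ 2 ≤ 1 / Z n T.root ^ 2 := by
    intro N
    induction N with
    | zero =>
      intro _
      have h1 : th T lam Z n 0 (ξ 0) = 1 := rfl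
      rw [hξ.1, Finset.range_zero, Finset.sum_empty, mul_zero, zero_add, Nat.sub_zero, mul_zero,
        pow_zero, div_one]
      have h2 : th T lam Z n 0 T.root = 1 := rfl
      rw [h2, one_div, one_div, inv_pow]
    | succ N ih =>
      intro hN
      have ih' := ih (by omega)
      rw [Finset.sum_range_succ, mul_add]
      suffices hstep : 2 * κ * (th T lam Z n N (ξ N) / lam ^ (2 * N)) ^ 2 +
          ((th T lam Z n (N + 1) (ξ (N + 1)) / lam ^ (2 * (N + 1))) / Z (n - (N + 1)) (ξ (N + 1))) ^ 2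
          ≤ ((th T lam Z n N (ξ N) / lam ^ (2 * N)) / Z (n - N) (ξ N)) ^ 2 by
        linarith
      have hpar : T.parent (ξ (N + 1)) = ξ N := ((mem_children_iff T _ _).1 (hξ.2 N)).2
      have hth : th T lam Z n (N + 1) (ξ (N + 1)) = th T lam Z n N (ξ N) *
          (lam ^ 2 * Z (n - (N + 1)) (ξ (N + 1)) / SS T lam Z (n - (N + 1)) (ξ N)) := by
        show th T lam Z n N (T.parent (ξ (N + 1))) *
          (lam ^ 2 * Z (n - (N + 1)) (ξ (N + 1)) / SS T lam Z (n - (N + 1)) (T.parent (ξ (N + 1)))) = _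
        rw [hpar]
      set t := th T lam Z n N (ξ N) with ht
      set S := SS T lam Z (n - (N + 1)) (ξ N) with hSdef
      set z' := Z (n - (N + 1)) (ξ (N + 1)) with hz'
      set z := Z (n - N) (ξ N) with hzdef
      rw [hth]
      by_cases ht0 : t = 0
      · simp [ht0]
      · have hzpos : 0 < z := by
          rcases Nat.eq_zero_or_pos N with h | h
          · subst h
            rw [hzdef, hξ.1]
            exact hroot
          · refine lt_of_le_of_ne (hZ _ _) (fun h' => ht0 ?_)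
            exact th_eq_zero n N h (ξ N) h'.symm
        have hr : z ≤ S - κ * S ^ 3 := by
          have h1 := hrec (n - (N + 1)) (ξ N)
          have h2 : n - (N + 1) + 1 = n - N := by omega
          rw [h2] at h1
          exact h1
        have hS0 : 0 ≤ S := by
          rw [hSdef]
          unfold SS
          exact Finset.sum_nonneg fun c _ => mul_nonneg (by positivity) (hZ _ _)
        have hSpos : 0 < S := by
          refine lt_of_le_of_ne hS0 (fun h' => ?_)
          rw [← h'] at hr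
          have : z ≤ 0 := by simpa using hr
          linarith
        have hb := pathB_aux hκ hzpos hSpos hr
        set u := t / lam ^ (2 * N) with hu
        have h1 : ((t * (lam ^ 2 * z' / S) / lam ^ (2 * (N + 1))) / z') ^ 2 ≤ u ^ 2 * (1 / S ^ 2) := by
          by_cases hz0 : z' = 0
          · rw [hz0]
            simp only [div_zero]
            have : 0 ≤ u ^ 2 * (1 / S ^ 2) := by positivity
            simpa using this
          · have : (t * (lam ^ 2 * z' / S) / lam ^ (2 * (N + 1))) / z' = u * (1 / S) := by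
              rw [hu, show 2 * (N + 1) = 2 * N + 2 by ring, pow_add]
              field_simp
            rw [this]
            apply le_of_eq
            ring
        calc 2 * κ * u ^ 2 + ((t * (lam ^ 2 * z' / S) / lam ^ (2 * (N + 1))) / z') ^ 2
            ≤ 2 * κ * u ^ 2 + u ^ 2 * (1 / S ^ 2) := by linarith
          _ = u ^ 2 * (2 * κ + 1 / S ^ 2) := by ring
          _ ≤ u ^ 2 * (1 / z ^ 2) := mul_le_mul_of_nonneg_left hb (sq_nonneg _)
          _ = (u / z) ^ 2 := by ring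
  have h := key N hN
  have h2 : 0 ≤ ((th T lam Z n N (ξ N) / lam ^ (2 * N)) / Z (n - N) (ξ N)) ^ 2 := sq_nonneg _
  linarith

end Crest.Agent.R163.Tr
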