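import Crest.Agent.R163.T0

/-!
# Row 163, S0246: functionals of channels, erasures, permutations of products

(`q = 4`; pointwise functionals `fX, fk, fTV` of Defs.lean; `uv_ch`, `mass_ch` of BasicB.lean)
-/

set_option autoImplicit false
set_option linter.unusedVariables false
set_option linter.unusedSimpArgs false

namespace Crest.Agent.R163.Tr

open Finset

theorem X_nonneg' {E : Xp} (h : E.Ok) : 0 ≤ E.X :=
  tsum_nonneg fun i => fX_nonneg _ (h.isExp.nonneg i)

theorem X_le_three {E : Xp} (h : E.Ok) : E.X ≤ 3 := by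
  have h1 : E.X ≤ ∑' i, 3 * mass (E.w i) := by
    refine (h.isExp.summable (by norm_num) (mbdd_fX (by norm_num))).tsum_le_tsum
      (fun i => ?_) ((h.isExp.hasSum_mass (by norm_num)).summable.mul_left 3)
    have h2 := fX_le (by norm_num) (E.w i) (h.isExp.nonneg i)
    norm_num at h2
    exact h2
  rw [tsum_mul_left, (h.isExp.hasSum_mass (by norm_num)).tsum_eq] at h1
  linarith

theorem X_triv : Xp.triv.X = 0 := by
  show ∑' i : Unit, fX (trivE 4 i) = 0
  rw [tsum_fintype]
  simp [fX, m2, uv, mass, trivE, Fin.sum_univ_four]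

theorem kap_triv : Xp.triv.kap = 0 := by
  show ∑' i : Unit, fk (trivE 4 i) = 0
  rw [tsum_fintype]
  simp [fk, m3, uv, mass, trivE, Fin.sum_univ_four]

/-- every posterior is a point mass: `u = (3, -1, -1, -1)`, mass `1/4` -/
theorem X_perf : Xp.perf.X = 3 := by
  show ∑' i : Fin 4, fX (perfect 4 i) = 3
  rw [tsum_fintype]
  simp [fX, m2, uv, mass, perfect, Fin.sum_univ_four]
  norm_num

theorem kap_perf : Xp.perf.kap = 6 := by
  show ∑' i : Fin 4, fk (perfect 4 i) = 6
  rw [tsum_fintype]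
  simp [fk, m3, uv, mass, perfect, Fin.sum_univ_four]
  norm_num

/-- `uv (ch β w i) = β * uv (w i)`, `mass (ch β w i) = mass (w i)` -/
theorem X_ch {E : Xp} (h : E.Ok) (β : ℝ) : (E.ch β).X = β ^ 2 * E.X := by
  show ∑' i : E.ι, fX (R163.ch β E.w i) = β ^ 2 * ∑' i, fX (E.w i)
  rw [← tsum_mul_left]
  refine tsum_congr fun i => ?_
  unfold fX
  rw [mass_ch (by norm_num)]
  by_cases h0 : mass (E.w i) = 0
  · rw [h0]; ring
  · unfold m2
    rw [Finset.sum_congr rfl fun a _ => by rw [uv_ch (by norm_num) β E.w i h0 a, mul_pow],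
      ← Finset.mul_sum]
    ring

theorem kap_ch {E : Xp} (h : E.Ok) (β : ℝ) : (E.ch β).kap = β ^ 3 * E.kap := by
  show ∑' i : E.ι, fk (R163.ch β E.w i) = β ^ 3 * ∑' i, fk (E.w i)
  rw [← tsum_mul_left]
  refine tsum_congr fun i => ?_
  unfold fk
  rw [mass_ch (by norm_num)]
  by_cases h0 : mass (E.w i) = 0
  · rw [h0]; ring
  · unfold m3
    rw [Finset.sum_congr rfl fun a _ => by rw [uv_ch (by norm_num) β E.w i h0 a, mul_pow],
      ← Finset.mul_sum]
    ring

/-- `|uv v a| ≤ 3` for a likelihood vector, so `<u^2> ≤ 3 <|u|>`, i.e. `fX v ≤ 6 * fTV v` -/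
theorem X_le_tv {E : Xp} (h : E.Ok) : E.X ≤ 6 * E.tv := by
  show ∑' i, fX (E.w i) ≤ 6 * ∑' i, fTV (E.w i)
  rw [← tsum_mul_left]
  refine (h.isExp.summable (by norm_num) (mbdd_fX (by norm_num))).tsum_le_tsum
    (fun i => ?_) ((h.isExp.summable (by norm_num) (mbdd_fTV (by norm_num))).mul_left 6)
  have hv := h.isExp.nonneg i
  obtain ⟨v, hvd⟩ : ∃ v, v = E.w i := ⟨_, rfl⟩
  rw [← hvd] at hv ⊢
  have hm0 : 0 ≤ mass v := mass_nonneg v hv
  by_cases h0 : mass v = 0
  · have h1 : fX v = 0 := by unfold fX; rw [h0, zero_mul]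
    have h2 : 0 ≤ fTV v := by unfold fTV; positivity
    rw [h1]; linarith
  · have hm : 0 < mass v := lt_of_le_of_ne hm0 (Ne.symm h0)
    have h1 : ∀ a, mass v * uv v a ^ 2 ≤ 3 * |v a - mass v| := by
      intro a
      have h2 : v a - mass v = mass v * uv v a := by
        have := eq_mass_mul (by norm_num) v hv a
        linarith
      have h3 : |uv v a| ≤ 3 := by
        have h4 := uv_le (by norm_num) v hv a
        have h5 := neg_one_le_uv v hv a
        norm_num at h4
        rw [abs_le]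
        constructor <;> linarith
      rw [h2, abs_mul, abs_of_pos hm, ← sq_abs (uv v a)]
      have h6 : 0 ≤ |uv v a| := abs_nonneg _
      nlinarith [mul_nonneg hm0 (mul_nonneg h6 (sub_nonneg.2 h3))]
    unfold fX fTV m2
    rw [Finset.mul_sum, Finset.mul_sum, Finset.mul_sum, Finset.mul_sum]
    refine Finset.sum_le_sum fun a _ => ?_
    have := h1 a
    push_cast
    nlinarith [this]

end Crest.Agent.R163.Tr
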