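import Crest.Agent.R163.T0

/-!
# Row 163, S0246: erasures, permutations of products
-/

set_option autoImplicit false

namespace Crest.Agent.R163.Tr

open Finset

theorem Xp.Ok.er {E : Xp} (h : E.Ok) {β : ℝ} (h0 : 0 ≤ β) (h1 : β ≤ 1) : (E.er β).Ok := by
  refine ⟨⟨?_, ?_⟩, ?_⟩
  · rintro (_ | i) a
    · change 0 ≤ 1 - β
      linarith
    · change 0 ≤ β * E.w i a
      exact mul_nonneg h0 (h.isExp.nonneg i a)
  · intro a
    have h2 : ∑ i, E.w i a = 1 := (hasSum_fintype _).unique (h.isExp.hasSum a)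
    have h3 : ∑ i : Option E.ι, Xp.erW β E.w i a = 1 := by
      rw [Fintype.sum_option]
      change (1 - β) + ∑ i, β * E.w i a = 1
      rw [← Finset.mul_sum, h2]
      ring
    have h4 := hasSum_fintype (fun i : Option E.ι => Xp.erW β E.w i a)
    rw [h3] at h4
    exact h4
  · intro σ
    obtain ⟨e, he⟩ := h.isSymm σ
    refine ⟨Equiv.optionCongr e, ?_⟩
    rintro (_ | i) a
    · rfl
    · change β * E.w (e i) a = β * E.w i (σ a)
      rw [he]

theorem mass_const (c : ℝ) : mass (fun _ : Fin 4 => c) = c := by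
  unfold mass
  simp

theorem fX_const (c : ℝ) : fX (fun _ : Fin 4 => c) = 0 := by
  unfold fX
  rw [mass_const]
  by_cases hc : c = 0
  · rw [hc, zero_mul]
  · have : uv (fun _ : Fin 4 => c) = fun _ => 0 := by
      funext a
      unfold uv
      rw [mass_const, div_self hc, sub_self]
    rw [this]
    unfold m2
    simp

theorem fk_const (c : ℝ) : fk (fun _ : Fin 4 => c) = 0 := by
  unfold fk
  rw [mass_const]
  by_cases hc : c = 0
  · rw [hc, zero_mul]
  · have : uv (fun _ : Fin 4 => c) = fun _ => 0 := by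
      funext a
      unfold uv
      rw [mass_const, div_self hc, sub_self]
    rw [this]
    unfold m3
    simp

theorem Ex_er {E : Xp} (h : E.Ok) {β : ℝ} (h0 : 0 ≤ β) {F : (Fin 4 → ℝ) → ℝ} (hF : Homog F)
    (hc : ∀ c : ℝ, F (fun _ => c) = 0) : Ex F (E.er β).w = β * Ex F E.w := by
  unfold Ex
  change ∑' i : Option E.ι, F (Xp.erW β E.w i) = β * ∑' i : E.ι, F (E.w i)
  rw [tsum_fintype, tsum_fintype, Fintype.sum_option, Finset.mul_sum]
  have h1 : F (Xp.erW β E.w none) = 0 := hc _
  rw [h1, zero_add]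
  refine Finset.sum_congr rfl (fun i _ => ?_)
  exact hF β (E.w i) h0 (h.isExp.nonneg i)

/-- `fX` is homogeneous and vanishes on constant vectors -/
theorem X_er {E : Xp} (h : E.Ok) {β : ℝ} (h0 : 0 ≤ β) (h1 : β ≤ 1) : (E.er β).X = β * E.X :=
  Ex_er h h0 homog_fX fX_const

theorem kap_er {E : Xp} (h : E.Ok) {β : ℝ} (h0 : 0 ≤ β) (h1 : β ≤ 1) :
    (E.er β).kap = β * E.kap :=
  Ex_er h h0 (homog_of m3) fk_const

theorem Ex_prod_perm_aux {l l' : List Xp} (h : l.Perm l') (F : (Fin 4 → ℝ) → ℝ) :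
    ∀ u : Fin 4 → ℝ, ∑ i, F (fun a => u a * (Xp.prod l).w i a) =
      ∑ i, F (fun a => u a * (Xp.prod l').w i a) := by
  induction h with
  | nil => intro u; rfl
  | @cons E l₁ l₂ _ ih =>
    intro u
    change ∑ p : E.ι × (Xp.prod l₁).ι, F (fun a => u a * (E.w p.1 a * (Xp.prod l₁).w p.2 a)) =
      ∑ p : E.ι × (Xp.prod l₂).ι, F (fun a => u a * (E.w p.1 a * (Xp.prod l₂).w p.2 a))
    rw [Fintype.sum_prod_type, Fintype.sum_prod_type]
    refine Finset.sum_congr rfl (fun i _ => ?_)
    have := ih (fun a => u a * E.w i a)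
    simpa only [mul_assoc] using this
  | swap E E' l =>
    intro u
    change ∑ p : E'.ι × (E.ι × (Xp.prod l).ι),
        F (fun a => u a * (E'.w p.1 a * (E.w p.2.1 a * (Xp.prod l).w p.2.2 a))) =
      ∑ p : E.ι × (E'.ι × (Xp.prod l).ι),
        F (fun a => u a * (E.w p.1 a * (E'.w p.2.1 a * (Xp.prod l).w p.2.2 a)))
    simp only [Fintype.sum_prod_type]
    rw [Finset.sum_comm]
    refine Finset.sum_congr rfl (fun i _ => ?_)
    refine Finset.sum_congr rfl (fun j _ => ?_)
    refine Finset.sum_congr rfl (fun m _ => ?_)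
    congr 1
    funext a
    ring
  | trans _ _ ih1 ih2 =>
    intro u
    rw [ih1 u, ih2 u]

/-- any functional of a product of experiments does not depend on their order (`tsum_fintype`, `Fintype.sum_prod_type`,
`Finset.sum_comm`; state it first with a multiplicative parameter: `∑_i F (fun a => u a * (prod l).w i a)`) -/
theorem Ex_prod_perm {l l' : List Xp} (h : l.Perm l') (F : (Fin 4 → ℝ) → ℝ) :
    Ex F (Xp.prod l).w = Ex F (Xp.prod l').w := by
  have h1 := Ex_prod_perm_aux h F (fun _ => 1)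
  simp only [one_mul] at h1
  unfold Ex
  rw [tsum_fintype, tsum_fintype]
  exact h1

end Crest.Agent.R163.Tr
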