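import Crest.Agent.R163.TLevel

/-!
# Row 163, S0246: the level law is the likelihood
-/

set_option autoImplicit false

namespace Crest.Agent.R163.Tr

open Finset Crest.ProbabilityR.TreeBroadcast Crest.ProbabilityR.Broadcast

variable {V : Type*} [DecidableEq V]

/-- backward recursion with arbitrary terminal weights `g` -/
noncomputable def lkg (T : LocFinTree V) (lam : ℝ) (g : V → Fin 4 → ℝ) : ℕ → V → Fin 4 → ℝ
  | 0, v, a => g v a
  | k + 1, v, a => ∏ c ∈ T.children v, ∑ b, channel 4 lam a b * lkg T lam g k c b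

theorem lkg_step (T : LocFinTree V) (lam : ℝ) (g : V → Fin 4 → ℝ) (n : ℕ) (v : V) (a : Fin 4) :
    lkg T lam (fun u a => lkg T lam g 1 u a) n v a = lkg T lam g (n + 1) v a := by
  induction n generalizing v a with
  | zero => rfl
  | succ n ih =>
    rw [lkg, lkg]
    exact Finset.prod_congr rfl fun c _ => Finset.sum_congr rfl fun b _ => by rw [ih]

/-- the product over level `n + 1`, regrouped by the parents -/
theorem prod_level_regroup (T : LocFinTree V) (n : ℕ) (H : Fin 4 → V → ℝ) (τ' : T.level n → Fin 4)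
    (hp : ∀ v : T.level (n + 1), T.parent v.1 ∈ T.level n) :
    ∏ v : T.level (n + 1), H (τ' ⟨T.parent v.1, hp v⟩) v =
      ∏ u : T.level n, ∏ c ∈ T.children u, H (τ' u) c := by
  classical
  let F : V → ℝ := fun c => if h : T.parent c ∈ T.level n then H (τ' ⟨T.parent c, h⟩) c else 0
  have h1 : ∏ v : T.level (n + 1), H (τ' ⟨T.parent v.1, hp v⟩) v = ∏ v : T.level (n + 1), F v := by
    refine Finset.prod_congr rfl fun v _ => ?_
    simp only [F, dif_pos (hp v)]
  have h2 : ∏ v : T.level (n + 1), F v = ∏ c ∈ T.level (n + 1), F c := Finset.prod_coe_sort _ _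
  have h3 : ∏ u ∈ T.level n, ∏ c ∈ T.children u, F c =
      ∏ u : T.level n, ∏ c ∈ T.children u, F c :=
    (Finset.prod_coe_sort (T.level n) (fun u => ∏ c ∈ T.children u, F c)).symm
  rw [h1, h2, prod_level_succ, h3]
  refine Finset.prod_congr rfl fun u _ => Finset.prod_congr rfl fun c hc => ?_
  have hpc : T.parent c = u := ((mem_children_iff T u c).1 hc).2
  have hm : T.parent c ∈ T.level n := by rw [hpc]; exact u.2
  have he : (⟨T.parent c, hm⟩ : T.level n) = u := Subtype.ext hpc
  simp only [F, dif_pos hm, he]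

/-- Induction on `n` (for all `g`).  `n = 0`: `level 0 = {root}`, exactly one function `τ` has
`τ root = i`.  `n + 1`: exchange the sums; `∑_τ ∏_{v} channel (τ' (parent v)) (τ v) * g v (τ v)
= ∏_v ∑_b channel (τ' (parent v)) b * g v b` (`Finset.prod_univ_sum` / `Fintype.piFinset`), regroup the
product by the parents (as in `prod_level_succ`), this is `∏_{u ∈ level n} g' u (τ' u)` with
`g' u a = lkg g 1 u a`; and `lkg g' n = lkg g (n+1)` (induction). -/
theorem sum_levelLaw (T : LocFinTree V) (lam : ℝ) (n : ℕ) (i : Fin 4) (g : V → Fin 4 → ℝ) :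
    ∑ τ : T.level n → Fin 4, levelLaw 4 T lam n i τ * ∏ v : T.level n, g v (τ v) =
      lkg T lam g n T.root i := by
  classical
  induction n generalizing g with
  | zero =>
    have hr : T.root ∈ T.level 0 := (T.mem_level_iff 0 T.root).2 ((T.depth_eq_zero_iff T.root).2 rfl)
    have hu : ∀ v : T.level 0, v = ⟨T.root, hr⟩ := fun v =>
      Subtype.ext ((T.depth_eq_zero_iff v.1).1 ((T.mem_level_iff 0 v.1).1 v.2))
    rw [Finset.sum_eq_single (fun _ => i)]
    · have h1 : levelLaw 4 T lam 0 i (fun _ => i) = 1 := by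
        rw [levelLaw, if_pos rfl]
      rw [h1, one_mul, Finset.prod_eq_single (⟨T.root, hr⟩ : T.level 0)]
      · rfl
      · exact fun v _ hv => absurd (hu v) hv
      · exact fun h => absurd (Finset.mem_univ _) h
    · intro τ _ hτ
      have h1 : levelLaw 4 T lam 0 i τ = 0 := by
        rw [levelLaw, if_neg]
        intro h
        exact hτ (funext fun v => by rw [hu v]; exact h)
      rw [h1, zero_mul]
    · exact fun h => absurd (Finset.mem_univ _) h
  | succ n ih =>
    have hp : ∀ v : T.level (n + 1), T.parent v.1 ∈ T.level n := by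
      intro v
      have hd : T.depth v = n + 1 := (T.mem_level_iff _ _).1 v.2
      have hne : v.1 ≠ T.root := fun h => by
        have := (T.depth_eq_zero_iff v).2 h; omega
      have := T.depth_parent v hne
      exact (T.mem_level_iff _ _).2 (by omega)
    have h1 : ∀ τ : T.level (n + 1) → Fin 4, levelLaw 4 T lam (n + 1) i τ =
        ∑ τ' : T.level n → Fin 4, levelLaw 4 T lam n i τ' *
          ∏ v : T.level (n + 1), channel 4 lam (τ' ⟨T.parent v.1, hp v⟩) (τ v) := fun τ => by
      rw [levelLaw]
    simp only [h1, Finset.sum_mul]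
    rw [Finset.sum_comm, ← lkg_step, ← ih]
    refine Finset.sum_congr rfl fun τ' _ => ?_
    simp only [mul_assoc, ← Finset.mul_sum, ← Finset.prod_mul_distrib]
    congr 1
    have h2 : ∑ τ : T.level (n + 1) → Fin 4, ∏ v : T.level (n + 1),
        channel 4 lam (τ' ⟨T.parent v.1, hp v⟩) (τ v) * g v (τ v) =
        ∏ v : T.level (n + 1), ∑ b : Fin 4, channel 4 lam (τ' ⟨T.parent v.1, hp v⟩) b * g v b := by
      rw [Finset.prod_univ_sum]
      rw [Fintype.piFinset_univ]
    rw [h2]
    exact prod_level_regroup T n (fun a v => ∑ b : Fin 4, channel 4 lam a b * g v b) τ' hp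

theorem lkg_ind (T : LocFinTree V) (lam : ℝ) (τ : V → Fin 4) (n : ℕ) (v : V) (a : Fin 4) :
    lkg T lam (fun v b => if τ v = b then 1 else 0) n v a = lk T lam n v τ a := by
  induction n generalizing v a with
  | zero => rfl
  | succ n ih =>
    rw [lkg, lk]
    exact Finset.prod_congr rfl fun c _ => Finset.sum_congr rfl fun b _ => by rw [ih]

/-- the level law is the likelihood: `sum_levelLaw` with `g v b = if τ v = b then 1 else 0` -/
theorem levelLaw_eq (T : LocFinTree V) (lam : ℝ) (n : ℕ) (i : Fin 4) (τ : V → Fin 4) :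
    levelLaw 4 T lam n i (fun v : T.level n => τ v) = lk T lam n T.root τ i := by
  classical
  rw [← lkg_ind, ← sum_levelLaw, Finset.sum_eq_single (fun v : T.level n => τ v)]
  · simp
  · intro σ _ hσ
    obtain ⟨v, hv⟩ := Function.ne_iff.1 hσ
    rw [Finset.prod_eq_zero (Finset.mem_univ v), mul_zero]
    exact if_neg fun h => hv h.symm
  · exact fun h => absurd (Finset.mem_univ _) h

end Crest.Agent.R163.Tr
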