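import Crest.Agent.R163.T0

/-!
# Row 163, S0246: levels of the tree and the level law
-/

set_option autoImplicit false

namespace Crest.Agent.R163.Tr

open Finset Crest.ProbabilityR.TreeBroadcast Crest.ProbabilityR.Broadcast

variable {V : Type*} [DecidableEq V]

theorem mem_children_iff (T : LocFinTree V) (v c : V) :
    c ∈ T.children v ↔ T.depth c = T.depth v + 1 ∧ T.parent c = v := by
  unfold LocFinTree.children
  rw [Finset.mem_filter, T.mem_level_iff]

/-- level `n + 1` is the disjoint union of the sets of children of the vertices of level `n` -/
theorem level_succ (T : LocFinTree V) (n : ℕ) :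
    T.level (n + 1) = (T.level n).biUnion fun v => T.children v := by
  ext c
  rw [Finset.mem_biUnion, T.mem_level_iff]
  constructor
  · intro h
    have hne : c ≠ T.root := fun h' => by
      have := (T.depth_eq_zero_iff c).2 h'
      omega
    have := T.depth_parent c hne
    exact ⟨T.parent c, (T.mem_level_iff _ _).2 (by omega),
      (mem_children_iff T _ _).2 ⟨by omega, rfl⟩⟩
  · rintro ⟨v, hv, hc⟩
    rw [T.mem_level_iff] at hv
    have := ((mem_children_iff T _ _).1 hc).1
    omega

theorem children_disjoint (T : LocFinTree V) {v w : V} (h : v ≠ w) :
    Disjoint (T.children v) (T.children w) := by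
  rw [Finset.disjoint_left]
  intro c h1 h2
  exact h (((mem_children_iff T _ _).1 h1).2.symm.trans ((mem_children_iff T _ _).1 h2).2)

/-- sums over level `n + 1` -/
theorem sum_level_succ (T : LocFinTree V) (n : ℕ) (f : V → ℝ) :
    ∑ c ∈ T.level (n + 1), f c = ∑ v ∈ T.level n, ∑ c ∈ T.children v, f c := by
  rw [level_succ, Finset.sum_biUnion]
  intro v _ w _ hvw
  exact children_disjoint T hvw

theorem prod_level_succ (T : LocFinTree V) (n : ℕ) (f : V → ℝ) :
    ∏ c ∈ T.level (n + 1), f c = ∏ v ∈ T.level n, ∏ c ∈ T.children v, f c := by
  rw [level_succ, Finset.prod_biUnion]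
  intro v _ w _ hvw
  exact children_disjoint T hvw

private theorem desc_succ' (T : LocFinTree V) (k : ℕ) (v : V) :
    desc T (k + 1) v = (desc T k v).biUnion fun c => T.children c := by
  induction k generalizing v with
  | zero =>
    show (T.children v).biUnion (fun c => {c}) = ({v} : Finset V).biUnion fun c => T.children c
    rw [Finset.singleton_biUnion, Finset.biUnion_singleton_eq_self]
  | succ k ih =>
    show (T.children v).biUnion (fun c => desc T (k + 1) c) =
      ((T.children v).biUnion fun c => desc T k c).biUnion fun c => T.children c
    rw [Finset.biUnion_biUnion]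
    exact Finset.biUnion_congr rfl fun c _ => ih c

/-- `desc T n root = level n` (first: `desc T (n+1) v = (desc T n v).biUnion children` by induction) -/
theorem desc_root (T : LocFinTree V) (n : ℕ) : desc T n T.root = T.level n := by
  induction n with
  | zero =>
    show {T.root} = T.level 0
    ext v
    rw [Finset.mem_singleton, T.mem_level_iff, T.depth_eq_zero_iff]
  | succ n ih => rw [desc_succ', ih, level_succ]

theorem depth_of_mem_desc (T : LocFinTree V) (k : ℕ) (v w : V) (h : w ∈ desc T k v) :
    T.depth w = T.depth v + k := by
  induction k generalizing v with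
  | zero =>
    rw [show desc T 0 v = {v} from rfl, Finset.mem_singleton] at h
    rw [h]
    rfl
  | succ k ih =>
    rw [show desc T (k + 1) v = (T.children v).biUnion fun c => desc T k c from rfl,
      Finset.mem_biUnion] at h
    obtain ⟨c, hc, hw⟩ := h
    have h1 := ih c hw
    have h2 := ((mem_children_iff T _ _).1 hc).1
    omega

/-- for different children `c, c'` of one vertex (more generally: different vertices of the same depth) -/
theorem desc_disjoint (T : LocFinTree V) (k : ℕ) {c c' : V} (h : c ≠ c') (hd : T.depth c = T.depth c') :
    Disjoint (desc T k c) (desc T k c') := by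
  induction k generalizing c c' with
  | zero =>
    show Disjoint ({c} : Finset V) {c'}
    rw [Finset.disjoint_singleton]
    exact h
  | succ k ih =>
    show Disjoint ((T.children c).biUnion fun c => desc T k c)
      ((T.children c').biUnion fun c => desc T k c)
    rw [Finset.disjoint_biUnion_left]
    intro d hd1
    rw [Finset.disjoint_biUnion_right]
    intro d' hd2
    have h1 := (mem_children_iff T _ _).1 hd1
    have h2 := (mem_children_iff T _ _).1 hd2
    apply ih
    · rintro rfl
      exact h (h1.2.symm.trans h2.2)
    · omega

end Crest.Agent.R163.Tr
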