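import Crest.Agent.R163.T0
import Crest.Agent.R163.KMul

/-!
# Row 163, S0246: local inequalities for the product of two experiments (q = 4)

Notation: for a pair of likelihood vectors `v, w` with masses `m, m'` and `a = uv v`, `b = uv w`
(`∑ a = ∑ b = 0`, `-1 ≤ a, b ≤ 3`), `<f> = (1/4) ∑ f`, `s = <a b>`, `1 + s ≥ 0`; expectation over the product law
of `(a, b)`, weights `m m'` (`Ex_mul` of BasicC.lean; everything is a finite sum, `tsum_fintype`).
`E m a_i = 0` (`IsExp.hasSum_mass_uv`).  By symmetry (`Ex_perm` of KMul.lean) `E a_i a_j = x (4 δ_ij - 1) / 3`,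
`E a_i a_j^2 = κ (4 δ_ij - 1) / 3`, `E a_i a_j a_k = κ / 3` for different `i, j, k`  (`x = E<a^2>`, `κ = E<a^3>`).
-/

set_option autoImplicit false

namespace Crest.Agent.R163.Tr

open Finset

/-- table of the twelve even permutations -/
private def tb : Fin 12 → Fin 4 → Fin 4 :=
  ![![0, 1, 2, 3], ![1, 0, 3, 2], ![2, 3, 0, 1], ![3, 2, 1, 0], ![0, 2, 3, 1], ![0, 3, 1, 2],
    ![2, 1, 3, 0], ![3, 1, 0, 2], ![1, 3, 2, 0], ![3, 0, 2, 1], ![1, 2, 0, 3], ![2, 0, 1, 3]]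

private theorem tb_bij (l : Fin 12) : Function.Bijective (tb l) := by
  revert l; decide

private noncomputable def tpm (l : Fin 12) : Equiv.Perm (Fin 4) :=
  Equiv.ofBijective (tb l) (tb_bij l)

private theorem tpm_apply (l : Fin 12) (i : Fin 4) : tpm l i = tb l i := rfl

/-- the polynomial lower bound -/
private noncomputable def gg (a b : Fin 4 → ℝ) : ℝ :=
  ((1 / 4) * ∑ i, (1 + a i) ^ 2 * (1 + b i) ^ 2 - ((1 / 4) * ∑ i, (1 + a i) * (1 + b i)) ^ 2) *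
    (2 - (1 / 4) * ∑ i, (1 + a i) * (1 + b i))

private noncomputable def gp (a0 a1 a2 a3 b0 b1 b2 b3 : ℝ) : ℝ :=
  ((1 / 4) * ((1 + a0) ^ 2 * (1 + b0) ^ 2 + (1 + a1) ^ 2 * (1 + b1) ^ 2 +
      (1 + a2) ^ 2 * (1 + b2) ^ 2 + (1 + a3) ^ 2 * (1 + b3) ^ 2) -
    ((1 / 4) * ((1 + a0) * (1 + b0) + (1 + a1) * (1 + b1) + (1 + a2) * (1 + b2) +
      (1 + a3) * (1 + b3))) ^ 2) *
    (2 - (1 / 4) * ((1 + a0) * (1 + b0) + (1 + a1) * (1 + b1) + (1 + a2) * (1 + b2) +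
      (1 + a3) * (1 + b3)))

private theorem gg_eq (a b : Fin 4 → ℝ) :
    gg a b = gp (a 0) (a 1) (a 2) (a 3) (b 0) (b 1) (b 2) (b 3) := by
  unfold gg gp
  rw [Fin.sum_univ_four, Fin.sum_univ_four]

private theorem sum12 (f : Fin 12 → ℝ) : ∑ l, f l =
    f 0 + f 1 + f 2 + f 3 + f 4 + f 5 + f 6 + f 7 + f 8 + f 9 + f 10 + f 11 := by
  simp only [Fin.sum_univ_succ, Fin.sum_univ_zero]
  have h : ∀ x0 x1 x2 x3 x4 x5 x6 x7 x8 x9 x10 x11 : ℝ,
    x0 + (x1 + (x2 + (x3 + (x4 + (x5 + (x6 + (x7 + (x8 + (x9 + (x10 + (x11 + 0))))))))))) =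
    x0 + x1 + x2 + x3 + x4 + x5 + x6 + x7 + x8 + x9 + x10 + x11 := by intros; ring
  exact h _ _ _ _ _ _ _ _ _ _ _ _

set_option maxHeartbeats 4000000 in
private theorem gp_sum (a0 a1 a2 b0 b1 b2 : ℝ) :
    gp a0 a1 a2 (-(a0 + a1 + a2)) b0 b1 b2 (-(b0 + b1 + b2)) +
      gp a0 a1 a2 (-(a0 + a1 + a2)) b1 b0 (-(b0 + b1 + b2)) b2 +
      gp a0 a1 a2 (-(a0 + a1 + a2)) b2 (-(b0 + b1 + b2)) b0 b1 +
      gp a0 a1 a2 (-(a0 + a1 + a2)) (-(b0 + b1 + b2)) b2 b1 b0 +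
      gp a0 a1 a2 (-(a0 + a1 + a2)) b0 b2 (-(b0 + b1 + b2)) b1 +
      gp a0 a1 a2 (-(a0 + a1 + a2)) b0 (-(b0 + b1 + b2)) b1 b2 +
      gp a0 a1 a2 (-(a0 + a1 + a2)) b2 b1 (-(b0 + b1 + b2)) b0 +
      gp a0 a1 a2 (-(a0 + a1 + a2)) (-(b0 + b1 + b2)) b1 b0 b2 +
      gp a0 a1 a2 (-(a0 + a1 + a2)) b1 (-(b0 + b1 + b2)) b2 b0 +
      gp a0 a1 a2 (-(a0 + a1 + a2)) (-(b0 + b1 + b2)) b0 b2 b1 +
      gp a0 a1 a2 (-(a0 + a1 + a2)) b1 b2 b0 (-(b0 + b1 + b2)) +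
      gp a0 a1 a2 (-(a0 + a1 + a2)) b2 b0 b1 (-(b0 + b1 + b2)) =
    12 * ((1 / 4) * (a0 ^ 2 + a1 ^ 2 + a2 ^ 2 + (a0 + a1 + a2) ^ 2) +
      (1 / 4) * (b0 ^ 2 + b1 ^ 2 + b2 ^ 2 + (b0 + b1 + b2) ^ 2) -
      2 / 3 * (((1 / 4) * (a0 ^ 3 + a1 ^ 3 + a2 ^ 3 - (a0 + a1 + a2) ^ 3)) *
          ((1 / 4) * (b0 ^ 2 + b1 ^ 2 + b2 ^ 2 + (b0 + b1 + b2) ^ 2)) +
        ((1 / 4) * (a0 ^ 2 + a1 ^ 2 + a2 ^ 2 + (a0 + a1 + a2) ^ 2)) *
          ((1 / 4) * (b0 ^ 3 + b1 ^ 3 + b2 ^ 3 - (b0 + b1 + b2) ^ 3))) -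
      ((1 / 4) * (a0 ^ 3 + a1 ^ 3 + a2 ^ 3 - (a0 + a1 + a2) ^ 3)) *
        ((1 / 4) * (b0 ^ 3 + b1 ^ 3 + b2 ^ 3 - (b0 + b1 + b2) ^ 3)) / 6) := by
  unfold gp
  ring

private theorem sum_gg (a b : Fin 4 → ℝ) (ha : ∑ i, a i = 0) (hb : ∑ i, b i = 0) :
    ∑ l : Fin 12, gg a (fun i => b (tb l i)) =
      12 * (m2 a + m2 b - 2 / 3 * (m3 a * m2 b + m2 a * m3 b) - m3 a * m3 b / 6) := by
  rw [Fin.sum_univ_four] at ha hb
  have ha3 : a 3 = -(a 0 + a 1 + a 2) := by linarith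
  have hb3 : b 3 = -(b 0 + b 1 + b 2) := by linarith
  rw [sum12]
  simp only [gg_eq]
  change gp (a 0) (a 1) (a 2) (a 3) (b 0) (b 1) (b 2) (b 3) +
      gp (a 0) (a 1) (a 2) (a 3) (b 1) (b 0) (b 3) (b 2) +
      gp (a 0) (a 1) (a 2) (a 3) (b 2) (b 3) (b 0) (b 1) +
      gp (a 0) (a 1) (a 2) (a 3) (b 3) (b 2) (b 1) (b 0) +
      gp (a 0) (a 1) (a 2) (a 3) (b 0) (b 2) (b 3) (b 1) +
      gp (a 0) (a 1) (a 2) (a 3) (b 0) (b 3) (b 1) (b 2) +
      gp (a 0) (a 1) (a 2) (a 3) (b 2) (b 1) (b 3) (b 0) +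
      gp (a 0) (a 1) (a 2) (a 3) (b 3) (b 1) (b 0) (b 2) +
      gp (a 0) (a 1) (a 2) (a 3) (b 1) (b 3) (b 2) (b 0) +
      gp (a 0) (a 1) (a 2) (a 3) (b 3) (b 0) (b 2) (b 1) +
      gp (a 0) (a 1) (a 2) (a 3) (b 1) (b 2) (b 0) (b 3) +
      gp (a 0) (a 1) (a 2) (a 3) (b 2) (b 0) (b 1) (b 3) = _
  rw [ha3, hb3, gp_sum]
  unfold m2 m3
  rw [Fin.sum_univ_four, Fin.sum_univ_four, Fin.sum_univ_four, Fin.sum_univ_four, ha3, hb3]
  push_cast
  ring

private theorem fX_ge (v w : Fin 4 → ℝ) (hv : ∀ a, 0 ≤ v a) (hw : ∀ a, 0 ≤ w a) :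
    mass v * mass w * gg (uv v) (uv w) ≤ fX (fun a => v a * w a) := by
  have hm := mass_nonneg v hv
  have hm' := mass_nonneg w hw
  have hV : ∀ a, 0 ≤ v a * w a := fun a => mul_nonneg (hv a) (hw a)
  have hva := eq_mass_mul (by norm_num) v hv
  have hwa := eq_mass_mul (by norm_num) w hw
  have ha1 : ∀ a, 0 ≤ 1 + uv v a := fun a => by
    have := neg_one_le_uv v hv a
    linarith
  have hb1 : ∀ a, 0 ≤ 1 + uv w a := fun a => by
    have := neg_one_le_uv w hw a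
    linarith
  set A : Fin 4 → ℝ := fun i => (1 + uv v i) * (1 + uv w i) with hA
  have hA0 : ∀ i, 0 ≤ A i := fun i => mul_nonneg (ha1 i) (hb1 i)
  have hVA : ∀ i, v i * w i = mass v * mass w * A i := by
    intro i
    rw [hva i, hwa i, hA]
    ring
  have hgg : gg (uv v) (uv w) = ((1 / 4) * ∑ i, A i ^ 2 - ((1 / 4) * ∑ i, A i) ^ 2) *
      (2 - (1 / 4) * ∑ i, A i) := by
    unfold gg
    simp only [hA, mul_pow]
  set t : ℝ := (1 / 4) * ∑ i, A i with ht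
  set W : ℝ := (1 / 4) * ∑ i, A i ^ 2 with hW
  have hc : 0 ≤ mass v * mass w := mul_nonneg hm hm'
  have hmV : mass (fun a => v a * w a) = mass v * mass w * t := by
    have : mass (fun a => v a * w a) = (1 / ((4 : ℕ) : ℝ)) * ∑ i, v i * w i := rfl
    rw [this, Finset.sum_congr rfl fun i _ => hVA i, ← Finset.mul_sum, ht]
    push_cast
    ring
  have hWt : t ^ 2 ≤ W := by
    have hcs := sq_sum_le_card_mul_sum_sq (s := (Finset.univ : Finset (Fin 4))) (f := A)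
    rw [Finset.card_univ, Fintype.card_fin] at hcs
    push_cast at hcs
    rw [ht, hW]
    nlinarith [hcs]
  have ht0 : 0 ≤ t := by
    rw [ht]
    exact mul_nonneg (by norm_num) (Finset.sum_nonneg fun i _ => hA0 i)
  rw [hgg]
  rcases hc.eq_or_lt with h0 | hcpos
  · rw [← h0, zero_mul]
    exact fX_nonneg _ hV
  · rcases ht0.eq_or_lt with h0 | htpos
    · have hAz : ∀ i, A i = 0 := by
        intro i
        have h1 : ∑ i, A i = 0 := by
          rw [ht] at h0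
          linarith
        exact (Finset.sum_eq_zero_iff_of_nonneg fun i _ => hA0 i).1 h1 i (Finset.mem_univ i)
      have hW0 : W = 0 := by
        rw [hW, Finset.sum_eq_zero fun i _ => by rw [hAz i]; norm_num, mul_zero]
      rw [hW0, ← h0]
      norm_num
      exact fX_nonneg _ hV
    · have hM : mass (fun a => v a * w a) ≠ 0 := by
        rw [hmV]
        exact (mul_pos hcpos htpos).ne'
      have hfX : fX (fun a => v a * w a) = mass v * mass w * (W - t ^ 2) / t := by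
        unfold fX m2
        have huv : ∀ i, uv (fun a => v a * w a) i = A i / t - 1 := by
          intro i
          unfold uv
          rw [hmV]
          beta_reduce
          rw [hVA i, mul_div_mul_left _ _ hcpos.ne']
        simp only [huv]
        have e : ∑ i, (A i / t - 1) ^ 2 = (∑ i, A i ^ 2) / t ^ 2 - 2 * (∑ i, A i) / t + 4 := by
          have : ∀ i, (A i / t - 1) ^ 2 = A i ^ 2 / t ^ 2 - 2 * A i / t + 1 := by
            intro i
            field_simp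
            ring
          simp only [this]
          rw [Finset.sum_add_distrib, Finset.sum_sub_distrib, ← Finset.sum_div, ← Finset.sum_div,
            ← Finset.mul_sum]
          simp
        rw [e, hmV]
        have e1 : ∑ i, A i = 4 * t := by rw [ht]; ring
        have e2 : ∑ i, A i ^ 2 = 4 * W := by rw [hW]; ring
        rw [e1, e2]
        push_cast
        field_simp
        ring
      rw [hfX, mul_div_assoc]
      refine mul_le_mul_of_nonneg_left ?_ hc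
      rw [le_div_iff₀ htpos]
      have h1 : 0 ≤ (W - t ^ 2) * (1 - t) ^ 2 := mul_nonneg (by linarith) (sq_nonneg _)
      nlinarith [h1]

private theorem mass_comp (w : Fin 4 → ℝ) (σ : Equiv.Perm (Fin 4)) :
    mass (fun a => w (σ a)) = mass w := by
  unfold mass
  rw [Equiv.sum_comp σ w]

/-- **(L1)**. `fX (v w) = m m' G / (1 + s)`, `G = <a²> + <b²> + 2 s + 2 <a² b> + 2 <a b²> + <a² b²> - s² ≥ 0`
(a variance), and `1 / (1 + s) ≥ 1 - s`; so `X (P * Q) ≥ E [G (1 - s)]`, a polynomial.  Terms of degree one in `a` or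
in `b` vanish.  `E<a²b²> - 3 E s² = x x' - 3 * x x' / 3 = 0` (q = 4!).  Remaining:
`-2 E s<a²b> = -(2/3) κ x'`, `-2 E s<ab²> = -(2/3) x κ'`, `-E s<a²b²> = -κκ'/3`, `E s³ = κκ' (1/16)(1+1+4/6)`,
and `|κ κ'| ≤ 3 x |κ'|`. -/
theorem loc_X : ∃ C : ℝ, 0 ≤ C ∧ ∀ P Q : Xp, P.Ok → Q.Ok →
    P.X + Q.X - C * (|P.kap| * Q.X + |Q.kap| * P.X) ≤ (P.mul Q).X := by
  refine ⟨2, by norm_num, fun P Q hP hQ => ?_⟩
  have hPn := hP.isExp.nonneg
  have hQn := hQ.isExp.nonneg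
  have hXP : P.X = ∑ i, fX (P.w i) := by
    unfold Xp.X X Ex
    rw [tsum_fintype]
  have hXQ : Q.X = ∑ i, fX (Q.w i) := by
    unfold Xp.X X Ex
    rw [tsum_fintype]
  have hkP : P.kap = ∑ i, fk (P.w i) := by
    unfold Xp.kap Ex
    rw [tsum_fintype]
  have hkQ : Q.kap = ∑ i, fk (Q.w i) := by
    unfold Xp.kap Ex
    rw [tsum_fintype]
  have hmP : ∑ i, mass (P.w i) = 1 := by
    have h := (hP.isExp.hasSum_mass (by norm_num)).tsum_eq
    rwa [tsum_fintype] at h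
  have hmQ : ∑ i, mass (Q.w i) = 1 := by
    have h := (hQ.isExp.hasSum_mass (by norm_num)).tsum_eq
    rwa [tsum_fintype] at h
  have hXPQ : ∀ σ : Equiv.Perm (Fin 4), (P.mul Q).X =
      ∑ i, ∑ k, fX (fun a => P.w i a * Q.w k (σ a)) := by
    intro σ
    have h1 : (P.mul Q).X = ∑ i, ∑ k, fX (fun a => P.w i a * Q.w k a) := by
      have : (P.mul Q).X = ∑' p : P.ι × Q.ι, fX (fun a => P.w p.1 a * Q.w p.2 a) := rfl
      rw [this, tsum_fintype, Fintype.sum_prod_type]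
    rw [h1]
    refine Finset.sum_congr rfl fun i _ => ?_
    have h2 := Ex_perm hQ.isSymm (fun v => fX (fun a => P.w i a * v a)) σ
    unfold Ex at h2
    rw [tsum_fintype, tsum_fintype] at h2
    exact h2.symm
  have h12 : 12 * (P.mul Q).X =
      ∑ i, ∑ k, ∑ l : Fin 12, fX (fun a => P.w i a * Q.w k (tb l a)) := by
    have h1 : ∑ l : Fin 12, (P.mul Q).X =
        ∑ l : Fin 12, ∑ i, ∑ k, fX (fun a => P.w i a * Q.w k (tb l a)) :=
      Finset.sum_congr rfl fun l _ => hXPQ (tpm l)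
    rw [Finset.sum_const, Finset.card_univ, Fintype.card_fin, nsmul_eq_mul] at h1
    push_cast at h1
    rw [h1, Finset.sum_comm]
    refine Finset.sum_congr rfl fun i _ => ?_
    rw [Finset.sum_comm]
  have hpt : ∀ i k, 12 * (fX (P.w i) * mass (Q.w k) + mass (P.w i) * fX (Q.w k) -
      2 / 3 * (fk (P.w i) * fX (Q.w k) + fX (P.w i) * fk (Q.w k)) -
      1 / 6 * (fk (P.w i) * fk (Q.w k))) ≤
      ∑ l : Fin 12, fX (fun a => P.w i a * Q.w k (tb l a)) := by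
    intro i k
    have h1 : ∀ l : Fin 12, mass (P.w i) * mass (Q.w k) *
        gg (uv (P.w i)) (fun a => uv (Q.w k) (tb l a)) ≤
        fX (fun a => P.w i a * Q.w k (tb l a)) := by
      intro l
      have h2 := fX_ge (P.w i) (fun a => Q.w k (tpm l a)) (hPn i) (fun a => hQn k _)
      have h3 : uv (fun a => Q.w k (tpm l a)) = fun a => uv (Q.w k) (tb l a) := by
        funext a
        unfold uv
        rw [mass_comp]
        rfl
      rw [mass_comp, h3] at h2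
      exact h2
    refine le_trans (le_of_eq ?_) (Finset.sum_le_sum fun l _ => h1 l)
    rw [← Finset.mul_sum]
    by_cases hp : mass (P.w i) = 0
    · unfold fX fk
      rw [hp]
      ring
    · by_cases hq : mass (Q.w k) = 0
      · unfold fX fk
        rw [hq]
        ring
      · rw [sum_gg _ _ (sum_uv (by norm_num) _ hp) (sum_uv (by norm_num) _ hq)]
        unfold fX fk
        ring
  have hsum : 12 * (P.X + Q.X - 2 / 3 * (P.kap * Q.X + P.X * Q.kap) -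
      1 / 6 * (P.kap * Q.kap)) ≤ 12 * (P.mul Q).X := by
    rw [h12]
    refine le_trans (le_of_eq ?_) (Finset.sum_le_sum fun i _ => Finset.sum_le_sum fun k _ => hpt i k)
    simp only [← Finset.mul_sum, Finset.sum_sub_distrib, Finset.sum_add_distrib, ← Finset.sum_mul]
    rw [← hXP, ← hXQ, ← hkP, ← hkQ, hmP, hmQ]
    ring
  have hXP0 : 0 ≤ P.X := by
    rw [hXP]
    exact Finset.sum_nonneg fun i _ => fX_nonneg _ (hPn i)
  have hXQ0 : 0 ≤ Q.X := by
    rw [hXQ]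
    exact Finset.sum_nonneg fun i _ => fX_nonneg _ (hQn i)
  have hk3 : |P.kap| ≤ 3 * P.X := by
    rw [hkP, hXP, Finset.mul_sum]
    refine (Finset.abs_sum_le_sum_abs _ _).trans (Finset.sum_le_sum fun i _ => ?_)
    have hm := mass_nonneg _ (hPn i)
    unfold fk fX
    rw [abs_mul, abs_of_nonneg hm, mul_left_comm]
    refine mul_le_mul_of_nonneg_left ?_ hm
    unfold m3 m2
    rw [abs_mul, abs_of_nonneg (by positivity : (0 : ℝ) ≤ 1 / ((4 : ℕ) : ℝ)), mul_left_comm]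
    refine mul_le_mul_of_nonneg_left ?_ (by positivity)
    rw [Finset.mul_sum]
    refine (Finset.abs_sum_le_sum_abs _ _).trans (Finset.sum_le_sum fun a _ => ?_)
    have h1 := neg_one_le_uv _ (hPn i) a
    have h2 := uv_le (by norm_num) _ (hPn i) a
    have h3 : |uv (P.w i) a| ≤ 3 := by
      push_cast at h2
      rw [abs_le]
      constructor <;> linarith
    rw [pow_succ, abs_mul, abs_of_nonneg (sq_nonneg _), mul_comm (3 : ℝ)]
    exact mul_le_mul_of_nonneg_left h3 (sq_nonneg _)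
  have h1 : |P.kap * Q.kap| ≤ 3 * P.X * |Q.kap| := by
    rw [abs_mul]
    exact mul_le_mul_of_nonneg_right hk3 (abs_nonneg _)
  have h2 := le_abs_self (P.kap * Q.kap)
  have h3 : P.kap * Q.X ≤ |P.kap| * Q.X := mul_le_mul_of_nonneg_right (le_abs_self _) hXQ0
  have h4 : P.X * Q.kap ≤ P.X * |Q.kap| := mul_le_mul_of_nonneg_left (le_abs_self _) hXP0
  have h5 : 0 ≤ |P.kap| * Q.X := mul_nonneg (abs_nonneg _) hXQ0
  have h6 : 0 ≤ P.X * |Q.kap| := mul_nonneg hXP0 (abs_nonneg _)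
  nlinarith [hsum, h1, h2, h3, h4, h5, h6]

end Crest.Agent.R163.Tr
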