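import Crest.Agent.R163.TPotB
import Crest.Agent.R163.TDeg

/-!
# Row 163, S0246: flow ⟹ reconstruction, part 2 (telescoping over levels)

`t v = e * rt v`; discounted sums along the path from the root: `Ud`.
-/

set_option autoImplicit false

namespace Crest.Agent.R163.Tr

open Finset Crest.ProbabilityR.TreeBroadcast

variable {V : Type*} [DecidableEq V]

/-- `U_v = t_v + λ U_(parent v)` (`j` = depth of `v`) -/
noncomputable def Ud (T : LocFinTree V) (lam : ℝ) (t : V → ℝ) : ℕ → V → ℝ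
  | 0, v => t v
  | j + 1, v => t v + lam * Ud T lam t j (T.parent v)

variable {T : LocFinTree V} {θ : V → ℝ} {lam : ℝ}

/-- `t ≤ a` everywhere gives `U ≤ a / (1 - λ)`, and `t ≤ U` -/
theorem Ud_bounds (h0 : 0 ≤ lam) (h1 : lam < 1) {t : V → ℝ} (ht : ∀ v, 0 ≤ t v) {a : ℝ}
    (ha : ∀ v, t v ≤ a) (j : ℕ) (v : V) : t v ≤ Ud T lam t j v ∧ Ud T lam t j v ≤ a / (1 - lam) := by
  have h2 : 0 < 1 - lam := by linarith
  induction j generalizing v with
  | zero =>
    refine ⟨le_rfl, ?_⟩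
    rw [le_div_iff₀ h2]
    change t v * (1 - lam) ≤ a
    nlinarith [ht v, ha v, mul_nonneg (ht v) h0]
  | succ j ih =>
    obtain ⟨h3, h4⟩ := ih (T.parent v)
    change t v ≤ t v + lam * Ud T lam t j (T.parent v) ∧
      t v + lam * Ud T lam t j (T.parent v) ≤ a / (1 - lam)
    have h5 : 0 ≤ lam * Ud T lam t j (T.parent v) := mul_nonneg h0 ((ht _).trans h3)
    refine ⟨by linarith, ?_⟩
    have h6 : lam * Ud T lam t j (T.parent v) ≤ lam * (a / (1 - lam)) :=
      mul_le_mul_of_nonneg_left h4 h0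
    have h7 : a + lam * (a / (1 - lam)) = a / (1 - lam) := by
      field_simp
      ring
    linarith [ha v]

theorem sq_add_le (h1 : lam < 1) (h0 : 0 ≤ lam) (t U : ℝ) :
    (t + lam * U) ^ 2 ≤ t ^ 2 / (1 - lam) + lam * U ^ 2 := by
  have h2 : 0 < 1 - lam := by linarith
  have h3 : t ^ 2 / (1 - lam) + lam * U ^ 2 - (t + lam * U) ^ 2 =
      lam / (1 - lam) * (t - (1 - lam) * U) ^ 2 := by
    field_simp
    ring
  have h4 : 0 ≤ lam / (1 - lam) * (t - (1 - lam) * U) ^ 2 := by positivity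
  linarith

/-- `A_j = ∑_{level j} full * U²` satisfies `A_(j+1) ≤ T_(j+1) / (1-λ) + λ A_j`, as
`(t + λ U)² ≤ t²/(1-λ) + λ U²` (`sum_level_succ`, `full_eq`); sum over `j` -/
theorem sum_Ud_sq_le (h : IsFlow T θ) (h0 : 0 < lam) (h1 : lam < 1) {t : V → ℝ}
    (ht : ∀ v, 0 ≤ t v) (n : ℕ) :
    ∑ j ∈ range (n + 1), ∑ v ∈ T.level j, full T θ v * Ud T lam t j v ^ 2 ≤
      (1 / (1 - lam)) ^ 2 * ∑ j ∈ range (n + 1), ∑ v ∈ T.level j, full T θ v * t v ^ 2 := by
  have h2 : 0 < 1 - lam := by linarith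
  obtain ⟨A, hA⟩ : ∃ A : ℕ → ℝ, ∀ j, A j = ∑ v ∈ T.level j, full T θ v * Ud T lam t j v ^ 2 :=
    ⟨_, fun _ => rfl⟩
  obtain ⟨B, hB⟩ : ∃ B : ℕ → ℝ, ∀ j, B j = ∑ v ∈ T.level j, full T θ v * t v ^ 2 :=
    ⟨_, fun _ => rfl⟩
  simp only [← hA, ← hB]
  have hA0 : ∀ j, 0 ≤ A j := by
    intro j
    rw [hA]
    exact Finset.sum_nonneg fun v _ => mul_nonneg (full_nonneg h v) (sq_nonneg _)
  have hB0 : ∀ j, 0 ≤ B j := by
    intro j
    rw [hB]
    exact Finset.sum_nonneg fun v _ => mul_nonneg (full_nonneg h v) (sq_nonneg _)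
  have h00 : A 0 = B 0 := by
    rw [hA, hB]
    rfl
  have hstep : ∀ j, A (j + 1) ≤ 1 / (1 - lam) * B (j + 1) + lam * A j := by
    intro j
    rw [hA, hB, hA, sum_level_succ, sum_level_succ, Finset.mul_sum, Finset.mul_sum,
      ← Finset.sum_add_distrib]
    refine Finset.sum_le_sum fun v _ => ?_
    rw [full_eq h v, Finset.sum_mul, Finset.mul_sum, Finset.mul_sum, ← Finset.sum_add_distrib]
    refine Finset.sum_le_sum fun c hc => ?_
    have hpar : T.parent c = v := ((mem_children_iff T v c).1 hc).2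
    change full T θ c * (t c + lam * Ud T lam t j (T.parent c)) ^ 2 ≤ _
    rw [hpar]
    calc full T θ c * (t c + lam * Ud T lam t j v) ^ 2
        ≤ full T θ c * (t c ^ 2 / (1 - lam) + lam * Ud T lam t j v ^ 2) :=
          mul_le_mul_of_nonneg_left (sq_add_le h1 h0.le _ _) (full_nonneg h c)
      _ = 1 / (1 - lam) * (full T θ c * t c ^ 2) + lam * (full T θ c * Ud T lam t j v ^ 2) := by
          ring
  have hone : (1 : ℝ) ≤ 1 / (1 - lam) := by
    rw [le_div_iff₀ h2]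
    linarith
  have hsum : ∑ j ∈ range (n + 1), A j ≤
      1 / (1 - lam) * ∑ j ∈ range (n + 1), B j + lam * ∑ j ∈ range (n + 1), A j := by
    rw [Finset.sum_range_succ' A n, Finset.sum_range_succ' B n]
    have h3 : ∑ j ∈ range n, A (j + 1) ≤
        1 / (1 - lam) * ∑ j ∈ range n, B (j + 1) + lam * ∑ j ∈ range n, A j := by
      rw [Finset.mul_sum, Finset.mul_sum, ← Finset.sum_add_distrib]
      exact Finset.sum_le_sum fun j _ => hstep j
    have h4 : ∑ j ∈ range n, A j ≤ ∑ j ∈ range n, A (j + 1) + A 0 := by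
      rw [← Finset.sum_range_succ' A n, Finset.sum_range_succ]
      linarith [hA0 n]
    have h5 := mul_le_mul_of_nonneg_left h4 h0.le
    have h6 : B 0 ≤ 1 / (1 - lam) * B 0 := by nlinarith [hB0 0]
    rw [mul_add (1 / (1 - lam))]
    linarith
  have h7 : (1 - lam) * ∑ j ∈ range (n + 1), A j ≤ 1 / (1 - lam) * ∑ j ∈ range (n + 1), B j := by
    linarith
  calc ∑ j ∈ range (n + 1), A j = 1 / (1 - lam) * ((1 - lam) * ∑ j ∈ range (n + 1), A j) := by
        field_simp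
    _ ≤ 1 / (1 - lam) * (1 / (1 - lam) * ∑ j ∈ range (n + 1), B j) :=
        mul_le_mul_of_nonneg_left h7 (by positivity)
    _ = (1 / (1 - lam)) ^ 2 * ∑ j ∈ range (n + 1), B j := by ring

/-- `Kd k v ≤ D t_v` with `D = 2 + C / (1 - λ)` if `t ≤ 1`: induction, `∑ λ³ D t_c = λ D t_v` -/
theorem Kd_le (h0 : 0 < lam) (h1 : lam < 1) {C : ℝ} (hC : 0 ≤ C) {t : V → ℝ} (ht : ∀ v, 0 ≤ t v)
    (ht1 : ∀ v, t v ≤ 1) (hf : ∀ v, t v = ∑ c ∈ T.children v, lam ^ 2 * t c) (k : ℕ) (v : V) :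
    Kd T lam C t k v ≤ (2 + C / (1 - lam)) * t v := by
  have h2 : 0 < 1 - lam := by linarith
  have hD0 : 0 ≤ C / (1 - lam) := by positivity
  induction k generalizing v with
  | zero =>
    change 2 * t v ≤ _
    nlinarith [ht v, mul_nonneg hD0 (ht v)]
  | succ k ih =>
    change ∑ c ∈ T.children v, lam ^ 3 * Kd T lam C t k c + C * t v ^ 2 ≤ _
    have h3 : ∑ c ∈ T.children v, lam ^ 3 * Kd T lam C t k c ≤
        lam * (2 + C / (1 - lam)) * t v := by
      rw [hf v, Finset.mul_sum]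
      refine Finset.sum_le_sum fun c _ => ?_
      calc lam ^ 3 * Kd T lam C t k c ≤ lam ^ 3 * ((2 + C / (1 - lam)) * t c) :=
            mul_le_mul_of_nonneg_left (ih c) (by positivity)
        _ = lam * (2 + C / (1 - lam)) * (lam ^ 2 * t c) := by ring
    have h4 : C * t v ^ 2 ≤ C * t v := by
      refine mul_le_mul_of_nonneg_left ?_ hC
      nlinarith [ht v, ht1 v]
    have h5 : lam * (2 + C / (1 - lam)) + C ≤ 2 + C / (1 - lam) := by
      have h6 : (2 + C / (1 - lam)) * (1 - lam) = 2 * (1 - lam) + C := by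
        field_simp
      nlinarith
    have h7 := mul_le_mul_of_nonneg_right h5 (ht v)
    linarith

end Crest.Agent.R163.Tr
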