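import Crest.Agent.R163.TLow

/-!
# Row 163, S0246: flow ⟹ reconstruction, part 2B (telescoping identities)
-/

set_option autoImplicit false

namespace Crest.Agent.R163.Tr

open Finset Crest.ProbabilityR.TreeBroadcast

variable {V : Type*} [DecidableEq V]

variable {T : LocFinTree V} {θ : V → ℝ} {lam : ℝ}

/-- Identity.  `k_v = λ^(2j) Kd (n-j) v`, `k_v = λ ∑ k_c + C λ^(2j) t_v²`; `M_j = ∑_{level j} U k`;
`M_j = ∑_{level (j+1)} (U_c - t_c) k_c + C ∑_{level j} λ^(2j) t_v² U_v`; telescope. -/
theorem sum_t_Kd (h0 : 0 < lam) (C : ℝ) (t : V → ℝ) (n : ℕ) :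
    ∑ j ∈ range (n + 1), ∑ v ∈ T.level j, t v * (lam ^ (2 * j) * Kd T lam C t (n - j) v) =
      ∑ v ∈ T.level n, Ud T lam t n v * (lam ^ (2 * n) * (2 * t v)) +
        C * ∑ j ∈ range n, ∑ v ∈ T.level j, lam ^ (2 * j) * t v ^ 2 * Ud T lam t j v := by
  have key : ∀ m : ℕ, m ≤ n →
      ∑ j ∈ range (m + 1), ∑ v ∈ T.level j, t v * (lam ^ (2 * j) * Kd T lam C t (n - j) v) =
        ∑ v ∈ T.level m, Ud T lam t m v * (lam ^ (2 * m) * Kd T lam C t (n - m) v) +
          C * ∑ j ∈ range m, ∑ v ∈ T.level j, lam ^ (2 * j) * t v ^ 2 * Ud T lam t j v := by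
    intro m
    induction m with
    | zero =>
      intro _
      simp [Ud]
    | succ m ih =>
      intro hm
      rw [Finset.sum_range_succ, ih (by omega), Finset.sum_range_succ _ m]
      have hstep : ∑ v ∈ T.level m, Ud T lam t m v * (lam ^ (2 * m) * Kd T lam C t (n - m) v) +
          ∑ v ∈ T.level (m + 1), t v * (lam ^ (2 * (m + 1)) * Kd T lam C t (n - (m + 1)) v) =
          ∑ v ∈ T.level (m + 1), Ud T lam t (m + 1) v *
            (lam ^ (2 * (m + 1)) * Kd T lam C t (n - (m + 1)) v) +
          C * ∑ v ∈ T.level m, lam ^ (2 * m) * t v ^ 2 * Ud T lam t m v := by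
        rw [sum_level_succ T m, sum_level_succ T m, Finset.mul_sum, ← Finset.sum_add_distrib,
          ← Finset.sum_add_distrib]
        refine Finset.sum_congr rfl fun v _ => ?_
        have e1 : n - m = (n - (m + 1)) + 1 := by omega
        rw [e1]
        have e2 : Kd T lam C t (n - (m + 1) + 1) v =
            ∑ c ∈ T.children v, lam ^ 3 * Kd T lam C t (n - (m + 1)) c + C * t v ^ 2 := rfl
        rw [e2]
        have e3 : ∑ c ∈ T.children v, Ud T lam t (m + 1) c *
            (lam ^ (2 * (m + 1)) * Kd T lam C t (n - (m + 1)) c) =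
            ∑ c ∈ T.children v, t c * (lam ^ (2 * (m + 1)) * Kd T lam C t (n - (m + 1)) c) +
            Ud T lam t m v * (lam ^ (2 * m) *
              ∑ c ∈ T.children v, lam ^ 3 * Kd T lam C t (n - (m + 1)) c) := by
          rw [Finset.mul_sum, Finset.mul_sum, ← Finset.sum_add_distrib]
          refine Finset.sum_congr rfl fun c hc => ?_
          have hpar : T.parent c = v := ((mem_children_iff T v c).1 hc).2
          have e4 : Ud T lam t (m + 1) c = t c + lam * Ud T lam t m (T.parent c) := rfl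
          rw [e4, hpar]
          ring
        rw [e3]
        ring
      linarith
  have := key n le_rfl
  rw [Nat.sub_self] at this
  exact this

/-- `Y_j = ∑_{level j} λ^(2j) yd (n-j) v` satisfies `Y_j ≥ Y_(j+1) - C ∑_{level j} λ^(2j) t_v Kd (n-j) v`
(`yd_bounds`), `Y_n = ∑_{level n} λ^(2n) t v`; telescope -/
theorem yd_root_ge (h0 : 0 < lam) {C : ℝ} (hC : 0 ≤ C) {t : V → ℝ} (ht : ∀ v, 0 ≤ t v)
    (hf : ∀ v, t v = ∑ c ∈ T.children v, lam ^ 2 * t c)
    (hK : ∀ k v, C * Kd T lam C t k v ≤ 1) (n : ℕ) :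
    ∑ v ∈ T.level n, lam ^ (2 * n) * t v -
        C * ∑ j ∈ range n, ∑ v ∈ T.level j, t v * (lam ^ (2 * j) * Kd T lam C t (n - j) v) ≤
      yd T lam C t n T.root := by
  have h0' := h0.le
  have key : ∀ m : ℕ, m ≤ n →
      ∑ v ∈ T.level m, lam ^ (2 * m) * yd T lam C t (n - m) v -
          C * ∑ j ∈ range m, ∑ v ∈ T.level j, t v * (lam ^ (2 * j) * Kd T lam C t (n - j) v) ≤
        yd T lam C t n T.root := by
    intro m
    induction m with
    | zero =>
      intro _
      have hl : T.level 0 = {T.root} := by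
        ext v
        rw [T.mem_level_iff, T.depth_eq_zero_iff, Finset.mem_singleton]
      simp [hl]
    | succ m ih =>
      intro hm
      refine le_trans ?_ (ih (by omega))
      rw [Finset.sum_range_succ _ m, sum_level_succ T m]
      have hstep : ∑ v ∈ T.level m, ∑ c ∈ T.children v,
            lam ^ (2 * (m + 1)) * yd T lam C t (n - (m + 1)) c -
            C * ∑ v ∈ T.level m, t v * (lam ^ (2 * m) * Kd T lam C t (n - m) v) ≤
          ∑ v ∈ T.level m, lam ^ (2 * m) * yd T lam C t (n - m) v := by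
        rw [Finset.mul_sum, ← Finset.sum_sub_distrib]
        refine Finset.sum_le_sum fun v _ => ?_
        have e1 : n - m = (n - (m + 1)) + 1 := by omega
        rw [e1]
        have e2 : yd T lam C t (n - (m + 1) + 1) v =
            (∑ c ∈ T.children v, lam ^ 2 * yd T lam C t (n - (m + 1)) c) *
              (1 - C * Kd T lam C t (n - (m + 1) + 1) v) := rfl
        rw [e2]
        have hS : ∑ c ∈ T.children v, lam ^ 2 * yd T lam C t (n - (m + 1)) c ≤ t v := by
          rw [hf v]
          refine Finset.sum_le_sum fun c _ => ?_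
          exact mul_le_mul_of_nonneg_left (yd_bounds T h0' hC ht hf hK _ c).2 (by positivity)
        have e3 : ∑ c ∈ T.children v, lam ^ (2 * (m + 1)) * yd T lam C t (n - (m + 1)) c =
            lam ^ (2 * m) * ∑ c ∈ T.children v, lam ^ 2 * yd T lam C t (n - (m + 1)) c := by
          rw [Finset.mul_sum]
          refine Finset.sum_congr rfl fun c _ => ?_
          ring
        rw [e3]
        have hKn := Kd_nonneg T h0' hC ht (n - (m + 1) + 1) v
        set S := ∑ c ∈ T.children v, lam ^ 2 * yd T lam C t (n - (m + 1)) c with hSdef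
        set K := Kd T lam C t (n - (m + 1) + 1) v with hKdef
        have hl : 0 ≤ lam ^ (2 * m) := by positivity
        have h1 : lam ^ (2 * m) * (C * K * S) ≤ lam ^ (2 * m) * (C * K * t v) :=
          mul_le_mul_of_nonneg_left (mul_le_mul_of_nonneg_left hS (mul_nonneg hC hKn)) hl
        nlinarith [h1]
      linarith
  have := key n le_rfl
  rw [Nat.sub_self] at this
  exact this

end Crest.Agent.R163.Tr
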