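import Crest.Agent.R163.TLevel

/-!
# Row 163, S0246: flows and path potentials (flow ⟹ reconstruction, part 1)
-/

set_option autoImplicit false

namespace Crest.Agent.R163.Tr

open Finset Crest.ProbabilityR.TreeBroadcast

variable {V : Type*} [DecidableEq V]

/-- the flow with the mass at the root -/
noncomputable def full (T : LocFinTree V) (θ : V → ℝ) (v : V) : ℝ :=
  if v = T.root then flowMass T θ else θ v

/-- `θ(v) / λ^(2|v|)` -/
noncomputable def rt (T : LocFinTree V) (lam : ℝ) (θ : V → ℝ) (v : V) : ℝ :=
  full T θ v / lam ^ (2 * T.depth v)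

/-- path potential (`j` = depth of `v`, root included) -/
noncomputable def pp (T : LocFinTree V) (lam : ℝ) (θ : V → ℝ) : ℕ → V → ℝ
  | 0, v => rt T lam θ v ^ 2
  | j + 1, v => rt T lam θ v ^ 2 + pp T lam θ j (T.parent v)

variable {T : LocFinTree V} {θ : V → ℝ} {lam : ℝ}

theorem full_nonneg (h : IsFlow T θ) (v : V) : 0 ≤ full T θ v := by
  unfold full flowMass
  split_ifs with hv
  · exact Finset.sum_nonneg fun w _ => h.1 w
  · exact h.1 v

theorem child_ne_root {v c : V} (hc : c ∈ T.children v) : c ≠ T.root := by
  intro h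
  have h1 := ((mem_children_iff T v c).1 hc).1
  have h2 := (T.depth_eq_zero_iff c).2 h
  omega

/-- children are not the root -/
theorem full_eq (h : IsFlow T θ) (v : V) : full T θ v = ∑ c ∈ T.children v, full T θ c := by
  have h1 : ∑ c ∈ T.children v, full T θ c = ∑ c ∈ T.children v, θ c := by
    refine Finset.sum_congr rfl fun c hc => ?_
    unfold full
    rw [if_neg (child_ne_root hc)]
  rw [h1]
  unfold full
  split_ifs with hv
  · subst hv; rfl
  · exact h.2 v hv

/-- `rt v = ∑ λ² rt c` -/
theorem rt_eq (h : IsFlow T θ) (h0 : 0 < lam) (v : V) :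
    rt T lam θ v = ∑ c ∈ T.children v, lam ^ 2 * rt T lam θ c := by
  unfold rt
  rw [full_eq h v, Finset.sum_div]
  refine Finset.sum_congr rfl fun c hc => ?_
  rw [((mem_children_iff T v c).1 hc).1]
  field_simp
  ring

/-- every level carries the whole mass (`sum_level_succ`, `full_eq`) -/
theorem sum_full (h : IsFlow T θ) (n : ℕ) : ∑ v ∈ T.level n, full T θ v = flowMass T θ := by
  induction n with
  | zero =>
    have h0 : T.level 0 = {T.root} := by
      ext v
      rw [T.mem_level_iff, T.depth_eq_zero_iff, Finset.mem_singleton]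
    rw [h0, Finset.sum_singleton]
    unfold full
    rw [if_pos rfl]
  | succ n ih =>
    rw [sum_level_succ, ← ih]
    exact Finset.sum_congr rfl fun v _ => (full_eq h v).symm

/-- a vertex with positive flow lies on a ray (ancestors: `parent^[depth v - j] v`; below `v`: by `full_eq` a child with
positive flow exists, dependent choice) -/
theorem exists_ray (h : IsFlow T θ) (v : V) (hv : 0 < full T θ v) :
    ∃ ξ : ℕ → V, T.IsRay ξ ∧ ξ (T.depth v) = v := by
  have hstep : ∀ w : {w : V // 0 < full T θ w}, ∃ c : {w : V // 0 < full T θ w},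
      c.1 ∈ T.children w.1 := by
    rintro ⟨w, hw⟩
    rw [full_eq h w] at hw
    obtain ⟨c, hc, hc'⟩ := (Finset.sum_pos_iff_of_nonneg (fun c _ => full_nonneg h c)).1 hw
    exact ⟨⟨c, hc'⟩, hc⟩
  choose nxt hnxt using hstep
  let g : ℕ → {w : V // 0 < full T θ w} := fun k => nxt^[k] ⟨v, hv⟩
  have hg : ∀ k, (g (k + 1)).1 ∈ T.children (g k).1 := by
    intro k
    change (nxt^[k + 1] ⟨v, hv⟩).1 ∈ _
    rw [Function.iterate_succ_apply']
    exact hnxt _
  set d := T.depth v with hd
  have hdep : ∀ k, k ≤ d → T.depth (T.parent^[k] v) = d - k := by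
    intro k
    induction k with
    | zero => intro _; simp [hd]
    | succ k ih =>
      intro hk
      have h1 := ih (by omega)
      rw [Function.iterate_succ_apply']
      have hne : T.parent^[k] v ≠ T.root := fun hr => by
        have := (T.depth_eq_zero_iff _).2 hr; omega
      have := T.depth_parent _ hne
      omega
  refine ⟨fun n => if n ≤ d then T.parent^[d - n] v else (g (n - d)).1, ⟨?_, ?_⟩, ?_⟩
  · simp only [Nat.zero_le, if_true, Nat.sub_zero]
    exact (T.depth_eq_zero_iff _).1 (by rw [hdep d le_rfl]; omega)
  · intro n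
    by_cases h1 : n + 1 ≤ d
    · have h2 : n ≤ d := by omega
      simp only [h1, h2, if_true]
      rw [mem_children_iff, hdep _ (by omega), hdep _ (by omega)]
      refine ⟨by omega, ?_⟩
      rw [← Function.iterate_succ_apply' T.parent]
      congr 1
      omega
    · by_cases h2 : n ≤ d
      · have h3 : n = d := by omega
        subst h3
        simp only [h1, if_false, le_rfl, if_true, Nat.sub_self, Function.iterate_zero, id]
        have := hg 0
        simpa [g] using this
      · simp only [h1, h2, if_false]
        have h3 : n + 1 - d = (n - d) + 1 := by omega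
        rw [h3]
        exact hg _
  · simp

end Crest.Agent.R163.Tr
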