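import Crest.Agent.R163.TPot

/-!
# Row 163, S0246: flows and path potentials, part B
-/

set_option autoImplicit false

namespace Crest.Agent.R163.Tr

open Finset Crest.ProbabilityR.TreeBroadcast

variable {V : Type*} [DecidableEq V]

variable {T : LocFinTree V} {θ : V → ℝ} {lam : ℝ}

private theorem pp_nonneg (j : ℕ) (v : V) : 0 ≤ pp T lam θ j v := by
  induction j generalizing v with
  | zero =>
    rw [pp]
    positivity
  | succ j ih =>
    rw [pp]
    have := ih (T.parent v)
    positivity

private theorem rt_sq_le_pp (j : ℕ) (v : V) : rt T lam θ v ^ 2 ≤ pp T lam θ j v := by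
  cases j with
  | zero => rw [pp]
  | succ j =>
    rw [pp]
    have := pp_nonneg (T := T) (lam := lam) (θ := θ) j (T.parent v)
    linarith

private theorem ray_depth {ξ : ℕ → V} (hξ : T.IsRay ξ) (j : ℕ) : T.depth (ξ j) = j := by
  induction j with
  | zero =>
    rw [hξ.1]
    exact (T.depth_eq_zero_iff _).2 rfl
  | succ j ih =>
    have := ((mem_children_iff T _ _).1 (hξ.2 j)).1
    rw [this, ih]

private theorem pp_ray {ξ : ℕ → V} (hξ : T.IsRay ξ) (j : ℕ) :
    pp T lam θ j (ξ j) = ∑ i ∈ range (j + 1), rt T lam θ (ξ i) ^ 2 := by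
  induction j with
  | zero =>
    rw [pp]
    simp
  | succ j ih =>
    have := ((mem_children_iff T _ _).1 (hξ.2 j)).2
    rw [pp, this, ih, sum_range_succ _ (j + 1)]
    ring

private theorem full_root : full T θ T.root = flowMass T θ := by
  unfold full
  rw [if_pos rfl]

private theorem mass_nonneg (h : IsFlow T θ) : 0 ≤ flowMass T θ := by
  rw [← full_root]
  exact full_nonneg h _

/-- finite part of the potential of the ray of `exists_ray`, plus the root -/
theorem pp_le (h : IsFlow T θ) (h0 : 0 < lam) (hr : ∀ ξ : ℕ → V, T.IsRay ξ → rayPotential lam θ ξ ≤ 1)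
    (v : V) (hv : 0 < full T θ v) : pp T lam θ (T.depth v) v ≤ 1 + flowMass T θ ^ 2 := by
  obtain ⟨ξ, hξ, hξv⟩ := exists_ray h v hv
  have h1 : pp T lam θ (T.depth v) v = ∑ i ∈ range (T.depth v + 1), rt T lam θ (ξ i) ^ 2 := by
    conv_lhs => rw [← hξv, ray_depth hξ]
    exact pp_ray hξ _
  rw [h1, sum_range_succ']
  have h2 : rt T lam θ (ξ 0) ^ 2 = flowMass T θ ^ 2 := by
    unfold rt
    rw [ray_depth hξ, mul_zero, pow_zero, div_one, hξ.1, full_root]
  have h3 : ∑ i ∈ range (T.depth v), rt T lam θ (ξ (i + 1)) ^ 2 ≤ 1 := by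
    have h4 : ∀ i, rt T lam θ (ξ (i + 1)) ^ 2 = (θ (ξ (i + 1)) / lam ^ (2 * (i + 1))) ^ 2 := by
      intro i
      unfold rt full
      have hne : ξ (i + 1) ≠ T.root := by
        intro hcon
        have hd := ray_depth hξ (i + 1)
        rw [hcon, (T.depth_eq_zero_iff _).2 rfl] at hd
        omega
      rw [if_neg hne, ray_depth hξ]
    simp only [h4]
    have h5 := hr ξ hξ
    unfold rayPotential at h5
    have h6 := (ENNReal.sum_le_tsum (range (T.depth v))).trans h5
    rw [← ENNReal.ofReal_sum_of_nonneg (fun i _ => sq_nonneg _)] at h6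
    exact ENNReal.ofReal_le_one.1 h6
  rw [h2]
  linarith

/-- `rt v ≤ 1 + mass` -/
theorem rt_le (h : IsFlow T θ) (h0 : 0 < lam) (hr : ∀ ξ : ℕ → V, T.IsRay ξ → rayPotential lam θ ξ ≤ 1)
    (v : V) : rt T lam θ v ≤ 1 + flowMass T θ := by
  have hm := mass_nonneg h
  rcases (full_nonneg h v).eq_or_lt with h1 | h1
  · unfold rt
    rw [← h1, zero_div]
    linarith
  · have h2 := pp_le h h0 hr v h1
    have h3 := rt_sq_le_pp (T := T) (lam := lam) (θ := θ) (T.depth v) v
    have h4 : rt T lam θ v ^ 2 ≤ (1 + flowMass T θ) ^ 2 := by nlinarith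
    exact le_of_sq_le_sq h4 (by linarith)

/-- `G_j = ∑_{level j} full * pp j` satisfies `G_(j+1) = G_j + ∑_{level (j+1)} full * rt²` (`sum_level_succ`, `full_eq`);
then `pp_le` and `sum_full` -/
theorem sum_rt_sq_le (h : IsFlow T θ) (h0 : 0 < lam)
    (hr : ∀ ξ : ℕ → V, T.IsRay ξ → rayPotential lam θ ξ ≤ 1) (n : ℕ) :
    ∑ j ∈ range (n + 1), ∑ v ∈ T.level j, full T θ v * rt T lam θ v ^ 2 ≤
      flowMass T θ * (1 + flowMass T θ ^ 2) := by
  have hG : ∀ n, ∑ j ∈ range (n + 1), ∑ v ∈ T.level j, full T θ v * rt T lam θ v ^ 2 =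
      ∑ v ∈ T.level n, full T θ v * pp T lam θ n v := by
    intro n
    induction n with
    | zero => simp [pp]
    | succ n ih =>
      rw [sum_range_succ, ih]
      have h1 : ∑ v ∈ T.level (n + 1), full T θ v * pp T lam θ (n + 1) v =
          ∑ v ∈ T.level (n + 1), full T θ v * rt T lam θ v ^ 2 +
            ∑ v ∈ T.level (n + 1), full T θ v * pp T lam θ n (T.parent v) := by
        rw [← sum_add_distrib]
        refine sum_congr rfl fun v _ => ?_
        rw [pp]
        ring
      have h2 : ∑ v ∈ T.level (n + 1), full T θ v * pp T lam θ n (T.parent v) =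
          ∑ v ∈ T.level n, full T θ v * pp T lam θ n v := by
        rw [sum_level_succ T n (fun v => full T θ v * pp T lam θ n (T.parent v))]
        refine sum_congr rfl fun v _ => ?_
        conv_rhs => rw [full_eq h v]
        rw [sum_mul]
        refine sum_congr rfl fun c hc => ?_
        rw [((mem_children_iff T _ _).1 hc).2]
      rw [h1, h2]
      ring
  rw [hG n, ← sum_full h n, sum_mul]
  refine sum_le_sum fun v hv => ?_
  rcases (full_nonneg h v).eq_or_lt with h1 | h1
  · rw [← h1, zero_mul, zero_mul]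
  · rw [sum_full h n]
    refine mul_le_mul_of_nonneg_left ?_ h1.le
    have h2 := pp_le h h0 hr v h1
    rwa [(T.mem_level_iff n v).1 hv] at h2

end Crest.Agent.R163.Tr
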