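import Crest.Agent.R163.TLaw

/-!
# Row 163, S0246: the experiments on the tree
-/

set_option autoImplicit false

namespace Crest.Agent.R163.Tr

open Finset Crest.ProbabilityR.TreeBroadcast Crest.ProbabilityR.Broadcast

variable {V : Type*} [DecidableEq V]

/-- extension of a configuration by `0` -/
def extz {s : Finset V} (τ : s → Fin 4) : V → Fin 4 := fun v => if h : v ∈ s then τ ⟨v, h⟩ else 0

theorem extz_of_mem {s : Finset V} (τ : s → Fin 4) {v : V} (h : v ∈ s) : extz τ v = τ ⟨v, h⟩ :=
  dif_pos h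

/-- `lk T lam k v τ` depends only on the values of `τ` on `desc T k v` -/
theorem lk_congr (T : LocFinTree V) (lam : ℝ) (k : ℕ) (v : V) (τ τ' : V → Fin 4)
    (h : ∀ w ∈ desc T k v, τ w = τ' w) : lk T lam k v τ = lk T lam k v τ' := by
  induction k generalizing v with
  | zero =>
    funext a
    have h1 : τ v = τ' v := h v (Finset.mem_singleton_self v)
    rw [lk, lk, h1]
  | succ k ih =>
    funext a
    rw [lk, lk]
    refine Finset.prod_congr rfl fun c hc => Finset.sum_congr rfl fun b _ => ?_
    rw [ih c fun w hw => h w (Finset.mem_biUnion.2 ⟨c, hc, hw⟩)]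

/-- functions on a disjoint union -/
theorem exists_equiv_union {s t u : Finset V} (hu : u = s ∪ t) (hd : Disjoint s t) :
    ∃ e : (u → Fin 4) ≃ (s → Fin 4) × (t → Fin 4),
      ∀ τ : u → Fin 4, (∀ v ∈ s, extz τ v = extz (e τ).1 v) ∧ (∀ v ∈ t, extz τ v = extz (e τ).2 v) := by
  subst hu
  refine ⟨⟨fun τ => (fun v => τ ⟨v.1, Finset.mem_union_left _ v.2⟩,
    fun v => τ ⟨v.1, Finset.mem_union_right _ v.2⟩),
    fun p v => if h : v.1 ∈ s then p.1 ⟨v.1, h⟩ else
      p.2 ⟨v.1, (Finset.mem_union.1 v.2).resolve_left h⟩, ?_, ?_⟩, ?_⟩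
  · intro τ
    funext v
    by_cases h : v.1 ∈ s
    · simp only [dif_pos h]
    · simp only [dif_neg h]
  · rintro ⟨p1, p2⟩
    refine Prod.ext (funext fun v => ?_) (funext fun v => ?_)
    · simp only [dif_pos v.2]
    · have : v.1 ∉ s := fun h => Finset.disjoint_left.1 hd h v.2
      simp only [dif_neg this]
  · intro τ
    constructor
    · intro v hv
      rw [extz_of_mem _ (Finset.mem_union_left _ hv), extz_of_mem _ hv]
      rfl
    · intro v hv
      rw [extz_of_mem _ (Finset.mem_union_right _ hv), extz_of_mem _ hv]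
      rfl

theorem exists_equiv_list (T : LocFinTree V) (lam : ℝ) (k : ℕ)
    (ih : ∀ v, ∃ e : (desc T k v → Fin 4) ≃ (xp T lam k v).ι,
      ∀ τ a, (xp T lam k v).w (e τ) a = lk T lam k v (extz τ) a) (l : List V) :
    l.Nodup → (∀ c ∈ l, ∀ c' ∈ l, T.depth c = T.depth c') → ∀ s : Finset V,
      s = l.toFinset.biUnion (desc T k) →
      ∃ e : (s → Fin 4) ≃ (Xp.prod (l.map fun c => (xp T lam k c).ch lam)).ι,
      ∀ τ a, (Xp.prod (l.map fun c => (xp T lam k c).ch lam)).w (e τ) a =
        ∏ c ∈ l.toFinset, ∑ b, channel 4 lam a b * lk T lam k c (extz τ) b := by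
  induction l with
  | nil =>
    rintro _ _ s rfl
    have hemp : IsEmpty ((([] : List V).toFinset.biUnion (desc T k) : Finset V)) := by
      simp only [List.toFinset_nil, Finset.biUnion_empty]
      infer_instance
    refine ⟨@Equiv.ofUnique _ _ (Pi.uniqueOfIsEmpty _) (inferInstanceAs (Unique Unit)), ?_⟩
    intro τ a
    simp only [List.toFinset_nil, Finset.prod_empty]
    rfl
  | cons c l ih2 =>
    intro hnd hdep s hs
    have hc : c ∉ l := (List.nodup_cons.1 hnd).1
    obtain ⟨e2, he2⟩ := ih2 (List.nodup_cons.1 hnd).2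
      (fun x hx y hy => hdep x (List.mem_cons_of_mem _ hx) y (List.mem_cons_of_mem _ hy))
      (l.toFinset.biUnion (desc T k)) rfl
    obtain ⟨e1, he1⟩ := ih c
    have hu : s = desc T k c ∪ l.toFinset.biUnion (desc T k) := by
      rw [hs, List.toFinset_cons, Finset.biUnion_insert]
    have hd : Disjoint (desc T k c) (l.toFinset.biUnion (desc T k)) := by
      rw [Finset.disjoint_biUnion_right]
      intro c' hc'
      rw [List.mem_toFinset] at hc'
      exact desc_disjoint T k (fun h => hc (by rw [h]; exact hc'))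
        (hdep c (List.mem_cons_self ..) c' (List.mem_cons_of_mem _ hc'))
    obtain ⟨e0, he0⟩ := exists_equiv_union hu hd
    refine ⟨e0.trans (e1.prodCongr e2), fun τ a => ?_⟩
    have h1 : (Xp.prod ((c :: l).map fun c => (xp T lam k c).ch lam)).w
        ((e0.trans (e1.prodCongr e2)) τ) a =
        R163.ch lam (xp T lam k c).w (e1 (e0 τ).1) a *
          (Xp.prod (l.map fun c => (xp T lam k c).ch lam)).w (e2 (e0 τ).2) a := rfl
    have hct : c ∉ l.toFinset := by rwa [List.mem_toFinset]
    refine h1.trans ?_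
    rw [he2, List.toFinset_cons, Finset.prod_insert hct]
    congr 1
    · unfold R163.ch
      rw [← channel_sum]
      refine Finset.sum_congr rfl fun b _ => ?_
      rw [he1, lk_congr T lam k c (extz τ) (extz (e0 τ).1) (he0 τ).1]
    · refine Finset.prod_congr rfl fun c' hc' => Finset.sum_congr rfl fun b _ => ?_
      rw [lk_congr T lam k c' (extz τ) (extz (e0 τ).2)]
      intro w hw
      exact (he0 τ).2 w (Finset.mem_biUnion.2 ⟨c', hc', hw⟩)

/-- Induction on `k`.  `0`: `({v} → Fin 4) ≃ Fin 4`, `perfect`.  `k + 1`: more generally, for a duplicate free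
list `l` of vertices of the same depth there is a bijection
`e : ((l.toFinset.biUnion (desc T k)) → Fin 4) ≃ (Xp.prod (l.map fun c => (xp T lam k c).ch lam)).ι` with
`w (e τ) a = ∏ c ∈ l.toFinset, ∑ b, channel 4 lam a b * lk T lam k c (extz τ) b` (induction on `l`: functions on
a disjoint union = pairs of functions, `desc_disjoint`, `lk_congr`; `channel_sum` of Reg.lean for
`R163.ch lam w i a = lam * w i a + (1 - lam) * mass (w i)`). -/
theorem exists_equiv_xp (T : LocFinTree V) (lam : ℝ) (k : ℕ) (v : V) :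
    ∃ e : (desc T k v → Fin 4) ≃ (xp T lam k v).ι,
      ∀ τ a, (xp T lam k v).w (e τ) a = lk T lam k v (extz τ) a := by
  induction k generalizing v with
  | zero =>
    have hu : ∀ x : desc T 0 v, x = ⟨v, Finset.mem_singleton_self v⟩ := fun x =>
      Subtype.ext (Finset.mem_singleton.1 x.2)
    refine ⟨⟨fun τ => τ ⟨v, Finset.mem_singleton_self v⟩, fun a _ => a, ?_, ?_⟩, ?_⟩
    · intro τ
      funext x
      rw [hu x]
    · intro a; rfl
    · intro τ a
      have h1 : extz τ v = τ ⟨v, Finset.mem_singleton_self v⟩ := extz_of_mem τ _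
      rw [lk, h1]
      rfl
  | succ k ih =>
    have h1 := exists_equiv_list T lam k ih (T.children v).toList (Finset.nodup_toList _)
      (by
        intro c hc c' hc'
        rw [Finset.mem_toList, mem_children_iff] at hc hc'
        rw [hc.1, hc'.1]) (desc T (k + 1) v) (by
        rw [Finset.toList_toFinset]; rfl)
    obtain ⟨e, he⟩ := h1
    refine ⟨e, fun τ a => ?_⟩
    rw [lk]
    rw [Finset.toList_toFinset] at he
    exact he τ a

/-- `Ex` is a finite sum (`tsum_fintype`); `exists_equiv_xp`, `desc_root`, `levelLaw_eq`; `fTV` -/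
theorem treeAdvantage_eq (T : LocFinTree V) (lam : ℝ) (n : ℕ) :
    treeAdvantage 4 T lam n = (xp T lam n T.root).tv := by
  have h1 : ∃ e : (T.level n → Fin 4) ≃ (xp T lam n T.root).ι,
      ∀ τ a, (xp T lam n T.root).w (e τ) a = lk T lam n T.root (extz τ) a := by
    have := exists_equiv_xp T lam n T.root
    rwa [desc_root] at this
  obtain ⟨e, he⟩ := h1
  have h2 : ∀ (τ : T.level n → Fin 4) a, levelLaw 4 T lam n a τ =
      (xp T lam n T.root).w (e τ) a := by
    intro τ a
    rw [he, ← levelLaw_eq]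
    congr 1
    funext v
    exact (extz_of_mem τ v.2).symm
  unfold treeAdvantage Xp.tv Ex
  rw [tsum_fintype, ← Equiv.sum_comp e, Finset.mul_sum]
  refine Finset.sum_congr rfl fun τ _ => ?_
  unfold fTV mass
  simp only [h2]

end Crest.Agent.R163.Tr
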