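import Crest.Agent.R163.TFun

/-!
# Row 163, S0246: upper bounds for the product of the experiments of the children

`GB E c` : all gains of `E` over side informations in the class `KK ≥ 0` are at most `c`.
From the library: `gain_ch_le` (Gain5), `KK_mul_ge`, `KK_mul_nonneg` (KMul), `KK_ch_ge` (KCh), `X_nonneg`, `gain_le` (Main1),
`Ex_mul_assoc` (BasicC).
-/

set_option autoImplicit false

namespace Crest.Agent.R163.Tr

open Finset

universe u

/-- gains of `E` over the class `KK ≥ 0` are at most `c` -/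
def GB (E : Xp) (c : ℝ) : Prop :=
  ∀ (κ : Type) (P : κ → Fin 4 → ℝ), IsExp P → 0 ≤ R163.KK P → R163.gain P E.w ≤ c

/-- `GB` for one channel image: `gain_ch_le` -/
theorem GB.ch {E : Xp} (h : E.Ok) {c lam : ℝ} (hc : GB E c) (h0 : 0 ≤ lam) (h1 : lam ≤ 1) :
    GB (E.ch lam) (lam ^ 2 * ((1 - lam) * E.X + lam * c)) := by
  intro κ P hP hK
  have h2 := gain_ch_le (q := 4) (by norm_num) hP h.isExp h.isSymm lam h0 h1
  have h3 := hc κ P hP hK
  have h4 : 0 ≤ R163.X E.w := R163.X_nonneg h.isExp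
  refine le_trans h2 ?_
  refine mul_le_mul_of_nonneg_left ?_ (sq_nonneg lam)
  have h5 : R163.X E.w * (1 - R163.KK P / (((4 : ℕ) : ℝ) - 1)) ≤ R163.X E.w := by
    refine mul_le_of_le_one_right h4 ?_
    have : 0 ≤ R163.KK P / (((4 : ℕ) : ℝ) - 1) := div_nonneg hK (by norm_num)
    linarith
  have h6 := mul_le_mul_of_nonneg_left h5 (sub_nonneg.2 h1)
  have h7 := mul_le_mul_of_nonneg_left h3 h0
  have h8 : E.X = R163.X E.w := rfl
  rw [h8]
  linarith

/-- chain rule: `gain P (mul E F) = gain P E + gain (mul P E) F` (`Ex_mul_assoc`), `KK_mul_nonneg` -/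
theorem GB.mul {E F : Xp} (hE : E.Ok) (hF : F.Ok) (hK : 0 ≤ E.KK) {c d : ℝ} (h : GB E c) (h' : GB F d) :
    GB (E.mul F) (c + d) := by
  intro κ P hP hKP
  have h1 := h κ P hP hKP
  have h2 := h' _ (R163.mul P E.w) (isExp_mul hP hE.isExp)
    (KK_mul_nonneg (Or.inr rfl) hP hE.isExp hE.isSymm hKP hK)
  have h3 : R163.X (R163.mul (R163.mul P E.w) F.w) = R163.X (R163.mul P (E.mul F).w) :=
    Ex_mul_assoc P E.w F.w fX
  unfold R163.gain at h1 h2 ⊢
  rw [← h3]
  linarith

private theorem X_mul_triv {κ : Type} (P : κ → Fin 4 → ℝ) :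
    R163.X (R163.mul P Xp.triv.w) = R163.X P := by
  unfold R163.X Ex
  have e : (∑' i : κ × Unit, fX (R163.mul P (trivE 4) i)) = ∑' k : κ, fX (P k) := by
    rw [← (Equiv.prodPUnit κ).symm.tsum_eq]
    refine tsum_congr fun k => ?_
    congr 1
    funext a
    simp [R163.mul, trivE]
  exact e

private theorem GB_triv : GB Xp.triv 0 := by
  intro κ P _ _
  unfold R163.gain
  rw [X_mul_triv, sub_self]

private theorem KK_triv : Xp.triv.KK = 0 := by
  have h : R163.KK (trivE 4) = 0 := by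
    unfold R163.KK Ex
    rw [tsum_fintype]
    simp [fK, kf, m2, m3, uv, mass, trivE]
  exact h

private theorem KK_ch_nonneg {E : Xp} (h : E.Ok) (hK : 0 ≤ E.KK) {lam : ℝ} (h0 : 0 ≤ lam)
    (h1 : lam ≤ 1) : 0 ≤ (E.ch lam).KK := by
  have h2 := KK_ch_ge (q := 4) (by norm_num) le_rfl h.isExp hK lam h0 h1
  refine le_trans ?_ h2
  have : 0 ≤ 1 - lam := sub_nonneg.2 h1
  positivity

/-- the class is closed: `KK (prod (l.map ch)) ≥ 0` -/
theorem KK_prod_nonneg {V : Type*} (l : List V) (E : V → Xp) {lam : ℝ} (h0 : 0 ≤ lam) (h1 : lam ≤ 1)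
    (hE : ∀ v ∈ l, (E v).Ok) (hK : ∀ v ∈ l, 0 ≤ (E v).KK) :
    0 ≤ (Xp.prod (l.map fun v => (E v).ch lam)).KK := by
  induction l with
  | nil => exact KK_triv.ge
  | cons v l ih =>
    have hv := hE v (by simp)
    have hKv := hK v (by simp)
    have hl : (Xp.prod (l.map fun v => (E v).ch lam)).Ok := Xp.Ok.prod fun F hF => by
      obtain ⟨w, hw, rfl⟩ := List.mem_map.1 hF
      exact (hE w (by simp [hw])).ch h0 h1
    exact KK_mul_nonneg (Or.inr rfl) (hv.ch h0 h1).isExp hl.isExp hl.isSymm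
      (KK_ch_nonneg hv hKv h0 h1)
      (ih (fun w hw => hE w (by simp [hw])) (fun w hw => hK w (by simp [hw])))

/-- lists (`GB triv 0`, `GB.ch`, `GB.mul`, `KK_ch_ge`) -/
theorem GB.prod {V : Type*} (l : List V) (E : V → Xp) (c : V → ℝ) {lam : ℝ} (h0 : 0 ≤ lam) (h1 : lam ≤ 1)
    (hE : ∀ v ∈ l, (E v).Ok) (hK : ∀ v ∈ l, 0 ≤ (E v).KK) (hc : ∀ v ∈ l, GB (E v) (c v)) :
    GB (Xp.prod (l.map fun v => (E v).ch lam))
      (l.map fun v => lam ^ 2 * ((1 - lam) * (E v).X + lam * c v)).sum := by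
  induction l with
  | nil => exact GB_triv
  | cons v l ih =>
    have hv := hE v (by simp)
    have hKv := hK v (by simp)
    have hl : (Xp.prod (l.map fun v => (E v).ch lam)).Ok := Xp.Ok.prod fun F hF => by
      obtain ⟨w, hw, rfl⟩ := List.mem_map.1 hF
      exact (hE w (by simp [hw])).ch h0 h1
    rw [List.map_cons, List.map_cons, List.sum_cons]
    exact GB.mul (hv.ch h0 h1) hl (KK_ch_nonneg hv hKv h0 h1)
      (GB.ch hv (hc v (by simp)) h0 h1)
      (ih (fun w hw => hE w (by simp [hw])) (fun w hw => hK w (by simp [hw]))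
        (fun w hw => hc w (by simp [hw])))

end Crest.Agent.R163.Tr
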