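import Crest.Agent.R163.T0

/-!
# Row 163, S0246: the weight `alpha` on interior vectors
-/

set_option autoImplicit false

namespace Crest.Agent.R163.Tr

open Finset

/-- the weight `alpha` is positive on interior vectors: `m2 (uv v) ≤ 3 - δ` -/
theorem fal_ge {d : ℝ} (hd : 0 < d) : ∃ c : ℝ, 0 < c ∧ ∀ v : Fin 4 → ℝ, (∀ a, 0 ≤ v a) →
    (∀ a, d * mass v ≤ v a) → c * mass v ≤ fal v := by
  refine ⟨(1/256) * d ^ 2, by positivity, fun v hv h => ?_⟩
  have hm0 := mass_nonneg v hv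
  rcases hm0.eq_or_lt with h0 | hm
  · unfold fal; rw [← h0]; simp
  · unfold fal
    rw [mul_comm]
    refine mul_le_mul_of_nonneg_left ?_ hm0
    have hsum : v 0 + v 1 + v 2 + v 3 = 4 * mass v := by
      unfold mass
      rw [Fin.sum_univ_four]
      push_cast
      ring
    have h0 := h 0
    have h1 := h 1
    have h2 := h 2
    have h3 := h 3
    have p0 := hv 0
    have p1 := hv 1
    have p2 := hv 2
    have p3 := hv 3
    obtain ⟨m, hmm⟩ : ∃ m, m = mass v := ⟨_, rfl⟩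
    rw [← hmm] at hsum h0 h1 h2 h3 hm
    have hsq : v 0 ^ 2 + v 1 ^ 2 + v 2 ^ 2 + v 3 ^ 2 ≤ (4 - 3 * d) * m * (4 * m) := by
      have e0 : v 0 ≤ (4 - 3 * d) * m := by nlinarith
      have e1 : v 1 ≤ (4 - 3 * d) * m := by nlinarith
      have e2 : v 2 ≤ (4 - 3 * d) * m := by nlinarith
      have e3 : v 3 ≤ (4 - 3 * d) * m := by nlinarith
      have f0 := mul_le_mul_of_nonneg_right e0 p0
      have f1 := mul_le_mul_of_nonneg_right e1 p1
      have f2 := mul_le_mul_of_nonneg_right e2 p2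
      have f3 := mul_le_mul_of_nonneg_right e3 p3
      rw [← hsum]
      nlinarith
    have hm2 : m2 (uv v) ≤ 3 - 3 * d := by
      have e : m2 (uv v) = (v 0 ^ 2 + v 1 ^ 2 + v 2 ^ 2 + v 3 ^ 2) / (4 * m ^ 2) - 1 := by
        unfold m2 uv
        rw [Fin.sum_univ_four, ← hmm]
        field_simp
        push_cast
        nlinarith
      rw [e]
      have h5 : (v 0 ^ 2 + v 1 ^ 2 + v 2 ^ 2 + v 3 ^ 2) / (4 * m ^ 2) ≤ 4 - 3 * d := by
        rw [div_le_iff₀ (by positivity)]
        nlinarith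
      linarith
    have h6 : d ≤ 1 - m2 (uv v) / 3 := by linarith
    have h7 := alf4_ge v hv (by rw [← hmm]; exact hm.ne')
    have h8 : d ^ 2 ≤ (1 - m2 (uv v) / 3) ^ 2 := pow_le_pow_left₀ hd.le h6 2
    have h9 : alf (uv v) = alf4 (uv v) := by unfold alf; rw [if_pos rfl]
    rw [h9]
    linarith

theorem interior_aux {lam : ℝ} (h0 : 0 ≤ lam) (h1 : lam < 1) (l : List Xp) (hl : ∀ E ∈ l, E.Ok) :
    ∀ i a, ((1 - lam) / 4) ^ l.length * mass ((Xp.prod (l.map fun E => E.ch lam)).w i) ≤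
      (Xp.prod (l.map fun E => E.ch lam)).w i a := by
  induction l with
  | nil =>
    intro i a
    have e : mass (fun _ : Fin 4 => (1 : ℝ)) = 1 := by
      unfold mass; simp
    change ((1 - lam) / 4) ^ 0 * mass (fun _ : Fin 4 => (1 : ℝ)) ≤ 1
    rw [e]; norm_num
  | cons E l ih =>
    rintro ⟨i, j⟩ a
    have hE : E.Ok := hl E (by simp)
    have hl' : ∀ F ∈ l, F.Ok := fun F hF => hl F (by simp [hF])
    have ih' := ih hl' j a
    have hP : (Xp.prod (l.map fun E => E.ch lam)).Ok := by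
      refine Xp.Ok.prod fun F hF => ?_
      obtain ⟨G, hG, rfl⟩ := List.mem_map.1 hF
      exact (hl' G hG).ch h0 h1.le
    have hC : (E.ch lam).Ok := hE.ch h0 h1.le
    have hu : ∀ b, 0 ≤ (E.ch lam).w i b := hC.isExp.nonneg i
    have hu' : ∀ b, 0 ≤ (Xp.prod (l.map fun E => E.ch lam)).w j b := hP.isExp.nonneg j
    obtain ⟨u, huu⟩ : ∃ u, u = (E.ch lam).w i := ⟨_, rfl⟩
    obtain ⟨u', huu'⟩ : ∃ u', u' = (Xp.prod (l.map fun E => E.ch lam)).w j := ⟨_, rfl⟩
    rw [← huu] at hu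
    rw [← huu'] at hu' ih'
    have hmu := mass_nonneg u hu
    have hmu' := mass_nonneg u' hu'
    have hua : (1 - lam) * mass u ≤ u a := by
      have e1 : mass u = mass (E.w i) := by
        rw [huu]; exact mass_ch (by norm_num) lam E.w i
      rw [e1, huu]
      change (1 - lam) * mass (E.w i) ≤ lam * E.w i a + (1 - lam) * mass (E.w i)
      have := mul_nonneg h0 (hE.isExp.nonneg i a)
      linarith
    have hprod : mass (fun b => u b * u' b) ≤ 4 * (mass u * mass u') := by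
      have e2 : ∑ b, u b * u' b ≤ ∑ b, u b * (4 * mass u') :=
        Finset.sum_le_sum fun b _ => mul_le_mul_of_nonneg_left (by
          have := le_mass (q := 4) (by norm_num) u' hu' b
          exact_mod_cast this) (hu b)
      have e3 : mass (fun b => u b * u' b) = (1 / ((4 : ℕ) : ℝ)) * ∑ b, u b * u' b := rfl
      have e4 : mass u = (1 / ((4 : ℕ) : ℝ)) * ∑ b, u b := rfl
      rw [← Finset.sum_mul] at e2
      rw [e3]
      have e5 : (1 / ((4 : ℕ) : ℝ)) * ∑ b, u b * u' b ≤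
          (1 / ((4 : ℕ) : ℝ)) * ((∑ b, u b) * (4 * mass u')) :=
        mul_le_mul_of_nonneg_left e2 (by positivity)
      refine e5.trans (le_of_eq ?_)
      rw [e4]; ring
    have hgoal : ((1 - lam) / 4) ^ (l.length + 1) * mass (fun b => u b * u' b) ≤ u a * u' a := by
      have hq : 0 ≤ (1 - lam) / 4 := by linarith
      have hqn : 0 ≤ ((1 - lam) / 4) ^ l.length := pow_nonneg hq _
      calc ((1 - lam) / 4) ^ (l.length + 1) * mass (fun b => u b * u' b)
          ≤ ((1 - lam) / 4) ^ (l.length + 1) * (4 * (mass u * mass u')) :=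
            mul_le_mul_of_nonneg_left hprod (pow_nonneg hq _)
        _ = ((1 - lam) * mass u) * (((1 - lam) / 4) ^ l.length * mass u') := by ring
        _ ≤ u a * u' a := mul_le_mul hua ih' (mul_nonneg hqn hmu') (hu a)
    rw [List.length_cons]
    rw [huu, huu'] at hgoal
    exact hgoal

/-- products of at most `B` channel images are interior: `w a ≥ (1-λ) mass w` for a channel image, for the product
`∏ w_i a ≥ (1-λ)^B ∏ mass_i ≥ ((1-λ)/4)^B mass (∏ w_i)` -/
theorem interior {lam : ℝ} (h0 : 0 ≤ lam) (h1 : lam < 1) (B : ℕ) : ∃ d : ℝ, 0 < d ∧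
    ∀ l : List Xp, l.length ≤ B → (∀ E ∈ l, E.Ok) → ∀ i a,
      d * mass ((Xp.prod (l.map fun E => E.ch lam)).w i) ≤ (Xp.prod (l.map fun E => E.ch lam)).w i a := by
  have hq : 0 < (1 - lam) / 4 := by linarith
  refine ⟨((1 - lam) / 4) ^ B, pow_pos hq _, fun l hlB hl i a => ?_⟩
  refine le_trans ?_ (interior_aux h0 h1 l hl i a)
  refine mul_le_mul_of_nonneg_right (pow_le_pow_of_le_one hq.le (by linarith) hlB) ?_
  have hP : (Xp.prod (l.map fun E => E.ch lam)).Ok := by
    refine Xp.Ok.prod fun F hF => ?_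
    obtain ⟨G, hG, rfl⟩ := List.mem_map.1 hF
    exact (hl G hG).ch h0 h1.le
  exact mass_nonneg _ (hP.isExp.nonneg i)

/-- `Al ≥ c` for products of at most `B` channel images (`fal_ge`, `interior`, `∑ mass = 1`) -/
theorem Al_prod_ge {lam : ℝ} (h0 : 0 ≤ lam) (h1 : lam < 1) (B : ℕ) : ∃ c : ℝ, 0 < c ∧ c ≤ 1 ∧
    ∀ l : List Xp, l.length ≤ B → (∀ E ∈ l, E.Ok) → c ≤ Al (Xp.prod (l.map fun E => E.ch lam)).w := by
  obtain ⟨d, hd, hint⟩ := interior h0 h1 B
  obtain ⟨c, hc, hfal⟩ := fal_ge hd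
  refine ⟨min c 1, lt_min hc one_pos, min_le_right _ _, fun l hlB hl => ?_⟩
  have hP : (Xp.prod (l.map fun E => E.ch lam)).Ok := by
    refine Xp.Ok.prod fun F hF => ?_
    obtain ⟨G, hG, rfl⟩ := List.mem_map.1 hF
    exact (hl G hG).ch h0 h1.le
  have hm := hP.isExp.hasSum_mass (by norm_num)
  have hm1 : ∑ i, mass ((Xp.prod (l.map fun E => E.ch lam)).w i) = 1 := by
    rw [← tsum_fintype (L := .unconditional _)]; exact hm.tsum_eq
  unfold Al Ex
  rw [tsum_fintype]
  calc min c 1 = ∑ i, min c 1 * mass ((Xp.prod (l.map fun E => E.ch lam)).w i) := by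
        rw [← Finset.mul_sum, hm1, mul_one]
    _ ≤ _ := by
        refine Finset.sum_le_sum fun i _ => ?_
        have hn := hP.isExp.nonneg i
        refine (mul_le_mul_of_nonneg_right (min_le_left _ _) (mass_nonneg _ hn)).trans ?_
        exact hfal _ hn (hint l hlB hl i)

end Crest.Agent.R163.Tr
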