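import Crest.Agent.R163.TUpA
import Crest.Agent.R163.TUp

/-!
# Row 163, S0246: `KK` of a product
-/

set_option autoImplicit false

namespace Crest.Agent.R163.Tr

open Finset

private theorem Al_mul_triv (E : Xp) : Al (Xp.prod [E]).w = Al E.w := by
  have e : (∑' i : E.ι × Unit, fal (R163.mul E.w (trivE 4) i)) = ∑' k : E.ι, fal (E.w k) := by
    rw [← (Equiv.prodPUnit E.ι).symm.tsum_eq]
    refine tsum_congr fun k => ?_
    congr 1
    funext a
    simp [R163.mul, trivE]
  exact e

private theorem KK_triv' : R163.KK (trivE 4) = 0 := by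
  unfold R163.KK Ex
  rw [tsum_fintype]
  simp [fK, kf, m2, m3, uv, mass, trivE]

/-- `KK (prod) ≥ k₀ ∑ X²`: induction with `KK_mul_ge`, `Al_prod_ge` (also for the one element list) and
`KK (ch λ E) ≥ λ³(1-λ) X²` (`KK_ch_ge`) -/
theorem KK_prod_ge {lam : ℝ} (h0 : 0 < lam) (h1 : lam < 1) (B : ℕ) : ∃ k₀ : ℝ, 0 < k₀ ∧
    ∀ l : List Xp, l.length ≤ B → (∀ E ∈ l, E.Ok) → (∀ E ∈ l, 0 ≤ E.KK) →
      k₀ * (l.map fun E => E.X ^ 2).sum ≤ (Xp.prod (l.map fun E => E.ch lam)).KK := by
  obtain ⟨c, hc0, hc1, hc⟩ := Al_prod_ge h0.le h1 B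
  set m : ℝ := lam ^ 3 * (1 - lam) with hm
  have hm0 : 0 < m := mul_pos (pow_pos h0 3) (sub_pos.2 h1)
  have key : ∀ l : List Xp, l.length ≤ B → (∀ E ∈ l, E.Ok) → (∀ E ∈ l, 0 ≤ E.KK) →
      c ^ l.length * m * (l.map fun E => E.X ^ 2).sum ≤
        (Xp.prod (l.map fun E => E.ch lam)).KK := by
    intro l
    induction l with
    | nil =>
      intro _ _ _
      have : (Xp.prod (([] : List Xp).map fun E => E.ch lam)).KK = 0 := KK_triv'
      rw [this]
      simp
    | cons E l ih =>
      intro hlen hOk hKK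
      have hE := hOk E (by simp)
      have hKE := hKK E (by simp)
      have hlen' : l.length ≤ B := by
        have : (E :: l).length = l.length + 1 := List.length_cons
        omega
      have hOk' : ∀ F ∈ l, F.Ok := fun F hF => hOk F (by simp [hF])
      have hKK' : ∀ F ∈ l, 0 ≤ F.KK := fun F hF => hKK F (by simp [hF])
      have hl : (Xp.prod (l.map fun E => E.ch lam)).Ok := Xp.Ok.prod fun F hF => by
        obtain ⟨w, hw, rfl⟩ := List.mem_map.1 hF
        exact (hOk' w hw).ch h0.le h1.le
      have e1 := ih hlen' hOk' hKK'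
      have e2 := KK_mul_ge (q := 4) (Or.inr rfl) (hE.ch h0.le h1.le).isExp hl.isExp hl.isSymm
      have e3 := KK_ch_ge (q := 4) (by norm_num) le_rfl hE.isExp hKE lam h0.le h1.le
      have e4 := hc l hlen' hOk'
      have e5 : c ≤ Al (E.ch lam).w := by
        have := hc [E] (by
          have : (E :: l).length = l.length + 1 := List.length_cons
          simp only [List.length_singleton]; omega) (by simpa using hE)
        rw [List.map_singleton, Al_mul_triv] at this
        exact this
      have hX : 0 ≤ E.X ^ 2 := sq_nonneg _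
      have hS : 0 ≤ (l.map fun E => E.X ^ 2).sum := List.sum_nonneg (by
        intro x hx
        obtain ⟨w, _, rfl⟩ := List.mem_map.1 hx
        exact sq_nonneg _)
      have hcn : c ^ l.length ≤ 1 := pow_le_one₀ hc0.le hc1
      have hcn0 : 0 < c ^ l.length := pow_pos hc0 _
      have e6 : 0 ≤ (E.ch lam).KK := le_trans (by
        have := hm0.le
        rw [hm] at this
        exact mul_nonneg this hX) e3
      have e7 : 0 ≤ (Xp.prod (l.map fun E => E.ch lam)).KK :=
        le_trans (mul_nonneg (mul_nonneg hcn0.le hm0.le) hS) e1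
      have e8 : c * (m * E.X ^ 2) ≤ Al (Xp.prod (l.map fun E => E.ch lam)).w * (E.ch lam).KK :=
        mul_le_mul e4 e3 (mul_nonneg hm0.le hX) (hc0.le.trans e4)
      have e9 : c * (c ^ l.length * m * (l.map fun E => E.X ^ 2).sum) ≤
          Al (E.ch lam).w * (Xp.prod (l.map fun E => E.ch lam)).KK :=
        mul_le_mul e5 e1 (mul_nonneg (mul_nonneg hcn0.le hm0.le) hS) (hc0.le.trans e5)
      have e10 : (Xp.prod ((E :: l).map fun E => E.ch lam)).KK =
          R163.KK (R163.mul (E.ch lam).w (Xp.prod (l.map fun E => E.ch lam)).w) := rfl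
      have e11 : Al (Xp.prod (l.map fun E => E.ch lam)).w * (E.ch lam).KK +
          Al (E.ch lam).w * (Xp.prod (l.map fun E => E.ch lam)).KK ≤
          (Xp.prod ((E :: l).map fun E => E.ch lam)).KK := e2
      rw [List.map_cons, List.sum_cons, List.length_cons, pow_succ]
      refine le_trans ?_ e11
      have e12 : c ^ l.length * c * m * E.X ^ 2 ≤ c * (m * E.X ^ 2) := by
        have : c ^ l.length * (c * (m * E.X ^ 2)) ≤ 1 * (c * (m * E.X ^ 2)) :=
          mul_le_mul_of_nonneg_right hcn (by positivity)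
        nlinarith
      nlinarith
  refine ⟨c ^ B * m, mul_pos (pow_pos hc0 B) hm0, fun l hl h2 h3 => le_trans ?_ (key l hl h2 h3)⟩
  have hS : 0 ≤ (l.map fun E => E.X ^ 2).sum := List.sum_nonneg (by
    intro x hx
    obtain ⟨w, _, rfl⟩ := List.mem_map.1 hx
    exact sq_nonneg _)
  refine mul_le_mul_of_nonneg_right ?_ hS
  exact mul_le_mul_of_nonneg_right (pow_le_pow_of_le_one hc0.le hc1 hl) hm0.le

end Crest.Agent.R163.Tr
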