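import Crest.Agent.R163.TUpC

/-!
# Row 163, S0246: the cubic gain
-/

set_option autoImplicit false

namespace Crest.Agent.R163.Tr

open Finset

universe u

theorem Ex_mul_comm_upD (E F : Xp) (G : (Fin 4 → ℝ) → ℝ) :
    Ex G (E.mul F).w = Ex G (F.mul E).w := by
  have h : Ex G (R163.mul E.w F.w) = Ex G (R163.mul F.w E.w) := by
    unfold Ex
    rw [← (Equiv.prodComm F.ι E.ι).tsum_eq]
    refine tsum_congr fun p => ?_
    congr 1
    funext a
    exact mul_comm _ _
  exact h

/-- **the cubic gain**.  Induction with `Finset.induction_on_min_value (fun v => (E v).X)`: for `insert a s`, `X a ≤ X b`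
for `b ∈ s`; `(insert a s).toList ~ a :: s.toList` (`Ex_prod_perm`); `P = prod` over `s`:
`X (prod (insert a s)) = X P + gain P (ch E_a) ≤ X P + λ²((1-λ) X_a (1 - KK P / 3) + λ c a)` (`gain_ch_le`) and
`KK P ≥ k₀ ∑_{b ∈ s} X_b²` (`KK_prod_ge`); `X_b² X_a ≥ X_a² X_b`; so `k₁ = λ²(1-λ) k₀ / 6`. -/
theorem X_prod_le {lam : ℝ} (h0 : 0 < lam) (h1 : lam < 1) (B : ℕ) : ∃ k₁ : ℝ, 0 < k₁ ∧
    ∀ {V : Type u} [DecidableEq V] (s : Finset V) (E : V → Xp) (c : V → ℝ), s.card ≤ B →
      (∀ v ∈ s, (E v).Ok) → (∀ v ∈ s, 0 ≤ (E v).KK) → (∀ v ∈ s, GB (E v) (c v)) →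
      (Xp.prod (s.toList.map fun v => (E v).ch lam)).X ≤
        ∑ v ∈ s, lam ^ 2 * ((1 - lam) * (E v).X + lam * c v) -
          k₁ * ∑ v ∈ s, ∑ w ∈ s.erase v, (E v).X ^ 2 * (E w).X := by
  obtain ⟨k₀, hk₀, hKK⟩ := KK_prod_ge h0 h1 B
  refine ⟨lam ^ 2 * (1 - lam) * k₀ / 6, by
    have : 0 < 1 - lam := by linarith
    positivity, ?_⟩
  intro V _ s E c
  refine Finset.induction_on_min_value (fun v => (E v).X) s ?_ ?_
  · intro _ _ _ _
    simp only [Finset.toList_empty, List.map_nil, Finset.sum_empty, mul_zero, sub_zero]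
    exact le_of_eq X_triv
  · intro a s ha hmin ih hcard hOk hK hGB
    rw [Finset.card_insert_of_notMem ha] at hcard
    have ih' := ih (by omega) (fun v hv => hOk v (Finset.mem_insert_of_mem hv))
      (fun v hv => hK v (Finset.mem_insert_of_mem hv)) (fun v hv => hGB v (Finset.mem_insert_of_mem hv))
    have hOka := hOk a (Finset.mem_insert_self a s)
    set P : Xp := Xp.prod (s.toList.map fun v => (E v).ch lam) with hPdef
    have hPOk : P.Ok := by
      refine Xp.Ok.prod fun F hF => ?_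
      obtain ⟨v, hv, rfl⟩ := List.mem_map.1 hF
      exact (hOk v (Finset.mem_insert_of_mem (Finset.mem_toList.1 hv))).ch h0.le h1.le
    have hKP : k₀ * ∑ v ∈ s, (E v).X ^ 2 ≤ P.KK := by
      have h := hKK (s.toList.map E) (by
        rw [List.length_map, Finset.length_toList]; omega) (by
        intro F hF
        obtain ⟨v, hv, rfl⟩ := List.mem_map.1 hF
        exact hOk v (Finset.mem_insert_of_mem (Finset.mem_toList.1 hv))) (by
        intro F hF
        obtain ⟨v, hv, rfl⟩ := List.mem_map.1 hF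
        exact hK v (Finset.mem_insert_of_mem (Finset.mem_toList.1 hv)))
      rw [List.map_map, List.map_map] at h
      rw [← Finset.sum_map_toList]
      exact h
    have hKP0 : 0 ≤ P.KK := le_trans (mul_nonneg hk₀.le (Finset.sum_nonneg fun v _ => sq_nonneg _)) hKP
    have hXeq : (Xp.prod ((insert a s).toList.map fun v => (E v).ch lam)).X =
        P.X + R163.gain P.w (R163.ch lam (E a).w) := by
      have hperm : ((insert a s).toList.map fun v => (E v).ch lam).Perm
          (((E a).ch lam) :: (s.toList.map fun v => (E v).ch lam)) := by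
        have := (Finset.toList_insert ha).map fun v => (E v).ch lam
        simpa using this
      have h2 : (Xp.prod ((insert a s).toList.map fun v => (E v).ch lam)).X =
          (((E a).ch lam).mul P).X := Ex_prod_perm hperm fX
      have h3 : (((E a).ch lam).mul P).X = (P.mul ((E a).ch lam)).X := Ex_mul_comm_upD _ _ _
      rw [h2, h3]
      unfold gain
      have h4 : (P.mul ((E a).ch lam)).X = R163.X (R163.mul P.w (R163.ch lam (E a).w)) := rfl
      have h5 : P.X = R163.X P.w := rfl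
      rw [h4, h5]; ring
    have hg1 := gain_ch_le (q := 4) (by norm_num) hPOk.isExp hOka.isExp hOka.isSymm lam h0.le h1.le
    have hg2 : R163.gain P.w (E a).w ≤ c a := hGB a (Finset.mem_insert_self a s) P.ι P.w hPOk.isExp hKP0
    have hXa : 0 ≤ (E a).X := X_nonneg' hOka
    have hXs : ∀ v ∈ s, 0 ≤ (E v).X := fun v hv => X_nonneg' (hOk v (Finset.mem_insert_of_mem hv))
    rw [hXeq, Finset.sum_insert ha, Finset.sum_insert ha, Finset.erase_insert ha]
    have hsum : ∑ v ∈ s, ∑ w ∈ (insert a s).erase v, (E v).X ^ 2 * (E w).X =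
        ∑ v ∈ s, (E v).X ^ 2 * (E a).X + ∑ v ∈ s, ∑ w ∈ s.erase v, (E v).X ^ 2 * (E w).X := by
      rw [← Finset.sum_add_distrib]
      refine Finset.sum_congr rfl fun v hv => ?_
      have hne : a ≠ v := fun h => ha (h ▸ hv)
      rw [Finset.erase_insert_of_ne hne, Finset.sum_insert]
      intro h
      exact ha (Finset.mem_of_mem_erase h)
    rw [hsum]
    have hle : ∑ w ∈ s, (E a).X ^ 2 * (E w).X ≤ ∑ v ∈ s, (E v).X ^ 2 * (E a).X := by
      refine Finset.sum_le_sum fun v hv => ?_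
      have h1 := hmin v hv
      have h2 := hXs v hv
      have h3 : 0 ≤ (E a).X * (E v).X := mul_nonneg hXa h2
      nlinarith
    have hpull : ∑ v ∈ s, (E v).X ^ 2 * (E a).X = (∑ v ∈ s, (E v).X ^ 2) * (E a).X := by
      rw [Finset.sum_mul]
    have hXaeq : R163.X (E a).w = (E a).X := rfl
    have hKeq : R163.KK P.w = P.KK := rfl
    rw [hXaeq, hKeq] at hg1
    have h1l : 0 < 1 - lam := by linarith
    set Q := ∑ v ∈ s, (E v).X ^ 2 with hQ
    set S1 := ∑ w ∈ s, (E a).X ^ 2 * (E w).X with hS1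
    rw [hpull] at hle
    rw [hpull]
    set S2 := ∑ v ∈ s, ∑ w ∈ s.erase v, (E v).X ^ 2 * (E w).X with hS2
    have h4 : ((4 : ℕ) : ℝ) - 1 = 3 := by norm_num
    rw [h4] at hg1
    have hA : lam ^ 2 * (1 - lam) * (E a).X * (k₀ * Q) ≤ lam ^ 2 * (1 - lam) * (E a).X * P.KK :=
      mul_le_mul_of_nonneg_left hKP (by positivity)
    have hB : lam ^ 2 * lam * R163.gain P.w (E a).w ≤ lam ^ 2 * lam * c a :=
      mul_le_mul_of_nonneg_left hg2 (by positivity)
    have hC : lam ^ 2 * (1 - lam) * k₀ / 6 * S1 ≤ lam ^ 2 * (1 - lam) * k₀ / 6 * (Q * (E a).X) :=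
      mul_le_mul_of_nonneg_left hle (by positivity)
    nlinarith [hA, hB, hC, hg1, ih']

end Crest.Agent.R163.Tr
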