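import Mathlib

/-!
# Row 163, S0246: the real inequality for `Z = Y + η Y³`, `Y = x + α D`
-/

set_option autoImplicit false

namespace Crest.Agent.R163.Tr

open Finset

universe u

/-- `Y + η Y³`, `Y = x + α D` -/
noncomputable def zf (α η x D : ℝ) : ℝ := (x + α * D) + η * (x + α * D) ^ 3

/-- `(∑ Y)³ ≤ ∑ Y³ + C ∑_{i ≠ j} Y_i² Y_j`, `C` depending on the number of terms (e.g. `C = 3 + 6 B`): induction on `s`
or `Y_i Y_j Y_k ≤ Y_i² Y_j + Y_j² Y_k + Y_k² Y_i`, ... -/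
theorem sum_cube_le (B : ℕ) : ∃ C : ℝ, 0 < C ∧ ∀ {ι : Type u} [DecidableEq ι] (s : Finset ι) (Y : ι → ℝ),
    s.card ≤ B → (∀ i ∈ s, 0 ≤ Y i) →
    (∑ i ∈ s, Y i) ^ 3 ≤ ∑ i ∈ s, Y i ^ 3 + C * ∑ i ∈ s, ∑ j ∈ s.erase i, Y i ^ 2 * Y j := by
  refine ⟨3 + 3 * B, by positivity, ?_⟩
  intro ι _ s Y
  induction s using Finset.induction_on with
  | empty => intro _ _; simp
  | insert a t ha ih =>
    intro hc hY
    have hca : t.card ≤ B := le_trans (Finset.card_le_card (Finset.subset_insert a t)) hc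
    have hYt : ∀ i ∈ t, 0 ≤ Y i := fun i hi => hY i (Finset.mem_insert_of_mem hi)
    have hYa : 0 ≤ Y a := hY a (Finset.mem_insert_self a t)
    have ih' := ih hca hYt
    rw [Finset.sum_insert ha, Finset.sum_insert ha, Finset.sum_insert ha, Finset.erase_insert ha]
    have h1 : ∑ i ∈ t, ∑ j ∈ (insert a t).erase i, Y i ^ 2 * Y j
        = ∑ i ∈ t, Y i ^ 2 * Y a + ∑ i ∈ t, ∑ j ∈ t.erase i, Y i ^ 2 * Y j := by
      rw [← Finset.sum_add_distrib]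
      refine Finset.sum_congr rfl fun i hi => ?_
      have hne : a ≠ i := fun h => ha (h ▸ hi)
      rw [Finset.erase_insert_of_ne hne, Finset.sum_insert]
      intro h; exact ha (Finset.mem_of_mem_erase h)
    rw [h1, ← Finset.mul_sum, ← Finset.sum_mul]
    have h2 : (∑ i ∈ t, Y i) ^ 2 ≤ B * ∑ i ∈ t, Y i ^ 2 := by
      have h3 := sq_sum_le_card_mul_sum_sq (s := t) (f := Y)
      have h4 : (t.card : ℝ) ≤ B := by exact_mod_cast hca
      have h5 : 0 ≤ ∑ i ∈ t, Y i ^ 2 := Finset.sum_nonneg fun i _ => sq_nonneg _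
      nlinarith
    have hS : 0 ≤ ∑ i ∈ t, Y i := Finset.sum_nonneg hYt
    have hQ : 0 ≤ ∑ i ∈ t, Y i ^ 2 := Finset.sum_nonneg fun i _ => sq_nonneg _
    set S := ∑ i ∈ t, Y i
    set Q := ∑ i ∈ t, Y i ^ 2
    set P := ∑ i ∈ t, ∑ j ∈ t.erase i, Y i ^ 2 * Y j
    set K := ∑ i ∈ t, Y i ^ 3
    have hB : (0:ℝ) ≤ B := Nat.cast_nonneg B
    have e1 : 3 * Y a * S ^ 2 ≤ 3 * Y a * (B * Q) :=
      mul_le_mul_of_nonneg_left h2 (by positivity)
    have e2 : 0 ≤ 3 * (B:ℝ) * (Y a ^ 2 * S) := by positivity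
    have e3 : 0 ≤ 3 * (Q * Y a) := by positivity
    nlinarith [ih', e1, e2, e3]

/-- `(x_i + D_i)² (x_j + D_j) ≤ x_i² x_j + 54 (D_i + D_j)` for numbers in `[0, 3]`; sum over pairs -/
theorem cross_le (B : ℕ) {ι : Type u} [DecidableEq ι] (s : Finset ι) (x D : ι → ℝ) (hs : s.card ≤ B)
    (hx : ∀ i ∈ s, 0 ≤ x i ∧ x i ≤ 3) (hD : ∀ i ∈ s, 0 ≤ D i ∧ D i ≤ 3) (α : ℝ) (h0 : 0 ≤ α)
    (h1 : α ≤ 1) :
    ∑ i ∈ s, ∑ j ∈ s.erase i, (x i + α * D i) ^ 2 * (x j + α * D j) ≤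
      ∑ i ∈ s, ∑ j ∈ s.erase i, x i ^ 2 * x j + 108 * B * ∑ i ∈ s, D i := by
  have key : ∀ i ∈ s, ∀ j ∈ s, (x i + α * D i) ^ 2 * (x j + α * D j) ≤
      x i ^ 2 * x j + 54 * (D i + D j) := by
    intro i hi j hj
    obtain ⟨a1, a2⟩ := hx i hi
    obtain ⟨b1, b2⟩ := hx j hj
    obtain ⟨c1, c2⟩ := hD i hi
    obtain ⟨d1, d2⟩ := hD j hj
    have e1 : 0 ≤ α * D i := mul_nonneg h0 c1
    have e2 : α * D i ≤ D i := by nlinarith
    have f1 : 0 ≤ α * D j := mul_nonneg h0 d1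
    have f2 : α * D j ≤ D j := by nlinarith
    generalize α * D i = u at *
    generalize α * D j = v at *
    have u3 : u ≤ 3 := by linarith
    have v3 : v ≤ 3 := by linarith
    have g1 : (x i + u) ^ 2 * (x j + v) = x i ^ 2 * x j + x i ^ 2 * v + (2 * x i + u) * (x j + v) * u := by
      ring
    have g2 : x i ^ 2 * v ≤ 9 * v := by
      apply mul_le_mul_of_nonneg_right _ f1
      nlinarith
    have g3 : (2 * x i + u) * (x j + v) ≤ 54 := by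
      have : (2 * x i + u) * (x j + v) ≤ 9 * 6 := by
        apply mul_le_mul <;> linarith
      linarith
    have g4 : (2 * x i + u) * (x j + v) * u ≤ 54 * u := mul_le_mul_of_nonneg_right g3 e1
    rw [g1]
    linarith
  have hBs : (s.card : ℝ) ≤ B := by exact_mod_cast hs
  have hDs : 0 ≤ ∑ i ∈ s, D i := Finset.sum_nonneg fun i hi => (hD i hi).1
  have h2 : ∑ i ∈ s, ∑ j ∈ s.erase i, (x i + α * D i) ^ 2 * (x j + α * D j) ≤
      ∑ i ∈ s, ∑ j ∈ s.erase i, (x i ^ 2 * x j + 54 * (D i + D j)) :=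
    Finset.sum_le_sum fun i hi => Finset.sum_le_sum fun j hj =>
      key i hi j (Finset.mem_of_mem_erase hj)
  have h3 : ∑ i ∈ s, ∑ j ∈ s.erase i, 54 * (D i + D j) ≤ ∑ i ∈ s, ∑ j ∈ s, 54 * (D i + D j) :=
    Finset.sum_le_sum fun i hi => Finset.sum_le_sum_of_subset_of_nonneg (Finset.erase_subset i s)
      fun j hj _ => by have := (hD i hi).1; have := (hD j hj).1; positivity
  have h4 : ∑ i ∈ s, ∑ j ∈ s, 54 * (D i + D j) = 108 * (s.card : ℝ) * ∑ i ∈ s, D i := by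
    simp_rw [← Finset.mul_sum, Finset.sum_add_distrib, Finset.sum_const, nsmul_eq_mul]
    rw [← Finset.mul_sum]
    ring
  have h5 : 108 * (s.card : ℝ) * ∑ i ∈ s, D i ≤ 108 * B * ∑ i ∈ s, D i :=
    mul_le_mul_of_nonneg_right (by linarith) hDs
  have h6 : ∑ i ∈ s, ∑ j ∈ s.erase i, (x i ^ 2 * x j + 54 * (D i + D j)) =
      ∑ i ∈ s, ∑ j ∈ s.erase i, x i ^ 2 * x j + ∑ i ∈ s, ∑ j ∈ s.erase i, 54 * (D i + D j) := by
    simp_rw [Finset.sum_add_distrib]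
  linarith

end Crest.Agent.R163.Tr
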